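import Vale.Agent.P046LF.FInf
import Vale.Agent.P046.Hyper

/-!
P046 sharp constant, module B0 (BDef): the mean field system.

`H` = linear 3-uniform hypergraph on `M`, `m = card M`, `D = q ^ 40`. `p x s` = probability that `x` is
alive at time `s ∈ [0, s1]`, `π T s` = probability that the three points of `T` are alive at time `s` in
the process where `T` itself is deleted. `p x' = - ∑_{T ∋ x} π T`,
`π T' = - π T ∑_{x ∈ T} (r x - π T) / p x - e T` (`e` = small closure error), `r x = ∑_{T ∋ x} π T`.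
Reference degree `Dd s = D / (1 + 2 D s)`, relative degree `th x = r x / (p x * Dd)`,
`G ^ 2 = 1 + 2 D s`. `N` = frozen noise. All inequalities below are for `0 ≤ s ≤ s1`.
-/

namespace Vale.Agent.P046S

open Finset Vale.Agent.P046 Vale.Agent.P046LF

variable {V : Type} [DecidableEq V]

/-- `1 + 2 D s` -/
noncomputable def G2 (q s : ℝ) : ℝ := 1 + 2 * q ^ 40 * s

/-- reference degree -/
noncomputable def Dd (q s : ℝ) : ℝ := q ^ 40 / G2 q s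

noncomputable def rr (H : Finset (Finset V)) (π : Finset V → ℝ → ℝ) (x : V) (s : ℝ) : ℝ :=
  ∑ T ∈ H with x ∈ T, π T s

noncomputable def th (H : Finset (Finset V)) (q : ℝ) (p : V → ℝ → ℝ) (π : Finset V → ℝ → ℝ) (x : V)
    (s : ℝ) : ℝ := rr H π x s / (p x s * Dd q s)

/-- heavy tail function -/
noncomputable def t8 (θ : ℝ) : ℝ := (max (θ - 8) 0) ^ 8

/-- excess function -/
noncomputable def ph (z : ℝ) : ℝ := (max (Real.exp z - 1) 0) ^ 2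

noncomputable def ze (q : ℝ) (p : V → ℝ → ℝ) (x : V) (s : ℝ) : ℝ :=
  Real.log (p x s) + Real.log (G2 q s) / 2

/-- normalized sum of the noise over the neighbours -/
noncomputable def sg (H : Finset (Finset V)) (N : V → ℝ) (q : ℝ) (p : V → ℝ → ℝ)
    (π : Finset V → ℝ → ℝ) (x : V) (s : ℝ) : ℝ :=
  (∑ T ∈ H with x ∈ T, π T s * ∑ y ∈ T.erase x, N y) / (p x s * Dd q s)

noncomputable def WB (H : Finset (Finset V)) (M : Finset V) (N : V → ℝ) (q : ℝ) (p : V → ℝ → ℝ)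
    (π : Finset V → ℝ → ℝ) (s : ℝ) : ℝ := ∑ x ∈ M, p x s * ff (th H q p π x s - N x)

noncomputable def TB (H : Finset (Finset V)) (M : Finset V) (q : ℝ) (p : V → ℝ → ℝ)
    (π : Finset V → ℝ → ℝ) (s : ℝ) : ℝ := ∑ x ∈ M, p x s * t8 (th H q p π x s)

noncomputable def TP (H : Finset (Finset V)) (M : Finset V) (q : ℝ) (p : V → ℝ → ℝ)
    (π : Finset V → ℝ → ℝ) (s : ℝ) : ℝ :=
  ∑ x ∈ M, p x s * (th H q p π x s * t8 (th H q p π x s))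

noncomputable def EB (M : Finset V) (q : ℝ) (p : V → ℝ → ℝ) (s : ℝ) : ℝ :=
  ∑ x ∈ M, p x s * ph (ze q p x s)

noncomputable def ZB (H : Finset (Finset V)) (M : Finset V) (N : V → ℝ) (q : ℝ) (p : V → ℝ → ℝ)
    (π : Finset V → ℝ → ℝ) (s : ℝ) : ℝ := ∑ x ∈ M, p x s * sg H N q p π x s ^ 2

/-- self interaction term -/
noncomputable def rho (H : Finset (Finset V)) (p : V → ℝ → ℝ) (π : Finset V → ℝ → ℝ) (x : V)
    (s : ℝ) : ℝ := ∑ T ∈ H with x ∈ T, π T s ^ 2 * ∑ y ∈ T, 1 / p y s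

/-- closure error at a point -/
noncomputable def er (H : Finset (Finset V)) (e : Finset V → ℝ → ℝ) (x : V) (s : ℝ) : ℝ :=
  ∑ T ∈ H with x ∈ T, e T s

structure BD (H : Finset (Finset V)) (M : Finset V) (N : V → ℝ) (q s1 C1 C2 Θ : ℝ)
    (p : V → ℝ → ℝ) (π e : Finset V → ℝ → ℝ) (X : Finset (Finset V)) : Prop where
  lin : IsLin3 H
  hsub : ∀ T ∈ H, T ⊆ M
  hq : 1 ≤ q
  hC1 : 1 ≤ C1
  hC2 : 1 ≤ C2
  hΘ : q ^ 40 ≤ Θ
  hs0 : 0 ≤ s1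
  hs1 : s1 ≤ 1
  hN : ∀ x ∈ M, |N x| ≤ 1 / 4
  hN8 : ∑ x ∈ M, N x ^ 8 ≤ M.card / q ^ 156
  p0 : ∀ x ∈ M, p x 0 = 1
  π0 : ∀ T ∈ H, π T 0 = 1
  pd : ∀ x ∈ M, ∀ s, 0 ≤ s → s ≤ s1 → HasDerivAt (p x) (-rr H π x s) s
  πd : ∀ T ∈ H, ∀ s, 0 ≤ s → s ≤ s1 → HasDerivAt (π T)
    (-(π T s * ∑ x ∈ T, (rr H π x s - π T s) / p x s) - e T s) s
  ppos : ∀ x ∈ M, ∀ s, 0 ≤ s → s ≤ s1 → 0 < p x s
  ple : ∀ x ∈ M, ∀ s, 0 ≤ s → s ≤ s1 → p x s ≤ 1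
  πpos : ∀ T ∈ H, ∀ s, 0 ≤ s → s ≤ s1 → 0 ≤ π T s
  πp : ∀ T ∈ H, ∀ x ∈ T, ∀ s, 0 ≤ s → s ≤ s1 → π T s ≤ C2 * p x s
  hX : X ⊆ H
  πppp : ∀ T ∈ H, T ∉ X → ∀ s, 0 ≤ s → s ≤ s1 → π T s ≤ C1 * ∏ y ∈ T, p y s
  hθ : ∀ x ∈ M, ∀ s, 0 ≤ s → s ≤ s1 → th H q p π x s ≤ Θ
  small : ∀ s, 0 ≤ s → s ≤ s1 → ((X.card : ℝ) + ∑ T ∈ H, |e T s|) * Θ ^ 20 ≤ M.card

end Vale.Agent.P046S
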