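import Vale.Agent.P046S.Bethe

/-!
P046 sharp constant, module B2e (BE: EB_main): differential inequalities for the heavy tail `TB` and for the
excess `EB`.

`TB`: `TB' = ∑ (- r t8(θ) + t8'(θ) p θ')`, `p θ' ≤ 2 r + (rho + |er|)/Dd` (`θ_y ≥ 0`), `rho ≤ 3 C2 r`
(`self_le'`), `1/Dd = G²/D ≤ 3`, `r = Dd p θ`. So
`TB'/Dd ≤ - TP + (2 + 9 C2) ∑ p θ t8'(θ) + negl.` With `y = θ - 8 ≥ 0`: `(2+9C2) 8 θ y^7 ≤ θ y^8 / 2` if
`y ≥ y0 = 16 (2 + 9 C2)`, otherwise it is `≤ C y² ≤ C f(ψ)` (`(ψ - 1)² ≤ f ψ`, `ψ ≥ θ - 1/4`). (negl.: `θ ≤ Θ`,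
`small'`.)

`EB`: `EB' = Dd ∑ p (- θ ph + ph' (1 - θ)) = Dd (- EB + ∑ p (1 - θ)(ph + ph'))` (`ze_deriv`), where
`ph' = 2 √ph (√ph + 1)`, `ph + ph' = 3 ph + 2 √ph`. If `1 - θ ≤ 1/12`:
`(1-θ)(3 ph + 2√ph) ≤ ph/2 + 4 (1-θ)²`. If `1 - θ > 1/12`: `≤ 4 ph + 1 ≤ 5 G² ≤ 720 G² (1-θ)²`. Use `sum_xi`.
-/

namespace Vale.Agent.P046S

open Finset Vale.Agent.P046 Vale.Agent.P046LF

theorem BE_pt {z θ g : ℝ} (hθ : 0 ≤ θ) (hg : 1 ≤ g) (hz : ph z ≤ g) :
    -(θ * ph z) + 2 * max (Real.exp z - 1) 0 * Real.exp z * (1 - θ) ≤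
      -(1 / 2 * ph z) + 720 * g * (θ - 1) ^ 2 := by
  obtain ⟨w, hw⟩ : ∃ w, w = max (Real.exp z - 1) 0 := ⟨_, rfl⟩
  have hw0 : 0 ≤ w := by rw [hw]; exact le_max_right _ _
  have hph : ph z = w ^ 2 := by rw [hw]; rfl
  have he : w * Real.exp z = w * (1 + w) := by
    rcases le_total (Real.exp z - 1) 0 with h | h
    · have : w = 0 := by rw [hw, max_eq_right h]
      rw [this]; ring
    · have : w = Real.exp z - 1 := by rw [hw, max_eq_left h]
      rw [this]; ring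
  have e2 : 2 * w * Real.exp z * (1 - θ) = 2 * (w * (1 + w)) * (1 - θ) := by
    rw [← he]; ring
  rw [← hw, e2, hph]
  rw [hph] at hz
  have key : (1 - θ) * (3 * w ^ 2 + 2 * w) ≤ 1 / 2 * w ^ 2 + 720 * g * (θ - 1) ^ 2 := by
    have hgs : (θ - 1) ^ 2 ≤ g * (θ - 1) ^ 2 := by nlinarith [sq_nonneg (θ - 1)]
    rcases le_total (1 - θ) (1 / 12) with h | h
    · rcases le_total (1 - θ) 0 with h' | h'
      · have h1 : (1 - θ) * (3 * w ^ 2 + 2 * w) ≤ 0 :=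
          mul_nonpos_of_nonpos_of_nonneg h' (by positivity)
        have h2 : 0 ≤ 1 / 2 * w ^ 2 + 720 * g * (θ - 1) ^ 2 := by positivity
        linarith
      · have h1 : (1 - θ) * (3 * w ^ 2) ≤ 1 / 12 * (3 * w ^ 2) :=
          mul_le_mul_of_nonneg_right h (by positivity)
        nlinarith [sq_nonneg (w / 2 - 2 * (1 - θ)), sq_nonneg (θ - 1)]
    · have h1 : (1 - θ) * (3 * w ^ 2 + 2 * w) ≤ 1 * (3 * w ^ 2 + 2 * w) :=
        mul_le_mul_of_nonneg_right (by linarith) (by positivity)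
      have h3 : 1 / 144 ≤ (θ - 1) ^ 2 := by nlinarith
      have h4 : g * (1 / 144) ≤ g * (θ - 1) ^ 2 := mul_le_mul_of_nonneg_left h3 (by linarith)
      nlinarith [sq_nonneg (w - 1)]
  nlinarith

theorem EB_main (C1 C2 : ℝ) (h1 : 1 ≤ C1) (h2 : 1 ≤ C2) : ∃ C : ℝ, 1 ≤ C ∧
    ∀ (V : Type) [DecidableEq V] (H : Finset (Finset V)) (M : Finset V) (N : V → ℝ)
      (q s1 Θ : ℝ) (p : V → ℝ → ℝ) (π e : Finset V → ℝ → ℝ) (X : Finset (Finset V)),
      BD H M N q s1 C1 C2 Θ p π e X → ∀ s, 0 ≤ s → s ≤ s1 →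
      ∃ d, HasDerivAt (EB M q p) d s ∧
      d ≤ Dd q s * (-(1 / 2 * EB M q p s) +
        C * (G2 q s * (WB H M N q p π s + M.card / q ^ 39))) := by
  refine ⟨2880, by norm_num, ?_⟩
  intro V _ H M N q s1 Θ p π e X b s hs0 hs1
  refine ⟨∑ x ∈ M, (-rr H π x s * ph (ze q p x s) + p x s *
      (2 * max (Real.exp (ze q p x s) - 1) 0 * Real.exp (ze q p x s) *
        (Dd q s * (1 - th H q p π x s)))), ?_, ?_⟩
  · unfold EB
    refine HasDerivAt.fun_sum ?_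
    intro x hx
    exact (b.pd x hx s hs0 hs1).mul ((ph_deriv _).comp s (b.ze_deriv hx hs0 hs1))
  · have hD := b.Dd_pos hs0
    have hG := b.G2_pos hs0
    have e1 : ∑ x ∈ M, (-rr H π x s * ph (ze q p x s) + p x s *
      (2 * max (Real.exp (ze q p x s) - 1) 0 * Real.exp (ze q p x s) *
        (Dd q s * (1 - th H q p π x s)))) =
        Dd q s * ∑ x ∈ M, p x s * (-(th H q p π x s * ph (ze q p x s)) +
          2 * max (Real.exp (ze q p x s) - 1) 0 * Real.exp (ze q p x s) *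
            (1 - th H q p π x s)) := by
      rw [Finset.mul_sum]
      refine Finset.sum_congr rfl ?_
      intro x hx
      rw [b.rr_eq hx hs0 hs1]; ring
    rw [e1]
    refine mul_le_mul_of_nonneg_left ?_ hD.le
    have h3 : ∑ x ∈ M, p x s * (-(th H q p π x s * ph (ze q p x s)) +
          2 * max (Real.exp (ze q p x s) - 1) 0 * Real.exp (ze q p x s) *
            (1 - th H q p π x s)) ≤
        ∑ x ∈ M, p x s * (-(1 / 2 * ph (ze q p x s)) +
          720 * G2 q s * (th H q p π x s - 1) ^ 2) := by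
      refine Finset.sum_le_sum ?_
      intro x hx
      exact mul_le_mul_of_nonneg_left (BE_pt (b.th_nonneg hx hs0 hs1) hG
        (b.ph_le hx hs0 hs1)) (b.ppos x hx s hs0 hs1).le
    have h4 : ∑ x ∈ M, p x s * (-(1 / 2 * ph (ze q p x s)) +
          720 * G2 q s * (th H q p π x s - 1) ^ 2) =
        -(1 / 2 * EB M q p s) + 720 * G2 q s *
          ∑ x ∈ M, p x s * (th H q p π x s - 1) ^ 2 := by
      unfold EB
      rw [Finset.mul_sum, Finset.mul_sum, ← Finset.sum_neg_distrib, ← Finset.sum_add_distrib]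
      refine Finset.sum_congr rfl ?_
      intro x hx
      ring
    have h5 := b.sum_xi hs0 hs1
    have h6 : 720 * G2 q s * ∑ x ∈ M, p x s * (th H q p π x s - 1) ^ 2 ≤
        720 * G2 q s * (4 * WB H M N q p π s + 2 * (M.card / q ^ 39)) :=
      mul_le_mul_of_nonneg_left h5 (by linarith)
    have h7 : 0 ≤ G2 q s * ((M.card : ℝ) / q ^ 39) := by
      have : 0 ≤ q := by linarith [b.hq]
      have : 0 ≤ G2 q s := by linarith
      positivity
    nlinarith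

end Vale.Agent.P046S
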