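import Vale.Agent.P046S.Bethe

/-!
P046 sharp constant, module B2 (BT): differential inequalities for the heavy tail `TB` and for the
excess `EB`.

`TB`: `TB' = ∑ (- r t8(θ) + t8'(θ) p θ')`, `p θ' ≤ 2 r + (rho + |er|)/Dd` (`θ_y ≥ 0`), `rho ≤ 3 C2 r`
(`self_le'`), `1/Dd = G²/D ≤ 3`, `r = Dd p θ`. So
`TB'/Dd ≤ - TP + (2 + 9 C2) ∑ p θ t8'(θ) + negl.` With `y = θ - 8 ≥ 0`: `(2+9C2) 8 θ y^7 ≤ θ y^8 / 2` if
`y ≥ y0 = 16 (2 + 9 C2)`, otherwise it is `≤ C y² ≤ C f(ψ)` (`(ψ - 1)² ≤ f ψ`, `ψ ≥ θ - 1/4`). (negl.: `θ ≤ Θ`,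
`small'`.)

`EB`: `EB' = Dd ∑ p (- θ ph + ph' (1 - θ)) = Dd (- EB + ∑ p (1 - θ)(ph + ph'))` (`ze_deriv`), where
`ph' = 2 √ph (√ph + 1)`, `ph + ph' = 3 ph + 2 √ph`. If `1 - θ ≤ 1/12`:
`(1-θ)(3 ph + 2√ph) ≤ ph/2 + 4 (1-θ)²`. If `1 - θ > 1/12`: `≤ 4 ph + 1 ≤ 5 G² ≤ 720 G² (1-θ)²`. Use `sum_xi`.
-/

namespace Vale.Agent.P046S

open Finset Vale.Agent.P046 Vale.Agent.P046LF

/-- the pointwise inequality for the heavy tail -/
theorem BT_pt {K θ n : ℝ} (hK : 0 ≤ K) (hθ : 0 ≤ θ) (hn : |n| ≤ 1 / 4) :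
    -(θ * t8 θ) + K * (θ * (8 * (max (θ - 8) 0) ^ 7)) ≤
      -(1 / 2 * (θ * t8 θ)) + (8 * K * (16 * K + 8) * (16 * K) ^ 5) * ff (θ - n) := by
  have hn2 := abs_le.1 hn
  have hff := ff_nonneg (θ - n)
  obtain ⟨y, hy⟩ : ∃ y, y = max (θ - 8) 0 := ⟨_, rfl⟩
  have hy0 : 0 ≤ y := by rw [hy]; exact le_max_right _ _
  have ht8 : t8 θ = y ^ 8 := by rw [hy]; rfl
  rw [← hy, ht8]
  have hc : 0 ≤ 8 * K * (16 * K + 8) * (16 * K) ^ 5 := by positivity
  rcases le_total (16 * K) y with h | h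
  · have h3 : 16 * K * (θ * y ^ 7) ≤ y * (θ * y ^ 7) :=
      mul_le_mul_of_nonneg_right h (by positivity)
    have h4 : 0 ≤ (8 * K * (16 * K + 8) * (16 * K) ^ 5) * ff (θ - n) := mul_nonneg hc hff
    nlinarith
  · rcases le_total (θ - 8) 0 with h8 | h8
    · have hy1 : y = 0 := by rw [hy, max_eq_right h8]
      rw [hy1]
      have h4 : 0 ≤ (8 * K * (16 * K + 8) * (16 * K) ^ 5) * ff (θ - n) := mul_nonneg hc hff
      simp only [ne_eq, OfNat.ofNat_ne_zero, not_false_eq_true, zero_pow, mul_zero, neg_zero,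
        zero_add]
      exact h4
    · have hy1 : y = θ - 8 := by rw [hy, max_eq_left h8]
      have hth : θ = y + 8 := by linarith
      have h5 : y ^ 2 ≤ ff (θ - n) := by
        have := sq_le_ff' (x := θ - n) (by linarith)
        have h6 : y ^ 2 ≤ (θ - n - 1) ^ 2 := pow_le_pow_left₀ hy0 (by linarith) 2
        linarith
      have h7 : K * (θ * (8 * y ^ 7)) ≤ (8 * K * (16 * K + 8) * (16 * K) ^ 5) * y ^ 2 := by
        have h8 : K * (θ * (8 * y ^ 7)) = 8 * K * (y + 8) * y ^ 5 * y ^ 2 := by rw [hth]; ring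
        rw [h8]
        refine mul_le_mul_of_nonneg_right ?_ (sq_nonneg y)
        have h9 : y ^ 5 ≤ (16 * K) ^ 5 := pow_le_pow_left₀ hy0 h 5
        have h10 : 8 * K * (y + 8) ≤ 8 * K * (16 * K + 8) :=
          mul_le_mul_of_nonneg_left (by linarith) (by linarith)
        exact mul_le_mul h10 h9 (by positivity) (by positivity)
      have h11 : (8 * K * (16 * K + 8) * (16 * K) ^ 5) * y ^ 2 ≤
          (8 * K * (16 * K + 8) * (16 * K) ^ 5) * ff (θ - n) :=
        mul_le_mul_of_nonneg_left h5 hc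
      have h12 : 0 ≤ θ * y ^ 8 := by positivity
      linarith

theorem BT_main (C1 C2 : ℝ) (h1 : 1 ≤ C1) (h2 : 1 ≤ C2) : ∃ C : ℝ, 1 ≤ C ∧
    ∀ (V : Type) [DecidableEq V] (H : Finset (Finset V)) (M : Finset V) (N : V → ℝ)
      (q s1 Θ : ℝ) (p : V → ℝ → ℝ) (π e : Finset V → ℝ → ℝ) (X : Finset (Finset V)),
      BD H M N q s1 C1 C2 Θ p π e X → ∀ s, 0 ≤ s → s ≤ s1 →
      ∃ d, HasDerivAt (TB H M q p π) d s ∧
      d ≤ Dd q s * (-(1 / 2 * TP H M q p π s) + C * WB H M N q p π s +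
        C * (M.card / q ^ 100)) := by
  obtain ⟨K, hK⟩ : ∃ K, K = 2 + 9 * C2 := ⟨_, rfl⟩
  have hK0 : 0 ≤ K := by linarith
  obtain ⟨C, hC⟩ : ∃ C, C = 8 * K * (16 * K + 8) * (16 * K) ^ 5 := ⟨_, rfl⟩
  have hC0 : 0 ≤ C := by rw [hC]; positivity
  refine ⟨C + 216, by linarith, ?_⟩
  intro V _ H M N q s1 Θ p π e X b s hs0 hs1
  have hD := b.Dd_pos hs0
  have hG := b.G2_pos hs0
  have hq : 0 < q := by linarith [b.hq]
  have hΘq : 1 ≤ Θ := le_trans (one_le_pow₀ b.hq) b.hΘ
  -- derivative of θ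
  have hth : ∀ x : V, ∃ d : ℝ, x ∈ M → (HasDerivAt (th H q p π x) d s ∧
      p x s * d = -(∑ T ∈ H with x ∈ T, π T s * ∑ y ∈ T.erase x, (th H q p π y s - 1)) +
        (rho H p π x s - er H e x s) / Dd q s) := by
    intro x
    by_cases hx : x ∈ M
    · obtain ⟨d, hd⟩ := b.th_deriv hx hs0 hs1
      exact ⟨d, fun _ => hd⟩
    · exact ⟨0, fun h => absurd h hx⟩
  choose dθ hdθ using hth
  refine ⟨∑ x ∈ M, (-rr H π x s * t8 (th H q p π x s) + p x s *
      (8 * (max (th H q p π x s - 8) 0) ^ 7 * dθ x)), ?_, ?_⟩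
  · unfold TB
    refine HasDerivAt.fun_sum ?_
    intro x hx
    exact (b.pd x hx s hs0 hs1).mul ((t8_deriv _).comp s (hdθ x hx).1)
  · -- 1 / Dd ≤ 3
    have hDinv : 1 / Dd q s ≤ 3 := by
      have h3 := b.G2_le hs0 hs1
      have : 1 / Dd q s = G2 q s / q ^ 40 := by unfold Dd; rw [one_div_div]
      rw [this, div_le_iff₀ (by positivity)]
      exact h3
    have hDinv0 : 0 ≤ 1 / Dd q s := by positivity
    -- bound for p θ'
    have hpd : ∀ x ∈ M, p x s * dθ x ≤ K * rr H π x s + 3 * |er H e x s| := by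
      intro x hx
      rw [(hdθ x hx).2]
      have hA : -(∑ T ∈ H with x ∈ T, π T s * ∑ y ∈ T.erase x, (th H q p π y s - 1)) ≤
          2 * rr H π x s := by
        unfold rr
        rw [Finset.mul_sum, ← Finset.sum_neg_distrib]
        refine Finset.sum_le_sum ?_
        intro T hT
        rw [Finset.mem_filter] at hT
        have hπ := b.πpos T hT.1 s hs0 hs1
        have hsum : -2 ≤ ∑ y ∈ T.erase x, (th H q p π y s - 1) := by
          have hcard : (T.erase x).card = 2 := by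
            rw [Finset.card_erase_of_mem hT.2, b.lin.card3 T hT.1]
          have : ∑ y ∈ T.erase x, (-1 : ℝ) ≤ ∑ y ∈ T.erase x, (th H q p π y s - 1) := by
            refine Finset.sum_le_sum ?_
            intro y hy
            have := b.th_nonneg (b.hsub T hT.1 (Finset.mem_of_mem_erase hy)) hs0 hs1
            linarith
          rw [Finset.sum_const, hcard] at this
          simpa using this
        nlinarith
      have hB : (rho H p π x s - er H e x s) / Dd q s ≤
          9 * C2 * rr H π x s + 3 * |er H e x s| := by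
        have hrho : rho H p π x s ≤ 3 * C2 * rr H π x s := by
          unfold rho rr
          rw [Finset.mul_sum]
          refine Finset.sum_le_sum ?_
          intro T hT
          rw [Finset.mem_filter] at hT
          exact b.self_le' hT.1 hs0 hs1
        have hrr := b.rr_nonneg x hs0 hs1
        have h3 : rho H p π x s - er H e x s ≤ 3 * C2 * rr H π x s + |er H e x s| := by
          have := neg_abs_le (er H e x s)
          linarith
        have h4 : (rho H p π x s - er H e x s) / Dd q s ≤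
            (3 * C2 * rr H π x s + |er H e x s|) * (1 / Dd q s) := by
          rw [mul_one_div]
          exact div_le_div_of_nonneg_right h3 hD.le
        have h5 : (3 * C2 * rr H π x s + |er H e x s|) * (1 / Dd q s) ≤
            (3 * C2 * rr H π x s + |er H e x s|) * 3 :=
          mul_le_mul_of_nonneg_left hDinv (by positivity)
        nlinarith
      rw [hK]
      linarith
    -- sum of |er|
    have her : ∑ x ∈ M, |er H e x s| ≤ 3 * ∑ T ∈ H, |e T s| := by
      have hA : ∑ x ∈ M, |er H e x s| ≤ ∑ x ∈ M, ∑ T ∈ H with x ∈ T, |e T s| := by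
        refine Finset.sum_le_sum ?_
        intro x hx
        exact Finset.abs_sum_le_sum_abs _ _
      have hB : ∑ x ∈ M, ∑ T ∈ H with x ∈ T, |e T s| = ∑ T ∈ H, ∑ x ∈ T, |e T s| := by
        simp_rw [Finset.sum_filter]
        rw [Finset.sum_comm]
        refine Finset.sum_congr rfl ?_
        intro T hT
        rw [← Finset.sum_filter]
        refine Finset.sum_congr ?_ (fun _ _ => rfl)
        ext x
        simp only [Finset.mem_filter]
        exact ⟨fun h => h.2, fun h => ⟨b.hsub T hT h, h⟩⟩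
      rw [hB] at hA
      refine le_trans hA ?_
      rw [Finset.mul_sum]
      refine Finset.sum_le_sum ?_
      intro T hT
      rw [Finset.sum_const, b.lin.card3 T hT]
      simp
    have hsm : Θ ^ 7 * ∑ T ∈ H, |e T s| ≤ M.card / q ^ 100 := by
      have h3 := b.small s hs0 hs1
      have h4 : 0 ≤ ∑ T ∈ H, |e T s| := Finset.sum_nonneg fun _ _ => abs_nonneg _
      have h5 : (∑ T ∈ H, |e T s|) * Θ ^ 20 ≤ M.card := by
        have : 0 ≤ (X.card : ℝ) * Θ ^ 20 := by positivity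
        nlinarith
      rw [le_div_iff₀ (by positivity)]
      have h6 : q ^ 100 ≤ Θ ^ 13 := by
        calc q ^ 100 ≤ q ^ 520 := pow_le_pow_right₀ b.hq (by norm_num)
          _ = (q ^ 40) ^ 13 := by rw [← pow_mul]
          _ ≤ Θ ^ 13 := pow_le_pow_left₀ (by positivity) b.hΘ 13
      have h7 : Θ ^ 7 * (∑ T ∈ H, |e T s|) * q ^ 100 ≤
          Θ ^ 7 * (∑ T ∈ H, |e T s|) * Θ ^ 13 :=
        mul_le_mul_of_nonneg_left h6 (by positivity)
      calc Θ ^ 7 * (∑ T ∈ H, |e T s|) * q ^ 100 ≤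
          Θ ^ 7 * (∑ T ∈ H, |e T s|) * Θ ^ 13 := h7
        _ = (∑ T ∈ H, |e T s|) * Θ ^ 20 := by ring
        _ ≤ M.card := h5
    -- pointwise estimate
    have hpt : ∀ x ∈ M, -rr H π x s * t8 (th H q p π x s) + p x s *
        (8 * (max (th H q p π x s - 8) 0) ^ 7 * dθ x) ≤
        Dd q s * (p x s * (-(1 / 2 * (th H q p π x s * t8 (th H q p π x s))) +
          C * ff (th H q p π x s - N x))) + 24 * Θ ^ 7 * |er H e x s| := by
      intro x hx
      have hθ0 := b.th_nonneg hx hs0 hs1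
      have hp := b.ppos x hx s hs0 hs1
      have hm0 : 0 ≤ (max (th H q p π x s - 8) 0) ^ 7 := by
        have := le_max_right (th H q p π x s - 8) 0
        positivity
      have hmΘ : (max (th H q p π x s - 8) 0) ^ 7 ≤ Θ ^ 7 := by
        refine pow_le_pow_left₀ (le_max_right _ _) ?_ 7
        refine max_le ?_ (by linarith)
        have := b.hθ x hx s hs0 hs1
        linarith
      have h3 : p x s * (8 * (max (th H q p π x s - 8) 0) ^ 7 * dθ x) ≤
          8 * (max (th H q p π x s - 8) 0) ^ 7 * (K * rr H π x s + 3 * |er H e x s|) := by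
        have := mul_le_mul_of_nonneg_left (hpd x hx)
          (by positivity : 0 ≤ 8 * (max (th H q p π x s - 8) 0) ^ 7)
        calc p x s * (8 * (max (th H q p π x s - 8) 0) ^ 7 * dθ x) =
            8 * (max (th H q p π x s - 8) 0) ^ 7 * (p x s * dθ x) := by ring
          _ ≤ _ := this
      have h4 : (max (th H q p π x s - 8) 0) ^ 7 * |er H e x s| ≤ Θ ^ 7 * |er H e x s| :=
        mul_le_mul_of_nonneg_right hmΘ (abs_nonneg _)
      have h5 := BT_pt (K := K) hK0 hθ0 (b.hN x hx)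
      rw [← hC] at h5
      have h6 := mul_le_mul_of_nonneg_left h5 (by positivity : 0 ≤ Dd q s * p x s)
      have h7 := b.rr_eq hx hs0 hs1
      rw [h7] at h3 ⊢
      nlinarith
    refine le_trans (Finset.sum_le_sum hpt) ?_
    rw [Finset.sum_add_distrib, ← Finset.mul_sum, ← Finset.mul_sum]
    have h8 : ∑ x ∈ M, p x s * (-(1 / 2 * (th H q p π x s * t8 (th H q p π x s))) +
          C * ff (th H q p π x s - N x)) =
        -(1 / 2 * TP H M q p π s) + C * WB H M N q p π s := by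
      unfold TP WB
      rw [Finset.mul_sum, Finset.mul_sum, ← Finset.sum_neg_distrib, ← Finset.sum_add_distrib]
      refine Finset.sum_congr rfl ?_
      intro x hx
      ring
    rw [h8]
    have hW : 0 ≤ WB H M N q p π s := by
      unfold WB
      refine Finset.sum_nonneg ?_
      intro x hx
      exact mul_nonneg (b.ppos x hx s hs0 hs1).le (ff_nonneg _)
    have h9 : 24 * Θ ^ 7 * ∑ x ∈ M, |er H e x s| ≤ 72 * (M.card / q ^ 100) := by
      have h10 : 24 * Θ ^ 7 * ∑ x ∈ M, |er H e x s| ≤ 24 * Θ ^ 7 * (3 * ∑ T ∈ H, |e T s|) :=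
        mul_le_mul_of_nonneg_left her (by positivity)
      nlinarith
    have hm : (0 : ℝ) ≤ M.card / q ^ 100 := by positivity
    have h10 : 72 * ((M.card : ℝ) / q ^ 100) ≤ Dd q s * (216 * (M.card / q ^ 100)) := by
      have h11 : 1 ≤ 3 * Dd q s := by
        rw [div_le_iff₀ hD] at hDinv
        exact hDinv
      nlinarith
    have h12 : 0 ≤ Dd q s * (216 * WB H M N q p π s + C * (M.card / q ^ 100)) := by
      positivity
    nlinarith

end Vale.Agent.P046S
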