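import Vale.Agent.P046S.Bethe

/-!
P046 sharp constant, module B3g (BZg, only the gamma part): differential inequality for `ZB = ∑ p sg²`. `ξ = θ - 1`.

`ZB' = ∑ (- r sg² + 2 p sg sg')`, `p sg' = Dd p (- β + γ) + (negl.)` with
`p β = (1/Dd) ∑_{T∋x} π N(T\x) ξ(T\x)`, `p γ = (1/Dd²) ∑_{T∋x, T∉X} N(T\x) π² ∑ 1/p`; the terms with `e T` and
`T ∈ X` are negligible because `|sg| ≤ θ/2 ≤ Θ` (`small'`, `self_le'`, `1/Dd ≤ 3`).
So `ZB'/Dd ≤ 2 √ZB (‖β‖ + ‖γ‖) + negl. ≤ ZB + 2 ‖β‖² + 2 ‖γ‖² + negl.`, `‖β‖² = ∑ p β²`.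

`‖β‖²`: Cauchy-Schwarz: `p β² ≤ (θ_x/Dd) ∑_{T∋x} π (N(T\x) ξ(T\x))²`, so
`‖β‖² ≤ (4/Dd) ∑_T π ∑_{x,y,z∈T} θ_x N_y² ξ_z²`. Pointwise, with `I_y = 1{|N_y| > 1/q^7}`:
`θ_x N_y² ξ_z² ≤ C (q^{-14} (ξ_z² + t8_x + t8_z) + q^9 I_y)` (if `|N_y| ≤ 1/q^7`: `θ_x ξ_z² ≤ 9 ξ_z²` for `θ_x ≤ 9`,
else `≤ θ_x³ + |ξ_z|³`, `θ³ ≤ 729 t8` for `θ > 9`; if `|N_y| > 1/q^7` use `I t8^{3/8} ≤ q^{-14} t8 + q^9 I`).
Then `sum_pi`, `θ ξ² ≤ 9 ξ² + 729 t8`, `q^9 θ I ≤ C (q^{13} I + q^{-14} t8)`, `∑ p ξ² ≤ 4 WB + 2 m/q^39`,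
`∑ I ≤ m / q^100`, `8 TB ≤ TP`.

`‖γ‖²`: `|N(T\x)| ≤ 1/2`, `self_le`, Cauchy-Schwarz:
`∑_x (1/p_x) (∑_{T∋x} π g_T)² ≤ Dd ∑_T π (∑_{x∈T} θ_x) g_T²`, `g_T = (4 C1/G²) ∑_u (1 + ph_u)`,
`g_T² ≤ C G^{-4} (1 + G² ∑_u ph_u)` (`ph ≤ G²`), `θ_x ph_u ≤ 9 ph_u + 9 G² t8_x`. Result
`‖γ‖² ≤ (C/D²) (m + G² EB + G⁴ TP)`.
-/

namespace Vale.Agent.P046S

open Finset Vale.Agent.P046 Vale.Agent.P046LF

theorem bzg_ph_nonneg (z : ℝ) : 0 ≤ ph z := by unfold ph; positivity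

theorem bzg_t8_nonneg (z : ℝ) : 0 ≤ t8 z := by unfold t8; positivity

theorem bzg_le_t8 {θ : ℝ} (h : 9 ≤ θ) : θ ≤ 9 * t8 θ := by
  have e : t8 θ = (θ - 8) ^ 8 := by unfold t8; rw [max_eq_left (by linarith)]
  rw [e]
  have h1 : (1 : ℝ) ≤ θ - 8 := by linarith
  have h2 : θ - 8 ≤ (θ - 8) ^ 8 := le_self_pow₀ h1 (by norm_num)
  linarith

theorem bzg_mix {θ h G : ℝ} (h0 : 0 ≤ h) (h1 : h ≤ G) :
    θ * h ≤ 9 * h + 9 * (G * t8 θ) := by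
  have ht := bzg_t8_nonneg θ
  have hG : 0 ≤ G := h0.trans h1
  rcases le_total θ 9 with h2 | h2
  · have := mul_le_mul_of_nonneg_right h2 h0
    have : 0 ≤ 9 * (G * t8 θ) := by positivity
    linarith
  · have h3 := bzg_le_t8 h2
    have h4 : θ * h ≤ (9 * t8 θ) * G := mul_le_mul h3 h1 h0 (by positivity)
    linarith

theorem bzg_t8_le (θ : ℝ) : t8 θ ≤ θ * t8 θ := by
  have ht := bzg_t8_nonneg θ
  rcases le_total θ 8 with h | h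
  · have e : t8 θ = 0 := by unfold t8; rw [max_eq_right (by linarith)]; norm_num
    rw [e]; simp
  · nlinarith

theorem bzg_sq {θ : ℝ} (hθ : 0 ≤ θ) : θ ^ 2 ≤ 81 + 9 * (θ * t8 θ) := by
  have ht := bzg_t8_nonneg θ
  rcases le_total θ 9 with h | h
  · have : 0 ≤ θ * t8 θ := by positivity
    nlinarith
  · have h3 := bzg_le_t8 h
    have := mul_le_mul_of_nonneg_left h3 hθ
    nlinarith

section
variable {V : Type} [DecidableEq V]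

omit [DecidableEq V] in
/-- the three point inequality -/
theorem bzg_triple {T : Finset V} (hT : T.card = 3) {θ h : V → ℝ} {G : ℝ} (hG : 1 ≤ G)
    (hθ : ∀ x ∈ T, 0 ≤ θ x) (h0 : ∀ x ∈ T, 0 ≤ h x) (h1 : ∀ x ∈ T, h x ≤ G) :
    (∑ u ∈ T, (1 + h u)) ^ 2 * ∑ x ∈ T, θ x ≤
      ∑ x ∈ T, (18 * θ x + 162 * (G * h x) + 162 * (G ^ 2 * t8 (θ x))) := by
  have e1 : ∑ u ∈ T, (1 + h u) = 3 + ∑ u ∈ T, h u := by
    rw [sum_add_distrib, sum_const, hT]; norm_num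
  have hs : 0 ≤ ∑ u ∈ T, h u := sum_nonneg h0
  have hsθ : 0 ≤ ∑ u ∈ T, θ u := sum_nonneg hθ
  have e2 : (∑ u ∈ T, h u) ^ 2 ≤ 3 * ∑ u ∈ T, h u ^ 2 := by
    have := sq_sum_le_card_mul_sum_sq (s := T) (f := h)
    rw [hT] at this
    exact_mod_cast this
  have e3 : ∑ u ∈ T, h u ^ 2 ≤ G * ∑ u ∈ T, h u := by
    rw [mul_sum]
    refine sum_le_sum fun u hu => ?_
    have := h0 u hu
    have := h1 u hu
    nlinarith
  have e4 : (∑ u ∈ T, (1 + h u)) ^ 2 ≤ 6 * (3 + G * ∑ u ∈ T, h u) := by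
    rw [e1]
    nlinarith [sq_nonneg (3 - ∑ u ∈ T, h u)]
  have e5 : (∑ u ∈ T, h u) * (∑ x ∈ T, θ x) ≤ 27 * (∑ u ∈ T, h u) +
      27 * (G * ∑ x ∈ T, t8 (θ x)) := by
    rw [sum_mul_sum]
    have : ∑ i ∈ T, ∑ j ∈ T, h i * θ j ≤ ∑ i ∈ T, ∑ j ∈ T, (9 * h i + 9 * (G * t8 (θ j))) := by
      refine sum_le_sum fun i hi => sum_le_sum fun j hj => ?_
      rw [mul_comm]
      exact bzg_mix (h0 i hi) (h1 i hi)
    refine this.trans (le_of_eq ?_)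
    simp only [sum_add_distrib, sum_const, hT, ← mul_sum, ← smul_sum]
    simp only [nsmul_eq_mul]
    push_cast
    ring
  have e6 : (∑ u ∈ T, (1 + h u)) ^ 2 * ∑ x ∈ T, θ x ≤
      6 * (3 + G * ∑ u ∈ T, h u) * ∑ x ∈ T, θ x :=
    mul_le_mul_of_nonneg_right e4 hsθ
  refine e6.trans ?_
  have e7 : ∑ x ∈ T, (18 * θ x + 162 * (G * h x) + 162 * (G ^ 2 * t8 (θ x))) =
      18 * (∑ x ∈ T, θ x) + 162 * (G * ∑ x ∈ T, h x) + 162 * (G ^ 2 * ∑ x ∈ T, t8 (θ x)) := by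
    simp only [sum_add_distrib, mul_sum]
  rw [e7]
  have e8 := mul_le_mul_of_nonneg_left e5 (by linarith : (0 : ℝ) ≤ 6 * G)
  nlinarith

theorem bzg_point {θ h G : ℝ} (hG : 1 ≤ G) (hθ : 0 ≤ θ) (h0 : 0 ≤ h) (h1 : h ≤ G) :
    θ * (18 * θ + 162 * (G * h) + 162 * (G ^ 2 * t8 θ)) ≤
      1782 * (1 + G * h + G ^ 2 * (θ * t8 θ)) := by
  have a1 := bzg_sq hθ
  have a2 := mul_le_mul_of_nonneg_left (bzg_mix (θ := θ) h0 h1) (by linarith : (0 : ℝ) ≤ 162 * G)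
  have a3 := bzg_t8_le θ
  have a4 := bzg_t8_nonneg θ
  have a5 : 0 ≤ θ * t8 θ := by positivity
  have hG2 : 1 ≤ G ^ 2 := one_le_pow₀ hG
  have a6 : θ * t8 θ ≤ G ^ 2 * (θ * t8 θ) := le_mul_of_one_le_left a5 hG2
  have a7 : G ^ 2 * t8 θ ≤ G ^ 2 * (θ * t8 θ) := mul_le_mul_of_nonneg_left a3 (by positivity)
  have a8 : 0 ≤ G * h := by positivity
  nlinarith

variable {H : Finset (Finset V)} {M : Finset V} {N : V → ℝ} {q s1 C1 C2 Θ : ℝ}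
  {p : V → ℝ → ℝ} {π e : Finset V → ℝ → ℝ} {X : Finset (Finset V)} {s : ℝ}

theorem bzg_N (b : BD H M N q s1 C1 C2 Θ p π e X) {T : Finset V} (hT : T ∈ H) {x : V}
    (hx : x ∈ T) : |∑ y ∈ T.erase x, N y| ≤ 1 / 2 := by
  have h1 : (T.erase x).card = 2 := by rw [card_erase_of_mem hx, b.lin.card3 T hT]
  calc |∑ y ∈ T.erase x, N y| ≤ ∑ y ∈ T.erase x, |N y| := abs_sum_le_sum_abs _ _
    _ ≤ ∑ _y ∈ T.erase x, (1 / 4 : ℝ) :=
        sum_le_sum fun y hy => b.hN y (b.hsub T hT (mem_of_mem_erase hy))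
    _ = 1 / 2 := by rw [sum_const, h1]; norm_num

theorem bzg_pos (b : BD H M N q s1 C1 C2 Θ p π e X) (h0 : 0 ≤ s) (h1 : s ≤ s1) {x : V}
    (hx : x ∈ M) :
    (∑ T ∈ H \ X with x ∈ T, (∑ y ∈ T.erase x, N y) *
          (π T s ^ 2 * ∑ y ∈ T, 1 / p y s)) ^ 2 / p x s ≤
      (2 * C1 / G2 q s) ^ 2 * (Dd q s * (th H q p π x s *
        ∑ T ∈ H with x ∈ T, π T s * (∑ u ∈ T, (1 + ph (ze q p u s))) ^ 2)) := by
  have hG := b.G2_pos h0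
  have hG0 : 0 < G2 q s := by linarith
  have hC1 := b.hC1
  have hp := b.ppos x hx s h0 h1
  set S : Finset V → ℝ := fun T => ∑ u ∈ T, (1 + ph (ze q p u s)) with hS
  have hS0 : ∀ T, 0 ≤ S T := fun T => sum_nonneg fun u _ => by
    have := bzg_ph_nonneg (ze q p u s); linarith
  have hπ0 : ∀ T ∈ H, 0 ≤ π T s := fun T hT => b.πpos T hT s h0 h1
  have a1 : |∑ T ∈ H \ X with x ∈ T, (∑ y ∈ T.erase x, N y) *
          (π T s ^ 2 * ∑ y ∈ T, 1 / p y s)| ≤ 2 * C1 / G2 q s *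
          ∑ T ∈ H with x ∈ T, π T s * S T := by
    rw [mul_sum]
    refine (abs_sum_le_sum_abs _ _).trans ?_
    refine le_trans (b := ∑ T ∈ H \ X with x ∈ T, 2 * C1 / G2 q s * (π T s * S T)) ?_ ?_
    · refine sum_le_sum fun T hT => ?_
      rw [mem_filter, mem_sdiff] at hT
      obtain ⟨⟨hTH, hTX⟩, hxT⟩ := hT
      have b1 := b.self_le hTH hTX h0 h1
      have b2 := bzg_N b hTH hxT
      have b3 : 0 ≤ π T s ^ 2 * ∑ y ∈ T, 1 / p y s := by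
        refine mul_nonneg (sq_nonneg _) (sum_nonneg fun y hy => ?_)
        have := b.ppos y (b.hsub T hTH hy) s h0 h1
        positivity
      rw [abs_mul, abs_of_nonneg b3]
      calc |∑ y ∈ T.erase x, N y| * (π T s ^ 2 * ∑ y ∈ T, 1 / p y s) ≤
          1 / 2 * (4 * C1 / G2 q s * (π T s * S T)) :=
            mul_le_mul b2 b1 b3 (by norm_num)
        _ = 2 * C1 / G2 q s * (π T s * S T) := by ring
    · refine sum_le_sum_of_subset_of_nonneg (filter_subset_filter _ sdiff_subset) ?_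
      intro T hT _
      have := hπ0 T (mem_filter.1 hT).1
      have := hS0 T
      positivity
  have a2 : (∑ T ∈ H with x ∈ T, π T s * S T) ^ 2 ≤
      (∑ T ∈ H with x ∈ T, π T s) * ∑ T ∈ H with x ∈ T, π T s * S T ^ 2 := by
    refine sum_sq_le_sum_mul_sum_of_sq_le_mul _ (fun T hT => hπ0 T (mem_filter.1 hT).1)
      (fun T hT => ?_) (fun T _ => le_of_eq (by ring))
    have := hπ0 T (mem_filter.1 hT).1
    positivity
  have a3 := b.rr_eq hx h0 h1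
  unfold rr at a3
  rw [a3] at a2
  have a4 : (∑ T ∈ H \ X with x ∈ T, (∑ y ∈ T.erase x, N y) *
          (π T s ^ 2 * ∑ y ∈ T, 1 / p y s)) ^ 2 ≤ (2 * C1 / G2 q s) ^ 2 *
          (∑ T ∈ H with x ∈ T, π T s * S T) ^ 2 := by
    rw [← mul_pow, ← sq_abs]
    exact pow_le_pow_left₀ (abs_nonneg _) a1 2
  rw [div_le_iff₀ hp]
  refine a4.trans ?_
  have a5 := mul_le_mul_of_nonneg_left a2 (sq_nonneg (2 * C1 / G2 q s))
  refine a5.trans (le_of_eq ?_)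
  ring

end

/-- the `γ` part -/
theorem BZ_gamma (C1 C2 : ℝ) (h1 : 1 ≤ C1) (h2 : 1 ≤ C2) : ∃ C : ℝ, 1 ≤ C ∧
    ∀ (V : Type) [DecidableEq V] (H : Finset (Finset V)) (M : Finset V) (N : V → ℝ)
      (q s1 Θ : ℝ) (p : V → ℝ → ℝ) (π e : Finset V → ℝ → ℝ) (X : Finset (Finset V)),
      BD H M N q s1 C1 C2 Θ p π e X → ∀ s, 0 ≤ s → s ≤ s1 →
      ∑ x ∈ M, (∑ T ∈ H \ X with x ∈ T, (∑ y ∈ T.erase x, N y) *
          (π T s ^ 2 * ∑ y ∈ T, 1 / p y s)) ^ 2 / p x s ≤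
        Dd q s ^ 4 * (C / q ^ 80 * (M.card + G2 q s * EB M q p s +
          G2 q s ^ 2 * TP H M q p π s)) := by
  refine ⟨7128 * C1 ^ 2, by nlinarith, ?_⟩
  intro V _ H M N q s1 Θ p π e X b s hs0 hs1
  have hG := b.G2_pos hs0
  have hG0 : 0 < G2 q s := by linarith
  have hq : 0 < q := by linarith [b.hq]
  have hD := b.Dd_pos hs0
  set S : Finset V → ℝ := fun T => ∑ u ∈ T, (1 + ph (ze q p u s)) with hS
  have c1 : ∑ x ∈ M, (∑ T ∈ H \ X with x ∈ T, (∑ y ∈ T.erase x, N y) *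
          (π T s ^ 2 * ∑ y ∈ T, 1 / p y s)) ^ 2 / p x s ≤
      (2 * C1 / G2 q s) ^ 2 * (Dd q s * ∑ x ∈ M, (th H q p π x s *
        rr H (fun T s => π T s * S T ^ 2) x s)) := by
    rw [mul_sum, mul_sum]
    exact sum_le_sum fun x hx => bzg_pos b hs0 hs1 hx
  rw [sum_rr b.hsub] at c1
  have c2 : ∑ T ∈ H, π T s * S T ^ 2 * ∑ x ∈ T, th H q p π x s ≤
      ∑ T ∈ H, π T s * ∑ x ∈ T, (18 * th H q p π x s + 162 * (G2 q s * ph (ze q p x s)) +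
        162 * (G2 q s ^ 2 * t8 (th H q p π x s))) := by
    refine sum_le_sum fun T hT => ?_
    rw [mul_assoc]
    refine mul_le_mul_of_nonneg_left ?_ (b.πpos T hT s hs0 hs1)
    exact bzg_triple (b.lin.card3 T hT) hG
      (fun x hx => b.th_nonneg (b.hsub T hT hx) hs0 hs1) (fun x _ => bzg_ph_nonneg _)
      (fun x hx => b.ph_le (b.hsub T hT hx) hs0 hs1)
  rw [b.sum_pi _ hs0 hs1] at c2
  have c3 : ∑ x ∈ M, p x s * (th H q p π x s * (18 * th H q p π x s +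
        162 * (G2 q s * ph (ze q p x s)) + 162 * (G2 q s ^ 2 * t8 (th H q p π x s)))) ≤
      1782 * (M.card + G2 q s * EB M q p s + G2 q s ^ 2 * TP H M q p π s) := by
    have d1 : ∑ x ∈ M, p x s * (th H q p π x s * (18 * th H q p π x s +
        162 * (G2 q s * ph (ze q p x s)) + 162 * (G2 q s ^ 2 * t8 (th H q p π x s)))) ≤
        ∑ x ∈ M, 1782 * (1 + G2 q s * (p x s * ph (ze q p x s)) +
          G2 q s ^ 2 * (p x s * (th H q p π x s * t8 (th H q p π x s)))) := by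
      refine sum_le_sum fun x hx => ?_
      have hp := b.ppos x hx s hs0 hs1
      have hp1 := b.ple x hx s hs0 hs1
      have d2 := mul_le_mul_of_nonneg_left (bzg_point hG (b.th_nonneg hx hs0 hs1)
        (bzg_ph_nonneg (ze q p x s)) (b.ph_le hx hs0 hs1)) hp.le
      linarith
    refine d1.trans (le_of_eq ?_)
    unfold EB TP
    rw [← mul_sum, sum_add_distrib, sum_add_distrib, ← mul_sum, ← mul_sum]
    simp
  have hR : 0 ≤ M.card + G2 q s * EB M q p s + G2 q s ^ 2 * TP H M q p π s := by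
    have e1 : 0 ≤ EB M q p s := sum_nonneg fun x hx =>
      mul_nonneg (b.ppos x hx s hs0 hs1).le (bzg_ph_nonneg _)
    have e2 : 0 ≤ TP H M q p π s := sum_nonneg fun x hx =>
      mul_nonneg (b.ppos x hx s hs0 hs1).le
        (mul_nonneg (b.th_nonneg hx hs0 hs1) (bzg_t8_nonneg _))
    positivity
  have c4 : ∑ T ∈ H, π T s * S T ^ 2 * ∑ x ∈ T, th H q p π x s ≤
      Dd q s * (1782 * (M.card + G2 q s * EB M q p s + G2 q s ^ 2 * TP H M q p π s)) :=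
    c2.trans (mul_le_mul_of_nonneg_left c3 hD.le)
  refine c1.trans ?_
  have c5 : (2 * C1 / G2 q s) ^ 2 * (Dd q s * ∑ T ∈ H, π T s * S T ^ 2 *
      ∑ x ∈ T, th H q p π x s) ≤ (2 * C1 / G2 q s) ^ 2 * (Dd q s * (Dd q s * (1782 *
        (M.card + G2 q s * EB M q p s + G2 q s ^ 2 * TP H M q p π s)))) :=
    mul_le_mul_of_nonneg_left (mul_le_mul_of_nonneg_left c4 hD.le) (sq_nonneg _)
  refine c5.trans (le_of_eq ?_)
  unfold Dd
  have hG0' := hG0.ne'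
  have hq' := hq.ne'
  field_simp
  ring

end Vale.Agent.P046S
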