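import Vale.Agent.P046S.BZb
import Vale.Agent.P046S.BZg

/-!
P046 sharp constant, module B3 (BZ): differential inequality for `ZB = ∑ p sg²`. `ξ = θ - 1`.

`ZB' = ∑ (- r sg² + 2 p sg sg')`, `p sg' = Dd p (- β + γ) + (negl.)` with
`p β = (1/Dd) ∑_{T∋x} π N(T\x) ξ(T\x)`, `p γ = (1/Dd²) ∑_{T∋x, T∉X} N(T\x) π² ∑ 1/p`; the terms with `e T` and
`T ∈ X` are negligible because `|sg| ≤ θ/2 ≤ Θ` (`small'`, `self_le'`, `1/Dd ≤ 3`).
So `ZB'/Dd ≤ 2 √ZB (‖β‖ + ‖γ‖) + negl. ≤ ZB + 2 ‖β‖² + 2 ‖γ‖² + negl.`, `‖β‖² = ∑ p β²`.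

`‖β‖²`: Cauchy-Schwarz: `p β² ≤ (θ_x/Dd) ∑_{T∋x} π (N(T\x) ξ(T\x))²`, so
`‖β‖² ≤ (4/Dd) ∑_T π ∑_{x,y,z∈T} θ_x N_y² ξ_z²`. Pointwise, with `I_y = 1{|N_y| > 1/q^7}`:
`θ_x N_y² ξ_z² ≤ C (q^{-14} (ξ_z² + t8_x + t8_z) + q^9 I_y)` (if `|N_y| ≤ 1/q^7`: `θ_x ξ_z² ≤ 9 ξ_z²` for `θ_x ≤ 9`,
else `≤ θ_x³ + |ξ_z|³`, `θ³ ≤ 729 t8` for `θ > 9`; if `|N_y| > 1/q^7` use `I t8^{3/8} ≤ q^{-14} t8 + q^9 I`).
Then `sum_pi`, `θ ξ² ≤ 9 ξ² + 729 t8`, `q^9 θ I ≤ C (q^{13} I + q^{-14} t8)`, `∑ p ξ² ≤ 4 WB + 2 m/q^39`,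
`∑ I ≤ m / q^100`, `8 TB ≤ TP`.

`‖γ‖²`: `|N(T\x)| ≤ 1/2`, `self_le`, Cauchy-Schwarz:
`∑_x (1/p_x) (∑_{T∋x} π g_T)² ≤ Dd ∑_T π (∑_{x∈T} θ_x) g_T²`, `g_T = (4 C1/G²) ∑_u (1 + ph_u)`,
`g_T² ≤ C G^{-4} (1 + G² ∑_u ph_u)` (`ph ≤ G²`), `θ_x ph_u ≤ 9 ph_u + 9 G² t8_x`. Result
`‖γ‖² ≤ (C/D²) (m + G² EB + G⁴ TP)`.
-/

namespace Vale.Agent.P046S

open Finset Vale.Agent.P046 Vale.Agent.P046LF

section

variable {V : Type} [DecidableEq V]

variable {H : Finset (Finset V)} {M : Finset V} {N : V → ℝ} {q s1 C1 C2 Θ : ℝ}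
  {p : V → ℝ → ℝ} {π e : Finset V → ℝ → ℝ} {X : Finset (Finset V)} {s : ℝ}

/-- `|N (T minus x)| ≤ 1/2` -/
theorem BZ_N_le (b : BD H M N q s1 C1 C2 Θ p π e X) {T : Finset V} (hT : T ∈ H) {x : V}
    (hx : x ∈ T) : |∑ y ∈ T.erase x, N y| ≤ 1 / 2 := by
  refine (abs_sum_le_sum_abs _ _).trans ?_
  have h1 : ∀ y ∈ T.erase x, |N y| ≤ 1 / 4 := fun y hy =>
    b.hN y (b.hsub T hT (mem_of_mem_erase hy))
  refine (sum_le_sum h1).trans ?_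
  rw [sum_const, card_erase_of_mem hx, b.lin.card3 T hT, nsmul_eq_mul]
  norm_num

/-- exchange of sums -/
theorem BZ_exch {K : Finset (Finset V)} (hK : ∀ T ∈ K, T ⊆ M) (g : Finset V → ℝ) :
    ∑ x ∈ M, ∑ T ∈ K with x ∈ T, g T = ∑ T ∈ K, (T.card : ℝ) * g T := by
  have h1 : ∀ x ∈ M, ∑ T ∈ K with x ∈ T, g T = ∑ T ∈ K, if x ∈ T then g T else 0 := by
    intro x _
    rw [sum_filter]
  rw [sum_congr rfl h1, sum_comm]
  apply sum_congr rfl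
  intro T hT
  rw [← sum_filter]
  have h2 : M.filter (fun x => x ∈ T) = T := by
    ext x
    simp only [mem_filter]
    exact ⟨fun h => h.2, fun h => ⟨hK T hT h, h⟩⟩
  rw [h2, sum_const, nsmul_eq_mul]

theorem BZ_sg_le (b : BD H M N q s1 C1 C2 Θ p π e X) {x : V} (hx : x ∈ M) (h0 : 0 ≤ s)
    (h1 : s ≤ s1) : |sg H N q p π x s| ≤ Θ / 2 := by
  have hp := b.ppos x hx s h0 h1
  have hD := b.Dd_pos h0
  have hpD : 0 < p x s * Dd q s := mul_pos hp hD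
  have h2 : |∑ T ∈ H with x ∈ T, π T s * ∑ y ∈ T.erase x, N y| ≤ rr H π x s / 2 := by
    refine (abs_sum_le_sum_abs _ _).trans ?_
    unfold rr
    rw [sum_div]
    apply sum_le_sum
    intro T hT
    rw [mem_filter] at hT
    have h3 := b.πpos T hT.1 s h0 h1
    rw [abs_mul, abs_of_nonneg h3]
    have h4 := BZ_N_le b hT.1 hT.2
    nlinarith
  have h5 := b.hθ x hx s h0 h1
  unfold th at h5
  rw [div_le_iff₀ hpD] at h5
  unfold sg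
  rw [abs_div, abs_of_pos hpD, div_le_iff₀ hpD]
  linarith

/-- the negligible part -/
theorem BZ_negl (b : BD H M N q s1 C1 C2 Θ p π e X) (h0 : 0 ≤ s) (h1 : s ≤ s1) :
    ∑ x ∈ M, |∑ T ∈ X with x ∈ T, (∑ y ∈ T.erase x, N y) * (π T s ^ 2 * ∑ y ∈ T, 1 / p y s) -
      ∑ T ∈ H with x ∈ T, (∑ y ∈ T.erase x, N y) * e T s| ≤
      9 / 2 * C2 ^ 2 * ((X.card : ℝ) + ∑ T ∈ H, |e T s|) := by
  have hC2 := b.hC2
  have h2 : ∀ x ∈ M, |∑ T ∈ X with x ∈ T, (∑ y ∈ T.erase x, N y) *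
        (π T s ^ 2 * ∑ y ∈ T, 1 / p y s) -
      ∑ T ∈ H with x ∈ T, (∑ y ∈ T.erase x, N y) * e T s| ≤
      ∑ T ∈ X with x ∈ T, 3 / 2 * C2 ^ 2 + ∑ T ∈ H with x ∈ T, 1 / 2 * |e T s| := by
    intro x _
    refine (abs_sub _ _).trans ?_
    apply add_le_add
    · refine (abs_sum_le_sum_abs _ _).trans ?_
      apply sum_le_sum
      intro T hT
      rw [mem_filter] at hT
      have hTH := b.hX hT.1
      have h3 := BZ_N_le b hTH hT.2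
      have h4 := b.self_le' hTH h0 h1
      have h5 := b.pi_le hTH h0 h1
      have h6 : 0 ≤ π T s ^ 2 * ∑ y ∈ T, 1 / p y s := by
        apply mul_nonneg (sq_nonneg _)
        apply sum_nonneg
        intro y hy
        have := b.ppos y (b.hsub T hTH hy) s h0 h1
        positivity
      rw [abs_mul, abs_of_nonneg h6]
      have h7 : π T s ^ 2 * ∑ y ∈ T, 1 / p y s ≤ 3 * C2 ^ 2 := by nlinarith
      have h8 : 0 ≤ |∑ y ∈ T.erase x, N y| := abs_nonneg _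
      nlinarith
    · refine (abs_sum_le_sum_abs _ _).trans ?_
      apply sum_le_sum
      intro T hT
      rw [mem_filter] at hT
      rw [abs_mul]
      exact mul_le_mul_of_nonneg_right (BZ_N_le b hT.1 hT.2) (abs_nonneg _)
  refine (sum_le_sum h2).trans ?_
  rw [sum_add_distrib, BZ_exch (fun T hT => b.hsub T (b.hX hT)) (fun _ => 3 / 2 * C2 ^ 2),
    BZ_exch b.hsub (fun T => 1 / 2 * |e T s|)]
  have h9 : ∑ T ∈ X, (T.card : ℝ) * (3 / 2 * C2 ^ 2) = 9 / 2 * C2 ^ 2 * X.card := by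
    have : ∀ T ∈ X, (T.card : ℝ) * (3 / 2 * C2 ^ 2) = 9 / 2 * C2 ^ 2 := by
      intro T hT
      rw [b.lin.card3 T (b.hX hT)]
      push_cast
      ring
    rw [sum_congr rfl this, sum_const, nsmul_eq_mul]
    ring
  have h10 : ∑ T ∈ H, (T.card : ℝ) * (1 / 2 * |e T s|) = 3 / 2 * ∑ T ∈ H, |e T s| := by
    rw [mul_sum]
    apply sum_congr rfl
    intro T hT
    rw [b.lin.card3 T hT]
    push_cast
    ring
  rw [h9, h10]
  have h11 : 0 ≤ ∑ T ∈ H, |e T s| := sum_nonneg fun _ _ => abs_nonneg _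
  have h12 : 1 ≤ C2 ^ 2 := one_le_pow₀ hC2
  have h13 : 0 ≤ (C2 ^ 2 - 1) * ∑ T ∈ H, |e T s| := mul_nonneg (by linarith) h11
  nlinarith

/-- pointwise bound -/
theorem BZ_point {P D a B G1 G2' r dx Th : ℝ} (hP : 0 < P) (hD : 0 < D) (hr : 0 ≤ r)
    (ha : |a| ≤ Th / 2) (hd : P * dx = -B + (G1 + G2') / D) :
    -r * a ^ 2 + P * (2 * a * dx) ≤
      D * (P * a ^ 2) + 2 / D * (B ^ 2 / P) + 2 / D ^ 3 * (G1 ^ 2 / P) + Th / D * |G2'| := by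
  have h1 : P * (2 * a * dx) = 2 * a * (P * dx) := by ring
  rw [h1, hd]
  have h2 : -(2 * a * B) ≤ D / 2 * (P * a ^ 2) + 2 / D * (B ^ 2 / P) := by
    have h3 : D / 2 * (P * a ^ 2) + 2 / D * (B ^ 2 / P) + 2 * a * B =
        (D * P * a + 2 * B) ^ 2 / (2 * D * P) := by
      field_simp
      ring
    have h4 : 0 ≤ (D * P * a + 2 * B) ^ 2 / (2 * D * P) := by positivity
    linarith
  have h5 : 2 * a * (G1 / D) ≤ D / 2 * (P * a ^ 2) + 2 / D ^ 3 * (G1 ^ 2 / P) := by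
    have h6 : D / 2 * (P * a ^ 2) + 2 / D ^ 3 * (G1 ^ 2 / P) - 2 * a * (G1 / D) =
        (D ^ 2 * P * a - 2 * G1) ^ 2 / (2 * D ^ 3 * P) := by
      field_simp
      ring
    have h7 : 0 ≤ (D ^ 2 * P * a - 2 * G1) ^ 2 / (2 * D ^ 3 * P) := by positivity
    linarith
  have h8 : 2 * a * (G2' / D) ≤ Th / D * |G2'| := by
    have h9 : a * G2' ≤ |a| * |G2'| := by
      rw [← abs_mul]
      exact le_abs_self _
    have h10 : |a| * |G2'| ≤ Th / 2 * |G2'| := mul_le_mul_of_nonneg_right ha (abs_nonneg _)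
    calc 2 * a * (G2' / D) = 2 * (a * G2') / D := by ring
      _ ≤ 2 * (Th / 2 * |G2'|) / D := by
          apply div_le_div_of_nonneg_right _ hD.le
          linarith
      _ = Th / D * |G2'| := by ring
  have h11 : 0 ≤ r * a ^ 2 := by positivity
  have h12 : 2 * a * (-B + (G1 + G2') / D) = -(2 * a * B) + 2 * a * (G1 / D) + 2 * a * (G2' / D) := by
    ring
  rw [h12]
  linarith

theorem BZ_arith {D Z c1 c2 c3 a1 a2 a3 : ℝ} (hD : 0 ≤ D) (h1 : 0 ≤ a1) (h2 : 0 ≤ a2)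
    (h3 : 0 ≤ a3) (g1 : 0 ≤ c1) (g2 : 0 ≤ c2) (g3 : 0 ≤ c3) :
    D * Z + D * (2 * c1 * a1) + D * (2 * c2 * a2) + D * (c3 * a3) ≤
      D * (Z + (2 * c1 + 2 * c2 + c3) * (a1 + a2 + a3)) := by
  have e1 : 0 ≤ (2 * c2 + c3) * a1 := by positivity
  have e2 : 0 ≤ (2 * c1 + c3) * a2 := by positivity
  have e3 : 0 ≤ (2 * c1 + 2 * c2) * a3 := by positivity
  have e4 : D * Z + D * (2 * c1 * a1) + D * (2 * c2 * a2) + D * (c3 * a3) =
      D * (Z + 2 * c1 * a1 + 2 * c2 * a2 + c3 * a3) := by ring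
  rw [e4]
  apply mul_le_mul_of_nonneg_left _ hD
  linarith

end

theorem BZ_main (C1 C2 : ℝ) (h1 : 1 ≤ C1) (h2 : 1 ≤ C2) : ∃ C : ℝ, 1 ≤ C ∧
    ∀ (V : Type) [DecidableEq V] (H : Finset (Finset V)) (M : Finset V) (N : V → ℝ)
      (q s1 Θ : ℝ) (p : V → ℝ → ℝ) (π e : Finset V → ℝ → ℝ) (X : Finset (Finset V)),
      BD H M N q s1 C1 C2 Θ p π e X → ∀ s, 0 ≤ s → s ≤ s1 →
      ∃ d, HasDerivAt (ZB H M N q p π) d s ∧
      d ≤ Dd q s * (ZB H M N q p π s + C * ((WB H M N q p π s + TP H M q p π s) / q ^ 14 +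
        M.card / q ^ 53 + (M.card + G2 q s * EB M q p s + G2 q s ^ 2 * TP H M q p π s) / q ^ 80 +
        M.card / q ^ 100)) := by
  obtain ⟨Cb, hCb1, hCb⟩ := BZ_beta C1 C2 h1 h2
  obtain ⟨Cg, hCg1, hCg⟩ := BZ_gamma C1 C2 h1 h2
  refine ⟨2 * Cb + 2 * Cg + 41 * C2 ^ 2, by nlinarith, ?_⟩
  intro V _ H M N q s1 Θ p π e X b s h0 hs
  have hq := b.hq
  have hD := b.Dd_pos h0
  have hG := b.G2_pos h0
  have hGle := b.G2_le h0 hs
  have hder := fun x (hx : x ∈ M) => b.sg_deriv hx h0 hs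
  choose! d hd1 hd2 using hder
  have hHD : HasDerivAt (ZB H M N q p π)
      (∑ x ∈ M, (-rr H π x s * sg H N q p π x s ^ 2 +
        p x s * (2 * sg H N q p π x s * d x))) s := by
    have : ZB H M N q p π = fun s => ∑ x ∈ M, p x s * sg H N q p π x s ^ 2 := rfl
    rw [this]
    apply HasDerivAt.fun_sum
    intro x hx
    have h3 := (b.pd x hx s h0 hs).mul ((hd1 x hx).pow 2)
    refine h3.congr_deriv ?_
    simp only [Pi.pow_apply, Nat.cast_ofNat]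
    ring
  refine ⟨_, hHD, ?_⟩
  have hbeta := hCb V H M N q s1 Θ p π e X b s h0 hs
  have hgamma := hCg V H M N q s1 Θ p π e X b s h0 hs
  have hnegl := BZ_negl b h0 hs
  set D := Dd q s with hDdef
  set B : V → ℝ := fun x => ∑ T ∈ H with x ∈ T, π T s * ((∑ y ∈ T.erase x, N y) *
          ∑ y ∈ T.erase x, (th H q p π y s - 1)) with hB
  set G1 : V → ℝ := fun x => ∑ T ∈ H \ X with x ∈ T, (∑ y ∈ T.erase x, N y) *
          (π T s ^ 2 * ∑ y ∈ T, 1 / p y s) with hG1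
  set G2' : V → ℝ := fun x => ∑ T ∈ X with x ∈ T, (∑ y ∈ T.erase x, N y) *
        (π T s ^ 2 * ∑ y ∈ T, 1 / p y s) -
      ∑ T ∈ H with x ∈ T, (∑ y ∈ T.erase x, N y) * e T s with hG2'
  have hsplit : ∀ x, ∑ T ∈ H with x ∈ T, (∑ y ∈ T.erase x, N y) *
          (π T s ^ 2 * ∑ y ∈ T, 1 / p y s - e T s) = G1 x + G2' x := by
    intro x
    have h3 : ∑ T ∈ H with x ∈ T, (∑ y ∈ T.erase x, N y) * (π T s ^ 2 * ∑ y ∈ T, 1 / p y s) =
        ∑ T ∈ H \ X with x ∈ T, (∑ y ∈ T.erase x, N y) * (π T s ^ 2 * ∑ y ∈ T, 1 / p y s) +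
        ∑ T ∈ X with x ∈ T, (∑ y ∈ T.erase x, N y) * (π T s ^ 2 * ∑ y ∈ T, 1 / p y s) := by
      rw [← sum_union]
      · congr 1
        rw [← filter_union, sdiff_union_of_subset b.hX]
      · apply disjoint_filter_filter
        exact sdiff_disjoint
    have h4 : ∑ T ∈ H with x ∈ T, (∑ y ∈ T.erase x, N y) *
          (π T s ^ 2 * ∑ y ∈ T, 1 / p y s - e T s) =
        ∑ T ∈ H with x ∈ T, (∑ y ∈ T.erase x, N y) * (π T s ^ 2 * ∑ y ∈ T, 1 / p y s) -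
        ∑ T ∈ H with x ∈ T, (∑ y ∈ T.erase x, N y) * e T s := by
      rw [← sum_sub_distrib]
      apply sum_congr rfl
      intro T _
      ring
    rw [h4, h3, hG1, hG2']
    ring
  have hpt : ∀ x ∈ M, -rr H π x s * sg H N q p π x s ^ 2 +
        p x s * (2 * sg H N q p π x s * d x) ≤
      D * (p x s * sg H N q p π x s ^ 2) + 2 / D * (B x ^ 2 / p x s) +
        2 / D ^ 3 * (G1 x ^ 2 / p x s) + Θ / D * |G2' x| := by
    intro x hx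
    apply BZ_point (b.ppos x hx s h0 hs) hD (b.rr_nonneg x h0 hs) (BZ_sg_le b hx h0 hs)
    rw [hd2 x hx, hsplit x]
  refine (sum_le_sum hpt).trans ?_
  rw [sum_add_distrib, sum_add_distrib, sum_add_distrib, ← mul_sum, ← mul_sum, ← mul_sum,
    ← mul_sum]
  have hZB : ∑ x ∈ M, p x s * sg H N q p π x s ^ 2 = ZB H M N q p π s := rfl
  rw [hZB]
  set Aβ : ℝ := (WB H M N q p π s + TP H M q p π s) / q ^ 14 + M.card / q ^ 53 with hAβ
  set Aγ : ℝ := M.card + G2 q s * EB M q p s + G2 q s ^ 2 * TP H M q p π s with hAγ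
  have hDi : 1 / D ≤ 3 := by
    rw [hDdef]
    unfold Dd
    rw [one_div_div, div_le_iff₀ (by positivity)]
    exact hGle
  have hβ0 : 0 ≤ Aβ := by
    have h3 : 0 ≤ ∑ x ∈ M, B x ^ 2 / p x s := sum_nonneg fun x hx => by
      have := b.ppos x hx s h0 hs
      positivity
    have h4 : 0 ≤ D ^ 2 * (Cb * Aβ) := h3.trans hbeta
    have h5 : 0 < D ^ 2 * Cb := by positivity
    rw [← mul_assoc] at h4
    exact nonneg_of_mul_nonneg_right h4 h5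
  have hγ0 : 0 ≤ Aγ := by
    have h3 : 0 ≤ ∑ x ∈ M, G1 x ^ 2 / p x s := sum_nonneg fun x hx => by
      have := b.ppos x hx s h0 hs
      positivity
    have h4 : 0 ≤ D ^ 4 * (Cg / q ^ 80 * Aγ) := h3.trans hgamma
    have h5 : 0 < D ^ 4 * (Cg / q ^ 80) := by positivity
    rw [← mul_assoc] at h4
    exact nonneg_of_mul_nonneg_right h4 h5
  have hk1 : 2 / D * ∑ x ∈ M, B x ^ 2 / p x s ≤ D * (2 * Cb * Aβ) := by
    calc 2 / D * ∑ x ∈ M, B x ^ 2 / p x s ≤ 2 / D * (D ^ 2 * (Cb * Aβ)) := by gcongr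
      _ = D * (2 * Cb * Aβ) := by field_simp
  have hk2 : 2 / D ^ 3 * ∑ x ∈ M, G1 x ^ 2 / p x s ≤ D * (2 * Cg * (Aγ / q ^ 80)) := by
    calc 2 / D ^ 3 * ∑ x ∈ M, G1 x ^ 2 / p x s ≤ 2 / D ^ 3 * (D ^ 4 * (Cg / q ^ 80 * Aγ)) := by gcongr
      _ = D * (2 * Cg * (Aγ / q ^ 80)) := by field_simp
  have hΘ1 : 1 ≤ Θ := (one_le_pow₀ hq).trans b.hΘ
  have hE0 : 0 ≤ (X.card : ℝ) + ∑ T ∈ H, |e T s| := by positivity
  have hk3 : Θ / D * ∑ x ∈ M, |G2' x| ≤ D * (41 * C2 ^ 2 * (M.card / q ^ 100)) := by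
    have h3 : Θ * ((X.card : ℝ) + ∑ T ∈ H, |e T s|) ≤ M.card / q ^ 100 := by
      have h4 := b.small' h0 hs
      have h5 : (M.card : ℝ) / q ^ 600 ≤ M.card / q ^ 100 :=
        div_le_div_of_nonneg_left (by positivity) (by positivity)
          (pow_le_pow_right₀ hq (by norm_num))
      have h6 : Θ ≤ Θ ^ 5 := le_self_pow₀ hΘ1 (by norm_num)
      calc Θ * ((X.card : ℝ) + ∑ T ∈ H, |e T s|) ≤ Θ ^ 5 * ((X.card : ℝ) + ∑ T ∈ H, |e T s|) := by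
            gcongr
        _ = ((X.card : ℝ) + ∑ T ∈ H, |e T s|) * Θ ^ 5 := by ring
        _ ≤ _ := h4.trans h5
    calc Θ / D * ∑ x ∈ M, |G2' x|
        ≤ Θ / D * (9 / 2 * C2 ^ 2 * ((X.card : ℝ) + ∑ T ∈ H, |e T s|)) := by gcongr
      _ = D * (9 / 2 * C2 ^ 2 * ((1 / D) ^ 2 * (Θ * ((X.card : ℝ) + ∑ T ∈ H, |e T s|)))) := by
          field_simp
      _ ≤ D * (9 / 2 * C2 ^ 2 * (3 ^ 2 * (M.card / q ^ 100))) := by gcongr
      _ ≤ D * (41 * C2 ^ 2 * (M.card / q ^ 100)) := by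
          have h7 : (0 : ℝ) ≤ C2 ^ 2 * (M.card / q ^ 100) := by positivity
          apply mul_le_mul_of_nonneg_left _ hD.le
          linarith
  have hm0 : (0 : ℝ) ≤ M.card / q ^ 100 := by positivity
  have hAγ0 : 0 ≤ Aγ / q ^ 80 := by positivity
  exact (add_le_add (add_le_add (add_le_add le_rfl hk1) hk2) hk3).trans
    (BZ_arith hD.le hβ0 hAγ0 hm0 (by linarith) (by linarith) (by positivity))

end Vale.Agent.P046S
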