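import Vale.Agent.P046S.BW
import Vale.Agent.P046S.BT
import Vale.Agent.P046S.BE
import Vale.Agent.P046S.BZ

/-!
P046 sharp constant, module B4 (BG): the combination.

`g = √G2 = √(1 + 2 D s)`, `g' = Dd g`, `D = q^40`, `η s = q^{-4} + √(g/√D) = q^{-4} + √g / q^10`,
`ωz = 3 / η²` (decreasing, `ωz ≤ 3 q^8`, `ωz ≤ 3 q^20 / g`).
`Λ = (WB + ωz ZB + (ce/D) EB + (q^{-5} + ct G2/D) TB) / (m g)`.
With `w = WB/(m g)` etc.: `√(12 w z) ≤ η w + (3/η) z = η w + η ωz z`;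
`(C/D) √(w / g) ≤ w / q + C² q / D²`;
`ωz z'/Dd ≤ 3 C (q^{-6} (w + t⁺) + q^{-45} + q^8/D²) + (ωz G²/D²) C e + (ωz G⁴/D²) C t⁺` and
`ωz g / q^20 ≤ 3`, `g / q^20 ≤ 2`, so the last two terms are `≤ (C'/D) e + (C' G²/D) t⁺`;
`(ce/D) e' ≤ (ce/D)(-1.5 e) + (C ce G²/D) w + q^{-59} C`;
`((q^{-5} + ct G²/D) t)' ≤ -(1/2) q^{-5} t⁺ - (ct/4)(G²/D) t⁺ + C (q^{-5} + ct G²/D) w` (`8 t ≤ t⁺`).
Choose `ce`, then `ct` large (depending on `C1, C2`), then `q` large. Result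
`Λ' ≤ Dd (a Λ + E)`, `a = η + 1/q + C G²/D`, `E = C q^{-45}`; with
`A s = 2 √g / q^10 + C G²/(2D) + (2/q) log g` (`A' = a Dd`), `A ≤ C5`, `Λ 0 ≤ 2 / q^43` and
`∫ Dd E = C q^{-45} log g ≤ q^{-44}`: `Λ ≤ q^{-42}`.
-/

namespace Vale.Agent.P046S

open Finset Vale.Agent.P046 Vale.Agent.P046LF

theorem BG_point {C r η ω G g w z t p e m : ℝ} (hC : 1 ≤ C) (hr : 0 < r) (hCr : C * r ≤ 1 / 10)
    (hη : 0 < η) (hω : 0 ≤ ω) (hωη : ω * η ^ 2 = 3) (hω8 : ω * r ^ 8 ≤ 3)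
    (hωU : ω * (G * r ^ 40) ≤ 6)
    (hG : 0 ≤ G) (hU : G * r ^ 40 ≤ 3) (hg : 1 ≤ g) (hGg : G * r ^ 20 ≤ 2 * g)
    (hw : 0 ≤ w) (hz : 0 ≤ z) (ht : 0 ≤ t) (htp : 8 * t ≤ p) (he : 0 ≤ e) (hm : 0 ≤ m) :
    (1 + 10 * r ^ 7) * w + Real.sqrt (12 * w * z) + C * (t * r ^ 10 + m * r ^ 96) +
      C * r ^ 40 * (Real.sqrt (w * m) + e + G * p) +
      ω * (z + C * ((w + p) * r ^ 14 + m * r ^ 53 + (m + G * e + G ^ 2 * p) * r ^ 80 +
        m * r ^ 100)) +
      14 * C * r ^ 40 * (-(1 / 2 * e) + C * (G * (w + m * r ^ 39))) +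
      (r ^ 5 + 28 * C * (G * r ^ 40)) * (-(1 / 2 * p) + C * w + C * (m * r ^ 100)) +
      2 * (28 * C) * (G * r ^ 40) * t ≤
    (1 + η + 2 * r + 42 * C ^ 2 * (G * r ^ 40)) *
      (w + ω * z + 14 * C * r ^ 40 * e + (r ^ 5 + 28 * C * (G * r ^ 40)) * t) +
      m * (g * ((12 * C + 112 * C ^ 2) * r ^ 45)) := by
  have hr1 : r ≤ 1 / 10 := by nlinarith
  have hr0 : 0 ≤ r := hr.le
  have hp : 0 ≤ p := by linarith
  have hU0 : 0 ≤ G * r ^ 40 := by positivity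
  have hC0 : 0 ≤ C := by linarith
  -- square roots
  have hs1 : Real.sqrt (12 * w * z) ≤ η * w + ω * η * z := by
    rw [Real.sqrt_le_iff]
    refine ⟨by positivity, ?_⟩
    have h1 : (η * w + ω * η * z) ^ 2 - 4 * (ω * η ^ 2) * (w * z) =
        (η * w - ω * η * z) ^ 2 := by ring
    rw [hωη] at h1
    nlinarith [sq_nonneg (η * w - ω * η * z)]
  have hs2 : r ^ 40 * Real.sqrt (w * m) ≤ (r ^ 2 * w + r ^ 78 * m) / 2 := by
    have h0 : 0 ≤ Real.sqrt (w * m) := Real.sqrt_nonneg _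
    have h1 : Real.sqrt (w * m) ^ 2 = w * m := Real.sq_sqrt (by positivity)
    rw [← pow_le_pow_iff_left₀ (by positivity) (by positivity) (two_ne_zero)]
    have h2 : (r ^ 40 * Real.sqrt (w * m)) ^ 2 = r ^ 80 * (w * m) := by
      rw [mul_pow, h1]; ring
    have h3 : ((r ^ 2 * w + r ^ 78 * m) / 2) ^ 2 - r ^ 80 * (w * m) =
        ((r ^ 2 * w - r ^ 78 * m) / 2) ^ 2 := by ring
    rw [h2]
    have h4 := sq_nonneg ((r ^ 2 * w - r ^ 78 * m) / 2)
    linarith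
  have hs3 : C * r ^ 40 * (Real.sqrt (w * m) + e + G * p) ≤
      C * ((r ^ 2 * w + r ^ 78 * m) / 2) + C * r ^ 40 * e + C * (G * r ^ 40) * p := by
    have h1 := mul_le_mul_of_nonneg_left hs2 hC0
    have h2 : C * r ^ 40 * (Real.sqrt (w * m) + e + G * p) =
      C * (r ^ 40 * Real.sqrt (w * m)) + C * r ^ 40 * e + C * (G * r ^ 40) * p := by ring
    rw [h2]
    linarith
  -- powers
  have hpw : ∀ n k : ℕ, n ≤ k → r ^ k ≤ r ^ n := fun n k h =>
    pow_le_pow_of_le_one hr0 (by linarith) h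
  -- coefficient of w
  have cw : 0 ≤ 2 * r - 10 * r ^ 7 - C / 2 * r ^ 2 - C * (ω * r ^ 8) * r ^ 6 - C * r ^ 5 := by
    have h1 : C * (ω * r ^ 8) * r ^ 6 ≤ C * 3 * r ^ 6 := by gcongr
    have h2 : C * 3 * r ^ 6 ≤ 3 / 10 * r := by
      have h3 : C * 3 * r ^ 6 = 3 * (C * r) * r ^ 5 := by ring
      have h4 : r ^ 5 ≤ r ^ 1 := hpw 1 5 (by norm_num)
      have h5 : 3 * (C * r) * r ^ 5 ≤ 3 * (1 / 10) * r ^ 1 := by gcongr
      rw [h3]; linarith
    have h6 : C / 2 * r ^ 2 ≤ 1 / 20 * r := by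
      have : C / 2 * r ^ 2 = (C * r) * r / 2 := by ring
      rw [this]; nlinarith
    have h7 : C * r ^ 5 ≤ 1 / 10 * r := by
      have h8 : C * r ^ 5 = (C * r) * r ^ 4 := by ring
      have h9 : r ^ 4 ≤ r ^ 1 := hpw 1 4 (by norm_num)
      rw [h8]
      calc C * r * r ^ 4 ≤ 1 / 10 * r ^ 1 := by gcongr
        _ = _ := by ring
    have h10 : 10 * r ^ 7 ≤ r := by
      have h11 : r ^ 6 ≤ r ^ 1 := hpw 1 6 (by norm_num)
      have h12 : 10 * r ^ 7 = 10 * r * r ^ 6 := by ring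
      have h13 : 10 * r * r ^ 6 ≤ 10 * (1 / 10) * r ^ 1 := by gcongr
      rw [h12]; linarith
    linarith
  -- coefficient of e
  have ce : 0 ≤ 14 * C / 2 - C - C * (ω * (G * r ^ 40)) := by
    have h1 : C * (ω * (G * r ^ 40)) ≤ C * 6 := by gcongr
    linarith
  -- coefficient of p
  have cp : 0 ≤ 1 / 2 * r ^ 5 - C * (ω * r ^ 8) * r ^ 6 - C * r ^ 10 / 8 := by
    have h1 : C * (ω * r ^ 8) * r ^ 6 ≤ C * 3 * r ^ 6 := by gcongr
    have h2 : C * 3 * r ^ 6 ≤ 3 / 10 * r ^ 5 := by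
      have h3 : C * 3 * r ^ 6 = 3 * (C * r) * r ^ 5 := by ring
      have h5 : 3 * (C * r) * r ^ 5 ≤ 3 * (1 / 10) * r ^ 5 := by gcongr
      rw [h3]; linarith
    have h6 : C * r ^ 10 ≤ 1 / 10 * r ^ 5 := by
      have h7 : C * r ^ 10 = (C * r) * r ^ 9 := by ring
      have h8 : r ^ 9 ≤ r ^ 5 := hpw 5 9 (by norm_num)
      rw [h7]
      gcongr
    have h9 : 0 ≤ r ^ 5 := by positivity
    linarith
  have cpU : 0 ≤ (G * r ^ 40) * (28 * C / 4 - C - C * (ω * (G * r ^ 40))) := by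
    apply mul_nonneg hU0
    have h1 : C * (ω * (G * r ^ 40)) ≤ C * 6 := by gcongr
    linarith
  -- coefficient of m
  have cm : 0 ≤ g * ((12 * C + 112 * C ^ 2) * r ^ 45) - C * r ^ 96 - C / 2 * r ^ 78 -
      C * (ω * r ^ 8) * r ^ 45 - C * (ω * r ^ 8) * r ^ 72 - C * (ω * r ^ 8) * r ^ 92 -
      14 * C ^ 2 * (G * r ^ 20) * r ^ 59 - C * (r ^ 5 + 28 * C * (G * r ^ 40)) * r ^ 100 := by
    have e1 : C * r ^ 96 ≤ C * r ^ 45 * g := by
      calc C * r ^ 96 ≤ C * r ^ 45 := mul_le_mul_of_nonneg_left (hpw 45 96 (by norm_num)) hC0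
        _ ≤ C * r ^ 45 * g := le_mul_of_one_le_right (by positivity) hg
    have e2 : C / 2 * r ^ 78 ≤ C * r ^ 45 * g := by
      calc C / 2 * r ^ 78 ≤ C * r ^ 45 := by
            have h1 := hpw 45 78 (by norm_num)
            have h2 : C / 2 * r ^ 78 ≤ C * r ^ 78 := by
              apply mul_le_mul_of_nonneg_right _ (by positivity); linarith
            exact h2.trans (mul_le_mul_of_nonneg_left h1 hC0)
        _ ≤ C * r ^ 45 * g := le_mul_of_one_le_right (by positivity) hg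
    have e3 : C * (ω * r ^ 8) * r ^ 45 ≤ 3 * (C * r ^ 45 * g) := by
      calc C * (ω * r ^ 8) * r ^ 45 ≤ C * 3 * r ^ 45 := by gcongr
        _ = 3 * (C * r ^ 45) := by ring
        _ ≤ 3 * (C * r ^ 45 * g) := by
            apply mul_le_mul_of_nonneg_left _ (by norm_num)
            exact le_mul_of_one_le_right (by positivity) hg
    have e4 : C * (ω * r ^ 8) * r ^ 72 ≤ 3 * (C * r ^ 45 * g) := by
      refine le_trans ?_ e3
      apply mul_le_mul_of_nonneg_left (hpw 45 72 (by norm_num)) (by positivity)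
    have e5 : C * (ω * r ^ 8) * r ^ 92 ≤ 3 * (C * r ^ 45 * g) := by
      refine le_trans ?_ e3
      apply mul_le_mul_of_nonneg_left (hpw 45 92 (by norm_num)) (by positivity)
    have e6 : 14 * C ^ 2 * (G * r ^ 20) * r ^ 59 ≤ 28 * C ^ 2 * (r ^ 45 * g) := by
      calc 14 * C ^ 2 * (G * r ^ 20) * r ^ 59 ≤ 14 * C ^ 2 * (2 * g) * r ^ 45 :=
            mul_le_mul (mul_le_mul_of_nonneg_left hGg (by positivity)) (hpw 45 59 (by norm_num))
              (by positivity) (by positivity)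
        _ = _ := by ring
    have e7 : C * (r ^ 5 + 28 * C * (G * r ^ 40)) * r ^ 100 ≤
        (C + 84 * C ^ 2) * (r ^ 45 * g) := by
      have h1 : r ^ 5 + 28 * C * (G * r ^ 40) ≤ 1 + 28 * C * 3 := by
        have h2 : r ^ 5 ≤ r ^ 0 := hpw 0 5 (by norm_num)
        have h3 : 28 * C * (G * r ^ 40) ≤ 28 * C * 3 := by gcongr
        simp only [pow_zero] at h2
        linarith
      calc C * (r ^ 5 + 28 * C * (G * r ^ 40)) * r ^ 100 ≤ C * (1 + 28 * C * 3) * r ^ 45 :=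
            mul_le_mul (mul_le_mul_of_nonneg_left h1 hC0) (hpw 45 100 (by norm_num))
              (by positivity) (by positivity)
        _ = (C + 84 * C ^ 2) * r ^ 45 := by ring
        _ ≤ (C + 84 * C ^ 2) * (r ^ 45 * g) := by
            gcongr
            exact le_mul_of_one_le_right (by positivity) hg
    have e8 : g * ((12 * C + 112 * C ^ 2) * r ^ 45) =
      12 * (C * r ^ 45 * g) + 112 * C ^ 2 * (r ^ 45 * g) := by ring
    have e9 : (C + 84 * C ^ 2) * (r ^ 45 * g) = (C * r ^ 45 * g) + 84 * C ^ 2 * (r ^ 45 * g) := by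
      ring
    rw [e8]
    rw [e9] at e7
    linarith
  -- assembling
  set a : ℝ := η + 2 * r + 42 * C ^ 2 * (G * r ^ 40) with ha
  have ha0 : 0 ≤ a := by positivity
  have T1 : 0 ≤ (2 * r - 10 * r ^ 7 - C / 2 * r ^ 2 - C * (ω * r ^ 8) * r ^ 6 - C * r ^ 5) * w :=
    mul_nonneg cw hw
  have T2 : 0 ≤ (2 * r + 42 * C ^ 2 * (G * r ^ 40)) * ω * z := by positivity
  have T3 : 0 ≤ r ^ 40 * (14 * C / 2 - C - C * (ω * (G * r ^ 40))) * e :=
    mul_nonneg (mul_nonneg (by positivity) ce) he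
  have T4 : 0 ≤ (1 + a) * (14 * C * r ^ 40) * e := by positivity
  have T5 : 0 ≤ (1 + a) * (r ^ 5 + 28 * C * (G * r ^ 40)) * t := by positivity
  have T6 : 0 ≤ (C * r ^ 10 + 2 * (28 * C) * (G * r ^ 40)) * (p / 8 - t) := by
    apply mul_nonneg (by positivity); linarith
  have T7 : 0 ≤ (1 / 2 * r ^ 5 - C * (ω * r ^ 8) * r ^ 6 - C * r ^ 10 / 8) * p := mul_nonneg cp hp
  have T8 := mul_nonneg cpU hp
  have T9 := mul_nonneg cm hm
  have key : (1 + η + 2 * r + 42 * C ^ 2 * (G * r ^ 40)) *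
      (w + ω * z + 14 * C * r ^ 40 * e + (r ^ 5 + 28 * C * (G * r ^ 40)) * t) +
      m * (g * ((12 * C + 112 * C ^ 2) * r ^ 45)) -
      ((1 + 10 * r ^ 7) * w + (η * w + ω * η * z) + C * (t * r ^ 10 + m * r ^ 96) +
      (C * ((r ^ 2 * w + r ^ 78 * m) / 2) + C * r ^ 40 * e + C * (G * r ^ 40) * p) +
      ω * (z + C * ((w + p) * r ^ 14 + m * r ^ 53 + (m + G * e + G ^ 2 * p) * r ^ 80 +
        m * r ^ 100)) +
      14 * C * r ^ 40 * (-(1 / 2 * e) + C * (G * (w + m * r ^ 39))) +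
      (r ^ 5 + 28 * C * (G * r ^ 40)) * (-(1 / 2 * p) + C * w + C * (m * r ^ 100)) +
      2 * (28 * C) * (G * r ^ 40) * t) =
      (2 * r - 10 * r ^ 7 - C / 2 * r ^ 2 - C * (ω * r ^ 8) * r ^ 6 - C * r ^ 5) * w +
      (2 * r + 42 * C ^ 2 * (G * r ^ 40)) * ω * z +
      r ^ 40 * (14 * C / 2 - C - C * (ω * (G * r ^ 40))) * e +
      (1 + a) * (14 * C * r ^ 40) * e +
      (1 + a) * (r ^ 5 + 28 * C * (G * r ^ 40)) * t +
      (C * r ^ 10 + 2 * (28 * C) * (G * r ^ 40)) * (p / 8 - t) +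
      (1 / 2 * r ^ 5 - C * (ω * r ^ 8) * r ^ 6 - C * r ^ 10 / 8) * p +
      (G * r ^ 40) * (28 * C / 4 - C - C * (ω * (G * r ^ 40))) * p +
      (g * ((12 * C + 112 * C ^ 2) * r ^ 45) - C * r ^ 96 - C / 2 * r ^ 78 -
      C * (ω * r ^ 8) * r ^ 45 - C * (ω * r ^ 8) * r ^ 72 - C * (ω * r ^ 8) * r ^ 92 -
      14 * C ^ 2 * (G * r ^ 20) * r ^ 59 - C * (r ^ 5 + 28 * C * (G * r ^ 40)) * r ^ 100) * m := by
    rw [ha]; ring
  linarith


/-- `log √G2` -/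
noncomputable def BG_L (q s : ℝ) : ℝ := Real.log (G2 q s) / 2

noncomputable def BG_eta (q s : ℝ) : ℝ := q⁻¹ ^ 4 + Real.exp (BG_L q s / 2) * q⁻¹ ^ 10

noncomputable def BG_om (q s : ℝ) : ℝ := 3 / BG_eta q s ^ 2

noncomputable def BG_B (C q s : ℝ) : ℝ :=
  (1 + q⁻¹ ^ 4 + 2 * q⁻¹) * BG_L q s + 2 * (Real.exp (BG_L q s / 2) * q⁻¹ ^ 10) + 42 * C ^ 2 * s

theorem BG_G2_pos {q s : ℝ} (hq : 1 ≤ q) (hs : 0 ≤ s) : 1 ≤ G2 q s := by
  unfold G2
  have : 0 ≤ 2 * q ^ 40 * s := by positivity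
  linarith

theorem BG_Dd_pos {q s : ℝ} (hq : 1 ≤ q) (hs : 0 ≤ s) : 0 < Dd q s := by
  unfold Dd
  have := BG_G2_pos hq hs
  positivity

theorem BG_L_deriv {q s : ℝ} (hq : 1 ≤ q) (hs : 0 ≤ s) : HasDerivAt (BG_L q) (Dd q s) s := by
  have h1 := BG_G2_pos hq hs
  have h2 := ((G2_deriv q s).log (by linarith)).div_const 2
  refine h2.congr_deriv ?_
  unfold Dd
  ring

theorem BG_L_nonneg {q s : ℝ} (hq : 1 ≤ q) (hs : 0 ≤ s) : 0 ≤ BG_L q s := by
  unfold BG_L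
  have := Real.log_nonneg (BG_G2_pos hq hs)
  linarith

theorem BG_eta_pos {q s : ℝ} (hq : 1 ≤ q) : 0 < BG_eta q s := by
  unfold BG_eta
  positivity

theorem BG_eta_deriv {q s : ℝ} (hq : 1 ≤ q) (hs : 0 ≤ s) :
    HasDerivAt (BG_eta q) (Real.exp (BG_L q s / 2) * (Dd q s / 2) * q⁻¹ ^ 10) s := by
  have h2 := (((BG_L_deriv hq hs).div_const 2).exp.mul_const (q⁻¹ ^ 10)).const_add (q⁻¹ ^ 4)
  exact h2

theorem BG_om_deriv {q s : ℝ} (hq : 1 ≤ q) (hs : 0 ≤ s) :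
    ∃ d ≤ 0, HasDerivAt (BG_om q) d s := by
  have h1 := BG_eta_pos (s := s) hq
  have h2 := ((BG_eta_deriv hq hs).pow 2)
  have h3 := (hasDerivAt_const s (3 : ℝ)).div h2 (pow_ne_zero 2 h1.ne')
  refine ⟨_, ?_, h3⟩
  have h4 : 0 ≤ Real.exp (BG_L q s / 2) * (Dd q s / 2) * q⁻¹ ^ 10 := by
    have := BG_Dd_pos hq hs
    positivity
  apply div_nonpos_of_nonpos_of_nonneg
  · have : 0 ≤ 3 * (((2 : ℕ) : ℝ) * BG_eta q s ^ (2 - 1) *
      (Real.exp (BG_L q s / 2) * (Dd q s / 2) * q⁻¹ ^ 10)) := by positivity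
    linarith
  · positivity

theorem BG_B_deriv (C : ℝ) {q s : ℝ} (hq : 1 ≤ q) (hs : 0 ≤ s) :
    HasDerivAt (BG_B C q)
      (Dd q s * (1 + BG_eta q s + 2 * q⁻¹ + 42 * C ^ 2 * (G2 q s * q⁻¹ ^ 40))) s := by
  have h2 := ((((BG_L_deriv hq hs).const_mul (1 + q⁻¹ ^ 4 + 2 * q⁻¹)).add
    ((((BG_L_deriv hq hs).div_const 2).exp.mul_const (q⁻¹ ^ 10)).const_mul 2)).add
    ((hasDerivAt_id s).const_mul (42 * C ^ 2)))
  refine h2.congr_deriv ?_
  have h3 : Dd q s * (G2 q s * q⁻¹ ^ 40) = 1 := by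
    unfold Dd
    have h4 := BG_G2_pos hq hs
    field_simp
  have h5 : Dd q s * (1 + BG_eta q s + 2 * q⁻¹ + 42 * C ^ 2 * (G2 q s * q⁻¹ ^ 40)) =
      Dd q s * (1 + BG_eta q s + 2 * q⁻¹) + 42 * C ^ 2 * (Dd q s * (G2 q s * q⁻¹ ^ 40)) := by ring
  rw [h5, h3]
  unfold BG_eta
  ring

theorem BG_exp {q s : ℝ} (hq : 1 ≤ q) (hs : 0 ≤ s) :
    G2 q s = Real.exp (BG_L q s) ^ 2 ∧ Real.exp (BG_L q s) = Real.exp (BG_L q s / 2) ^ 2 := by
  constructor
  · rw [← Real.exp_nat_mul]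
    have : ((2 : ℕ) : ℝ) * BG_L q s = Real.log (G2 q s) := by
      unfold BG_L; push_cast; ring
    rw [this, Real.exp_log]
    linarith [BG_G2_pos hq hs]
  · rw [← Real.exp_nat_mul]
    congr 1
    push_cast
    ring

/-- the facts about `ω`, `η`, `g` used in `BG_point` -/
theorem BG_facts {q s : ℝ} (hq : 1 ≤ q) (hs : 0 ≤ s) (hs1 : s ≤ 1) :
    0 ≤ BG_om q s ∧ BG_om q s * BG_eta q s ^ 2 = 3 ∧ BG_om q s * q⁻¹ ^ 8 ≤ 3 ∧
    BG_om q s * (G2 q s * q⁻¹ ^ 40) ≤ 6 ∧ G2 q s * q⁻¹ ^ 40 ≤ 3 ∧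
    1 ≤ Real.exp (BG_L q s) ∧ Real.exp (BG_L q s) * q⁻¹ ^ 20 ≤ 2 ∧
    G2 q s * q⁻¹ ^ 20 ≤ 2 * Real.exp (BG_L q s) ∧ Real.exp (BG_L q s / 2) * q⁻¹ ^ 10 ≤ 2 := by
  have hη := BG_eta_pos (s := s) hq
  obtain ⟨e1, e2⟩ := BG_exp hq hs
  set r := q⁻¹ with hr
  have hr0 : 0 < r := by positivity
  have hqr : q * r = 1 := by rw [hr]; field_simp
  set g := Real.exp (BG_L q s) with hg
  set h := Real.exp (BG_L q s / 2) with hh
  have hg0 : 0 < g := Real.exp_pos _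
  have hh0 : 0 < h := Real.exp_pos _
  have hU : G2 q s * r ^ 40 ≤ 3 := by
    unfold G2
    have h1 : (1 + 2 * q ^ 40 * s) * r ^ 40 = r ^ 40 + 2 * (q * r) ^ 40 * s := by ring
    rw [h1, hqr]
    have h2 : r ^ 40 ≤ 1 := pow_le_one₀ hr0.le (by rw [hr]; exact inv_le_one_of_one_le₀ hq)
    linarith
  have hg1 : 1 ≤ g := Real.one_le_exp (BG_L_nonneg hq hs)
  have hg20 : g * r ^ 20 ≤ 2 := by
    have h1 : (g * r ^ 20) ^ 2 ≤ 3 := by
      calc (g * r ^ 20) ^ 2 = g ^ 2 * r ^ 40 := by ring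
        _ ≤ 3 := by rw [← e1]; exact hU
    nlinarith [sq_nonneg (g * r ^ 20)]
  have hh10 : h * r ^ 10 ≤ 2 := by
    have h1 : (h * r ^ 10) ^ 2 ≤ 2 := by
      calc (h * r ^ 10) ^ 2 = h ^ 2 * r ^ 20 := by ring
        _ ≤ 2 := by rw [← e2]; exact hg20
    nlinarith [sq_nonneg (h * r ^ 10)]
  have hom0 : 0 ≤ BG_om q s := by unfold BG_om; positivity
  have homη : BG_om q s * BG_eta q s ^ 2 = 3 := by
    unfold BG_om
    field_simp
  have hη1 : r ^ 8 ≤ BG_eta q s ^ 2 := by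
    have h1 : r ^ 4 ≤ BG_eta q s := by
      unfold BG_eta
      rw [← hr, ← hh]
      have : 0 ≤ h * r ^ 10 := by positivity
      linarith
    calc r ^ 8 = (r ^ 4) ^ 2 := by ring
      _ ≤ _ := pow_le_pow_left₀ (by positivity) h1 2
  have hη2 : g * r ^ 20 ≤ BG_eta q s ^ 2 := by
    have h1 : h * r ^ 10 ≤ BG_eta q s := by
      unfold BG_eta
      rw [← hr, ← hh]
      have : 0 ≤ r ^ 4 := by positivity
      linarith
    calc g * r ^ 20 = (h * r ^ 10) ^ 2 := by rw [e2]; ring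
      _ ≤ _ := pow_le_pow_left₀ (by positivity) h1 2
  refine ⟨hom0, homη, ?_, ?_, hU, hg1, hg20, ?_, hh10⟩
  · calc BG_om q s * r ^ 8 ≤ BG_om q s * BG_eta q s ^ 2 := mul_le_mul_of_nonneg_left hη1 hom0
      _ = 3 := homη
  · calc BG_om q s * (G2 q s * r ^ 40) = (BG_om q s * (g * r ^ 20)) * (g * r ^ 20) := by
          rw [e1]; ring
      _ ≤ (BG_om q s * BG_eta q s ^ 2) * (g * r ^ 20) := by
          apply mul_le_mul_of_nonneg_right _ (by positivity)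
          exact mul_le_mul_of_nonneg_left hη2 hom0
      _ ≤ 6 := by rw [homη]; linarith
  · calc G2 q s * r ^ 20 = (g * r ^ 20) * g := by rw [e1]; ring
      _ ≤ 2 * g := mul_le_mul_of_nonneg_right hg20 hg0.le

theorem BG_ode {C q m s1 : ℝ} {W T P E Z : ℝ → ℝ} (hC : 1 ≤ C) (hq : 1 ≤ q)
    (hCr : C * q⁻¹ ≤ 1 / 10) (hm : 0 ≤ m) (hs1 : s1 ≤ 1)
    (hnn : ∀ s, 0 ≤ s → s ≤ s1 → 0 ≤ W s ∧ 0 ≤ Z s ∧ 0 ≤ T s ∧ 8 * T s ≤ P s ∧ 0 ≤ E s)
    (hW : ∀ s, 0 ≤ s → s ≤ s1 → ∃ d, HasDerivAt W d s ∧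
      d ≤ Dd q s * ((1 + 10 * q⁻¹ ^ 7) * W s + Real.sqrt (12 * W s * Z s) +
        C * (T s * q⁻¹ ^ 10 + m * q⁻¹ ^ 96) +
        C * q⁻¹ ^ 40 * (Real.sqrt (W s * m) + E s + G2 q s * P s)))
    (hZ : ∀ s, 0 ≤ s → s ≤ s1 → ∃ d, HasDerivAt Z d s ∧
      d ≤ Dd q s * (Z s + C * ((W s + P s) * q⁻¹ ^ 14 +
        m * q⁻¹ ^ 53 + (m + G2 q s * E s + G2 q s ^ 2 * P s) * q⁻¹ ^ 80 +
        m * q⁻¹ ^ 100)))
    (hE : ∀ s, 0 ≤ s → s ≤ s1 → ∃ d, HasDerivAt E d s ∧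
      d ≤ Dd q s * (-(1 / 2 * E s) + C * (G2 q s * (W s + m * q⁻¹ ^ 39))))
    (hT : ∀ s, 0 ≤ s → s ≤ s1 → ∃ d, HasDerivAt T d s ∧
      d ≤ Dd q s * (-(1 / 2 * P s) + C * W s + C * (m * q⁻¹ ^ 100)))
    (s : ℝ) (h0 : 0 ≤ s) (h1 : s ≤ s1) :
    W s ≤ Real.exp (BG_B C q s) * ((W 0 + BG_om q 0 * Z 0 + 14 * C * q⁻¹ ^ 40 * E 0 +
      (q⁻¹ ^ 5 + 28 * C * (G2 q 0 * q⁻¹ ^ 40)) * T 0) +
      m * ((12 * C + 112 * C ^ 2) * q⁻¹ ^ 45) * BG_L q s) := by
  set r := q⁻¹ with hr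
  have hr0 : 0 < r := by positivity
  have hqr : q * r = 1 := by rw [hr]; field_simp
  set K : ℝ := (12 * C + 112 * C ^ 2) * r ^ 45 with hK
  have hK0 : 0 ≤ K := by positivity
  set F : ℝ → ℝ := fun s => W s + BG_om q s * Z s + 14 * C * r ^ 40 * E s +
      (r ^ 5 + 28 * C * (G2 q s * r ^ 40)) * T s with hF
  set Ψ : ℝ → ℝ := fun s => F s * Real.exp (-BG_B C q s) - m * K * BG_L q s with hΨ
  have hder : ∀ s, 0 ≤ s → s ≤ s1 → ∃ d, HasDerivAt Ψ d s ∧ d ≤ 0 := by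
    intro s h0 h1
    obtain ⟨w0, z0, t0, tp, e0⟩ := hnn s h0 h1
    obtain ⟨dW, hdW, bW⟩ := hW s h0 h1
    obtain ⟨dZ, hdZ, bZ⟩ := hZ s h0 h1
    obtain ⟨dE, hdE, bE⟩ := hE s h0 h1
    obtain ⟨dT, hdT, bT⟩ := hT s h0 h1
    obtain ⟨dω, bω, hdω⟩ := BG_om_deriv hq h0
    have hdB := BG_B_deriv C hq h0
    have hdL := BG_L_deriv hq h0
    have hDd := BG_Dd_pos hq h0
    obtain ⟨f1, f2, f3, f4, f5, f6, f7, f8, _⟩ := BG_facts hq h0 (h1.trans hs1)
    have hG := BG_G2_pos hq h0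
    have hη := BG_eta_pos (s := s) hq
    have hpt := BG_point (C := C) (r := r) (η := BG_eta q s) (ω := BG_om q s) (G := G2 q s)
      (g := Real.exp (BG_L q s)) (w := W s) (z := Z s) (t := T s) (p := P s) (e := E s) (m := m)
      hC hr0 hCr hη f1 f2 f3 f4 (by linarith) f5 f6 f8 w0 z0 t0 tp e0 hm
    have hDG : Dd q s * (G2 q s * r ^ 40) = 1 := by
      unfold Dd
      rw [hr]
      field_simp
    -- derivative of F
    have hdF : HasDerivAt F (dW + (dω * Z s + BG_om q s * dZ) + 14 * C * r ^ 40 * dE +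
        ((28 * C * (2 * q ^ 40 * r ^ 40)) * T s +
          (r ^ 5 + 28 * C * (G2 q s * r ^ 40)) * dT)) s := by
      have h2 := ((((G2_deriv q s).mul_const (r ^ 40)).const_mul (28 * C)).const_add (r ^ 5))
      exact (((hdW.add (hdω.mul hdZ)).add (hdE.const_mul (14 * C * r ^ 40))).add (h2.mul hdT))
    have hq40 : q ^ 40 * r ^ 40 = 1 := by rw [← mul_pow, hqr, one_pow]
    have hbF : dW + (dω * Z s + BG_om q s * dZ) + 14 * C * r ^ 40 * dE +
        ((28 * C * (2 * q ^ 40 * r ^ 40)) * T s +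
          (r ^ 5 + 28 * C * (G2 q s * r ^ 40)) * dT) ≤
        Dd q s * ((1 + BG_eta q s + 2 * r + 42 * C ^ 2 * (G2 q s * r ^ 40)) * F s +
          m * (Real.exp (BG_L q s) * K)) := by
      have b1 : dω * Z s ≤ 0 := mul_nonpos_of_nonpos_of_nonneg bω z0
      have b2 := mul_le_mul_of_nonneg_left bZ f1
      have b3 := mul_le_mul_of_nonneg_left bE (show 0 ≤ 14 * C * r ^ 40 by positivity)
      have b4 := mul_le_mul_of_nonneg_left bT
        (show 0 ≤ r ^ 5 + 28 * C * (G2 q s * r ^ 40) by positivity)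
      have b5 : 28 * C * (2 * q ^ 40 * r ^ 40) * T s =
          Dd q s * (2 * (28 * C) * (G2 q s * r ^ 40) * T s) := by
        calc 28 * C * (2 * q ^ 40 * r ^ 40) * T s = 2 * (28 * C) * T s * (q ^ 40 * r ^ 40) := by
              ring
          _ = 2 * (28 * C) * T s * (Dd q s * (G2 q s * r ^ 40)) := by rw [hq40, hDG]
          _ = _ := by ring
      have b6 := mul_le_mul_of_nonneg_left hpt hDd.le
      refine le_trans ?_ b6
      rw [b5]
      have b7 := add_le_add (add_le_add (add_le_add (add_le_add bW b1) b2) b3) b4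
      refine le_trans (le_of_eq ?_) (le_trans (add_le_add_left b7
        (Dd q s * (2 * (28 * C) * (G2 q s * r ^ 40) * T s))) (le_of_eq ?_))
      · ring
      · ring
    have hdΨ : HasDerivAt Ψ ((dW + (dω * Z s + BG_om q s * dZ) + 14 * C * r ^ 40 * dE +
        ((28 * C * (2 * q ^ 40 * r ^ 40)) * T s +
          (r ^ 5 + 28 * C * (G2 q s * r ^ 40)) * dT)) * Real.exp (-BG_B C q s) +
        F s * (Real.exp (-BG_B C q s) * (-(Dd q s * (1 + BG_eta q s + 2 * r +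
          42 * C ^ 2 * (G2 q s * r ^ 40))))) - m * K * Dd q s) s :=
      (hdF.mul hdB.neg.exp).sub (hdL.const_mul (m * K))
    refine ⟨_, hdΨ, ?_⟩
    have hexp : Real.exp (BG_L q s) * Real.exp (-BG_B C q s) ≤ 1 := by
      rw [← Real.exp_add]
      apply Real.exp_le_one_iff.mpr
      unfold BG_B
      rw [← hr]
      have hL := BG_L_nonneg hq h0
      have c1 : 0 ≤ (r ^ 4 + 2 * r) * BG_L q s := by positivity
      have c2 : 0 ≤ 2 * (Real.exp (BG_L q s / 2) * r ^ 10) := by positivity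
      have c3 : 0 ≤ 42 * C ^ 2 * s := by positivity
      have c4 : (1 + r ^ 4 + 2 * r) * BG_L q s = BG_L q s + (r ^ 4 + 2 * r) * BG_L q s := by ring
      linarith
    have hE0 := Real.exp_pos (-BG_B C q s)
    have d1 := mul_le_mul_of_nonneg_right hbF hE0.le
    have d2 : m * K * Dd q s * (Real.exp (BG_L q s) * Real.exp (-BG_B C q s)) ≤
        m * K * Dd q s * 1 := mul_le_mul_of_nonneg_left hexp (by positivity)
    refine le_trans (sub_le_sub_right (add_le_add_left d1 _) _) ?_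
    refine le_trans (le_of_eq ?_) (sub_nonpos.mpr d2)
    ring
  -- monotonicity
  have hanti : AntitoneOn Ψ (Set.Icc 0 s1) := by
    apply antitoneOn_of_deriv_nonpos (convex_Icc 0 s1)
    · intro x hx
      obtain ⟨d, hd, _⟩ := hder x hx.1 hx.2
      exact hd.continuousAt.continuousWithinAt
    · intro x hx
      rw [interior_Icc] at hx
      obtain ⟨d, hd, _⟩ := hder x hx.1.le hx.2.le
      exact hd.differentiableAt.differentiableWithinAt
    · intro x hx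
      rw [interior_Icc] at hx
      obtain ⟨d, hd, hd'⟩ := hder x hx.1.le hx.2.le
      rw [hd.deriv]
      exact hd'
  have hfin := hanti (Set.mem_Icc.mpr ⟨le_rfl, h0.trans h1⟩) (Set.mem_Icc.mpr ⟨h0, h1⟩) h0
  have hL0 : BG_L q 0 = 0 := by
    unfold BG_L G2; simp
  have hB0 : 0 ≤ BG_B C q 0 := by
    unfold BG_B
    rw [hL0]
    positivity
  obtain ⟨w0, z0, t0, tp, e0⟩ := hnn s h0 h1
  obtain ⟨w00, z00, t00, tp0, e00⟩ := hnn 0 le_rfl (h0.trans h1)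
  obtain ⟨f1, _⟩ := BG_facts hq h0 (h1.trans hs1)
  obtain ⟨f10, _⟩ := BG_facts (s := 0) hq le_rfl zero_le_one
  have hG := BG_G2_pos hq h0
  have hG0 := BG_G2_pos (s := 0) hq le_rfl
  have hF0 : 0 ≤ F 0 := by
    simp only [hF]
    positivity
  have hWF : W s ≤ F s := by
    simp only [hF]
    have c1 : 0 ≤ BG_om q s * Z s := mul_nonneg f1 z0
    have c2 : 0 ≤ 14 * C * r ^ 40 * E s := by positivity
    have c3 : 0 ≤ (r ^ 5 + 28 * C * (G2 q s * r ^ 40)) * T s := by positivity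
    linarith
  simp only [hΨ] at hfin
  rw [hL0, mul_zero, sub_zero] at hfin
  have hexp0 : Real.exp (-BG_B C q 0) ≤ 1 := Real.exp_le_one_iff.mpr (by linarith)
  have g1 : F 0 * Real.exp (-BG_B C q 0) ≤ F 0 := by
    calc F 0 * Real.exp (-BG_B C q 0) ≤ F 0 * 1 := mul_le_mul_of_nonneg_left hexp0 hF0
      _ = F 0 := mul_one _
  have g2 : F s * Real.exp (-BG_B C q s) ≤ F 0 + m * K * BG_L q s := by linarith
  have g3 : F s = Real.exp (BG_B C q s) * (F s * Real.exp (-BG_B C q s)) := by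
    rw [Real.exp_neg]
    field_simp
  refine hWF.trans ?_
  rw [g3]
  exact mul_le_mul_of_nonneg_left g2 (Real.exp_pos _).le

theorem BG_L_le {q s : ℝ} (hq : 1 ≤ q) (hs : 0 ≤ s) (hs1 : s ≤ 1) : BG_L q s ≤ 21 * q := by
  have hG := BG_G2_pos hq hs
  have h1 : G2 q s ≤ 3 * q ^ 40 := by
    unfold G2
    have h2 : 1 ≤ q ^ 40 := one_le_pow₀ hq
    have h3 : 2 * q ^ 40 * s ≤ 2 * q ^ 40 * 1 := mul_le_mul_of_nonneg_left hs1 (by positivity)
    linarith
  have h2 : Real.log (G2 q s) ≤ Real.log (3 * q ^ 40) := Real.log_le_log (by linarith) h1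
  have h3 : Real.log (3 * q ^ 40) = Real.log 3 + 40 * Real.log q := by
    rw [Real.log_mul (by norm_num) (by positivity), Real.log_pow]
    norm_num
  have h4 : Real.log 3 ≤ 2 := by
    have := Real.log_le_sub_one_of_pos (show (0 : ℝ) < 3 by norm_num)
    linarith
  have h5 : Real.log q ≤ q - 1 := Real.log_le_sub_one_of_pos (by linarith)
  unfold BG_L
  linarith

theorem BG_B_le {C q s : ℝ} (hq : 1 ≤ q) (hs : 0 ≤ s) (hs1 : s ≤ 1) :
    BG_B C q s ≤ BG_L q s + (67 + 42 * C ^ 2) := by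
  obtain ⟨_, _, _, _, _, _, _, _, f9⟩ := BG_facts hq hs hs1
  have hL := BG_L_le hq hs hs1
  have hL0 := BG_L_nonneg hq hs
  unfold BG_B
  set r := q⁻¹ with hr
  have hr0 : 0 < r := by positivity
  have hr1 : r ≤ 1 := by rw [hr]; exact inv_le_one_of_one_le₀ hq
  have hqr : q * r = 1 := by rw [hr]; field_simp
  have h1 : r ^ 4 ≤ r := by
    calc r ^ 4 ≤ r ^ 1 := pow_le_pow_of_le_one hr0.le hr1 (by norm_num)
      _ = r := pow_one r
  have h2 : (r ^ 4 + 2 * r) * BG_L q s ≤ (3 * r) * (21 * q) :=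
    mul_le_mul (by linarith) hL hL0 (by positivity)
  have h3 : (3 * r) * (21 * q) = 63 := by
    calc (3 * r) * (21 * q) = 63 * (q * r) := by ring
      _ = 63 := by rw [hqr]; norm_num
  have h4 : 42 * C ^ 2 * s ≤ 42 * C ^ 2 * 1 := mul_le_mul_of_nonneg_left hs1 (by positivity)
  have h5 : (1 + r ^ 4 + 2 * r) * BG_L q s = BG_L q s + (r ^ 4 + 2 * r) * BG_L q s := by ring
  rw [h5]
  linarith

/-- the numerical end of the argument -/
theorem BG_num {C q m s ω0 W0 Z0 E0 T0 L : ℝ} (hC : 1 ≤ C) (hq1 : 1 ≤ q)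
    (hCr : C * q⁻¹ ≤ 1 / 10) (hm : 0 ≤ m) (hω0 : 0 ≤ ω0) (hω : ω0 * q⁻¹ ^ 8 ≤ 3)
    (hW : W0 ≤ m * q⁻¹ ^ 47) (hZ : Z0 ≤ m * q⁻¹ ^ 57) (hE : E0 ≤ 0) (hT : T0 ≤ m * q⁻¹ ^ 37)
    (hL : L ≤ 21 * q) :
    (W0 + ω0 * Z0 + 14 * C * q⁻¹ ^ 40 * E0 +
      (q⁻¹ ^ 5 + 28 * C * (1 * q⁻¹ ^ 40)) * T0) +
      m * ((12 * C + 112 * C ^ 2) * q⁻¹ ^ 45) * L ≤ 30 * (m * q⁻¹ ^ 42) := by
  set r := q⁻¹ with hr
  have hr0 : 0 < r := by positivity
  have hqr : q * r = 1 := by rw [hr]; field_simp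
  have hr1 : r ≤ 1 / 10 := by nlinarith
  have hC0 : 0 ≤ C := by linarith
  have hX : 0 ≤ m * r ^ 42 := by positivity
  have hpw : ∀ n k : ℕ, n ≤ k → r ^ k ≤ r ^ n := fun n k h =>
    pow_le_pow_of_le_one hr0.le (by linarith) h
  have a1 : W0 ≤ m * r ^ 42 := hW.trans (mul_le_mul_of_nonneg_left (hpw 42 47 (by norm_num)) hm)
  have a2 : ω0 * Z0 ≤ 1 / 2 * (m * r ^ 42) := by
    calc ω0 * Z0 ≤ ω0 * (m * r ^ 57) := mul_le_mul_of_nonneg_left hZ hω0
      _ = (ω0 * r ^ 8) * (m * r ^ 42) * r ^ 7 := by ring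
      _ ≤ 3 * (m * r ^ 42) * r ^ 7 := by
          apply mul_le_mul_of_nonneg_right _ (by positivity)
          exact mul_le_mul_of_nonneg_right hω hX
      _ ≤ 3 * (m * r ^ 42) * (1 / 10) := by
          apply mul_le_mul_of_nonneg_left _ (by positivity)
          calc r ^ 7 ≤ r ^ 1 := hpw 1 7 (by norm_num)
            _ ≤ 1 / 10 := by rw [pow_one]; exact hr1
      _ ≤ _ := by nlinarith
  have a3 : 14 * C * r ^ 40 * E0 ≤ 0 := mul_nonpos_of_nonneg_of_nonpos (by positivity) hE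
  have a4 : (r ^ 5 + 28 * C * (1 * r ^ 40)) * T0 ≤ 2 * (m * r ^ 42) := by
    have b1 : 28 * C * (1 * r ^ 40) ≤ r ^ 5 := by
      calc 28 * C * (1 * r ^ 40) = 28 * (C * r) * r ^ 5 * r ^ 34 := by ring
        _ ≤ 28 * (1 / 10) * r ^ 5 * r ^ 34 := by gcongr
        _ ≤ 28 * (1 / 10) * r ^ 5 * (1 / 100) := by
            apply mul_le_mul_of_nonneg_left _ (by positivity)
            calc r ^ 34 ≤ r ^ 2 := hpw 2 34 (by norm_num)
              _ ≤ (1 / 10) ^ 2 := pow_le_pow_left₀ hr0.le hr1 2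
              _ = 1 / 100 := by norm_num
        _ ≤ r ^ 5 := by nlinarith [pow_pos hr0 5]
    calc (r ^ 5 + 28 * C * (1 * r ^ 40)) * T0 ≤
        (r ^ 5 + 28 * C * (1 * r ^ 40)) * (m * r ^ 37) :=
          mul_le_mul_of_nonneg_left hT (by positivity)
      _ ≤ (2 * r ^ 5) * (m * r ^ 37) := by
          apply mul_le_mul_of_nonneg_right _ (by positivity)
          linarith
      _ = _ := by ring
  have a5 : m * ((12 * C + 112 * C ^ 2) * r ^ 45) * L ≤ 26.04 * (m * r ^ 42) := by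
    calc m * ((12 * C + 112 * C ^ 2) * r ^ 45) * L ≤
        m * ((12 * C + 112 * C ^ 2) * r ^ 45) * (21 * q) :=
          mul_le_mul_of_nonneg_left hL (by positivity)
      _ = 21 * (12 * (C * r) * r + 112 * (C * r) ^ 2) * (m * r ^ 42) * (q * r) := by ring
      _ = 21 * (12 * (C * r) * r + 112 * (C * r) ^ 2) * (m * r ^ 42) := by rw [hqr, mul_one]
      _ ≤ 21 * (12 * (1 / 10) * (1 / 10) + 112 * (1 / 10) ^ 2) * (m * r ^ 42) := by gcongr
      _ = _ := by ring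
  linarith

theorem BG_main (C1 C2 : ℝ) (h1 : 1 ≤ C1) (h2 : 1 ≤ C2) : ∃ q0 : ℝ, 1 ≤ q0 ∧
    ∀ (V : Type) [DecidableEq V] (H : Finset (Finset V)) (M : Finset V) (N : V → ℝ)
      (q s1 Θ : ℝ) (p : V → ℝ → ℝ) (π e : Finset V → ℝ → ℝ) (X : Finset (Finset V)),
      BD H M N q s1 C1 C2 Θ p π e X → q0 ≤ q →
      WB H M N q p π 0 ≤ M.card / q ^ 47 → ZB H M N q p π 0 ≤ M.card / q ^ 57 →
      TB H M q p π 0 ≤ M.card / q ^ 37 →
      ∀ s, 0 ≤ s → s ≤ s1 →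
      WB H M N q p π s ≤ M.card * Real.sqrt (G2 q s) / q ^ 41 := by
  obtain ⟨Cw, hCw, HW⟩ := BW_main C1 C2 h1 h2
  obtain ⟨Ct, hCt, HT⟩ := BT_main C1 C2 h1 h2
  obtain ⟨Ce, hCe, HE⟩ := EB_main C1 C2 h1 h2
  obtain ⟨Cz, hCz, HZ⟩ := BZ_main C1 C2 h1 h2
  obtain ⟨C, hC, hwC, htC, heC, hzC⟩ : ∃ C : ℝ, 1 ≤ C ∧ Cw ≤ C ∧ Ct ≤ C ∧ Ce ≤ C ∧ Cz ≤ C :=
    ⟨Cw + Ct + Ce + Cz, by linarith, by linarith, by linarith, by linarith, by linarith⟩
  refine ⟨10 * C + 30 * Real.exp (67 + 42 * C ^ 2), ?_, ?_⟩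
  · have := Real.exp_pos (67 + 42 * C ^ 2)
    linarith
  intro V _ H M N q s1 Θ p π e X b hq0 hW0 hZ0 hT0 s hs0 hs1
  have hexp5 := Real.exp_pos (67 + 42 * C ^ 2)
  have hq : 1 ≤ q := b.hq
  have hqpos : 0 < q := by linarith
  have hs1' : s1 ≤ 1 := b.hs1
  set r := q⁻¹ with hr
  have hr0 : 0 < r := by positivity
  have hqr : q * r = 1 := by rw [hr]; field_simp
  have hCr : C * r ≤ 1 / 10 := by
    have : 10 * C * r ≤ q * r := mul_le_mul_of_nonneg_right (by linarith) hr0.le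
    rw [hqr] at this
    linarith
  have hdiv : ∀ (x : ℝ) (n : ℕ), x / q ^ n = x * r ^ n := by
    intro x n
    rw [hr, inv_pow, div_eq_mul_inv]
  have hm : (0 : ℝ) ≤ M.card := Nat.cast_nonneg _
  -- nonnegativity
  have hp0 : ∀ s, 0 ≤ s → s ≤ s1 → ∀ x ∈ M, 0 ≤ p x s := fun s a c x hx =>
    (b.ppos x hx s a c).le
  have nW : ∀ s, 0 ≤ s → s ≤ s1 → 0 ≤ WB H M N q p π s := fun s a c =>
    Finset.sum_nonneg fun x hx => mul_nonneg (hp0 s a c x hx) (ff_nonneg _)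
  have nZ : ∀ s, 0 ≤ s → s ≤ s1 → 0 ≤ ZB H M N q p π s := fun s a c =>
    Finset.sum_nonneg fun x hx => mul_nonneg (hp0 s a c x hx) (sq_nonneg _)
  have nt8 : ∀ x, 0 ≤ t8 x := fun x => by unfold t8; positivity
  have nT : ∀ s, 0 ≤ s → s ≤ s1 → 0 ≤ TB H M q p π s := fun s a c =>
    Finset.sum_nonneg fun x hx => mul_nonneg (hp0 s a c x hx) (nt8 _)
  have nE : ∀ s, 0 ≤ s → s ≤ s1 → 0 ≤ EB M q p s := fun s a c =>
    Finset.sum_nonneg fun x hx => mul_nonneg (hp0 s a c x hx) (by unfold ph; positivity)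
  have nTP : ∀ s, 0 ≤ s → s ≤ s1 → 8 * TB H M q p π s ≤ TP H M q p π s := by
    intro s a c
    unfold TB TP
    rw [Finset.mul_sum]
    apply Finset.sum_le_sum
    intro x hx
    have h3 := hp0 s a c x hx
    have h4 : 8 * t8 (th H q p π x s) ≤ th H q p π x s * t8 (th H q p π x s) := by
      rcases le_total (th H q p π x s) 8 with h | h
      · have : t8 (th H q p π x s) = 0 := by
          unfold t8
          rw [max_eq_right (by linarith)]
          norm_num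
        rw [this]; simp
      · exact mul_le_mul_of_nonneg_right h (nt8 _)
    calc 8 * (p x s * t8 (th H q p π x s)) = p x s * (8 * t8 (th H q p π x s)) := by ring
      _ ≤ _ := mul_le_mul_of_nonneg_left h4 h3
  have nP : ∀ s, 0 ≤ s → s ≤ s1 → 0 ≤ TP H M q p π s := fun s a c => by
    have := nT s a c
    have := nTP s a c
    linarith
  have hE0 : EB M q p 0 ≤ 0 := by
    unfold EB
    apply le_of_eq
    apply Finset.sum_eq_zero
    intro x hx
    have h3 : ze q p x 0 = 0 := by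
      unfold ze G2
      rw [b.p0 x hx]
      simp
    rw [h3]
    unfold ph
    simp
  have key := BG_ode (C := C) (q := q) (m := (M.card : ℝ)) (s1 := s1)
    (W := WB H M N q p π) (T := TB H M q p π) (P := TP H M q p π) (E := EB M q p)
    (Z := ZB H M N q p π) hC hq hCr hm hs1'
    (fun s a c => ⟨nW s a c, nZ s a c, nT s a c, nTP s a c, nE s a c⟩)
    (by
      intro s a c
      obtain ⟨d, hd, hb⟩ := HW V H M N q s1 Θ p π e X b s a c
      refine ⟨d, hd, hb.trans ?_⟩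
      simp only [hdiv]
      have hD := (BG_Dd_pos hq a).le
      apply mul_le_mul_of_nonneg_left _ hD
      have g0 := BG_G2_pos hq a
      have t1 : Cw * (TB H M q p π s * r ^ 10 + M.card * r ^ 96) ≤
          C * (TB H M q p π s * r ^ 10 + M.card * r ^ 96) := by
        apply mul_le_mul_of_nonneg_right hwC
        have := nT s a c
        positivity
      have t2 : Cw * r ^ 40 * (Real.sqrt (WB H M N q p π s * M.card) + EB M q p s +
          G2 q s * TP H M q p π s) ≤ C * r ^ 40 * (Real.sqrt (WB H M N q p π s * M.card) +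
          EB M q p s + G2 q s * TP H M q p π s) := by
        apply mul_le_mul_of_nonneg_right
        · exact mul_le_mul_of_nonneg_right hwC (by positivity)
        · have := nE s a c
          have := nP s a c
          positivity
      linarith)
    (by
      intro s a c
      obtain ⟨d, hd, hb⟩ := HZ V H M N q s1 Θ p π e X b s a c
      refine ⟨d, hd, hb.trans ?_⟩
      simp only [hdiv]
      have hD := (BG_Dd_pos hq a).le
      apply mul_le_mul_of_nonneg_left _ hD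
      have g0 := BG_G2_pos hq a
      have := nE s a c
      have := nP s a c
      have := nW s a c
      have t1 : Cz * ((WB H M N q p π s + TP H M q p π s) * r ^ 14 +
        M.card * r ^ 53 + (M.card + G2 q s * EB M q p s + G2 q s ^ 2 * TP H M q p π s) * r ^ 80 +
        M.card * r ^ 100) ≤ C * ((WB H M N q p π s + TP H M q p π s) * r ^ 14 +
        M.card * r ^ 53 + (M.card + G2 q s * EB M q p s + G2 q s ^ 2 * TP H M q p π s) * r ^ 80 +
        M.card * r ^ 100) := by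
        apply mul_le_mul_of_nonneg_right hzC
        positivity
      linarith)
    (by
      intro s a c
      obtain ⟨d, hd, hb⟩ := HE V H M N q s1 Θ p π e X b s a c
      refine ⟨d, hd, hb.trans ?_⟩
      simp only [hdiv]
      have hD := (BG_Dd_pos hq a).le
      apply mul_le_mul_of_nonneg_left _ hD
      have g0 := BG_G2_pos hq a
      have := nW s a c
      have t1 : Ce * (G2 q s * (WB H M N q p π s + M.card * r ^ 39)) ≤
          C * (G2 q s * (WB H M N q p π s + M.card * r ^ 39)) := by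
        apply mul_le_mul_of_nonneg_right heC
        positivity
      linarith)
    (by
      intro s a c
      obtain ⟨d, hd, hb⟩ := HT V H M N q s1 Θ p π e X b s a c
      refine ⟨d, hd, hb.trans ?_⟩
      simp only [hdiv]
      have hD := (BG_Dd_pos hq a).le
      apply mul_le_mul_of_nonneg_left _ hD
      have := nW s a c
      have t1 : Ct * WB H M N q p π s ≤ C * WB H M N q p π s :=
        mul_le_mul_of_nonneg_right htC this
      have t2 : Ct * (M.card * r ^ 100) ≤ C * (M.card * r ^ 100) := by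
        apply mul_le_mul_of_nonneg_right htC
        positivity
      linarith)
    s hs0 hs1
  rw [hdiv] at hW0 hZ0 hT0
  have hs1'' : s ≤ 1 := hs1.trans hs1'
  obtain ⟨f10, _, f30, _⟩ := BG_facts (s := 0) hq le_rfl zero_le_one
  have hG0 : G2 q 0 = 1 := by unfold G2; simp
  rw [hG0] at key
  have hnum := BG_num (s := s) hC hq hCr hm f10 f30 hW0 hZ0 hE0 hT0 (BG_L_le hq hs0 hs1'')
  have hB := BG_B_le (C := C) hq hs0 hs1''
  have hL0 := BG_L_nonneg hq hs0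
  have hsqrt : Real.sqrt (G2 q s) = Real.exp (BG_L q s) := by
    rw [(BG_exp hq hs0).1]
    exact Real.sqrt_sq (Real.exp_pos _).le
  rw [hdiv, hsqrt]
  refine key.trans ?_
  refine (mul_le_mul_of_nonneg_left hnum (Real.exp_pos _).le).trans ?_
  have h5 : Real.exp (BG_B C q s) ≤ Real.exp (BG_L q s) * Real.exp (67 + 42 * C ^ 2) := by
    rw [← Real.exp_add]
    exact Real.exp_le_exp.mpr hB
  have h6 : 30 * Real.exp (67 + 42 * C ^ 2) * r ≤ 1 := by
    have : 30 * Real.exp (67 + 42 * C ^ 2) * r ≤ q * r :=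
      mul_le_mul_of_nonneg_right (by linarith) hr0.le
    rwa [hqr] at this
  calc Real.exp (BG_B C q s) * (30 * (M.card * r ^ 42)) ≤
      (Real.exp (BG_L q s) * Real.exp (67 + 42 * C ^ 2)) * (30 * (M.card * r ^ 42)) :=
        mul_le_mul_of_nonneg_right h5 (by positivity)
    _ = (30 * Real.exp (67 + 42 * C ^ 2) * r) * (M.card * Real.exp (BG_L q s) * r ^ 41) := by ring
    _ ≤ 1 * (M.card * Real.exp (BG_L q s) * r ^ 41) :=
        mul_le_mul_of_nonneg_right h6 (by positivity)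
    _ = _ := one_mul _

end Vale.Agent.P046S
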