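import Vale.Agent.P046S.BG

/-!
P046 sharp constant, module B5 (BM): the conclusion for the mean field system.
-/

namespace Vale.Agent.P046S

open Finset Vale.Agent.P046 Vale.Agent.P046LF

/-- a function is bounded by a bound of the derivative -/
theorem bm_mvt {f f' b b' : ℝ → ℝ} {s1 : ℝ}
    (hf : ∀ s, 0 ≤ s → s ≤ s1 → HasDerivAt f (f' s) s)
    (hb : ∀ s, 0 ≤ s → s ≤ s1 → HasDerivAt b (b' s) s)
    (hle : ∀ s, 0 ≤ s → s ≤ s1 → |f' s| ≤ b' s) :
    ∀ s, 0 ≤ s → s ≤ s1 → |f s - f 0| ≤ b s - b 0 := by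
  intro s hs0 hs1
  have hF : ∀ x ∈ Set.Icc (0 : ℝ) s1, HasDerivAt (fun x => f x - f 0) (f' x) x :=
    fun x hx => (hf x hx.1 hx.2).sub_const _
  have hB : ∀ x ∈ Set.Icc (0 : ℝ) s1, HasDerivAt (fun x => b x - b 0) (b' x) x :=
    fun x hx => (hb x hx.1 hx.2).sub_const _
  have := image_norm_le_of_norm_deriv_right_le_deriv_boundary' (f := fun x => f x - f 0) (f' := f')
    (a := 0) (b := s1) (B := fun x => b x - b 0) (B' := b')
    (fun x hx => (hF x hx).continuousAt.continuousWithinAt)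
    (fun x hx => (hF x ⟨hx.1, hx.2.le⟩).hasDerivWithinAt)
    (by simp)
    (fun x hx => (hB x hx).continuousAt.continuousWithinAt)
    (fun x hx => (hB x ⟨hx.1, hx.2.le⟩).hasDerivWithinAt)
    (fun x hx => by
      rw [Real.norm_eq_abs]
      exact hle x hx.1 hx.2.le)
  have h := this (x := s) ⟨hs0, hs1⟩
  rwa [Real.norm_eq_abs] at h

/-- the numerical part of the bound of the derivative -/
theorem bm_num {r g D u W R P m : ℝ} (hr : 1 ≤ r) (hg : 1 ≤ g) (hD : 0 < D) (hm : 0 < m)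
    (hP : 0 < P) (hu : u = P * g / m) (hW : W ≤ m * g / r ^ 82)
    (hR : R ^ 2 ≤ P * (4 * W + 2 * (m / r ^ 78))) :
    |(-(D * R * g) / m) / (2 * Real.sqrt u)| ≤ D * (g / r ^ 41) + D * (Real.sqrt g / r ^ 39) := by
  have hr0 : 0 < r := by linarith
  have hg0 : 0 < g := by linarith
  have hu0 : 0 < u := by rw [hu]; positivity
  have hsu : 0 < Real.sqrt u := Real.sqrt_pos.mpr hu0
  have hsu2 : Real.sqrt u ^ 2 = u := Real.sq_sqrt hu0.le
  have hsg : 0 < Real.sqrt g := Real.sqrt_pos.mpr hg0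
  have hsg2 : Real.sqrt g ^ 2 = g := Real.sq_sqrt hg0.le
  have hrhs : 0 ≤ D * (g / r ^ 41) + D * (Real.sqrt g / r ^ 39) := by positivity
  apply abs_le_of_sq_le_sq _ hrhs
  have e : ((-(D * R * g) / m) / (2 * Real.sqrt u)) ^ 2 = D ^ 2 * R ^ 2 * g ^ 2 / m ^ 2 / (4 * u) := by
    rw [div_pow, div_pow, mul_pow, hsu2]
    ring
  rw [e, hu]
  have e2 : D ^ 2 * R ^ 2 * g ^ 2 / m ^ 2 / (4 * (P * g / m)) = D ^ 2 * g / (4 * m * P) * R ^ 2 := by
    field_simp
  rw [e2]
  have hR2 : R ^ 2 ≤ P * (4 * (m * g / r ^ 82) + 2 * (m / r ^ 78)) := by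
    refine hR.trans ?_
    apply mul_le_mul_of_nonneg_left _ hP.le
    linarith
  have hc : 0 ≤ D ^ 2 * g / (4 * m * P) := by positivity
  refine (mul_le_mul_of_nonneg_left hR2 hc).trans ?_
  have e3 : D ^ 2 * g / (4 * m * P) * (P * (4 * (m * g / r ^ 82) + 2 * (m / r ^ 78))) =
      D ^ 2 * (g ^ 2 / r ^ 82 + g / (2 * r ^ 78)) := by
    field_simp
    ring
  rw [e3]
  have e4 : (D * (g / r ^ 41) + D * (Real.sqrt g / r ^ 39)) ^ 2 =
      D ^ 2 * (g ^ 2 / r ^ 82 + g / r ^ 78 + 2 * (g / r ^ 41) * (Real.sqrt g / r ^ 39)) := by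
    have : (D * (g / r ^ 41) + D * (Real.sqrt g / r ^ 39)) ^ 2 =
      D ^ 2 * (g ^ 2 / r ^ 82 + Real.sqrt g ^ 2 / r ^ 78 + 2 * (g / r ^ 41) * (Real.sqrt g / r ^ 39)) := by
      field_simp
      ring
    rw [this, hsg2]
  rw [e4]
  apply mul_le_mul_of_nonneg_left _ (by positivity)
  have h1 : g / (2 * r ^ 78) ≤ g / r ^ 78 := by
    apply div_le_div_of_nonneg_left hg0.le (by positivity)
    nlinarith [pow_pos hr0 78]
  have h2 : 0 ≤ 2 * (g / r ^ 41) * (Real.sqrt g / r ^ 39) := by positivity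
  linarith

/-- With `P = ∑ p`, `u = P √G2 / m`: `P' = - Dd (P + ∑ p (θ - 1))`,
`(∑ p (θ-1))² ≤ P (4 WB + 2 m/q^39)`, so `(√u)' ≤ Dd (G2 q^{-41} + √G2 q^{-39})^{1/2}` in absolute value
and the integral is at most `10 / √q`. `3 ∑ π = Dd ∑ p θ` (`sum_pi` with `g = 1`). -/
theorem bethe_main (C1 C2 : ℝ) (h1 : 1 ≤ C1) (h2 : 1 ≤ C2) : ∃ q0 : ℝ, 1 ≤ q0 ∧
    ∀ (V : Type) [DecidableEq V] (H : Finset (Finset V)) (M : Finset V) (N : V → ℝ)
      (q s1 Θ : ℝ) (p : V → ℝ → ℝ) (π e : Finset V → ℝ → ℝ) (X : Finset (Finset V)),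
      BD H M N q s1 C1 C2 Θ p π e X → q0 ≤ q →
      WB H M N q p π 0 ≤ M.card / q ^ 47 → ZB H M N q p π 0 ≤ M.card / q ^ 57 →
      TB H M q p π 0 ≤ M.card / q ^ 37 →
      ∀ s, 0 ≤ s → s ≤ s1 →
      |∑ x ∈ M, p x s - M.card / Real.sqrt (G2 q s)| ≤
        50 / Real.sqrt q * (M.card / Real.sqrt (G2 q s)) ∧
      ∑ T ∈ H, π T s ≤ Dd q s * (M.card / Real.sqrt (G2 q s)) := by
  obtain ⟨q0, hq0, hmain⟩ := BG_main C1 C2 h1 h2
  refine ⟨max q0 2500, le_max_of_le_left hq0, ?_⟩
  intro V _ H M N q s1 Θ p π e X b hq hW0 hZ0 hT0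
  have hqq : q0 ≤ q := (le_max_left _ _).trans hq
  have hq2 : 2500 ≤ q := (le_max_right _ _).trans hq
  have hWs := hmain V H M N q s1 Θ p π e X b hqq hW0 hZ0 hT0
  rcases Finset.eq_empty_or_nonempty M with hM | hM
  · intro s hs0 hs1
    have hH : H = ∅ := by
      rw [Finset.eq_empty_iff_forall_notMem]
      intro T hT
      have h1 := b.hsub T hT
      rw [hM, Finset.subset_empty] at h1
      have h2 := b.lin.card3 T hT
      rw [h1] at h2
      simp at h2
    rw [hM, hH]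
    simp
  have hm : (0 : ℝ) < M.card := by exact_mod_cast hM.card_pos
  set m : ℝ := (M.card : ℝ) with hmdef
  set r := Real.sqrt q with hr
  have hq0' : 0 ≤ q := by linarith
  have hrq : q = r ^ 2 := (Real.sq_sqrt hq0').symm
  have hr50 : 50 ≤ r := by
    rw [hr]
    apply Real.le_sqrt_of_sq_le
    linarith
  have hr0 : 0 < r := by linarith
  set g : ℝ → ℝ := fun s => Real.sqrt (G2 q s) with hgdef
  have hG1 : ∀ s, 0 ≤ s → 1 ≤ G2 q s := fun s h => b.G2_pos h
  have hg1 : ∀ s, 0 ≤ s → 1 ≤ g s := fun s h => by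
    rw [hgdef]
    exact Real.one_le_sqrt.mpr (hG1 s h)
  have hgsq : ∀ s, 0 ≤ s → g s ^ 2 = G2 q s := fun s h => Real.sq_sqrt (by linarith [hG1 s h])
  have hD : ∀ s, 0 ≤ s → 0 < Dd q s := fun s h => b.Dd_pos h
  have hgD : ∀ s, 0 ≤ s → Dd q s * g s = q ^ 40 / g s := by
    intro s h
    have h1 := hg1 s h
    rw [Dd, ← hgsq s h]
    field_simp
  have hgd : ∀ s, 0 ≤ s → HasDerivAt g (Dd q s * g s) s := by
    intro s h
    have h1 := (G2_deriv q s).sqrt (by linarith [hG1 s h] : G2 q s ≠ 0)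
    convert h1 using 1
    rw [hgD s h]
    have := hg1 s h
    simp only [hgdef] at this ⊢
    field_simp
  have hgle : ∀ s, 0 ≤ s → s ≤ s1 → g s ≤ 2 * q ^ 20 := by
    intro s h h'
    have h1 := b.G2_le h h'
    rw [hgdef]
    apply Real.sqrt_le_iff.mpr
    constructor
    · positivity
    · refine h1.trans ?_
      have : (0 : ℝ) ≤ q ^ 40 := by positivity
      nlinarith [this]
  -- the total
  set P : ℝ → ℝ := fun s => ∑ x ∈ M, p x s with hPdef
  set R : ℝ → ℝ := fun s => ∑ x ∈ M, p x s * (th H q p π x s - 1) with hRdef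
  have hP0 : P 0 = m := by
    rw [hPdef]
    simp only
    rw [Finset.sum_congr rfl b.p0]
    simp [hmdef]
  have hPpos : ∀ s, 0 ≤ s → s ≤ s1 → 0 < P s := fun s h h' =>
    Finset.sum_pos (fun x hx => b.ppos x hx s h h') hM
  have hPd : ∀ s, 0 ≤ s → s ≤ s1 → HasDerivAt P (-(Dd q s * (P s + R s))) s := by
    intro s h h'
    have h1 : HasDerivAt P (∑ x ∈ M, -rr H π x s) s := by
      have := HasDerivAt.fun_sum (fun x hx => b.pd x hx s h h')
      exact this
    convert h1 using 1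
    have : ∀ x ∈ M, -rr H π x s = -(Dd q s * (p x s * th H q p π x s)) := by
      intro x hx
      rw [b.rr_eq hx h h']
    rw [Finset.sum_congr rfl this, Finset.sum_neg_distrib, ← Finset.mul_sum, hPdef, hRdef,
      ← Finset.sum_add_distrib]
    congr 2
    apply Finset.sum_congr rfl
    intro x _
    ring
  have hR2 : ∀ s, 0 ≤ s → s ≤ s1 →
      R s ^ 2 ≤ P s * (4 * WB H M N q p π s + 2 * (m / q ^ 39)) := by
    intro s h h'
    have h1 := b.sum_xi h h'
    have hcs : R s ^ 2 ≤ P s * ∑ x ∈ M, p x s * (th H q p π x s - 1) ^ 2 := by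
      apply Finset.sum_sq_le_sum_mul_sum_of_sq_le_mul
      · exact fun x hx => (b.ppos x hx s h h').le
      · exact fun x hx => mul_nonneg (b.ppos x hx s h h').le (sq_nonneg _)
      · intro x _
        apply le_of_eq
        ring
    exact hcs.trans (mul_le_mul_of_nonneg_left h1 (hPpos s h h').le)
  -- the function `√u`
  set u : ℝ → ℝ := fun s => P s * g s / m with hudef
  have hupos : ∀ s, 0 ≤ s → s ≤ s1 → 0 < u s := by
    intro s h h'
    have h1 := hPpos s h h'
    have h2 := hg1 s h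
    exact div_pos (mul_pos h1 (by linarith)) hm
  have hg0 : g 0 = 1 := by
    have : G2 q 0 = 1 := by
      rw [G2]
      ring
    show Real.sqrt (G2 q 0) = 1
    rw [this, Real.sqrt_one]
  have hu0 : u 0 = 1 := by
    show P 0 * g 0 / m = 1
    rw [hP0, hg0, mul_one, div_self hm.ne']
  have hud : ∀ s, 0 ≤ s → s ≤ s1 → HasDerivAt u (-(Dd q s * R s * g s) / m) s := by
    intro s h h'
    have h1 := ((hPd s h h').mul (hgd s h)).div_const m
    exact h1.congr_deriv (by ring)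
  have hsud : ∀ s, 0 ≤ s → s ≤ s1 → HasDerivAt (fun s => Real.sqrt (u s))
      ((-(Dd q s * R s * g s) / m) / (2 * Real.sqrt (u s))) s := by
    intro s h h'
    exact (hud s h h').sqrt (hupos s h h').ne'
  have hbd : ∀ s, 0 ≤ s → s ≤ s1 → HasDerivAt (fun s => g s / r ^ 41 + 2 * Real.sqrt (g s) / r ^ 39)
      (Dd q s * (g s / r ^ 41) + Dd q s * (Real.sqrt (g s) / r ^ 39)) s := by
    intro s h h'
    have hgs := hg1 s h
    have h1 := (hgd s h).div_const (r ^ 41)
    have h2 := (((hgd s h).sqrt (by linarith : g s ≠ 0)).const_mul 2).div_const (r ^ 39)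
    have h3 := h1.add h2
    refine h3.congr_deriv ?_
    have hsg : 0 < Real.sqrt (g s) := Real.sqrt_pos.mpr (by linarith)
    have hsg2 : Real.sqrt (g s) ^ 2 = g s := Real.sq_sqrt (by linarith)
    have e : 2 * (Dd q s * g s / (2 * Real.sqrt (g s))) = Dd q s * Real.sqrt (g s) := by
      rw [← hsg2]
      have hh : Real.sqrt (Real.sqrt (g s) ^ 2) = Real.sqrt (g s) := by rw [hsg2]
      rw [hh]
      field_simp
    rw [e]
    ring
  have hcomp := bm_mvt hsud hbd (fun s h h' => by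
    apply bm_num (P := P s) (m := m) (W := WB H M N q p π s) (by linarith) (hg1 s h) (hD s h) hm
      (hPpos s h h') rfl
    · have e : q ^ 41 = r ^ 82 := by
        rw [hrq]
        ring
      rw [← e]
      exact hWs s h h'
    · have e : q ^ 39 = r ^ 78 := by
        rw [hrq]
        ring
      rw [← e]
      exact hR2 s h h')
  intro s hs0 hs1
  have hgs := hg1 s hs0
  have hgl := hgle s hs0 hs1
  have hgpos : 0 < g s := by linarith
  have hc := hcomp s hs0 hs1
  simp only [hu0, Real.sqrt_one] at hc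
  have hb0 : 0 ≤ g 0 / r ^ 41 + 2 * Real.sqrt (g 0) / r ^ 39 := by
    have := hg1 0 le_rfl
    positivity
  have hgr : g s ≤ 2 * r ^ 40 := by
    refine hgl.trans (le_of_eq ?_)
    rw [hrq]
    ring
  have hr1 : 1 ≤ r := by linarith
  have hb1 : g s / r ^ 41 ≤ 2 / r := by
    rw [div_le_div_iff₀ (by positivity) hr0]
    calc g s * r ≤ 2 * r ^ 40 * r := mul_le_mul_of_nonneg_right hgr hr0.le
      _ = 2 * r ^ 41 := by ring
  have hb2 : 2 * Real.sqrt (g s) / r ^ 39 ≤ 4 / r := by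
    have h1 : Real.sqrt (g s) ≤ 2 * r ^ 20 := by
      apply Real.sqrt_le_iff.mpr
      constructor
      · positivity
      · refine hgr.trans ?_
        have : 0 ≤ r ^ 40 := by positivity
        nlinarith [this]
    rw [div_le_div_iff₀ (by positivity) hr0]
    calc 2 * Real.sqrt (g s) * r ≤ 2 * (2 * r ^ 20) * r := by
          apply mul_le_mul_of_nonneg_right _ hr0.le
          linarith
      _ = 4 * r ^ 21 := by ring
      _ ≤ 4 * r ^ 39 := by
          have := pow_le_pow_right₀ hr1 (by norm_num : 21 ≤ 39)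
          linarith
  have hc2 : |Real.sqrt (u s) - 1| ≤ 6 / r := by
    refine hc.trans ?_
    have : (6 : ℝ) / r = 2 / r + 4 / r := by ring
    rw [this]
    linarith
  have h6 : 6 / r ≤ 1 := by
    rw [div_le_one hr0]
    linarith
  have hus := hupos s hs0 hs1
  have hus2 : Real.sqrt (u s) ^ 2 = u s := Real.sq_sqrt hus.le
  have hu1 : |u s - 1| ≤ 50 / r := by
    have e : u s - 1 = (Real.sqrt (u s) - 1) * (Real.sqrt (u s) + 1) := by
      nlinarith [hus2]
    rw [e, abs_mul]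
    have h3 : |Real.sqrt (u s) + 1| ≤ 3 := by
      rw [abs_le] at hc2 ⊢
      constructor
      · linarith [Real.sqrt_nonneg (u s)]
      · linarith [hc2.2]
    calc |Real.sqrt (u s) - 1| * |Real.sqrt (u s) + 1| ≤ (6 / r) * 3 :=
          mul_le_mul hc2 h3 (abs_nonneg _) (by positivity)
      _ = 18 / r := by ring
      _ ≤ 50 / r := by
          apply div_le_div_of_nonneg_right _ hr0.le
          norm_num
  have hPu : P s = u s * (m / g s) := by
    simp only [hudef]
    field_simp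
  have hmg : 0 < m / g s := div_pos hm hgpos
  have hfirst : |P s - m / g s| ≤ 50 / r * (m / g s) := by
    have e : P s - m / g s = (u s - 1) * (m / g s) := by
      rw [hPu]
      ring
    rw [e, abs_mul, abs_of_pos hmg]
    exact mul_le_mul_of_nonneg_right hu1 hmg.le
  refine ⟨hfirst, ?_⟩
  -- the number of triples
  have h50 : 50 / r ≤ 1 := by
    rw [div_le_one hr0]
    exact hr50
  have hP2 : P s ≤ 2 * (m / g s) := by
    have h := (abs_le.mp hfirst).2
    have h' : 50 / r * (m / g s) ≤ 1 * (m / g s) := mul_le_mul_of_nonneg_right h50 hmg.le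
    linarith
  have hRle : R s ≤ m / g s := by
    have hsq : R s ^ 2 ≤ (m / g s) ^ 2 := by
      have h1 := hR2 s hs0 hs1
      have hW := hWs s hs0 hs1
      have hA : 4 * WB H M N q p π s + 2 * (m / q ^ 39) ≤ 4 * (m * g s / q ^ 41) + 2 * (m / q ^ 39) := by
        linarith
      have hB : 0 ≤ 4 * (m * g s / q ^ 41) + 2 * (m / q ^ 39) :=
        add_nonneg (mul_nonneg (by norm_num) (div_nonneg (mul_nonneg hm.le hgpos.le)
          (pow_nonneg hq0' 41))) (mul_nonneg (by norm_num) (div_nonneg hm.le (pow_nonneg hq0' 39)))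
      have h2 : R s ^ 2 ≤ 2 * (m / g s) * (4 * (m * g s / q ^ 41) + 2 * (m / q ^ 39)) := by
        refine h1.trans ((mul_le_mul_of_nonneg_left hA (hPpos s hs0 hs1).le).trans ?_)
        exact mul_le_mul_of_nonneg_right hP2 hB
      refine h2.trans ?_
      have e : 2 * (m / g s) * (4 * (m * g s / q ^ 41) + 2 * (m / q ^ 39)) =
          (m / g s) ^ 2 * (8 * (g s ^ 2 / q ^ 41) + 4 * (g s / q ^ 39)) := by
        field_simp
        ring
      rw [e]
      have hq1 : 0 < q := by linarith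
      have ha : g s ^ 2 / q ^ 41 ≤ 4 / q := by
        rw [div_le_div_iff₀ (by positivity) hq1]
        have : g s ^ 2 ≤ (2 * q ^ 20) ^ 2 := pow_le_pow_left₀ hgpos.le hgl 2
        calc g s ^ 2 * q ≤ (2 * q ^ 20) ^ 2 * q := mul_le_mul_of_nonneg_right this hq1.le
          _ = 4 * q ^ 41 := by ring
      have hb : g s / q ^ 39 ≤ 2 / q := by
        rw [div_le_div_iff₀ (by positivity) hq1]
        calc g s * q ≤ 2 * q ^ 20 * q := mul_le_mul_of_nonneg_right hgl hq1.le
          _ = 2 * q ^ 21 := by ring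
          _ ≤ 2 * q ^ 39 := by
              have := pow_le_pow_right₀ (by linarith : 1 ≤ q) (by norm_num : 21 ≤ 39)
              linarith
      have hcc : 8 * (g s ^ 2 / q ^ 41) + 4 * (g s / q ^ 39) ≤ 1 := by
        have h40 : 40 / q ≤ 1 := by
          rw [div_le_one hq1]
          linarith
        have : 40 / q = 8 * (4 / q) + 4 * (2 / q) := by ring
        linarith
      calc (m / g s) ^ 2 * (8 * (g s ^ 2 / q ^ 41) + 4 * (g s / q ^ 39)) ≤ (m / g s) ^ 2 * 1 :=
            mul_le_mul_of_nonneg_left hcc (sq_nonneg _)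
        _ = (m / g s) ^ 2 := by ring
    exact (abs_le_of_sq_le_sq' hsq hmg.le).2
  have hsum := b.sum_pi (fun _ => (1 : ℝ)) hs0 hs1
  have e1 : ∑ T ∈ H, π T s * ∑ x ∈ T, (1 : ℝ) = 3 * ∑ T ∈ H, π T s := by
    rw [Finset.mul_sum]
    apply Finset.sum_congr rfl
    intro T hT
    rw [Finset.sum_const, b.lin.card3 T hT]
    ring
  have e2 : ∑ x ∈ M, p x s * (th H q p π x s * 1) = P s + R s := by
    rw [hPdef, hRdef, ← Finset.sum_add_distrib]
    apply Finset.sum_congr rfl
    intro x _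
    ring
  rw [e1, e2] at hsum
  have h3 : Dd q s * (P s + R s) ≤ Dd q s * (3 * (m / g s)) := by
    apply mul_le_mul_of_nonneg_left _ (hD s hs0).le
    linarith
  have h4 : 3 * ∑ T ∈ H, π T s ≤ 3 * (Dd q s * (m / g s)) := by
    rw [hsum]
    refine h3.trans (le_of_eq ?_)
    ring
  linarith

end Vale.Agent.P046S
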