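import Vale.Agent.P046S.BWS

/-!
P046 sharp constant, module B1 (BW): differential inequality for `WB`. Write `D = q^40`, `G² = G2`,
`ψ = θ - N`, `m = card M`.

`WB' = - ∑_T π {∑_{x∈T} f(ψ_x) + ∑_{x∈T} f'(ψ_x) ∑_{y∈T\x} (θ_y - 1)} + ∑_x f'(ψ_x) (rho - er)/Dd`
(`ff_deriv`, `th_deriv`). With `θ_y - 1 = (ψ_y - 1) + N_y` and `triple_ff` (all `ψ ≥ -1/4`):
`WB' ≤ ∑_T π ∑_{x∈T} f gg(ψ_x) - ∑_T π ∑_{x∈T} f'(ψ_x) N(T\x) + ...`.
First sum `= Dd ∑ p θ f gg ≤ Dd ∑ p f (1 + 10 |N|)` (`θ gg(ψ) = ψ gg ψ + N gg ψ`, `mul_gg_le`, `gg_le`).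
`∑ p f |N| ≤ WB / q^7 + ∑_{|N| > 1/q^7} p f / 4`, and `f(ψ) ≤ 2 + 2 θ²`: for `θ ≤ 9` this is `≤ 164`,
for `θ > 9` it is `≤ 200 (t8 θ)^{1/4}`; `#{|N| > 1/q^7} ≤ q^56 ∑ N^8 ≤ m / q^100`,
`(t8)^{1/4} 1 ≤ t8 / q^10 + q^4 1`. So the first sum is
`≤ Dd ((1 + 10/q^7) WB + C (TB / q^10 + m / q^96))`.
Second sum `= - Dd ∑ p f'(ψ) sg`, at most `Dd √(12 WB ZB)` (`fd_sq_le`).
Third: `|f'(ψ)| ≤ 3 + 2θ`; for `T ∉ X` use `self_le`, for `T ∈ X` use `self_le'` (negligible, `small'`).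
`(1/Dd) ∑ |f'| rho ≤ (4 C1/(G² Dd)) ∑_T π (∑_x |f'_x|)(3 + ∑_u ph_u) + negl.`, `1/(G² Dd) = 1/D`.
Then `|f'_x| ph_u ≤ 21 ph_u + 21 G² t8(θ_x)` (`ph ≤ G²`), `θ|f'| ≤ 9 |f'| + 400 t8`, `θ ph ≤ 9 ph + 9 G² t8`,
and `sum_pi`. `∑ p |f'| ≤ √(12 WB m)`.
-/

namespace Vale.Agent.P046S

open Finset Vale.Agent.P046 Vale.Agent.P046LF

theorem BW_triple {V : Type} [DecidableEq V] {T : Finset V} (h3 : T.card = 3) (ψ : V → ℝ)
    (hψ : ∀ x ∈ T, -(3 / 10) ≤ ψ x) :
    0 ≤ ∑ x ∈ T, (ff (ψ x) * (1 + gg (ψ x)) + fd (ψ x) * ∑ y ∈ T.erase x, (ψ y - 1)) := by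
  obtain ⟨x, y, z, hxy, hxz, hyz, rfl⟩ := Finset.card_eq_three.1 h3
  have e1 : ({x, y, z} : Finset V).erase x = {y, z} := by
    ext a; simp only [mem_erase, mem_insert, mem_singleton]
    constructor
    · rintro ⟨h, h1 | h1 | h1⟩
      · exact absurd h1 h
      · exact Or.inl h1
      · exact Or.inr h1
    · rintro (h | h)
      · subst h; exact ⟨fun h => hxy h.symm, Or.inr (Or.inl rfl)⟩
      · subst h; exact ⟨fun h => hxz h.symm, Or.inr (Or.inr rfl)⟩
  have e2 : ({x, y, z} : Finset V).erase y = {x, z} := by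
    ext a; simp only [mem_erase, mem_insert, mem_singleton]
    constructor
    · rintro ⟨h, h1 | h1 | h1⟩
      · exact Or.inl h1
      · exact absurd h1 h
      · exact Or.inr h1
    · rintro (h | h)
      · subst h; exact ⟨hxy, Or.inl rfl⟩
      · subst h; exact ⟨fun h => hyz h.symm, Or.inr (Or.inr rfl)⟩
  have e3 : ({x, y, z} : Finset V).erase z = {x, y} := by
    ext a; simp only [mem_erase, mem_insert, mem_singleton]
    constructor
    · rintro ⟨h, h1 | h1 | h1⟩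
      · exact Or.inl h1
      · exact Or.inr h1
      · exact absurd h1 h
    · rintro (h | h)
      · subst h; exact ⟨hxz, Or.inl rfl⟩
      · subst h; exact ⟨hyz, Or.inr (Or.inl rfl)⟩
  rw [sum_insert (by simp [hxy, hxz]), sum_insert (by simp [hyz]), sum_singleton, e1, e2, e3,
    sum_pair hyz, sum_pair hxz, sum_pair hxy]
  have h := triple_ff (hψ x (by simp)) (hψ y (by simp)) (hψ z (by simp))
  have r1 : ψ y - 1 + (ψ z - 1) = ψ y + ψ z - 2 := by ring
  have r2 : ψ x - 1 + (ψ z - 1) = ψ x + ψ z - 2 := by ring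
  have r3 : ψ x - 1 + (ψ y - 1) = ψ x + ψ y - 2 := by ring
  rw [r1, r2, r3]
  linarith

theorem BW_ff_le {θ ν : ℝ} (hθ : 0 ≤ θ) (hν : |ν| ≤ 1 / 4) :
    ff (θ - ν) ≤ 164 + 200 * (max (θ - 8) 0) ^ 2 := by
  have h1 := ff_le (θ - ν)
  have hn := abs_le.1 hν
  have h2 : (θ - ν) ^ 2 ≤ 1 + 2 * θ ^ 2 := by nlinarith [hn.1, hn.2, sq_nonneg (θ + ν)]
  rcases le_total θ 9 with h | h
  · have : θ ^ 2 ≤ 81 := by nlinarith
    have := sq_nonneg (max (θ - 8) 0)
    linarith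
  · rw [max_eq_left (by linarith)]
    nlinarith

theorem BW_point {q θ ν : ℝ} (hq : 1 ≤ q) (hθ : 0 ≤ θ) (hν : |ν| ≤ 1 / 4) :
    ff (θ - ν) * |ν| ≤ ff (θ - ν) / q ^ 7 + 50 * t8 θ / q ^ 10 + 91 * q ^ 60 * ν ^ 8 := by
  have hq0 : 0 < q := by linarith
  have f0 := ff_nonneg (θ - ν)
  have t0 : 0 ≤ t8 θ := by unfold t8; positivity
  rcases le_total |ν| (1 / q ^ 7) with h | h
  · have h1 : ff (θ - ν) * |ν| ≤ ff (θ - ν) * (1 / q ^ 7) := mul_le_mul_of_nonneg_left h f0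
    have h2 : 0 ≤ 50 * t8 θ / q ^ 10 := by positivity
    have h3 : 0 ≤ 91 * q ^ 60 * ν ^ 8 := by positivity
    rw [mul_one_div] at h1
    linarith
  · have h1 : ff (θ - ν) * |ν| ≤ (164 + 200 * (max (θ - 8) 0) ^ 2) * (1 / 4) :=
      mul_le_mul (BW_ff_le hθ hν) hν (abs_nonneg _) (by positivity)
    have h2 : (1 : ℝ) ≤ q ^ 56 * ν ^ 8 := by
      have a : 1 ≤ |ν| * q ^ 7 := by
        rw [div_le_iff₀ (by positivity)] at h; exact h
      have b : 1 ≤ (|ν| * q ^ 7) ^ 8 := one_le_pow₀ a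
      have c : (|ν| * q ^ 7) ^ 8 = q ^ 56 * ν ^ 8 := by
        rw [mul_pow, ← pow_mul]
        have : |ν| ^ 8 = ν ^ 8 := by
          rw [show (8 : ℕ) = 2 * 4 by norm_num, pow_mul, pow_mul, sq_abs]
        rw [this]; ring
      linarith
    have h3 : (max (θ - 8) 0) ^ 2 ≤ t8 θ / q ^ 10 + q ^ 4 := by
      set a := (max (θ - 8) 0) ^ 2 with ha
      have ha0 : 0 ≤ a := by positivity
      have ht : t8 θ = a ^ 4 := by unfold t8; rw [ha]; ring
      rw [ht]
      rcases le_total a (q ^ 4) with h | h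
      · have : 0 ≤ a ^ 4 / q ^ 10 := by positivity
        linarith
      · have h5 : a ≤ a ^ 4 / q ^ 10 := by
          rw [le_div_iff₀ (by positivity)]
          have : q ^ 10 ≤ a ^ 3 := by
            calc q ^ 10 ≤ q ^ 12 := pow_le_pow_right₀ hq (by norm_num)
              _ = (q ^ 4) ^ 3 := by ring
              _ ≤ a ^ 3 := pow_le_pow_left₀ (by positivity) h 3
          calc a * q ^ 10 ≤ a * a ^ 3 := mul_le_mul_of_nonneg_left this ha0
            _ = a ^ 4 := by ring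
        have : 0 ≤ q ^ 4 := by positivity
        linarith
    have h4 : 0 ≤ ff (θ - ν) / q ^ 7 := by positivity
    have h6 : 91 * q ^ 4 ≤ 91 * q ^ 60 * ν ^ 8 := by
      have : 91 * q ^ 60 * ν ^ 8 = 91 * q ^ 4 * (q ^ 56 * ν ^ 8) := by ring
      rw [this]
      have : 0 ≤ 91 * q ^ 4 := by positivity
      nlinarith
    have h7 : (1 : ℝ) ≤ q ^ 4 := one_le_pow₀ hq
    have h8 : 50 * t8 θ / q ^ 10 = 50 * (t8 θ / q ^ 10) := by ring
    rw [h8]
    linarith

theorem BW_exch {V : Type} [DecidableEq V] {H : Finset (Finset V)} {M : Finset V}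
    (hsub : ∀ T ∈ H, T ⊆ M) (F : V → Finset V → ℝ) :
    ∑ x ∈ M, ∑ T ∈ H with x ∈ T, F x T = ∑ T ∈ H, ∑ x ∈ T, F x T := by
  have h1 : ∀ x ∈ M, ∑ T ∈ H with x ∈ T, F x T = ∑ T ∈ H, if x ∈ T then F x T else 0 := by
    intro x _; rw [sum_filter]
  rw [sum_congr rfl h1, sum_comm]
  refine sum_congr rfl fun T hT => ?_
  rw [← sum_filter]
  refine sum_congr ?_ fun _ _ => rfl
  ext x; simp only [mem_filter]
  exact ⟨fun h => h.2, fun h => ⟨hsub T hT h, h⟩⟩

theorem BW_main (C1 C2 : ℝ) (h1 : 1 ≤ C1) (h2 : 1 ≤ C2) : ∃ C : ℝ, 1 ≤ C ∧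
    ∀ (V : Type) [DecidableEq V] (H : Finset (Finset V)) (M : Finset V) (N : V → ℝ)
      (q s1 Θ : ℝ) (p : V → ℝ → ℝ) (π e : Finset V → ℝ → ℝ) (X : Finset (Finset V)),
      BD H M N q s1 C1 C2 Θ p π e X → ∀ s, 0 ≤ s → s ≤ s1 →
      ∃ d, HasDerivAt (WB H M N q p π) d s ∧
      d ≤ Dd q s * ((1 + 10 / q ^ 7) * WB H M N q p π s +
        Real.sqrt (12 * WB H M N q p π s * ZB H M N q p π s) +
        C * (TB H M q p π s / q ^ 10 + M.card / q ^ 96) +
        C / q ^ 40 * (Real.sqrt (WB H M N q p π s * M.card) + EB M q p s +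
          G2 q s * TP H M q p π s)) := by
  obtain ⟨C, hC, hself⟩ := BW_self C1 C2 h1 h2
  refine ⟨C + 911, by linarith, ?_⟩
  intro V _ H M N q s1 Θ p π e X b s h0 hs
  have hq := b.hq
  have hq0 : 0 < q := by linarith
  have hD := b.Dd_pos h0
  have hp : ∀ x ∈ M, 0 < p x s := fun x hx => b.ppos x hx s h0 hs
  have hth : ∀ x ∈ M, 0 ≤ th H q p π x s := fun x hx => b.th_nonneg hx h0 hs
  choose! dθ hd1 hd2 using fun x (hx : x ∈ M) => b.th_deriv hx h0 hs
  set ψ : V → ℝ := fun x => th H q p π x s - N x with hψdef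
  refine ⟨∑ x ∈ M, (-rr H π x s * ff (ψ x) + p x s * (fd (ψ x) * dθ x)), ?_, ?_⟩
  · have : WB H M N q p π = fun s => ∑ x ∈ M, p x s * ff (th H q p π x s - N x) := rfl
    rw [this]
    apply HasDerivAt.fun_sum
    intro x hx
    have hc : HasDerivAt (fun y => ff (th H q p π x y - N x)) (fd (ψ x) * dθ x) s :=
      HasDerivAt.comp (h₂ := ff) s (ff_deriv (th H q p π x s - N x)) ((hd1 x hx).sub_const (N x))
    exact (b.pd x hx s h0 hs).mul hc
  -- the algebra
  have hself' := hself V H M N q s1 Θ p π e X b s h0 hs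
  have hψ : ∀ x ∈ M, -(3 / 10) ≤ ψ x := by
    intro x hx
    have a := hth x hx
    have c := (abs_le.1 (b.hN x hx)).2
    simp only [hψdef]; linarith
  have e1 : ∑ x ∈ M, (-rr H π x s * ff (ψ x) + p x s * (fd (ψ x) * dθ x)) =
      -(∑ T ∈ H, π T s * ∑ x ∈ T, (ff (ψ x) + fd (ψ x) * ∑ y ∈ T.erase x,
        (th H q p π y s - 1))) +
      ∑ x ∈ M, fd (ψ x) * ((rho H p π x s - er H e x s) / Dd q s) := by
    have a1 : ∀ x ∈ M, -rr H π x s * ff (ψ x) + p x s * (fd (ψ x) * dθ x) =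
        -(∑ T ∈ H with x ∈ T, π T s * (ff (ψ x) + fd (ψ x) * ∑ y ∈ T.erase x,
        (th H q p π y s - 1))) + fd (ψ x) * ((rho H p π x s - er H e x s) / Dd q s) := by
      intro x hx
      have c1 : p x s * (fd (ψ x) * dθ x) = fd (ψ x) * (p x s * dθ x) := by ring
      have c2 : ∑ T ∈ H with x ∈ T, π T s * (ff (ψ x) + fd (ψ x) * ∑ y ∈ T.erase x,
          (th H q p π y s - 1)) = rr H π x s * ff (ψ x) +
          fd (ψ x) * ∑ T ∈ H with x ∈ T, π T s * ∑ y ∈ T.erase x, (th H q p π y s - 1) := by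
        unfold rr
        rw [sum_mul, mul_sum, ← sum_add_distrib]
        refine sum_congr rfl fun T _ => by ring
      rw [c1, hd2 x hx, c2]; ring
    rw [sum_congr rfl a1, sum_add_distrib, sum_neg_distrib, BW_exch b.hsub]
    congr 2
    refine sum_congr rfl fun T _ => ?_
    rw [mul_sum]
  -- first: triples
  have e2 : -(∑ T ∈ H, π T s * ∑ x ∈ T, (ff (ψ x) + fd (ψ x) * ∑ y ∈ T.erase x,
        (th H q p π y s - 1))) ≤
      ∑ T ∈ H, π T s * ∑ x ∈ T, (ff (ψ x) * gg (ψ x)) -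
      ∑ T ∈ H, π T s * ∑ x ∈ T, (fd (ψ x) * ∑ y ∈ T.erase x, N y) := by
    rw [← sum_sub_distrib, ← sum_neg_distrib]
    refine sum_le_sum fun T hT => ?_
    have ht := BW_triple (b.lin.card3 T hT) ψ fun x hx => hψ x (b.hsub T hT hx)
    have hπ := b.πpos T hT s h0 hs
    have c : ∑ x ∈ T, (ff (ψ x) + fd (ψ x) * ∑ y ∈ T.erase x, (th H q p π y s - 1)) =
        ∑ x ∈ T, (ff (ψ x) * (1 + gg (ψ x)) + fd (ψ x) * ∑ y ∈ T.erase x, (ψ y - 1)) -
        ∑ x ∈ T, (ff (ψ x) * gg (ψ x)) + ∑ x ∈ T, (fd (ψ x) * ∑ y ∈ T.erase x, N y) := by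
      rw [← sum_sub_distrib, ← sum_add_distrib]
      refine sum_congr rfl fun x _ => ?_
      have : ∑ y ∈ T.erase x, (th H q p π y s - 1) =
          ∑ y ∈ T.erase x, (ψ y - 1) + ∑ y ∈ T.erase x, N y := by
        rw [← sum_add_distrib]
        refine sum_congr rfl fun y _ => ?_
        simp only [hψdef]; ring
      rw [this]; ring
    rw [c]
    have := mul_nonneg hπ ht
    nlinarith
  -- the gg part
  have e3 : ∑ T ∈ H, π T s * ∑ x ∈ T, (ff (ψ x) * gg (ψ x)) ≤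
      Dd q s * ((1 + 10 / q ^ 7) * WB H M N q p π s +
        (500 * TB H M q p π s / q ^ 10 + 910 * M.card / q ^ 96)) := by
    rw [b.sum_pi (fun x => ff (ψ x) * gg (ψ x)) h0 hs]
    refine mul_le_mul_of_nonneg_left ?_ hD.le
    have c1 : ∀ x ∈ M, p x s * (th H q p π x s * (ff (ψ x) * gg (ψ x))) ≤
        (1 + 10 / q ^ 7) * (p x s * ff (ψ x)) +
          (500 * (p x s * t8 (th H q p π x s)) / q ^ 10 + 910 * q ^ 60 * N x ^ 8) := by
      intro x hx
      have g1 := gg_le (ψ x)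
      have g0 := gg_nonneg (ψ x)
      have g2 := mul_gg_le (ψ x)
      have f0 := ff_nonneg (ψ x)
      have c2 : th H q p π x s * gg (ψ x) ≤ 1 + 10 * |N x| := by
        have : th H q p π x s = ψ x + N x := by simp only [hψdef]; ring
        rw [this, add_mul]
        have : N x * gg (ψ x) ≤ |N x| * 10 :=
          le_trans (mul_le_mul_of_nonneg_right (le_abs_self _) g0)
            (mul_le_mul_of_nonneg_left g1 (abs_nonneg _))
        linarith
      have c3 : th H q p π x s * (ff (ψ x) * gg (ψ x)) ≤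
          ff (ψ x) + 10 * (ff (ψ x) * |N x|) := by
        have := mul_le_mul_of_nonneg_left c2 f0
        calc th H q p π x s * (ff (ψ x) * gg (ψ x)) = ff (ψ x) * (th H q p π x s * gg (ψ x)) := by
              ring
          _ ≤ _ := by linarith
      have c4 := BW_point hq (hth x hx) (b.hN x hx)
      have c5 : th H q p π x s * (ff (ψ x) * gg (ψ x)) ≤
          (1 + 10 / q ^ 7) * ff (ψ x) +
            (500 * t8 (th H q p π x s) / q ^ 10 + 910 * q ^ 60 * N x ^ 8) := by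
        have : ff (ψ x) * |N x| ≤ ff (ψ x) / q ^ 7 + 50 * t8 (th H q p π x s) / q ^ 10 +
          91 * q ^ 60 * N x ^ 8 := c4
        calc _ ≤ _ := c3
          _ ≤ ff (ψ x) + 10 * (ff (ψ x) / q ^ 7 + 50 * t8 (th H q p π x s) / q ^ 10 +
          91 * q ^ 60 * N x ^ 8) := by linarith
          _ = _ := by ring
      have hp0 := (hp x hx).le
      have hp1 := b.ple x hx s h0 hs
      have c6 := mul_le_mul_of_nonneg_left c5 hp0
      have c7 : p x s * (910 * q ^ 60 * N x ^ 8) ≤ 910 * q ^ 60 * N x ^ 8 := by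
        have : 0 ≤ 910 * q ^ 60 * N x ^ 8 := by positivity
        nlinarith
      calc _ ≤ _ := c6
        _ = (1 + 10 / q ^ 7) * (p x s * ff (ψ x)) +
          (500 * (p x s * t8 (th H q p π x s)) / q ^ 10 + p x s * (910 * q ^ 60 * N x ^ 8)) := by
            ring
        _ ≤ _ := by linarith
    refine (sum_le_sum c1).trans ?_
    rw [sum_add_distrib, sum_add_distrib, ← mul_sum, ← sum_div, ← mul_sum, ← mul_sum]
    have c8 : 910 * q ^ 60 * ∑ x ∈ M, N x ^ 8 ≤ 910 * M.card / q ^ 96 := by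
      have := b.hN8
      calc 910 * q ^ 60 * ∑ x ∈ M, N x ^ 8 ≤ 910 * q ^ 60 * (M.card / q ^ 156) :=
            mul_le_mul_of_nonneg_left this (by positivity)
        _ = 910 * M.card / q ^ 96 := by field_simp
    have c9 : ∑ x ∈ M, p x s * ff (ψ x) = WB H M N q p π s := rfl
    have c10 : ∑ x ∈ M, p x s * t8 (th H q p π x s) = TB H M q p π s := rfl
    rw [c9, c10]
    linarith
  -- the noise part
  have e4 : -(∑ T ∈ H, π T s * ∑ x ∈ T, (fd (ψ x) * ∑ y ∈ T.erase x, N y)) ≤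
      Dd q s * Real.sqrt (12 * WB H M N q p π s * ZB H M N q p π s) := by
    have c1 : ∑ T ∈ H, π T s * ∑ x ∈ T, (fd (ψ x) * ∑ y ∈ T.erase x, N y) =
        Dd q s * ∑ x ∈ M, p x s * (fd (ψ x) * sg H N q p π x s) := by
      have a1 : ∑ T ∈ H, π T s * ∑ x ∈ T, (fd (ψ x) * ∑ y ∈ T.erase x, N y) =
          ∑ T ∈ H, ∑ x ∈ T, π T s * (fd (ψ x) * ∑ y ∈ T.erase x, N y) :=
        sum_congr rfl fun T _ => by rw [mul_sum]
      rw [a1, ← BW_exch b.hsub (fun x T => π T s * (fd (ψ x) * ∑ y ∈ T.erase x, N y)), mul_sum]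
      refine sum_congr rfl fun x hx => ?_
      have hpx := (hp x hx).ne'
      have hD' := hD.ne'
      unfold sg
      have a2 : ∑ T ∈ H with x ∈ T, π T s * (fd (ψ x) * ∑ y ∈ T.erase x, N y) =
          fd (ψ x) * ∑ T ∈ H with x ∈ T, π T s * ∑ y ∈ T.erase x, N y := by
        rw [mul_sum]; refine sum_congr rfl fun T _ => by ring
      rw [a2]
      field_simp
    rw [c1, ← mul_neg]
    refine mul_le_mul_of_nonneg_left ?_ hD.le
    apply Real.le_sqrt_of_sq_le
    rw [neg_sq]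
    have c2 : (∑ x ∈ M, p x s * (fd (ψ x) * sg H N q p π x s)) ^ 2 ≤
        (∑ x ∈ M, p x s * fd (ψ x) ^ 2) * (∑ x ∈ M, p x s * sg H N q p π x s ^ 2) := by
      have := Finset.sum_mul_sq_le_sq_mul_sq M (fun x => Real.sqrt (p x s) * fd (ψ x))
        (fun x => Real.sqrt (p x s) * sg H N q p π x s)
      have i1 : ∑ x ∈ M, Real.sqrt (p x s) * fd (ψ x) * (Real.sqrt (p x s) * sg H N q p π x s) =
          ∑ x ∈ M, p x s * (fd (ψ x) * sg H N q p π x s) := by
        refine sum_congr rfl fun x hx => ?_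
        have := Real.mul_self_sqrt (hp x hx).le
        calc _ = (Real.sqrt (p x s) * Real.sqrt (p x s)) * (fd (ψ x) * sg H N q p π x s) := by ring
          _ = _ := by rw [this]
      have i2 : ∑ x ∈ M, (Real.sqrt (p x s) * fd (ψ x)) ^ 2 = ∑ x ∈ M, p x s * fd (ψ x) ^ 2 := by
        refine sum_congr rfl fun x hx => ?_
        rw [mul_pow, Real.sq_sqrt (hp x hx).le]
      have i3 : ∑ x ∈ M, (Real.sqrt (p x s) * sg H N q p π x s) ^ 2 =
          ∑ x ∈ M, p x s * sg H N q p π x s ^ 2 := by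
        refine sum_congr rfl fun x hx => ?_
        rw [mul_pow, Real.sq_sqrt (hp x hx).le]
      rw [i1, i2, i3] at this
      exact this
    have c3 : ∑ x ∈ M, p x s * fd (ψ x) ^ 2 ≤ 12 * WB H M N q p π s := by
      unfold WB
      rw [mul_sum]
      refine sum_le_sum fun x hx => ?_
      have := mul_le_mul_of_nonneg_left (fd_sq_le (ψ x)) (hp x hx).le
      calc _ ≤ _ := this
        _ = _ := by simp only [hψdef]; ring
    have c4 : 0 ≤ ZB H M N q p π s := sum_nonneg fun x hx =>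
      mul_nonneg (hp x hx).le (sq_nonneg _)
    exact c2.trans (mul_le_mul_of_nonneg_right c3 c4)
  -- the self interaction part
  have e5 : ∑ x ∈ M, fd (ψ x) * ((rho H p π x s - er H e x s) / Dd q s) ≤
      Dd q s * (C / q ^ 40 * (Real.sqrt (WB H M N q p π s * M.card) + EB M q p s +
          G2 q s * TP H M q p π s) + C * (M.card / q ^ 100)) := by
    refine le_trans ?_ hself'
    refine sum_le_sum fun x hx => ?_
    have r0 : 0 ≤ rho H p π x s := by
      unfold rho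
      refine sum_nonneg fun T hT => mul_nonneg (sq_nonneg _) (sum_nonneg fun y hy => ?_)
      exact (one_div_pos.2 (hp y (b.hsub T (mem_filter.1 hT).1 hy))).le
    rw [mul_div_assoc']
    refine div_le_div_of_nonneg_right ?_ hD.le
    calc fd (ψ x) * (rho H p π x s - er H e x s) ≤ |fd (ψ x) * (rho H p π x s - er H e x s)| :=
          le_abs_self _
      _ = |fd (ψ x)| * |rho H p π x s - er H e x s| := abs_mul _ _
      _ ≤ |fd (ψ x)| * (rho H p π x s + |er H e x s|) := by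
          refine mul_le_mul_of_nonneg_left ?_ (abs_nonneg _)
          calc |rho H p π x s - er H e x s| ≤ |rho H p π x s| + |er H e x s| := abs_sub _ _
            _ = _ := by rw [abs_of_nonneg r0]
  rw [e1]
  have hT0 : 0 ≤ TB H M q p π s := sum_nonneg fun x hx =>
    mul_nonneg (hp x hx).le (by unfold t8; positivity)
  have hm0 : (0 : ℝ) ≤ M.card := Nat.cast_nonneg _
  have hE0 : 0 ≤ EB M q p s := sum_nonneg fun x hx =>
    mul_nonneg (hp x hx).le (by unfold ph; positivity)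
  have hTP0 : 0 ≤ TP H M q p π s := sum_nonneg fun x hx =>
    mul_nonneg (hp x hx).le (mul_nonneg (hth x hx) (by unfold t8; positivity))
  have hG := b.G2_pos h0
  have e6 : (M.card : ℝ) / q ^ 100 ≤ M.card / q ^ 96 :=
    div_le_div_of_nonneg_left hm0 (by positivity) (pow_le_pow_right₀ hq (by norm_num))
  have e7 : 0 ≤ TB H M q p π s / q ^ 10 := by positivity
  have e8 : 0 ≤ (M.card : ℝ) / q ^ 96 := by positivity
  have e9 : 0 ≤ 1 / q ^ 40 * (Real.sqrt (WB H M N q p π s * M.card) + EB M q p s +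
          G2 q s * TP H M q p π s) := by
    have : 0 ≤ Real.sqrt (WB H M N q p π s * M.card) := Real.sqrt_nonneg _
    have : 0 ≤ G2 q s * TP H M q p π s := mul_nonneg (by linarith) hTP0
    positivity
  set Y := Real.sqrt (WB H M N q p π s * M.card) + EB M q p s + G2 q s * TP H M q p π s with hY
  set A := Real.sqrt (12 * WB H M N q p π s * ZB H M N q p π s) with hA
  have e10 : (1 + 10 / q ^ 7) * WB H M N q p π s +
        (500 * TB H M q p π s / q ^ 10 + 910 * M.card / q ^ 96) + A +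
        (C / q ^ 40 * Y + C * (M.card / q ^ 100)) ≤
      (1 + 10 / q ^ 7) * WB H M N q p π s + A +
        (C + 911) * (TB H M q p π s / q ^ 10 + M.card / q ^ 96) +
        (C + 911) / q ^ 40 * Y := by
    have i1 : 500 * TB H M q p π s / q ^ 10 = 500 * (TB H M q p π s / q ^ 10) := by ring
    have i2 : 910 * (M.card : ℝ) / q ^ 96 = 910 * (M.card / q ^ 96) := by ring
    have i3 : (C + 911) / q ^ 40 * Y = C / q ^ 40 * Y + 911 * (1 / q ^ 40 * Y) := by ring
    rw [i1, i2, i3]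
    nlinarith
  have e11 := mul_le_mul_of_nonneg_left e10 hD.le
  calc _ ≤ Dd q s * ((1 + 10 / q ^ 7) * WB H M N q p π s +
        (500 * TB H M q p π s / q ^ 10 + 910 * M.card / q ^ 96)) + Dd q s * A +
        Dd q s * (C / q ^ 40 * Y + C * (M.card / q ^ 100)) := by linarith
    _ = Dd q s * ((1 + 10 / q ^ 7) * WB H M N q p π s +
        (500 * TB H M q p π s / q ^ 10 + 910 * M.card / q ^ 96) + A +
        (C / q ^ 40 * Y + C * (M.card / q ^ 100))) := by ring
    _ ≤ _ := e11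

end Vale.Agent.P046S
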