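import Vale.Agent.P046S.Bethe

/-!
P046 sharp constant, module B1s (BWS): the self interaction part (last paragraph) of the differential inequality for `WB`. Write `D = q^40`, `G² = G2`,
`ψ = θ - N`, `m = card M`.

`WB' = - ∑_T π {∑_{x∈T} f(ψ_x) + ∑_{x∈T} f'(ψ_x) ∑_{y∈T\x} (θ_y - 1)} + ∑_x f'(ψ_x) (rho - er)/Dd`
(`ff_deriv`, `th_deriv`). With `θ_y - 1 = (ψ_y - 1) + N_y` and `triple_ff` (all `ψ ≥ -1/4`):
`WB' ≤ ∑_T π ∑_{x∈T} f gg(ψ_x) - ∑_T π ∑_{x∈T} f'(ψ_x) N(T\x) + ...`.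
First sum `= Dd ∑ p θ f gg ≤ Dd ∑ p f (1 + 10 |N|)` (`θ gg(ψ) = ψ gg ψ + N gg ψ`, `mul_gg_le`, `gg_le`).
`∑ p f |N| ≤ WB / q^7 + ∑_{|N| > 1/q^7} p f / 4`, and `f(ψ) ≤ 2 + 2 θ²`: for `θ ≤ 9` this is `≤ 164`,
for `θ > 9` it is `≤ 200 (t8 θ)^{1/4}`; `#{|N| > 1/q^7} ≤ q^56 ∑ N^8 ≤ m / q^100`,
`(t8)^{1/4} 1 ≤ t8 / q^10 + q^4 1`. So the first sum is
`≤ Dd ((1 + 10/q^7) WB + C (TB / q^10 + m / q^96))`.
Second sum `= - Dd ∑ p f'(ψ) sg`, at most `Dd √(12 WB ZB)` (`fd_sq_le`).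
Third: `|f'(ψ)| ≤ 3 + 2θ`; for `T ∉ X` use `self_le`, for `T ∈ X` use `self_le'` (negligible, `small'`).
`(1/Dd) ∑ |f'| rho ≤ (4 C1/(G² Dd)) ∑_T π (∑_x |f'_x|)(3 + ∑_u ph_u) + negl.`, `1/(G² Dd) = 1/D`.
Then `|f'_x| ph_u ≤ 21 ph_u + 21 G² t8(θ_x)` (`ph ≤ G²`), `θ|f'| ≤ 9 |f'| + 400 t8`, `θ ph ≤ 9 ph + 9 G² t8`,
and `sum_pi`. `∑ p |f'| ≤ √(12 WB m)`.
-/

namespace Vale.Agent.P046S

open Finset Vale.Agent.P046 Vale.Agent.P046LF

theorem bws_ph_nonneg (z : ℝ) : 0 ≤ ph z := by unfold ph; positivity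

theorem bws_t8_nonneg (z : ℝ) : 0 ≤ t8 z := by unfold t8; positivity

theorem bws_le_t8 {θ : ℝ} (h : 9 ≤ θ) : θ ≤ 9 * t8 θ := by
  have e : t8 θ = (θ - 8) ^ 8 := by unfold t8; rw [max_eq_left (by linarith)]
  rw [e]
  have h1 : (1 : ℝ) ≤ θ - 8 := by linarith
  have h2 : θ - 8 ≤ (θ - 8) ^ 8 := le_self_pow₀ h1 (by norm_num)
  linarith

theorem bws_mix {θ h G : ℝ} (h0 : 0 ≤ h) (h1 : h ≤ G) :
    θ * h ≤ 9 * h + 9 * (G * t8 θ) := by
  have ht := bws_t8_nonneg θ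
  have hG : 0 ≤ G := h0.trans h1
  rcases le_total θ 9 with h2 | h2
  · have := mul_le_mul_of_nonneg_right h2 h0
    have : 0 ≤ 9 * (G * t8 θ) := by positivity
    linarith
  · have h3 := bws_le_t8 h2
    have h4 : θ * h ≤ (9 * t8 θ) * G := mul_le_mul h3 h1 h0 (by positivity)
    linarith

theorem bws_t8_le (θ : ℝ) : t8 θ ≤ θ * t8 θ := by
  have ht := bws_t8_nonneg θ
  rcases le_total θ 8 with h | h
  · have e : t8 θ = 0 := by unfold t8; rw [max_eq_right (by linarith)]; norm_num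
    rw [e]; simp
  · nlinarith

theorem bws_lin {θ a : ℝ} (hθ : 0 ≤ θ) (ha0 : 0 ≤ a) (ha : a ≤ 3 + 2 * θ) :
    θ * a ≤ 9 * a + 45 * (θ * t8 θ) := by
  have ht := bws_t8_nonneg θ
  have h3 := bws_t8_le θ
  have h5 : 0 ≤ θ * t8 θ := by positivity
  rcases le_total θ 9 with h | h
  · have := mul_le_mul_of_nonneg_right h ha0
    linarith
  · have h1 := bws_le_t8 h
    have h2 := mul_le_mul_of_nonneg_left ha hθ
    have h4 := mul_le_mul_of_nonneg_left h1 hθ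
    nlinarith

theorem bws_fin {D G Q c1 c2 R μ A B : ℝ} (hD : 0 < D) (hG : 0 < G) (hDG : D * G = Q)
    (hG3 : G ≤ 3 * Q) (hc1 : 0 ≤ c1) (hc2 : 0 ≤ c2) (hR : 0 ≤ R) (hμ : 0 ≤ μ)
    (h1 : A ≤ D * (756 * R)) (h2 : B ≤ 45 * c2 * μ) :
    4 * c1 / G * A + B ≤
      D * ((3024 * c1 + 405 * c2) / Q * R + (3024 * c1 + 405 * c2) * μ) * D := by
  have g1 : 4 * c1 / G * A ≤ 4 * c1 / G * (D * (756 * R)) :=
    mul_le_mul_of_nonneg_left h1 (by positivity)
  have hQ : 0 < Q := by rw [← hDG]; positivity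
  have g2 : 4 * c1 / G * (D * (756 * R)) = D * (3024 * c1 / Q * R) * D := by
    rw [← hDG]
    field_simp
    ring
  have hD3 : 1 / 3 ≤ D := by
    have : G ≤ 3 * (D * G) := by rw [hDG]; exact hG3
    nlinarith
  have hD9 : 1 / 9 ≤ D * D := by nlinarith
  have g3 : 45 * c2 * μ ≤ D * (405 * c2 * μ) * D := by
    have h3 : 0 ≤ c2 * μ := by positivity
    nlinarith
  have g4 : 0 ≤ D * (405 * c2 / Q * R) * D := by positivity
  have g5 : 0 ≤ D * (3024 * c1 * μ) * D := by positivity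
  have g6 : D * ((3024 * c1 + 405 * c2) / Q * R + (3024 * c1 + 405 * c2) * μ) * D =
      D * (3024 * c1 / Q * R) * D + D * (405 * c2 / Q * R) * D +
      D * (3024 * c1 * μ) * D + D * (405 * c2 * μ) * D := by ring
  rw [g6]
  linarith

section
variable {V : Type}

/-- the three point inequality -/
theorem bws_triple {T : Finset V} (hT : T.card = 3) {θ h a : V → ℝ} {G : ℝ}
    (h0 : ∀ x ∈ T, 0 ≤ h x) (h1 : ∀ x ∈ T, h x ≤ G) (ha : ∀ x ∈ T, a x ≤ 3 + 2 * θ x) :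
    (∑ u ∈ T, (1 + h u)) * ∑ x ∈ T, a x ≤
      ∑ x ∈ T, (3 * a x + 63 * h x + 54 * (G * t8 (θ x))) := by
  have e1 : ∑ u ∈ T, (1 + h u) = 3 + ∑ u ∈ T, h u := by
    rw [sum_add_distrib, sum_const, hT]; norm_num
  have e5 : (∑ u ∈ T, h u) * (∑ x ∈ T, a x) ≤ 63 * (∑ u ∈ T, h u) +
      54 * (G * ∑ x ∈ T, t8 (θ x)) := by
    rw [sum_mul_sum]
    have : ∑ i ∈ T, ∑ j ∈ T, h i * a j ≤ ∑ i ∈ T, ∑ j ∈ T, (21 * h i + 18 * (G * t8 (θ j))) := by
      refine sum_le_sum fun i hi => sum_le_sum fun j hj => ?_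
      have b1 := bws_mix (θ := θ j) (h0 i hi) (h1 i hi)
      have b2 := mul_le_mul_of_nonneg_left (ha j hj) (h0 i hi)
      linarith
    refine this.trans (le_of_eq ?_)
    simp only [sum_add_distrib, sum_const, hT, ← mul_sum, ← smul_sum]
    simp only [nsmul_eq_mul]
    push_cast
    ring
  have e7 : ∑ x ∈ T, (3 * a x + 63 * h x + 54 * (G * t8 (θ x))) =
      3 * (∑ x ∈ T, a x) + 63 * (∑ x ∈ T, h x) + 54 * (G * ∑ x ∈ T, t8 (θ x)) := by
    simp only [sum_add_distrib, mul_sum]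
  rw [e7, e1]
  linarith

theorem bws_point {θ h a G : ℝ} (hG : 1 ≤ G) (hθ : 0 ≤ θ) (h0 : 0 ≤ h) (h1 : h ≤ G)
    (ha0 : 0 ≤ a) (ha : a ≤ 3 + 2 * θ) :
    θ * (3 * a + 63 * h + 54 * (G * t8 θ)) ≤ 27 * a + 567 * h + 756 * (G * (θ * t8 θ)) := by
  have a1 := bws_lin hθ ha0 ha
  have a2 := bws_mix (θ := θ) h0 h1
  have a3 := bws_t8_le θ
  have a4 := bws_t8_nonneg θ
  have a5 : 0 ≤ θ * t8 θ := by positivity
  have a6 : θ * t8 θ ≤ G * (θ * t8 θ) := le_mul_of_one_le_left a5 hG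
  have a7 : G * t8 θ ≤ G * (θ * t8 θ) := mul_le_mul_of_nonneg_left a3 (by linarith)
  nlinarith

variable [DecidableEq V]
variable {H : Finset (Finset V)} {M : Finset V} {N : V → ℝ} {q s1 C1 C2 Θ : ℝ}
  {p : V → ℝ → ℝ} {π e : Finset V → ℝ → ℝ} {X : Finset (Finset V)} {s : ℝ}

theorem bws_fd (b : BD H M N q s1 C1 C2 Θ p π e X) (h0 : 0 ≤ s) (h1 : s ≤ s1) {x : V}
    (hx : x ∈ M) : |fd (th H q p π x s - N x)| ≤ 3 + 2 * th H q p π x s := by
  have a1 := abs_fd_le (th H q p π x s - N x)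
  have a2 := b.th_nonneg hx h0 h1
  have a3 := b.hN x hx
  have a4 : |th H q p π x s - N x| ≤ th H q p π x s + 1 / 4 := by
    calc |th H q p π x s - N x| ≤ |th H q p π x s| + |N x| := abs_sub _ _
      _ ≤ _ := by rw [abs_of_nonneg a2]; linarith
  linarith

theorem bws_cs (b : BD H M N q s1 C1 C2 Θ p π e X) (h0 : 0 ≤ s) (h1 : s ≤ s1) :
    ∑ x ∈ M, p x s * |fd (th H q p π x s - N x)| ≤
      4 * Real.sqrt (WB H M N q p π s * M.card) := by
  have a1 : (∑ x ∈ M, p x s * |fd (th H q p π x s - N x)|) ^ 2 ≤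
      (∑ x ∈ M, p x s * |fd (th H q p π x s - N x)| ^ 2) * ∑ x ∈ M, p x s := by
    refine sum_sq_le_sum_mul_sum_of_sq_le_mul _ (fun x hx => ?_)
      (fun x hx => (b.ppos x hx s h0 h1).le) (fun x _ => le_of_eq (by ring))
    have := b.ppos x hx s h0 h1
    positivity
  have a2 : ∑ x ∈ M, p x s * |fd (th H q p π x s - N x)| ^ 2 ≤ 12 * WB H M N q p π s := by
    unfold WB
    rw [mul_sum]
    refine sum_le_sum fun x hx => ?_
    have := fd_sq_le (th H q p π x s - N x)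
    rw [sq_abs]
    have hp := b.ppos x hx s h0 h1
    nlinarith
  have a3 : ∑ x ∈ M, p x s ≤ M.card := by
    calc ∑ x ∈ M, p x s ≤ ∑ _x ∈ M, (1 : ℝ) := sum_le_sum fun x hx => b.ple x hx s h0 h1
      _ = M.card := by simp
  have a4 : 0 ≤ WB H M N q p π s := sum_nonneg fun x hx =>
    mul_nonneg (b.ppos x hx s h0 h1).le (ff_nonneg _)
  have a5 : 0 ≤ ∑ x ∈ M, p x s := sum_nonneg fun x hx => (b.ppos x hx s h0 h1).le
  have a6 : (∑ x ∈ M, p x s * |fd (th H q p π x s - N x)|) ^ 2 ≤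
      16 * (WB H M N q p π s * M.card) := by
    refine a1.trans ?_
    have := mul_le_mul a2 a3 a5 (by positivity)
    refine this.trans ?_
    have : 0 ≤ WB H M N q p π s * M.card := by positivity
    linarith
  have a7 : (4 * Real.sqrt (WB H M N q p π s * M.card)) ^ 2 = 16 * (WB H M N q p π s * M.card) := by
    rw [mul_pow, Real.sq_sqrt (by positivity)]; norm_num
  rw [← a7] at a6
  exact le_of_sq_le_sq a6 (by positivity)

theorem bws_rho (b : BD H M N q s1 C1 C2 Θ p π e X) (h0 : 0 ≤ s) (h1 : s ≤ s1) (x : V) :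
    rho H p π x s + |er H e x s| ≤ rr H (fun T s => 4 * C1 / G2 q s *
      (π T s * ∑ u ∈ T, (1 + ph (ze q p u s))) +
      (3 * C2 ^ 2 * (if T ∈ X then 1 else 0) + |e T s|)) x s := by
  have hG := b.G2_pos h0
  have hC1 := b.hC1
  have hC2 := b.hC2
  unfold rho er rr
  have a1 : |∑ T ∈ H with x ∈ T, e T s| ≤ ∑ T ∈ H with x ∈ T, |e T s| := abs_sum_le_sum_abs _ _
  have a2 : ∑ T ∈ H with x ∈ T, π T s ^ 2 * ∑ y ∈ T, 1 / p y s ≤
      ∑ T ∈ H with x ∈ T, (4 * C1 / G2 q s *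
      (π T s * ∑ u ∈ T, (1 + ph (ze q p u s))) + 3 * C2 ^ 2 * (if T ∈ X then 1 else 0)) := by
    refine sum_le_sum fun T hT => ?_
    have hTH := (mem_filter.1 hT).1
    by_cases hX : T ∈ X
    · rw [if_pos hX, mul_one]
      have b1 := b.self_le' hTH h0 h1
      have b2 := b.pi_le hTH h0 h1
      have b3 := b.πpos T hTH s h0 h1
      have b4 : 0 ≤ ∑ u ∈ T, (1 + ph (ze q p u s)) := sum_nonneg fun u _ => by
        have := bws_ph_nonneg (ze q p u s); linarith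
      have b5 : 0 ≤ 4 * C1 / G2 q s * (π T s * ∑ u ∈ T, (1 + ph (ze q p u s))) := by
        have : 0 < G2 q s := by linarith
        positivity
      have b6 : C2 * π T s ≤ C2 * C2 := mul_le_mul_of_nonneg_left b2 (by linarith)
      nlinarith
    · rw [if_neg hX, mul_zero, add_zero]
      exact b.self_le hTH hX h0 h1
  simp only [sum_add_distrib] at a2 ⊢
  linarith

end

/-- the part of the derivative which comes from `rho` and `er` -/
theorem BW_self (C1 C2 : ℝ) (h1 : 1 ≤ C1) (h2 : 1 ≤ C2) : ∃ C : ℝ, 1 ≤ C ∧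
    ∀ (V : Type) [DecidableEq V] (H : Finset (Finset V)) (M : Finset V) (N : V → ℝ)
      (q s1 Θ : ℝ) (p : V → ℝ → ℝ) (π e : Finset V → ℝ → ℝ) (X : Finset (Finset V)),
      BD H M N q s1 C1 C2 Θ p π e X → ∀ s, 0 ≤ s → s ≤ s1 →
      ∑ x ∈ M, |fd (th H q p π x s - N x)| * (rho H p π x s + |er H e x s|) / Dd q s ≤
        Dd q s * (C / q ^ 40 * (Real.sqrt (WB H M N q p π s * M.card) + EB M q p s +
          G2 q s * TP H M q p π s) + C * (M.card / q ^ 100)) := by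
  refine ⟨3024 * C1 + 405 * C2 ^ 2, by nlinarith, ?_⟩
  intro V _ H M N q s1 Θ p π e X b s hs0 hs1
  have hG := b.G2_pos hs0
  have hG0 : 0 < G2 q s := by linarith
  have hG3 := b.G2_le hs0 hs1
  have hq1 := b.hq
  have hq : 0 < q := by linarith
  have hD := b.Dd_pos hs0
  have hqq : (1 : ℝ) ≤ q ^ 40 := one_le_pow₀ hq1
  set S : Finset V → ℝ := fun T => ∑ u ∈ T, (1 + ph (ze q p u s)) with hS
  set w : Finset V → ℝ := fun T => 3 * C2 ^ 2 * (if T ∈ X then 1 else 0) + |e T s| with hw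
  set a : V → ℝ := fun x => |fd (th H q p π x s - N x)| with ha
  have ha0 : ∀ x, 0 ≤ a x := fun x => abs_nonneg _
  have hw0 : ∀ T, 0 ≤ w T := fun T => by
    have : (0 : ℝ) ≤ if T ∈ X then 1 else 0 := by split_ifs <;> norm_num
    have := abs_nonneg (e T s)
    positivity
  have hE0 : 0 ≤ EB M q p s := sum_nonneg fun x hx =>
    mul_nonneg (b.ppos x hx s hs0 hs1).le (bws_ph_nonneg _)
  have hT0 : 0 ≤ TP H M q p π s := sum_nonneg fun x hx =>
    mul_nonneg (b.ppos x hx s hs0 hs1).le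
      (mul_nonneg (b.th_nonneg hx hs0 hs1) (bws_t8_nonneg _))
  have c0 : ∑ x ∈ M, a x * (rho H p π x s + |er H e x s|) ≤
      ∑ T ∈ H, (4 * C1 / G2 q s * (π T s * S T) + w T) * ∑ x ∈ T, a x := by
    have := sum_rr (H := H) (M := M) (π := fun T s => 4 * C1 / G2 q s *
      (π T s * ∑ u ∈ T, (1 + ph (ze q p u s))) +
      (3 * C2 ^ 2 * (if T ∈ X then 1 else 0) + |e T s|)) b.hsub a s
    rw [← this]
    exact sum_le_sum fun x _ => mul_le_mul_of_nonneg_left (bws_rho b hs0 hs1 x) (ha0 x)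
  have c1 : ∑ T ∈ H, (4 * C1 / G2 q s * (π T s * S T) + w T) * ∑ x ∈ T, a x =
      4 * C1 / G2 q s * ∑ T ∈ H, π T s * (S T * ∑ x ∈ T, a x) + ∑ T ∈ H, w T * ∑ x ∈ T, a x := by
    rw [mul_sum, ← sum_add_distrib]
    exact sum_congr rfl fun T _ => by ring
  have c2 : ∑ T ∈ H, π T s * (S T * ∑ x ∈ T, a x) ≤
      ∑ T ∈ H, π T s * ∑ x ∈ T, (3 * a x + 63 * ph (ze q p x s) +
        54 * (G2 q s * t8 (th H q p π x s))) := by
    refine sum_le_sum fun T hT => ?_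
    refine mul_le_mul_of_nonneg_left ?_ (b.πpos T hT s hs0 hs1)
    exact bws_triple (b.lin.card3 T hT) (fun x _ => bws_ph_nonneg _)
      (fun x hx => b.ph_le (b.hsub T hT hx) hs0 hs1)
      (fun x hx => bws_fd b hs0 hs1 (b.hsub T hT hx))
  rw [b.sum_pi _ hs0 hs1] at c2
  have c3 : ∑ x ∈ M, p x s * (th H q p π x s * (3 * a x + 63 * ph (ze q p x s) +
        54 * (G2 q s * t8 (th H q p π x s)))) ≤
      756 * (Real.sqrt (WB H M N q p π s * M.card) + EB M q p s + G2 q s * TP H M q p π s) := by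
    have d1 : ∑ x ∈ M, p x s * (th H q p π x s * (3 * a x + 63 * ph (ze q p x s) +
        54 * (G2 q s * t8 (th H q p π x s)))) ≤
        ∑ x ∈ M, (27 * (p x s * a x) + 567 * (p x s * ph (ze q p x s)) +
          756 * (G2 q s * (p x s * (th H q p π x s * t8 (th H q p π x s))))) := by
      refine sum_le_sum fun x hx => ?_
      have hp := b.ppos x hx s hs0 hs1
      have d2 := mul_le_mul_of_nonneg_left (bws_point hG (b.th_nonneg hx hs0 hs1)
        (bws_ph_nonneg (ze q p x s)) (b.ph_le hx hs0 hs1) (ha0 x)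
        (bws_fd b hs0 hs1 hx)) hp.le
      linarith
    have d3 := bws_cs b hs0 hs1
    have d4 : ∑ x ∈ M, (27 * (p x s * a x) + 567 * (p x s * ph (ze q p x s)) +
          756 * (G2 q s * (p x s * (th H q p π x s * t8 (th H q p π x s))))) =
        27 * (∑ x ∈ M, p x s * a x) + 567 * EB M q p s + 756 * (G2 q s * TP H M q p π s) := by
      unfold EB TP
      simp only [sum_add_distrib, mul_sum]
    rw [d4] at d1
    have d5 : ∑ x ∈ M, p x s * a x ≤ 4 * Real.sqrt (WB H M N q p π s * M.card) := d3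
    have d6 : 0 ≤ Real.sqrt (WB H M N q p π s * M.card) := Real.sqrt_nonneg _
    linarith
  have c4 : ∑ T ∈ H, π T s * (S T * ∑ x ∈ T, a x) ≤ Dd q s * (756 *
      (Real.sqrt (WB H M N q p π s * M.card) + EB M q p s + G2 q s * TP H M q p π s)) :=
    c2.trans (mul_le_mul_of_nonneg_left c3 hD.le)
  -- the negligible part
  have hΘ1 : 1 ≤ Θ := hqq.trans b.hΘ
  have c5 : ∑ T ∈ H, w T * ∑ x ∈ T, a x ≤ 15 * Θ * ∑ T ∈ H, w T := by
    rw [mul_sum]
    refine sum_le_sum fun T hT => ?_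
    have : ∑ x ∈ T, a x ≤ 15 * Θ := by
      calc ∑ x ∈ T, a x ≤ ∑ _x ∈ T, 5 * Θ := by
            refine sum_le_sum fun x hx => ?_
            have e1 := bws_fd b hs0 hs1 (b.hsub T hT hx)
            have e2 := b.hθ x (b.hsub T hT hx) s hs0 hs1
            have e3 : a x = |fd (th H q p π x s - N x)| := rfl
            linarith
        _ = 15 * Θ := by rw [sum_const, b.lin.card3 T hT]; simp; ring
    nlinarith [hw0 T]
  have c6 : ∑ T ∈ H, w T ≤ 3 * C2 ^ 2 * ((X.card : ℝ) + ∑ T ∈ H, |e T s|) := by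
    have e1 : ∑ T ∈ H, w T = 3 * C2 ^ 2 * (∑ T ∈ H, if T ∈ X then (1 : ℝ) else 0) +
        ∑ T ∈ H, |e T s| := by
      rw [mul_sum, ← sum_add_distrib]
    have e2 : (∑ T ∈ H, if T ∈ X then (1 : ℝ) else 0) = X.card := by
      rw [← sum_filter, sum_const, nsmul_eq_mul, mul_one]
      congr 2
      ext T
      rw [mem_filter]
      exact ⟨fun h => h.2, fun h => ⟨b.hX h, h⟩⟩
    rw [e1, e2]
    have e3 : 0 ≤ ∑ T ∈ H, |e T s| := sum_nonneg fun T _ => abs_nonneg _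
    have e4 : 0 ≤ (3 * C2 ^ 2 - 1) * ∑ T ∈ H, |e T s| :=
      mul_nonneg (by nlinarith) e3
    linarith
  have c7 := b.small' hs0 hs1
  have hsm0 : 0 ≤ (X.card : ℝ) + ∑ T ∈ H, |e T s| := by
    have : 0 ≤ ∑ T ∈ H, |e T s| := sum_nonneg fun T _ => abs_nonneg _
    positivity
  have c8 : ∑ T ∈ H, w T * ∑ x ∈ T, a x ≤ 45 * C2 ^ 2 * (M.card / q ^ 100) := by
    have e1 : Θ * ((X.card : ℝ) + ∑ T ∈ H, |e T s|) ≤
        ((X.card : ℝ) + ∑ T ∈ H, |e T s|) * Θ ^ 5 := by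
      rw [mul_comm]
      exact mul_le_mul_of_nonneg_left (le_self_pow₀ hΘ1 (by norm_num)) hsm0
    have e2 : (M.card : ℝ) / q ^ 600 ≤ M.card / q ^ 100 :=
      div_le_div_of_nonneg_left (by positivity) (by positivity)
        (pow_le_pow_right₀ hq1 (by norm_num))
    have e3 : Θ * ((X.card : ℝ) + ∑ T ∈ H, |e T s|) ≤ M.card / q ^ 100 := by linarith
    have e4 := mul_le_mul_of_nonneg_left c6 (by linarith : (0 : ℝ) ≤ 15 * Θ)
    have e5 := mul_le_mul_of_nonneg_left e3 (by positivity : (0 : ℝ) ≤ 45 * C2 ^ 2)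
    nlinarith
  have c9 : ∑ x ∈ M, a x * (rho H p π x s + |er H e x s|) / Dd q s =
      (∑ x ∈ M, a x * (rho H p π x s + |er H e x s|)) / Dd q s := by rw [sum_div]
  rw [c9, div_le_iff₀ hD]
  refine c0.trans ?_
  rw [c1]
  have hsq : 0 ≤ Real.sqrt (WB H M N q p π s * M.card) := Real.sqrt_nonneg _
  have hDG : Dd q s * G2 q s = q ^ 40 := by
    unfold Dd; exact div_mul_cancel₀ _ hG0.ne'
  have hR0 : 0 ≤ Real.sqrt (WB H M N q p π s * M.card) + EB M q p s +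
      G2 q s * TP H M q p π s := add_nonneg (add_nonneg hsq hE0) (mul_nonneg hG0.le hT0)
  have hμ : (0 : ℝ) ≤ M.card / q ^ 100 := div_nonneg (Nat.cast_nonneg _) (pow_nonneg hq.le _)
  exact bws_fin (D := Dd q s) (G := G2 q s) (Q := q ^ 40) (c1 := C1) (c2 := C2 ^ 2)
    (μ := M.card / q ^ 100) hD hG0 hDG hG3 (by linarith) (sq_nonneg C2) hR0 hμ c4 c8

end Vale.Agent.P046S
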