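import Vale.Agent.P046S.Bethe

/-!
P046 sharp constant, module B3b (BZb, only the beta part): differential inequality for `ZB = ∑ p sg²`. `ξ = θ - 1`.

`ZB' = ∑ (- r sg² + 2 p sg sg')`, `p sg' = Dd p (- β + γ) + (negl.)` with
`p β = (1/Dd) ∑_{T∋x} π N(T\x) ξ(T\x)`, `p γ = (1/Dd²) ∑_{T∋x, T∉X} N(T\x) π² ∑ 1/p`; the terms with `e T` and
`T ∈ X` are negligible because `|sg| ≤ θ/2 ≤ Θ` (`small'`, `self_le'`, `1/Dd ≤ 3`).
So `ZB'/Dd ≤ 2 √ZB (‖β‖ + ‖γ‖) + negl. ≤ ZB + 2 ‖β‖² + 2 ‖γ‖² + negl.`, `‖β‖² = ∑ p β²`.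

`‖β‖²`: Cauchy-Schwarz: `p β² ≤ (θ_x/Dd) ∑_{T∋x} π (N(T\x) ξ(T\x))²`, so
`‖β‖² ≤ (4/Dd) ∑_T π ∑_{x,y,z∈T} θ_x N_y² ξ_z²`. Pointwise, with `I_y = 1{|N_y| > 1/q^7}`:
`θ_x N_y² ξ_z² ≤ C (q^{-14} (ξ_z² + t8_x + t8_z) + q^9 I_y)` (if `|N_y| ≤ 1/q^7`: `θ_x ξ_z² ≤ 9 ξ_z²` for `θ_x ≤ 9`,
else `≤ θ_x³ + |ξ_z|³`, `θ³ ≤ 729 t8` for `θ > 9`; if `|N_y| > 1/q^7` use `I t8^{3/8} ≤ q^{-14} t8 + q^9 I`).
Then `sum_pi`, `θ ξ² ≤ 9 ξ² + 729 t8`, `q^9 θ I ≤ C (q^{13} I + q^{-14} t8)`, `∑ p ξ² ≤ 4 WB + 2 m/q^39`,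
`∑ I ≤ m / q^100`, `8 TB ≤ TP`.

`‖γ‖²`: `|N(T\x)| ≤ 1/2`, `self_le`, Cauchy-Schwarz:
`∑_x (1/p_x) (∑_{T∋x} π g_T)² ≤ Dd ∑_T π (∑_{x∈T} θ_x) g_T²`, `g_T = (4 C1/G²) ∑_u (1 + ph_u)`,
`g_T² ≤ C G^{-4} (1 + G² ∑_u ph_u)` (`ph ≤ G²`), `θ_x ph_u ≤ 9 ph_u + 9 G² t8_x`. Result
`‖γ‖² ≤ (C/D²) (m + G² EB + G⁴ TP)`.
-/

namespace Vale.Agent.P046S

open Finset Vale.Agent.P046 Vale.Agent.P046LF

theorem bzb_t8_nonneg (a : ℝ) : 0 ≤ t8 a := by
  unfold t8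
  have : 0 ≤ max (a - 8) 0 := le_max_right _ _
  positivity

theorem bzb_t8_big {a : ℝ} (h : 9 ≤ a) : t8 a = (a - 8) ^ 8 := by
  unfold t8
  rw [max_eq_left (by linarith)]

theorem bzb_sq_big {a : ℝ} (h : 9 ≤ a) : a ^ 2 ≤ 81 * t8 a := by
  rw [bzb_t8_big h]
  have h1 : 1 ≤ a - 8 := by linarith
  have h2 : a ≤ 9 * (a - 8) := by linarith
  have h3 : a ^ 2 ≤ (9 * (a - 8)) ^ 2 := pow_le_pow_left₀ (by linarith) h2 2
  have h4 : (a - 8) ^ 2 ≤ (a - 8) ^ 8 := pow_le_pow_right₀ h1 (by norm_num)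
  nlinarith

theorem bzb_cube_big {a : ℝ} (h : 9 ≤ a) : a ^ 3 ≤ 729 * t8 a := by
  rw [bzb_t8_big h]
  have h1 : 1 ≤ a - 8 := by linarith
  have h2 : a ≤ 9 * (a - 8) := by linarith
  have h3 : a ^ 3 ≤ (9 * (a - 8)) ^ 3 := pow_le_pow_left₀ (by linarith) h2 3
  have h4 : (a - 8) ^ 3 ≤ (a - 8) ^ 8 := pow_le_pow_right₀ h1 (by norm_num)
  have h5 : (9 * (a - 8)) ^ 3 = 729 * (a - 8) ^ 3 := by ring
  linarith

theorem bzb_A {a b : ℝ} (ha : 0 ≤ a) (hb : 0 ≤ b) :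
    a * (b - 1) ^ 2 ≤ 9 * (b - 1) ^ 2 + 729 * t8 a + 729 * t8 b := by
  have ta := bzb_t8_nonneg a
  have tb := bzb_t8_nonneg b
  rcases le_or_gt a 9 with h | h
  · have : a * (b - 1) ^ 2 ≤ 9 * (b - 1) ^ 2 := mul_le_mul_of_nonneg_right h (sq_nonneg _)
    linarith
  · have hs : 0 ≤ (b - 1) ^ 2 := sq_nonneg _
    rcases le_or_gt |b - 1| a with h1 | h1
    · have h2 : (b - 1) ^ 2 ≤ a ^ 2 := by
        rw [← sq_abs (b - 1)]
        exact pow_le_pow_left₀ (abs_nonneg _) h1 2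
      have h3 : a * (b - 1) ^ 2 ≤ a * a ^ 2 := mul_le_mul_of_nonneg_left h2 ha
      have h4 := bzb_cube_big h.le
      have h5 : a * a ^ 2 = a ^ 3 := by ring
      linarith
    · have hb1 : 9 < b - 1 := by
        rcases le_total 0 (b - 1) with h2 | h2
        · rw [abs_of_nonneg h2] at h1; linarith
        · rw [abs_of_nonpos h2] at h1; linarith
      rw [abs_of_pos (by linarith)] at h1
      have h2 : a * (b - 1) ^ 2 ≤ b * b ^ 2 := by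
        apply mul_le_mul (by linarith) _ hs hb
        exact pow_le_pow_left₀ (by linarith) (by linarith) 2
      have h4 := bzb_cube_big (a := b) (by linarith)
      have h5 : b * b ^ 2 = b ^ 3 := by ring
      linarith

theorem bzb_cube_q {a q : ℝ} (ha : 0 ≤ a) (hq : 1 ≤ q) :
    a ^ 3 ≤ 729 * (t8 a / q ^ 14 + q ^ 9) := by
  have ta := bzb_t8_nonneg a
  have hq0 : 0 < q := by linarith
  have hq9 : 1 ≤ q ^ 9 := one_le_pow₀ hq
  have h0 : 0 ≤ t8 a / q ^ 14 := by positivity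
  rcases le_or_gt a 9 with h | h
  · have : a ^ 3 ≤ 9 ^ 3 := pow_le_pow_left₀ ha h 3
    norm_num at this
    linarith
  · have h1 : 1 ≤ a - 8 := by linarith
    have h2 : a ≤ 9 * (a - 8) := by linarith
    have h3 : a ^ 3 ≤ (9 * (a - 8)) ^ 3 := pow_le_pow_left₀ (by linarith) h2 3
    have h5 : (9 * (a - 8)) ^ 3 = 729 * (a - 8) ^ 3 := by ring
    rw [bzb_t8_big h.le] at h0 ⊢
    set u := a - 8 with hu
    have hu0 : 0 < u := by linarith
    have key : u ^ 3 ≤ u ^ 8 / q ^ 14 + q ^ 9 := by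
      rcases le_or_gt (q ^ 14) (u ^ 5) with h6 | h6
      · have : u ^ 3 ≤ u ^ 8 / q ^ 14 := by
          rw [le_div_iff₀ (by positivity)]
          have e : u ^ 8 = u ^ 3 * u ^ 5 := by ring
          rw [e]
          exact mul_le_mul_of_nonneg_left h6 (by positivity)
        linarith
      · have h7 : (u ^ 3) ^ 5 ≤ (q ^ 9) ^ 5 := by
          calc (u ^ 3) ^ 5 = (u ^ 5) ^ 3 := by ring
            _ ≤ (q ^ 14) ^ 3 := pow_le_pow_left₀ (by positivity) h6.le 3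
            _ = q ^ 42 := by ring
            _ ≤ q ^ 45 := pow_le_pow_right₀ hq (by norm_num)
            _ = (q ^ 9) ^ 5 := by ring
        have h8 : u ^ 3 ≤ q ^ 9 := le_of_pow_le_pow_left₀ (by norm_num) (by positivity) h7
        linarith
    linarith

theorem bzb_B {a b q : ℝ} (ha : 0 ≤ a) (hb : 0 ≤ b) (hq : 1 ≤ q) :
    a * (b - 1) ^ 2 ≤ 2188 * ((t8 a + t8 b) / q ^ 14 + q ^ 9) := by
  have ta := bzb_t8_nonneg a
  have tb := bzb_t8_nonneg b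
  have hq0 : 0 < q := by linarith
  have hq9 : 1 ≤ q ^ 9 := one_le_pow₀ hq
  have h1 : (b - 1) ^ 2 ≤ 1 + b ^ 2 := by nlinarith
  have h2 : a * (b - 1) ^ 2 ≤ a * (1 + b ^ 2) := mul_le_mul_of_nonneg_left h1 ha
  have h3 : a ≤ 1 + a ^ 3 := by
    rcases le_total a 1 with h | h
    · have : 0 ≤ a ^ 3 := by positivity
      linarith
    · have : a ^ 1 ≤ a ^ 3 := pow_le_pow_right₀ h (by norm_num)
      linarith
  have h4 : a * b ^ 2 ≤ a ^ 3 + b ^ 3 := by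
    rcases le_total a b with h | h
    · have : a * b ^ 2 ≤ b * b ^ 2 := mul_le_mul_of_nonneg_right h (sq_nonneg _)
      have : 0 ≤ a ^ 3 := by positivity
      nlinarith
    · have : a * b ^ 2 ≤ a * a ^ 2 :=
        mul_le_mul_of_nonneg_left (pow_le_pow_left₀ hb h 2) ha
      have : 0 ≤ b ^ 3 := by positivity
      nlinarith
  have h5 := bzb_cube_q ha hq
  have h6 := bzb_cube_q hb hq
  have e : (t8 a + t8 b) / q ^ 14 = t8 a / q ^ 14 + t8 b / q ^ 14 := by ring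
  have h7 : 0 ≤ t8 a / q ^ 14 := by positivity
  have h8 : 0 ≤ t8 b / q ^ 14 := by positivity
  rw [e]
  nlinarith

/-- indicator of a large noise -/
noncomputable def bzbI (q n : ℝ) : ℝ := if 1 / q ^ 7 < |n| then 1 else 0

theorem bzbI_nonneg (q n : ℝ) : 0 ≤ bzbI q n := by unfold bzbI; split_ifs <;> norm_num

theorem bzb_point {a b n q : ℝ} (ha : 0 ≤ a) (hb : 0 ≤ b) (hq : 1 ≤ q) (hn : |n| ≤ 1 / 4) :
    a * n ^ 2 * (b - 1) ^ 2 ≤
      2188 * (((b - 1) ^ 2 + t8 a + t8 b) / q ^ 14 + q ^ 9 * bzbI q n) := by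
  have ta := bzb_t8_nonneg a
  have tb := bzb_t8_nonneg b
  have hq0 : 0 < q := by linarith
  have hq9 : 1 ≤ q ^ 9 := one_le_pow₀ hq
  have hs : 0 ≤ (b - 1) ^ 2 := sq_nonneg _
  have e0 : a * n ^ 2 * (b - 1) ^ 2 = n ^ 2 * (a * (b - 1) ^ 2) := by ring
  rw [e0]
  have hab : 0 ≤ a * (b - 1) ^ 2 := by positivity
  unfold bzbI
  split_ifs with h
  · have h1 := bzb_B ha hb hq
    have h2 : n ^ 2 ≤ 1 := by
      have : |n| ^ 2 ≤ (1 / 4) ^ 2 := pow_le_pow_left₀ (abs_nonneg _) hn 2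
      rw [sq_abs] at this
      norm_num at this
      linarith [this]
    have h3 : n ^ 2 * (a * (b - 1) ^ 2) ≤ 1 * (a * (b - 1) ^ 2) :=
      mul_le_mul_of_nonneg_right h2 hab
    have e : ((b - 1) ^ 2 + t8 a + t8 b) / q ^ 14 =
      (b - 1) ^ 2 / q ^ 14 + (t8 a + t8 b) / q ^ 14 := by ring
    rw [e]
    have h4 : 0 ≤ (b - 1) ^ 2 / q ^ 14 := by positivity
    linarith
  · push Not at h
    have h2 : n ^ 2 ≤ 1 / q ^ 14 := by
      rw [← sq_abs]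
      have : |n| ^ 2 ≤ (1 / q ^ 7) ^ 2 := pow_le_pow_left₀ (abs_nonneg _) h 2
      calc |n| ^ 2 ≤ (1 / q ^ 7) ^ 2 := this
        _ = 1 / q ^ 14 := by rw [div_pow, one_pow, ← pow_mul]
    have h3 : n ^ 2 * (a * (b - 1) ^ 2) ≤ 1 / q ^ 14 * (a * (b - 1) ^ 2) :=
      mul_le_mul_of_nonneg_right h2 hab
    have h4 : 1 / q ^ 14 * (a * (b - 1) ^ 2) ≤
        1 / q ^ 14 * (2188 * ((b - 1) ^ 2 + t8 a + t8 b)) := by
      apply mul_le_mul_of_nonneg_left _ (by positivity)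
      have := bzb_A ha hb
      linarith
    calc n ^ 2 * (a * (b - 1) ^ 2) ≤ 1 / q ^ 14 * (2188 * ((b - 1) ^ 2 + t8 a + t8 b)) :=
          h3.trans h4
      _ = 2188 * (((b - 1) ^ 2 + t8 a + t8 b) / q ^ 14 + q ^ 9 * 0) := by ring

theorem bzb_C {a : ℝ} (ha : 0 ≤ a) : a * (a - 1) ^ 2 ≤ 9 * (a - 1) ^ 2 + 81 * (a * t8 a) := by
  have ta := bzb_t8_nonneg a
  have hat : 0 ≤ a * t8 a := mul_nonneg ha ta
  rcases le_or_gt a 9 with h | h
  · have : a * (a - 1) ^ 2 ≤ 9 * (a - 1) ^ 2 := mul_le_mul_of_nonneg_right h (sq_nonneg _)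
    linarith
  · have h1 := bzb_sq_big h.le
    have h2 : (a - 1) ^ 2 ≤ a ^ 2 := pow_le_pow_left₀ (by linarith) (by linarith) 2
    have h3 : a * (a - 1) ^ 2 ≤ a * (81 * t8 a) := mul_le_mul_of_nonneg_left (h2.trans h1) ha
    have h4 : 0 ≤ (a - 1) ^ 2 := sq_nonneg _
    nlinarith

theorem bzb_D {a q : ℝ} (ha : 0 ≤ a) (hq : 1 ≤ q) :
    q ^ 9 * a ≤ 9 * (q ^ 13 + a * t8 a / q ^ 14) := by
  have ta := bzb_t8_nonneg a
  have hq0 : 0 < q := by linarith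
  have hat : 0 ≤ a * t8 a := mul_nonneg ha ta
  have h0 : 0 ≤ a * t8 a / q ^ 14 := by positivity
  have h913 : q ^ 9 ≤ q ^ 13 := pow_le_pow_right₀ hq (by norm_num)
  rcases le_or_gt a 9 with h | h
  · have h1 : q ^ 9 * a ≤ q ^ 13 * 9 := mul_le_mul h913 h ha (by positivity)
    linarith
  · rw [bzb_t8_big h.le] at h0 ⊢
    rcases le_or_gt (a - 8) (q ^ 4) with h1 | h1
    · have h2 : a ≤ 9 * q ^ 4 := by linarith
      have h3 : q ^ 9 * a ≤ q ^ 9 * (9 * q ^ 4) := mul_le_mul_of_nonneg_left h2 (by positivity)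
      have e : q ^ 9 * (9 * q ^ 4) = 9 * q ^ 13 := by ring
      linarith
    · have h2 : q ^ 23 ≤ (a - 8) ^ 8 := by
        calc q ^ 23 ≤ q ^ 32 := pow_le_pow_right₀ hq (by norm_num)
          _ = (q ^ 4) ^ 8 := by ring
          _ ≤ (a - 8) ^ 8 := pow_le_pow_left₀ (by positivity) h1.le 8
      have h3 : q ^ 9 * a ≤ a * (a - 8) ^ 8 / q ^ 14 := by
        rw [le_div_iff₀ (by positivity)]
        have e : q ^ 9 * a * q ^ 14 = a * q ^ 23 := by ring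
        rw [e]
        exact mul_le_mul_of_nonneg_left h2 ha
      have h4 : 0 ≤ q ^ 13 := by positivity
      linarith

section

variable {V : Type} [DecidableEq V]

theorem bzb_swap {H : Finset (Finset V)} {M : Finset V} (hsub : ∀ T ∈ H, T ⊆ M)
    (F : Finset V → V → ℝ) :
    ∑ x ∈ M, ∑ T ∈ H with x ∈ T, F T x = ∑ T ∈ H, ∑ x ∈ T, F T x := by
  apply Finset.sum_comm'
  intro x T
  simp only [mem_filter]
  constructor
  · rintro ⟨_, hT, hx⟩; exact ⟨hx, hT⟩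
  · rintro ⟨hx, hT⟩; exact ⟨hsub T hT hx, hT, hx⟩

theorem bzb_erase_sq {T : Finset V} (h3 : T.card = 3) {x : V} (hx : x ∈ T) (f : V → ℝ) :
    (∑ y ∈ T.erase x, f y) ^ 2 ≤ 2 * ∑ y ∈ T, f y ^ 2 := by
  have h1 := sq_sum_le_card_mul_sum_sq (s := T.erase x) (f := f)
  have h2 : (T.erase x).card = 2 := by rw [card_erase_of_mem hx, h3]
  rw [h2] at h1
  have h4 : ∑ y ∈ T.erase x, f y ^ 2 ≤ ∑ y ∈ T, f y ^ 2 :=
    sum_le_sum_of_subset_of_nonneg (erase_subset _ _) fun _ _ _ => sq_nonneg _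
  push_cast at h1
  linarith

theorem bzb_triple {T : Finset V} (h3 : T.card = 3) (θ N : V → ℝ) {q : ℝ} (hq : 1 ≤ q)
    (hθ : ∀ x ∈ T, 0 ≤ θ x) (hN : ∀ x ∈ T, |N x| ≤ 1 / 4) :
    (∑ x ∈ T, θ x) * (∑ y ∈ T, N y ^ 2) * (∑ z ∈ T, (θ z - 1) ^ 2) ≤
      2188 * ∑ x ∈ T, 9 * (((θ x - 1) ^ 2 + 2 * t8 (θ x)) / q ^ 14 + q ^ 9 * bzbI q (N x)) := by
  have h1 : (∑ x ∈ T, θ x) * (∑ y ∈ T, N y ^ 2) * (∑ z ∈ T, (θ z - 1) ^ 2) =
      ∑ x ∈ T, ∑ y ∈ T, ∑ z ∈ T, θ x * N y ^ 2 * (θ z - 1) ^ 2 := by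
    rw [sum_mul_sum, sum_mul]
    refine sum_congr rfl fun x _ => ?_
    rw [sum_mul]
    refine sum_congr rfl fun y _ => ?_
    rw [mul_sum]
  rw [h1]
  have h2 : ∑ x ∈ T, ∑ y ∈ T, ∑ z ∈ T, θ x * N y ^ 2 * (θ z - 1) ^ 2 ≤
      ∑ x ∈ T, ∑ y ∈ T, ∑ z ∈ T,
        2188 * (((θ z - 1) ^ 2 + t8 (θ x) + t8 (θ z)) / q ^ 14 + q ^ 9 * bzbI q (N y)) := by
    refine sum_le_sum fun x hx => sum_le_sum fun y hy => sum_le_sum fun z hz => ?_
    exact bzb_point (hθ x hx) (hθ z hz) hq (hN y hy)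
  refine h2.trans (le_of_eq ?_)
  have h4 : ∀ x y z : V, 2188 * (((θ z - 1) ^ 2 + t8 (θ x) + t8 (θ z)) / q ^ 14 +
      q ^ 9 * bzbI q (N y)) = 2188 * (((θ z - 1) ^ 2 + t8 (θ z)) / q ^ 14) +
        2188 * (t8 (θ x) / q ^ 14) + 2188 * (q ^ 9 * bzbI q (N y)) := by
    intro x y z; ring
  simp only [h4, sum_add_distrib, sum_const, h3, nsmul_eq_mul, ← mul_sum]
  have h5 : ∑ x ∈ T, ((θ x - 1) ^ 2 + 2 * t8 (θ x)) / q ^ 14 =
      ∑ x ∈ T, ((θ x - 1) ^ 2 + t8 (θ x)) / q ^ 14 + ∑ x ∈ T, t8 (θ x) / q ^ 14 := by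
    rw [← sum_add_distrib]
    refine sum_congr rfl fun x _ => ?_
    ring
  rw [h5]
  push_cast
  ring

end

/-- the `β` part -/
theorem BZ_beta (C1 C2 : ℝ) (h1 : 1 ≤ C1) (h2 : 1 ≤ C2) : ∃ C : ℝ, 1 ≤ C ∧
    ∀ (V : Type) [DecidableEq V] (H : Finset (Finset V)) (M : Finset V) (N : V → ℝ)
      (q s1 Θ : ℝ) (p : V → ℝ → ℝ) (π e : Finset V → ℝ → ℝ) (X : Finset (Finset V)),
      BD H M N q s1 C1 C2 Θ p π e X → ∀ s, 0 ≤ s → s ≤ s1 →
      ∑ x ∈ M, (∑ T ∈ H with x ∈ T, π T s * ((∑ y ∈ T.erase x, N y) *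
          ∑ y ∈ T.erase x, (th H q p π y s - 1))) ^ 2 / p x s ≤
        Dd q s ^ 2 * (C * ((WB H M N q p π s + TP H M q p π s) / q ^ 14 +
          M.card / q ^ 53)) := by
  refine ⟨4 * 2188 * 9 * 92, by norm_num, ?_⟩
  intro V _ H M N q s1 Θ p π e X b s h0 h1
  have hq : 1 ≤ q := b.hq
  have hq0 : 0 < q := by linarith
  have hDd := b.Dd_pos (s := s) h0
  -- abbreviations
  set θ : V → ℝ := fun x => th H q p π x s with hθdef
  have hθ0 : ∀ x ∈ M, 0 ≤ θ x := fun x hx => b.th_nonneg hx h0 h1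
  have hp0 : ∀ x ∈ M, 0 < p x s := fun x hx => b.ppos x hx s h0 h1
  have hp1 : ∀ x ∈ M, p x s ≤ 1 := fun x hx => b.ple x hx s h0 h1
  have hπ0 : ∀ T ∈ H, 0 ≤ π T s := fun T hT => b.πpos T hT s h0 h1
  set g : V → ℝ := fun x => 9 * (((θ x - 1) ^ 2 + 2 * t8 (θ x)) / q ^ 14 + q ^ 9 * bzbI q (N x))
    with hg
  -- step 1: Cauchy-Schwarz at a point
  have step1 : ∀ x ∈ M, (∑ T ∈ H with x ∈ T, π T s * ((∑ y ∈ T.erase x, N y) *
          ∑ y ∈ T.erase x, (th H q p π y s - 1))) ^ 2 / p x s ≤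
      ∑ T ∈ H with x ∈ T, Dd q s * (π T s * (θ x * ((2 * ∑ y ∈ T, N y ^ 2) *
        (2 * ∑ z ∈ T, (θ z - 1) ^ 2)))) := by
    intro x hx
    have hcs := Finset.sum_sq_le_sum_mul_sum_of_sq_le_mul (H.filter fun T => x ∈ T)
      (r := fun T => π T s * ((∑ y ∈ T.erase x, N y) * ∑ y ∈ T.erase x, (θ y - 1)))
      (f := fun T => π T s)
      (g := fun T => π T s * ((∑ y ∈ T.erase x, N y) * ∑ y ∈ T.erase x, (θ y - 1)) ^ 2)
      (fun T hT => hπ0 T (mem_filter.1 hT).1)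
      (fun T hT => mul_nonneg (hπ0 T (mem_filter.1 hT).1) (sq_nonneg _))
      (fun T _ => le_of_eq (by ring))
    have hr : ∑ T ∈ H with x ∈ T, π T s = Dd q s * (p x s * θ x) := b.rr_eq hx h0 h1
    rw [hr] at hcs
    rw [div_le_iff₀ (hp0 x hx)]
    refine hcs.trans ?_
    have hle : ∑ T ∈ H with x ∈ T,
        π T s * ((∑ y ∈ T.erase x, N y) * ∑ y ∈ T.erase x, (θ y - 1)) ^ 2 ≤
        ∑ T ∈ H with x ∈ T, π T s * ((2 * ∑ y ∈ T, N y ^ 2) * (2 * ∑ z ∈ T, (θ z - 1) ^ 2)) := by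
      refine sum_le_sum fun T hT => ?_
      obtain ⟨hTH, hxT⟩ := mem_filter.1 hT
      refine mul_le_mul_of_nonneg_left ?_ (hπ0 T hTH)
      rw [mul_pow]
      have c3 := b.lin.card3 T hTH
      exact mul_le_mul (bzb_erase_sq c3 hxT _) (bzb_erase_sq c3 hxT _) (sq_nonneg _)
        (by positivity)
    have hnn : 0 ≤ Dd q s * (p x s * θ x) :=
      mul_nonneg hDd.le (mul_nonneg (hp0 x hx).le (hθ0 x hx))
    refine (mul_le_mul_of_nonneg_left hle hnn).trans (le_of_eq ?_)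
    rw [mul_sum, sum_mul]
    refine sum_congr rfl fun T _ => ?_
    ring
  refine (sum_le_sum step1).trans ?_
  -- step 2: exchange of sums and the bound on triples
  rw [bzb_swap b.hsub (fun T x => Dd q s * (π T s * (θ x * ((2 * ∑ y ∈ T, N y ^ 2) *
        (2 * ∑ z ∈ T, (θ z - 1) ^ 2)))))]
  have step2 : ∀ T ∈ H, ∑ x ∈ T, Dd q s * (π T s * (θ x * ((2 * ∑ y ∈ T, N y ^ 2) *
        (2 * ∑ z ∈ T, (θ z - 1) ^ 2)))) ≤
      4 * 2188 * Dd q s * (π T s * ∑ x ∈ T, g x) := by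
    intro T hT
    have e1 : ∑ x ∈ T, Dd q s * (π T s * (θ x * ((2 * ∑ y ∈ T, N y ^ 2) *
        (2 * ∑ z ∈ T, (θ z - 1) ^ 2)))) = 4 * Dd q s * (π T s *
          ((∑ x ∈ T, θ x) * (∑ y ∈ T, N y ^ 2) * (∑ z ∈ T, (θ z - 1) ^ 2))) := by
      have e2 : ∀ x, Dd q s * (π T s * (θ x * ((2 * ∑ y ∈ T, N y ^ 2) *
        (2 * ∑ z ∈ T, (θ z - 1) ^ 2)))) = θ x * (4 * Dd q s * (π T s *
          ((∑ y ∈ T, N y ^ 2) * (∑ z ∈ T, (θ z - 1) ^ 2)))) := by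
        intro x; ring
      rw [sum_congr rfl fun x _ => e2 x, ← sum_mul]
      ring
    rw [e1]
    have tr := bzb_triple (b.lin.card3 T hT) θ N hq (fun x hx => hθ0 x (b.hsub T hT hx))
      (fun x hx => b.hN x (b.hsub T hT hx))
    have hπ := hπ0 T hT
    calc 4 * Dd q s * (π T s *
          ((∑ x ∈ T, θ x) * (∑ y ∈ T, N y ^ 2) * (∑ z ∈ T, (θ z - 1) ^ 2)))
        ≤ 4 * Dd q s * (π T s * (2188 * ∑ x ∈ T, g x)) := by
          apply mul_le_mul_of_nonneg_left _ (by positivity)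
          exact mul_le_mul_of_nonneg_left tr hπ
      _ = 4 * 2188 * Dd q s * (π T s * ∑ x ∈ T, g x) := by ring
  refine (sum_le_sum step2).trans ?_
  rw [← mul_sum, b.sum_pi g h0 h1]
  -- step 3: pointwise bound of `θ g`
  have step3 : ∀ x ∈ M, p x s * (th H q p π x s * g x) ≤
      81 / q ^ 14 * (p x s * (th H q p π x s - 1) ^ 2) +
      828 / q ^ 14 * (p x s * (th H q p π x s * t8 (th H q p π x s))) +
      81 * q ^ 13 * (q ^ 56 * N x ^ 8) := by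
    intro x hx
    change p x s * (θ x * g x) ≤ 81 / q ^ 14 * (p x s * (θ x - 1) ^ 2) +
      828 / q ^ 14 * (p x s * (θ x * t8 (θ x))) + 81 * q ^ 13 * (q ^ 56 * N x ^ 8)
    have a1 := bzb_C (hθ0 x hx)
    have a2 := bzb_D (hθ0 x hx) hq
    have a3 := bzbI_nonneg q (N x)
    have hI : bzbI q (N x) ≤ q ^ 56 * N x ^ 8 := by
      unfold bzbI
      split_ifs with h
      · have e8 : N x ^ 8 = |N x| ^ 8 := by
          rw [← abs_pow]; exact (abs_of_nonneg (by positivity)).symm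
        have h5 : (1 / q ^ 7) ^ 8 ≤ |N x| ^ 8 := pow_le_pow_left₀ (by positivity) h.le 8
        have h6 : (1 / q ^ 7) ^ 8 = 1 / q ^ 56 := by rw [div_pow, one_pow, ← pow_mul]
        rw [h6, div_le_iff₀ (by positivity)] at h5
        rw [e8]; linarith
      · positivity
    have hI1 : bzbI q (N x) ≤ 1 := by unfold bzbI; split_ifs <;> norm_num
    have hpx := hp0 x hx
    have hpx1 := hp1 x hx
    have ht := bzb_t8_nonneg (θ x)
    have hθx := hθ0 x hx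
    have hθt : 0 ≤ θ x * t8 (θ x) := mul_nonneg hθx ht
    -- main computation
    have k1 : θ x * g x ≤ 9 * ((9 * (θ x - 1) ^ 2 + 83 * (θ x * t8 (θ x))) / q ^ 14 +
        9 * (q ^ 13 * bzbI q (N x) + θ x * t8 (θ x) / q ^ 14)) := by
      have e : θ x * g x = 9 * ((θ x * (θ x - 1) ^ 2 + 2 * (θ x * t8 (θ x))) / q ^ 14 +
          (q ^ 9 * θ x) * bzbI q (N x)) := by
        rw [hg]; ring
      rw [e]
      have c1 : (θ x * (θ x - 1) ^ 2 + 2 * (θ x * t8 (θ x))) / q ^ 14 ≤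
          (9 * (θ x - 1) ^ 2 + 83 * (θ x * t8 (θ x))) / q ^ 14 := by
        apply div_le_div_of_nonneg_right _ (by positivity)
        linarith
      have c2 : (q ^ 9 * θ x) * bzbI q (N x) ≤
          9 * (q ^ 13 * bzbI q (N x) + θ x * t8 (θ x) / q ^ 14) := by
        have d1 : (q ^ 9 * θ x) * bzbI q (N x) ≤
            (9 * (q ^ 13 + θ x * t8 (θ x) / q ^ 14)) * bzbI q (N x) :=
          mul_le_mul_of_nonneg_right a2 a3
        have d2 : 0 ≤ θ x * t8 (θ x) / q ^ 14 := by positivity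
        have d3 : θ x * t8 (θ x) / q ^ 14 * bzbI q (N x) ≤ θ x * t8 (θ x) / q ^ 14 * 1 :=
          mul_le_mul_of_nonneg_left hI1 d2
        nlinarith
      linarith
    have k2 : p x s * (θ x * g x) ≤
        p x s * (9 * ((9 * (θ x - 1) ^ 2 + 83 * (θ x * t8 (θ x))) / q ^ 14 +
        9 * (q ^ 13 * bzbI q (N x) + θ x * t8 (θ x) / q ^ 14))) :=
      mul_le_mul_of_nonneg_left k1 hpx.le
    have k3 : p x s * bzbI q (N x) ≤ q ^ 56 * N x ^ 8 := by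
      have : p x s * bzbI q (N x) ≤ 1 * bzbI q (N x) := mul_le_mul_of_nonneg_right hpx1 a3
      linarith
    have k4 : 81 * q ^ 13 * (p x s * bzbI q (N x)) ≤ 81 * q ^ 13 * (q ^ 56 * N x ^ 8) :=
      mul_le_mul_of_nonneg_left k3 (by positivity)
    have e5 : p x s * (9 * ((9 * (θ x - 1) ^ 2 + 83 * (θ x * t8 (θ x))) / q ^ 14 +
        9 * (q ^ 13 * bzbI q (N x) + θ x * t8 (θ x) / q ^ 14))) =
        81 / q ^ 14 * (p x s * (θ x - 1) ^ 2) +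
      828 / q ^ 14 * (p x s * (θ x * t8 (θ x))) + 81 * q ^ 13 * (p x s * bzbI q (N x)) := by
      ring
    linarith
  have step4 : ∑ x ∈ M, p x s * (th H q p π x s * g x) ≤
      81 / q ^ 14 * (4 * WB H M N q p π s + 2 * (M.card / q ^ 39)) +
      828 / q ^ 14 * TP H M q p π s + 81 * q ^ 13 * (q ^ 56 * (M.card / q ^ 156)) := by
    refine (sum_le_sum step3).trans ?_
    rw [sum_add_distrib, sum_add_distrib, ← mul_sum, ← mul_sum, ← mul_sum, ← mul_sum]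
    have c1 : 81 / q ^ 14 * ∑ x ∈ M, p x s * (th H q p π x s - 1) ^ 2 ≤
        81 / q ^ 14 * (4 * WB H M N q p π s + 2 * (M.card / q ^ 39)) :=
      mul_le_mul_of_nonneg_left (b.sum_xi h0 h1) (by positivity)
    have c2 : 81 * q ^ 13 * (q ^ 56 * ∑ x ∈ M, N x ^ 8) ≤
        81 * q ^ 13 * (q ^ 56 * (M.card / q ^ 156)) := by
      apply mul_le_mul_of_nonneg_left _ (by positivity)
      exact mul_le_mul_of_nonneg_left b.hN8 (by positivity)
    have c3 : TP H M q p π s = ∑ x ∈ M, p x s * (th H q p π x s * t8 (th H q p π x s)) := rfl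
    rw [c3]
    linarith
  have hWB : 0 ≤ WB H M N q p π s := by
    unfold WB
    exact sum_nonneg fun x hx => mul_nonneg (hp0 x hx).le (ff_nonneg _)
  have hTP : 0 ≤ TP H M q p π s := by
    unfold TP
    exact sum_nonneg fun x hx => mul_nonneg (hp0 x hx).le
      (mul_nonneg (hθ0 x hx) (bzb_t8_nonneg _))
  have hm : (0 : ℝ) ≤ M.card := by positivity
  have step5 : 81 / q ^ 14 * (4 * WB H M N q p π s + 2 * (M.card / q ^ 39)) +
      828 / q ^ 14 * TP H M q p π s + 81 * q ^ 13 * (q ^ 56 * (M.card / q ^ 156)) ≤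
      828 * ((WB H M N q p π s + TP H M q p π s) / q ^ 14 + M.card / q ^ 53) := by
    have e1 : 81 / q ^ 14 * (4 * WB H M N q p π s + 2 * (M.card / q ^ 39)) =
        324 * (WB H M N q p π s / q ^ 14) + 162 * (M.card / q ^ 53) := by
      field_simp
      ring
    have e2 : 81 * q ^ 13 * (q ^ 56 * (M.card / q ^ 156)) = 81 * (M.card / q ^ 87) := by
      field_simp
    have e3 : 828 / q ^ 14 * TP H M q p π s = 828 * (TP H M q p π s / q ^ 14) := by ring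
    have e4 : (WB H M N q p π s + TP H M q p π s) / q ^ 14 =
      WB H M N q p π s / q ^ 14 + TP H M q p π s / q ^ 14 := by ring
    rw [e1, e2, e3, e4]
    have f1 : (M.card : ℝ) / q ^ 87 ≤ M.card / q ^ 53 := by
      apply div_le_div_of_nonneg_left hm (by positivity)
      exact pow_le_pow_right₀ hq (by norm_num)
    have f2 : 0 ≤ WB H M N q p π s / q ^ 14 := by positivity
    have f3 : 0 ≤ (M.card : ℝ) / q ^ 53 := by positivity
    linarith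
  calc 4 * 2188 * Dd q s * (Dd q s * ∑ x ∈ M, p x s * (th H q p π x s * g x))
      ≤ 4 * 2188 * Dd q s * (Dd q s *
        (828 * ((WB H M N q p π s + TP H M q p π s) / q ^ 14 + M.card / q ^ 53))) := by
        apply mul_le_mul_of_nonneg_left _ (by positivity)
        exact mul_le_mul_of_nonneg_left (step4.trans step5) hDd.le
    _ = Dd q s ^ 2 * (4 * 2188 * 9 * 92 * ((WB H M N q p π s + TP H M q p π s) / q ^ 14 +
          M.card / q ^ 53)) := by ring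

end Vale.Agent.P046S
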