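import Vale.Agent.P046S.BDef

/-!
P046 sharp constant, module B0a (BethA): basic facts about the system `BD`.
-/

namespace Vale.Agent.P046S

open Finset Vale.Agent.P046 Vale.Agent.P046LF

variable {V : Type} [DecidableEq V]

variable {H : Finset (Finset V)} {M : Finset V} {N : V → ℝ} {q s1 C1 C2 Θ : ℝ}
  {p : V → ℝ → ℝ} {π e : Finset V → ℝ → ℝ} {X : Finset (Finset V)} {s : ℝ}

theorem BethA_glue {f g h : ℝ → ℝ} {a d : ℝ} (hg : ∀ x, x ≤ a → f x = g x)
    (hh : ∀ x, a ≤ x → f x = h x) (dg : HasDerivAt g d a) (dh : HasDerivAt h d a) :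
    HasDerivAt f d a := by
  have h1 : HasDerivWithinAt f d (Set.Iic a) a :=
    dg.hasDerivWithinAt.congr (fun x hx => hg x hx) (hg a le_rfl)
  have h2 : HasDerivWithinAt f d (Set.Ici a) a :=
    dh.hasDerivWithinAt.congr (fun x hx => hh x hx) (hh a le_rfl)
  have h3 := h1.union h2
  rwa [Set.Iic_union_Ici, hasDerivWithinAt_univ] at h3

theorem BethA_max (n : ℕ) (y : ℝ) :
    HasDerivAt (fun y : ℝ => (max y 0) ^ (n + 2)) (((n : ℝ) + 2) * (max y 0) ^ (n + 1)) y := by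
  have hp : ∀ y : ℝ, HasDerivAt (fun y : ℝ => y ^ (n + 2)) (((n : ℝ) + 2) * y ^ (n + 1)) y := by
    intro y
    have := hasDerivAt_pow (n + 2) y
    have e : ((n + 2 : ℕ) : ℝ) = (n : ℝ) + 2 := by push_cast; ring
    rw [e] at this
    exact this
  rcases lt_trichotomy y 0 with h | h | h
  · rw [max_eq_right h.le]
    have h1 : HasDerivAt (fun _ : ℝ => (0 : ℝ)) 0 y := hasDerivAt_const _ _
    have h2 : (fun y : ℝ => (max y 0) ^ (n + 2)) =ᶠ[nhds y] fun _ => (0 : ℝ) := by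
      filter_upwards [gt_mem_nhds h] with z hz
      rw [max_eq_right hz.le]
      exact zero_pow (by omega)
    rw [zero_pow (by omega), mul_zero]
    exact h1.congr_of_eventuallyEq h2
  · subst h
    rw [max_self, zero_pow (by omega), mul_zero]
    refine BethA_glue (g := fun _ => 0) (h := fun y => y ^ (n + 2)) ?_ ?_ (hasDerivAt_const _ _) ?_
    · intro x hx
      rw [max_eq_right hx]
      exact zero_pow (by omega)
    · intro x hx
      rw [max_eq_left hx]
    · have := hp 0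
      rw [zero_pow (by omega), mul_zero] at this
      exact this
  · rw [max_eq_left h.le]
    have h2 : (fun y : ℝ => (max y 0) ^ (n + 2)) =ᶠ[nhds y] fun y => y ^ (n + 2) := by
      filter_upwards [lt_mem_nhds h] with z hz
      rw [max_eq_left hz.le]
    exact (hp y).congr_of_eventuallyEq h2

theorem G2_deriv (q s : ℝ) : HasDerivAt (G2 q) (2 * q ^ 40) s := by
  have h := ((hasDerivAt_id s).const_mul (2 * q ^ 40)).const_add 1
  rw [mul_one] at h
  exact h

/-- `f` is continuously differentiable -/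
theorem ff_deriv (x : ℝ) : HasDerivAt ff (fd x) x := by
  have hM : ∀ x : ℝ, HasDerivAt (fun x : ℝ => 2 * x ^ 3 - 3 * x ^ 2 + 1) (6 * x ^ 2 - 6 * x) x := by
    intro x
    have h := (((hasDerivAt_pow 3 x).const_mul 2).sub ((hasDerivAt_pow 2 x).const_mul 3)).add_const 1
    refine h.congr_deriv ?_
    push_cast
    ring
  have hR : ∀ x : ℝ, 0 < x → HasDerivAt (fun x : ℝ => x ^ 2 + 2 / x - 3) (2 * x - 2 / x ^ 2) x := by
    intro x hx
    have h := ((hasDerivAt_pow 2 x).add ((hasDerivAt_inv hx.ne').const_mul 2)).sub_const 3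
    refine (h.congr_deriv ?_).congr_of_eventuallyEq (Filter.Eventually.of_forall fun y => ?_)
    · push_cast
      ring
    · simp [div_eq_mul_inv]
  rcases lt_trichotomy x 0 with h | h | h
  · rw [fi_fd_N h.le]
    have h2 : ff =ᶠ[nhds x] fun _ => (1 : ℝ) := by
      filter_upwards [gt_mem_nhds h] with z hz
      exact fi_ff_N hz.le
    exact (hasDerivAt_const _ _).congr_of_eventuallyEq h2
  · subst h
    rw [fi_fd_N le_rfl]
    have h3 := hM 0
    have e : (6 * (0 : ℝ) ^ 2 - 6 * 0) = 0 := by norm_num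
    rw [e] at h3
    have hh : HasDerivWithinAt ff 0 (Set.Icc 0 1) 0 :=
      h3.hasDerivWithinAt.congr (fun y hy => fi_ff_M hy.1 hy.2) (fi_ff_M le_rfl zero_le_one)
    have hh2 : HasDerivWithinAt ff 0 (Set.Ici 0) 0 := by
      refine hh.mono_of_mem_nhdsWithin ?_
      exact Icc_mem_nhdsGE zero_lt_one
    have hh1 : HasDerivWithinAt ff 0 (Set.Iic 0) 0 :=
      (hasDerivAt_const (0 : ℝ) (1 : ℝ)).hasDerivWithinAt.congr (fun y hy => fi_ff_N hy)
        (fi_ff_N le_rfl)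
    have h4 := hh1.union hh2
    rwa [Set.Iic_union_Ici, hasDerivWithinAt_univ] at h4
  · rcases lt_trichotomy x 1 with h1 | h1 | h1
    · rw [fi_fd_M h.le h1.le]
      have h2 : ff =ᶠ[nhds x] fun x => 2 * x ^ 3 - 3 * x ^ 2 + 1 := by
        filter_upwards [lt_mem_nhds h, gt_mem_nhds h1] with z hz hz'
        exact fi_ff_M hz.le hz'.le
      exact (hM x).congr_of_eventuallyEq h2
    · subst h1
      have e1 := hM 1
      have e2 := hR 1 zero_lt_one
      have e3 : fd 1 = 6 * (1 : ℝ) ^ 2 - 6 * 1 := fi_fd_M zero_le_one le_rfl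
      have e4 : fd 1 = 2 * (1 : ℝ) - 2 / 1 ^ 2 := fi_fd_R le_rfl
      rw [← e3] at e1
      rw [← e4] at e2
      have hh1 : HasDerivWithinAt ff (fd 1) (Set.Icc 0 1) 1 :=
        e1.hasDerivWithinAt.congr (fun y hy => fi_ff_M hy.1 hy.2) (fi_ff_M zero_le_one le_rfl)
      have hh2 : HasDerivWithinAt ff (fd 1) (Set.Iic 1) 1 :=
        hh1.mono_of_mem_nhdsWithin (Icc_mem_nhdsLE zero_lt_one)
      have hh3 : HasDerivWithinAt ff (fd 1) (Set.Ici 1) 1 :=
        e2.hasDerivWithinAt.congr (fun y hy => fi_ff_R hy) (fi_ff_R le_rfl)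
      have h4 := hh2.union hh3
      rwa [Set.Iic_union_Ici, hasDerivWithinAt_univ] at h4
    · rw [fi_fd_R h1.le]
      have h2 : ff =ᶠ[nhds x] fun x => x ^ 2 + 2 / x - 3 := by
        filter_upwards [lt_mem_nhds h1] with z hz
        exact fi_ff_R hz.le
      exact (hR x h).congr_of_eventuallyEq h2

theorem t8_deriv (x : ℝ) : HasDerivAt t8 (8 * (max (x - 8) 0) ^ 7) x := by
  have h := (BethA_max 6 (x - 8)).comp x ((hasDerivAt_id x).sub_const 8)
  refine h.congr_deriv ?_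
  norm_num

theorem ph_deriv (z : ℝ) : HasDerivAt ph (2 * max (Real.exp z - 1) 0 * Real.exp z) z := by
  have h := (BethA_max 0 (Real.exp z - 1)).comp z ((Real.hasDerivAt_exp z).sub_const 1)
  refine h.congr_deriv ?_
  norm_num

/-- exchange of sums: `∑_x g x r x = ∑_T π T ∑_{x ∈ T} g x` -/
theorem sum_rr (hsub : ∀ T ∈ H, T ⊆ M) (g : V → ℝ) (s : ℝ) :
    ∑ x ∈ M, g x * rr H π x s = ∑ T ∈ H, π T s * ∑ x ∈ T, g x := by
  unfold rr
  simp_rw [mul_sum, sum_filter]
  rw [sum_comm]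
  refine sum_congr rfl fun T hT => ?_
  rw [← sum_filter]
  have : M.filter (fun x => x ∈ T) = T := by
    ext x
    simp only [mem_filter]
    exact ⟨fun h => h.2, fun h => ⟨hsub T hT h, h⟩⟩
  rw [this]
  exact sum_congr rfl fun x _ => mul_comm _ _

namespace BD

theorem G2_pos (b : BD H M N q s1 C1 C2 Θ p π e X) (h0 : 0 ≤ s) : 1 ≤ G2 q s := by
  have h1 := b.hq
  have h2 : 0 ≤ 2 * q ^ 40 * s := by positivity
  unfold G2
  linarith

theorem G2_le (b : BD H M N q s1 C1 C2 Θ p π e X) (h0 : 0 ≤ s) (h1 : s ≤ s1) :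
    G2 q s ≤ 3 * q ^ 40 := by
  have h2 : 1 ≤ q ^ 40 := one_le_pow₀ b.hq
  have h3 : s ≤ 1 := h1.trans b.hs1
  unfold G2
  nlinarith

theorem Dd_pos (b : BD H M N q s1 C1 C2 Θ p π e X) (h0 : 0 ≤ s) : 0 < Dd q s := by
  have h1 := b.hq
  have h2 := b.G2_pos h0
  unfold Dd
  have h3 : 0 < q := by linarith
  have h4 : 0 < G2 q s := by linarith
  positivity

theorem rr_nonneg (b : BD H M N q s1 C1 C2 Θ p π e X) (x : V) (h0 : 0 ≤ s) (h1 : s ≤ s1) :
    0 ≤ rr H π x s :=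
  sum_nonneg fun T hT => b.πpos T (mem_filter.1 hT).1 s h0 h1

theorem th_nonneg (b : BD H M N q s1 C1 C2 Θ p π e X) {x : V} (hx : x ∈ M) (h0 : 0 ≤ s)
    (h1 : s ≤ s1) : 0 ≤ th H q p π x s := by
  have h2 := b.rr_nonneg x h0 h1
  have h3 := b.ppos x hx s h0 h1
  have h4 := b.Dd_pos h0
  unfold th
  positivity

theorem rr_eq (b : BD H M N q s1 C1 C2 Θ p π e X) {x : V} (hx : x ∈ M) (h0 : 0 ≤ s)
    (h1 : s ≤ s1) : rr H π x s = Dd q s * (p x s * th H q p π x s) := by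
  have h3 := b.ppos x hx s h0 h1
  have h4 := b.Dd_pos h0
  unfold th
  field_simp

/-- `∑_T π T ∑_{x ∈ T} g x = Dd ∑_x p x th x g x` -/
theorem sum_pi (b : BD H M N q s1 C1 C2 Θ p π e X) (g : V → ℝ) (h0 : 0 ≤ s) (h1 : s ≤ s1) :
    ∑ T ∈ H, π T s * ∑ x ∈ T, g x = Dd q s * ∑ x ∈ M, p x s * (th H q p π x s * g x) := by
  rw [← sum_rr b.hsub g s, mul_sum]
  refine sum_congr rfl fun x hx => ?_
  rw [b.rr_eq hx h0 h1]
  ring

end BD

end Vale.Agent.P046S
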