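import Vale.Agent.P046S.BethA

/-!
P046 sharp constant, module B0b (BethB): derivatives of relative degree, noise sum, log excess.
-/

namespace Vale.Agent.P046S

open Finset Vale.Agent.P046 Vale.Agent.P046LF

variable {V : Type} [DecidableEq V]

variable {H : Finset (Finset V)} {M : Finset V} {N : V → ℝ} {q s1 C1 C2 Θ : ℝ}
  {p : V → ℝ → ℝ} {π e : Finset V → ℝ → ℝ} {X : Finset (Finset V)} {s : ℝ}

namespace BD

theorem BethB_Dd (b : BD H M N q s1 C1 C2 Θ p π e X) (h0 : 0 ≤ s) :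
    HasDerivAt (Dd q) (-(2 * Dd q s ^ 2)) s := by
  have hG := b.G2_pos h0
  have hG0 : G2 q s ≠ 0 := by linarith
  have h := (hasDerivAt_const s (q ^ 40)).div (G2_deriv q s) hG0
  refine h.congr_deriv ?_
  unfold Dd
  field_simp
  ring

/-- weighted version -/
theorem BethB_gen (b : BD H M N q s1 C1 C2 Θ p π e X) {x : V} (hx : x ∈ M) (h0 : 0 ≤ s)
    (h1 : s ≤ s1) (a : Finset V → ℝ) :
    ∃ d, HasDerivAt (fun s => (∑ T ∈ H with x ∈ T, π T s * a T) / (p x s * Dd q s)) d s ∧
      p x s * d = -(∑ T ∈ H with x ∈ T, a T * (π T s * ∑ y ∈ T.erase x, (th H q p π y s - 1))) +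
        (∑ T ∈ H with x ∈ T, a T * (π T s ^ 2 * ∑ y ∈ T, 1 / p y s - e T s)) / Dd q s := by
  have hD := b.Dd_pos h0
  have hp := b.ppos x hx s h0 h1
  have hR : HasDerivAt (fun s => ∑ T ∈ H with x ∈ T, π T s * a T)
      (∑ T ∈ H with x ∈ T,
        (-(π T s * ∑ y ∈ T, (rr H π y s - π T s) / p y s) - e T s) * a T) s := by
    refine HasDerivAt.fun_sum fun T hT => ?_
    exact (b.πd T (mem_filter.1 hT).1 s h0 h1).mul_const (a T)
  have hpD := (b.pd x hx s h0 h1).fun_mul (b.BethB_Dd h0)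
  have h := hR.fun_div hpD (by positivity)
  refine ⟨_, h, ?_⟩
  set R := ∑ T ∈ H with x ∈ T, π T s * a T with hRdef
  have e1 : (∑ T ∈ H with x ∈ T,
        (-(π T s * ∑ y ∈ T, (rr H π y s - π T s) / p y s) - e T s) * a T) =
      -(R * (rr H π x s / p x s)) - 2 * (Dd q s * R) -
        Dd q s * (∑ T ∈ H with x ∈ T, a T * (π T s * ∑ y ∈ T.erase x, (th H q p π y s - 1))) +
        ∑ T ∈ H with x ∈ T, a T * (π T s ^ 2 * ∑ y ∈ T, 1 / p y s - e T s) := by
    rw [hRdef, mul_sum, mul_sum, mul_sum, sum_mul, ← sum_neg_distrib, ← sum_sub_distrib,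
      ← sum_sub_distrib, ← sum_add_distrib]
    refine sum_congr rfl fun T hT => ?_
    obtain ⟨hTH, hxT⟩ := mem_filter.1 hT
    have hTM := b.hsub T hTH
    have hcard : (T.erase x).card = 2 := by
      rw [card_erase_of_mem hxT, b.lin.card3 T hTH]
    have e2 : ∑ y ∈ T, (rr H π y s - π T s) / p y s =
        rr H π x s / p x s + Dd q s * (∑ y ∈ T.erase x, (th H q p π y s - 1)) + 2 * Dd q s -
          π T s * ∑ y ∈ T, 1 / p y s := by
      have e3 : ∑ y ∈ T, (rr H π y s - π T s) / p y s =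
          ∑ y ∈ T, rr H π y s / p y s - π T s * ∑ y ∈ T, 1 / p y s := by
        rw [mul_sum, ← sum_sub_distrib]
        refine sum_congr rfl fun y _ => ?_
        ring
      rw [e3, ← add_sum_erase T (fun y => rr H π y s / p y s) hxT]
      have e4 : ∑ y ∈ T.erase x, rr H π y s / p y s =
          Dd q s * (∑ y ∈ T.erase x, (th H q p π y s - 1)) + 2 * Dd q s := by
        rw [sum_sub_distrib, sum_const, hcard]
        have e5 : ∑ y ∈ T.erase x, rr H π y s / p y s =
            Dd q s * ∑ y ∈ T.erase x, th H q p π y s := by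
          rw [mul_sum]
          refine sum_congr rfl fun y hy => ?_
          have hyM := hTM (mem_of_mem_erase hy)
          have hpy := b.ppos y hyM s h0 h1
          rw [b.rr_eq hyM h0 h1]
          field_simp
        rw [e5]
        simp only [nsmul_eq_mul]
        push_cast
        ring
      rw [e4]
      ring
    rw [e2]
    ring
  rw [e1]
  field_simp
  ring

/-- the equation for the relative degree -/
theorem th_deriv (b : BD H M N q s1 C1 C2 Θ p π e X) {x : V} (hx : x ∈ M) (h0 : 0 ≤ s)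
    (h1 : s ≤ s1) : ∃ d, HasDerivAt (th H q p π x) d s ∧
      p x s * d = -(∑ T ∈ H with x ∈ T, π T s * ∑ y ∈ T.erase x, (th H q p π y s - 1)) +
        (rho H p π x s - er H e x s) / Dd q s := by
  obtain ⟨d, hd, he⟩ := b.BethB_gen hx h0 h1 (fun _ => 1)
  refine ⟨d, ?_, ?_⟩
  · have e1 : th H q p π x = fun s => (∑ T ∈ H with x ∈ T, π T s * 1) / (p x s * Dd q s) := by
      funext s
      simp only [th, rr, mul_one]
    rw [e1]
    exact hd
  · rw [he]
    simp only [one_mul, sum_sub_distrib, rho, er]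

/-- the equation for the normalized noise sum -/
theorem sg_deriv (b : BD H M N q s1 C1 C2 Θ p π e X) {x : V} (hx : x ∈ M) (h0 : 0 ≤ s)
    (h1 : s ≤ s1) : ∃ d, HasDerivAt (sg H N q p π x) d s ∧
      p x s * d = -(∑ T ∈ H with x ∈ T, π T s * ((∑ y ∈ T.erase x, N y) *
          ∑ y ∈ T.erase x, (th H q p π y s - 1))) +
        (∑ T ∈ H with x ∈ T, (∑ y ∈ T.erase x, N y) *
          (π T s ^ 2 * ∑ y ∈ T, 1 / p y s - e T s)) / Dd q s := by
  obtain ⟨d, hd, he⟩ := b.BethB_gen hx h0 h1 (fun T => ∑ y ∈ T.erase x, N y)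
  refine ⟨d, hd, ?_⟩
  rw [he]
  congr 2
  refine sum_congr rfl fun T _ => ?_
  ring

theorem ze_deriv (b : BD H M N q s1 C1 C2 Θ p π e X) {x : V} (hx : x ∈ M) (h0 : 0 ≤ s)
    (h1 : s ≤ s1) : HasDerivAt (ze q p x) (Dd q s * (1 - th H q p π x s)) s := by
  have hG := b.G2_pos h0
  have hG0 : 0 < G2 q s := by linarith
  have hp := b.ppos x hx s h0 h1
  have hD := b.Dd_pos h0
  have h2 := ((b.pd x hx s h0 h1).log hp.ne').fun_add (((G2_deriv q s).log hG0.ne').div_const 2)
  refine h2.congr_deriv ?_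
  rw [b.rr_eq hx h0 h1]
  unfold Dd
  field_simp
  ring

end BD

end Vale.Agent.P046S
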