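import Vale.Agent.P046S.BethA

/-!
P046 sharp constant, module B0c (BethC): elementary bounds for the system `BD`.
-/

namespace Vale.Agent.P046S

open Finset Vale.Agent.P046 Vale.Agent.P046LF

variable {V : Type} [DecidableEq V]

variable {H : Finset (Finset V)} {M : Finset V} {N : V → ℝ} {q s1 C1 C2 Θ : ℝ}
  {p : V → ℝ → ℝ} {π e : Finset V → ℝ → ℝ} {X : Finset (Finset V)} {s : ℝ}

/-- `e^{2z} ≤ 4 (1 + ph z)` -/
private theorem bethC_exp_le (z : ℝ) : Real.exp z ^ 2 ≤ 4 * (1 + ph z) := by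
  unfold ph
  have h0 := Real.exp_pos z
  rcases le_total (Real.exp z - 1) 0 with h | h
  · rw [max_eq_right h]
    nlinarith
  · rw [max_eq_left h]
    nlinarith [sq_nonneg (Real.exp z - 2)]

private theorem bethC_amgm {a c : ℝ} (ha : 0 ≤ a) (hc : 0 < c) :
    a ≤ a ^ 4 / (4 * c ^ 3) + 3 / 4 * c := by
  have h1 : 0 ≤ (a - c) ^ 2 * (a ^ 2 + 2 * a * c + 3 * c ^ 2) := by positivity
  have h2 : 4 * a * c ^ 3 ≤ a ^ 4 + 3 * c ^ 4 := by nlinarith
  have h3 : a ^ 4 / (4 * c ^ 3) + 3 / 4 * c = (a ^ 4 + 3 * c ^ 4) / (4 * c ^ 3) := by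
    field_simp
  rw [h3, le_div_iff₀ (by positivity)]
  linarith

namespace BD

private theorem exp_ze (b : BD H M N q s1 C1 C2 Θ p π e X) {x : V} (hx : x ∈ M) (h0 : 0 ≤ s)
    (h1 : s ≤ s1) : Real.exp (ze q p x s) ^ 2 = p x s ^ 2 * G2 q s := by
  have hp := b.ppos x hx s h0 h1
  have hG : 0 < G2 q s := lt_of_lt_of_le one_pos (b.G2_pos h0)
  unfold ze
  rw [← Real.exp_nat_mul]
  have e : ((2 : ℕ) : ℝ) * (Real.log (p x s) + Real.log (G2 q s) / 2) =
      Real.log (p x s) + Real.log (p x s) + Real.log (G2 q s) := by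
    push_cast
    ring
  rw [e, Real.exp_add, Real.exp_add, Real.exp_log hp, Real.exp_log hG]
  ring

/-- `(θ - 1)² ≤ 4 f(θ - N) + 2 N²`, so `∑ p (θ-1)² ≤ 4 W + 2 ∑ N² ≤ 4 W + 2 m / q ^ 39` -/
theorem sum_xi (b : BD H M N q s1 C1 C2 Θ p π e X) (h0 : 0 ≤ s) (h1 : s ≤ s1) :
    ∑ x ∈ M, p x s * (th H q p π x s - 1) ^ 2 ≤ 4 * WB H M N q p π s + 2 * (M.card / q ^ 39) := by
  have hq : 0 < q := lt_of_lt_of_le one_pos b.hq
  have h2 : ∀ x ∈ M, p x s * (th H q p π x s - 1) ^ 2 ≤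
      4 * (p x s * ff (th H q p π x s - N x)) +
        2 * ((N x ^ 8) / (4 * (1 / q ^ 39) ^ 3) + 3 / 4 * (1 / q ^ 39)) := by
    intro x hx
    have hp := b.ppos x hx s h0 h1
    have hp1 := b.ple x hx s h0 h1
    have hθ := b.th_nonneg hx h0 h1
    have hN := abs_le.mp (b.hN x hx)
    have h3 := sq_le_ff (x := th H q p π x s - N x) (by linarith)
    have h4 : (th H q p π x s - 1) ^ 2 ≤ 4 * ff (th H q p π x s - N x) + 2 * N x ^ 2 := by
      nlinarith [sq_nonneg (th H q p π x s - N x - 1 - N x)]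
    have h5 := bethC_amgm (a := N x ^ 2) (c := 1 / q ^ 39) (by positivity) (by positivity)
    have h6 : (N x ^ 2) ^ 4 = N x ^ 8 := by ring
    rw [h6] at h5
    have h7 : p x s * (2 * N x ^ 2) ≤ 2 * N x ^ 2 := by
      have : 0 ≤ 2 * N x ^ 2 := by positivity
      nlinarith
    calc p x s * (th H q p π x s - 1) ^ 2 ≤
          p x s * (4 * ff (th H q p π x s - N x) + 2 * N x ^ 2) :=
          mul_le_mul_of_nonneg_left h4 hp.le
      _ = 4 * (p x s * ff (th H q p π x s - N x)) + p x s * (2 * N x ^ 2) := by ring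
      _ ≤ _ := by linarith
  refine (Finset.sum_le_sum h2).trans ?_
  rw [Finset.sum_add_distrib, ← Finset.mul_sum, ← Finset.mul_sum, Finset.sum_add_distrib,
    ← Finset.sum_div, Finset.sum_const, nsmul_eq_mul]
  have h8 : (∑ x ∈ M, N x ^ 8) / (4 * (1 / q ^ 39) ^ 3) ≤ 1 / 4 * (M.card / q ^ 39) := by
    rw [div_le_iff₀ (by positivity)]
    refine b.hN8.trans (le_of_eq ?_)
    field_simp
    try ring
  unfold WB
  have h9 : (M.card : ℝ) * (3 / 4 * (1 / q ^ 39)) = 3 / 4 * (M.card / q ^ 39) := by ring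
  rw [h9]
  linarith

/-- the closure error and the exceptional triples are negligible -/
theorem small' (b : BD H M N q s1 C1 C2 Θ p π e X) (h0 : 0 ≤ s) (h1 : s ≤ s1) :
    ((X.card : ℝ) + ∑ T ∈ H, |e T s|) * Θ ^ 5 ≤ M.card / q ^ 600 := by
  have hq : 0 < q := lt_of_lt_of_le one_pos b.hq
  have hΘ : 0 < Θ := lt_of_lt_of_le (by positivity) b.hΘ
  have h2 := b.small s h0 h1
  have h3 : q ^ 600 ≤ Θ ^ 15 := by
    calc q ^ 600 = (q ^ 40) ^ 15 := by ring
      _ ≤ Θ ^ 15 := pow_le_pow_left₀ (by positivity) b.hΘ 15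
  have h4 : 0 ≤ ((X.card : ℝ) + ∑ T ∈ H, |e T s|) * Θ ^ 5 := by
    apply mul_nonneg _ (by positivity)
    exact add_nonneg (Nat.cast_nonneg _) (Finset.sum_nonneg fun _ _ => abs_nonneg _)
  rw [le_div_iff₀ (by positivity)]
  calc ((X.card : ℝ) + ∑ T ∈ H, |e T s|) * Θ ^ 5 * q ^ 600 ≤
        ((X.card : ℝ) + ∑ T ∈ H, |e T s|) * Θ ^ 5 * Θ ^ 15 :=
        mul_le_mul_of_nonneg_left h3 h4
    _ = ((X.card : ℝ) + ∑ T ∈ H, |e T s|) * Θ ^ 20 := by ring
    _ ≤ _ := h2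

/-- bound for the self interaction of a triple which is not exceptional:
`π² ∑ 1/p ≤ 4 C1 π / G² ∑_{u ∈ T} (1 + ph u)` (`p_u p_v ≤ (p_u² + p_v²)/2`,
`p² = e^{2 ze} / G²`, `e^{2z} ≤ 4 (1 + ph z)`) -/
theorem self_le (b : BD H M N q s1 C1 C2 Θ p π e X) {T : Finset V} (hT : T ∈ H) (hX : T ∉ X)
    (h0 : 0 ≤ s) (h1 : s ≤ s1) :
    π T s ^ 2 * ∑ y ∈ T, 1 / p y s ≤
      4 * C1 / G2 q s * (π T s * ∑ u ∈ T, (1 + ph (ze q p u s))) := by
  have hTM := b.hsub T hT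
  have hG : 0 < G2 q s := lt_of_lt_of_le one_pos (b.G2_pos h0)
  have hC1 : 0 < C1 := lt_of_lt_of_le one_pos b.hC1
  have hπ := b.πpos T hT s h0 h1
  have hπ3 := b.πppp T hT hX s h0 h1
  -- squares
  have hsq : ∀ u ∈ T, p u s ^ 2 ≤ 4 / G2 q s * (1 + ph (ze q p u s)) := by
    intro u hu
    have h2 := bethC_exp_le (ze q p u s)
    rw [exp_ze b (hTM hu) h0 h1] at h2
    rw [div_mul_eq_mul_div, le_div_iff₀ hG]
    exact h2
  have hmain : π T s * ∑ y ∈ T, 1 / p y s ≤ C1 * ∑ y ∈ T, p y s ^ 2 := by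
    obtain ⟨x, y, z, hxy, hxz, hyz, rfl⟩ := Finset.card_eq_three.mp (b.lin.card3 T hT)
    have hpx := b.ppos x (hTM (by simp)) s h0 h1
    have hpy := b.ppos y (hTM (by simp)) s h0 h1
    have hpz := b.ppos z (hTM (by simp)) s h0 h1
    have e1 : ∀ f : V → ℝ, ∑ y ∈ ({x, y, z} : Finset V), f y = f x + (f y + f z) := by
      intro f
      rw [Finset.sum_insert (by simp [hxy, hxz]), Finset.sum_insert (by simp [hyz]),
        Finset.sum_singleton]
    have e2 : ∏ y ∈ ({x, y, z} : Finset V), p y s = p x s * (p y s * p z s) := by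
      rw [Finset.prod_insert (by simp [hxy, hxz]), Finset.prod_insert (by simp [hyz]),
        Finset.prod_singleton]
    rw [e1, e1]
    rw [e2] at hπ3
    have h3 : 0 ≤ 1 / p x s + (1 / p y s + 1 / p z s) := by positivity
    calc π {x, y, z} s * (1 / p x s + (1 / p y s + 1 / p z s)) ≤
          C1 * (p x s * (p y s * p z s)) * (1 / p x s + (1 / p y s + 1 / p z s)) :=
          mul_le_mul_of_nonneg_right hπ3 h3
      _ = C1 * (p y s * p z s + (p x s * p z s + p x s * p y s)) := by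
          field_simp
      _ ≤ C1 * (p x s ^ 2 + (p y s ^ 2 + p z s ^ 2)) := by
          apply mul_le_mul_of_nonneg_left _ hC1.le
          nlinarith [sq_nonneg (p x s - p y s), sq_nonneg (p y s - p z s),
            sq_nonneg (p x s - p z s)]
  calc π T s ^ 2 * ∑ y ∈ T, 1 / p y s = π T s * (π T s * ∑ y ∈ T, 1 / p y s) := by ring
    _ ≤ π T s * (C1 * ∑ y ∈ T, p y s ^ 2) := mul_le_mul_of_nonneg_left hmain hπ
    _ ≤ π T s * (C1 * ∑ y ∈ T, 4 / G2 q s * (1 + ph (ze q p y s))) := by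
        apply mul_le_mul_of_nonneg_left _ hπ
        exact mul_le_mul_of_nonneg_left (Finset.sum_le_sum hsq) hC1.le
    _ = _ := by
        rw [← Finset.mul_sum]
        ring

theorem self_le' (b : BD H M N q s1 C1 C2 Θ p π e X) {T : Finset V} (hT : T ∈ H)
    (h0 : 0 ≤ s) (h1 : s ≤ s1) :
    π T s ^ 2 * ∑ y ∈ T, 1 / p y s ≤ 3 * C2 * π T s := by
  have hTM := b.hsub T hT
  have hπ := b.πpos T hT s h0 h1
  have h2 : ∀ y ∈ T, π T s * (1 / p y s) ≤ C2 := by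
    intro y hy
    have hp := b.ppos y (hTM hy) s h0 h1
    rw [mul_one_div, div_le_iff₀ hp]
    exact b.πp T hT y hy s h0 h1
  have h3 : π T s * ∑ y ∈ T, 1 / p y s ≤ 3 * C2 := by
    rw [Finset.mul_sum]
    refine (Finset.sum_le_sum h2).trans (le_of_eq ?_)
    rw [Finset.sum_const, b.lin.card3 T hT, nsmul_eq_mul]
    norm_num
  calc π T s ^ 2 * ∑ y ∈ T, 1 / p y s = π T s * (π T s * ∑ y ∈ T, 1 / p y s) := by ring
    _ ≤ π T s * (3 * C2) := mul_le_mul_of_nonneg_left h3 hπ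
    _ = _ := by ring

theorem pi_le (b : BD H M N q s1 C1 C2 Θ p π e X) {T : Finset V} (hT : T ∈ H)
    (h0 : 0 ≤ s) (h1 : s ≤ s1) : π T s ≤ C2 := by
  have hne : T.Nonempty := by
    rw [← Finset.card_pos, b.lin.card3 T hT]
    norm_num
  obtain ⟨x, hx⟩ := hne
  have hC2 : 0 < C2 := lt_of_lt_of_le one_pos b.hC2
  have h2 := b.πp T hT x hx s h0 h1
  have h3 := b.ple x (b.hsub T hT hx) s h0 h1
  calc π T s ≤ C2 * p x s := h2
    _ ≤ C2 * 1 := mul_le_mul_of_nonneg_left h3 hC2.le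
    _ = C2 := mul_one _

theorem ph_le (b : BD H M N q s1 C1 C2 Θ p π e X) {x : V} (hx : x ∈ M) (h0 : 0 ≤ s)
    (h1 : s ≤ s1) : ph (ze q p x s) ≤ G2 q s := by
  have h2 := exp_ze b hx h0 h1
  have hp := b.ppos x hx s h0 h1
  have hp1 := b.ple x hx s h0 h1
  have hG : 0 < G2 q s := lt_of_lt_of_le one_pos (b.G2_pos h0)
  have he := Real.exp_pos (ze q p x s)
  have h3 : ph (ze q p x s) ≤ Real.exp (ze q p x s) ^ 2 := by
    unfold ph
    apply pow_le_pow_left₀ (le_max_right _ _)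
    exact max_le (by linarith) he.le
  have h4 : p x s ^ 2 ≤ 1 := pow_le_one₀ hp.le hp1
  calc ph (ze q p x s) ≤ p x s ^ 2 * G2 q s := h2 ▸ h3
    _ ≤ 1 * G2 q s := mul_le_mul_of_nonneg_right h4 hG.le
    _ = _ := one_mul _

end BD

end Vale.Agent.P046S
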