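import Vale.Agent.P046S.Closure
import Vale.Agent.P046S.Bethe

/-!
P046 sharp constant, module C1 (definitions): the true alive probabilities as a solution of the mean
field system. Time change `s = 1 - e^{-t}`.
-/

namespace Vale.Agent.P046S

open Finset Vale.Agent.P046 Vale.Agent.P046LF

variable {V : Type} [Fintype V] [DecidableEq V]

noncomputable def tS (s : ℝ) : ℝ := -Real.log (1 - s)

noncomputable def pS (H : Finset (Finset V)) (M : Finset V) (x : V) (s : ℝ) : ℝ :=
  al H M (tS s) {x}

noncomputable def πS (H : Finset (Finset V)) (M : Finset V) (T : Finset V) (s : ℝ) : ℝ :=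
  al H M (tS s) T / (1 - s)

/-- closure error -/
noncomputable def eS (H : Finset (Finset V)) (M : Finset V) (T : Finset V) (s : ℝ) : ℝ :=
  ∑ y ∈ T, ∑ T' ∈ H with y ∈ T' ∧ T' ≠ T,
    (al H M (tS s) (T ∪ T') / (1 - s) ^ 2 - πS H M T s * πS H M T' s / pS H M y s)

open Classical in
/-- exceptional triples -/
noncomputable def XS (H : Finset (Finset V)) (r : ℕ) : Finset (Finset V) :=
  H.filter fun T => ∃ y ∈ T, ¬ TL H y r

end Vale.Agent.P046S
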