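import Vale.Agent.P046S.C1D

/-!
P046 sharp constant, module C1a: the differential equations (`al_deriv`, chain rule with
`tS' = 1 / (1 - s)`, every `T' ≠ T` that meets `T` contains exactly one `y ∈ T`).
-/

namespace Vale.Agent.P046S

open Finset Vale.Agent.P046 Vale.Agent.P046LF

variable {V : Type} [Fintype V] [DecidableEq V] {H : Finset (Finset V)} {M : Finset V} {s : ℝ}

theorem tS_nonneg (h0 : 0 ≤ s) (h1 : s < 1) : 0 ≤ tS s := by
  unfold tS
  have := Real.log_nonpos (x := 1 - s) (by linarith) (by linarith)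
  linarith

theorem tS_deriv (h1 : s < 1) : HasDerivAt tS (1 / (1 - s)) s := by
  have h2 : HasDerivAt (fun s : ℝ => 1 - s) (-1) s := by
    simpa using (hasDerivAt_id s).const_sub 1
  have h3 := (h2.log (by linarith)).neg
  have e : -(-1 / (1 - s)) = 1 / (1 - s) := by ring
  rw [e] at h3
  exact h3

theorem c1a_al (hH : IsLin3 H) (h1 : s < 1) (S : Finset V) :
    HasDerivAt (fun s => al H M (tS s) S)
      (-(∑ T ∈ H with ¬ Disjoint T S, al H M (tS s) (S ∪ T)) * (1 / (1 - s))) s :=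
  HasDerivAt.comp (h₂ := fun t => al H M t S) s (al_deriv hH S (tS s)) (tS_deriv h1)

theorem pS_deriv (hH : IsLin3 H) (x : V) (h0 : 0 ≤ s) (h1 : s < 1) :
    HasDerivAt (pS H M x) (-rr H (πS H M) x s) s := by
  have h2 := c1a_al (M := M) hH h1 {x}
  have e : -(∑ T ∈ H with ¬ Disjoint T {x}, al H M (tS s) ({x} ∪ T)) * (1 / (1 - s)) =
      -rr H (πS H M) x s := by
    unfold rr πS
    rw [neg_mul, sum_mul]
    congr 1
    have e1 : (H.filter fun T => ¬ Disjoint T {x}) = H.filter fun T => x ∈ T := by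
      ext T; simp
    rw [e1]
    refine sum_congr rfl fun T hT => ?_
    have hx : x ∈ T := (mem_filter.1 hT).2
    have e2 : {x} ∪ T = T := by
      rw [union_eq_right, singleton_subset_iff]; exact hx
    rw [e2]; ring
  rw [e] at h2
  exact h2

theorem c1a_sum (hH : IsLin3 H) {T : Finset V} (hT : T ∈ H) (F : Finset V → ℝ) :
    ∑ T' ∈ H with ¬ Disjoint T' T, F T' = F T + ∑ y ∈ T, ∑ T' ∈ H with y ∈ T' ∧ T' ≠ T, F T' := by
  have h3 := hH.card3 T hT
  have hne : ¬ Disjoint T T := by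
    rw [disjoint_self_iff_empty]
    intro h
    rw [h] at h3
    simp at h3
  have hTm : T ∈ H.filter fun T' => ¬ Disjoint T' T := mem_filter.2 ⟨hT, hne⟩
  rw [← add_sum_erase _ _ hTm]
  congr 1
  -- the double sum
  have h4 : ∑ y ∈ T, ∑ T' ∈ H with y ∈ T' ∧ T' ≠ T, F T' =
      ∑ T' ∈ H.erase T, ∑ y ∈ T, if y ∈ T' then F T' else 0 := by
    rw [sum_comm]
    refine sum_congr rfl fun y _ => ?_
    rw [← sum_filter]
    refine sum_congr ?_ fun _ _ => rfl
    ext T'
    simp only [mem_filter, mem_erase]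
    tauto
  rw [h4]
  have h5 : (H.filter fun T' => ¬ Disjoint T' T).erase T =
      (H.erase T).filter fun T' => ¬ Disjoint T' T := by
    ext T'
    simp only [mem_filter, mem_erase]
    tauto
  rw [h5, sum_filter]
  refine sum_congr rfl fun T' hT' => ?_
  obtain ⟨hne', hT'H⟩ := mem_erase.1 hT'
  rw [← sum_filter, sum_const]
  have hcard : (T.filter fun y => y ∈ T').card ≤ 1 := by
    have e : (T.filter fun y => y ∈ T') = T' ∩ T := by
      ext y; simp only [mem_filter, mem_inter]; tauto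
    rw [e]
    exact hH.lin T' hT'H T hT hne'
  by_cases hd : Disjoint T' T
  · have e : (T.filter fun y => y ∈ T') = ∅ := by
      rw [filter_eq_empty_iff]
      intro y hy hy'
      exact (Finset.disjoint_left.1 hd) hy' hy
    rw [e]; simp [hd]
  · have hpos : 0 < (T.filter fun y => y ∈ T').card := by
      rw [card_pos]
      rw [Finset.not_disjoint_iff] at hd
      obtain ⟨y, hy1, hy2⟩ := hd
      exact ⟨y, mem_filter.2 ⟨hy2, hy1⟩⟩
    have : (T.filter fun y => y ∈ T').card = 1 := by omega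
    rw [this, if_pos hd, one_smul]

theorem πS_deriv (hH : IsLin3 H) (hM : ∀ T ∈ H, T ⊆ M) {T : Finset V} (hT : T ∈ H) (h0 : 0 ≤ s)
    (h1 : s < 1) : HasDerivAt (πS H M T)
      (-(πS H M T s * ∑ x ∈ T, (rr H (πS H M) x s - πS H M T s) / pS H M x s) - eS H M T s) s := by
  have hs : (1 : ℝ) - s ≠ 0 := by
    have : 0 < 1 - s := by linarith
    exact this.ne'
  have h2 := c1a_al (M := M) hH h1 T
  have h3 : HasDerivAt (fun s : ℝ => 1 - s) (-1) s := by
    simpa using (hasDerivAt_id s).const_sub 1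
  have h4 := h2.div h3 hs
  have hsum := c1a_sum hH hT (fun T' => al H M (tS s) (T ∪ T'))
  rw [hsum, union_self] at h4
  have hrr : ∀ y ∈ T, rr H (πS H M) y s - πS H M T s =
      ∑ T' ∈ H with y ∈ T' ∧ T' ≠ T, πS H M T' s := by
    intro y hy
    unfold rr
    have hTm : T ∈ H.filter fun T' => y ∈ T' := mem_filter.2 ⟨hT, hy⟩
    rw [← add_sum_erase _ _ hTm, add_sub_cancel_left]
    refine sum_congr ?_ fun _ _ => rfl
    ext T'
    simp only [mem_filter, mem_erase]
    tauto
  have e : (-(al H M (tS s) T + ∑ y ∈ T, ∑ T' ∈ H with y ∈ T' ∧ T' ≠ T,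
        al H M (tS s) (T ∪ T')) * (1 / (1 - s)) * (1 - s) - al H M (tS s) T * -1) / (1 - s) ^ 2 =
      -(πS H M T s * ∑ x ∈ T, (rr H (πS H M) x s - πS H M T s) / pS H M x s) - eS H M T s := by
    have e1 : ∑ x ∈ T, (rr H (πS H M) x s - πS H M T s) / pS H M x s =
        ∑ x ∈ T, (∑ T' ∈ H with x ∈ T' ∧ T' ≠ T, πS H M T' s) / pS H M x s :=
      sum_congr rfl fun x hx => by rw [hrr x hx]
    have e2 : eS H M T s = (∑ y ∈ T, ∑ T' ∈ H with y ∈ T' ∧ T' ≠ T,
        al H M (tS s) (T ∪ T')) / (1 - s) ^ 2 - πS H M T s *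
        ∑ x ∈ T, (∑ T' ∈ H with x ∈ T' ∧ T' ≠ T, πS H M T' s) / pS H M x s := by
      unfold eS
      rw [sum_div, mul_sum, ← sum_sub_distrib]
      refine sum_congr rfl fun y _ => ?_
      rw [sum_div, sum_div, mul_sum, ← sum_sub_distrib]
      refine sum_congr rfl fun T' _ => ?_
      ring
    rw [e1, e2]
    field_simp
    ring
  rw [e] at h4
  exact h4

end Vale.Agent.P046S
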