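import Vale.Agent.P046S.C1a

/-!
P046 sharp constant, module C1b: size of the closure errors for bounded degree.
`al {y} ≥ e^{-Λ t}` (`exp_le_al`), `t ≤ tS s1`. For `T ∉ XS H (r+1)` use `closure`; for all `T`:
`al (T ∪ T') ≤ 1` and `al T al T' / al {y} ≤ e^{Λ t1}`.
-/

namespace Vale.Agent.P046S

open Finset Vale.Agent.P046 Vale.Agent.P046LF

variable {V : Type} [Fintype V] [DecidableEq V] {H : Finset (Finset V)} {M : Finset V} {s s1 : ℝ}

theorem c1b_tS_mono (h : s ≤ s1) (h1 : s1 < 1) : tS s ≤ tS s1 := by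
  unfold tS
  have := Real.log_le_log (x := 1 - s1) (y := 1 - s) (by linarith) (by linarith)
  linarith

theorem pS_lo {Λ : ℕ} (hM : ∀ T ∈ H, T ⊆ M) (hH : IsLin3 H)
    (hΛ : ∀ x, (H.filter fun T => x ∈ T).card ≤ Λ) {x : V} (hx : x ∈ M) (h0 : 0 ≤ s) (h : s ≤ s1)
    (h1 : s1 < 1) : Real.exp (-(Λ * tS s1)) ≤ pS H M x s := by
  have ht : 0 ≤ tS s := tS_nonneg h0 (by linarith)
  refine le_trans ?_ (exp_le_al hH ht hx)
  rw [Real.exp_le_exp]
  have hd : (deg H M x : ℝ) ≤ Λ := by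
    have h2 : deg H M x ≤ Λ := by
      unfold deg
      exact (card_le_card (filter_subset_filter _ (filter_subset _ _))).trans (hΛ x)
    exact_mod_cast h2
  have h3 := c1b_tS_mono h h1
  have h4 : (deg H M x : ℝ) * tS s ≤ Λ * tS s1 := mul_le_mul hd h3 ht (by positivity)
  linarith

/-- number of terms in the closure error -/
theorem c1b_count {Λ : ℕ} (hH : IsLin3 H) (hΛ : ∀ x, (H.filter fun T => x ∈ T).card ≤ Λ)
    {T : Finset V} (hT : T ∈ H) {B : ℝ} (hB : 0 ≤ B) (F : V → Finset V → ℝ)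
    (hF : ∀ y ∈ T, ∀ T' ∈ H, y ∈ T' → T' ≠ T → |F y T'| ≤ B) :
    |∑ y ∈ T, ∑ T' ∈ H with y ∈ T' ∧ T' ≠ T, F y T'| ≤ 3 * Λ * B := by
  have h1 : ∀ y ∈ T, |∑ T' ∈ H with y ∈ T' ∧ T' ≠ T, F y T'| ≤ Λ * B := by
    intro y hy
    refine (abs_sum_le_sum_abs _ _).trans ?_
    have h2 : ∑ T' ∈ H with y ∈ T' ∧ T' ≠ T, |F y T'| ≤
        ∑ T' ∈ H with y ∈ T' ∧ T' ≠ T, B := by
      refine sum_le_sum fun T' hT' => ?_
      obtain ⟨h3, h4, h5⟩ := mem_filter.1 hT'
      exact hF y hy T' h3 h4 h5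
    refine h2.trans ?_
    rw [sum_const, nsmul_eq_mul]
    apply mul_le_mul_of_nonneg_right _ hB
    have h6 : (H.filter fun T' => y ∈ T' ∧ T' ≠ T).card ≤ Λ := by
      refine (card_le_card ?_).trans (hΛ y)
      intro T' hT'
      obtain ⟨h3, h4, _⟩ := mem_filter.1 hT'
      exact mem_filter.2 ⟨h3, h4⟩
    exact_mod_cast h6
  refine (abs_sum_le_sum_abs _ _).trans ((sum_le_sum h1).trans (le_of_eq ?_))
  rw [sum_const, hH.card3 T hT, nsmul_eq_mul]
  push_cast; ring

/-- one term in the closure error -/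
theorem c1b_term {Λ : ℕ} (hH : IsLin3 H) (hM : ∀ T ∈ H, T ⊆ M)
    (hΛ : ∀ x, (H.filter fun T => x ∈ T).card ≤ Λ) {y : V} (hy : y ∈ M) (h0 : 0 ≤ s)
    (h : s ≤ s1) (h1 : s1 < 1) (T T' : Finset V) {B : ℝ}
    (hB : |al H M (tS s) (T ∪ T') * al H M (tS s) {y} - al H M (tS s) T * al H M (tS s) T'| ≤ B) :
    |al H M (tS s) (T ∪ T') / (1 - s) ^ 2 - πS H M T s * πS H M T' s / pS H M y s| ≤
      B * (Real.exp (Λ * tS s1) / (1 - s1) ^ 2) := by
  have hlo := pS_lo hM hH hΛ hy h0 h h1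
  have hE : 0 < Real.exp (-(Λ * tS s1)) := Real.exp_pos _
  have hp : 0 < pS H M y s := lt_of_lt_of_le hE hlo
  have hs : 0 < 1 - s := by linarith
  have hs1 : 0 < 1 - s1 := by linarith
  have e : al H M (tS s) (T ∪ T') / (1 - s) ^ 2 - πS H M T s * πS H M T' s / pS H M y s =
      (al H M (tS s) (T ∪ T') * al H M (tS s) {y} - al H M (tS s) T * al H M (tS s) T') *
        (1 / pS H M y s) * (1 / (1 - s) ^ 2) := by
    unfold πS
    have : pS H M y s = al H M (tS s) {y} := rfl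
    rw [← this]
    field_simp
  rw [e, abs_mul, abs_mul, abs_of_pos (by positivity : 0 < 1 / pS H M y s),
    abs_of_pos (by positivity : 0 < 1 / (1 - s) ^ 2)]
  have h2 : 1 / pS H M y s ≤ Real.exp (Λ * tS s1) := by
    rw [div_le_iff₀ hp]
    calc (1 : ℝ) = Real.exp (Λ * tS s1) * Real.exp (-(Λ * tS s1)) := by
          rw [← Real.exp_add, add_neg_cancel, Real.exp_zero]
      _ ≤ Real.exp (Λ * tS s1) * pS H M y s :=
          mul_le_mul_of_nonneg_left hlo (Real.exp_pos _).le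
  have h3 : 1 / (1 - s) ^ 2 ≤ 1 / (1 - s1) ^ 2 := by
    apply one_div_le_one_div_of_le (by positivity)
    exact pow_le_pow_left₀ hs1.le (by linarith) 2
  have hB0 : 0 ≤ B := le_trans (abs_nonneg _) hB
  calc |al H M (tS s) (T ∪ T') * al H M (tS s) {y} - al H M (tS s) T * al H M (tS s) T'| *
        (1 / pS H M y s) * (1 / (1 - s) ^ 2) ≤ B * Real.exp (Λ * tS s1) * (1 / (1 - s1) ^ 2) := by
        apply mul_le_mul _ h3 (by positivity) (by positivity)
        exact mul_le_mul hB h2 (by positivity) hB0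
    _ = B * (Real.exp (Λ * tS s1) / (1 - s1) ^ 2) := by ring

theorem c1b_mem_XS {r : ℕ} {T : Finset V} : T ∈ XS H r ↔ T ∈ H ∧ ∃ y ∈ T, ¬ TL H y r := by
  classical
  unfold XS
  exact Finset.mem_filter

theorem eS_good {Λ : ℕ} (hH : IsLin3 H) (hM : ∀ T ∈ H, T ⊆ M)
    (hΛ : ∀ x, (H.filter fun T => x ∈ T).card ≤ Λ) {r : ℕ} {T : Finset V} (hT : T ∈ H)
    (hX : T ∉ XS H (r + 1)) (h0 : 0 ≤ s) (h : s ≤ s1) (h1 : s1 < 1) :
    |eS H M T s| ≤ 60 * Λ * ((3 * Λ * tS s1) ^ r / (r.factorial : ℝ)) *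
      (Real.exp (Λ * tS s1) / (1 - s1) ^ 2) := by
  have ht : 0 ≤ tS s := tS_nonneg h0 (by linarith)
  have ht1 : 0 ≤ tS s1 := tS_nonneg (by linarith) h1
  have hs1 : 0 < 1 - s1 := by linarith
  have hTL : ∀ y ∈ T, TL H y (r + 1) := by
    intro y hy
    by_contra hcon
    exact hX (c1b_mem_XS.2 ⟨hT, y, hy, hcon⟩)
  have key := c1b_count hH hΛ hT (B := 20 * ((3 * Λ * tS s1) ^ r / (r.factorial : ℝ)) *
      (Real.exp (Λ * tS s1) / (1 - s1) ^ 2)) (by positivity)
    (fun y T' => al H M (tS s) (T ∪ T') / (1 - s) ^ 2 - πS H M T s * πS H M T' s / pS H M y s)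
    (by
      intro y hy T' hT' hyT' hne
      apply c1b_term hH hM hΛ (hM T hT hy) h0 h h1 T T'
      refine (closure hH hΛ (hTL y hy) hT hT' hy hyT' (Ne.symm hne) ht).trans ?_
      apply mul_le_mul_of_nonneg_left _ (by norm_num)
      apply div_le_div_of_nonneg_right _ (by positivity)
      apply pow_le_pow_left₀ (by positivity)
      exact mul_le_mul_of_nonneg_left (c1b_tS_mono h h1) (by positivity))
  unfold eS
  refine key.trans (le_of_eq ?_)
  ring

theorem eS_all {Λ : ℕ} (hH : IsLin3 H) (hM : ∀ T ∈ H, T ⊆ M)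
    (hΛ : ∀ x, (H.filter fun T => x ∈ T).card ≤ Λ) {T : Finset V} (hT : T ∈ H)
    (h0 : 0 ≤ s) (h : s ≤ s1) (h1 : s1 < 1) :
    |eS H M T s| ≤ 6 * Λ * (Real.exp (Λ * tS s1) / (1 - s1) ^ 2) := by
  have ht : 0 ≤ tS s := tS_nonneg h0 (by linarith)
  have hs1 : 0 < 1 - s1 := by linarith
  have key := c1b_count hH hΛ hT (B := 2 * (Real.exp (Λ * tS s1) / (1 - s1) ^ 2))
    (by positivity)
    (fun y T' => al H M (tS s) (T ∪ T') / (1 - s) ^ 2 - πS H M T s * πS H M T' s / pS H M y s)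
    (by
      intro y hy T' _ _ _
      apply c1b_term hH hM hΛ (hM T hT hy) h0 h h1 T T'
      have a1 := al_nonneg (H := H) (M := M) (S := T ∪ T') ht
      have a2 := al_le_one (H := H) (M := M) (S := T ∪ T') ht
      have a3 := al_nonneg (H := H) (M := M) (S := {y}) ht
      have a4 := al_le_one (H := H) (M := M) (S := {y}) ht
      have a5 := al_nonneg (H := H) (M := M) (S := T) ht
      have a6 := al_le_one (H := H) (M := M) (S := T) ht
      have a7 := al_nonneg (H := H) (M := M) (S := T') ht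
      have a8 := al_le_one (H := H) (M := M) (S := T') ht
      have b1 : al H M (tS s) (T ∪ T') * al H M (tS s) {y} ≤ 1 * 1 := mul_le_mul a2 a4 a3 zero_le_one
      have b2 : al H M (tS s) T * al H M (tS s) T' ≤ 1 * 1 := mul_le_mul a6 a8 a7 zero_le_one
      have b3 := mul_nonneg a1 a3
      have b4 := mul_nonneg a5 a7
      rw [abs_le]
      constructor <;> linarith)
  unfold eS
  refine key.trans (le_of_eq ?_)
  ring

/-- `π T ≤ p x / (1 - s1)` -/
theorem c1b_pi_le {T : Finset V} {x : V} (hx : x ∈ T) (h0 : 0 ≤ s) (h : s ≤ s1) (h1 : s1 < 1) :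
    πS H M T s ≤ 1 / (1 - s1) * pS H M x s := by
  have ht : 0 ≤ tS s := tS_nonneg h0 (by linarith)
  have hs : 0 < 1 - s := by linarith
  have hs1 : 0 < 1 - s1 := by linarith
  unfold πS pS
  have h2 : al H M (tS s) T ≤ al H M (tS s) {x} := al_anti ht (singleton_subset_iff.2 hx)
  have h3 : 0 ≤ al H M (tS s) {x} := al_nonneg ht
  calc al H M (tS s) T / (1 - s) ≤ al H M (tS s) {x} / (1 - s) :=
        div_le_div_of_nonneg_right h2 hs.le
    _ ≤ al H M (tS s) {x} / (1 - s1) := div_le_div_of_nonneg_left h3 hs1 (by linarith)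
    _ = 1 / (1 - s1) * al H M (tS s) {x} := by ring

theorem c1b_pi_nonneg {T : Finset V} (h0 : 0 ≤ s) (h1 : s < 1) : 0 ≤ πS H M T s := by
  have ht : 0 ≤ tS s := tS_nonneg h0 h1
  unfold πS
  exact div_nonneg (al_nonneg ht) (by linarith)

theorem c1b_tS_zero : tS 0 = 0 := by unfold tS; simp

theorem c1b_p_zero {x : V} (hx : x ∈ M) : pS H M x 0 = 1 := by
  unfold pS
  rw [c1b_tS_zero, al_zero, if_pos (singleton_subset_iff.2 hx)]

theorem c1b_pi_zero {T : Finset V} (hT : T ⊆ M) : πS H M T 0 = 1 := by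
  unfold πS
  rw [c1b_tS_zero, al_zero, if_pos hT]; norm_num

/-- `R = π T / ∏ p` satisfies `R 0 = 1` and `R' = R π T ∑ 1/p - e T / ∏ p ≤ 3 C2 R + |e T| / ∏ p`,
`C2 = 1/(1 - s1)`; `err` is small. -/
theorem πS_le_prod {Λ : ℕ} (hH : IsLin3 H) (hM : ∀ T ∈ H, T ⊆ M)
    (hΛ : ∀ x, (H.filter fun T => x ∈ T).card ≤ Λ) {r : ℕ} {T : Finset V} (hT : T ∈ H)
    (hX : T ∉ XS H (r + 1)) (h0 : 0 ≤ s) (h : s ≤ s1) (h1 : s1 < 1)
    (herr : 60 * Λ * ((3 * Λ * tS s1) ^ r / (r.factorial : ℝ)) *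
      (Real.exp (Λ * tS s1) / (1 - s1) ^ 2) * Real.exp (3 * (Λ * tS s1)) ≤ 1) :
    πS H M T s ≤ 2 * Real.exp (3 / (1 - s1)) * ∏ y ∈ T, pS H M y s := by
  have hs1 : 0 < 1 - s1 := by linarith
  have hp : ∀ u, 0 ≤ u → u ≤ s1 → ∀ y ∈ T, 0 < pS H M y u := fun u hu hu1 y hy =>
    lt_of_lt_of_le (Real.exp_pos _) (pS_lo hM hH hΛ (hM T hT hy) hu hu1 h1)
  have hP : ∀ u, 0 ≤ u → u ≤ s1 → 0 < ∏ y ∈ T, pS H M y u := fun u hu hu1 =>
    prod_pos fun y hy => hp u hu hu1 y hy
  -- lower bound of the product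
  have hPlo : ∀ u, 0 ≤ u → u ≤ s1 → Real.exp (-(3 * (Λ * tS s1))) ≤ ∏ y ∈ T, pS H M y u := by
    intro u hu hu1
    have h2 : ∏ y ∈ T, Real.exp (-(Λ * tS s1)) ≤ ∏ y ∈ T, pS H M y u :=
      prod_le_prod (fun y _ => (Real.exp_pos _).le)
        (fun y hy => pS_lo hM hH hΛ (hM T hT hy) hu hu1 h1)
    rw [prod_const, hH.card3 T hT, ← Real.exp_nat_mul] at h2
    convert h2 using 2
    push_cast; ring
  -- derivative of the product
  have hPd : ∀ u, 0 ≤ u → u ≤ s1 → HasDerivAt (fun u => ∏ y ∈ T, pS H M y u)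
      (-((∏ y ∈ T, pS H M y u) * ∑ y ∈ T, rr H (πS H M) y u / pS H M y u)) u := by
    intro u hu hu1
    have h2 := HasDerivAt.fun_finsetProd (u := T) (f := fun y u => pS H M y u)
      (f' := fun y => -rr H (πS H M) y u) (x := u)
      (fun y _ => pS_deriv hH y hu (by linarith))
    have e : ∑ y ∈ T, (∏ z ∈ T.erase y, pS H M z u) • -rr H (πS H M) y u =
        -((∏ y ∈ T, pS H M y u) * ∑ y ∈ T, rr H (πS H M) y u / pS H M y u) := by
      rw [mul_sum, ← sum_neg_distrib]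
      refine sum_congr rfl fun y hy => ?_
      rw [← mul_prod_erase T _ hy, smul_eq_mul]
      have := (hp u hu hu1 y hy).ne'
      field_simp
    rw [e] at h2
    exact h2
  -- the function
  set C : ℝ := 3 / (1 - s1) with hC
  set G : ℝ → ℝ := fun u => Real.exp (-(C * u)) * (πS H M T u / ∏ y ∈ T, pS H M y u) - u with hG
  have hGd : ∀ u, 0 ≤ u → u ≤ s1 → ∃ d, HasDerivAt G d u ∧ d ≤ 0 := by
    intro u hu hu1
    have hπ := πS_deriv hH hM hT hu (by linarith : u < 1)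
    have hQ := hπ.div (hPd u hu hu1) (hP u hu hu1).ne'
    have hexp : HasDerivAt (fun u : ℝ => Real.exp (-(C * u))) (Real.exp (-(C * u)) * -(C * 1)) u :=
      (((hasDerivAt_id u).const_mul C).neg).exp
    have hG' := (hexp.mul hQ).sub (hasDerivAt_id u)
    refine ⟨_, hG', ?_⟩
    have hPu := hP u hu hu1
    set P := ∏ y ∈ T, pS H M y u with hPdef
    set S := ∑ y ∈ T, rr H (πS H M) y u / pS H M y u with hS
    have hπ0 : 0 ≤ πS H M T u := c1b_pi_nonneg hu (by linarith)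
    -- the derivative of the quotient
    have eq1 : ((-(πS H M T u * ∑ x ∈ T, (rr H (πS H M) x u - πS H M T u) / pS H M x u) -
        eS H M T u) * P - πS H M T u * -(P * S)) / P ^ 2 =
        πS H M T u / P * (∑ x ∈ T, πS H M T u / pS H M x u) - eS H M T u / P := by
      have e1 : ∑ x ∈ T, (rr H (πS H M) x u - πS H M T u) / pS H M x u =
          S - ∑ x ∈ T, πS H M T u / pS H M x u := by
        rw [hS, ← sum_sub_distrib]
        refine sum_congr rfl fun x _ => ?_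
        ring
      rw [e1]
      field_simp
      ring
    have h2 : ∑ x ∈ T, πS H M T u / pS H M x u ≤ C := by
      have h3 : ∀ x ∈ T, πS H M T u / pS H M x u ≤ 1 / (1 - s1) := by
        intro x hx
        rw [div_le_iff₀ (hp u hu hu1 x hx)]
        exact c1b_pi_le hx hu hu1 h1
      refine (sum_le_sum h3).trans (le_of_eq ?_)
      rw [sum_const, hH.card3 T hT, nsmul_eq_mul, hC]
      push_cast; ring
    have h3 : -(eS H M T u / P) ≤ 1 := by
      have h4 : |eS H M T u| / P ≤ 1 := by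
        rw [div_le_one hPu]
        refine (eS_good hH hM hΛ hT hX hu hu1 h1).trans ?_
        refine le_trans ?_ (hPlo u hu hu1)
        have h5 : 0 < Real.exp (3 * (Λ * tS s1)) := Real.exp_pos _
        have h6 : Real.exp (-(3 * (Λ * tS s1))) = 1 / Real.exp (3 * (Λ * tS s1)) := by
          rw [Real.exp_neg, one_div]
        rw [h6, le_div_iff₀ h5]
        exact herr
      have h5 : -(eS H M T u / P) ≤ |eS H M T u| / P := by
        rw [← neg_div]
        exact div_le_div_of_nonneg_right (neg_le_abs _) hPu.le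
      linarith
    have hR0 : 0 ≤ πS H M T u / P := div_nonneg hπ0 hPu.le
    have h7 : πS H M T u / P * (∑ x ∈ T, πS H M T u / pS H M x u) ≤ πS H M T u / P * C :=
      mul_le_mul_of_nonneg_left h2 hR0
    have hex0 : 0 < Real.exp (-(C * u)) := Real.exp_pos _
    have hex1 : Real.exp (-(C * u)) ≤ 1 := by
      rw [Real.exp_le_one_iff]
      have : 0 ≤ C * u := by positivity
      linarith
    change Real.exp (-(C * u)) * -(C * 1) * (πS H M T u / P) +
      Real.exp (-(C * u)) * (((-(πS H M T u * ∑ x ∈ T, (rr H (πS H M) x u - πS H M T u) /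
        pS H M x u) - eS H M T u) * P - πS H M T u * -(P * S)) / P ^ 2) - 1 ≤ 0
    rw [eq1]
    have h8 : Real.exp (-(C * u)) * (πS H M T u / P * (∑ x ∈ T, πS H M T u / pS H M x u) -
        eS H M T u / P) ≤ Real.exp (-(C * u)) * (πS H M T u / P * C + 1) :=
      mul_le_mul_of_nonneg_left (by linarith) hex0.le
    nlinarith
  choose! d hd hd' using hGd
  have hanti : AntitoneOn G (Set.Icc 0 s1) := by
    apply antitoneOn_of_deriv_nonpos (convex_Icc 0 s1)
    · intro u hu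
      exact (hd u hu.1 hu.2).continuousAt.continuousWithinAt
    · intro u hu
      rw [interior_Icc] at hu
      exact (hd u hu.1.le hu.2.le).differentiableAt.differentiableWithinAt
    · intro u hu
      rw [interior_Icc] at hu
      rw [(hd u hu.1.le hu.2.le).deriv]
      exact hd' u hu.1.le hu.2.le
  have h2 := hanti (Set.left_mem_Icc.mpr (by linarith)) (⟨h0, h⟩ : s ∈ Set.Icc 0 s1) h0
  have hG0 : G 0 = 1 := by
    simp only [hG]
    rw [c1b_pi_zero (hM T hT)]
    have : ∏ y ∈ T, pS H M y 0 = 1 := prod_eq_one fun y hy => c1b_p_zero (hM T hT hy)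
    rw [this]; simp
  rw [hG0] at h2
  have hPs := hP s h0 h
  simp only [hG] at h2
  have h3 : Real.exp (-(C * s)) * (πS H M T s / ∏ y ∈ T, pS H M y s) ≤ 2 := by linarith
  have h4 : πS H M T s / ∏ y ∈ T, pS H M y s ≤ 2 * Real.exp (C * s) := by
    have h5 : Real.exp (C * s) * (Real.exp (-(C * s)) * (πS H M T s / ∏ y ∈ T, pS H M y s)) ≤
        Real.exp (C * s) * 2 := mul_le_mul_of_nonneg_left h3 (Real.exp_pos _).le
    rw [← mul_assoc, ← Real.exp_add, add_neg_cancel, Real.exp_zero, one_mul] at h5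
    linarith
  have h5 : Real.exp (C * s) ≤ Real.exp C := by
    rw [Real.exp_le_exp]
    have hC0 : 0 < C := by positivity
    nlinarith
  rw [div_le_iff₀ hPs] at h4
  refine h4.trans (mul_le_mul_of_nonneg_right ?_ hPs.le)
  linarith

end Vale.Agent.P046S
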