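import Vale.Agent.P046S.C1b

/-!
P046 sharp constant, module C1c: assembly of the system `BD` for a hypergraph of bounded degree.
`C2 = 1 / (1 - s1)`, `C1 = 2 exp (3 C2)`, `Θ = max (3 Λ C2) (q ^ 40)`: `r x = ∑ π T ≤ Λ C2 p x`,
`G2 ≤ 3 q ^ 40`. `small`: `∑_{T} |e T| ≤ card H ε_r + card X const`, `card H ≤ Λ m`,
`card X ≤ Λ card {y | ¬ TL}`. Choose `r` first and then `δ`.
-/

namespace Vale.Agent.P046S

open Finset Vale.Agent.P046 Vale.Agent.P046LF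

section

variable {V : Type} [Fintype V] [DecidableEq V] {H : Finset (Finset V)} {M : Finset V}

/-- triples which meet a set of points -/
theorem c1c_card_meet {Λ : ℕ} (hΛ : ∀ x, (H.filter fun T => x ∈ T).card ≤ Λ) {B : Finset V}
    {Y : Finset (Finset V)} (hY : Y ⊆ H) (hB : ∀ T ∈ Y, ∃ y ∈ T, y ∈ B) :
    (Y.card : ℝ) ≤ Λ * B.card := by
  have h1 : Y ⊆ B.biUnion fun y => H.filter fun T => y ∈ T := by
    intro T hT
    obtain ⟨y, hy, hyB⟩ := hB T hT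
    exact mem_biUnion.2 ⟨y, hyB, mem_filter.2 ⟨hY hT, hy⟩⟩
  have h2 : Y.card ≤ B.card * Λ := by
    refine (card_le_card h1).trans ?_
    exact card_biUnion_le_card_mul B _ Λ fun y _ => hΛ y
  have h3 : (Y.card : ℝ) ≤ B.card * Λ := by exact_mod_cast h2
  linarith

theorem c1c_card_H {Λ : ℕ} (hH : IsLin3 H) (hM : ∀ T ∈ H, T ⊆ M)
    (hΛ : ∀ x, (H.filter fun T => x ∈ T).card ≤ Λ) : (H.card : ℝ) ≤ Λ * M.card := by
  apply c1c_card_meet hΛ (Subset.refl H)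
  intro T hT
  have h3 := hH.card3 T hT
  obtain ⟨y, hy⟩ : T.Nonempty := by rw [← card_pos]; omega
  exact ⟨y, hy, hM T hT hy⟩

theorem c1c_card_X {Λ r : ℕ} {δ : ℝ} (hM : ∀ T ∈ H, T ⊆ M)
    (hΛ : ∀ x, (H.filter fun T => x ∈ T).card ≤ Λ) (P : V → Prop) [DecidablePred P]
    (hP : ∀ y, P y ↔ ¬ TL H y r) (hb : ((M.filter P).card : ℝ) ≤ δ) :
    ((XS H r).card : ℝ) ≤ Λ * δ := by
  have h1 : ((XS H r).card : ℝ) ≤ Λ * (M.filter P).card := by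
    apply c1c_card_meet hΛ
    · intro T hT; exact (c1b_mem_XS.1 hT).1
    · intro T hT
      obtain ⟨hTH, y, hy, hyTL⟩ := c1b_mem_XS.1 hT
      exact ⟨y, hy, mem_filter.2 ⟨hM T hTH hy, (hP y).2 hyTL⟩⟩
  exact h1.trans (mul_le_mul_of_nonneg_left hb (by positivity))

/-- the sum of the closure errors -/
theorem c1c_err {Λ r : ℕ} {s s1 δ E ρ : ℝ} (hH : IsLin3 H) (hM : ∀ T ∈ H, T ⊆ M)
    (hΛ : ∀ x, (H.filter fun T => x ∈ T).card ≤ Λ) (h0 : 0 ≤ s) (h : s ≤ s1) (h1 : s1 < 1)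
    (hE : E = Real.exp (Λ * tS s1) / (1 - s1) ^ 2)
    (hρ : ρ = (3 * Λ * tS s1) ^ r / (r.factorial : ℝ))
    (hX : ((XS H (r + 1)).card : ℝ) ≤ Λ * δ) :
    ∑ T ∈ H, |eS H M T s| ≤ (Λ * M.card) * (60 * Λ * ρ * E) + (Λ * δ) * (6 * Λ * E) := by
  have ht1 : 0 ≤ tS s1 := tS_nonneg (by linarith) h1
  have hs1 : 0 < 1 - s1 := by linarith
  have hE0 : 0 ≤ E := by rw [hE]; positivity
  have hρ0 : 0 ≤ ρ := by rw [hρ]; positivity
  have h2 : ∀ T ∈ H, |eS H M T s| ≤ 60 * Λ * ρ * E + (if T ∈ XS H (r + 1) then 6 * Λ * E else 0) := by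
    intro T hT
    by_cases hTX : T ∈ XS H (r + 1)
    · rw [if_pos hTX]
      have := eS_all hH hM hΛ hT h0 h h1
      rw [← hE] at this
      have h3 : 0 ≤ 60 * Λ * ρ * E := by positivity
      linarith
    · rw [if_neg hTX]
      have := eS_good hH hM hΛ hT hTX h0 h h1
      rw [← hE, ← hρ] at this
      linarith
  refine (sum_le_sum h2).trans ?_
  rw [sum_add_distrib, sum_const, nsmul_eq_mul, ← sum_filter, sum_const, nsmul_eq_mul]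
  have h3 : (H.filter fun T => T ∈ XS H (r + 1)) = XS H (r + 1) := by
    ext T
    rw [mem_filter]
    exact ⟨fun h => h.2, fun h => ⟨(c1b_mem_XS.1 h).1, h⟩⟩
  rw [h3]
  have h4 := c1c_card_H hH hM hΛ
  have h5 : (H.card : ℝ) * (60 * Λ * ρ * E) ≤ (Λ * M.card) * (60 * Λ * ρ * E) :=
    mul_le_mul_of_nonneg_right h4 (by positivity)
  have h6 : ((XS H (r + 1)).card : ℝ) * (6 * Λ * E) ≤ (Λ * δ) * (6 * Λ * E) :=
    mul_le_mul_of_nonneg_right hX (by positivity)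
  linarith

/-- the relative degree is bounded -/
theorem c1c_th {Λ : ℕ} {q s s1 : ℝ} (hq : 1 ≤ q) (hH : IsLin3 H) (hM : ∀ T ∈ H, T ⊆ M)
    (hΛ : ∀ x, (H.filter fun T => x ∈ T).card ≤ Λ) {x : V} (hx : x ∈ M) (h0 : 0 ≤ s)
    (h : s ≤ s1) (h1 : s1 < 1) :
    th H q (pS H M) (πS H M) x s ≤ 3 * Λ / (1 - s1) := by
  have hs1 : 0 < 1 - s1 := by linarith
  have hq0 : 0 < q := by linarith
  have hp : 0 < pS H M x s := lt_of_lt_of_le (Real.exp_pos _) (pS_lo hM hH hΛ hx h0 h h1)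
  have hr : rr H (πS H M) x s ≤ Λ * (1 / (1 - s1) * pS H M x s) := by
    unfold rr
    have h2 : ∑ T ∈ H with x ∈ T, πS H M T s ≤
        ∑ T ∈ H with x ∈ T, 1 / (1 - s1) * pS H M x s :=
      sum_le_sum fun T hT => c1b_pi_le (mem_filter.1 hT).2 h0 h h1
    refine h2.trans ?_
    rw [sum_const, nsmul_eq_mul]
    apply mul_le_mul_of_nonneg_right _ (by positivity)
    exact_mod_cast hΛ x
  have hG : 0 < G2 q s := by unfold G2; positivity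
  have hD : 0 < Dd q s := by unfold Dd; positivity
  unfold th
  rw [div_le_iff₀ (by positivity)]
  refine hr.trans ?_
  have h3 : 1 ≤ 3 * Dd q s := by
    unfold Dd
    rw [mul_div_assoc', le_div_iff₀ hG]
    unfold G2
    have hq40 : 1 ≤ q ^ 40 := one_le_pow₀ hq
    have : q ^ 40 * s ≤ q ^ 40 * 1 := mul_le_mul_of_nonneg_left (by linarith) (by positivity)
    linarith
  have h4 : 0 ≤ (Λ : ℝ) * (1 / (1 - s1) * pS H M x s) := by positivity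
  calc (Λ : ℝ) * (1 / (1 - s1) * pS H M x s) ≤
        (Λ : ℝ) * (1 / (1 - s1) * pS H M x s) * (3 * Dd q s) := le_mul_of_one_le_right h4 h3
    _ = 3 * Λ / (1 - s1) * (pS H M x s * Dd q s) := by ring

end

open Classical in
theorem BD_of (s1 q2 : ℝ) (Λ r0 : ℕ) (hs0 : 0 ≤ s1) (hs1 : s1 < 1) (hq2 : 1 ≤ q2) :
    ∃ r : ℕ, r0 ≤ r ∧ ∃ δ : ℝ, 0 < δ ∧ ∀ q : ℝ, 1 ≤ q → q ≤ q2 →
    ∀ (V : Type) [Fintype V] [DecidableEq V] (H : Finset (Finset V)) (M : Finset V) (N : V → ℝ),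
      IsLin3 H → (∀ T ∈ H, T ⊆ M) → (∀ x, (H.filter fun T => x ∈ T).card ≤ Λ) →
      (∀ x ∈ M, |N x| ≤ 1 / 4) → ∑ x ∈ M, N x ^ 8 ≤ M.card / q ^ 156 →
      ((M.filter fun y => ¬ TL H y (r + 1)).card : ℝ) ≤ δ * M.card →
      BD H M N q s1 (2 * Real.exp (3 / (1 - s1))) (1 / (1 - s1))
        (max (3 * Λ / (1 - s1)) (q ^ 40)) (pS H M) (πS H M) (eS H M) (XS H (r + 1)) := by
  have hs : 0 < 1 - s1 := by linarith
  have ht1 : 0 ≤ tS s1 := tS_nonneg hs0 hs1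
  obtain ⟨E, hE⟩ : ∃ E : ℝ, E = Real.exp (Λ * tS s1) / (1 - s1) ^ 2 := ⟨_, rfl⟩
  have hE0 : 0 < E := by rw [hE]; positivity
  obtain ⟨Ψ, hΨ⟩ : ∃ Ψ : ℝ, Ψ = max (3 * Λ / (1 - s1)) (q2 ^ 40) := ⟨_, rfl⟩
  have hΨ1 : 1 ≤ Ψ := by
    rw [hΨ]; exact le_max_of_le_right (one_le_pow₀ hq2)
  have hΨ0 : 0 < Ψ := by linarith
  obtain ⟨A, hA⟩ : ∃ A : ℝ, A = 60 * Λ * E * Real.exp (3 * (Λ * tS s1)) +
      2 * (60 * Λ * Λ * E * Ψ ^ 20) + 1 := ⟨_, rfl⟩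
  have hA0 : 0 < A := by rw [hA]; positivity
  -- choice of `r`
  obtain ⟨r, hr0, hr⟩ : ∃ r : ℕ, r0 ≤ r ∧ (3 * Λ * tS s1) ^ r / (r.factorial : ℝ) * A ≤ 1 := by
    have h1 := FloorSemiring.tendsto_pow_div_factorial_atTop (3 * Λ * tS s1)
    have h2 : ∀ᶠ n : ℕ in Filter.atTop,
        (3 * Λ * tS s1) ^ n / (n.factorial : ℝ) < 1 / A :=
      h1.eventually (gt_mem_nhds (by positivity))
    obtain ⟨r, hr⟩ := (h2.and (Filter.eventually_ge_atTop r0)).exists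
    refine ⟨r, hr.2, ?_⟩
    have h3 := hr.1.le
    rwa [le_div_iff₀ hA0] at h3
  obtain ⟨ρ, hρ⟩ : ∃ ρ : ℝ, ρ = (3 * Λ * tS s1) ^ r / (r.factorial : ℝ) := ⟨_, rfl⟩
  have hρ0 : 0 ≤ ρ := by rw [hρ]; positivity
  rw [← hρ] at hr
  have hr1 : 60 * Λ * ρ * E * Real.exp (3 * (Λ * tS s1)) ≤ 1 := by
    have h1 : ρ * (60 * Λ * E * Real.exp (3 * (Λ * tS s1))) ≤ ρ * A := by
      apply mul_le_mul_of_nonneg_left _ hρ0
      rw [hA]
      have : 0 ≤ 2 * (60 * Λ * Λ * E * Ψ ^ 20) := by positivity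
      linarith
    linarith
  have hr2' : 60 * Λ * Λ * ρ * E * Ψ ^ 20 ≤ 1 / 2 := by
    have h1 : ρ * (2 * (60 * Λ * Λ * E * Ψ ^ 20)) ≤ ρ * A := by
      apply mul_le_mul_of_nonneg_left _ hρ0
      rw [hA]
      have : 0 ≤ 60 * Λ * E * Real.exp (3 * (Λ * tS s1)) := by positivity
      linarith
    linarith
  obtain ⟨B, hB⟩ : ∃ B : ℝ, B = 2 * ((Λ * (1 + 6 * Λ * E)) * Ψ ^ 20) + 1 := ⟨_, rfl⟩
  have hB0 : 0 < B := by rw [hB]; positivity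
  refine ⟨r, hr0, 1 / B, by positivity, ?_⟩
  intro q hq hqq2 V _ _ H M N hH hM hΛ hN hN8 hbad
  obtain ⟨Θ, hΘ⟩ : ∃ Θ : ℝ, Θ = max (3 * Λ / (1 - s1)) (q ^ 40) := ⟨_, rfl⟩
  have hΘ1 : 1 ≤ Θ := by
    rw [hΘ]; exact le_max_of_le_right (one_le_pow₀ hq)
  have hΘ0 : 0 < Θ := by linarith
  have hΘΨ : Θ ^ 20 ≤ Ψ ^ 20 := by
    apply pow_le_pow_left₀ hΘ0.le
    rw [hΘ, hΨ]
    exact max_le_max le_rfl (pow_le_pow_left₀ (by linarith) hqq2 40)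
  have hr2 : 60 * Λ * Λ * ρ * E * Θ ^ 20 ≤ 1 / 2 :=
    (mul_le_mul_of_nonneg_left hΘΨ (by positivity)).trans hr2'
  have hX : ((XS H (r + 1)).card : ℝ) ≤ Λ * (1 / B * M.card) :=
    c1c_card_X hM hΛ _ (fun y => Iff.rfl) hbad
  have hm : (0 : ℝ) ≤ M.card := by positivity
  rw [← hΘ]
  refine ⟨hH, hM, hq, ?_, ?_, ?_, hs0, hs1.le, hN, hN8, ?_, ?_, ?_, ?_, ?_, ?_, ?_, ?_, ?_, ?_, ?_,
    ?_⟩
  · have : 1 ≤ Real.exp (3 / (1 - s1)) := Real.one_le_exp (by positivity)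
    linarith
  · rw [le_div_iff₀ hs]; linarith
  · rw [hΘ]; exact le_max_right _ _
  · intro x hx; exact c1b_p_zero hx
  · intro T hT; exact c1b_pi_zero (hM T hT)
  · intro x _ s h0 h; exact pS_deriv hH x h0 (by linarith)
  · intro T hT s h0 h; exact πS_deriv hH hM hT h0 (by linarith)
  · intro x hx s h0 h
    exact lt_of_lt_of_le (Real.exp_pos _) (pS_lo hM hH hΛ hx h0 h hs1)
  · intro x _ s h0 h
    exact al_le_one (tS_nonneg h0 (by linarith))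
  · intro T _ s h0 h; exact c1b_pi_nonneg h0 (by linarith)
  · intro T _ x hx s h0 h; exact c1b_pi_le hx h0 h hs1
  · intro T hT; exact (c1b_mem_XS.1 hT).1
  · intro T hT hTX s h0 h
    apply πS_le_prod hH hM hΛ hT hTX h0 h hs1
    rw [← hE, ← hρ]
    exact hr1
  · intro x hx s h0 h
    rw [hΘ]
    exact (c1c_th hq hH hM hΛ hx h0 h hs1).trans (le_max_left _ _)
  · intro s h0 h
    have h1 := c1c_err (δ := 1 / B * M.card) hH hM hΛ h0 h hs1 hE hρ hX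
    have h2 : ((XS H (r + 1)).card : ℝ) + ∑ T ∈ H, |eS H M T s| ≤
        (M.card : ℝ) * (60 * Λ * Λ * ρ * E) + (1 / B * M.card) * (Λ * (1 + 6 * Λ * E)) := by
      refine (add_le_add hX h1).trans (le_of_eq ?_)
      ring
    have h3 : (1 / B * M.card) * (Λ * (1 + 6 * Λ * E)) * Θ ^ 20 ≤ 1 / 2 * M.card := by
      have h40 : (Λ * (1 + 6 * Λ * E)) * Θ ^ 20 ≤ (Λ * (1 + 6 * Λ * E)) * Ψ ^ 20 :=
        mul_le_mul_of_nonneg_left hΘΨ (by positivity)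
      have h4 : (Λ * (1 + 6 * Λ * E)) * Θ ^ 20 ≤ 1 / 2 * B := by rw [hB]; linarith
      calc (1 / B * M.card) * (Λ * (1 + 6 * Λ * E)) * Θ ^ 20 =
            (1 / B * M.card) * ((Λ * (1 + 6 * Λ * E)) * Θ ^ 20) := by ring
        _ ≤ (1 / B * M.card) * (1 / 2 * B) := mul_le_mul_of_nonneg_left h4 (by positivity)
        _ = 1 / 2 * M.card := by field_simp
    calc (((XS H (r + 1)).card : ℝ) + ∑ T ∈ H, |eS H M T s|) * Θ ^ 20 ≤
          ((M.card : ℝ) * (60 * Λ * Λ * ρ * E) + (1 / B * M.card) * (Λ * (1 + 6 * Λ * E))) *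
            Θ ^ 20 := mul_le_mul_of_nonneg_right h2 (by positivity)
      _ = (M.card : ℝ) * (60 * Λ * Λ * ρ * E * Θ ^ 20) +
          (1 / B * M.card) * (Λ * (1 + 6 * Λ * E)) * Θ ^ 20 := by ring
      _ ≤ (M.card : ℝ) * (1 / 2) + 1 / 2 * M.card := by
          apply add_le_add _ h3
          exact mul_le_mul_of_nonneg_left hr2 hm
      _ = M.card := by ring

end Vale.Agent.P046S
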