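import Vale.Agent.P046S.CY1

/-!
P046 sharp constant, module CY2: counting cycles and points near cycles.

`card_CPs_le`: `P` is determined by `x 0, ..., x (ℓ-1)` (linearity: two different points are in at
most one common triple), `x 0 ∈ M`, and given `x i` there are at most `2 Λ` choices of `x (i+1)`.
`bad_card`: for `y` with `¬ TL H y j` take `P` from `exists_CW`; if `P` meets `L` in `z` then
`z ∈ nbh H (j+1) {y}`, so `y ∈ nbh H (j+1) {z} ⊆ nbh H (j+1) L`; otherwise `y ∈ nbh H (j+1) P`. Use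
`card_nbh_le`.
-/

namespace Vale.Agent.P046S

open Finset Vale.Agent.P046

variable {V : Type} [DecidableEq V] {H H' : Finset (Finset V)} {M M' L P : Finset V}

theorem cy2_nbh_mono {S S' : Finset V} (h : S ⊆ S') (j : ℕ) : nbh H j S ⊆ nbh H j S' := by
  induction j with
  | zero => exact h
  | succ j ih =>
    intro z hz
    rcases Finset.mem_union.1 hz with hz | hz
    · exact Finset.mem_union_left _ (ih hz)
    · apply Finset.mem_union_right
      rw [Finset.mem_biUnion] at hz ⊢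
      obtain ⟨T, hT, hzT⟩ := hz
      refine ⟨T, ?_, hzT⟩
      rw [Finset.mem_filter] at hT ⊢
      refine ⟨hT.1, fun hd => hT.2 ?_⟩
      exact hd.mono_right ih

theorem cy2_nbh_shift (S : Finset V) (j : ℕ) : nbh H j (nbh H 1 S) = nbh H (j + 1) S := by
  induction j with
  | zero => rfl
  | succ j ih =>
    show nbh H j (nbh H 1 S) ∪ _ = nbh H (j + 1) S ∪ _
    rw [ih]

theorem nbh_symm {j : ℕ} {y z : V} (h : z ∈ nbh H j {y}) : y ∈ nbh H j {z} := by
  induction j generalizing z with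
  | zero =>
    have : z = y := by simpa [nbh] using h
    subst this
    simp [nbh]
  | succ j ih =>
    rcases Finset.mem_union.1 h with hz | hz
    · exact Finset.mem_union_left _ (ih hz)
    · rw [Finset.mem_biUnion] at hz
      obtain ⟨T, hT, hzT⟩ := hz
      rw [Finset.mem_filter] at hT
      obtain ⟨hTH, hdis⟩ := hT
      rw [Finset.not_disjoint_iff] at hdis
      obtain ⟨w, hw1, hw2⟩ := hdis
      have h1 := ih hw2
      rw [← cy2_nbh_shift]
      refine cy2_nbh_mono ?_ j h1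
      rw [Finset.singleton_subset_iff]
      apply Finset.mem_union_right
      rw [Finset.mem_biUnion]
      refine ⟨T, ?_, hw1⟩
      rw [Finset.mem_filter]
      refine ⟨hTH, ?_⟩
      rw [Finset.not_disjoint_iff]
      exact ⟨z, hzT, by simp [nbh]⟩

theorem CPs_mono (hH : H' ⊆ H) (hM : M' ⊆ M) (ℓ : ℕ) : CPs H' M' ℓ ⊆ CPs H M ℓ := by
  classical
  intro P hP
  rw [CPs, Finset.mem_filter, Finset.mem_powerset] at hP ⊢
  obtain ⟨h1, x, T, hx, hT, hP1, hP2⟩ := hP
  exact ⟨h1.trans hM, x, T, hx, fun i hi => ⟨hH (hT i hi).1, (hT i hi).2⟩, hP1, hP2⟩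

theorem nCy_mono (hH : H' ⊆ H) (hM : M' ⊆ M) (r : ℕ) : nCy H' M' L r ≤ nCy H M L r := by
  unfold nCy
  refine Finset.sum_le_sum fun ℓ _ => ?_
  exact_mod_cast Finset.card_le_card (Finset.filter_subset_filter _ (CPs_mono hH hM ℓ))

/-- points in a common triple with `x`, different from `x` -/
def cy2nb (H : Finset (Finset V)) (M : Finset V) (x : V) : Finset V :=
  ((sub H M).filter fun T => x ∈ T).biUnion fun T => T.erase x

theorem cy2nb_card {Λ : ℕ} (hH : IsLin3 H) {x : V} (hΛ : deg H M x ≤ Λ) :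
    (cy2nb H M x).card ≤ 2 * Λ := by
  unfold cy2nb
  refine (Finset.card_biUnion_le_card_mul _ _ 2 ?_).trans ?_
  · intro T hT
    rw [Finset.mem_filter, P046.mem_sub] at hT
    rw [Finset.card_erase_of_mem hT.2, hH.card3 T hT.1.1]
  · rw [mul_comm]
    exact Nat.mul_le_mul_left 2 hΛ

/-- walks -/
def cy2W (H : Finset (Finset V)) (M : Finset V) : ℕ → Finset (V × List V)
  | 0 => M.image fun x => (x, [])
  | k + 1 => (cy2W H M k).biUnion fun l => (cy2nb H M l.1).image fun y => (y, l.1 :: l.2)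

theorem cy2nb_sub (x : V) : cy2nb H M x ⊆ M := by
  intro z hz
  rw [cy2nb, Finset.mem_biUnion] at hz
  obtain ⟨T, hT, hz⟩ := hz
  rw [Finset.mem_filter, P046.mem_sub] at hT
  exact hT.1.2 (Finset.mem_of_mem_erase hz)

theorem cy2W_mem (k : ℕ) : ∀ l ∈ cy2W H M k, l.1 ∈ M := by
  cases k with
  | zero =>
    intro l hl
    rw [cy2W, Finset.mem_image] at hl
    obtain ⟨x, hx, rfl⟩ := hl
    exact hx
  | succ k =>
    intro l hl
    rw [cy2W, Finset.mem_biUnion] at hl
    obtain ⟨l', _, hl⟩ := hl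
    rw [Finset.mem_image] at hl
    obtain ⟨y, hy, rfl⟩ := hl
    exact cy2nb_sub _ hy

theorem cy2W_card {Λ : ℕ} (hH : IsLin3 H) (hΛ : ∀ x ∈ M, (deg H M x : ℕ) ≤ Λ) (k : ℕ) :
    (cy2W H M k).card ≤ M.card * (2 * Λ) ^ k := by
  induction k with
  | zero =>
    rw [cy2W, pow_zero, mul_one]
    exact Finset.card_image_le
  | succ k ih =>
    rw [cy2W]
    refine (Finset.card_biUnion_le_card_mul _ _ (2 * Λ) ?_).trans ?_
    · intro l hl
      exact Finset.card_image_le.trans (cy2nb_card hH (hΛ _ (cy2W_mem k l hl)))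
    · rw [pow_succ, ← mul_assoc (M.card)]
      exact Nat.mul_le_mul_right _ ih

/-- list of the first points of a walk, in reverse order -/
def cy2L (x : ℕ → V) : ℕ → V × List V
  | 0 => (x 0, [])
  | k + 1 => (x (k + 1), (cy2L x k).1 :: (cy2L x k).2)

omit [DecidableEq V] in
theorem cy2L_fst (x : ℕ → V) (k : ℕ) : (cy2L x k).1 = x k := by
  cases k <;> rfl

omit [DecidableEq V] in
theorem cy2L_inj {x x' : ℕ → V} {k : ℕ} (h : cy2L x k = cy2L x' k) : ∀ i ≤ k, x i = x' i := by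
  induction k with
  | zero =>
    intro i hi
    obtain rfl : i = 0 := by omega
    have := congrArg Prod.fst h
    exact this
  | succ k ih =>
    have h1 : x (k + 1) = x' (k + 1) := congrArg Prod.fst h
    have h2 : (cy2L x k).1 :: (cy2L x k).2 = (cy2L x' k).1 :: (cy2L x' k).2 := congrArg Prod.snd h
    rw [List.cons.injEq] at h2
    have h3 : cy2L x k = cy2L x' k := Prod.ext h2.1 h2.2
    intro i hi
    rcases Nat.lt_or_ge i (k + 1) with h4 | h4
    · exact ih h3 i (by omega)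
    · obtain rfl : i = k + 1 := by omega
      exact h1

theorem cy2L_mem {x : ℕ → V} {T : ℕ → Finset V} (k : ℕ) (h0 : x 0 ∈ M)
    (h : ∀ i, i < k → T i ∈ sub H M ∧ x i ∈ T i ∧ x (i + 1) ∈ T i ∧ x i ≠ x (i + 1)) :
    cy2L x k ∈ cy2W H M k := by
  induction k with
  | zero =>
    rw [cy2W, Finset.mem_image]
    exact ⟨x 0, h0, rfl⟩
  | succ k ih =>
    rw [cy2W, Finset.mem_biUnion]
    refine ⟨cy2L x k, ih fun i hi => h i (by omega), ?_⟩
    rw [Finset.mem_image]
    refine ⟨x (k + 1), ?_, rfl⟩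
    obtain ⟨h1, h2, h3, h4⟩ := h k (by omega)
    rw [cy2L_fst, cy2nb, Finset.mem_biUnion]
    refine ⟨T k, ?_, ?_⟩
    · rw [Finset.mem_filter]
      exact ⟨h1, h2⟩
    · rw [Finset.mem_erase]
      exact ⟨fun h5 => h4 h5.symm, h3⟩

theorem cy2_lin (hH : IsLin3 H) {T T' : Finset V} (hT : T ∈ H) (hT' : T' ∈ H) {a b : V}
    (hab : a ≠ b) (h1 : a ∈ T) (h2 : b ∈ T) (h3 : a ∈ T') (h4 : b ∈ T') : T = T' := by
  by_contra h
  have h5 := hH.lin T hT T' hT' h
  rw [Finset.card_le_one] at h5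
  exact hab (h5 a (Finset.mem_inter.2 ⟨h1, h3⟩) b (Finset.mem_inter.2 ⟨h2, h4⟩))

theorem card_CPs_le {Λ : ℕ} (hH : IsLin3 H)
    (hΛ : ∀ x ∈ M, (deg H M x : ℕ) ≤ Λ) {ℓ : ℕ} (hℓ : 1 ≤ ℓ) :
    (CPs H M ℓ).card ≤ M.card * (2 * Λ) ^ (ℓ - 1) := by
  classical
  obtain ⟨k, rfl⟩ : ∃ k, ℓ = k + 1 := ⟨ℓ - 1, by omega⟩
  refine le_trans ?_ (cy2W_card hH hΛ (k + 1 - 1))
  rw [Nat.add_sub_cancel]
  have hCW : ∀ P ∈ CPs H M (k + 1), ∃ x : ℕ → V, ∃ T : ℕ → Finset V, x (k + 1) = x 0 ∧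
      (∀ i, i < k + 1 → T i ∈ H ∧ x i ∈ T i ∧ x (i + 1) ∈ T i ∧ x i ≠ x (i + 1)) ∧
      P = (range (k + 1)).biUnion T ∧ P ⊆ M := by
    intro P hP
    rw [CPs, Finset.mem_filter, Finset.mem_powerset] at hP
    obtain ⟨h1, x, T, hx, hT, hP1, hP2⟩ := hP
    exact ⟨x, T, hx, hT, hP1, h1⟩
  rcases Finset.eq_empty_or_nonempty (CPs H M (k + 1)) with he | ⟨P0, hP0⟩
  · rw [he, Finset.card_empty]
    exact Nat.zero_le _
  have hne : Nonempty V := by
    obtain ⟨x, -⟩ := hCW P0 hP0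
    exact ⟨x 0⟩
  choose! x T hx hT hP hPM using hCW
  refine Finset.card_le_card_of_injOn (fun P => cy2L (x P) k) ?_ ?_
  · intro P hP1
    have hP1 : P ∈ CPs H M (k + 1) := hP1
    have hsub : ∀ i, i < k + 1 → T P i ⊆ M := by
      intro i hi
      refine subset_trans ?_ (hPM P hP1)
      intro z hz
      rw [hP P hP1, Finset.mem_biUnion]
      exact ⟨i, Finset.mem_range.2 hi, hz⟩
    refine cy2L_mem (T := T P) k ?_ ?_
    · exact hsub 0 (by omega) (hT P hP1 0 (by omega)).2.1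
    · intro i hi
      exact ⟨P046.mem_sub.2 ⟨(hT P hP1 i (by omega)).1, hsub i (by omega)⟩,
        (hT P hP1 i (by omega)).2⟩
  · intro P hP1 P' hP1' heq
    have hP1 : P ∈ CPs H M (k + 1) := hP1
    have hP1' : P' ∈ CPs H M (k + 1) := hP1'
    have h1 := cy2L_inj heq
    have h2 : ∀ i ≤ k + 1, x P i = x P' i := by
      intro i hi
      rcases Nat.lt_or_ge i (k + 1) with h4 | h4
      · exact h1 i (by omega)
      · obtain rfl : i = k + 1 := by omega
        rw [hx P hP1, hx P' hP1', h1 0 (by omega)]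
    rw [hP P hP1, hP P' hP1']
    refine Finset.biUnion_congr rfl fun i hi => ?_
    rw [Finset.mem_range] at hi
    obtain ⟨a1, a2, a3, a4⟩ := hT P hP1 i hi
    obtain ⟨b1, b2, b3, b4⟩ := hT P' hP1' i hi
    rw [← h2 i (by omega)] at b2
    rw [← h2 (i + 1) (by omega)] at b3
    exact cy2_lin hH a1 b1 a4 a2 a3 b2 b3

open Classical in
theorem bad_card {Λ : ℕ} (hH : IsLin3 H) (hM : ∀ T ∈ H, T ⊆ M)
    (hΛ : ∀ x, (H.filter fun T => x ∈ T).card ≤ Λ) (L : Finset V) (j : ℕ) :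
    ((M.filter fun y => ¬ TL H y j).card : ℝ) ≤
      (1 + 3 * Λ) ^ (j + 1) * (L.card + (4 * j + 4) * nCy H M L (2 * j + 2)) := by
  have hsub : (M.filter fun y => ¬ TL H y j) ⊆ nbh H (j + 1) L ∪
      (range (2 * j + 2 + 1)).biUnion fun ℓ =>
        ((CPs H M ℓ).filter fun P => 1 ≤ ℓ ∧ Disjoint P L).biUnion fun P => nbh H (j + 1) P := by
    intro y hy
    rw [Finset.mem_filter] at hy
    obtain ⟨ℓ, h1, h2, P, hP, hPn⟩ := exists_CW hH hy.2
    by_cases hd : Disjoint P L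
    · apply Finset.mem_union_right
      rw [Finset.mem_biUnion]
      refine ⟨ℓ, Finset.mem_range.2 (by omega), ?_⟩
      rw [Finset.mem_biUnion]
      refine ⟨P, ?_, ?_⟩
      · rw [Finset.mem_filter, CPs, Finset.mem_filter, Finset.mem_powerset]
        refine ⟨⟨?_, hP⟩, h1, hd⟩
        obtain ⟨x, T, hx, hT, hP1, hP2⟩ := hP
        rw [hP1]
        refine Finset.biUnion_subset.2 fun i hi => hM _ (hT i (Finset.mem_range.1 hi)).1
      · have hne : P.Nonempty := by
          obtain ⟨x, T, hx, hT, hP1, hP2⟩ := hP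
          rw [← Finset.card_pos]
          omega
        obtain ⟨z, hz⟩ := hne
        have h3 := nbh_symm (hPn hz)
        exact cy2_nbh_mono (Finset.singleton_subset_iff.2 hz) _ h3
    · apply Finset.mem_union_left
      rw [Finset.not_disjoint_iff] at hd
      obtain ⟨z, hz, hzL⟩ := hd
      have h3 := nbh_symm (hPn hz)
      exact cy2_nbh_mono (Finset.singleton_subset_iff.2 hzL) _ h3
  have hcard : (M.filter fun y => ¬ TL H y j).card ≤ (1 + 3 * Λ) ^ (j + 1) * L.card +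
      ∑ ℓ ∈ range (2 * j + 2 + 1), ((CPs H M ℓ).filter fun P => 1 ≤ ℓ ∧ Disjoint P L).card *
        ((1 + 3 * Λ) ^ (j + 1) * (4 * j + 4)) := by
    refine (Finset.card_le_card hsub).trans ((Finset.card_union_le _ _).trans ?_)
    refine Nat.add_le_add (card_nbh_le hH.card3 hΛ (j + 1) L) ?_
    refine Finset.card_biUnion_le.trans ?_
    refine Finset.sum_le_sum fun ℓ hℓ => ?_
    refine Finset.card_biUnion_le_card_mul _ _ _ ?_
    intro P hP
    rw [Finset.mem_filter, CPs, Finset.mem_filter] at hP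
    obtain ⟨x, T, hx, hT, hP1, hP2⟩ := hP.1.2
    refine (card_nbh_le hH.card3 hΛ (j + 1) P).trans ?_
    refine Nat.mul_le_mul_left _ ?_
    rw [Finset.mem_range] at hℓ
    omega
  have hcast : ((M.filter fun y => ¬ TL H y j).card : ℝ) ≤
      (((1 + 3 * Λ) ^ (j + 1) * L.card +
      ∑ ℓ ∈ range (2 * j + 2 + 1), ((CPs H M ℓ).filter fun P => 1 ≤ ℓ ∧ Disjoint P L).card *
        ((1 + 3 * Λ) ^ (j + 1) * (4 * j + 4)) : ℕ) : ℝ) := by exact_mod_cast hcard
  refine hcast.trans (le_of_eq ?_)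
  push_cast
  rw [← Finset.sum_mul]
  unfold nCy
  ring

end Vale.Agent.P046S
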