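import Vale.Agent.P046S.Osgood
import Vale.Agent.P046S.C1c
import Vale.Agent.P046S.CY2

/-!
P046 sharp constant, module C2: the state at the beginning of the last stage and the transfer of
its bounds to `lowH H Λ`.
-/

namespace Vale.Agent.P046S

open Finset Vale.Agent.P046 Vale.Agent.P046LF

/-- the state at the beginning of the last stage -/
structure St3 {V : Type} [DecidableEq V] (H : Finset (Finset V)) (M : Finset V) (N : V → ℝ)
    (q C0 δ : ℝ) (r : ℕ) : Prop where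
  lin : IsLin3 H
  hsub : ∀ T ∈ H, T ⊆ M
  hN : ∀ x ∈ M, |N x| ≤ 1 / 4
  hN8 : ∑ x ∈ M, N x ^ 8 ≤ M.card / q ^ 156
  hW : WW H M N (q ^ 40) ≤ M.card / q ^ 48
  hZ : ZZ H M N ≤ q ^ 22 * M.card
  hT : TT H M (q ^ 40) ≤ M.card / q ^ 38
  hE : ∑ x ∈ M, Real.exp ((deg H M x : ℝ) / (8 * q ^ 40)) ≤ C0 * M.card
  hC : ∃ L : Finset V, (L.card : ℝ) + nCy H M L r ≤ δ * M.card

theorem c2_deg_mono {V : Type} [DecidableEq V] {H H' : Finset (Finset V)} (M : Finset V)
    (h : H' ⊆ H) (x : V) : deg H' M x ≤ deg H M x := by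
  unfold deg P046.sub
  exact Finset.card_le_card (Finset.filter_subset_filter _ (Finset.filter_subset_filter _ h))

theorem c2_low {V : Type} [DecidableEq V] (H : Finset (Finset V)) (Λ : ℕ) : lowH H Λ ⊆ H :=
  Finset.filter_subset _ _

theorem c2_sub {V : Type} [DecidableEq V] {H : Finset (Finset V)} {M : Finset V}
    (h : ∀ T ∈ H, T ⊆ M) : P046.sub H M = H := by
  unfold P046.sub
  exact Finset.filter_true_of_mem h

theorem c2_tS : tS 0 = 0 := by
  simp [tS]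

theorem c2_pS {V : Type} [Fintype V] [DecidableEq V] (H : Finset (Finset V)) {M : Finset V} {x : V}
    (hx : x ∈ M) : pS H M x 0 = 1 := by
  unfold pS
  rw [c2_tS, al_zero, if_pos (Finset.singleton_subset_iff.2 hx)]

theorem c2_πS {V : Type} [Fintype V] [DecidableEq V] {H : Finset (Finset V)} {M : Finset V}
    (h : ∀ T ∈ H, T ⊆ M) {T : Finset V} (hT : T ∈ H) : πS H M T 0 = 1 := by
  unfold πS
  rw [c2_tS, al_zero, if_pos (h T hT)]
  norm_num

theorem c2_Dd (q : ℝ) : Dd q 0 = q ^ 40 := by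
  unfold Dd G2
  norm_num

theorem c2_th {V : Type} [Fintype V] [DecidableEq V] {H : Finset (Finset V)} {M : Finset V}
    (h : ∀ T ∈ H, T ⊆ M) (q : ℝ) {x : V} (hx : x ∈ M) :
    th H q (pS H M) (πS H M) x 0 = (deg H M x : ℝ) / q ^ 40 := by
  unfold th rr
  rw [c2_pS H hx, c2_Dd, one_mul]
  congr 1
  rw [Finset.sum_congr rfl (fun T hT => c2_πS h (Finset.mem_filter.1 hT).1), Finset.sum_const,
    nsmul_eq_mul, mul_one]
  unfold deg
  rw [c2_sub h]

theorem c2_sg {V : Type} [Fintype V] [DecidableEq V] {H : Finset (Finset V)} {M : Finset V}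
    (h : ∀ T ∈ H, T ⊆ M) (N : V → ℝ) (q : ℝ) {x : V} (hx : x ∈ M) :
    sg H N q (pS H M) (πS H M) x 0 = SN H M N x / q ^ 40 := by
  unfold sg SN
  rw [c2_pS H hx, c2_Dd, one_mul, c2_sub h]
  congr 1
  refine Finset.sum_congr rfl fun T hT => ?_
  obtain ⟨hT1, hT2⟩ := Finset.mem_filter.1 hT
  rw [c2_πS h hT1, one_mul, Finset.sum_erase_eq_sub hT2]

theorem c2_ff (a b : ℝ) : ff b ≤ 2 * ff a + 6 * (b - a) ^ 2 := by
  have h1 := fi_taylor a b
  have h2 := fd_sq_le a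
  nlinarith [sq_nonneg (fd a - 6 * (b - a))]

theorem c2_t8 {θ θ' : ℝ} (h : θ' ≤ θ) : t8 θ' ≤ tt θ := by
  unfold t8
  rcases le_or_gt θ' 8 with h8 | h8
  · rw [max_eq_right (by linarith)]
    norm_num
    exact tt_nonneg θ
  · rw [max_eq_left (by linarith)]
    have h1 : (θ' - 8) ^ 8 + 8 ^ 8 ≤ (θ' - 8 + 8) ^ 8 :=
      pow_add_pow_le (by linarith) (by norm_num) (by norm_num)
    have h2 : (θ' - 8 + 8) ^ 8 ≤ θ ^ 8 := by
      apply pow_le_pow_left₀ (by linarith)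
      linarith
    unfold tt
    refine le_trans ?_ (le_max_left _ _)
    have h3 : ((7 : ℝ) / 4) ^ 8 ≤ 8 ^ 8 := by norm_num
    linarith

theorem c2_SN {V : Type} [DecidableEq V] {H H' : Finset (Finset V)} {M : Finset V} {N : V → ℝ}
    (hH : IsLin3 H) (h : ∀ T ∈ H, T ⊆ M) (hs : H' ⊆ H) (hN : ∀ x ∈ M, |N x| ≤ 1 / 4) (x : V) :
    |SN H M N x - SN H' M N x| ≤ ((deg H M x : ℝ) - deg H' M x) / 2 := by
  have h' : ∀ T ∈ H', T ⊆ M := fun T hT => h T (hs hT)
  unfold SN deg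
  rw [c2_sub h, c2_sub h']
  have hf : (H'.filter fun T => x ∈ T) ⊆ (H.filter fun T => x ∈ T) :=
    Finset.filter_subset_filter _ hs
  rw [← Finset.sum_sdiff hf, add_sub_cancel_right]
  have hc : ((H.filter fun T => x ∈ T).card : ℝ) - ((H'.filter fun T => x ∈ T).card : ℝ) =
      (((H.filter fun T => x ∈ T) \ (H'.filter fun T => x ∈ T)).card : ℝ) := by
    rw [Finset.card_sdiff_of_subset hf, Nat.cast_sub (Finset.card_le_card hf)]
  rw [hc]
  refine (Finset.abs_sum_le_sum_abs _ _).trans ?_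
  have hb : ∀ T ∈ (H.filter fun T => x ∈ T) \ (H'.filter fun T => x ∈ T),
      |∑ z ∈ T, N z - N x| ≤ 1 / 2 := by
    intro T hT
    obtain ⟨hT1, hT2⟩ := Finset.mem_filter.1 (Finset.mem_sdiff.1 hT).1
    rw [← Finset.sum_erase_eq_sub hT2]
    refine (Finset.abs_sum_le_sum_abs _ _).trans ?_
    have h1 : ∑ i ∈ T.erase x, |N i| ≤ ∑ i ∈ T.erase x, (1 / 4 : ℝ) :=
      Finset.sum_le_sum fun i hi => hN i (h T hT1 (Finset.mem_of_mem_erase hi))
    refine h1.trans ?_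
    rw [Finset.sum_const, Finset.card_erase_of_mem hT2, hH.card3 T hT1, nsmul_eq_mul]
    norm_num
  refine (Finset.sum_le_sum hb).trans ?_
  rw [Finset.sum_const, nsmul_eq_mul]
  linarith

/-- At `s = 0`: `th = deg / q^40`, `sg = SN / q^40`, `p = 1`.
`WB`: `ff b ≤ 2 ff a + 6 (b - a)²`.
`ZB`: `|SN_H - SN_H'| ≤ (d - d') / 2`. `TB`: `t8 θ' ≤ t8 θ ≤ tt θ`. -/
theorem transfer (q2 : ℝ) (hq2 : 3 ≤ q2) : ∃ ε : ℝ, 0 < ε ∧ ∀ q : ℝ, 3 ≤ q → q ≤ q2 →
    ∀ (V : Type) [Fintype V] [DecidableEq V] (H : Finset (Finset V)) (M : Finset V) (N : V → ℝ)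
      (C0 δ : ℝ) (r Λ : ℕ), St3 H M N q C0 δ r →
      ∑ x ∈ M, ((deg H M x : ℝ) - deg (lowH H Λ) M x) ^ 2 ≤ ε * M.card →
      WB (lowH H Λ) M N q (pS (lowH H Λ) M) (πS (lowH H Λ) M) 0 ≤ M.card / q ^ 47 ∧
      ZB (lowH H Λ) M N q (pS (lowH H Λ) M) (πS (lowH H Λ) M) 0 ≤ M.card / q ^ 57 ∧
      TB (lowH H Λ) M q (pS (lowH H Λ) M) (πS (lowH H Λ) M) 0 ≤ M.card / q ^ 37 := by
  refine ⟨1, one_pos, ?_⟩
  intro q hq _ V _ _ H M N C0 δ r Λ hSt hdif
  set H' := lowH H Λ with hH'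
  have hs : H' ⊆ H := c2_low H Λ
  have h := hSt.hsub
  have h' : ∀ T ∈ H', T ⊆ M := fun T hT => h T (hs hT)
  have hq0 : 0 < q := by linarith
  have hm : (0 : ℝ) ≤ M.card := Nat.cast_nonneg _
  rw [one_mul] at hdif
  refine ⟨?_, ?_, ?_⟩
  · have h1 : WB H' M N q (pS H' M) (πS H' M) 0 ≤
        ∑ x ∈ M, (2 * ff ((deg H M x : ℝ) / q ^ 40 - N x) +
          6 / q ^ 80 * ((deg H M x : ℝ) - deg H' M x) ^ 2) := by
      unfold WB
      refine Finset.sum_le_sum fun x hx => ?_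
      rw [c2_pS H' hx, c2_th h' q hx, one_mul]
      refine (c2_ff ((deg H M x : ℝ) / q ^ 40 - N x) _).trans (le_of_eq ?_)
      congr 1
      field_simp
      ring
    rw [Finset.sum_add_distrib, ← Finset.mul_sum, ← Finset.mul_sum] at h1
    have h2 := hSt.hW
    unfold WW at h2
    refine h1.trans ?_
    have h3 : 6 / q ^ 80 * ∑ x ∈ M, ((deg H M x : ℝ) - deg H' M x) ^ 2 ≤ 6 / q ^ 80 * M.card :=
      mul_le_mul_of_nonneg_left hdif (by positivity)
    have h4 : 2 * (M.card / q ^ 48) + 6 / q ^ 80 * M.card ≤ (M.card : ℝ) / q ^ 47 := by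
      have h5 : 2 / q ^ 48 + 6 / q ^ 80 ≤ 1 / q ^ 47 := by
        rw [div_add_div _ _ (by positivity) (by positivity), div_le_div_iff₀ (by positivity)
          (by positivity)]
        have h6 : (18 : ℝ) ≤ q ^ 32 := by
          calc (18 : ℝ) ≤ 3 ^ 32 := by norm_num
            _ ≤ q ^ 32 := pow_le_pow_left₀ (by norm_num) hq 32
        have h7 : (2 * q ^ 80 + q ^ 48 * 6) * q ^ 47 = q ^ 95 * (2 * q ^ 32 + 6) := by ring
        have h8 : 1 * (q ^ 48 * q ^ 80) = q ^ 95 * (q * q ^ 32) := by ring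
        rw [h7, h8]
        apply mul_le_mul_of_nonneg_left _ (by positivity)
        nlinarith
      calc 2 * (M.card / q ^ 48) + 6 / q ^ 80 * M.card = (2 / q ^ 48 + 6 / q ^ 80) * M.card := by
            ring
        _ ≤ (1 / q ^ 47) * M.card := mul_le_mul_of_nonneg_right h5 hm
        _ = _ := by ring
    linarith
  · have h1 : ZB H' M N q (pS H' M) (πS H' M) 0 ≤
        ∑ x ∈ M, (2 / q ^ 80 * SN H M N x ^ 2 +
          1 / (2 * q ^ 80) * ((deg H M x : ℝ) - deg H' M x) ^ 2) := by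
      unfold ZB
      refine Finset.sum_le_sum fun x hx => ?_
      rw [c2_pS H' hx, c2_sg h' N q hx, one_mul]
      have h2 := c2_SN hSt.lin h hs hSt.hN x
      have h3 : (SN H M N x - SN H' M N x) ^ 2 ≤ (((deg H M x : ℝ) - deg H' M x) / 2) ^ 2 := by
        rw [← sq_abs]
        exact pow_le_pow_left₀ (abs_nonneg _) h2 2
      have h4 : SN H' M N x ^ 2 ≤ 2 * SN H M N x ^ 2 +
          1 / 2 * ((deg H M x : ℝ) - deg H' M x) ^ 2 := by
        nlinarith [sq_nonneg (SN H M N x + (SN H M N x - SN H' M N x))]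
      calc (SN H' M N x / q ^ 40) ^ 2 = 1 / q ^ 80 * SN H' M N x ^ 2 := by
            field_simp
        _ ≤ 1 / q ^ 80 * (2 * SN H M N x ^ 2 +
          1 / 2 * ((deg H M x : ℝ) - deg H' M x) ^ 2) :=
            mul_le_mul_of_nonneg_left h4 (by positivity)
        _ = _ := by
            field_simp
    rw [Finset.sum_add_distrib, ← Finset.mul_sum, ← Finset.mul_sum] at h1
    have h2 := hSt.hZ
    unfold ZZ at h2
    refine h1.trans ?_
    have h3 : 2 / q ^ 80 * ∑ x ∈ M, SN H M N x ^ 2 ≤ 2 / q ^ 80 * (q ^ 22 * M.card) :=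
      mul_le_mul_of_nonneg_left h2 (by positivity)
    have h4 : 1 / (2 * q ^ 80) * ∑ x ∈ M, ((deg H M x : ℝ) - deg H' M x) ^ 2 ≤
        1 / (2 * q ^ 80) * M.card :=
      mul_le_mul_of_nonneg_left hdif (by positivity)
    have h5 : 2 / q ^ 80 * q ^ 22 + 1 / (2 * q ^ 80) ≤ 1 / q ^ 57 := by
      have e1 : 2 / q ^ 80 * q ^ 22 + 1 / (2 * q ^ 80) = (2 * q ^ 22 + 1 / 2) / q ^ 80 := by
        field_simp
      rw [e1, div_le_div_iff₀ (by positivity) (by positivity)]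
      have h6 : (1 : ℝ) ≤ q ^ 22 := one_le_pow₀ (by linarith)
      have h8 : 1 * q ^ 80 = (q * q ^ 22) * q ^ 57 := by ring
      rw [h8]
      apply mul_le_mul_of_nonneg_right _ (by positivity)
      nlinarith
    calc 2 / q ^ 80 * ∑ x ∈ M, SN H M N x ^ 2 +
          1 / (2 * q ^ 80) * ∑ x ∈ M, ((deg H M x : ℝ) - deg H' M x) ^ 2 ≤
          2 / q ^ 80 * (q ^ 22 * M.card) + 1 / (2 * q ^ 80) * M.card := add_le_add h3 h4
      _ = (2 / q ^ 80 * q ^ 22 + 1 / (2 * q ^ 80)) * M.card := by ring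
      _ ≤ (1 / q ^ 57) * M.card := mul_le_mul_of_nonneg_right h5 hm
      _ = _ := by ring
  · have h1 : TB H' M q (pS H' M) (πS H' M) 0 ≤ TT H M (q ^ 40) := by
      unfold TB TT
      refine Finset.sum_le_sum fun x hx => ?_
      rw [c2_pS H' hx, c2_th h' q hx, one_mul]
      apply c2_t8
      apply div_le_div_of_nonneg_right _ (by positivity)
      exact_mod_cast c2_deg_mono M hs x
    refine h1.trans (hSt.hT.trans ?_)
    apply div_le_div_of_nonneg_left hm (by positivity)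
    exact pow_le_pow_right₀ (by linarith) (by norm_num)

end Vale.Agent.P046S
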