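import Vale.Agent.P046S.Proc
import Vale.Agent.P046LF.EX

/-!
P046 sharp constant, module A8 (Link): the discrete process and the continuous time process have the
same final state. `V M = EX H φ (card M) M` satisfies `∑_{T ∈ sub H M} (V (M \ T) - V M) = 0`, so
`Et H t V M = V M` (`Pt_harm`), and for `φ = |card - c|`: `V M ≤ φ M + 3 card (sub H M)` because the
final size is between `card M - 3 card (sub H M)` and `card M`.
-/

namespace Vale.Agent.P046S

open Finset Vale.Agent.P046 Vale.Agent.P046LF

variable {V : Type} [Fintype V] [DecidableEq V] {H : Finset (Finset V)} {M : Finset V} {t : ℝ}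

private theorem Link_of_empty (φ : Finset V → ℝ) (h : sub H M = ∅) (k : ℕ) :
    EX H φ k M = φ M := by
  cases k with
  | zero => rfl
  | succ k => rw [EX, if_pos h]

private theorem Link_empty_of_card (hH : IsLin3 H) (h : M.card ≤ 2) : sub H M = ∅ := by
  rw [eq_empty_iff_forall_notMem]
  intro T hT
  have h1 := P046.mem_sub.1 hT
  have h2 := card_le_card h1.2
  rw [hH.card3 T h1.1] at h2
  omega

private theorem Link_card_sdiff (hH : IsLin3 H) {T : Finset V} (hT : T ∈ sub H M) :
    (M \ T).card + 3 = M.card := by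
  have h1 := P046.mem_sub.1 hT
  rw [← hH.card3 T h1.1]
  exact card_sdiff_add_card_eq_card h1.2

theorem EX_stable (hH : IsLin3 H) (φ : Finset V → ℝ) {k k' : ℕ} (hk : M.card ≤ 3 * k + 2)
    (hk' : M.card ≤ 3 * k' + 2) : EX H φ k M = EX H φ k' M := by
  induction k generalizing M k' with
  | zero =>
    have h := Link_empty_of_card hH (M := M) (by omega)
    rw [Link_of_empty φ h, Link_of_empty φ h]
  | succ k ih =>
    by_cases h : sub H M = ∅
    · rw [Link_of_empty φ h, Link_of_empty φ h]
    · cases k' with
      | zero => exact absurd (Link_empty_of_card hH (M := M) (by omega)) h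
      | succ k' =>
        rw [EX, EX, if_neg h, if_neg h]
        congr 1
        apply sum_congr rfl
        intro T hT
        have h1 := Link_card_sdiff hH hT
        exact ih (by omega) (by omega)

private theorem Link_EX_le (hH : IsLin3 H) (c : ℝ) (k : ℕ) (M : Finset V) :
    EX H (fun M' => |(M'.card : ℝ) - c|) k M ≤
      |(M.card : ℝ) - c| + 3 * ((sub H M).card : ℝ) := by
  induction k generalizing M with
  | zero =>
    have : (0 : ℝ) ≤ ((sub H M).card : ℝ) := Nat.cast_nonneg _
    rw [EX]
    linarith
  | succ k ih =>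
    by_cases h : sub H M = ∅
    · rw [Link_of_empty _ h, h]
      simp
    · rw [EX, if_neg h]
      have h0 : 0 < (sub H M).card := card_pos.2 (nonempty_iff_ne_empty.2 h)
      have h0' : (0 : ℝ) < ((sub H M).card : ℝ) := by exact_mod_cast h0
      rw [div_le_iff₀ h0']
      have h1 : ∀ T ∈ sub H M, EX H (fun M' => |(M'.card : ℝ) - c|) k (M \ T) ≤
          |(M.card : ℝ) - c| + 3 * ((sub H M).card : ℝ) := by
        intro T hT
        refine (ih (M \ T)).trans ?_
        have h2 : ((M \ T).card : ℝ) + 3 = (M.card : ℝ) := by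
          exact_mod_cast Link_card_sdiff hH hT
        have h3 : ((sub H (M \ T)).card : ℝ) + 1 ≤ ((sub H M).card : ℝ) := by
          have h4 := card_sub_sdiff hH hT
          have h5 : (sub H (M \ T)).card + 1 ≤ (sub H M).card := by omega
          exact_mod_cast h5
        have h6 : |((M \ T).card : ℝ) - c| ≤ |(M.card : ℝ) - c| + 3 := by
          have h7 : ((M \ T).card : ℝ) - c = ((M.card : ℝ) - c) - 3 := by linarith
          rw [h7]
          refine (abs_sub _ _).trans ?_
          norm_num
        linarith
      refine (sum_le_sum h1).trans ?_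
      rw [sum_const, nsmul_eq_mul, mul_comm]

private theorem Link_harm (hH : IsLin3 H) (φ : Finset V → ℝ) (M : Finset V) :
    Lg H (kl H) (fun M => EX H φ M.card M) M = 0 := by
  rw [Lg_kl]
  by_cases h : sub H M = ∅
  · rw [h, sum_empty]
  · have h0 : 0 < (sub H M).card := card_pos.2 (nonempty_iff_ne_empty.2 h)
    have h0' : ((sub H M).card : ℝ) ≠ 0 := by exact_mod_cast h0.ne'
    have h1 : EX H φ M.card M = (∑ T ∈ sub H M, EX H φ (M \ T).card (M \ T)) /
        ((sub H M).card : ℝ) := by
      rw [EX_stable hH φ (k := M.card) (k' := M.card + 1) (by omega) (by omega), EX, if_neg h]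
      congr 1
      apply sum_congr rfl
      intro T hT
      have h2 := Link_card_sdiff hH hT
      exact EX_stable hH φ (by omega) (by omega)
    rw [sum_sub_distrib, sum_const, nsmul_eq_mul, h1, mul_div_cancel₀ _ h0', sub_self]

theorem EX_le_Et (hH : IsLin3 H) (c : ℝ) {k : ℕ} (hk : M.card ≤ 3 * k + 2) (ht : 0 ≤ t) :
    EX H (fun M' => |(M'.card : ℝ) - c|) k M ≤
      Et H t (fun M' => |(M'.card : ℝ) - c|) M + 3 * ∑ T ∈ sub H M, al H M t T := by
  rw [EX_stable hH _ hk (k' := M.card) (by omega), ← Et_sub]
  have h1 := Pt_harm H (kl H) (Link_harm hH (fun M' => |(M'.card : ℝ) - c|)) t M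
  have hS := Pt_semi H (kl H)
  have h2 := hS.mono Set.univ (fun _ _ _ _ => Set.mem_univ _) t ht
    (fun M => EX H (fun M' => |(M'.card : ℝ) - c|) M.card M)
    (fun M => |(M.card : ℝ) - c| + 3 * ((sub H M).card : ℝ))
    (fun M' _ => Link_EX_le hH c M'.card M') M (Set.mem_univ _)
  rw [h1, hS.add, hS.smul] at h2
  exact h2

end Vale.Agent.P046S
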