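import Vale.Agent.P046S.Closure

/-!
P046 sharp constant, module A9 (Var): concentration of the number of alive points, bounded degree.
`E card² = ∑_{x,y} al {x,y}`; the pairs at distance `≤ 2r+2` are few (`card_nbh_le`), the others are
nearly uncorrelated (`decorr`).
-/

namespace Vale.Agent.P046S

open Finset Vale.Agent.P046

variable {V : Type} [Fintype V] [DecidableEq V] {H : Finset (Finset V)} {M : Finset V} {t : ℝ}

/-! ### neighbourhoods -/

/-- one step of the neighbourhood -/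
def varStep (H : Finset (Finset V)) (S : Finset V) : Finset V :=
  S ∪ (H.filter fun T => ¬ Disjoint T S).biUnion id

theorem var_nbh_eq (H : Finset (Finset V)) (j : ℕ) (S : Finset V) :
    nbh H j S = (varStep H)^[j] S := by
  induction j with
  | zero => rfl
  | succ j ih =>
    rw [Function.iterate_succ_apply', ← ih]
    rfl

theorem var_mem_step {S : Finset V} {z : V} :
    z ∈ varStep H S ↔ z ∈ S ∨ ∃ T ∈ H, (∃ w ∈ T, w ∈ S) ∧ z ∈ T := by
  unfold varStep
  rw [mem_union, mem_biUnion]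
  constructor
  · rintro (h | ⟨T, hT, hz⟩)
    · exact Or.inl h
    · rw [mem_filter, not_disjoint_iff] at hT
      exact Or.inr ⟨T, hT.1, hT.2, hz⟩
  · rintro (h | ⟨T, hT, hw, hz⟩)
    · exact Or.inl h
    · exact Or.inr ⟨T, mem_filter.2 ⟨hT, not_disjoint_iff.2 hw⟩, hz⟩

theorem var_step_mono {S S' : Finset V} (h : S ⊆ S') : varStep H S ⊆ varStep H S' := by
  intro z hz
  rw [var_mem_step] at hz ⊢
  rcases hz with hz | ⟨T, hT, ⟨w, hw, hwS⟩, hz⟩
  · exact Or.inl (h hz)
  · exact Or.inr ⟨T, hT, ⟨w, hw, h hwS⟩, hz⟩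

theorem var_iter_mono (j : ℕ) {S S' : Finset V} (h : S ⊆ S') :
    (varStep H)^[j] S ⊆ (varStep H)^[j] S' := by
  induction j with
  | zero => exact h
  | succ j ih =>
    rw [Function.iterate_succ_apply', Function.iterate_succ_apply']
    exact var_step_mono ih

theorem var_sym (b : ℕ) : ∀ y z : V, z ∈ (varStep H)^[b] {y} → y ∈ (varStep H)^[b] {z} := by
  induction b with
  | zero =>
    intro y z hz
    simp only [Function.iterate_zero, id_eq, mem_singleton] at hz ⊢
    exact hz.symm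
  | succ b ih =>
    intro y z hz
    rw [Function.iterate_succ_apply', var_mem_step] at hz
    rcases hz with hz | ⟨T, hT, ⟨w, hw, hwS⟩, hz⟩
    · have h1 := ih y z hz
      rw [Function.iterate_succ_apply']
      exact var_mem_step.2 (Or.inl h1)
    · have h1 := ih y w hwS
      rw [Function.iterate_succ_apply]
      refine var_iter_mono b ?_ h1
      intro u hu
      rw [mem_singleton] at hu
      subst hu
      exact var_mem_step.2 (Or.inr ⟨T, hT, ⟨z, hz, mem_singleton_self z⟩, hw⟩)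

theorem var_disj {r : ℕ} {x y : V} (h : y ∉ nbh H (2 * r + 2) {x}) :
    Disjoint (nbh H (r + 1) {x}) (nbh H (r + 1) {y}) := by
  rw [disjoint_left]
  intro z hz1 hz2
  apply h
  rw [var_nbh_eq] at hz1 hz2 ⊢
  have h1 := var_sym (r + 1) y z hz2
  have h2 : 2 * r + 2 = (r + 1) + (r + 1) := by ring
  rw [h2, Function.iterate_add_apply]
  refine var_iter_mono (r + 1) ?_ h1
  intro u hu
  rw [mem_singleton] at hu
  subst hu
  exact hz1

/-! ### expectations -/

theorem var_Et_mono (ht : 0 ≤ t) {φ ψ : Finset V → ℝ} (h : ∀ M', M' ⊆ M → φ M' ≤ ψ M') :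
    Et H t φ M ≤ Et H t ψ M := by
  have hs := (Pt_semi H (kl H)).mono {M' | M' ⊆ M} ?_ t ht φ ψ (fun M' hM' => h M' hM') M
    (fun _ hx => hx)
  · exact hs
  · intro T _ M' hM'
    unfold kl
    split_ifs
    · exact sdiff_subset.trans hM'
    · exact hM'

theorem var_Et_congr (ht : 0 ≤ t) {φ ψ : Finset V → ℝ} (h : ∀ M', M' ⊆ M → φ M' = ψ M') :
    Et H t φ M = Et H t ψ M :=
  le_antisymm (var_Et_mono ht fun M' hM' => (h M' hM').le)
    (var_Et_mono ht fun M' hM' => (h M' hM').ge)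

theorem var_Et_add (φ ψ : Finset V → ℝ) :
    Et H t (fun M' => φ M' + ψ M') M = Et H t φ M + Et H t ψ M :=
  (Pt_semi H (kl H)).add t φ ψ M

theorem var_Et_smul (c : ℝ) (φ : Finset V → ℝ) :
    Et H t (fun M' => c * φ M') M = c * Et H t φ M :=
  (Pt_semi H (kl H)).smul t c φ M

theorem var_Et_const (c : ℝ) : Et H t (fun _ => c) M = c := by
  have h := var_Et_smul (H := H) (t := t) (M := M) c (fun _ => 1)
  rw [show Et H t (fun _ => 1) M = 1 from (Pt_semi H (kl H)).one t M, mul_one] at h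
  simpa using h

theorem var_Et_sum {κ : Type} (s : Finset κ) (f : κ → Finset V → ℝ) :
    Et H t (fun M' => ∑ k ∈ s, f k M') M = ∑ k ∈ s, Et H t (f k) M :=
  Pt_sum H (kl H) s f t M

theorem var_card_eq {M' : Finset V} (h : M' ⊆ M) :
    (M'.card : ℝ) = ∑ x ∈ M, (if ({x} : Finset V) ⊆ M' then (1 : ℝ) else 0) := by
  rw [← Finset.sum_filter, Finset.sum_const, nsmul_eq_mul, mul_one]
  congr 2
  ext x
  rw [mem_filter, singleton_subset_iff]
  exact ⟨fun hx => ⟨h hx, hx⟩, fun hx => hx.2⟩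

theorem var_card_sq {M' : Finset V} (h : M' ⊆ M) :
    (M'.card : ℝ) ^ 2 = ∑ x ∈ M, ∑ y ∈ M, (if ({x, y} : Finset V) ⊆ M' then (1 : ℝ) else 0) := by
  rw [sq]
  conv_lhs => rw [var_card_eq h, Finset.sum_mul_sum]
  refine Finset.sum_congr rfl fun x _ => Finset.sum_congr rfl fun y _ => ?_
  have h1 : ({x, y} : Finset V) ⊆ M' ↔ x ∈ M' ∧ y ∈ M' := by
    rw [insert_subset_iff, singleton_subset_iff]
  have h2 : ∀ z, ({z} : Finset V) ⊆ M' ↔ z ∈ M' := fun z => singleton_subset_iff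
  simp only [h1, h2]
  by_cases hx : x ∈ M' <;> by_cases hy : y ∈ M' <;> simp [hx, hy]

theorem var_Et_card_sq (ht : 0 ≤ t) :
    Et H t (fun M' => (M'.card : ℝ) ^ 2) M = ∑ x ∈ M, ∑ y ∈ M, al H M t {x, y} := by
  rw [var_Et_congr ht (fun M' hM' => var_card_sq hM'), var_Et_sum]
  refine Finset.sum_congr rfl fun x _ => ?_
  rw [var_Et_sum]
  rfl

theorem var_Et_sq (ht : 0 ≤ t) :
    Et H t (fun M' => ((M'.card : ℝ) - ∑ x ∈ M, al H M t {x}) ^ 2) M =
      ∑ x ∈ M, ∑ y ∈ M, (al H M t {x, y} - al H M t {x} * al H M t {y}) := by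
  set m := ∑ x ∈ M, al H M t {x} with hm
  have h1 : ∀ M' : Finset V, ((M'.card : ℝ) - m) ^ 2 =
      (M'.card : ℝ) ^ 2 + ((-2 * m) * (M'.card : ℝ) + m ^ 2) := fun M' => by ring
  have h2 : Et H t (fun M' => ((M'.card : ℝ) - m) ^ 2) M =
      Et H t (fun M' => (M'.card : ℝ) ^ 2 + ((-2 * m) * (M'.card : ℝ) + m ^ 2)) M := by
    congr 1
    funext M'
    exact h1 M'
  rw [h2, var_Et_add (H := H) (t := t) (M := M) (fun M' => (M'.card : ℝ) ^ 2)
      (fun M' => (-2 * m) * (M'.card : ℝ) + m ^ 2),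
    var_Et_add (H := H) (t := t) (M := M) (fun M' => (-2 * m) * (M'.card : ℝ)) (fun _ => m ^ 2),
    var_Et_smul (H := H) (t := t) (M := M) (-2 * m) (fun M' => (M'.card : ℝ)),
    var_Et_const, Et_card, ← hm, var_Et_card_sq ht]
  have h3 : ∑ x ∈ M, ∑ y ∈ M, (al H M t {x, y} - al H M t {x} * al H M t {y}) =
      ∑ x ∈ M, ∑ y ∈ M, al H M t {x, y} - m ^ 2 := by
    rw [sq]
    conv_rhs => rw [hm, Finset.sum_mul_sum]
    rw [← Finset.sum_sub_distrib]
    exact Finset.sum_congr rfl fun x _ => Finset.sum_sub_distrib _ _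
  rw [h3]
  ring

theorem var_card {Λ : ℕ} (hH : IsLin3 H) (hΛ : ∀ x, (H.filter fun T => x ∈ T).card ≤ Λ) (r : ℕ)
    (ht : 0 ≤ t) :
    Et H t (fun M' => ((M'.card : ℝ) - ∑ x ∈ M, al H M t {x}) ^ 2) M ≤
      (M.card : ℝ) * (1 + 3 * Λ) ^ (2 * r + 2) +
        10 * ((3 * Λ * t) ^ r / (r.factorial : ℝ)) * (M.card : ℝ) ^ 2 := by
  rw [var_Et_sq ht]
  set e : ℝ := 10 * ((3 * Λ * t) ^ r / (r.factorial : ℝ)) with he
  have he0 : 0 ≤ e := by positivity
  have hpt : ∀ x ∈ M, ∀ y ∈ M, al H M t {x, y} - al H M t {x} * al H M t {y} ≤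
      (if y ∈ nbh H (2 * r + 2) {x} then 1 else 0) + e := by
    intro x _ y _
    by_cases h : y ∈ nbh H (2 * r + 2) {x}
    · rw [if_pos h]
      have h1 := al_le_one (H := H) (M := M) (S := {x, y}) ht
      have h2 := al_nonneg (H := H) (M := M) (S := {x}) ht
      have h3 := al_nonneg (H := H) (M := M) (S := {y}) ht
      nlinarith [mul_nonneg h2 h3]
    · rw [if_neg h]
      have h1 := decorr (M := M) hH hΛ (var_disj h) ht
      have h2 := le_abs_self (al H M t {x, y} - al H M t {x} * al H M t {y})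
      linarith
  have hin : ∀ x ∈ M, ∑ y ∈ M, (al H M t {x, y} - al H M t {x} * al H M t {y}) ≤
      (1 + 3 * Λ : ℝ) ^ (2 * r + 2) + e * M.card := by
    intro x hx
    refine (Finset.sum_le_sum (hpt x hx)).trans ?_
    rw [Finset.sum_add_distrib, Finset.sum_const, nsmul_eq_mul, ← Finset.sum_filter,
      Finset.sum_const, nsmul_eq_mul, mul_one]
    have h1 : (M.filter fun y => y ∈ nbh H (2 * r + 2) {x}).card ≤ (1 + 3 * Λ) ^ (2 * r + 2) := by
      refine (card_le_card (fun y hy => (mem_filter.1 hy).2)).trans ?_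
      have := card_nbh_le hH.card3 hΛ (2 * r + 2) {x}
      simpa using this
    have h2 : ((M.filter fun y => y ∈ nbh H (2 * r + 2) {x}).card : ℝ) ≤
        (1 + 3 * Λ : ℝ) ^ (2 * r + 2) := by exact_mod_cast h1
    linarith
  refine (Finset.sum_le_sum hin).trans ?_
  rw [Finset.sum_const, nsmul_eq_mul]
  apply le_of_eq
  ring

theorem abs_card (ht : 0 ≤ t) (c : ℝ) :
    Et H t (fun M' => |(M'.card : ℝ) - c|) M ≤ |∑ x ∈ M, al H M t {x} - c| +
      Real.sqrt (Et H t (fun M' => ((M'.card : ℝ) - ∑ x ∈ M, al H M t {x}) ^ 2) M) := by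
  set m := ∑ x ∈ M, al H M t {x} with hm
  have h1 : Et H t (fun M' => |(M'.card : ℝ) - c|) M ≤
      Et H t (fun M' => |(M'.card : ℝ) - m| + |m - c|) M :=
    var_Et_mono ht fun M' _ => abs_sub_le _ _ _
  rw [var_Et_add (H := H) (t := t) (M := M) (fun M' => |(M'.card : ℝ) - m|) (fun _ => |m - c|),
    var_Et_const] at h1
  have h2 : Et H t (fun M' => |(M'.card : ℝ) - m|) M ≤
      Real.sqrt (Et H t (fun M' => ((M'.card : ℝ) - m) ^ 2) M) := by
    apply Real.le_sqrt_of_sq_le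
    have h3 := Pt_sq_le H (kl H) (fun M' : Finset V => |(M'.card : ℝ) - m|) ht M
    have h4 : (fun M' : Finset V => |(M'.card : ℝ) - m| ^ 2) =
        fun M' : Finset V => ((M'.card : ℝ) - m) ^ 2 := by
      funext M'
      exact sq_abs _
    rw [h4] at h3
    exact h3
  linarith

end Vale.Agent.P046S
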