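import Vale.Agent.P046S.C2
import Vale.Agent.P046S.BM
import Vale.Agent.P046S.Link
import Vale.Agent.P046S.Var

/-!
P046 sharp constant, module C3: the last stage. The final number of points is close to
`m / √(2 q^40)`.

Order of choices: `ε`, then `s1 < 1` (close to `1`, only depending on `ε`), then `q0` (from
`bethe_main` and so that the relative errors are `≤ ε/20`), then given `q`: `ε1 = ε / (40 q^20)`, `Λ`
from `osgood'` (with `D = q^40`, `t1 = tS s1`, `ε1`), `low_tail` and `transfer`, then `r` and `δ'` from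
`BD_of` (with `r0` such that `10 (3 Λ t1)^r / r! ≤ (ε/(40 q^20))²` for all `r ≥ r0`), the result radius
`2 (r+1) + 2`, `δ` with `(1+3Λ)^{r+2} (4(r+1)+4) δ ≤ δ'` (`bad_card` for `H' = lowH H Λ` and `nCy_mono`),
`m0` with `(1+3Λ)^{2r+2} / m0 ≤ (ε/(40 q^20))²`.

Estimate, `c = m / √(2 q^40)`, `H' = lowH H Λ`, `t1 = tS s1`:
`EX ≤ Et H t1 |card - c| + 3 ∑_{T ∈ sub H M} al` (`EX_le_Et`, `sub H M = H`),
`Et H ≤ Et H' + ∑ ds ≤ Et H' + ε1 m` (`Et_abs_card_le`), `∑ al_H ≤ ∑ al_H' + card (H \ H') + ∑ d ds`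
(`sum_al_le`) `≤ ∑ al_H' + 2 ε1 m`, `Et H' |card - c| ≤ |∑ al_H' {x} - c| + √Var` (`abs_card`, `var_card`),
`∑ al_H' {x} = ∑ p`, `∑ al_H' T = (1 - s1) ∑ π` (`bethe_main`), `Dd q s1 ≤ 1/(2 s1)`,
`m / √(G2 q s1)` vs `m / √(2 q^40)`: `2 q^40 s1 ≤ G2 ≤ 2 q^40 (1 + 1/(2q^40))`.
-/

namespace Vale.Agent.P046S

open Finset Vale.Agent.P046 Vale.Agent.P046LF

section

variable {V : Type} [DecidableEq V]

theorem c3_low_sub (H : Finset (Finset V)) (Λ : ℕ) : lowH H Λ ⊆ H := filter_subset _ _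

theorem c3_low_lin {H : Finset (Finset V)} (hH : IsLin3 H) (Λ : ℕ) : IsLin3 (lowH H Λ) :=
  ⟨fun T hT => hH.card3 T (c3_low_sub H Λ hT),
    fun T hT T' hT' => hH.lin T (c3_low_sub H Λ hT) T' (c3_low_sub H Λ hT')⟩

theorem c3_low_deg (H : Finset (Finset V)) (Λ : ℕ) (x : V) :
    ((lowH H Λ).filter fun T => x ∈ T).card ≤ Λ := by
  by_cases h : ((lowH H Λ).filter fun T => x ∈ T) = ∅
  · rw [h]; simp
  · obtain ⟨T, hT⟩ := Finset.nonempty_iff_ne_empty.2 h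
    obtain ⟨hT1, hx⟩ := mem_filter.1 hT
    have h2 := (mem_filter.1 hT1).2 x hx
    exact (card_le_card (filter_subset_filter _ (c3_low_sub H Λ))).trans h2

theorem c3_nCy_nonneg (H : Finset (Finset V)) (M L : Finset V) (r : ℕ) : 0 ≤ nCy H M L r := by
  unfold nCy; positivity

end

/-- comparison of the two square roots -/
theorem c3_sqrt {q s1 η m : ℝ} (hq : 1 ≤ q) (hη : 0 < η) (hη2 : η ≤ 1 / 2) (hs : s1 = 1 - η)
    (hm : 0 ≤ m) :
    m / Real.sqrt (G2 q s1) ≤ m / q ^ 20 ∧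
    |m / Real.sqrt (G2 q s1) - m / Real.sqrt (2 * q ^ 40)| ≤ (η + 1 / q ^ 40) * (m / q ^ 20) := by
  have hq0 : 0 < q := by linarith
  have hA : 0 < 2 * q ^ 40 := by positivity
  have hG : G2 q s1 = 1 + 2 * q ^ 40 * (1 - η) := by unfold G2; rw [hs]
  have hGge : q ^ 40 ≤ G2 q s1 := by
    rw [hG]
    have : 0 ≤ q ^ 40 * (1 - 2 * η) := mul_nonneg (by positivity) (by linarith)
    nlinarith
  have hGpos : 0 < G2 q s1 := lt_of_lt_of_le (by positivity) hGge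
  have hsG : q ^ 20 ≤ Real.sqrt (G2 q s1) := by
    apply Real.le_sqrt_of_sq_le
    calc (q ^ 20) ^ 2 = q ^ 40 := by ring
      _ ≤ _ := hGge
  have hsGpos : 0 < Real.sqrt (G2 q s1) := Real.sqrt_pos.2 hGpos
  have hsApos : 0 < Real.sqrt (2 * q ^ 40) := Real.sqrt_pos.2 hA
  have hinv : 1 / Real.sqrt (G2 q s1) ≤ 1 / q ^ 20 :=
    one_div_le_one_div_of_le (by positivity) hsG
  constructor
  · apply div_le_div_of_nonneg_left hm (by positivity) hsG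
  · set a := Real.sqrt (G2 q s1) with ha
    set b := Real.sqrt (2 * q ^ 40) with hb
    have ha2 : a ^ 2 = G2 q s1 := Real.sq_sqrt hGpos.le
    have hb2 : b ^ 2 = 2 * q ^ 40 := Real.sq_sqrt hA.le
    have e1 : m / a - m / b = m * (b - a) / (a * b) := by field_simp
    have h1 : |b - a| ≤ (η * b ^ 2 + 1) / b := by
      rw [le_div_iff₀ hsApos]
      have h2 : |b - a| * b ≤ |b - a| * (b + a) :=
        mul_le_mul_of_nonneg_left (by linarith) (abs_nonneg _)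
      have h3 : |b - a| * (b + a) = |b ^ 2 - a ^ 2| := by
        have h30 : |b ^ 2 - a ^ 2| = |(b - a) * (b + a)| := by congr 1; ring
        rw [h30, abs_mul, abs_of_pos (by positivity : 0 < b + a)]
      have h4 : |b ^ 2 - a ^ 2| ≤ η * b ^ 2 + 1 := by
        rw [ha2, hG, hb2, abs_le]
        constructor
        · nlinarith [mul_pos hη hA]
        · nlinarith [mul_pos hη hA]
      linarith
    rw [e1, abs_div, abs_mul, abs_of_nonneg hm, abs_of_pos (by positivity : 0 < a * b)]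
    have h5 : m * |b - a| / (a * b) ≤ m * ((η * b ^ 2 + 1) / b) / (a * b) := by
      apply div_le_div_of_nonneg_right _ (by positivity)
      exact mul_le_mul_of_nonneg_left h1 hm
    have e2 : m * ((η * b ^ 2 + 1) / b) / (a * b) = (η + 1 / b ^ 2) * (m / a) := by
      field_simp
    have h6 : 1 / b ^ 2 ≤ 1 / q ^ 40 := by
      rw [hb2]
      apply one_div_le_one_div_of_le (by positivity)
      have : 0 < q ^ 40 := by positivity
      linarith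
    have h7 : m / a ≤ m / q ^ 20 := div_le_div_of_nonneg_left hm (by positivity) hsG
    calc m * |b - a| / (a * b) ≤ (η + 1 / b ^ 2) * (m / a) := by rw [← e2]; exact h5
      _ ≤ (η + 1 / q ^ 40) * (m / q ^ 20) := by
          apply mul_le_mul (by linarith) h7 (by positivity) (by positivity)

/-- few points with intersecting branches -/
theorem c3_bad {V : Type} [Fintype V] [DecidableEq V] {H : Finset (Finset V)} {M : Finset V}
    {Λ r : ℕ} {δ' K m : ℝ} (hH : IsLin3 H) (hM : ∀ T ∈ H, T ⊆ M)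
    (hK : K = (1 + 3 * (Λ : ℝ)) ^ (r + 1 + 1) * (4 * ((r + 1 : ℕ) : ℝ) + 4))
    (hC : ∃ L : Finset V, (L.card : ℝ) + nCy H M L (2 * (r + 1) + 2) ≤ δ' / K * m)
    (P : V → Prop) [DecidablePred P] (hP : ∀ y, P y ↔ ¬ TL (lowH H Λ) y (r + 1)) :
    ((M.filter P).card : ℝ) ≤ δ' * m := by
  classical
  have hK0 : 0 < K := by rw [hK]; positivity
  obtain ⟨L, hL⟩ := hC
  have h1 := bad_card (c3_low_lin hH Λ) (fun T hT => hM T (c3_low_sub H Λ hT))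
    (c3_low_deg H Λ) L (r + 1)
  have e : (M.filter P) = M.filter fun y => ¬ TL (lowH H Λ) y (r + 1) := by
    ext y; simp only [mem_filter, hP]
  rw [e]
  have h2 := nCy_mono (H' := lowH H Λ) (H := H) (M' := M) (M := M) (L := L) (c3_low_sub H Λ)
    (Subset.refl M) (2 * (r + 1) + 2)
  have h3 := c3_nCy_nonneg H M L (2 * (r + 1) + 2)
  have h4 : (L.card : ℝ) + (4 * ((r + 1 : ℕ) : ℝ) + 4) * nCy (lowH H Λ) M L (2 * (r + 1) + 2) ≤
      (4 * ((r + 1 : ℕ) : ℝ) + 4) * (L.card + nCy H M L (2 * (r + 1) + 2)) := by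
    have h5 : (4 * ((r + 1 : ℕ) : ℝ) + 4) * nCy (lowH H Λ) M L (2 * (r + 1) + 2) ≤
        (4 * ((r + 1 : ℕ) : ℝ) + 4) * nCy H M L (2 * (r + 1) + 2) :=
      mul_le_mul_of_nonneg_left h2 (by positivity)
    have h6 : (L.card : ℝ) ≤ (4 * ((r + 1 : ℕ) : ℝ) + 4) * L.card := by
      have : (0 : ℝ) ≤ L.card := by positivity
      have h7 : (0 : ℝ) ≤ ((r + 1 : ℕ) : ℝ) := by positivity
      nlinarith
    linarith
  calc ((M.filter fun y => ¬ TL (lowH H Λ) y (r + 1)).card : ℝ) ≤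
        (1 + 3 * (Λ : ℝ)) ^ (r + 1 + 1) *
        (L.card + (4 * ((r + 1 : ℕ) : ℝ) + 4) * nCy (lowH H Λ) M L (2 * (r + 1) + 2)) := h1
    _ ≤ (1 + 3 * (Λ : ℝ)) ^ (r + 1 + 1) *
        ((4 * ((r + 1 : ℕ) : ℝ) + 4) * (L.card + nCy H M L (2 * (r + 1) + 2))) :=
        mul_le_mul_of_nonneg_left h4 (by positivity)
    _ = K * (L.card + nCy H M L (2 * (r + 1) + 2)) := by rw [hK]; ring
    _ ≤ K * (δ' / K * m) := mul_le_mul_of_nonneg_left hL hK0.le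
    _ = δ' * m := by field_simp

/-- the variance term -/
theorem c3_var {V : Type} [Fintype V] [DecidableEq V] {H : Finset (Finset V)} {M : Finset V}
    {Λ r : ℕ} {ε1 t : ℝ} (hH : IsLin3 H) (hΛ : ∀ x, (H.filter fun T => x ∈ T).card ≤ Λ)
    (ht : 0 ≤ t) (hε1 : 0 < ε1)
    (hr : 10 * ((3 * Λ * t) ^ r / (r.factorial : ℝ)) ≤ ε1 ^ 2)
    (hm : (1 + 3 * (Λ : ℝ)) ^ (2 * r + 2) / ε1 ^ 2 ≤ M.card) :
    Real.sqrt (Et H t (fun M' => ((M'.card : ℝ) - ∑ x ∈ M, al H M t {x}) ^ 2) M) ≤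
      2 * (ε1 * M.card) := by
  have e5 := var_card (M := M) hH hΛ r ht
  have hm0 : (0 : ℝ) ≤ M.card := by positivity
  apply Real.sqrt_le_iff.2
  refine ⟨by positivity, e5.trans ?_⟩
  have h1 : (M.card : ℝ) * (1 + 3 * Λ) ^ (2 * r + 2) ≤ ε1 ^ 2 * (M.card : ℝ) ^ 2 := by
    rw [div_le_iff₀ (by positivity)] at hm
    calc (M.card : ℝ) * (1 + 3 * Λ) ^ (2 * r + 2) ≤ M.card * (M.card * ε1 ^ 2) :=
          mul_le_mul_of_nonneg_left hm hm0
      _ = ε1 ^ 2 * (M.card : ℝ) ^ 2 := by ring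
  have h2 : 10 * ((3 * Λ * t) ^ r / (r.factorial : ℝ)) * (M.card : ℝ) ^ 2 ≤
      ε1 ^ 2 * (M.card : ℝ) ^ 2 :=
    mul_le_mul_of_nonneg_right hr (by positivity)
  have h3 : (2 * (ε1 * (M.card : ℝ))) ^ 2 = 4 * (ε1 ^ 2 * (M.card : ℝ) ^ 2) := by ring
  have h4 : 0 ≤ ε1 ^ 2 * (M.card : ℝ) ^ 2 := by positivity
  linarith

/-- the numbers of points and of triples of the bounded degree process -/
theorem c3_count {V : Type} [Fintype V] [DecidableEq V] {H : Finset (Finset V)} {M : Finset V}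
    {q s1 η m : ℝ} (hq : 1 ≤ q) (hη : 0 < η) (hη2 : η ≤ 1 / 2) (hs : s1 = 1 - η)
    (hm : 0 ≤ m)
    (hb1 : |∑ x ∈ M, pS H M x s1 - m / Real.sqrt (G2 q s1)| ≤
        50 / Real.sqrt q * (m / Real.sqrt (G2 q s1)))
    (hb2 : ∑ T ∈ H, πS H M T s1 ≤ Dd q s1 * (m / Real.sqrt (G2 q s1))) :
    |∑ x ∈ M, al H M (tS s1) {x} - m / Real.sqrt (2 * q ^ 40)| ≤
      50 / Real.sqrt q * (m / q ^ 20) + (η + 1 / q ^ 40) * (m / q ^ 20) ∧
    ∑ T ∈ H, al H M (tS s1) T ≤ η * (m / q ^ 20) := by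
  have hq0 : 0 < q := by linarith
  have hes : 1 - s1 = η := by rw [hs]; ring
  obtain ⟨hsq1, hsq2⟩ := c3_sqrt hq hη hη2 hs hm
  constructor
  · have h1 : |∑ x ∈ M, al H M (tS s1) {x} - m / Real.sqrt (G2 q s1)| ≤
        50 / Real.sqrt q * (m / Real.sqrt (G2 q s1)) := hb1
    have h2 : 50 / Real.sqrt q * (m / Real.sqrt (G2 q s1)) ≤
        50 / Real.sqrt q * (m / q ^ 20) :=
      mul_le_mul_of_nonneg_left hsq1 (by positivity)
    have h3 := abs_sub_le (∑ x ∈ M, al H M (tS s1) {x}) (m / Real.sqrt (G2 q s1))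
      (m / Real.sqrt (2 * q ^ 40))
    linarith
  · have h1 : ∑ T ∈ H, al H M (tS s1) T = η * ∑ T ∈ H, πS H M T s1 := by
      rw [mul_sum]
      refine sum_congr rfl fun T _ => ?_
      unfold πS
      rw [hes, mul_div_cancel₀ _ hη.ne']
    rw [h1]
    apply mul_le_mul_of_nonneg_left _ hη.le
    refine hb2.trans ?_
    have h2 : Dd q s1 ≤ 1 := by
      unfold Dd
      have hG : q ^ 40 ≤ G2 q s1 := by
        unfold G2
        have h3 : 0 ≤ q ^ 40 * (2 * s1 - 1) := mul_nonneg (by positivity) (by linarith)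
        nlinarith
      have hGpos : 0 < G2 q s1 := lt_of_lt_of_le (by positivity) hG
      rw [div_le_one hGpos]
      exact hG
    have h3 : 0 ≤ m / Real.sqrt (G2 q s1) := div_nonneg hm (Real.sqrt_nonneg _)
    calc Dd q s1 * (m / Real.sqrt (G2 q s1)) ≤ 1 * (m / Real.sqrt (G2 q s1)) :=
          mul_le_mul_of_nonneg_right h2 h3
      _ ≤ m / q ^ 20 := by rw [one_mul]; exact hsq1

/-- the final estimate with numbers -/
theorem c3_num {ε q η X ε1 m ex et et' sal sal' hh ds dds pt va : ℝ} (hε : 0 < ε) (hq : 1 ≤ q)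
    (hqa : (1000 / ε) ^ 2 ≤ q) (hqb : 10 / ε ≤ q) (hη2 : η ≤ ε / 20) (hX : 0 ≤ X)
    (hε1 : ε1 * m = ε / 40 * X)
    (e1 : ex ≤ et + 3 * sal) (e2 : et ≤ et' + ds) (e3 : sal ≤ sal' + hh + dds)
    (e4 : et' ≤ pt + va) (hva : va ≤ 2 * (ε1 * m)) (hhh : hh ≤ ε1 * m) (hds : ds ≤ ε1 * m)
    (hdds : dds ≤ ε1 * m)
    (hpt : pt ≤ 50 / Real.sqrt q * X + (η + 1 / q ^ 40) * X) (htp : sal' ≤ η * X) :
    ex ≤ ε * X := by
  have hq0 : 0 < q := by linarith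
  have hsq : 50 / Real.sqrt q ≤ ε / 20 := by
    have h1 : 1000 / ε ≤ Real.sqrt q := Real.le_sqrt_of_sq_le hqa
    have h2 : 0 < Real.sqrt q := Real.sqrt_pos.2 hq0
    rw [div_le_iff₀ hε] at h1
    rw [div_le_iff₀ h2]
    linarith
  have hq40 : 1 / q ^ 40 ≤ ε / 10 := by
    have h1 : q ≤ q ^ 40 := by
      calc q = q ^ 1 := (pow_one q).symm
        _ ≤ q ^ 40 := pow_le_pow_right₀ hq (by norm_num)
    have h2 : 10 / ε ≤ q ^ 40 := hqb.trans h1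
    rw [div_le_iff₀ hε] at h2
    rw [div_le_iff₀ (by positivity)]
    linarith
  have f1 : 50 / Real.sqrt q * X ≤ ε / 20 * X := mul_le_mul_of_nonneg_right hsq hX
  have f2 : (η + 1 / q ^ 40) * X ≤ (ε / 20 + ε / 10) * X :=
    mul_le_mul_of_nonneg_right (by linarith) hX
  have f3 : η * X ≤ ε / 20 * X := mul_le_mul_of_nonneg_right hη2 hX
  have f4 : 0 ≤ ε * X := by positivity
  have g1 : ε / 20 * X = 1 / 20 * (ε * X) := by ring
  have g2 : (ε / 20 + ε / 10) * X = 3 / 20 * (ε * X) := by ring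
  have g3 : ε / 40 * X = 1 / 40 * (ε * X) := by ring
  rw [hε1, g3] at hva hhh hds hdds
  linarith

theorem stage3 (C0 ε : ℝ) (hC0 : 1 ≤ C0) (hε : 0 < ε) : ∃ q0 : ℝ, 1 ≤ q0 ∧ ∀ q1 : ℝ, q0 ≤ q1 →
    ∃ r : ℕ, ∃ δ : ℝ, 0 < δ ∧ ∃ m0 : ℕ, ∀ q : ℝ, q1 ≤ q → q ≤ 2 * q1 →
    ∀ (V : Type) [Fintype V] [DecidableEq V] (H : Finset (Finset V)) (M : Finset V) (N : V → ℝ)
      (k : ℕ), St3 H M N q C0 δ r → m0 ≤ M.card → M.card ≤ 3 * k + 2 →
      EX H (fun M' => |(M'.card : ℝ) - M.card / Real.sqrt (2 * q ^ 40)|) k M ≤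
        ε * (M.card / q ^ 20) := by
  -- choice of `s1`
  obtain ⟨η, hη0, hη1, hη2⟩ : ∃ η : ℝ, 0 < η ∧ η ≤ 1 / 2 ∧ η ≤ ε / 20 :=
    ⟨min (1 / 2) (ε / 20), lt_min (by norm_num) (by positivity), min_le_left _ _, min_le_right _ _⟩
  obtain ⟨s1, hs1⟩ : ∃ s1 : ℝ, s1 = 1 - η := ⟨_, rfl⟩
  have hs10 : 0 ≤ s1 := by linarith
  have hs11 : s1 < 1 := by linarith
  have hes : 1 - s1 = η := by rw [hs1]; ring
  have hC2 : 1 ≤ 1 / (1 - s1) := by
    rw [hes, le_div_iff₀ hη0]; linarith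
  have hC1 : 1 ≤ 2 * Real.exp (3 / (1 - s1)) := by
    have : 1 ≤ Real.exp (3 / (1 - s1)) := by
      apply Real.one_le_exp
      rw [hes]; positivity
    linarith
  obtain ⟨qb, hqb1, hbethe⟩ := bethe_main _ _ hC1 hC2
  refine ⟨max (max qb 3) (max ((1000 / ε) ^ 2) (10 / ε)), ?_, ?_⟩
  · exact le_max_of_le_left (le_max_of_le_right (by norm_num))
  intro q1 hq1
  have hqqb1 : qb ≤ q1 := le_trans (le_trans (le_max_left _ _) (le_max_left _ _)) hq1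
  have hq31 : 3 ≤ q1 := le_trans (le_trans (le_max_right _ _) (le_max_left _ _)) hq1
  have hqa1 : (1000 / ε) ^ 2 ≤ q1 := le_trans (le_trans (le_max_left _ _) (le_max_right _ _)) hq1
  have hqb1' : 10 / ε ≤ q1 := le_trans (le_trans (le_max_right _ _) (le_max_right _ _)) hq1
  clear hq1
  obtain ⟨Q, hQ⟩ : ∃ Q : ℝ, Q = 2 * q1 := ⟨_, rfl⟩
  have hQ0 : 0 < Q := by linarith
  have ht1 : 0 ≤ tS s1 := tS_nonneg hs10 hs11
  obtain ⟨ε1, hε1⟩ : ∃ ε1 : ℝ, ε1 = ε / (40 * Q ^ 20) := ⟨_, rfl⟩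
  have hε10 : 0 < ε1 := by rw [hε1]; positivity
  obtain ⟨Λ1, hΛ1⟩ := osgood' (Q ^ 40) C0 (tS s1) ε1 (by positivity) (by linarith) ht1 hε10
  obtain ⟨ε2, hε2, htr⟩ := transfer Q (by linarith)
  obtain ⟨Λ2, hΛ2⟩ := low_tail (Q ^ 40) C0 ε2 (by positivity) (by linarith) hε2
  obtain ⟨Λ, hΛa, hΛb⟩ : ∃ Λ : ℕ, Λ1 ≤ Λ ∧ Λ2 ≤ Λ := ⟨max Λ1 Λ2, le_max_left _ _, le_max_right _ _⟩
  -- `r0`
  obtain ⟨r0, hr0⟩ : ∃ r0 : ℕ, ∀ r, r0 ≤ r →
      10 * ((3 * Λ * tS s1) ^ r / (r.factorial : ℝ)) ≤ ε1 ^ 2 := by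
    have h1 := FloorSemiring.tendsto_pow_div_factorial_atTop (3 * Λ * tS s1)
    have h2 : ∀ᶠ n : ℕ in Filter.atTop,
        (3 * Λ * tS s1) ^ n / (n.factorial : ℝ) < ε1 ^ 2 / 10 :=
      h1.eventually (gt_mem_nhds (by positivity))
    obtain ⟨r0, hr0⟩ := Filter.eventually_atTop.1 h2
    exact ⟨r0, fun r hr => by have := hr0 r hr; linarith⟩
  obtain ⟨r, hrr0, δ', hδ', hBD⟩ := BD_of s1 Q Λ r0 hs10 hs11 (by linarith)
  obtain ⟨K, hK⟩ : ∃ K : ℝ, K = (1 + 3 * (Λ : ℝ)) ^ (r + 1 + 1) * (4 * ((r + 1 : ℕ) : ℝ) + 4) :=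
    ⟨_, rfl⟩
  have hK0 : 0 < K := by rw [hK]; positivity
  obtain ⟨m0, hm0⟩ := exists_nat_ge ((1 + 3 * (Λ : ℝ)) ^ (2 * r + 2) / ε1 ^ 2)
  refine ⟨2 * (r + 1) + 2, δ' / K, by positivity, m0, ?_⟩
  intro q hqq1 hq2 V _ _ H M N k hst hmM hMk
  have hqqb : qb ≤ q := hqqb1.trans hqq1
  have hq3 : 3 ≤ q := hq31.trans hqq1
  have hqa : (1000 / ε) ^ 2 ≤ q := hqa1.trans hqq1
  have hqb : 10 / ε ≤ q := hqb1'.trans hqq1
  have hqQ : q ≤ Q := by rw [hQ]; exact hq2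
  have hq1' : 1 ≤ q := by linarith
  have hq0 : 0 < q := by linarith
  have hE : ∑ x ∈ M, Real.exp ((deg H M x : ℝ) / (8 * Q ^ 40)) ≤ C0 * M.card := by
    refine le_trans (sum_le_sum fun x _ => ?_) hst.hE
    apply Real.exp_le_exp.2
    apply div_le_div_of_nonneg_left (Nat.cast_nonneg _) (by positivity)
    have := pow_le_pow_left₀ hq0.le hqQ 40
    linarith
  obtain ⟨ε3, hε3⟩ : ∃ ε3 : ℝ, ε3 = ε / (40 * q ^ 20) := ⟨_, rfl⟩
  have hε13 : ε1 ≤ ε3 := by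
    rw [hε1, hε3]
    apply div_le_div_of_nonneg_left hε.le (by positivity)
    have := pow_le_pow_left₀ hq0.le hqQ 20
    linarith
  have hlin' : IsLin3 (lowH H Λ) := c3_low_lin hst.lin Λ
  have hsub' : ∀ T ∈ lowH H Λ, T ⊆ M := fun T hT => hst.hsub T (c3_low_sub H Λ hT)
  have hdeg' : ∀ x, ((lowH H Λ).filter fun T => x ∈ T).card ≤ Λ := c3_low_deg H Λ
  have hm : (0 : ℝ) ≤ M.card := by positivity
  classical
  have hε13m : ε1 * M.card ≤ ε3 * M.card := mul_le_mul_of_nonneg_right hε13 hm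
  have hbd := hBD q hq1' hqQ V (lowH H Λ) M N hlin' hsub' hdeg' hst.hN hst.hN8
    (c3_bad hst.lin hst.hsub hK hst.hC _ (fun y => Iff.rfl))
  have hlt := hΛ2 Λ hΛb V H M hst.lin hst.hsub hE
  obtain ⟨hWB, hZB, hTB⟩ := htr q hq3 hqQ V H M N C0 _ _ Λ hst hlt
  obtain ⟨hb1, hb2⟩ := hbethe V (lowH H Λ) M N q s1 _ _ _ _ _ hbd hqqb hWB hZB hTB s1 hs10 le_rfl
  obtain ⟨ho1, _, ho3⟩ := hΛ1 Λ hΛa V H M hst.lin hst.hsub hE
  obtain ⟨ho4, ho5⟩ := ho3 (tS s1) ht1 le_rfl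
  obtain ⟨hpt, htp⟩ := c3_count hq1' hη0 hη1 hs1 hm hb1 hb2
  have hsubH : sub H M = H := filter_true_of_mem hst.hsub
  have e1 := EX_le_Et hst.lin (M.card / Real.sqrt (2 * q ^ 40)) hMk ht1
  rw [hsubH] at e1
  have e2 := Et_abs_card_le (H1 := H) (H2 := lowH H Λ) (M1 := M) (M2 := M) ht1
    (M.card / Real.sqrt (2 * q ^ 40))
  have e3 := sum_al_le (H1 := H) (H2 := lowH H Λ) (M1 := M) (M2 := M) ht1
  have e4 := abs_card (H := lowH H Λ) (M := M) ht1 (M.card / Real.sqrt (2 * q ^ 40))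
  have hvar := c3_var (M := M) hlin' hdeg' ht1 hε10 (hr0 r hrr0)
    (hm0.trans (by exact_mod_cast hmM))
  have hε1' : ε3 * M.card = ε / 40 * (M.card / q ^ 20) := by
    rw [hε3]; field_simp
  exact c3_num hε hq1' hqa hqb hη2 (by positivity) hε1' e1 e2 e3 e4
    (hvar.trans (by linarith)) (ho1.trans hε13m) (ho4.trans hε13m) (ho5.trans hε13m) hpt htp

end Vale.Agent.P046S
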