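import Vale.Agent.P046S.Cyc

/-!
P046 sharp constant, module CY1: if the branches at `y` are not disjoint up to distance `j` then there
is a cycle of length at most `2 j + 2` near `y`.

Proof. There are `T ≠ T'` through `y` and `w ≠ y` in both branches. A point `w` of `brV H y j T` is
reached by triples `S 0 = T, S 1, ..., S a ∋ w`, `a ≤ j`, with connecting points `y_i ∈ S (i-1) ∩ S i`,
`y_1 ≠ y`; take `a` minimal, then `y_i ≠ y_{i+1}` and `S (i-1) ≠ S i` (each connecting point is new).
Together with the same for `T'` one gets a sequence of triples `U 0, ..., U k`, `k ≤ 2 j + 1`, with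
connecting points `x_i ∈ U (i-1) ∩ U i`, `x_i ≠ x_{i+1}`, `U (i-1) ≠ U i` (non-backtracking) and with
`U 0 ∩ U k ≠ ∅`, `2 ≤ k` (the case `k = 1` is `T = T'`). Call this a collision of length `k`; all
triples are inside `nbh H (j+1) {y}`. Take a collision with `k ≥ 2` minimal. Then
`U a ∩ U b = ∅` for `2 ≤ b - a < k`, `card (U (i-1) ∩ U i) = 1`, and `U 0 ∩ U k = {z}` with `z` different
from `x_1, x_k` (if `k = 2`: `z = x_1` gives `x_1, x_2 ∈ U 1 ∩ U 2`, so `U 1 = U 2`; similarly `x_2`, and
`U 0 = U 2` gives `x_1, x_2 ∈ U 0 ∩ U 1`; if `k ≥ 3`: `U 0 ∩ U (k-1) = ∅`, `U 1 ∩ U k = ∅`). So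
`card (⋃ U) = 3 (k+1) - (k+1)`, `ℓ = k + 1`, closed walk `z, x_1, ..., x_k, z`.
-/

namespace Vale.Agent.P046S

open Finset Vale.Agent.P046

variable {V : Type} [DecidableEq V] {H : Finset (Finset V)}

/-- reduced chain of triples from `T` to the point `w` -/
structure CY1Ch (H : Finset (Finset V)) (N : Finset V) (y : V) (T : Finset V) (a : ℕ) (w : V)
    (S : ℕ → Finset V) (c : ℕ → V) : Prop where
  s0 : S 0 = T
  mem : ∀ i, i ≤ a → S i ∈ H ∧ S i ⊆ N
  con : ∀ i, i < a → c (i + 1) ∈ S i ∧ c (i + 1) ∈ S (i + 1) ∧ c (i + 1) ≠ y ∧ S i ≠ S (i + 1)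
  red : ∀ i, i + 1 < a → c (i + 1) ≠ c (i + 2)
  last : w ∈ S a

/-- collision of length `k` -/
structure CY1Col (H : Finset (Finset V)) (N : Finset V) (k : ℕ) (U : ℕ → Finset V)
    (x : ℕ → V) : Prop where
  mem : ∀ i, i ≤ k → U i ∈ H ∧ U i ⊆ N
  con : ∀ i, i < k → x (i + 1) ∈ U i ∧ x (i + 1) ∈ U (i + 1) ∧ U i ≠ U (i + 1)
  red : ∀ i, i + 1 < k → x (i + 1) ≠ x (i + 2)
  ends : ¬ Disjoint (U 0) (U k)

theorem CY1_lin_eq (hH : IsLin3 H) {A B : Finset V} (hA : A ∈ H) (hB : B ∈ H) (hAB : A ≠ B)
    {u v : V} (huA : u ∈ A) (huB : u ∈ B) (hvA : v ∈ A) (hvB : v ∈ B) : u = v := by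
  by_contra huv
  have h1 := hH.lin A hA B hB hAB
  have h2 : ({u, v} : Finset V) ⊆ A ∩ B := by
    intro z hz
    rw [Finset.mem_insert, Finset.mem_singleton] at hz
    rcases hz with rfl | rfl
    · exact Finset.mem_inter.2 ⟨huA, huB⟩
    · exact Finset.mem_inter.2 ⟨hvA, hvB⟩
  have h3 := Finset.card_le_card h2
  rw [Finset.card_pair huv] at h3
  omega

theorem CY1_brV_self (y : V) (j : ℕ) (T : Finset V) : T ⊆ brV H y j T := by
  induction j with
  | zero => exact Finset.Subset.refl _
  | succ j ih => exact ih.trans Finset.subset_union_left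

theorem CY1_chain {y : V} {T : Finset V} (hT : T ∈ H) (j : ℕ) :
    ∀ w, w ∈ brV H y j T → w ≠ y →
      ∃ a, a ≤ j ∧ ∃ S c, CY1Ch H (brV H y j T) y T a w S c := by
  induction j with
  | zero =>
    intro w hw hwy
    refine ⟨0, le_rfl, fun _ => T, fun _ => y, rfl, ?_, ?_, ?_, hw⟩
    · intro i _
      exact ⟨hT, Finset.Subset.refl _⟩
    · intro i hi
      omega
    · intro i hi
      omega
  | succ j ih =>
    intro w hw hwy
    have hmono : brV H y j T ⊆ brV H y (j + 1) T := Finset.subset_union_left
    rcases Finset.mem_union.1 hw with h | h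
    · obtain ⟨a, ha, S, c, hC⟩ := ih w h hwy
      exact ⟨a, by omega, S, c, hC.s0, fun i hi => ⟨(hC.mem i hi).1, (hC.mem i hi).2.trans hmono⟩,
        hC.con, hC.red, hC.last⟩
    · rw [Finset.mem_biUnion] at h
      obtain ⟨T2, hT2, hwT2⟩ := h
      have hT2' := Finset.mem_filter.1 hT2
      have hT2sub : T2 ⊆ brV H y (j + 1) T := by
        intro z hz
        exact Finset.mem_union_right _ (Finset.mem_biUnion.2 ⟨T2, hT2, hz⟩)
      obtain ⟨v, hv1, hv2⟩ := Finset.not_disjoint_iff.1 hT2'.2
      rw [Finset.mem_sdiff, Finset.mem_singleton] at hv2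
      have hwT2' : w ∈ T2 := hwT2
      obtain ⟨a, ha, S, c, hC⟩ := ih v hv2.1 hv2.2
      have hmem : ∀ i, i ≤ a → S i ∈ H ∧ S i ⊆ brV H y (j + 1) T :=
        fun i hi => ⟨(hC.mem i hi).1, (hC.mem i hi).2.trans hmono⟩
      by_cases h1 : S a = T2
      · exact ⟨a, by omega, S, c, hC.s0, hmem, hC.con, hC.red, by rw [h1]; exact hwT2'⟩
      · by_cases h2 : a = 0 ∨ c a ≠ v
        · refine ⟨a + 1, by omega, fun i => if i ≤ a then S i else T2,
            fun i => if i ≤ a then c i else v, ?_, ?_, ?_, ?_, ?_⟩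
          · simp only [Nat.zero_le, if_true]; exact hC.s0
          · intro i hi
            by_cases hi2 : i ≤ a
            · simp only [hi2, if_true]; exact hmem i hi2
            · simp only [hi2, if_false]; exact ⟨hT2'.1, hT2sub⟩
          · intro i hi
            by_cases hi2 : i + 1 ≤ a
            · have hi3 : i ≤ a := by omega
              simp only [hi2, hi3, if_true]
              exact hC.con i (by omega)
            · have hi3 : i = a := by omega
              subst hi3
              simp only [hi2, le_refl, if_true, if_false]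
              exact ⟨hC.last, hv1, hv2.2, h1⟩
          · intro i hi
            by_cases hi2 : i + 2 ≤ a
            · have hi3 : i + 1 ≤ a := by omega
              simp only [hi2, hi3, if_true]
              exact hC.red i (by omega)
            · have hi3 : i + 1 = a := by omega
              have hi4 : i + 1 ≤ a := by omega
              simp only [hi2, hi4, if_true, if_false]
              rcases h2 with h2 | h2
              · omega
              · rw [hi3]; exact h2
          · have : ¬ (a + 1 ≤ a) := by omega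
            simp only [this, if_false]
            exact hwT2'
        · rw [not_or, not_not] at h2
          obtain ⟨h3, h4⟩ := h2
          obtain ⟨b, rfl⟩ : ∃ b, a = b + 1 := ⟨a - 1, by omega⟩
          have hcb := hC.con b (by omega)
          rw [h4] at hcb
          by_cases h5 : S b = T2
          · refine ⟨b, by omega, S, c, hC.s0, fun i hi => hmem i (by omega),
              fun i hi => hC.con i (by omega), fun i hi => hC.red i (by omega), ?_⟩
            rw [h5]; exact hwT2'
          · refine ⟨b + 1, by omega, fun i => if i ≤ b then S i else T2, c, ?_, ?_, ?_, ?_, ?_⟩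
            · simp only [Nat.zero_le, if_true]; exact hC.s0
            · intro i hi
              by_cases hi2 : i ≤ b
              · simp only [hi2, if_true]; exact hmem i (by omega)
              · simp only [hi2, if_false]; exact ⟨hT2'.1, hT2sub⟩
            · intro i hi
              by_cases hi2 : i + 1 ≤ b
              · have hi3 : i ≤ b := by omega
                simp only [hi2, hi3, if_true]
                exact hC.con i (by omega)
              · have hi3 : i = b := by omega
                subst hi3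
                simp only [hi2, le_refl, if_true, if_false]
                rw [h4]
                exact ⟨hcb.1, hv1, hv2.2, h5⟩
            · intro i hi
              exact hC.red i (by omega)
            · have : ¬ (b + 1 ≤ b) := by omega
              simp only [this, if_false]
              exact hwT2'

theorem CY1_brV_nbh {y : V} {T : Finset V} (hT : T ∈ H) (hy : y ∈ T) (j : ℕ) :
    brV H y j T ⊆ nbh H (j + 1) {y} := by
  induction j with
  | zero =>
    intro z hz
    refine Finset.mem_union_right _ (Finset.mem_biUnion.2 ⟨T, Finset.mem_filter.2 ⟨hT, ?_⟩, hz⟩)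
    rw [Finset.not_disjoint_iff]
    exact ⟨y, hy, Finset.mem_singleton_self y⟩
  | succ j ih =>
    intro z hz
    rcases Finset.mem_union.1 hz with h | h
    · exact Finset.mem_union_left _ (ih h)
    · rw [Finset.mem_biUnion] at h
      obtain ⟨T2, hT2, hzT2⟩ := h
      have hT2' := Finset.mem_filter.1 hT2
      obtain ⟨v, hv1, hv2⟩ := Finset.not_disjoint_iff.1 hT2'.2
      refine Finset.mem_union_right _ (Finset.mem_biUnion.2 ⟨T2, Finset.mem_filter.2 ⟨hT2'.1, ?_⟩,
        hzT2⟩)
      rw [Finset.not_disjoint_iff]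
      exact ⟨v, hv1, ih (Finset.mem_sdiff.1 hv2).1⟩

theorem CY1_exists_col (hH : IsLin3 H) {y : V} {j : ℕ} (h : ¬ TL H y j) :
    ∃ k, 2 ≤ k ∧ k ≤ 2 * j + 1 ∧ ∃ U x, CY1Col H (nbh H (j + 1) {y}) k U x := by
  unfold TL at h
  simp only [not_forall] at h
  obtain ⟨T, hT, T', hT', hyT, hyT', hne, hcap⟩ := h
  have hyin : y ∈ brV H y j T ∩ brV H y j T' :=
    Finset.mem_inter.2 ⟨CY1_brV_self y j T hyT, CY1_brV_self y j T' hyT'⟩
  obtain ⟨w, hw, hwy⟩ : ∃ w ∈ brV H y j T ∩ brV H y j T', w ≠ y := by
    by_contra hcon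
    push Not at hcon
    apply hcap
    ext z
    rw [Finset.mem_singleton]
    exact ⟨fun hz => hcon z hz, fun hz => by rw [hz]; exact hyin⟩
  rw [Finset.mem_inter] at hw
  obtain ⟨a, ha, S, c, hC⟩ := CY1_chain hT j w hw.1 hwy
  obtain ⟨a', ha', S', c', hC'⟩ := CY1_chain hT' j w hw.2 hwy
  have hN := CY1_brV_nbh hT hyT j
  have hN' := CY1_brV_nbh hT' hyT' j
  refine ⟨a + 1 + a', ?_, by omega, fun i => if i ≤ a then S (a - i) else S' (i - (a + 1)),
    fun i => if i ≤ a then c (a + 1 - i) else if i = a + 1 then y else c' (i - (a + 1)),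
    ?_, ?_, ?_, ?_⟩
  · by_contra hlt
    have ha0 : a = 0 := by omega
    have ha0' : a' = 0 := by omega
    subst ha0; subst ha0'
    have h1 := hC.last
    have h2 := hC'.last
    rw [hC.s0] at h1
    rw [hC'.s0] at h2
    exact hwy (CY1_lin_eq hH hT hT' hne h1 h2 hyT hyT')
  · intro i hi
    by_cases hi2 : i ≤ a
    · simp only [hi2, if_true]
      have := hC.mem (a - i) (by omega)
      exact ⟨this.1, this.2.trans hN⟩
    · simp only [hi2, if_false]
      have := hC'.mem (i - (a + 1)) (by omega)
      exact ⟨this.1, this.2.trans hN'⟩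
  · intro i hi
    by_cases hi2 : i + 1 ≤ a
    · have hi3 : i ≤ a := by omega
      simp only [hi2, hi3, if_true]
      have h1 := hC.con (a - (i + 1)) (by omega)
      have e1 : a - (i + 1) + 1 = a - i := by omega
      have e2 : a + 1 - (i + 1) = a - i := by omega
      rw [e1] at h1
      rw [e2]
      exact ⟨h1.2.1, h1.1, fun e => h1.2.2.2 e.symm⟩
    · by_cases hi3 : i = a
      · subst hi3
        have e1 : ¬ (i + 1 ≤ i) := by omega
        simp only [le_refl, if_true, e1, if_false, Nat.sub_self]
        rw [hC.s0, hC'.s0]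
        exact ⟨hyT, hyT', hne⟩
      · have hi4 : ¬ (i ≤ a) := by omega
        have hi5 : ¬ (i + 1 = a + 1) := by omega
        simp only [hi2, hi4, hi5, if_false]
        have h1 := hC'.con (i - (a + 1)) (by omega)
        have e1 : i - (a + 1) + 1 = i + 1 - (a + 1) := by omega
        rw [e1] at h1
        exact ⟨h1.1, h1.2.1, h1.2.2.2⟩
  · intro i hi
    by_cases hi2 : i + 2 ≤ a
    · have hi3 : i + 1 ≤ a := by omega
      simp only [hi2, hi3, if_true]
      have h1 := hC.red (a - (i + 2)) (by omega)
      have e1 : a - (i + 2) + 1 = a + 1 - (i + 2) := by omega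
      have e2 : a - (i + 2) + 2 = a + 1 - (i + 1) := by omega
      rw [e1, e2] at h1
      exact fun e => h1 e.symm
    · by_cases hi3 : i + 1 = a
      · have e1 : i + 1 ≤ a := by omega
        have e2 : i + 2 = a + 1 := by omega
        simp only [e1, e2, if_true]
        have h1 := hC.con 0 (by omega)
        have e3 : a + 1 - (i + 1) = 0 + 1 := by omega
        have e4 : ¬ (a + 1 ≤ a) := by omega
        simp only [e4, if_false]
        rw [e3]
        exact h1.2.2.1
      · by_cases hi4 : i = a
        · subst hi4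
          have e1 : ¬ (i + 1 ≤ i) := by omega
          have e2 : ¬ (i + 2 = i + 1) := by omega
          simp only [hi2, e1, e2, if_true, if_false]
          have h1 := hC'.con 0 (by omega)
          have e3 : i + 2 - (i + 1) = 0 + 1 := by omega
          rw [e3]
          exact fun e => h1.2.2.1 e.symm
        · have e1 : ¬ (i + 1 ≤ a) := by omega
          have e2 : ¬ (i + 1 = a + 1) := by omega
          have e3 : ¬ (i + 2 = a + 1) := by omega
          simp only [hi2, e1, e2, e3, if_false]
          have h1 := hC'.red (i - (a + 1)) (by omega)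
          have e4 : i - (a + 1) + 1 = i + 1 - (a + 1) := by omega
          have e5 : i - (a + 1) + 2 = i + 2 - (a + 1) := by omega
          rw [e4, e5] at h1
          exact h1
  · rw [Finset.not_disjoint_iff]
    refine ⟨w, ?_, ?_⟩
    · simp only [Nat.zero_le, if_true, Nat.sub_zero]
      exact hC.last
    · have e1 : ¬ (a + 1 + a' ≤ a) := by omega
      have e2 : a + 1 + a' - (a + 1) = a' := by omega
      simp only [e1, if_false, e2]
      exact hC'.last

omit [DecidableEq V] in
theorem CY1_window {N : Finset V} {k : ℕ} {U : ℕ → Finset V} {x : ℕ → V}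
    (h : CY1Col H N k U x) {a m : ℕ} (ham : a + m ≤ k) (hd : ¬ Disjoint (U a) (U (a + m))) :
    CY1Col H N m (fun i => U (a + i)) (fun i => x (a + i)) := by
  refine ⟨fun i hi => h.mem (a + i) (by omega), fun i hi => ?_, fun i hi => ?_, hd⟩
  · exact h.con (a + i) (by omega)
  · exact h.red (a + i) (by omega)

theorem exists_CW (hH : IsLin3 H) {y : V} {j : ℕ} (h : ¬ TL H y j) :
    ∃ ℓ, 1 ≤ ℓ ∧ ℓ ≤ 2 * j + 2 ∧ ∃ P, CW H ℓ P ∧ P ⊆ nbh H (j + 1) {y} := by
  classical
  obtain ⟨k0, hk0, hk0', U0, x0, hcol0⟩ := CY1_exists_col hH h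
  have hex : ∃ k, 2 ≤ k ∧ ∃ U x, CY1Col H (nbh H (j + 1) {y}) k U x := ⟨k0, hk0, U0, x0, hcol0⟩
  obtain ⟨hk2, U, x, hcol⟩ := Nat.find_spec hex
  have hmin : ∀ m, 2 ≤ m → m < Nat.find hex →
      ¬ ∃ U x, CY1Col H (nbh H (j + 1) {y}) m U x := by
    intro m hm hlt hcon
    exact Nat.find_min hex hlt ⟨hm, hcon⟩
  have hkle : Nat.find hex ≤ k0 := Nat.find_min' hex ⟨hk0, U0, x0, hcol0⟩
  generalize Nat.find hex = k at *
  -- far apart triples are disjoint
  have hfar : ∀ a b, a < b → b ≤ k → 2 ≤ b - a → b - a < k → Disjoint (U a) (U b) := by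
    intro a b hab hb h1 h2
    by_contra hd
    have e : a + (b - a) = b := by omega
    refine hmin (b - a) h1 h2 ⟨_, _, CY1_window hcol (a := a) (m := b - a) (by omega) ?_⟩
    rw [e]; exact hd
  obtain ⟨z, hz0, hzk⟩ := Finset.not_disjoint_iff.1 hcol.ends
  have hc0 := hcol.con 0 (by omega)
  have hck : x k ∈ U (k - 1) ∧ x k ∈ U k ∧ U (k - 1) ≠ U k := by
    have := hcol.con (k - 1) (by omega)
    have e : k - 1 + 1 = k := by omega
    rwa [e] at this
  have hfacts : U 0 ≠ U k ∧ z ≠ x 1 ∧ z ≠ x k := by
    by_cases hk3 : 3 ≤ k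
    · have d1 := hfar 0 (k - 1) (by omega) (by omega) (by omega) (by omega)
      have d2 := hfar 1 k (by omega) (by omega) (by omega) (by omega)
      refine ⟨?_, ?_, ?_⟩
      · intro e
        exact Finset.disjoint_left.1 d2 hc0.2.1 (by rw [← e]; exact hc0.1)
      · intro e
        exact Finset.disjoint_left.1 d2 hc0.2.1 (by rw [zero_add, ← e]; exact hzk)
      · intro e
        exact Finset.disjoint_left.1 d1 hz0 (by rw [e]; exact hck.1)
    · have hk : k = 2 := by omega
      subst hk
      have hx12 : x 1 ≠ x 2 := hcol.red 0 (by omega)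
      have hc1 := hcol.con 1 (by omega)
      have m0 := (hcol.mem 0 (by omega)).1
      have m1 := (hcol.mem 1 (by omega)).1
      have m2 := (hcol.mem 2 (by omega)).1
      simp only [zero_add, Nat.reduceAdd] at hc0 hc1
      refine ⟨?_, ?_, ?_⟩
      · intro e
        exact hx12 (CY1_lin_eq hH m0 m1 hc0.2.2 hc0.1 hc0.2.1 (by rw [e]; exact hc1.2.1) hc1.1)
      · intro e
        exact hx12 (CY1_lin_eq hH m1 m2 hc1.2.2 hc0.2.1 (by rw [← e]; exact hzk) hc1.1 hc1.2.1)
      · intro e
        exact hx12 (CY1_lin_eq hH m0 m1 hc0.2.2 hc0.1 hc0.2.1 (by rw [← e]; exact hz0) hc1.1)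
  obtain ⟨hU0k, hz1, hzk'⟩ := hfacts
  -- the closed walk
  let X : ℕ → V := fun i => if i = 0 then z else if i ≤ k then x i else z
  have hX0 : X 0 = z := by simp [X]
  have hXi : ∀ i, 1 ≤ i → i ≤ k → X i = x i := by
    intro i h1 h2
    have : i ≠ 0 := by omega
    simp [X, this, h2]
  have hXk : X (k + 1) = z := by
    have : ¬ (k + 1 ≤ k) := by omega
    simp [X]
  have hstep : ∀ i, i < k + 1 → U i ∈ H ∧ X i ∈ U i ∧ X (i + 1) ∈ U i ∧ X i ≠ X (i + 1) := by
    intro i hi
    refine ⟨(hcol.mem i (by omega)).1, ?_, ?_, ?_⟩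
    · rcases Nat.eq_zero_or_pos i with h0 | h0
      · subst h0; rw [hX0]; exact hz0
      · rw [hXi i h0 (by omega)]
        obtain ⟨m, rfl⟩ : ∃ m, i = m + 1 := ⟨i - 1, by omega⟩
        exact (hcol.con m (by omega)).2.1
    · rcases Nat.lt_or_ge i k with h0 | h0
      · rw [hXi (i + 1) (by omega) (by omega)]
        exact (hcol.con i h0).1
      · have : i = k := by omega
        subst this
        rw [hXk]; exact hzk
    · rcases Nat.eq_zero_or_pos i with h0 | h0
      · subst h0
        rw [hX0, hXi 1 (by omega) (by omega)]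
        exact hz1
      · rcases Nat.lt_or_ge i k with h1 | h1
        · rw [hXi i h0 (by omega), hXi (i + 1) (by omega) (by omega)]
          obtain ⟨m, rfl⟩ : ∃ m, i = m + 1 := ⟨i - 1, by omega⟩
          exact hcol.red m (by omega)
        · have : i = k := by omega
          subst this
          rw [hXk, hXi i h0 (by omega)]
          exact fun e => hzk' e.symm
  refine ⟨k + 1, by omega, by omega, (range (k + 1)).biUnion U, ?_, ?_⟩
  · refine ⟨X, U, by rw [hX0, hXk], hstep, rfl, ?_⟩
    have hunion : (range (k + 1)).biUnion U = (range (k + 1)).biUnion (fun i => (U i).erase (X i)) := by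
      apply Finset.Subset.antisymm
      · intro v hv
        rw [Finset.mem_biUnion] at hv
        obtain ⟨i, hi, hvi⟩ := hv
        rw [Finset.mem_range] at hi
        rw [Finset.mem_biUnion]
        by_cases hvx : v = X i
        · rcases Nat.eq_zero_or_pos i with h0 | h0
          · subst h0
            refine ⟨k, by simp, Finset.mem_erase.2 ⟨?_, ?_⟩⟩
            · rw [hvx, hX0, hXi k (by omega) le_rfl]; exact hzk'
            · rw [hvx, hX0]; exact hzk
          · obtain ⟨m, rfl⟩ : ∃ m, i = m + 1 := ⟨i - 1, by omega⟩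
            have hs := hstep m (by omega)
            refine ⟨m, by rw [Finset.mem_range]; omega, Finset.mem_erase.2 ⟨?_, ?_⟩⟩
            · rw [hvx]; exact fun e => hs.2.2.2 e.symm
            · rw [hvx]; exact hs.2.2.1
        · exact ⟨i, Finset.mem_range.2 hi, Finset.mem_erase.2 ⟨hvx, hvi⟩⟩
      · intro v hv
        rw [Finset.mem_biUnion] at hv ⊢
        obtain ⟨i, hi, hvi⟩ := hv
        exact ⟨i, hi, (Finset.mem_erase.1 hvi).2⟩
    have hdisj' : ∀ i i', i < i' → i' ≤ k →
        Disjoint ((U i).erase (X i)) ((U i').erase (X i')) := by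
      intro i i' hlt hle
      rw [Finset.disjoint_left]
      intro v hv hv'
      rw [Finset.mem_erase] at hv hv'
      have hi := hstep i (by omega)
      have hi' := hstep i' (by omega)
      by_cases h1 : i' = i + 1
      · subst h1
        have hne := (hcol.con i (by omega)).2.2
        exact hv'.1 (CY1_lin_eq hH hi.1 hi'.1 hne hv.2 hv'.2 hi.2.2.1 hi'.2.1)
      · by_cases h2 : i = 0 ∧ i' = k
        · obtain ⟨rfl, rfl⟩ := h2
          apply hv.1
          rw [hX0]
          exact CY1_lin_eq hH hi.1 hi'.1 hU0k hv.2 hv'.2 hz0 hzk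
        · exact Finset.disjoint_left.1 (hfar i i' hlt hle (by omega) (by omega)) hv.2 hv'.2
    rw [hunion, Finset.card_biUnion]
    · have hc : ∀ i ∈ range (k + 1), ((U i).erase (X i)).card = 2 := by
        intro i hi
        rw [Finset.mem_range] at hi
        have hs := hstep i hi
        rw [Finset.card_erase_of_mem hs.2.1, hH.card3 _ hs.1]
      rw [Finset.sum_congr rfl hc, Finset.sum_const, Finset.card_range, smul_eq_mul]
      ring
    · intro i hi i' hi' hne
      rw [Finset.mem_coe, Finset.mem_range] at hi hi'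
      rcases Nat.lt_or_gt_of_ne hne with hlt | hlt
      · exact hdisj' i i' hlt (by omega)
      · exact (hdisj' i' i hlt (by omega)).symm
  · intro v hv
    rw [Finset.mem_biUnion] at hv
    obtain ⟨i, hi, hvi⟩ := hv
    rw [Finset.mem_range] at hi
    exact (hcol.mem i (by omega)).2 hvi

end Vale.Agent.P046S
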