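import Vale.Agent.P046S.Proc

/-!
P046 sharp constant, module A5 (Prod): independence of two parts of the hypergraph which share only
points that are required to be alive. Both sides satisfy the same triangular linear system
`y (S1, S2)' = - ∑_{T ∈ H1, T ∩ S1 ≠ ∅} y (S1 ∪ T, S2) - ∑_{T ∈ H2, T ∩ S2 ≠ ∅} y (S1, S2 ∪ T)`
(induction on the number of points outside `S1` plus outside `S2`; a scalar equation
`y' = - c y + h` with given `h` and `y 0` has one solution).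
-/

namespace Vale.Agent.P046S

open Finset Vale.Agent.P046

variable {V : Type} [Fintype V] [DecidableEq V] {H1 H2 : Finset (Finset V)} {M : Finset V}

theorem prod_ode {w : ℝ → ℝ} {c : ℝ} (h : ∀ t, HasDerivAt w (-(c * w t)) t) (h0 : w 0 = 0)
    (t : ℝ) : w t = 0 := by
  have hd : ∀ t, HasDerivAt (fun t => Real.exp (c * t) * w t) 0 t := by
    intro t
    have h1 : HasDerivAt (fun t : ℝ => Real.exp (c * t)) (Real.exp (c * t) * (c * 1)) t :=
      ((hasDerivAt_id t).const_mul c).exp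
    have h2 := h1.mul (h t)
    have e : (0 : ℝ) = Real.exp (c * t) * (c * 1) * w t + Real.exp (c * t) * (-(c * w t)) := by
      ring
    rw [e]
    exact h2
  have hc := is_const_of_deriv_eq_zero (f := fun t => Real.exp (c * t) * w t)
    (fun t => (hd t).differentiableAt) (fun t => (hd t).deriv) t 0
  have hc' : Real.exp (c * t) * w t = Real.exp (c * 0) * w 0 := hc
  rw [h0, mul_zero] at hc'
  exact (mul_eq_zero.mp hc').resolve_left (Real.exp_pos _).ne'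

omit [Fintype V] in
/-- one half of the sum -/
theorem prod_half {G : Finset (Finset V)} {S : Finset V} {f g : Finset V → ℝ} {b w : ℝ}
    (h : ∀ T ∈ G, ¬ Disjoint T S → f T = g T * b + if T ⊆ S then w else 0) :
    ∑ T ∈ G with ¬ Disjoint T S, f T = (∑ T ∈ G with ¬ Disjoint T S, g T) * b +
      (((G.filter fun T => ¬ Disjoint T S).filter fun T => T ⊆ S).card : ℝ) * w := by
  rw [Finset.sum_congr rfl (fun T hT => h T (mem_filter.mp hT).1 (mem_filter.mp hT).2),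
    Finset.sum_add_distrib, ← Finset.sum_mul, ← Finset.sum_filter, Finset.sum_const, nsmul_eq_mul]

theorem al_prod (hH : IsLin3 (H1 ∪ H2)) {V1 V2 S1 S2 : Finset V} (h1 : ∀ T ∈ H1, T ⊆ V1)
    (h2 : ∀ T ∈ H2, T ⊆ V2) (hd : Disjoint H1 H2) (hS1 : S1 ⊆ V1) (hS2 : S2 ⊆ V2)
    (hV : V1 ∩ V2 ⊆ S1 ∩ S2) (t : ℝ) :
    al (H1 ∪ H2) M t (S1 ∪ S2) = al H1 M t S1 * al H2 M t S2 := by
  have hH1 : IsLin3 H1 := ⟨fun T hT => hH.card3 T (mem_union_left _ hT),
    fun T hT T' hT' => hH.lin T (mem_union_left _ hT) T' (mem_union_left _ hT')⟩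
  have hH2 : IsLin3 H2 := ⟨fun T hT => hH.card3 T (mem_union_right _ hT),
    fun T hT T' hT' => hH.lin T (mem_union_right _ hT) T' (mem_union_right _ hT')⟩
  suffices H : ∀ n : ℕ, ∀ S1 S2 : Finset V, S1 ⊆ V1 → S2 ⊆ V2 → V1 ∩ V2 ⊆ S1 ∩ S2 →
      (V1 \ S1).card + (V2 \ S2).card = n →
      ∀ t, al (H1 ∪ H2) M t (S1 ∪ S2) - al H1 M t S1 * al H2 M t S2 = 0 from
    sub_eq_zero.mp (H _ S1 S2 hS1 hS2 hV rfl t)
  intro n
  induction n using Nat.strong_induction_on with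
  | _ n ih =>
  intro S1 S2 hS1 hS2 hV hn
  set w : ℝ → ℝ := fun t => al (H1 ∪ H2) M t (S1 ∪ S2) - al H1 M t S1 * al H2 M t S2 with hw
  set n1 : ℝ := (((H1.filter fun T => ¬ Disjoint T S1).filter fun T => T ⊆ S1).card : ℝ) with hn1
  set n2 : ℝ := (((H2.filter fun T => ¬ Disjoint T S2).filter fun T => T ⊆ S2).card : ℝ) with hn2
  have hmeet1 : ∀ T ∈ H1, (¬ Disjoint T (S1 ∪ S2) ↔ ¬ Disjoint T S1) := by
    intro T hT
    rw [disjoint_union_right, not_iff_not]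
    refine ⟨fun h => h.1, fun h => ⟨h, ?_⟩⟩
    rw [Finset.disjoint_left] at h ⊢
    intro p hp hp2
    exact h hp (mem_inter.mp (hV (mem_inter.mpr ⟨h1 T hT hp, hS2 hp2⟩))).1
  have hmeet2 : ∀ T ∈ H2, (¬ Disjoint T (S1 ∪ S2) ↔ ¬ Disjoint T S2) := by
    intro T hT
    rw [disjoint_union_right, not_iff_not]
    refine ⟨fun h => h.2, fun h => ⟨?_, h⟩⟩
    rw [Finset.disjoint_left] at h ⊢
    intro p hp hp2
    exact h hp (mem_inter.mp (hV (mem_inter.mpr ⟨hS1 hp2, h2 T hT hp⟩))).2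
  have hcard1 : ∀ T, T ⊆ V1 → ¬ T ⊆ S1 → (V1 \ (S1 ∪ T)).card < (V1 \ S1).card := by
    intro T hT hTS
    apply Finset.card_lt_card
    rw [Finset.ssubset_iff_of_subset (sdiff_subset_sdiff le_rfl subset_union_left)]
    obtain ⟨p, hp, hpS⟩ := Finset.not_subset.mp hTS
    exact ⟨p, mem_sdiff.mpr ⟨hT hp, hpS⟩, fun h => (mem_sdiff.mp h).2 (mem_union_right _ hp)⟩
  have hcard2 : ∀ T, T ⊆ V2 → ¬ T ⊆ S2 → (V2 \ (S2 ∪ T)).card < (V2 \ S2).card := by
    intro T hT hTS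
    apply Finset.card_lt_card
    rw [Finset.ssubset_iff_of_subset (sdiff_subset_sdiff le_rfl subset_union_left)]
    obtain ⟨p, hp, hpS⟩ := Finset.not_subset.mp hTS
    exact ⟨p, mem_sdiff.mpr ⟨hT hp, hpS⟩, fun h => (mem_sdiff.mp h).2 (mem_union_right _ hp)⟩
  have hkey1 : ∀ t, ∀ T ∈ H1, ¬ Disjoint T S1 → al (H1 ∪ H2) M t (S1 ∪ S2 ∪ T) =
      al H1 M t (S1 ∪ T) * al H2 M t S2 + if T ⊆ S1 then w t else 0 := by
    intro t T hT _
    have e : S1 ∪ S2 ∪ T = (S1 ∪ T) ∪ S2 := union_right_comm _ _ _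
    rw [e]
    by_cases hTS : T ⊆ S1
    · rw [if_pos hTS, union_eq_left.mpr hTS, hw]
      ring
    · rw [if_neg hTS, add_zero]
      exact sub_eq_zero.mp (ih _ (by rw [← hn]; have := hcard1 T (h1 T hT) hTS; omega)
        (S1 ∪ T) S2 (union_subset hS1 (h1 T hT)) hS2
        (hV.trans (inter_subset_inter subset_union_left le_rfl)) rfl t)
  have hkey2 : ∀ t, ∀ T ∈ H2, ¬ Disjoint T S2 → al (H1 ∪ H2) M t (S1 ∪ S2 ∪ T) =
      al H2 M t (S2 ∪ T) * al H1 M t S1 + if T ⊆ S2 then w t else 0 := by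
    intro t T hT _
    have e : S1 ∪ S2 ∪ T = S1 ∪ (S2 ∪ T) := union_assoc _ _ _
    rw [e]
    by_cases hTS : T ⊆ S2
    · rw [if_pos hTS, union_eq_left.mpr hTS, hw]
      ring
    · rw [if_neg hTS, add_zero, mul_comm]
      exact sub_eq_zero.mp (ih _ (by rw [← hn]; have := hcard2 T (h2 T hT) hTS; omega)
        S1 (S2 ∪ T) hS1 (union_subset hS2 (h2 T hT))
        (hV.trans (inter_subset_inter le_rfl subset_union_left)) rfl t)
  have hsum : ∀ t, ∑ T ∈ H1 ∪ H2 with ¬ Disjoint T (S1 ∪ S2), al (H1 ∪ H2) M t (S1 ∪ S2 ∪ T) =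
      ((∑ T ∈ H1 with ¬ Disjoint T S1, al H1 M t (S1 ∪ T)) * al H2 M t S2 + n1 * w t) +
      ((∑ T ∈ H2 with ¬ Disjoint T S2, al H2 M t (S2 ∪ T)) * al H1 M t S1 + n2 * w t) := by
    intro t
    rw [filter_union, sum_union (disjoint_filter_filter hd), filter_congr hmeet1,
      filter_congr hmeet2, prod_half (hkey1 t), prod_half (hkey2 t)]
  apply prod_ode (c := n1 + n2)
  · intro t
    have d := (al_deriv (M := M) hH (S1 ∪ S2) t).sub
      ((al_deriv (M := M) hH1 S1 t).mul (al_deriv (M := M) hH2 S2 t))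
    have e : -((n1 + n2) * w t) = -∑ T ∈ H1 ∪ H2 with ¬ Disjoint T (S1 ∪ S2),
          al (H1 ∪ H2) M t (S1 ∪ S2 ∪ T) -
        ((-∑ T ∈ H1 with ¬ Disjoint T S1, al H1 M t (S1 ∪ T)) * al H2 M t S2 +
          al H1 M t S1 * (-∑ T ∈ H2 with ¬ Disjoint T S2, al H2 M t (S2 ∪ T))) := by
      rw [hsum t]
      ring
    rw [e]
    exact d
  · simp only [al_zero]
    by_cases a1 : S1 ⊆ M <;> by_cases a2 : S2 ⊆ M <;>
      simp [a1, a2, union_subset_iff]

end Vale.Agent.P046S
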