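import Vale.Agent.P046S.Local
import Vale.Agent.P046S.Prod

/-!
P046 sharp constant, module A6 (Closure): asymptotic independence of the branches at a point which is
not on a short cycle, and of far apart points.

Closure at `y`, triples `T ≠ T'` through `y`: let `H1, H2` be the sets of triples of `H` inside
`brV H y r T`, `brV H y r T'`, and `H3` those inside the other branches `brV H y r T0` (`T0 ∋ y`),
`Ht = H1 ∪ H2 ∪ H3`. Every triple of `H` that meets `nbh H (r - 1) (T ∪ T')` is in `Ht`. So by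
`al_diff_le`, `ds_local` the numbers `al H M t S` and `al Ht M t S` (`S = T ∪ T', T, T', {y}`) differ by
at most `5 (3 Λ t) ^ (r-1) / (r-1)!`, and for `Ht` the identity
`al (T ∪ T') * al {y} = al T * al T'` is exact by `al_prod` (used twice for each).
-/

namespace Vale.Agent.P046S

open Finset Vale.Agent.P046

variable {V : Type} [Fintype V] [DecidableEq V] {H : Finset (Finset V)} {M T T' : Finset V} {t : ℝ}

/-- the branch at `y` through `T`, up to distance `j` -/
def brV (H : Finset (Finset V)) (y : V) : ℕ → Finset V → Finset V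
  | 0, T => T
  | j + 1, T => brV H y j T ∪ (H.filter fun T' => ¬ Disjoint T' (brV H y j T \ {y})).biUnion id

/-- the branches at `y` are disjoint up to distance `r` -/
def TL (H : Finset (Finset V)) (y : V) (r : ℕ) : Prop :=
  ∀ T ∈ H, ∀ T' ∈ H, y ∈ T → y ∈ T' → T ≠ T' → brV H y r T ∩ brV H y r T' = {y}

theorem Closure_brV_succ (y : V) (j : ℕ) (T : Finset V) : brV H y j T ⊆ brV H y (j + 1) T :=
  Finset.subset_union_left

theorem Closure_brV_self (y : V) (j : ℕ) (T : Finset V) : T ⊆ brV H y j T := by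
  induction j with
  | zero => exact Finset.Subset.refl _
  | succ j ih => exact ih.trans (Closure_brV_succ y j T)

theorem Closure_nbh_brV {y : V} (hT : T ∈ H) (hy : y ∈ T) {x : V} (hx : x ∈ T) (j : ℕ) :
    ∀ z ∈ nbh H j {x}, ∃ U ∈ H, y ∈ U ∧ z ∈ brV H y j U := by
  induction j with
  | zero =>
    intro z hz
    have : z = x := by simpa [nbh] using hz
    subst this
    exact ⟨T, hT, hy, hx⟩
  | succ j ih =>
    intro z hz
    rcases Finset.mem_union.1 hz with h | h
    · obtain ⟨U, hU, hyU, hzU⟩ := ih z h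
      exact ⟨U, hU, hyU, Closure_brV_succ y j U hzU⟩
    · rw [Finset.mem_biUnion] at h
      obtain ⟨T0, hT0, hzT0⟩ := h
      rw [Finset.mem_filter] at hT0
      obtain ⟨hT0H, hdis⟩ := hT0
      rw [Finset.not_disjoint_iff] at hdis
      obtain ⟨w, hw1, hw2⟩ := hdis
      obtain ⟨U, hU, hyU, hwU⟩ := ih w hw2
      by_cases hwy : w = y
      · subst hwy
        exact ⟨T0, hT0H, hw1, Closure_brV_self w (j + 1) T0 hzT0⟩
      · refine ⟨U, hU, hyU, ?_⟩
        show z ∈ brV H y j U ∪ (H.filter fun T' => ¬ Disjoint T' (brV H y j U \ {y})).biUnion id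
        apply Finset.mem_union_right
        rw [Finset.mem_biUnion]
        refine ⟨T0, ?_, hzT0⟩
        rw [Finset.mem_filter]
        refine ⟨hT0H, ?_⟩
        rw [Finset.not_disjoint_iff]
        exact ⟨w, hw1, by simp [hwU, hwy]⟩

theorem Closure_triple_brV {y : V} (hT : T ∈ H) (hy : y ∈ T) {x : V} (hx : x ∈ T) (j : ℕ)
    {T0 : Finset V} (hT0 : T0 ∈ H) (hdis : ¬ Disjoint T0 (nbh H j {x})) :
    ∃ U ∈ H, y ∈ U ∧ T0 ⊆ brV H y (j + 1) U := by
  rw [Finset.not_disjoint_iff] at hdis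
  obtain ⟨w, hw1, hw2⟩ := hdis
  obtain ⟨U, hU, hyU, hwU⟩ := Closure_nbh_brV hT hy hx j w hw2
  by_cases hwy : w = y
  · subst hwy
    exact ⟨T0, hT0, hw1, Closure_brV_self w (j + 1) T0⟩
  · refine ⟨U, hU, hyU, ?_⟩
    intro z hz
    show z ∈ brV H y j U ∪ (H.filter fun T' => ¬ Disjoint T' (brV H y j U \ {y})).biUnion id
    apply Finset.mem_union_right
    rw [Finset.mem_biUnion]
    refine ⟨T0, ?_, hz⟩
    rw [Finset.mem_filter]
    refine ⟨hT0, ?_⟩
    rw [Finset.not_disjoint_iff]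
    exact ⟨w, hw1, by simp [hwU, hwy]⟩

theorem Closure_lin_mono {H' : Finset (Finset V)} (hH : IsLin3 H) (h : H' ⊆ H) : IsLin3 H' :=
  ⟨fun T hT => hH.card3 T (h hT), fun T hT T' hT' => hH.lin T (h hT) T' (h hT')⟩

theorem Closure_prod_y {Ha Hb : Finset (Finset V)} (hlin : IsLin3 (Ha ∪ Hb)) {y : V}
    {Va Vb Sa Sb : Finset V} (ha : ∀ T ∈ Ha, T ⊆ Va) (hb : ∀ T ∈ Hb, T ⊆ Vb)
    (hV : Va ∩ Vb ⊆ {y}) (hSa : Sa ⊆ Va) (hSb : Sb ⊆ Vb) (hya : y ∈ Sa) (hyb : y ∈ Sb) :
    al (Ha ∪ Hb) M t (Sa ∪ Sb) = al Ha M t Sa * al Hb M t Sb := by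
  apply al_prod hlin ha hb _ hSa hSb
  · intro z hz
    have := Finset.mem_singleton.1 (hV hz)
    subst this
    exact Finset.mem_inter.2 ⟨hya, hyb⟩
  · rw [Finset.disjoint_left]
    intro T0 h1 h2
    have h3 : T0 ⊆ {y} := (Finset.subset_inter (ha T0 h1) (hb T0 h2)).trans hV
    have h4 := Finset.card_le_card h3
    rw [hlin.card3 T0 (Finset.mem_union_left _ h1), Finset.card_singleton] at h4
    omega

/-- comparison with a part of the hypergraph -/
theorem Closure_compare {Λ : ℕ} (hH : IsLin3 H) (hΛ : ∀ x, (H.filter fun T => x ∈ T).card ≤ Λ)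
    {r : ℕ} {Ht : Finset (Finset V)} (hsub : Ht ⊆ H) (S : Finset V)
    (h : ∀ x ∈ S, ∀ T0 ∈ H, ¬ Disjoint T0 (nbh H r {x}) → T0 ∈ Ht) (ht : 0 ≤ t) :
    |al H M t S - al Ht M t S| ≤ S.card * ((3 * Λ * t) ^ r / (r.factorial : ℝ)) := by
  refine (al_diff_le ht S).trans ?_
  have hu : H ∪ Ht = H := Finset.union_eq_left.2 hsub
  calc ∑ x ∈ S, ds H Ht M M t x ≤ ∑ _x ∈ S, ((3 * Λ * t) ^ r / (r.factorial : ℝ)) := by
        apply Finset.sum_le_sum
        intro x hx
        apply ds_local (by rw [hu]; exact hH.card3) (by rw [hu]; exact hΛ) _ ht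
        intro T0 hT0
        rw [hu]
        by_contra hcon
        rcases Finset.mem_symmDiff.1 hT0 with ⟨h1, h2⟩ | ⟨h1, h2⟩
        · exact h2 (h x hx T0 h1 hcon)
        · exact h2 (hsub h1)
    _ = _ := by rw [Finset.sum_const, nsmul_eq_mul]

open Classical in
theorem closure {Λ : ℕ} (hH : IsLin3 H) (hΛ : ∀ x, (H.filter fun T => x ∈ T).card ≤ Λ) {r : ℕ}
    {y : V} (hTL : TL H y (r + 1)) (hT : T ∈ H) (hT' : T' ∈ H) (hy : y ∈ T) (hy' : y ∈ T')
    (hne : T ≠ T') (ht : 0 ≤ t) :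
    |al H M t (T ∪ T') * al H M t {y} - al H M t T * al H M t T'| ≤
      20 * ((3 * Λ * t) ^ r / (r.factorial : ℝ)) := by
  set δ : ℝ := (3 * Λ * t) ^ r / (r.factorial : ℝ) with hδ
  have hδ0 : 0 ≤ δ := by rw [hδ]; positivity
  set V1 := brV H y (r + 1) T with hV1
  set V2 := brV H y (r + 1) T' with hV2
  set V3 : Finset V := {y} ∪ (H.filter fun U => y ∈ U ∧ U ≠ T ∧ U ≠ T').biUnion
    (brV H y (r + 1)) with hV3
  set H1 := H.filter fun T0 => T0 ⊆ V1 with hH1
  set H2 := H.filter fun T0 => T0 ⊆ V2 with hH2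
  set H3 := H.filter fun T0 => ∃ U ∈ H, y ∈ U ∧ U ≠ T ∧ U ≠ T' ∧ T0 ⊆ brV H y (r + 1) U with hH3
  have hyV1 : y ∈ V1 := Closure_brV_self y (r + 1) T hy
  have hyV2 : y ∈ V2 := Closure_brV_self y (r + 1) T' hy'
  have hyV3 : y ∈ V3 := Finset.mem_union_left _ (Finset.mem_singleton_self y)
  have i12 : V1 ∩ V2 ⊆ {y} := (hTL T hT T' hT' hy hy' hne).subset
  have i13 : V1 ∩ V3 ⊆ {y} := by
    intro z hz
    rw [Finset.mem_inter] at hz
    rcases Finset.mem_union.1 hz.2 with h | h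
    · exact h
    · rw [Finset.mem_biUnion] at h
      obtain ⟨U, hU, hzU⟩ := h
      rw [Finset.mem_filter] at hU
      have := hTL T hT U hU.1 hy hU.2.1 (Ne.symm hU.2.2.1)
      rw [← this]
      exact Finset.mem_inter.2 ⟨hz.1, hzU⟩
  have i23 : V2 ∩ V3 ⊆ {y} := by
    intro z hz
    rw [Finset.mem_inter] at hz
    rcases Finset.mem_union.1 hz.2 with h | h
    · exact h
    · rw [Finset.mem_biUnion] at h
      obtain ⟨U, hU, hzU⟩ := h
      rw [Finset.mem_filter] at hU
      have := hTL T' hT' U hU.1 hy' hU.2.1 (Ne.symm hU.2.2.2)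
      rw [← this]
      exact Finset.mem_inter.2 ⟨hz.1, hzU⟩
  have i1 : V1 ∩ (V2 ∪ V3) ⊆ {y} := by
    rw [Finset.inter_union_distrib_left]
    exact Finset.union_subset i12 i13
  have i2 : V2 ∩ (V1 ∪ V3) ⊆ {y} := by
    rw [Finset.inter_union_distrib_left]
    refine Finset.union_subset ?_ i23
    rw [Finset.inter_comm]
    exact i12
  have s1 : ∀ T0 ∈ H1, T0 ⊆ V1 := fun T0 h => (Finset.mem_filter.1 h).2
  have s2 : ∀ T0 ∈ H2, T0 ⊆ V2 := fun T0 h => (Finset.mem_filter.1 h).2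
  have s3 : ∀ T0 ∈ H3, T0 ⊆ V3 := by
    intro T0 h
    obtain ⟨_, U, hU, hyU, hUT, hUT', hsub⟩ := Finset.mem_filter.1 h
    refine hsub.trans ?_
    intro z hz
    apply Finset.mem_union_right
    rw [Finset.mem_biUnion]
    exact ⟨U, Finset.mem_filter.2 ⟨hU, hyU, hUT, hUT'⟩, hz⟩
  have s23 : ∀ T0 ∈ H2 ∪ H3, T0 ⊆ V2 ∪ V3 := by
    intro T0 h
    rcases Finset.mem_union.1 h with h | h
    · exact (s2 T0 h).trans Finset.subset_union_left
    · exact (s3 T0 h).trans Finset.subset_union_right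
  have s13 : ∀ T0 ∈ H1 ∪ H3, T0 ⊆ V1 ∪ V3 := by
    intro T0 h
    rcases Finset.mem_union.1 h with h | h
    · exact (s1 T0 h).trans Finset.subset_union_left
    · exact (s3 T0 h).trans Finset.subset_union_right
  set Ht := H1 ∪ (H2 ∪ H3) with hHt
  have hH1s : H1 ⊆ H := Finset.filter_subset _ _
  have hH2s : H2 ⊆ H := Finset.filter_subset _ _
  have hH3s : H3 ⊆ H := Finset.filter_subset _ _
  have hHts : Ht ⊆ H := Finset.union_subset hH1s (Finset.union_subset hH2s hH3s)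
  have hHt' : Ht = H2 ∪ (H1 ∪ H3) := by
    rw [hHt, Finset.union_left_comm]
  have l0 : IsLin3 (H1 ∪ (H2 ∪ H3)) := Closure_lin_mono hH hHts
  have l0' : IsLin3 (H2 ∪ (H1 ∪ H3)) := by rw [← hHt']; exact l0
  have l23 : IsLin3 (H2 ∪ H3) := Closure_lin_mono hH (Finset.union_subset hH2s hH3s)
  have l13 : IsLin3 (H1 ∪ H3) := Closure_lin_mono hH (Finset.union_subset hH1s hH3s)
  have hTV1 : T ⊆ V1 := Closure_brV_self y (r + 1) T
  have hTV2 : T' ⊆ V2 := Closure_brV_self y (r + 1) T'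
  have uT : T ∪ {y} = T := Finset.union_eq_left.2 (Finset.singleton_subset_iff.2 hy)
  have uT' : T' ∪ {y} = T' := Finset.union_eq_left.2 (Finset.singleton_subset_iff.2 hy')
  have uy : ({y} : Finset V) ∪ {y} = {y} := Finset.union_self _
  have yy : y ∈ ({y} : Finset V) := Finset.mem_singleton_self y
  have sy1 : ({y} : Finset V) ⊆ V1 := Finset.singleton_subset_iff.2 hyV1
  have sy2 : ({y} : Finset V) ⊆ V2 := Finset.singleton_subset_iff.2 hyV2
  have sy3 : ({y} : Finset V) ⊆ V3 := Finset.singleton_subset_iff.2 hyV3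
  -- exact identities for `Ht`
  have e1 : al Ht M t (T ∪ T') = al H1 M t T * al (H2 ∪ H3) M t T' :=
    Closure_prod_y l0 s1 s23 i1 hTV1 (hTV2.trans Finset.subset_union_left) hy hy'
  have e2 : al (H2 ∪ H3) M t T' = al H2 M t T' * al H3 M t {y} := by
    have := Closure_prod_y (M := M) (t := t) l23 s2 s3 i23 hTV2 sy3 hy' yy
    rwa [uT'] at this
  have e3 : al (H2 ∪ H3) M t {y} = al H2 M t {y} * al H3 M t {y} := by
    have := Closure_prod_y (M := M) (t := t) l23 s2 s3 i23 sy2 sy3 yy yy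
    rwa [uy] at this
  have e4 : al Ht M t {y} = al H1 M t {y} * al (H2 ∪ H3) M t {y} := by
    have := Closure_prod_y (M := M) (t := t) l0 s1 s23 i1 sy1
      (sy2.trans Finset.subset_union_left) yy yy
    rwa [uy] at this
  have e5 : al Ht M t T = al H1 M t T * al (H2 ∪ H3) M t {y} := by
    have := Closure_prod_y (M := M) (t := t) l0 s1 s23 i1 hTV1
      (sy2.trans Finset.subset_union_left) hy yy
    rwa [uT] at this
  have e6 : al (H1 ∪ H3) M t {y} = al H1 M t {y} * al H3 M t {y} := by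
    have := Closure_prod_y (M := M) (t := t) l13 s1 s3 i13 sy1 sy3 yy yy
    rwa [uy] at this
  have e7 : al Ht M t T' = al H2 M t T' * al (H1 ∪ H3) M t {y} := by
    rw [hHt']
    have := Closure_prod_y (M := M) (t := t) l0' s2 s13 i2 hTV2
      (sy1.trans Finset.subset_union_left) hy' yy
    rwa [uT'] at this
  have hex : al Ht M t (T ∪ T') * al Ht M t {y} = al Ht M t T * al Ht M t T' := by
    rw [e1, e4, e5, e7, e2, e3, e6]
    ring
  -- comparison
  have hmem : ∀ T1 ∈ H, y ∈ T1 → ∀ x ∈ T1, ∀ T0 ∈ H, ¬ Disjoint T0 (nbh H r {x}) → T0 ∈ Ht := by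
    intro T1 hT1 hy1 x hx T0 hT0 hdis
    obtain ⟨U, hU, hyU, hsub⟩ := Closure_triple_brV hT1 hy1 hx r hT0 hdis
    by_cases h1 : U = T
    · subst h1
      exact Finset.mem_union_left _ (Finset.mem_filter.2 ⟨hT0, hsub⟩)
    · by_cases h2 : U = T'
      · subst h2
        exact Finset.mem_union_right _ (Finset.mem_union_left _ (Finset.mem_filter.2 ⟨hT0, hsub⟩))
      · exact Finset.mem_union_right _ (Finset.mem_union_right _
          (Finset.mem_filter.2 ⟨hT0, U, hU, hyU, h1, h2, hsub⟩))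
  have c1 : |al H M t (T ∪ T') - al Ht M t (T ∪ T')| ≤ 6 * δ := by
    have := Closure_compare (M := M) hH hΛ hHts (T ∪ T') (r := r) (fun x hx => by
      rcases Finset.mem_union.1 hx with h | h
      · exact hmem T hT hy x h
      · exact hmem T' hT' hy' x h) ht
    refine this.trans ?_
    have hc : (((T ∪ T').card : ℕ) : ℝ) ≤ 6 := by
      have h1 := Finset.card_union_le T T'
      rw [hH.card3 T hT, hH.card3 T' hT'] at h1
      exact_mod_cast h1
    exact mul_le_mul_of_nonneg_right hc hδ0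
  have c2 : |al H M t {y} - al Ht M t {y}| ≤ δ := by
    have := Closure_compare (M := M) hH hΛ hHts {y} (r := r) (fun x hx => by
      rw [Finset.mem_singleton] at hx
      subst hx
      exact hmem T hT hy x hy) ht
    rw [Finset.card_singleton, Nat.cast_one, one_mul] at this
    exact this
  have c3 : |al H M t T - al Ht M t T| ≤ 3 * δ := by
    have := Closure_compare (M := M) hH hΛ hHts T (r := r) (fun x hx => hmem T hT hy x hx) ht
    rw [hH.card3 T hT, show ((3 : ℕ) : ℝ) = 3 from by norm_num] at this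
    exact this
  have c4 : |al H M t T' - al Ht M t T'| ≤ 3 * δ := by
    have := Closure_compare (M := M) hH hΛ hHts T' (r := r) (fun x hx => hmem T' hT' hy' x hx) ht
    rw [hH.card3 T' hT', show ((3 : ℕ) : ℝ) = 3 from by norm_num] at this
    exact this
  have b0 : ∀ S, 0 ≤ al H M t S := fun S => al_nonneg ht
  have b1 : ∀ S, al H M t S ≤ 1 := fun S => al_le_one ht
  have d0 : ∀ S, 0 ≤ al Ht M t S := fun S => al_nonneg ht
  have d1 : ∀ S, al Ht M t S ≤ 1 := fun S => al_le_one ht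
  have key : ∀ a b a' b' u v : ℝ, 0 ≤ b → b ≤ 1 → 0 ≤ a' → a' ≤ 1 → |a - a'| ≤ u → |b - b'| ≤ v →
      |a * b - a' * b'| ≤ u + v := by
    intro a b a' b' u v h1 h2 h3 h4 h5 h6
    have h7 : a * b - a' * b' = (a - a') * b + a' * (b - b') := by ring
    rw [h7]
    refine (abs_add_le _ _).trans ?_
    rw [abs_mul, abs_mul, abs_of_nonneg h1, abs_of_nonneg h3]
    have h8 : |a - a'| * b ≤ |a - a'| * 1 := mul_le_mul_of_nonneg_left h2 (abs_nonneg _)
    have h9 : a' * |b - b'| ≤ 1 * |b - b'| := mul_le_mul_of_nonneg_right h4 (abs_nonneg _)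
    linarith
  have k1 := key _ _ _ _ _ _ (b0 {y}) (b1 {y}) (d0 (T ∪ T')) (d1 (T ∪ T')) c1 c2
  have k2 := key _ _ _ _ _ _ (b0 T') (b1 T') (d0 T) (d1 T) c3 c4
  have h5 : al H M t (T ∪ T') * al H M t {y} - al H M t T * al H M t T' =
      (al H M t (T ∪ T') * al H M t {y} - al Ht M t (T ∪ T') * al Ht M t {y}) -
      (al H M t T * al H M t T' - al Ht M t T * al Ht M t T') := by
    rw [hex]
    ring
  rw [h5]
  refine (abs_sub _ _).trans ?_
  linarith

theorem Closure_al_empty {H' : Finset (Finset V)} : al H' M t ∅ = 1 := by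
  unfold al Et
  simp only [Finset.empty_subset, if_true]
  exact (Pt_semi H' (kl H')).one t M

open Classical in
theorem decorr {Λ : ℕ} (hH : IsLin3 H) (hΛ : ∀ x, (H.filter fun T => x ∈ T).card ≤ Λ) {r : ℕ}
    {x y : V} (hd : Disjoint (nbh H (r + 1) {x}) (nbh H (r + 1) {y})) (ht : 0 ≤ t) :
    |al H M t {x, y} - al H M t {x} * al H M t {y}| ≤
      10 * ((3 * Λ * t) ^ r / (r.factorial : ℝ)) := by
  set δ : ℝ := (3 * Λ * t) ^ r / (r.factorial : ℝ) with hδ
  have hδ0 : 0 ≤ δ := by rw [hδ]; positivity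
  set V1 := nbh H (r + 1) {x} with hV1
  set V2 := nbh H (r + 1) {y} with hV2
  set H1 := H.filter fun T0 => T0 ⊆ V1 with hH1
  set H2 := H.filter fun T0 => T0 ⊆ V2 with hH2
  have hself : ∀ (j : ℕ) (z : V), z ∈ nbh H j {z} := by
    intro j z
    induction j with
    | zero => exact Finset.mem_singleton_self z
    | succ j ih => exact Finset.mem_union_left _ ih
  have s1 : ∀ T0 ∈ H1, T0 ⊆ V1 := fun T0 h => (Finset.mem_filter.1 h).2
  have s2 : ∀ T0 ∈ H2, T0 ⊆ V2 := fun T0 h => (Finset.mem_filter.1 h).2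
  have hHts : H1 ∪ H2 ⊆ H := Finset.union_subset (Finset.filter_subset _ _)
    (Finset.filter_subset _ _)
  have l0 : IsLin3 (H1 ∪ H2) := Closure_lin_mono hH hHts
  have hi : V1 ∩ V2 = ∅ := Finset.disjoint_iff_inter_eq_empty.1 hd
  have hdis : Disjoint H1 H2 := by
    rw [Finset.disjoint_left]
    intro T0 h1 h2
    have h3 : T0 ⊆ V1 ∩ V2 := Finset.subset_inter (s1 T0 h1) (s2 T0 h2)
    rw [hi] at h3
    have h4 := Finset.card_le_card h3
    rw [l0.card3 T0 (Finset.mem_union_left _ h1), Finset.card_empty] at h4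
    omega
  have hx1 : ({x} : Finset V) ⊆ V1 := Finset.singleton_subset_iff.2 (hself _ x)
  have hy2 : ({y} : Finset V) ⊆ V2 := Finset.singleton_subset_iff.2 (hself _ y)
  have hV : V1 ∩ V2 ⊆ ∅ := hi.subset
  have e1 : al (H1 ∪ H2) M t {x, y} = al H1 M t {x} * al H2 M t {y} := by
    have := al_prod (M := M) l0 s1 s2 hdis hx1 hy2 (hV.trans (Finset.empty_subset _)) t
    exact this
  have e2 : al (H1 ∪ H2) M t {x} = al H1 M t {x} := by
    have := al_prod (M := M) l0 s1 s2 hdis hx1 (Finset.empty_subset V2)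
      (hV.trans (Finset.empty_subset _)) t
    rwa [Closure_al_empty, mul_one, Finset.union_empty] at this
  have e3 : al (H1 ∪ H2) M t {y} = al H2 M t {y} := by
    have := al_prod (M := M) l0 s1 s2 hdis (Finset.empty_subset V1) hy2
      (hV.trans (Finset.empty_subset _)) t
    rwa [Closure_al_empty, one_mul, Finset.empty_union] at this
  have hmem : ∀ z : V, ∀ T0 ∈ H, ¬ Disjoint T0 (nbh H r {z}) → T0 ⊆ nbh H (r + 1) {z} := by
    intro z T0 hT0 hdis w hw
    show w ∈ nbh H r {z} ∪ (H.filter fun T => ¬ Disjoint T (nbh H r {z})).biUnion id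
    apply Finset.mem_union_right
    rw [Finset.mem_biUnion]
    exact ⟨T0, Finset.mem_filter.2 ⟨hT0, hdis⟩, hw⟩
  have hmx : ∀ T0 ∈ H, ¬ Disjoint T0 (nbh H r {x}) → T0 ∈ H1 ∪ H2 := fun T0 h1 h2 =>
    Finset.mem_union_left _ (Finset.mem_filter.2 ⟨h1, hmem x T0 h1 h2⟩)
  have hmy : ∀ T0 ∈ H, ¬ Disjoint T0 (nbh H r {y}) → T0 ∈ H1 ∪ H2 := fun T0 h1 h2 =>
    Finset.mem_union_right _ (Finset.mem_filter.2 ⟨h1, hmem y T0 h1 h2⟩)
  have c1 : |al H M t {x, y} - al (H1 ∪ H2) M t {x, y}| ≤ 2 * δ := by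
    have := Closure_compare (M := M) hH hΛ hHts {x, y} (r := r) (fun z hz => by
      rcases Finset.mem_insert.1 hz with h | h
      · rw [h]; exact hmx
      · rw [Finset.mem_singleton] at h
        rw [h]; exact hmy) ht
    refine this.trans ?_
    have hc : ((({x, y} : Finset V).card : ℕ) : ℝ) ≤ 2 := by
      exact_mod_cast Finset.card_le_two
    exact mul_le_mul_of_nonneg_right hc hδ0
  have c2 : |al H M t {x} - al (H1 ∪ H2) M t {x}| ≤ δ := by
    have := Closure_compare (M := M) hH hΛ hHts {x} (r := r) (fun z hz => by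
      rw [Finset.mem_singleton] at hz
      rw [hz]; exact hmx) ht
    rw [Finset.card_singleton, Nat.cast_one, one_mul] at this
    exact this
  have c3 : |al H M t {y} - al (H1 ∪ H2) M t {y}| ≤ δ := by
    have := Closure_compare (M := M) hH hΛ hHts {y} (r := r) (fun z hz => by
      rw [Finset.mem_singleton] at hz
      rw [hz]; exact hmy) ht
    rw [Finset.card_singleton, Nat.cast_one, one_mul] at this
    exact this
  have b0 : 0 ≤ al H M t {y} := al_nonneg ht
  have b1 : al H M t {y} ≤ 1 := al_le_one ht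
  have d0 : 0 ≤ al (H1 ∪ H2) M t {x} := al_nonneg ht
  have d1 : al (H1 ∪ H2) M t {x} ≤ 1 := al_le_one ht
  have h7 : al H M t {x, y} - al H M t {x} * al H M t {y} =
      (al H M t {x, y} - al (H1 ∪ H2) M t {x, y}) -
        ((al H M t {x} - al (H1 ∪ H2) M t {x}) * al H M t {y} +
          al (H1 ∪ H2) M t {x} * (al H M t {y} - al (H1 ∪ H2) M t {y})) := by
    have : al (H1 ∪ H2) M t {x, y} = al (H1 ∪ H2) M t {x} * al (H1 ∪ H2) M t {y} := by
      rw [e1, e2, e3]
    rw [this]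
    ring
  rw [h7]
  refine (abs_sub _ _).trans ?_
  have h8 : |(al H M t {x} - al (H1 ∪ H2) M t {x}) * al H M t {y} +
      al (H1 ∪ H2) M t {x} * (al H M t {y} - al (H1 ∪ H2) M t {y})| ≤ δ + δ := by
    refine (abs_add_le _ _).trans ?_
    rw [abs_mul, abs_mul, abs_of_nonneg b0, abs_of_nonneg d0]
    have h8 : |al H M t {x} - al (H1 ∪ H2) M t {x}| * al H M t {y} ≤ δ * 1 :=
      mul_le_mul c2 b1 b0 hδ0
    have h9 : al (H1 ∪ H2) M t {x} * |al H M t {y} - al (H1 ∪ H2) M t {y}| ≤ 1 * δ :=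
      mul_le_mul d1 c3 (abs_nonneg _) zero_le_one
    linarith
  linarith

end Vale.Agent.P046S
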