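import Vale.Agent.P046S.Closure

/-!
P046 sharp constant: definition of cycle supports.
-/

namespace Vale.Agent.P046S

open Finset Vale.Agent.P046

variable {V : Type} [DecidableEq V]

/-- `P` is the support of a cycle of `ℓ` triples: a closed walk `x 0, x 1, ..., x ℓ = x 0` of points,
consecutive ones different and in a common triple `T i`, with `P = ⋃ T i` and `card P = 2 ℓ` -/
def CW (H : Finset (Finset V)) (ℓ : ℕ) (P : Finset V) : Prop :=
  ∃ (x : ℕ → V) (T : ℕ → Finset V), x ℓ = x 0 ∧
    (∀ i, i < ℓ → T i ∈ H ∧ x i ∈ T i ∧ x (i + 1) ∈ T i ∧ x i ≠ x (i + 1)) ∧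
    P = (range ℓ).biUnion T ∧ P.card = 2 * ℓ

open Classical in
/-- the supports of `ℓ`-cycles inside `M` -/
noncomputable def CPs (H : Finset (Finset V)) (M : Finset V) (ℓ : ℕ) : Finset (Finset V) :=
  M.powerset.filter fun P => CW H ℓ P

/-- number of supports of cycles of length at most `r` which avoid `L` -/
noncomputable def nCy (H : Finset (Finset V)) (M L : Finset V) (r : ℕ) : ℝ :=
  ∑ ℓ ∈ Finset.range (r + 1), (((CPs H M ℓ).filter fun P => 1 ≤ ℓ ∧ Disjoint P L).card : ℝ)

end Vale.Agent.P046S
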