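import Vale.Agent.P046S.DDef

/-!
P046 sharp constant, module D0: abstract induction for potentials with auxiliary history.
-/

namespace Vale.Agent.P046S

open Finset Vale.Agent.P046 Vale.Agent.P046LF

variable {V : Type} [DecidableEq V] {H : Finset (Finset V)} {M : Finset V}

theorem cost_le_abs {Aux : Type} (upd : Finset V → Aux → Finset V → Aux)
    (Pot : Finset V → Aux → ℝ) (Inv : Finset V → Aux → Prop) {g : Finset V → ℝ} {μ : ℝ}
    (hH : IsLin3 H) (hg1 : ∀ M, g M ≤ 1)
    (hterm : ∀ M a, (M.card : ℝ) = μ → Inv M a → g M ≤ Pot M a)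
    (hstep : ∀ M a, μ + 3 ≤ (M.card : ℝ) → Inv M a → 1 ≤ Pot M a ∨ ((sub H M).Nonempty ∧
      (∀ T ∈ sub H M, Inv (M \ T) (upd M a T)) ∧
      ∑ T ∈ sub H M, Pot (M \ T) (upd M a T) ≤ (sub H M).card * Pot M a)) (k : ℕ) :
    ∀ M a, (M.card : ℝ) = μ + 3 * k → Inv M a → cost H g k M ≤ Pot M a := by
  induction k with
  | zero =>
    intro M a hM hI
    unfold cost
    exact hterm M a (by rw [hM]; simp) hI
  | succ k ih =>
    intro M a hM hI
    have hk0 : (0 : ℝ) ≤ k := Nat.cast_nonneg k
    push_cast at hM
    rcases hstep M a (by rw [hM]; linarith) hI with h | ⟨hne, hI', hsum⟩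
    · exact (cost_le_one hg1 _ _).trans h
    · have hc : 0 < ((sub H M).card : ℝ) := by exact_mod_cast card_pos.2 hne
      rw [cost, if_neg hne.ne_empty, div_le_iff₀ hc]
      refine (Finset.sum_le_sum fun T hT => ?_).trans (hsum.trans (le_of_eq (mul_comm _ _)))
      have h3 := card_sdiff_of_mem hH hT
      have h4 : ((M \ T).card : ℝ) + 3 = M.card := by exact_mod_cast h3
      exact ih (M \ T) (upd M a T) (by linarith) (hI' T hT)

/-- only subsets of the initial state matter -/
theorem cost_mono_sub {g g' : Finset V → ℝ} (k : ℕ) (M : Finset V)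
    (h : ∀ M' ⊆ M, g M' ≤ g' M') : cost H g k M ≤ cost H g' k M := by
  induction k generalizing M with
  | zero =>
    unfold cost
    exact h M (Finset.Subset.refl M)
  | succ k ih =>
    rw [cost, cost]
    split_ifs with h0
    · exact le_rfl
    · refine div_le_div_of_nonneg_right (Finset.sum_le_sum fun T _ => ?_) (Nat.cast_nonneg _)
      exact ih (M \ T) fun M' hM' => h M' (hM'.trans sdiff_subset)

/-- the same, using also that the final state has `3 k` points less -/
theorem cost_mono_card (hH : IsLin3 H) {g g' : Finset V → ℝ} (k : ℕ) (M : Finset V)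
    (h : ∀ M' ⊆ M, M'.card + 3 * k = M.card → g M' ≤ g' M') : cost H g k M ≤ cost H g' k M := by
  induction k generalizing M with
  | zero =>
    unfold cost
    exact h M (Finset.Subset.refl M) rfl
  | succ k ih =>
    rw [cost, cost]
    split_ifs with h0
    · exact le_rfl
    · refine div_le_div_of_nonneg_right (Finset.sum_le_sum fun T hT => ?_) (Nat.cast_nonneg _)
      have h3 := card_sdiff_of_mem hH hT
      exact ih (M \ T) fun M' hM' hc => h M' (hM'.trans sdiff_subset) (by omega)

/-- composition of two runs -/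
theorem cost_comp (hH : IsLin3 H) {g g1 : Finset V → ℝ} {L : ℝ} (hL : 0 ≤ L) (hg1 : ∀ M, g M ≤ 1)
    (k k' : ℕ) (M : Finset V)
    (h : ∀ M' ⊆ M, M'.card + 3 * k = M.card → cost H g k' M' ≤ g1 M' + L) :
    cost H g (k' + k) M ≤ cost H g1 k M + L := by
  induction k generalizing M with
  | zero =>
    rw [Nat.add_zero]
    refine (h M (Finset.Subset.refl M) rfl).trans ?_
    rw [cost]
  | succ k ih =>
    rw [← Nat.add_assoc, cost, cost]
    split_ifs with h0
    · linarith
    · have hc : 0 < ((sub H M).card : ℝ) := by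
        exact_mod_cast card_pos.2 (nonempty_iff_ne_empty.2 h0)
      have h1 : ∀ T ∈ sub H M, cost H g (k' + k) (M \ T) ≤ cost H g1 k (M \ T) + L := by
        intro T hT
        have h3 := card_sdiff_of_mem hH hT
        exact ih (M \ T) fun M' hM' hc' => h M' (hM'.trans sdiff_subset) (by omega)
      have h2 := Finset.sum_le_sum h1
      rw [Finset.sum_add_distrib, Finset.sum_const, nsmul_eq_mul] at h2
      rw [div_le_iff₀ hc, add_mul, div_mul_cancel₀ _ hc.ne']
      linarith

end Vale.Agent.P046S
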