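import Vale.Agent.P046S.DDef
import Vale.Agent.P046LF.S4

/-!
P046 sharp constant, module D1: one step for the exponential tails (compare with `S4.lean`).

`xe` is monotone and degrees decrease, so the left hand side is at most
`∑_x (Q - d x) xe (r θ)`, `r = D / D'`, `0 ≤ r - 1 ≤ 8 / m`, `θ = d / D`, `d / Q ≥ (3/m) 0.99 θ`.
`(r - 1) θ / 8 ≤ θ / m` is tiny (`hdeg`), so `xe (r θ) ≤ xe θ + 1.01 (θ / m) e^{θ/8} 1{r θ > 4}`, and
`e^{θ/8} ≤ xe θ + e^{1/2}`. Total `≤ Q (XX - (3/m) 0.65 ∑ θ xe θ + (3/m) 0.57 ∑ θ 1{θ > 3.9})`;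
`θ ≥ 4` where `xe θ > 0`; `θ ≤ ff (θ - ν)` for `θ ≥ 3.9`, `|ν| ≤ 1/4`.
-/

namespace Vale.Agent.P046S

open Finset Vale.Agent.P046 Vale.Agent.P046LF

variable {V : Type} [DecidableEq V] {H : Finset (Finset V)} {M : Finset V} {N : V → ℝ}
  {κ S S' m Q u D D' K : ℝ}

theorem d1_xe_nonneg (θ : ℝ) : 0 ≤ xe θ := le_max_right _ _

theorem d1_xe_mono {a b : ℝ} (hab : a ≤ b) : xe a ≤ xe b := by
  unfold xe
  apply max_le_max _ le_rfl
  have : Real.exp (a / 8) ≤ Real.exp (b / 8) := Real.exp_le_exp.2 (by linarith)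
  linarith

theorem d1_xe_small {θ : ℝ} (h : θ ≤ 4) : xe θ = 0 := by
  unfold xe
  apply max_eq_right
  have : Real.exp (θ / 8) ≤ Real.exp (1 / 2) := Real.exp_le_exp.2 (by linarith)
  linarith

theorem d1_xe_large {θ : ℝ} (h : 4 ≤ θ) : xe θ = Real.exp (θ / 8) - Real.exp (1 / 2) := by
  unfold xe
  apply max_eq_left
  have : Real.exp (1 / 2) ≤ Real.exp (θ / 8) := Real.exp_le_exp.2 (by linarith)
  linarith

theorem d1_exp_small {x : ℝ} (h0 : 0 ≤ x) (h1 : x ≤ 1 / 1000) :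
    Real.exp x ≤ 1 + 101 / 100 * x := by
  have h2 := Real.exp_bound_div_one_sub_of_interval h0 (by linarith : x < 1)
  refine h2.trans ?_
  rw [div_le_iff₀ (by linarith)]
  nlinarith

theorem d1_exp_half : Real.exp (1 / 2) ≤ 17 / 10 := by
  have h1 : Real.exp (1 / 2) ^ 2 = Real.exp 1 := by
    rw [← Real.exp_nat_mul]
    norm_num
  have h2 := Real.exp_one_lt_d9
  have h3 := Real.exp_pos (1 / 2)
  nlinarith

/-- pointwise inequality behind `step_X` -/
theorem d1_point {m r θ ν u : ℝ} (hm : 10 ^ 18 ≤ m) (hr1 : 1 ≤ r) (hr : r - 1 ≤ 8 / m)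
    (hu : 2 / u ≤ 2 / 1000) (hθ : 0 ≤ θ) (hθm : θ / m ≤ 1 / 1000) (hν : |ν| ≤ 1 / 4) :
    xe (r * θ) ≤ xe θ + 3 / m * ((1 - 2 / u) * (θ * xe θ)) -
      3 / m * (3 / 2 * xe θ) + 3 / m * (2 * ff (θ - ν)) := by
  have hm0 : 0 < m := by linarith
  have hxe := d1_xe_nonneg θ
  have hff := ff_nonneg (θ - ν)
  have h3 : 0 < 3 / m := by positivity
  have hE := Real.exp_pos (1 / 2)
  have hE2 := d1_exp_half
  by_cases h4 : r * θ ≤ 4
  · have hrθ : θ ≤ r * θ := by nlinarith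
    rw [d1_xe_small h4, d1_xe_small (hrθ.trans h4)]
    have h5 : 0 ≤ 3 / m * (2 * ff (θ - ν)) := by positivity
    linarith
  push Not at h4
  have hm8 : 8 / m ≤ 1 / 1000 := by
    rw [div_le_div_iff₀ hm0 (by norm_num)]
    linarith
  have hθ39 : 39 / 10 ≤ θ := by
    by_contra hc
    push Not at hc
    have h5 : r ≤ 1001 / 1000 := by linarith
    have : r * θ ≤ 1001 / 1000 * (39 / 10) := mul_le_mul h5 hc.le hθ (by norm_num)
    linarith
  -- `θ ≤ ff (θ - ν)`
  have hθff : θ ≤ ff (θ - ν) := by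
    have hν2 := (abs_le.1 hν).2
    have h7 := sq_le_ff' (show 0 ≤ θ - ν by linarith)
    have h8 : (θ - 5 / 4) ^ 2 ≤ (θ - ν - 1) ^ 2 := by
      apply pow_le_pow_left₀ (by linarith)
      linarith
    nlinarith
  -- the increment
  have hinc : xe (r * θ) ≤ xe θ + 101 / 100 * (θ / m) * (xe θ + Real.exp (1 / 2)) := by
    rw [d1_xe_large h4.le]
    have hδ : (r - 1) * θ / 8 ≤ θ / m := by
      have h5 : (r - 1) * θ ≤ 8 / m * θ := mul_le_mul_of_nonneg_right hr hθ
      have h6 : 8 / m * θ = 8 * (θ / m) := by ring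
      linarith
    have hδ0 : 0 ≤ (r - 1) * θ / 8 := by
      have : 0 ≤ (r - 1) * θ := mul_nonneg (by linarith) hθ
      linarith
    by_cases hθ4 : 4 ≤ θ
    · rw [d1_xe_large hθ4]
      have h5 : Real.exp (r * θ / 8) = Real.exp (θ / 8) * Real.exp ((r - 1) * θ / 8) := by
        rw [← Real.exp_add]
        congr 1
        ring
      have h6 := d1_exp_small hδ0 (hδ.trans hθm)
      have h7 := Real.exp_pos (θ / 8)
      have h8 : Real.exp (r * θ / 8) ≤ Real.exp (θ / 8) * (1 + 101 / 100 * (θ / m)) := by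
        rw [h5]
        apply mul_le_mul_of_nonneg_left _ h7.le
        linarith
      linarith
    · push Not at hθ4
      rw [d1_xe_small hθ4.le]
      have h5 : Real.exp (r * θ / 8) = Real.exp (1 / 2) * Real.exp ((r * θ - 4) / 8) := by
        rw [← Real.exp_add]
        congr 1
        ring
      have h6 : (r * θ - 4) / 8 ≤ θ / m := by linarith
      have h7 := d1_exp_small (by linarith : 0 ≤ (r * θ - 4) / 8) (h6.trans hθm)
      have h8 : Real.exp (r * θ / 8) ≤ Real.exp (1 / 2) * (1 + 101 / 100 * (θ / m)) := by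
        rw [h5]
        apply mul_le_mul_of_nonneg_left _ hE.le
        linarith
      linarith
  have hfin : 101 / 100 * (θ / m) * (xe θ + Real.exp (1 / 2)) ≤
      3 / m * ((1 - 2 / u) * (θ * xe θ)) -
      3 / m * (3 / 2 * xe θ) + 3 / m * (2 * ff (θ - ν)) := by
    have h5 : 101 / 100 * θ * (xe θ + Real.exp (1 / 2)) ≤
        3 * ((1 - 2 / u) * (θ * xe θ)) - 3 * (3 / 2 * xe θ) + 3 * (2 * ff (θ - ν)) := by
      have h6 : 998 / 1000 * (θ * xe θ) ≤ (1 - 2 / u) * (θ * xe θ) :=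
        mul_le_mul_of_nonneg_right (by linarith) (mul_nonneg hθ hxe)
      have h7 : 39 / 10 * xe θ ≤ θ * xe θ := mul_le_mul_of_nonneg_right hθ39 hxe
      have h8 : θ * Real.exp (1 / 2) ≤ θ * (17 / 10) := mul_le_mul_of_nonneg_left hE2 hθ
      linarith
    have h9 := div_le_div_of_nonneg_right h5 hm0.le
    have e1 : 101 / 100 * θ * (xe θ + Real.exp (1 / 2)) / m =
      101 / 100 * (θ / m) * (xe θ + Real.exp (1 / 2)) := by ring
    have e2 : (3 * ((1 - 2 / u) * (θ * xe θ)) - 3 * (3 / 2 * xe θ) + 3 * (2 * ff (θ - ν))) / m =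
      3 / m * ((1 - 2 / u) * (θ * xe θ)) -
      3 / m * (3 / 2 * xe θ) + 3 / m * (2 * ff (θ - ν)) := by ring
    rw [e1, e2] at h9
    exact h9
  linarith

theorem step_X (g : GS H M N κ S S' m Q u D D' K) :
    ∑ T ∈ sub H M, XX H (M \ T) D' ≤
      Q * (XX H M D - 3 / m * (3 / 2 * XX H M D) + 3 / m * (2 * WW H M N D)) := by
  have hD := g.D_pos
  have hD' := g.D'_pos
  have hQ := g.Q_pos
  have hm := g.m_pos
  have hr1 : 1 ≤ D / D' := by
    rw [le_div_iff₀ hD', one_mul]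
    exact g.D'_hi
  -- step 1: compare with the old degrees
  have h1 : ∀ T ∈ sub H M, XX H (M \ T) D' ≤
      ∑ x ∈ M \ T, xe (D / D' * ((deg H M x : ℝ) / D)) := by
    intro T _
    unfold XX
    refine Finset.sum_le_sum fun x _ => ?_
    apply d1_xe_mono
    have e : D / D' * ((deg H M x : ℝ) / D) = (deg H M x : ℝ) / D' := by
      field_simp
    rw [e]
    apply div_le_div_of_nonneg_right _ hD'.le
    rw [g.deg_next T x]
    have : (0 : ℝ) ≤ dl H M T x := Nat.cast_nonneg _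
    linarith
  refine (Finset.sum_le_sum h1).trans ?_
  rw [sum_sdiff_eq, g.hQ]
  -- step 2: pointwise
  have h2 : ∀ x ∈ M, (Q - (deg H M x : ℝ)) * xe (D / D' * ((deg H M x : ℝ) / D)) ≤
      Q * (xe ((deg H M x : ℝ) / D) -
        3 / m * (3 / 2 * xe ((deg H M x : ℝ) / D)) +
        3 / m * (2 * ff ((deg H M x : ℝ) / D - N x))) := by
    intro x hx
    have hθ := g.theta_nonneg x
    have hθm : (deg H M x : ℝ) / D / m ≤ 1 / 1000 := by
      have h3 := g.hdeg x hx
      have h4 := g.D_big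
      have h5 : (1 : ℝ) ≤ u ^ 2 := by
        have := g.hu
        nlinarith
      have h6 : (deg H M x : ℝ) ≤ m := by
        have h7 : (0 : ℝ) ≤ (deg H M x : ℝ) := Nat.cast_nonneg _
        nlinarith
      rw [div_div, div_le_div_iff₀ (by positivity) (by norm_num)]
      nlinarith
    have hp := d1_point (ν := N x) g.m_big hr1 g.r_hi g.two_div_u hθ hθm (g.hN x hx)
    have hmono : xe ((deg H M x : ℝ) / D) ≤ xe (D / D' * ((deg H M x : ℝ) / D)) := by
      apply d1_xe_mono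
      nlinarith
    have hdq : Q * (3 / m * ((1 - 2 / u) * ((deg H M x : ℝ) / D * xe ((deg H M x : ℝ) / D)))) ≤
        (deg H M x : ℝ) * xe (D / D' * ((deg H M x : ℝ) / D)) := by
      have a1 : 3 / m * (1 - 2 / u) ≤ D / Q := g.DQ_lo
      have a2 : 0 ≤ (deg H M x : ℝ) / D * xe ((deg H M x : ℝ) / D) :=
        mul_nonneg hθ (d1_xe_nonneg _)
      calc Q * (3 / m * ((1 - 2 / u) * ((deg H M x : ℝ) / D * xe ((deg H M x : ℝ) / D))))
          = Q * ((3 / m * (1 - 2 / u)) * ((deg H M x : ℝ) / D * xe ((deg H M x : ℝ) / D))) := by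
            ring
        _ ≤ Q * ((D / Q) * ((deg H M x : ℝ) / D * xe ((deg H M x : ℝ) / D))) :=
            mul_le_mul_of_nonneg_left (mul_le_mul_of_nonneg_right a1 a2) hQ.le
        _ = (deg H M x : ℝ) * xe ((deg H M x : ℝ) / D) := by field_simp
        _ ≤ _ := mul_le_mul_of_nonneg_left hmono (Nat.cast_nonneg _)
    have h5 := mul_le_mul_of_nonneg_left hp hQ.le
    linarith
  refine (Finset.sum_le_sum h2).trans (le_of_eq ?_)
  unfold XX WW
  rw [← Finset.mul_sum, Finset.sum_add_distrib, Finset.sum_sub_distrib]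
  simp only [← Finset.mul_sum]

end Vale.Agent.P046S
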