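import Vale.Agent.P046LF.Pot3
import Vale.Agent.P046S.Cyc

/-!
P046 sharp constant, stage II: definitions.
-/

namespace Vale.Agent.P046S

open Finset Vale.Agent.P046 Vale.Agent.P046LF

variable {V : Type} [DecidableEq V]

/-- exponential tail function -/
noncomputable def xe (θ : ℝ) : ℝ := max (Real.exp (θ / 8) - Real.exp (1 / 2)) 0

noncomputable def XX (H : Finset (Finset V)) (M : Finset V) (D : ℝ) : ℝ :=
  ∑ x ∈ M, xe ((deg H M x : ℝ) / D)

/-- update of the hazard deficit `ζ x = ∑ (3 / m - a x / Q)` -/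
noncomputable def Zup (H : Finset (Finset V)) (M : Finset V) (ζ : V → ℝ) : V → ℝ :=
  fun x => ζ x + 3 / M.card - (deg H M x : ℝ) / (sub H M).card

/-- weighted number of alive cycles -/
noncomputable def YY (H : Finset (Finset V)) (M : Finset V) (ζ : V → ℝ) (ℓ : ℕ) : ℝ :=
  ∑ P ∈ CPs H M ℓ, Real.exp (-∑ x ∈ P, ζ x)

/-- slow points functional -/
noncomputable def FF (M : Finset V) (ζ : V → ℝ) : ℝ := ∑ x ∈ M, (max (ζ x) 0) ^ 2

/-- `uk ^ 4 = κ m ^ 2` -/
noncomputable def uk (κ m : ℝ) : ℝ := Real.sqrt (Real.sqrt (κ * m ^ 2))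

/-- a state with small potential -/
structure Good (κ η ηz : ℝ) (H : Finset (Finset V)) (M : Finset V) (N : V → ℝ) (S : ℝ) :
    Prop where
  hN : ∀ x ∈ M, |N x| ≤ 1 / 4
  hS0 : 0 ≤ S
  hS : S ≤ η
  hW : uk κ M.card ^ 4 * WW H M N (Dr κ M.card S) ≤ η * M.card
  hT : uk κ M.card ^ 3 * TT H M (Dr κ M.card S) ≤ η * M.card
  hM : uk κ M.card ^ 15 * M8 M N ≤ η * M.card
  hq : uk κ M.card ^ 5 * ((sub H M).card / Qh κ M.card + S - 1) ^ 2 ≤ η
  hX : XX H M (Dr κ M.card S) ≤ η * M.card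
  hZ : ZZ H M N ≤ ηz * (M.card * uk κ M.card ^ 4)
  hTh : Th H M ≤ ηz * (M.card * uk κ M.card ^ 12)

def GoodE (κ η ηz : ℝ) (H : Finset (Finset V)) (M : Finset V) : Prop :=
  ∃ N S, Good κ η ηz H M N S

/-- few slow points and few short cycles without slow points -/
def CycE (H : Finset (Finset V)) (M : Finset V) (a b : ℝ) (r : ℕ) : Prop :=
  ∃ L : Finset V, (L.card : ℝ) ≤ a ∧ nCy H M L r ≤ b

end Vale.Agent.P046S
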