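import Vale.Agent.P046S.CY2
import Vale.Agent.P046S.DDef

/-!
P046 sharp constant, module D2: one step for the weighted number of cycles.

`CPs H (M \ T) ℓ = {P ∈ CPs H M ℓ | Disjoint P T}`. For `P ∈ CPs H M ℓ` (`card P = 2 ℓ`) the number of
`T ∈ sub H M` disjoint from `P` is at most `Q - ∑_{x ∈ P} a x + 4 ℓ²` (the triples with at least two
points in `P` are at most `ℓ (2ℓ-1)`, by linearity). The new weight is
`exp (-∑ ζ) exp (-6ℓ/m + s)`, `s = ∑_{x ∈ P} a x / Q ≤ 1`; `(1 - s) e^s ≤ 1`, `4 e ≤ 11`.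
-/

namespace Vale.Agent.P046S

open Finset Vale.Agent.P046 Vale.Agent.P046LF

variable {V : Type} [DecidableEq V] {H : Finset (Finset V)} {M : Finset V}

theorem D2_CPs_sdiff (T : Finset V) (ℓ : ℕ) :
    CPs H (M \ T) ℓ = (CPs H M ℓ).filter fun P => Disjoint P T := by
  have key : ∀ M' : Finset V, ∀ P, P ∈ CPs H M' ℓ ↔ P ⊆ M' ∧ CW H ℓ P := by
    classical
    intro M' P
    rw [CPs, Finset.mem_filter, Finset.mem_powerset]
  ext P
  rw [key, Finset.mem_filter, key, Finset.subset_sdiff]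
  tauto

theorem D2_mem_CPs {ℓ : ℕ} {P : Finset V} (hP : P ∈ CPs H M ℓ) : P ⊆ M ∧ P.card = 2 * ℓ := by
  classical
  rw [CPs, Finset.mem_filter, Finset.mem_powerset] at hP
  obtain ⟨h1, x, T, hx, hT, hP1, hP2⟩ := hP
  exact ⟨h1, hP2⟩

/-- `∑_{x ∈ P} a x = ∑_T card (T ∩ P)` -/
theorem D2_sum_deg (P : Finset V) :
    ∑ x ∈ P, deg H M x = ∑ T ∈ sub H M, (T ∩ P).card := by
  have h1 : ∀ x ∈ P, deg H M x = ∑ T ∈ sub H M, if x ∈ T then 1 else 0 := by
    intro x _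
    rw [deg, Finset.card_filter]
  rw [Finset.sum_congr rfl h1, Finset.sum_comm]
  refine Finset.sum_congr rfl fun T _ => ?_
  rw [← Finset.card_filter, Finset.inter_comm]
  congr 1

/-- number of ordered pairs: `∑_T card (T ∩ P) (card (T ∩ P) - 1) ≤ card P (card P - 1)` -/
theorem D2_pairs (hH : IsLin3 H) (P : Finset V) :
    ∑ T ∈ sub H M, (T ∩ P).offDiag.card ≤ P.offDiag.card := by
  rw [← Finset.card_biUnion]
  · refine Finset.card_le_card ?_
    refine Finset.biUnion_subset.2 fun T _ => ?_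
    exact Finset.offDiag_mono Finset.inter_subset_right
  · intro A hA B hB hAB
    show Disjoint (A ∩ P).offDiag (B ∩ P).offDiag
    rw [Finset.disjoint_left]
    rintro ⟨u, v⟩ hu hv
    rw [Finset.mem_offDiag] at hu hv
    obtain ⟨h1, h2, h3⟩ := hu
    obtain ⟨h4, h5, -⟩ := hv
    exact hAB (cy2_lin hH (P046.mem_sub.1 hA).1 (P046.mem_sub.1 hB).1 h3
      (Finset.mem_inter.1 h1).1 (Finset.mem_inter.1 h2).1 (Finset.mem_inter.1 h4).1
      (Finset.mem_inter.1 h5).1)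

theorem D2_count (hH : IsLin3 H) {ℓ : ℕ} {P : Finset V} (hP : P.card = 2 * ℓ) :
    ((sub H M).filter fun T => Disjoint P T).card + ∑ x ∈ P, deg H M x ≤
      (sub H M).card + 4 * ℓ ^ 2 := by
  rw [D2_sum_deg]
  have h1 := D2_pairs (M := M) hH P
  have h2 : P.offDiag.card ≤ 4 * ℓ ^ 2 := by
    rw [Finset.offDiag_card, hP]
    have : 2 * ℓ * (2 * ℓ) = 4 * ℓ ^ 2 := by ring
    omega
  have h3 : ∀ T ∈ sub H M, (T ∩ P).card ≤ (if ¬ Disjoint P T then 1 else 0) +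
      (T ∩ P).offDiag.card := by
    intro T _
    rw [Finset.offDiag_card]
    by_cases hd : Disjoint P T
    · have : T ∩ P = ∅ := Finset.disjoint_iff_inter_eq_empty.1 hd.symm
      rw [this]
      simp
    · rw [if_pos hd]
      have h4 : 1 ≤ (T ∩ P).card := by
        rw [Nat.one_le_iff_ne_zero, Ne, Finset.card_eq_zero]
        intro h
        exact hd (Finset.disjoint_iff_inter_eq_empty.2 h).symm
      generalize (T ∩ P).card = c at h4
      obtain ⟨d, rfl⟩ : ∃ d, c = d + 1 := ⟨c - 1, by omega⟩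
      have : (d + 1) * (d + 1) - (d + 1) = d * d + d := by
        have : (d + 1) * (d + 1) = d * d + d + (d + 1) := by ring
        omega
      rw [this]
      nlinarith
  have h5 := Finset.sum_le_sum h3
  rw [Finset.sum_add_distrib] at h5
  have h6 : ∑ T ∈ sub H M, (if ¬ Disjoint P T then 1 else 0) =
      ((sub H M).filter fun T => ¬ Disjoint P T).card := by
    rw [Finset.card_filter]
  rw [h6] at h5
  have h7 := Finset.card_filter_add_card_filter_not (s := sub H M) (fun T => Disjoint P T)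
  omega

theorem D2_scal {N Q S l : ℝ} (hQ0 : 0 < Q) (hS0 : 0 ≤ S) (hSQ : S ≤ Q)
    (hN : N + S ≤ Q + 4 * l ^ 2) : N * Real.exp (S / Q) ≤ Q + 12 * l ^ 2 := by
  obtain ⟨s, hs⟩ : ∃ s : ℝ, s = S / Q := ⟨_, rfl⟩
  rw [← hs]
  have hs1 : s ≤ 1 := by rw [hs, div_le_one hQ0]; exact hSQ
  have hs0 : 0 ≤ s := by rw [hs]; exact div_nonneg hS0 hQ0.le
  have hsQ : s * Q = S := by rw [hs]; field_simp
  have h9 := Real.exp_pos s
  have hE1 : (1 - s) * Real.exp s ≤ 1 := by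
    have h7 := Real.add_one_le_exp (-s)
    have h8 : Real.exp (-s) * Real.exp s = 1 := by rw [← Real.exp_add]; simp
    nlinarith
  have hE2 : Real.exp s ≤ 3 := by
    have h7 : Real.exp s ≤ Real.exp 1 := Real.exp_le_exp.2 hs1
    have h8 := Real.exp_one_lt_d9
    linarith
  have h10 : N ≤ Q * (1 - s) + 4 * l ^ 2 := by
    have : Q * (1 - s) = Q - S := by rw [mul_sub, mul_one, mul_comm Q s, hsQ]
    rw [this]
    linarith
  calc N * Real.exp s
      ≤ (Q * (1 - s) + 4 * l ^ 2) * Real.exp s :=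
        mul_le_mul_of_nonneg_right h10 h9.le
    _ = Q * ((1 - s) * Real.exp s) + 4 * l ^ 2 * Real.exp s := by ring
    _ ≤ Q * 1 + 4 * l ^ 2 * 3 := by
        refine add_le_add (mul_le_mul_of_nonneg_left hE1 hQ0.le) ?_
        exact mul_le_mul_of_nonneg_left hE2 (by positivity)
    _ = Q + 12 * l ^ 2 := by ring

theorem step_Y (hH : IsLin3 H) (ζ : V → ℝ) {ℓ : ℕ} (hℓ : 1 ≤ ℓ) (hQ : (sub H M).Nonempty)
    (hd : ∀ x ∈ M, (deg H M x : ℝ) * (2 * ℓ) ≤ (sub H M).card) :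
    ∑ T ∈ sub H M, YY H (M \ T) (Zup H M ζ) ℓ ≤
      (sub H M).card * (Real.exp (-(6 * ℓ / M.card)) * (1 + 12 * ℓ ^ 2 / (sub H M).card) *
        YY H M ζ ℓ) := by
  have hQ0 : (0 : ℝ) < (sub H M).card := by
    exact_mod_cast Finset.card_pos.2 hQ
  have hℓ0 : (0 : ℝ) < ℓ := by exact_mod_cast hℓ
  have h1 : ∑ T ∈ sub H M, YY H (M \ T) (Zup H M ζ) ℓ =
      ∑ P ∈ CPs H M ℓ, (((sub H M).filter fun T => Disjoint P T).card : ℝ) *
        Real.exp (-∑ x ∈ P, Zup H M ζ x) := by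
    have h2 : ∀ T ∈ sub H M, YY H (M \ T) (Zup H M ζ) ℓ =
        ∑ P ∈ CPs H M ℓ, if Disjoint P T then Real.exp (-∑ x ∈ P, Zup H M ζ x) else 0 := by
      intro T _
      rw [YY, D2_CPs_sdiff, Finset.sum_filter]
    rw [Finset.sum_congr rfl h2, Finset.sum_comm]
    refine Finset.sum_congr rfl fun P _ => ?_
    rw [← Finset.sum_filter, Finset.sum_const, nsmul_eq_mul]
  have h3 : (sub H M).card * (Real.exp (-(6 * ℓ / M.card)) *
      (1 + 12 * ℓ ^ 2 / (sub H M).card) * YY H M ζ ℓ) =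
      ∑ P ∈ CPs H M ℓ, (((sub H M).card : ℝ) + 12 * ℓ ^ 2) * (Real.exp (-(6 * ℓ / M.card)) *
        Real.exp (-∑ x ∈ P, ζ x)) := by
    rw [YY, ← Finset.mul_sum, ← Finset.mul_sum]
    field_simp
  rw [h1, h3]
  refine Finset.sum_le_sum fun P hP => ?_
  obtain ⟨hPM, hPc⟩ := D2_mem_CPs hP
  have hc := D2_count (M := M) hH hPc
  have hc' : (((sub H M).filter fun T => Disjoint P T).card : ℝ) +
      ∑ x ∈ P, (deg H M x : ℝ) ≤ (sub H M).card + 4 * (ℓ : ℝ) ^ 2 := by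
    exact_mod_cast hc
  have hZ : -∑ x ∈ P, Zup H M ζ x = -(6 * ℓ / M.card) + (-∑ x ∈ P, ζ x) +
      (∑ x ∈ P, (deg H M x : ℝ)) / (sub H M).card := by
    have : ∀ x ∈ P, Zup H M ζ x = ζ x + 3 / M.card - (deg H M x : ℝ) / (sub H M).card :=
      fun x _ => rfl
    rw [Finset.sum_congr rfl this, Finset.sum_sub_distrib, Finset.sum_add_distrib,
      Finset.sum_const, nsmul_eq_mul, hPc, ← Finset.sum_div]
    push_cast
    ring
  have hSQ : ∑ x ∈ P, (deg H M x : ℝ) ≤ (sub H M).card := by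
    have h4 : ∀ x ∈ P, (deg H M x : ℝ) ≤ (sub H M).card / (2 * ℓ) := by
      intro x hx
      rw [le_div_iff₀ (by positivity)]
      exact hd x (hPM hx)
    have h5 := Finset.sum_le_card_nsmul P (fun x => (deg H M x : ℝ)) _ h4
    rw [nsmul_eq_mul, hPc] at h5
    push_cast at h5
    have h6 : 2 * (ℓ : ℝ) * ((sub H M).card / (2 * ℓ)) = (sub H M).card := by field_simp
    rw [h6] at h5
    exact h5
  have hS0 : 0 ≤ ∑ x ∈ P, (deg H M x : ℝ) := Finset.sum_nonneg fun x _ => by positivity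
  have hmain := D2_scal hQ0 hS0 hSQ hc'
  rw [hZ, Real.exp_add, Real.exp_add]
  have hpos : 0 ≤ Real.exp (-(6 * ℓ / M.card)) * Real.exp (-∑ x ∈ P, ζ x) := by positivity
  refine le_trans (le_of_eq ?_) (mul_le_mul_of_nonneg_right hmain hpos)
  ring

/-- start: `ζ = 0` -/
theorem YY_zero {Λ : ℕ} (hH : IsLin3 H) (hΛ : ∀ x ∈ M, (deg H M x : ℕ) ≤ Λ) {ℓ : ℕ}
    (hℓ : 1 ≤ ℓ) : YY H M (fun _ => 0) ℓ ≤ M.card * (2 * Λ) ^ (ℓ - 1) := by
  have h1 : YY H M (fun _ => 0) ℓ = ((CPs H M ℓ).card : ℝ) := by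
    rw [YY]
    simp
  rw [h1]
  exact_mod_cast card_CPs_le hH hΛ hℓ

/-- end: the cycles without points with `ζ > 1` -/
theorem le_YY (ζ : V → ℝ) (ℓ : ℕ) :
    (((CPs H M ℓ).filter fun P => Disjoint P (M.filter fun x => 1 < ζ x)).card : ℝ) ≤
      Real.exp (2 * ℓ) * YY H M ζ ℓ := by
  rw [YY, Finset.mul_sum, Finset.card_eq_sum_ones]
  push_cast
  rw [Finset.sum_filter]
  refine Finset.sum_le_sum fun P hP => ?_
  obtain ⟨hPM, hPc⟩ := D2_mem_CPs hP
  split_ifs with h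
  · rw [← Real.exp_add, ← Real.exp_zero]
    refine Real.exp_le_exp.2 ?_
    have h1 : ∀ x ∈ P, ζ x ≤ 1 := by
      intro x hx
      by_contra h2
      rw [not_le] at h2
      exact (Finset.disjoint_left.1 h) hx (Finset.mem_filter.2 ⟨hPM hx, h2⟩)
    have h2 := Finset.sum_le_card_nsmul P ζ 1 h1
    rw [nsmul_eq_mul, hPc] at h2
    push_cast at h2
    linarith
  · positivity

end Vale.Agent.P046S
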