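import Vale.Agent.P046S.DDef
import Vale.Agent.P046LF.Basic

/-!
P046 sharp constant, module D3: one step for the slow points functional.

`φ z = (max z 0)²`, `φ (z + b) ≤ φ z + 2 z⁺ b + b²`, `b x = 3/m - a x / Q = (3/m) (1 - ρ θ x)`,
`ρ = m D / (3 Q)`, `v x = max (1 - ρ θ x) 0 ≤ 1`. Left hand side
`≤ Q ∑ (1 - a x / Q) (φ + 2 ζ⁺ b + b²) ≤ Q (FF (1 - 3/m) + (3/m) ∑ (v φ + 2 ζ⁺ v) + ∑ b²)`, and
`v φ + 2 ζ⁺ v ≤ v ζ⁺ (L + 2) ≤ l φ + (L + 2)² v² / (4 l)`.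
`∑ (1 - ρ θ)² ≤ 2 ∑ (1 - θ)² + 2 (1 - ρ)² ∑ θ²`, `(θ - 1)² ≤ 4 ff (θ - N) + 2 N²` (`sq_le_ff`),
`∑ N² ≤ m^{3/4} M8^{1/4} ≤ m u^{-15/4}`, `|1 - ρ| ≤ 2 u^{-5/2}`.
-/

namespace Vale.Agent.P046S

open Finset Vale.Agent.P046 Vale.Agent.P046LF

theorem d3_N {w n : ℝ} (hw : 0 < w) : n ^ 2 ≤ 1 / w ^ 7 + w ^ 21 * n ^ 8 := by
  rcases le_or_gt (n ^ 2) (1 / w ^ 7) with h | h
  · have : 0 ≤ w ^ 21 * n ^ 8 := by positivity
    linarith
  · have h1 : 1 ≤ w ^ 7 * n ^ 2 := by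
      rw [div_lt_iff₀ (by positivity)] at h
      linarith
    have h2 : 1 ≤ (w ^ 7 * n ^ 2) ^ 3 := one_le_pow₀ h1
    have h3 : n ^ 2 * 1 ≤ n ^ 2 * (w ^ 7 * n ^ 2) ^ 3 := mul_le_mul_of_nonneg_left h2 (sq_nonneg _)
    have h4 : n ^ 2 * (w ^ 7 * n ^ 2) ^ 3 = w ^ 21 * n ^ 8 := by ring
    have h5 : 0 ≤ 1 / w ^ 7 := by positivity
    linarith

/-- all errors are measured by `∑ (1 - ρ θ)²` -/
theorem d3_sum_rho {V : Type} [DecidableEq V] {H : Finset (Finset V)}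
    {M : Finset V} {N : V → ℝ} {κ S S' m Q u D D' : ℝ} (g : GS H M N κ S S' m Q u D D' 1)
    (hM8 : u ^ 15 * M8 M N ≤ m) (hZ5 : u ^ 5 * (Q / Qh κ m + S - 1) ^ 2 ≤ 1) :
    ∑ x ∈ M, (1 - m * (deg H M x : ℝ) / (3 * Q)) ^ 2 ≤ 25 * (m / (u ^ 3 * Real.sqrt u)) := by
  have hu := g.u_pos
  have hm := g.m_pos
  have hD := g.D_pos
  have hQ := g.Q_pos
  obtain ⟨w, hw⟩ : ∃ w, w = Real.sqrt u := ⟨_, rfl⟩
  have hw0 : 0 < w := by rw [hw]; exact Real.sqrt_pos.2 hu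
  have hwu : w ^ 2 = u := by rw [hw]; exact Real.sq_sqrt hu.le
  have hw1 : 1 ≤ w := by
    rw [hw]
    apply Real.le_sqrt_of_sq_le
    have := g.hu
    linarith
  rw [← hw]
  set Z := Q / Qh κ m + S - 1 with hZ
  have e1 : u ^ 3 * w = w ^ 7 := by rw [← hwu]; ring
  rw [e1]
  -- the ratio
  obtain ⟨ρ, hρ⟩ : ∃ ρ, ρ = m / 3 * (D / Q) := ⟨_, rfl⟩
  have hρ1 : (ρ - 1) ^ 2 ≤ 36 / 25 * Z ^ 2 := by
    have h1 := g.DQ_Z
    have h2 : ρ - 1 = m / 3 * (D / Q - 3 / m) := by rw [hρ]; field_simp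
    have h3 : |ρ - 1| ≤ 6 / 5 * |Z| := by
      rw [h2, abs_mul, abs_of_pos (by positivity : 0 < m / 3)]
      calc m / 3 * |D / Q - 3 / m| ≤ m / 3 * (3 / m * (6 / 5 * |Z|)) :=
            mul_le_mul_of_nonneg_left h1 (by positivity)
        _ = 6 / 5 * |Z| := by field_simp
    calc (ρ - 1) ^ 2 = |ρ - 1| ^ 2 := (sq_abs _).symm
      _ ≤ (6 / 5 * |Z|) ^ 2 := pow_le_pow_left₀ (abs_nonneg _) h3 2
      _ = 36 / 25 * Z ^ 2 := by rw [mul_pow, sq_abs]; norm_num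
  have hZ2 : Z ^ 2 ≤ 1 / w ^ 7 := by
    rw [le_div_iff₀ (by positivity)]
    have h1 : w ^ 7 ≤ u ^ 5 := by
      rw [← hwu, ← pow_mul]
      exact pow_le_pow_right₀ hw1 (by norm_num)
    have h2 : w ^ 7 * Z ^ 2 ≤ u ^ 5 * Z ^ 2 := mul_le_mul_of_nonneg_right h1 (sq_nonneg _)
    linarith
  -- pointwise
  have hpt : ∀ x ∈ M, (1 - m * (deg H M x : ℝ) / (3 * Q)) ^ 2 ≤
      8 * ff ((deg H M x : ℝ) / D - N x) + 4 * N x ^ 2 +
        2 * (ρ - 1) ^ 2 * ((deg H M x : ℝ) / D) ^ 2 := by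
    intro x hx
    have h1 := g.xi_sq hx
    have h2 : m * (deg H M x : ℝ) / (3 * Q) = ρ * ((deg H M x : ℝ) / D) := by
      rw [hρ]; field_simp
    rw [h2]
    set θ := (deg H M x : ℝ) / D
    have h3 : (1 - ρ * θ) ^ 2 ≤ 2 * (θ - 1) ^ 2 + 2 * (ρ - 1) ^ 2 * θ ^ 2 := by
      nlinarith [sq_nonneg ((1 - θ) + (ρ - 1) * θ)]
    linarith
  refine (sum_le_sum hpt).trans ?_
  rw [sum_add_distrib, sum_add_distrib, ← mul_sum, ← mul_sum, ← mul_sum]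
  have hW : ∑ x ∈ M, ff ((deg H M x : ℝ) / D - N x) ≤ m / w ^ 7 := by
    have h1 : u ^ 4 * WW H M N D ≤ 1 * m := g.hF
    have h2 : WW H M N D = ∑ x ∈ M, ff ((deg H M x : ℝ) / D - N x) := rfl
    rw [← h2, le_div_iff₀ (by positivity)]
    have h3 : w ^ 7 ≤ u ^ 4 := by
      rw [← hwu, ← pow_mul]
      exact pow_le_pow_right₀ hw1 (by norm_num)
    have h4 : w ^ 7 * WW H M N D ≤ u ^ 4 * WW H M N D :=
      mul_le_mul_of_nonneg_right h3 (GS.W_nonneg N D)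
    linarith
  have hN2 : ∑ x ∈ M, N x ^ 2 ≤ 2 * (m / w ^ 7) := by
    have h1 : ∑ x ∈ M, N x ^ 2 ≤ ∑ x ∈ M, (1 / w ^ 7 + w ^ 21 * N x ^ 8) :=
      sum_le_sum fun x _ => d3_N hw0
    refine h1.trans ?_
    rw [sum_add_distrib, sum_const, nsmul_eq_mul, ← mul_sum, g.hm]
    have h2 : ∑ x ∈ M, N x ^ 8 = M8 M N := rfl
    rw [h2]
    have h3 : w ^ 21 * M8 M N ≤ m / w ^ 7 := by
      rw [le_div_iff₀ (by positivity)]
      have h4 : w ^ 28 ≤ u ^ 15 := by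
        rw [← hwu, ← pow_mul]
        exact pow_le_pow_right₀ hw1 (by norm_num)
      have h5 : 0 ≤ M8 M N := by
        unfold M8
        exact sum_nonneg fun x _ => by positivity
      have h6 : w ^ 28 * M8 M N ≤ u ^ 15 * M8 M N := mul_le_mul_of_nonneg_right h4 h5
      have h7 : w ^ 21 * M8 M N * w ^ 7 = w ^ 28 * M8 M N := by ring
      linarith
    have h8 : m * (1 / w ^ 7) = m / w ^ 7 := by ring
    linarith
  have hθ := g.sumsq_le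
  have h9 : 2 * (ρ - 1) ^ 2 * ∑ x ∈ M, ((deg H M x : ℝ) / D) ^ 2 ≤ 9 * (m / w ^ 7) := by
    have h10 : 2 * (ρ - 1) ^ 2 ≤ 3 * (1 / w ^ 7) := by
      have : 0 ≤ 1 / w ^ 7 := by positivity
      linarith
    calc 2 * (ρ - 1) ^ 2 * ∑ x ∈ M, ((deg H M x : ℝ) / D) ^ 2 ≤ 3 * (1 / w ^ 7) * (3 * m) := by
          apply mul_le_mul h10 hθ (sum_nonneg fun x _ => sq_nonneg _) (by positivity)
      _ = 9 * (m / w ^ 7) := by ring
  linarith

theorem sum_rho : ∃ C : ℝ, 1 ≤ C ∧ ∀ (V : Type) [DecidableEq V] (H : Finset (Finset V))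
    (M : Finset V) (N : V → ℝ) (κ S S' m Q u D D' : ℝ), GS H M N κ S S' m Q u D D' 1 →
    u ^ 15 * M8 M N ≤ m → u ^ 5 * (Q / Qh κ m + S - 1) ^ 2 ≤ 1 →
    ∑ x ∈ M, (1 - m * (deg H M x : ℝ) / (3 * Q)) ^ 2 ≤ C * (m / (u ^ 3 * Real.sqrt u)) :=
  ⟨25, by norm_num, fun _ _ _ _ _ _ _ _ _ _ _ _ _ g h1 h2 => d3_sum_rho g h1 h2⟩

/-- pointwise estimate -/
theorem d3_point {z m a Q l L : ℝ} (hm : 3 ≤ m) (hQ : 0 < Q) (ha : 0 ≤ a) (haQ : a ≤ Q)
    (hl : 0 < l) (hL : 1 ≤ L) (hz : z ≤ L) :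
    (Q - a) * (max (z + 3 / m - a / Q) 0) ^ 2 ≤
      Q * ((max z 0) ^ 2 * (1 - 3 / m + 3 / m * l) +
        (3 / m * ((L + 2) ^ 2 / (4 * l)) + 9 / m ^ 2) * (1 - m * a / (3 * Q)) ^ 2) := by
  have hm0 : 0 < m := by linarith
  obtain ⟨y, hy⟩ : ∃ y, y = max z 0 := ⟨_, rfl⟩
  have hy0 : 0 ≤ y := by rw [hy]; exact le_max_right _ _
  have hzy : z ≤ y := by rw [hy]; exact le_max_left _ _
  have hyL : y ≤ L := by rw [hy]; exact max_le hz (by linarith)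
  obtain ⟨c, hc⟩ : ∃ c, c = 1 - m * a / (3 * Q) := ⟨_, rfl⟩
  have hb : 3 / m - a / Q = 3 / m * c := by rw [hc]; field_simp
  have hmax : (max (z + 3 / m - a / Q) 0) ^ 2 ≤ (y + 3 / m * c) ^ 2 := by
    rw [← sq_abs (y + 3 / m * c)]
    apply pow_le_pow_left₀ (le_max_right _ _)
    apply max_le _ (abs_nonneg _)
    refine le_trans ?_ (le_abs_self _)
    linarith
  rw [← hy, ← hc]
  obtain ⟨d, hd⟩ : ∃ d, d = 1 - a / Q := ⟨_, rfl⟩
  have hd0 : 0 ≤ d := by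
    rw [hd]
    have : a / Q ≤ 1 := (div_le_one hQ).2 haQ
    linarith
  have hd1 : d ≤ 1 := by
    rw [hd]
    have : 0 ≤ a / Q := div_nonneg ha hQ.le
    linarith
  have hQa : Q - a = Q * d := by rw [hd]; field_simp
  have hdc : d = 1 - 3 / m + 3 / m * c := by rw [hd, ← hb]; ring
  rw [hQa]
  calc Q * d * (max (z + 3 / m - a / Q) 0) ^ 2 ≤ Q * d * (y + 3 / m * c) ^ 2 :=
        mul_le_mul_of_nonneg_left hmax (by positivity)
    _ = Q * (d * (y + 3 / m * c) ^ 2) := by ring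
    _ ≤ _ := by
        apply mul_le_mul_of_nonneg_left _ hQ.le
        -- `v = max c 0`
        obtain ⟨v, hv⟩ : ∃ v, v = max c 0 := ⟨_, rfl⟩
        have hv0 : 0 ≤ v := by rw [hv]; exact le_max_right _ _
        have hcv : c ≤ v := by rw [hv]; exact le_max_left _ _
        have hv2 : v ^ 2 ≤ c ^ 2 := by
          rw [hv, ← sq_abs c]
          apply pow_le_pow_left₀ (le_max_right _ _)
          exact max_le (le_abs_self _) (abs_nonneg _)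
        have h3m : 0 < 3 / m := by positivity
        have k1 : d * y ^ 2 ≤ y ^ 2 * (1 - 3 / m) + 3 / m * (v * y ^ 2) := by
          rw [hdc]
          have : 3 / m * (c * y ^ 2) ≤ 3 / m * (v * y ^ 2) :=
            mul_le_mul_of_nonneg_left (mul_le_mul_of_nonneg_right hcv (sq_nonneg _)) h3m.le
          linarith
        have k2 : d * (2 * y * (3 / m * c)) ≤ 3 / m * (2 * y * v) := by
          have h1 : d * (2 * y * (3 / m * c)) ≤ d * (2 * y * (3 / m * v)) := by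
            apply mul_le_mul_of_nonneg_left _ hd0
            apply mul_le_mul_of_nonneg_left _ (by positivity)
            exact mul_le_mul_of_nonneg_left hcv h3m.le
          have h2 : d * (2 * y * (3 / m * v)) ≤ 1 * (2 * y * (3 / m * v)) :=
            mul_le_mul_of_nonneg_right hd1 (by positivity)
          linarith
        have k3 : d * (3 / m * c) ^ 2 ≤ 9 / m ^ 2 * c ^ 2 := by
          have h1 : d * (3 / m * c) ^ 2 ≤ 1 * (3 / m * c) ^ 2 :=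
            mul_le_mul_of_nonneg_right hd1 (sq_nonneg _)
          have h2 : (3 / m * c) ^ 2 = 9 / m ^ 2 * c ^ 2 := by ring
          linarith
        have k4 : v * y ^ 2 + 2 * y * v ≤ l * y ^ 2 + (L + 2) ^ 2 / (4 * l) * c ^ 2 := by
          have h1 : v * y ^ 2 + 2 * y * v ≤ y * ((L + 2) * v) := by
            have : v * y * y ≤ v * y * L := mul_le_mul_of_nonneg_left hyL (by positivity)
            nlinarith
          have h2 : y * ((L + 2) * v) ≤ l * y ^ 2 + ((L + 2) * v) ^ 2 / (4 * l) := by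
            have h3 : l * y ^ 2 + ((L + 2) * v) ^ 2 / (4 * l) - y * ((L + 2) * v) =
                (2 * l * y - (L + 2) * v) ^ 2 / (4 * l) := by
              field_simp; ring
            have h4 : 0 ≤ (2 * l * y - (L + 2) * v) ^ 2 / (4 * l) := by positivity
            linarith
          have h3 : ((L + 2) * v) ^ 2 / (4 * l) ≤ (L + 2) ^ 2 / (4 * l) * c ^ 2 := by
            have : ((L + 2) * v) ^ 2 / (4 * l) = (L + 2) ^ 2 / (4 * l) * v ^ 2 := by ring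
            rw [this]
            exact mul_le_mul_of_nonneg_left hv2 (by positivity)
          linarith
        have k5 : 3 / m * (v * y ^ 2 + 2 * y * v) ≤
            3 / m * (l * y ^ 2 + (L + 2) ^ 2 / (4 * l) * c ^ 2) :=
          mul_le_mul_of_nonneg_left k4 h3m.le
        nlinarith

theorem step_F : ∃ C : ℝ, 1 ≤ C ∧ ∀ (V : Type) [DecidableEq V] (H : Finset (Finset V))
    (M : Finset V) (N ζ : V → ℝ) (κ S S' m Q u D D' l L : ℝ), GS H M N κ S S' m Q u D D' 1 →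
    u ^ 15 * M8 M N ≤ m → u ^ 5 * (Q / Qh κ m + S - 1) ^ 2 ≤ 1 →
    0 < l → l ≤ 1 → 1 ≤ L → (∀ x ∈ M, ζ x ≤ L) →
    ∑ T ∈ sub H M, FF (M \ T) (Zup H M ζ) ≤
      Q * (FF M ζ * (1 - 3 / m + 3 / m * l) +
        3 / m * (C * (L + 2) ^ 2 / l * (m / (u ^ 3 * Real.sqrt u)))) := by
  refine ⟨50, by norm_num, ?_⟩
  intro V _ H M N ζ κ S S' m Q u D D' l L g hM8 hZ5 hl hl1 hL hζ
  have hu := g.u_pos
  have hm := g.m_pos
  have hmb := g.m_big
  have hQ := g.Q_pos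
  have hR := d3_sum_rho g hM8 hZ5
  have hR0 : 0 ≤ m / (u ^ 3 * Real.sqrt u) := by positivity
  -- exchange of sums
  have e1 : ∑ T ∈ sub H M, FF (M \ T) (Zup H M ζ) =
      ∑ x ∈ M, (Q - deg H M x) * (max (ζ x + 3 / m - (deg H M x : ℝ) / Q) 0) ^ 2 := by
    have h1 : ∀ T ∈ sub H M, FF (M \ T) (Zup H M ζ) =
        ∑ x ∈ M, (max (Zup H M ζ x) 0) ^ 2 - ∑ x ∈ T, (max (Zup H M ζ x) 0) ^ 2 := by
      intro T hT
      unfold FF
      rw [sum_sdiff_eq_sub (mem_sub.1 hT).2]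
    rw [sum_congr rfl h1, sum_sub_distrib, sum_const, nsmul_eq_mul, g.hQ, sum_sub_sum, mul_sum,
      ← sum_sub_distrib]
    refine sum_congr rfl fun x _ => ?_
    unfold Zup
    rw [g.hm, g.hQ]
    ring
  rw [e1]
  have hdQ : ∀ x, (deg H M x : ℝ) ≤ Q := by
    intro x
    rw [← g.hQ]
    have : deg H M x ≤ (sub H M).card := card_filter_le _ _
    exact_mod_cast this
  have h2 : ∑ x ∈ M, (Q - deg H M x) * (max (ζ x + 3 / m - (deg H M x : ℝ) / Q) 0) ^ 2 ≤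
      ∑ x ∈ M, Q * ((max (ζ x) 0) ^ 2 * (1 - 3 / m + 3 / m * l) +
        (3 / m * ((L + 2) ^ 2 / (4 * l)) + 9 / m ^ 2) * (1 - m * (deg H M x : ℝ) / (3 * Q)) ^ 2) :=
    sum_le_sum fun x hx => d3_point (by linarith) hQ (Nat.cast_nonneg _) (hdQ x) hl hL (hζ x hx)
  refine h2.trans ?_
  rw [← mul_sum, sum_add_distrib, ← sum_mul, ← mul_sum]
  apply mul_le_mul_of_nonneg_left _ hQ.le
  have e3 : ∑ x ∈ M, (max (ζ x) 0) ^ 2 = FF M ζ := rfl
  rw [e3]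
  apply add_le_add le_rfl
  -- the coefficient
  have hcoef : 3 / m * ((L + 2) ^ 2 / (4 * l)) + 9 / m ^ 2 ≤ 3 / m * (2 * ((L + 2) ^ 2 / l)) := by
    have h3 : 1 ≤ (L + 2) ^ 2 / l := by
      rw [le_div_iff₀ hl]; nlinarith
    have h4 : (L + 2) ^ 2 / (4 * l) = 1 / 4 * ((L + 2) ^ 2 / l) := by ring
    have h5 : 9 / m ^ 2 = 3 / m * (3 / m) := by ring
    have h6 : 3 / m ≤ 1 := by rw [div_le_one hm]; linarith
    rw [h4, h5, ← mul_add]
    apply mul_le_mul_of_nonneg_left _ (by positivity)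
    linarith
  calc (3 / m * ((L + 2) ^ 2 / (4 * l)) + 9 / m ^ 2) *
        ∑ x ∈ M, (1 - m * (deg H M x : ℝ) / (3 * Q)) ^ 2 ≤
      3 / m * (2 * ((L + 2) ^ 2 / l)) * (25 * (m / (u ^ 3 * Real.sqrt u))) := by
        apply mul_le_mul hcoef hR (sum_nonneg fun x _ => sq_nonneg _) (by positivity)
    _ = 3 / m * (50 * (L + 2) ^ 2 / l * (m / (u ^ 3 * Real.sqrt u))) := by ring

end Vale.Agent.P046S
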