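import Vale.Agent.P046S.D0
import Vale.Agent.P046S.D1
import Vale.Agent.P046S.D2
import Vale.Agent.P046S.D3

/-!
P046 sharp constant, module D4: the combined potentials for stage II.
-/

namespace Vale.Agent.P046S

open Finset Vale.Agent.P046 Vale.Agent.P046LF

variable {V : Type} [DecidableEq V] {H : Finset (Finset V)} {M : Finset V} {N : V → ℝ}
  {κ uL μ R D0 S : ℝ} {c : Cs}

/-- a state where the normalized potential is less than one is good in the sense of `GS` (this is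
the first half of the proof of `cost_le_LamK`, with `K = 1`; see `one_le_LamK`, `W_le_Phi`) -/
theorem gs_of (hH : IsLin3 H) (hκ : 0 < κ) (huL : 1000 ≤ uL) (hμ : 0 < μ)
    (huL4 : uL ^ 4 = κ * μ ^ 2) (hR6 : uL ^ 6 * R ^ 2 ≤ μ ^ 3) (hD0 : D0 * uL ^ 2 ≤ μ)
    (hMμ : μ ≤ (M.card : ℝ)) (hMR : (M.card : ℝ) ≤ R) (hN : ∀ x ∈ M, |N x| ≤ 1 / 4) (hS : 0 ≤ S)
    (hdeg : ∀ x ∈ M, (deg H M x : ℝ) ≤ D0) (hL : LamK c κ uL μ R 1 H M N S < 1) :
    ∃ S' D', GS H M N κ S S' M.card (sub H M).card (uu uL μ M.card) (Dr κ M.card S) D' 1 ∧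
      S' = S + (S2 H M - M.card * (3 * (sub H M).card / M.card) ^ 2) /
        ((sub H M).card * Qh κ (M.card - 3)) ∧
      D' = Dr κ (M.card - 3) S' ∧ uu uL μ M.card = uk κ M.card ∧
      uu uL μ M.card ^ 15 * M8 M N ≤ M.card ∧
      uu uL μ M.card ^ 5 * ((sub H M).card / Qh κ M.card + S - 1) ^ 2 ≤ 1 ∧
      (sub H M).Nonempty ∧
      (3 / 10 * (M.card * Dr κ M.card S) ≤ (sub H M).card) ∧
      (1 / 2 * uu uL μ M.card ^ 4 ≤ Dr κ M.card S) := by
  have huL0 : 0 < uL := by linarith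
  have hm0 : 0 < (M.card : ℝ) := by linarith
  have hul : uL ≤ uu uL μ M.card := uL_le_uu huL0 hμ hMμ
  have hup : 0 < uu uL μ M.card := by linarith
  have hu2 : uu uL μ M.card ^ 2 = uL ^ 2 * (M.card / μ) := uu_sq hμ hm0
  have hu4 : uu uL μ M.card ^ 4 = κ * (M.card : ℝ) ^ 2 := by
    rw [uu_pow4 hμ hm0, huL4]; field_simp
  have hbad : ¬ (1 / 16 < S ∨ 1 / uu uL μ M.card < |((sub H M).card : ℝ) / Qh κ M.card + S - 1| ∨
      (1 : ℝ) * M.card < uu uL μ M.card ^ 4 * WW H M N (Dr κ M.card S)) := by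
    intro hb
    have := one_le_LamK (c := c) (κ := κ) (R := R) (K := 1) (by linarith : (1 : ℝ) ≤ uL) hμ hMμ hS
      one_pos (one_le_pow₀ (by linarith : (1 : ℝ) ≤ uL)) hb
    linarith
  push Not at hbad
  obtain ⟨hS1, hZ, hF⟩ := hbad
  have hPhi := le_LamK (c := c) (κ := κ) (R := R) (K := 1) (H := H) (M := M) (N := N) (S := S)
    huL0 hμ hMμ hS one_pos
  rw [div_one] at hPhi
  obtain ⟨-, hW2, -, hW4⟩ := W_le_Phi (c := c) (κ := κ) (R := R) (K := 1) (H := H) (M := M)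
    (N := N) (S := S) huL0 hμ hMμ hS zero_le_one
  have gs : GS H M N κ S (S + (S2 H M - M.card * (3 * (sub H M).card / M.card) ^ 2) /
        ((sub H M).card * Qh κ (M.card - 3))) M.card (sub H M).card (uu uL μ M.card)
        (Dr κ M.card S) (Dr κ (M.card - 3) (S + (S2 H M - M.card *
          (3 * (sub H M).card / M.card) ^ 2) / ((sub H M).card * Qh κ (M.card - 3)))) 1 := by
    refine ⟨hH, rfl, rfl, hκ, by linarith, hu4, ?_, ?_, hN, hS, hS1, rfl, rfl, ?_, hZ, le_rfl,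
      one_le_pow₀ (by linarith), hF⟩
    · rw [uu_pow6 hμ hm0]
      have e : uL ^ 6 * ((M.card : ℝ) / μ) ^ 3 = (uL ^ 6 * (M.card : ℝ) ^ 2) * M.card / μ ^ 3 := by
        field_simp
      rw [e, div_le_iff₀ (by positivity)]
      have h1 : (M.card : ℝ) ^ 2 ≤ R ^ 2 := pow_le_pow_left₀ hm0.le hMR 2
      have h2 := mul_le_mul_of_nonneg_left h1 (by positivity : 0 ≤ uL ^ 6)
      have h3 : uL ^ 6 * (M.card : ℝ) ^ 2 ≤ μ ^ 3 := h2.trans hR6
      have h4 := mul_le_mul_of_nonneg_right h3 hm0.le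
      linarith
    · intro x hx
      rw [hu2]
      have h1 := hdeg x hx
      have h2 := mul_le_mul_of_nonneg_right h1 (by positivity : 0 ≤ uL ^ 2 * ((M.card : ℝ) / μ))
      refine h2.trans ?_
      have e : D0 * (uL ^ 2 * ((M.card : ℝ) / μ)) = D0 * uL ^ 2 * M.card / μ := by ring
      rw [e, div_le_iff₀ hμ]
      have h3 := mul_le_mul_of_nonneg_right hD0 hm0.le
      linarith
    · unfold Dr; ring
  refine ⟨_, _, gs, rfl, rfl, ?_, ?_, ?_, ?_, gs.Q_lo, ?_⟩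
  · unfold uk
    rw [← hu4]
    have e : uu uL μ M.card ^ 4 = (uu uL μ M.card ^ 2) ^ 2 := by ring
    rw [e, Real.sqrt_sq (by positivity), Real.sqrt_sq hup.le]
  · have h1 : uu uL μ M.card ^ 15 / M.card * M8 M N ≤ 1 := by linarith
    have e : uu uL μ M.card ^ 15 / M.card * M8 M N = uu uL μ M.card ^ 15 * M8 M N / M.card := by
      ring
    rw [e, div_le_one hm0] at h1
    exact h1
  · linarith
  · have h1 := gs.Q_pos
    rw [← Finset.card_pos]
    exact_mod_cast h1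
  · have h1 := gs.D_lo
    have h2 : 0 < uu uL μ M.card ^ 4 := by positivity
    linarith

/-- potential for the exponential tails -/
noncomputable def XP (κ uL μ : ℝ) (H : Finset (Finset V)) (M : Finset V) (S : ℝ) : ℝ :=
  XX H M (Dr κ M.card S) / M.card + cw uL μ 3 M.card

/-- potential for the slow points, `sb` = source bound -/
noncomputable def FP (uL μ L sb : ℝ) (M : Finset V) (ζ : V → ℝ) : ℝ :=
  (uL ^ 3 * FF M ζ / M.card + sb * Real.log (M.card / μ)) * (M.card / μ) ^ (2 / L)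

/-- potential for the cycles -/
noncomputable def YP (μ L : ℝ) (H : Finset (Finset V)) (M : Finset V) (ζ : V → ℝ) (ℓ : ℕ) : ℝ :=
  YY H M ζ ℓ / (M.card : ℝ) ^ (2 * ℓ) * (M.card / μ) ^ (2 / L)

/-- `step_X` with weight `1/m`: `(1/(m-3)) (1 - 9/(2m)) ≤ 1/m`, `2 WW / m ≤ 2 / u ^ 4 ≤ 1 / u`, and
`cw_diff` -/
theorem XP_step {S' m Q u D D' : ℝ} (g : GS H M N κ S S' m Q u D D' 1) (huL : 0 < uL)
    (hμ : 0 < μ) (hu : u = uu uL μ m) :
    ∑ T ∈ sub H M, XP κ uL μ H (M \ T) S' ≤ Q * XP κ uL μ H M S := by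
  have hmb := g.m_big
  have hm1 : 1000 ≤ m := by linarith
  have hm0 : 0 < m := by linarith
  have hm3 : 0 < m - 3 := by linarith
  have hup := g.u_pos
  have hQ := g.Q_pos
  have hX := step_X g
  have hcw := cw_diff (C := 3) (uL := uL) (μ := μ) (m := m) (by norm_num) huL hμ hm1
  rw [← hu] at hcw
  have hWn : 0 ≤ WW H M N D := WW_nonneg
  have hXn : 0 ≤ XX H M D := Finset.sum_nonneg fun x _ => le_max_right _ _
  have hDr : Dr κ m S = D := by rw [g.hD]; rfl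
  have hDr' : Dr κ (m - 3) S' = D' := by rw [g.hD']; unfold Dr; ring
  have hW : WW H M N D ≤ m / u ^ 4 := by
    rw [le_div_iff₀ (by positivity)]
    have := g.hF
    linarith
  have e1 : ∀ T ∈ sub H M, XP κ uL μ H (M \ T) S' =
      1 / (m - 3) * XX H (M \ T) D' + cw uL μ 3 (m - 3) := by
    intro T hT
    unfold XP
    rw [card_next g hT, hDr']
    ring
  rw [sum_congr rfl e1, sum_add_distrib, ← mul_sum, sum_const, nsmul_eq_mul, g.hQ]
  unfold XP
  rw [g.hm, hDr]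
  have h1 := mul_le_mul_of_nonneg_left hX (by positivity : 0 ≤ 1 / (m - 3))
  have h2 : 1 / (m - 3) * (XX H M D - 3 / m * (3 / 2 * XX H M D) + 3 / m * (2 * WW H M N D)) ≤
      XX H M D / m + 3 / m * (3 / u) := by
    have h3 : 1 / (m - 3) * (XX H M D - 3 / m * (3 / 2 * XX H M D)) ≤ XX H M D / m := by
      have e : 1 / (m - 3) * (XX H M D - 3 / m * (3 / 2 * XX H M D)) =
          XX H M D / m * ((m - 9 / 2) / (m - 3)) := by
        field_simp
        try ring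
      rw [e]
      refine mul_le_of_le_one_right (by positivity) ?_
      rw [div_le_one hm3]
      linarith
    have h4 : 1 / (m - 3) * (3 / m * (2 * WW H M N D)) ≤ 3 / m * (3 / u) := by
      have a1 : 1 / (m - 3) * (3 / m * (2 * WW H M N D)) ≤
          1 / (m - 3) * (3 / m * (2 * (m / u ^ 4))) := by gcongr
      refine a1.trans ?_
      have e : 1 / (m - 3) * (3 / m * (2 * (m / u ^ 4))) =
          3 / m * (2 * (m / (m - 3)) / u ^ 4) := by
        field_simp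
      rw [e]
      refine mul_le_mul_of_nonneg_left ?_ (by positivity)
      have a2 : m / (m - 3) ≤ 3 / 2 := by
        rw [div_le_iff₀ hm3]; linarith
      have a3 : u ≤ u ^ 4 := le_self_pow₀ (by linarith [g.hu]) (by norm_num)
      calc 2 * (m / (m - 3)) / u ^ 4 ≤ 3 / u ^ 4 := by gcongr; linarith
        _ ≤ 3 / u := by gcongr
    calc _ = 1 / (m - 3) * (XX H M D - 3 / m * (3 / 2 * XX H M D)) +
        1 / (m - 3) * (3 / m * (2 * WW H M N D)) := by ring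
      _ ≤ _ := add_le_add h3 h4
  have h5 := mul_le_mul_of_nonneg_left h2 hQ.le
  have h6 := mul_le_mul_of_nonneg_left hcw hQ.le
  calc 1 / (m - 3) * ∑ T ∈ sub H M, XX H (M \ T) D' + Q * cw uL μ 3 (m - 3) ≤
        1 / (m - 3) * (Q * (XX H M D - 3 / m * (3 / 2 * XX H M D) + 3 / m * (2 * WW H M N D))) +
          Q * cw uL μ 3 (m - 3) := by linarith
    _ = Q * (1 / (m - 3) * (XX H M D - 3 / m * (3 / 2 * XX H M D) + 3 / m * (2 * WW H M N D))) +
          Q * cw uL μ 3 (m - 3) := by ring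
    _ ≤ Q * (XX H M D / m + 3 / m * (3 / u)) + Q * cw uL μ 3 (m - 3) := by linarith
    _ = Q * (XX H M D / m) + Q * (cw uL μ 3 (m - 3) + 3 / m * (3 / u)) := by ring
    _ ≤ Q * (XX H M D / m) + Q * cw uL μ 3 m := by linarith
    _ = _ := by ring

/-- `step_F` with `l = 1 / L`; `log m - log (m - 3) ≥ 3 / m`,
`(1 + (3/m) (5/4) / L) ((m-3)/m)^{2/L} ≤ 1` -/
theorem FP_step : ∃ C : ℝ, 1 ≤ C ∧ ∀ (V : Type) [DecidableEq V] (H : Finset (Finset V))
    (M : Finset V) (N ζ : V → ℝ) (κ S S' m Q u D D' uL μ L : ℝ), GS H M N κ S S' m Q u D D' 1 →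
    u ^ 15 * M8 M N ≤ m → u ^ 5 * (Q / Qh κ m + S - 1) ^ 2 ≤ 1 → 0 < uL → 0 < μ → μ ≤ m →
    u = uu uL μ m → 1 ≤ L → (∀ x ∈ M, ζ x ≤ L) →
    ∑ T ∈ sub H M, FP uL μ L (C * L ^ 3 / Real.sqrt uL) (M \ T) (Zup H M ζ) ≤
      Q * FP uL μ L (C * L ^ 3 / Real.sqrt uL) M ζ := by
  obtain ⟨C0, hC0, hF⟩ := step_F
  refine ⟨10 * C0, by linarith, ?_⟩
  intro V _ H M N ζ κ S S' m Q u D D' uL μ L g h8 hq huL hμ hμm hu hL hζ
  have hL0 : 0 < L := by linarith
  have hmb := g.m_big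
  have hm0 : 0 < m := by linarith
  have hm3 : 0 < m - 3 := by linarith
  have hup := g.u_pos
  have hQ := g.Q_pos
  have hul : uL ≤ u := by rw [hu]; exact uL_le_uu huL hμ hμm
  have hstep := hF V H M N ζ κ S S' m Q u D D' (1 / L) L g h8 hq (by positivity)
    (by rw [div_le_one hL0]; exact hL) hL hζ
  have hsu : 0 < Real.sqrt uL := Real.sqrt_pos.2 huL
  have hsu2 : Real.sqrt uL ≤ Real.sqrt u := Real.sqrt_le_sqrt hul
  have hsu3 : 0 < Real.sqrt u := Real.sqrt_pos.2 hup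
  obtain ⟨sb, hsb⟩ : ∃ sb, sb = 10 * C0 * L ^ 3 / Real.sqrt uL := ⟨_, rfl⟩
  rw [← hsb]
  have hsb0 : 0 < sb := by rw [hsb]; positivity
  have hFn : 0 ≤ FF M ζ := Finset.sum_nonneg fun x _ => by positivity
  have hlog0 : 0 ≤ Real.log (m / μ) := Real.log_nonneg (by rw [le_div_iff₀ hμ]; linarith)
  -- the powers
  obtain ⟨P, hP⟩ : ∃ P : ℝ, P = (m / μ) ^ (2 / L) := ⟨_, rfl⟩
  obtain ⟨P', hP'⟩ : ∃ P' : ℝ, P' = ((m - 3) / μ) ^ (2 / L) := ⟨_, rfl⟩
  have hP0 : 0 < P := by rw [hP]; positivity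
  have hP'0 : 0 < P' := by rw [hP']; positivity
  have hratio : P' ≤ P * Real.exp (-(6 / (m * L))) := by
    have e1 : (m - 3) / μ = (m / μ) * (1 - 3 / m) := by field_simp
    have h1 : 0 ≤ 1 - 3 / m := by
      have : 3 / m ≤ 1 := by rw [div_le_one hm0]; linarith
      linarith
    rw [hP', hP, e1, Real.mul_rpow (by positivity) h1]
    refine mul_le_mul_of_nonneg_left ?_ (by positivity)
    have h2 : 1 - 3 / m ≤ Real.exp (-(3 / m)) := by
      have := Real.add_one_le_exp (-(3 / m)); linarith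
    calc (1 - 3 / m) ^ (2 / L) ≤ (Real.exp (-(3 / m))) ^ (2 / L) :=
          Real.rpow_le_rpow h1 h2 (by positivity)
      _ = Real.exp (-(6 / (m * L))) := by
          rw [← Real.exp_mul]; congr 1; field_simp; norm_num
  have hPle : P' ≤ P := by
    refine hratio.trans (mul_le_of_le_one_right hP0.le ?_)
    rw [Real.exp_le_one_iff]
    have : 0 < 6 / (m * L) := by positivity
    linarith
  have e1 : ∀ T ∈ sub H M, FP uL μ L sb (M \ T) (Zup H M ζ) =
      uL ^ 3 / (m - 3) * P' * FF (M \ T) (Zup H M ζ) + sb * Real.log ((m - 3) / μ) * P' := by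
    intro T hT
    unfold FP
    rw [card_next g hT, ← hP']
    ring
  rw [sum_congr rfl e1, sum_add_distrib, ← mul_sum, sum_const, nsmul_eq_mul, g.hQ]
  unfold FP
  rw [g.hm, ← hP]
  have h1 := mul_le_mul_of_nonneg_left hstep (by positivity : 0 ≤ uL ^ 3 / (m - 3) * P')
  -- term A
  have hA : uL ^ 3 / (m - 3) * P' * (FF M ζ * (1 - 3 / m + 3 / m * (1 / L))) ≤
      uL ^ 3 * FF M ζ / m * P := by
    have a1 : (1 - 3 / m + 3 / m * (1 / L)) / (m - 3) * P' ≤ 1 / m * P := by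
      have e2 : (1 - 3 / m + 3 / m * (1 / L)) / (m - 3) = 1 / m * (1 + 3 / (L * (m - 3))) := by
        field_simp
        try ring
      rw [e2, mul_assoc]
      refine mul_le_mul_of_nonneg_left ?_ (by positivity)
      have a2 : 1 + 3 / (L * (m - 3)) ≤ Real.exp (6 / (m * L)) := by
        have b1 := Real.add_one_le_exp (3 / (L * (m - 3)))
        have b2 : 3 / (L * (m - 3)) ≤ 6 / (m * L) := by
          rw [div_le_div_iff₀ (by positivity) (by positivity)]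
          nlinarith
        have b3 := Real.exp_le_exp.2 b2
        linarith
      calc (1 + 3 / (L * (m - 3))) * P' ≤ Real.exp (6 / (m * L)) *
            (P * Real.exp (-(6 / (m * L)))) :=
            mul_le_mul a2 hratio hP'0.le (Real.exp_pos _).le
        _ = P * (Real.exp (6 / (m * L)) * Real.exp (-(6 / (m * L)))) := by ring
        _ = P := by rw [← Real.exp_add]; simp
    calc _ = uL ^ 3 * FF M ζ * ((1 - 3 / m + 3 / m * (1 / L)) / (m - 3) * P') := by ring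
      _ ≤ uL ^ 3 * FF M ζ * (1 / m * P) := mul_le_mul_of_nonneg_left a1 (by positivity)
      _ = _ := by ring
  -- term B
  have hB : uL ^ 3 / (m - 3) * (3 / m * (C0 * (L + 2) ^ 2 / (1 / L) *
      (m / (u ^ 3 * Real.sqrt u)))) + sb * Real.log ((m - 3) / μ) ≤ sb * Real.log (m / μ) := by
    have b1 : Real.log ((m - 3) / μ) ≤ Real.log (m / μ) - 3 / m := by
      have e1 : (m - 3) / μ = (m / μ) * (1 - 3 / m) := by field_simp
      have h1 : 0 < 1 - 3 / m := by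
        have : 3 / m < 1 := by rw [div_lt_one hm0]; linarith
        linarith
      rw [e1, Real.log_mul (by positivity) h1.ne']
      have := Real.log_le_sub_one_of_pos h1
      linarith
    have b2 : uL ^ 3 / (m - 3) * (3 / m * (C0 * (L + 2) ^ 2 / (1 / L) *
        (m / (u ^ 3 * Real.sqrt u)))) ≤ sb * (3 / m) := by
      have c1 : (L + 2) ^ 2 ≤ 9 * L ^ 2 := by nlinarith
      have c2 : uL ^ 3 / u ^ 3 ≤ 1 := by
        rw [div_le_one (by positivity)]
        exact pow_le_pow_left₀ huL.le hul 3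
      have c3 : 1 / Real.sqrt u ≤ 1 / Real.sqrt uL := one_div_le_one_div_of_le hsu hsu2
      have c4 : 1 / (m - 3) ≤ 10 / 9 * (1 / m) := by
        rw [div_le_iff₀ hm3]
        have : 10 / 9 * (1 / m) * (m - 3) = 10 / 9 * (1 - 3 / m) := by field_simp
        rw [this]
        have : 3 / m ≤ 1 / 10 := by rw [div_le_iff₀ hm0]; linarith
        linarith
      have e2 : uL ^ 3 / (m - 3) * (3 / m * (C0 * (L + 2) ^ 2 / (1 / L) *
          (m / (u ^ 3 * Real.sqrt u)))) =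
          3 * C0 * L * ((L + 2) ^ 2 * ((uL ^ 3 / u ^ 3) * ((1 / Real.sqrt u) *
            (1 / (m - 3))))) := by
        field_simp
      rw [e2]
      have d1 : (1 / Real.sqrt u) * (1 / (m - 3)) ≤ (1 / Real.sqrt uL) * (10 / 9 * (1 / m)) :=
        mul_le_mul c3 c4 (by positivity) (by positivity)
      have d2 : (uL ^ 3 / u ^ 3) * ((1 / Real.sqrt u) * (1 / (m - 3))) ≤
          1 * ((1 / Real.sqrt uL) * (10 / 9 * (1 / m))) :=
        mul_le_mul c2 d1 (by positivity) (by norm_num)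
      have d3 : (L + 2) ^ 2 * ((uL ^ 3 / u ^ 3) * ((1 / Real.sqrt u) * (1 / (m - 3)))) ≤
          (9 * L ^ 2) * (1 * ((1 / Real.sqrt uL) * (10 / 9 * (1 / m)))) :=
        mul_le_mul c1 d2 (by positivity) (by positivity)
      have d4 := mul_le_mul_of_nonneg_left d3 (by positivity : 0 ≤ 3 * C0 * L)
      refine d4.trans (le_of_eq ?_)
      rw [hsb]
      field_simp
      try ring
    have b3 := mul_le_mul_of_nonneg_left b1 hsb0.le
    linarith
  obtain ⟨X, hXd⟩ : ∃ X, X = uL ^ 3 / (m - 3) * (3 / m * (C0 * (L + 2) ^ 2 / (1 / L) *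
      (m / (u ^ 3 * Real.sqrt u)))) := ⟨_, rfl⟩
  have hB' : (X + sb * Real.log ((m - 3) / μ)) * P' ≤ sb * Real.log (m / μ) * P := by
    rw [← hXd] at hB
    have c1 : 0 ≤ sb * Real.log (m / μ) := mul_nonneg hsb0.le hlog0
    calc _ ≤ sb * Real.log (m / μ) * P' := mul_le_mul_of_nonneg_right hB hP'0.le
      _ ≤ _ := mul_le_mul_of_nonneg_left hPle c1
  have hA' := mul_le_mul_of_nonneg_left hA hQ.le
  have hB'' := mul_le_mul_of_nonneg_left hB' hQ.le
  calc uL ^ 3 / (m - 3) * P' * ∑ T ∈ sub H M, FF (M \ T) (Zup H M ζ) +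
        Q * (sb * Real.log ((m - 3) / μ) * P') ≤
      uL ^ 3 / (m - 3) * P' * (Q * (FF M ζ * (1 - 3 / m + 3 / m * (1 / L)) +
        3 / m * (C0 * (L + 2) ^ 2 / (1 / L) * (m / (u ^ 3 * Real.sqrt u))))) +
        Q * (sb * Real.log ((m - 3) / μ) * P') := by linarith
    _ = Q * (uL ^ 3 / (m - 3) * P' * (FF M ζ * (1 - 3 / m + 3 / m * (1 / L)))) +
        Q * ((X + sb * Real.log ((m - 3) / μ)) * P') := by rw [hXd]; ring
    _ ≤ Q * (uL ^ 3 * FF M ζ / m * P) + Q * (sb * Real.log (m / μ) * P) := by linarith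
    _ = _ := by ring

/-- `step_Y`; `exp (-6ℓ/m) (m/(m-3))^{2ℓ} ≤ exp (20 ℓ / m²)`, `Q ≥ (3/20) m u^4`,
`(1 + 12 ℓ²/Q) exp (20 ℓ/m²) ((m-3)/m)^{2/L} ≤ 1` -/
theorem YP_step {S' m Q u D D' L : ℝ} (g : GS H M N κ S S' m Q u D D' 1) (hμ : 0 < μ)
    (hμm : μ ≤ m - 3) (hL : 1 ≤ L) {r ℓ : ℕ} (hℓ : 1 ≤ ℓ) (hℓr : ℓ ≤ r)
    (hr : 100 * (r : ℝ) ^ 2 * L ≤ u) (ζ : V → ℝ) :
    ∑ T ∈ sub H M, YP μ L H (M \ T) (Zup H M ζ) ℓ ≤ Q * YP μ L H M ζ ℓ := by
  have hL0 : 0 < L := by linarith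
  have hmb := g.m_big
  have hm0 : 0 < m := by linarith
  have hm3 : 0 < m - 3 := by linarith
  have hup := g.u_pos
  have hu1 := g.hu
  have hQ := g.Q_pos
  have hD := g.D_lo
  have hQlo := g.Q_lo
  have hℓ1 : (1 : ℝ) ≤ ℓ := by exact_mod_cast hℓ
  have hℓr' : (ℓ : ℝ) ≤ r := by exact_mod_cast hℓr
  have hr1 : (1 : ℝ) ≤ r := hℓ1.trans hℓr'
  have hu6 := g.hum
  -- Q is large
  have hQm : 27 / 100 * (m * u ^ 4) ≤ Q := by
    have := mul_le_mul_of_nonneg_left hD (by positivity : 0 ≤ 3 / 10 * m)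
    nlinarith
  have hr2L : (ℓ : ℝ) ^ 2 * L ≤ u / 100 := by
    have h1 : (ℓ : ℝ) ^ 2 ≤ (r : ℝ) ^ 2 := pow_le_pow_left₀ (by linarith) hℓr' 2
    have h2 := mul_le_mul_of_nonneg_right h1 hL0.le
    linarith
  have hℓL : (ℓ : ℝ) * L ≤ u / 100 := by
    refine le_trans ?_ hr2L
    have : (ℓ : ℝ) ≤ (ℓ : ℝ) ^ 2 := by nlinarith
    exact mul_le_mul_of_nonneg_right this hL0.le
  have hℓu : (ℓ : ℝ) ≤ u / 100 := by nlinarith
  have hum : u ≤ m := by
    have : u ≤ u ^ 6 := le_self_pow₀ (by linarith) (by norm_num)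
    linarith
  have hd : ∀ x ∈ M, (deg H M x : ℝ) * (2 * ℓ) ≤ (sub H M).card := by
    intro x hx
    rw [g.hQ]
    have h1 := g.hdeg x hx
    have h2 : (deg H M x : ℝ) ≤ m := by
      have h3 : (1 : ℝ) ≤ u ^ 2 := one_le_pow₀ (by linarith)
      have h4 : (0 : ℝ) ≤ deg H M x := Nat.cast_nonneg _
      nlinarith
    have h3 : (deg H M x : ℝ) * (2 * ℓ) ≤ m * (2 * (u / 100)) :=
      mul_le_mul h2 (by linarith) (by positivity) hm0.le
    have h4 : u ≤ u ^ 4 := le_self_pow₀ (by linarith) (by norm_num)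
    have h5 : m * u ≤ m * u ^ 4 := mul_le_mul_of_nonneg_left h4 hm0.le
    have h6 : m * (2 * (u / 100)) = 2 / 100 * (m * u) := by ring
    have h7 : 0 ≤ m * u := by positivity
    linarith
  have hne : (sub H M).Nonempty := by
    rw [← Finset.card_pos]
    have : (0 : ℝ) < (sub H M).card := by rw [g.hQ]; exact hQ
    exact_mod_cast this
  have hstep := step_Y g.lin ζ hℓ hne hd
  rw [g.hQ, g.hm] at hstep
  have hYn : 0 ≤ YY H M ζ ℓ := Finset.sum_nonneg fun x _ => (Real.exp_pos _).le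
  obtain ⟨P, hP⟩ : ∃ P : ℝ, P = (m / μ) ^ (2 / L) := ⟨_, rfl⟩
  obtain ⟨P', hP'⟩ : ∃ P' : ℝ, P' = ((m - 3) / μ) ^ (2 / L) := ⟨_, rfl⟩
  have hP0 : 0 < P := by rw [hP]; positivity
  have hP'0 : 0 < P' := by rw [hP']; positivity
  have hratio : P' ≤ P * Real.exp (-(6 / (m * L))) := by
    have e1 : (m - 3) / μ = (m / μ) * (1 - 3 / m) := by field_simp
    have h1 : 0 ≤ 1 - 3 / m := by
      have : 3 / m ≤ 1 := by rw [div_le_one hm0]; linarith
      linarith
    rw [hP', hP, e1, Real.mul_rpow (by positivity) h1]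
    refine mul_le_mul_of_nonneg_left ?_ (by positivity)
    have h2 : 1 - 3 / m ≤ Real.exp (-(3 / m)) := by
      have := Real.add_one_le_exp (-(3 / m)); linarith
    calc (1 - 3 / m) ^ (2 / L) ≤ (Real.exp (-(3 / m))) ^ (2 / L) :=
          Real.rpow_le_rpow h1 h2 (by positivity)
      _ = Real.exp (-(6 / (m * L))) := by
          rw [← Real.exp_mul]; congr 1; field_simp; norm_num
  have hpow : (m / (m - 3)) ^ (2 * ℓ) ≤ Real.exp (6 * ℓ / (m - 3)) := by
    have h1 : m / (m - 3) ≤ Real.exp (3 / (m - 3)) := by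
      have h2 := Real.add_one_le_exp (3 / (m - 3))
      have e : m / (m - 3) = 3 / (m - 3) + 1 := by field_simp; ring
      linarith
    calc (m / (m - 3)) ^ (2 * ℓ) ≤ (Real.exp (3 / (m - 3))) ^ (2 * ℓ) :=
          pow_le_pow_left₀ (by positivity) h1 _
      _ = Real.exp (6 * ℓ / (m - 3)) := by
          rw [← Real.exp_nat_mul]; congr 1; push_cast; ring
  have hkey : Real.exp (-(6 * ℓ / m)) * (1 + 12 * ℓ ^ 2 / Q) * (m / (m - 3)) ^ (2 * ℓ) * P' ≤
      P := by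
    have k1 : 1 + 12 * (ℓ : ℝ) ^ 2 / Q ≤ Real.exp (12 * ℓ ^ 2 / Q) := by
      have := Real.add_one_le_exp (12 * (ℓ : ℝ) ^ 2 / Q); linarith
    have k2 : Real.exp (-(6 * ℓ / m)) * (1 + 12 * (ℓ : ℝ) ^ 2 / Q) * (m / (m - 3)) ^ (2 * ℓ) * P' ≤
        Real.exp (-(6 * ℓ / m)) * Real.exp (12 * ℓ ^ 2 / Q) * Real.exp (6 * ℓ / (m - 3)) *
          (P * Real.exp (-(6 / (m * L)))) := by
      gcongr
    refine k2.trans ?_
    have e : Real.exp (-(6 * ℓ / m)) * Real.exp (12 * (ℓ : ℝ) ^ 2 / Q) *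
        Real.exp (6 * ℓ / (m - 3)) * (P * Real.exp (-(6 / (m * L)))) =
        P * Real.exp (-(6 * ℓ / m) + 12 * ℓ ^ 2 / Q + 6 * ℓ / (m - 3) + -(6 / (m * L))) := by
      rw [Real.exp_add, Real.exp_add, Real.exp_add]; ring
    rw [e]
    refine mul_le_of_le_one_right hP0.le ?_
    rw [Real.exp_le_one_iff]
    have q1 : 12 * (ℓ : ℝ) ^ 2 / Q ≤ 1 / (m * L) := by
      rw [div_le_div_iff₀ hQ (by positivity)]
      have q2 : 12 * (ℓ : ℝ) ^ 2 * (m * L) = 12 * m * ((ℓ : ℝ) ^ 2 * L) := by ring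
      rw [q2, one_mul]
      have q3 : 12 * m * ((ℓ : ℝ) ^ 2 * L) ≤ 12 * m * (u / 100) :=
        mul_le_mul_of_nonneg_left hr2L (by positivity)
      have h4 : u ≤ u ^ 4 := le_self_pow₀ (by linarith) (by norm_num)
      have h5 : m * u ≤ m * u ^ 4 := mul_le_mul_of_nonneg_left h4 hm0.le
      have h7 : 0 ≤ m * u := by positivity
      linarith
    have q4 : 6 * (ℓ : ℝ) / (m - 3) - 6 * ℓ / m ≤ 1 / (m * L) := by
      have e2 : 6 * (ℓ : ℝ) / (m - 3) - 6 * ℓ / m = 18 * ℓ / (m * (m - 3)) := by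
        field_simp; ring
      rw [e2, div_le_div_iff₀ (by positivity) (by positivity)]
      have q5 : 18 * (ℓ : ℝ) * (m * L) = 18 * m * (ℓ * L) := by ring
      rw [q5]
      have q6 : 18 * m * ((ℓ : ℝ) * L) ≤ 18 * m * (u / 100) :=
        mul_le_mul_of_nonneg_left hℓL (by positivity)
      have q7 : 18 * m * (u / 100) ≤ m * (m - 3) := by
        have : 18 * (u / 100) ≤ m - 3 := by linarith
        nlinarith
      linarith
    have q8 : 6 / (m * L) = 6 * (1 / (m * L)) := by ring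
    have q9 : 0 < 1 / (m * L) := by positivity
    linarith
  have e1 : ∀ T ∈ sub H M, YP μ L H (M \ T) (Zup H M ζ) ℓ =
      P' / (m - 3) ^ (2 * ℓ) * YY H (M \ T) (Zup H M ζ) ℓ := by
    intro T hT
    unfold YP
    rw [card_next g hT, ← hP']
    ring
  rw [sum_congr rfl e1, ← mul_sum]
  unfold YP
  rw [g.hm, ← hP]
  have h1 := mul_le_mul_of_nonneg_left hstep (by positivity : 0 ≤ P' / (m - 3) ^ (2 * ℓ))
  refine h1.trans ?_
  have h2 := mul_le_mul_of_nonneg_left hkey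
    (by positivity : 0 ≤ Q * (YY H M ζ ℓ / m ^ (2 * ℓ)))
  calc P' / (m - 3) ^ (2 * ℓ) * (Q * (Real.exp (-(6 * ℓ / m)) * (1 + 12 * ℓ ^ 2 / Q) *
        YY H M ζ ℓ)) = Q * (YY H M ζ ℓ / m ^ (2 * ℓ)) * (Real.exp (-(6 * ℓ / m)) *
        (1 + 12 * ℓ ^ 2 / Q) * (m / (m - 3)) ^ (2 * ℓ) * P') := by
        rw [div_pow]
        field_simp
    _ ≤ Q * (YY H M ζ ℓ / m ^ (2 * ℓ)) * P := h2
    _ = _ := by ring

end Vale.Agent.P046S
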