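import Vale.Agent.P046S.D4
import Vale.Agent.P046LF.Start

/-!
P046 sharp constant, module D5: start and end of a run of stage II.
-/

namespace Vale.Agent.P046S

open Finset Vale.Agent.P046 Vale.Agent.P046LF

/-- the two forms of `u` agree -/
theorem uu_eq_uk {κ uL μ m : ℝ} (huL : 0 < uL) (hμ : 0 < μ) (huL4 : uL ^ 4 = κ * μ ^ 2)
    (hm : 0 < m) : uk κ m = uu uL μ m := by
  have hu := uu_pos huL hμ hm
  have h1 : κ * m ^ 2 = (uu uL μ m ^ 2) ^ 2 := by
    have h2 : (uu uL μ m ^ 2) ^ 2 = uu uL μ m ^ 4 := by ring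
    rw [h2, uu_pow4 hμ hm, huL4]
    field_simp
  unfold uk
  rw [h1, Real.sqrt_sq (by positivity), Real.sqrt_sq hu.le]

/-- start: with `R = card M` one has `ep = 1 + 1/u ∈ [1, 2]`, `Gf = 0`, `cw ≤ 2 C3 / uL`, `G0_le` -/
theorem LamK_start (c : Cs) : ∃ C : ℝ, 1 ≤ C ∧ ∀ (V : Type) [DecidableEq V]
    (H : Finset (Finset V)) (M : Finset V) (N : V → ℝ) (κ S uL μ η : ℝ),
    0 < κ → 1000 ≤ uL → 0 < μ → uL ^ 4 = κ * μ ^ 2 → μ ≤ M.card → 0 ≤ η →
    Good κ η η H M N S → LamK c κ uL μ M.card 1 H M N S ≤ C * (η + 1 / uL) := by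
  have hAZ := c.AZ_pos
  have hATh := c.ATh_pos
  have hAN := c.AN_pos
  have hAT := c.AT_pos
  have hC3 := c.C3_pos
  have hC2 := c.C2_pos
  have hW := c.hW
  have hE : 1 ≤ Real.exp (6 * c.W + 2 * c.C2) := Real.one_le_exp (by linarith)
  refine ⟨Real.exp (6 * c.W + 2 * c.C2) *
    (1 + c.AZ + c.ATh + c.AT + c.AN + c.W + 16 + 2 * c.C3), ?_, ?_⟩
  · nlinarith
  intro V _ H M N κ S uL μ η hκ huL hμ huL4 hMμ hη g
  have huL0 : 0 < uL := by linarith
  obtain ⟨m, hm⟩ : ∃ m : ℝ, m = M.card := ⟨_, rfl⟩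
  have hm0 : 0 < m := by rw [hm]; linarith
  have hmm : μ ≤ m := by rw [hm]; exact hMμ
  have huk := uu_eq_uk huL0 hμ huL4 hm0
  obtain ⟨u, hu⟩ : ∃ u : ℝ, u = uu uL μ m := ⟨_, rfl⟩
  have hu0 : 0 < u := by rw [hu]; exact uu_pos huL0 hμ hm0
  have gS := g.hS
  have gS0 := g.hS0
  have gW := g.hW
  have gT := g.hT
  have gM := g.hM
  have gq := g.hq
  have gZ := g.hZ
  have gTh := g.hTh
  rw [← hm, huk, ← hu] at gW gT gM gq gZ gTh
  have hep : 1 ≤ ep uL μ m m := by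
    unfold ep
    rw [div_self hm0.ne', Real.sqrt_one, ← hu]
    have : 0 ≤ 1 / u := by positivity
    linarith
  have hep0 : 0 < ep uL μ m m := by linarith
  have t1 : u ^ 4 / m * WW H M N (Dr κ m S) ≤ η := by
    rw [div_mul_eq_mul_div, div_le_iff₀ hm0]; exact gW
  have t2 : 1 / (ep uL μ m m * m * u ^ 4) * ZZ H M N ≤ η := by
    rw [one_div, inv_mul_le_iff₀ (by positivity)]
    refine gZ.trans ?_
    have h2 : 1 * (η * (m * u ^ 4)) ≤ ep uL μ m m * (η * (m * u ^ 4)) :=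
      mul_le_mul_of_nonneg_right hep (by positivity)
    calc η * (m * u ^ 4) = 1 * (η * (m * u ^ 4)) := by ring
      _ ≤ _ := h2
      _ = _ := by ring
  have t3 : 1 / (ep uL μ m m * m * u ^ 12) * Th H M ≤ η := by
    rw [one_div, inv_mul_le_iff₀ (by positivity)]
    refine gTh.trans ?_
    have h2 : 1 * (η * (m * u ^ 12)) ≤ ep uL μ m m * (η * (m * u ^ 12)) :=
      mul_le_mul_of_nonneg_right hep (by positivity)
    calc η * (m * u ^ 12) = 1 * (η * (m * u ^ 12)) := by ring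
      _ ≤ _ := h2
      _ = _ := by ring
  have t4 : u ^ 3 / m * TT H M (Dr κ m S) ≤ η := by
    rw [div_mul_eq_mul_div, div_le_iff₀ hm0]; exact gT
  have t5 : u ^ 15 / m * M8 M N ≤ η := by
    rw [div_mul_eq_mul_div, div_le_iff₀ hm0]; exact gM
  have t6 : cw uL μ c.C3 m ≤ 2 * c.C3 * (1 / uL) := by
    refine (cw_le (by linarith) huL0).trans (le_of_eq ?_)
    ring
  have hi : 0 < 1 / uL := by positivity
  have hPhi : Phi c κ uL μ m 1 H M N S ≤
      (1 + c.AZ + c.ATh + c.AT + c.AN + c.W + 16 + 2 * c.C3) * (η + 1 / uL) := by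
    unfold Phi
    rw [← hm, ← hu]
    have s2 := mul_le_mul_of_nonneg_left t2 (by linarith : 0 ≤ c.AZ)
    have s3 := mul_le_mul_of_nonneg_left t3 (by linarith : 0 ≤ c.ATh)
    have s4 := mul_le_mul_of_nonneg_left t4 (by linarith : 0 ≤ c.AT)
    have s5 := mul_le_mul_of_nonneg_left t5 (by linarith : 0 ≤ c.AN)
    have s6 := mul_le_mul_of_nonneg_left gq (by linarith : 0 ≤ c.W)
    have p1 : 0 ≤ (1 + c.AZ + c.ATh + c.AT + c.AN + c.W + 16) * (1 / uL) := by positivity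
    have p2 : 0 ≤ 2 * c.C3 * η := by positivity
    have e : (1 + c.AZ + c.ATh + c.AT + c.AN + c.W + 16 + 2 * c.C3) * (η + 1 / uL) =
      η + c.AZ * η + c.ATh * η + c.AT * η + c.AN * η + c.W * η + 16 * η +
        2 * c.C3 * (1 / uL) + (1 + c.AZ + c.ATh + c.AT + c.AN + c.W + 16) * (1 / uL) +
        2 * c.C3 * η := by ring
    rw [e]
    linarith
  have hPhi0 : 0 ≤ Phi c κ uL μ m 1 H M N S :=
    Phi_nonneg huL0 hμ (by rw [← hm]; exact hmm) gS0 zero_le_one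
  have hGf := Gf_nonneg (R := m) (C1 := c.W) (C2 := C4c c uL) (by linarith)
    (C4c_nonneg (c := c) (uL := uL)) huL0 hμ hmm le_rfl
  have hG0 := G0_le (c := c) (uL := uL) (by linarith)
  unfold LamK
  rw [← hm]
  have h5 : Real.exp (G0 c uL - Gf uL μ m c.W (C4c c uL) m) ≤ Real.exp (6 * c.W + 2 * c.C2) :=
    Real.exp_le_exp.2 (by linarith)
  rw [mul_assoc, div_one]
  exact mul_le_mul h5 hPhi hPhi0 (by positivity)

/-- end (`card M = μ`): if the state is not good then the potential is large -/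
theorem LamK_end {V : Type} [DecidableEq V] {H : Finset (Finset V)} {M : Finset V} {N : V → ℝ}
    {c : Cs} {κ S uL μ R η : ℝ} (_hκ : 0 < κ) (huL : 1000 ≤ uL) (hμ : 0 < μ)
    (huL4 : uL ^ 4 = κ * μ ^ 2) (hM : (M.card : ℝ) = μ) (hμR : μ ≤ R) (_hη : 0 ≤ η)
    (hN : ∀ x ∈ M, |N x| ≤ 1 / 4) (hS : 0 ≤ S)
    (hng : ¬ Good κ η (η * (Real.sqrt (μ / R) + 1 / uL)) H M N S) :
    η ≤ LamK c κ uL μ R 1 H M N S + XP κ uL μ H M S := by
  have huL0 : 0 < uL := by linarith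
  have hR0 : 0 < R := by linarith
  have hAZ := c.AZ_pos
  have hATh := c.ATh_pos
  have hAN := c.AN_pos
  have hAT := c.AT_pos
  have hC3 := c.C3_pos
  have hW := c.hW
  have huu : uu uL μ μ = uL := by
    unfold uu; rw [div_self hμ.ne', Real.sqrt_one, mul_one]
  have huk : uk κ μ = uL := by rw [uu_eq_uk huL0 hμ huL4 hμ, huu]
  have hcw : cw uL μ 3 μ = 0 := by
    unfold cw; rw [div_self hμ.ne', Real.sqrt_one]; ring
  have hcwC : cw uL μ c.C3 μ = 0 := by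
    unfold cw; rw [div_self hμ.ne', Real.sqrt_one]; ring
  have hL := le_LamK (c := c) (κ := κ) (R := R) (H := H) (M := M) (N := N) (S := S) (K := 1)
    huL0 hμ hM.ge hS one_pos
  rw [div_one] at hL
  have hX0 : 0 ≤ XX H M (Dr κ μ S) := by
    unfold XX
    exact Finset.sum_nonneg fun x _ => le_max_right _ _
  have hXP : XP κ uL μ H M S = XX H M (Dr κ μ S) / μ := by
    unfold XP; rw [hM, hcw, add_zero]
  have hXP0 : 0 ≤ XP κ uL μ H M S := by rw [hXP]; positivity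
  obtain ⟨e, he⟩ : ∃ e : ℝ, e = Real.sqrt (μ / R) + 1 / uL := ⟨_, rfl⟩
  have hepe : ep uL μ R μ = e := by unfold ep; rw [huu, he]
  have he0 : 0 < e := by
    rw [he]
    have : 0 ≤ Real.sqrt (μ / R) := Real.sqrt_nonneg _
    positivity
  have b1 : 0 ≤ uL ^ 4 / μ * WW H M N (Dr κ μ S) := mul_nonneg (by positivity) WW_nonneg
  have b2 : 0 ≤ 1 / (e * μ * uL ^ 4) * ZZ H M N := mul_nonneg (by positivity) ZZ_nonneg
  have b3 : 0 ≤ 1 / (e * μ * uL ^ 12) * Th H M := mul_nonneg (by positivity) Th_nonneg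
  have b4 : 0 ≤ uL ^ 3 / μ * TT H M (Dr κ μ S) := mul_nonneg (by positivity) (TT_nonneg _)
  have b5 : 0 ≤ uL ^ 15 / μ * M8 M N := mul_nonneg (by positivity) M8_nonneg
  have b6 : 0 ≤ uL ^ 5 * (((sub H M).card : ℝ) / Qh κ μ + S - 1) ^ 2 := by positivity
  have d2 := mul_le_mul_of_nonneg_right hAZ b2
  have d3 := mul_le_mul_of_nonneg_right hATh b3
  have d4 := mul_le_mul_of_nonneg_right hAT b4
  have d5 := mul_le_mul_of_nonneg_right hAN b5
  have d6 := mul_le_mul_of_nonneg_right hW b6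
  have hPhi : Phi c κ uL μ R 1 H M N S = uL ^ 4 / μ * WW H M N (Dr κ μ S) +
      c.AZ * (1 / (e * μ * uL ^ 4) * ZZ H M N) + c.ATh * (1 / (e * μ * uL ^ 12) * Th H M) +
      c.AT * (uL ^ 3 / μ * TT H M (Dr κ μ S)) + c.AN * (uL ^ 15 / μ * M8 M N) +
      c.W * (uL ^ 5 * (((sub H M).card : ℝ) / Qh κ μ + S - 1) ^ 2) + 16 * (1 * S) := by
    unfold Phi
    rw [hM, huu, hepe, hcwC, add_zero]
  rw [hPhi] at hL
  by_contra hlt
  push Not at hlt
  apply hng
  rw [← he]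
  refine ⟨hN, hS, by linarith, ?_, ?_, ?_, ?_, ?_, ?_, ?_⟩
  · rw [hM, huk]
    have h1 : uL ^ 4 / μ * WW H M N (Dr κ μ S) ≤ η := by linarith
    rwa [div_mul_eq_mul_div, div_le_iff₀ hμ] at h1
  · rw [hM, huk]
    have h1 : uL ^ 3 / μ * TT H M (Dr κ μ S) ≤ η := by linarith
    rwa [div_mul_eq_mul_div, div_le_iff₀ hμ] at h1
  · rw [hM, huk]
    have h1 : uL ^ 15 / μ * M8 M N ≤ η := by linarith
    rwa [div_mul_eq_mul_div, div_le_iff₀ hμ] at h1
  · rw [hM, huk]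
    linarith
  · rw [hM]
    have h1 : XX H M (Dr κ μ S) / μ ≤ η := by rw [← hXP]; linarith
    rwa [div_le_iff₀ hμ] at h1
  · rw [hM, huk]
    have h1 : 1 / (e * μ * uL ^ 4) * ZZ H M N ≤ η := by linarith
    rw [one_div, inv_mul_le_iff₀ (by positivity)] at h1
    refine h1.trans (le_of_eq ?_)
    ring
  · rw [hM, huk]
    have h1 : 1 / (e * μ * uL ^ 12) * Th H M ≤ η := by linarith
    rw [one_div, inv_mul_le_iff₀ (by positivity)] at h1
    refine h1.trans (le_of_eq ?_)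
    ring

end Vale.Agent.P046S
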