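import Vale.Agent.P046S.D5

/-!
P046 sharp constant, module D6: one run of stage II without cycles.

`cost_le_abs` with `Aux = (V → ℝ) × ℝ` (`N`, `S`), `upd` = (`Nup`, `S'`),
`Pot = (LamK + XP) / η'` if `η' ≤ 1` (so `Pot ≥ 1` if `LamK ≥ 1`), `Inv`: `μ ≤ card M ≤ R`, `|N| ≤ 1/4`,
`0 ≤ S`, degrees `≤ D0`. Steps: `gs_of`, `LamK_step`, `XP_step`, `GS.Nup_le`, `GS.S_le`.
-/

namespace Vale.Agent.P046S

open Finset Vale.Agent.P046 Vale.Agent.P046LF

theorem D6_XX_nonneg {V : Type} [DecidableEq V] (H : Finset (Finset V)) (M : Finset V) (D : ℝ) :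
    0 ≤ XX H M D := by
  unfold XX
  exact Finset.sum_nonneg fun x _ => le_max_right _ _

theorem D6_XP_nonneg {V : Type} [DecidableEq V] {κ uL μ : ℝ} (H : Finset (Finset V))
    (M : Finset V) (S : ℝ) (huL : 0 < uL) (hμ : 0 < μ) (hm : μ ≤ (M.card : ℝ)) :
    0 ≤ XP κ uL μ H M S := by
  unfold XP
  have h1 := D6_XX_nonneg H M (Dr κ M.card S)
  have h2 := cw_nonneg (C := 3) (by norm_num) huL hμ hm
  have h3 : (0 : ℝ) ≤ M.card := Nat.cast_nonneg _
  positivity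

open Classical in
theorem run : ∃ C : ℝ, 1 ≤ C ∧ ∀ (V : Type) [DecidableEq V] (H : Finset (Finset V))
    (M : Finset V) (N : V → ℝ) (κ S uL μ η η' D0 : ℝ) (k : ℕ), IsLin3 H → 0 < κ → 1000 ≤ uL →
    0 < μ → uL ^ 4 = κ * μ ^ 2 → uL ^ 6 * (M.card : ℝ) ^ 2 ≤ μ ^ 3 → D0 * uL ^ 2 ≤ μ →
    (∀ x ∈ M, (deg H M x : ℝ) ≤ D0) → (M.card : ℝ) = μ + 3 * k → 0 ≤ η → 0 < η' → η' ≤ 1 →
    Good κ η η H M N S →
    cost H (fun M' => if GoodE κ η' (η' * (Real.sqrt (μ / M.card) + 1 / uL)) H M' then 0 else 1)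
      k M ≤ C * (η + 1 / uL) / η' := by
  obtain ⟨c, hc⟩ := exists_Steps
  obtain ⟨C, hC1, hC⟩ := LamK_start c
  refine ⟨C + 6, by linarith, ?_⟩
  intro V _ H M N κ S uL μ η η' D0 k hH hκ huL hμ huL4 hR6 hD0 hdeg hk hη hη' hη'1 hG
  have huL0 : 0 < uL := by linarith
  obtain ⟨R, hR⟩ : ∃ R : ℝ, R = M.card := ⟨_, rfl⟩
  have hk0 : (0 : ℝ) ≤ k := Nat.cast_nonneg _
  have hμM : μ ≤ (M.card : ℝ) := by rw [hk]; linarith
  -- the next `S`
  obtain ⟨Sn, hSn⟩ : ∃ Sn : Finset V → ℝ → ℝ, ∀ M S, Sn M S =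
      S + (S2 H M - M.card * (3 * (sub H M).card / M.card) ^ 2) /
        ((sub H M).card * Qh κ (M.card - 3)) := ⟨fun M S => _, fun _ _ => rfl⟩
  obtain ⟨upd, hupd⟩ : ∃ upd : Finset V → (V → ℝ) × ℝ → Finset V → (V → ℝ) × ℝ,
      ∀ M a T, upd M a T = (Nup H M a.1 (Dr κ (M.card - 3) (Sn M a.2)) T, Sn M a.2) :=
    ⟨fun M a T => _, fun _ _ _ => rfl⟩
  obtain ⟨Pot, hPot⟩ : ∃ Pot : Finset V → (V → ℝ) × ℝ → ℝ, ∀ M a, Pot M a =
      (LamK c κ uL μ R 1 H M a.1 a.2 + XP κ uL μ H M a.2) / η' := ⟨fun M a => _, fun _ _ => rfl⟩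
  obtain ⟨Inv, hInv⟩ : ∃ Inv : Finset V → (V → ℝ) × ℝ → Prop, ∀ M a, Inv M a ↔
      (μ ≤ (M.card : ℝ) ∧ (M.card : ℝ) ≤ R ∧ (∀ x ∈ M, |a.1 x| ≤ 1 / 4) ∧ 0 ≤ a.2 ∧
        ∀ x ∈ M, (deg H M x : ℝ) ≤ D0) := ⟨fun M a => _, fun _ _ => Iff.rfl⟩
  have hμR : μ ≤ R := by rw [hR]; exact hμM
  have hmain := cost_le_abs (H := H) (μ := μ) upd Pot Inv
    (g := fun M' => if GoodE κ η' (η' * (Real.sqrt (μ / M.card) + 1 / uL)) H M' then 0 else 1)
    hH (fun M' => by split_ifs <;> norm_num) ?_ ?_ k M (N, S) hk ?_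
  · refine hmain.trans ?_
    rw [hPot]
    dsimp only
    rw [div_le_div_iff_of_pos_right hη']
    have h1 := hC V H M N κ S uL μ η hκ huL hμ huL4 hμM hη hG
    rw [← hR] at h1
    have h2 : XP κ uL μ H M S ≤ η + 6 / uL := by
      unfold XP
      have h3 := cw_le (uL := uL) (μ := μ) (C := 3) (m := M.card) (by norm_num) huL0
      have h4 := hG.hX
      have hM0 : (0 : ℝ) < M.card := by linarith
      have h5 : XX H M (Dr κ M.card S) / M.card ≤ η := by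
        rw [div_le_iff₀ hM0]; exact h4
      have h6 : 2 * 3 / uL = 6 / uL := by norm_num
      linarith
    have h7 : (0 : ℝ) ≤ 1 / uL := by positivity
    have h8 : 6 / uL = 6 * (1 / uL) := by ring
    nlinarith
  · -- end
    intro M' a hM' hI
    rw [hInv] at hI
    obtain ⟨i1, i2, i3, i4, i5⟩ := hI
    rw [hPot]
    have hX := D6_XP_nonneg (κ := κ) H M' a.2 huL0 hμ i1
    have hL := LamK_nonneg (c := c) (κ := κ) (R := R) (H := H) (M := M') (N := a.1) (S := a.2)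
      (K := 1) huL0 hμ i1 i4 one_pos
    split_ifs with hge
    · positivity
    · rw [one_le_div hη']
      apply LamK_end hκ huL hμ huL4 hM' hμR hη'.le i3 i4
      intro hgood
      apply hge
      refine ⟨a.1, a.2, ?_⟩
      rw [← hR]
      exact hgood
  · -- step
    intro M' a hM' hI
    rw [hInv] at hI
    obtain ⟨i1, i2, i3, i4, i5⟩ := hI
    have hX := D6_XP_nonneg (κ := κ) H M' a.2 huL0 hμ i1
    by_cases hL1 : 1 ≤ LamK c κ uL μ R 1 H M' a.1 a.2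
    · left
      rw [hPot, one_le_div hη']
      linarith
    right
    push Not at hL1
    have hR6' : uL ^ 6 * R ^ 2 ≤ μ ^ 3 := by rw [hR]; exact hR6
    obtain ⟨S', D', gs, hS', hD', huu, -, -, hne, -, -⟩ := gs_of hH hκ huL hμ huL4 hR6' hD0 i1 i2
      i3 i4 i5 hL1
    have hSS : Sn M' a.2 = S' := by rw [hSn, hS']
    refine ⟨hne, ?_, ?_⟩
    · intro T hT
      rw [hInv, hupd, hSS]
      dsimp only
      have hcn := card_next gs hT
      refine ⟨by rw [hcn]; linarith, by rw [hcn]; linarith, ?_, i4.trans gs.S_le, ?_⟩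
      · intro x hx
        rw [← hD']
        exact gs.Nup_le hT hx
      · intro x hx
        have h2 := deg_le_of_subset (H := H) (M := M') (M' := M' \ T) sdiff_subset x
        have h2' : (deg H (M' \ T) x : ℝ) ≤ deg H M' x := by exact_mod_cast h2
        exact h2'.trans (i5 x (mem_sdiff.1 hx).1)
    · have e1 : ∀ T ∈ sub H M', Pot (M' \ T) (upd M' a T) =
          1 / η' * (LamK c κ uL μ R 1 H (M' \ T) (Nup H M' a.1 D' T) S' +
            XP κ uL μ H (M' \ T) S') := by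
        intro T _
        rw [hPot, hupd, hSS, ← hD']
        ring
      rw [sum_congr rfl e1, ← mul_sum, sum_add_distrib, hPot]
      have s1 := LamK_step (R := R) hc gs huL0 hμ i1 rfl (one_le_pow₀ (by linarith))
      have s2 := XP_step gs huL0 hμ rfl
      have h3 : 0 ≤ 1 / η' := by positivity
      calc _ ≤ 1 / η' * (((sub H M').card : ℝ) * LamK c κ uL μ R 1 H M' a.1 a.2 +
            ((sub H M').card : ℝ) * XP κ uL μ H M' a.2) :=
            mul_le_mul_of_nonneg_left (add_le_add s1 s2) h3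
        _ = _ := by ring
  · rw [hInv]
    exact ⟨hμM, by rw [hR], hG.hN, hG.hS0, hdeg⟩

end Vale.Agent.P046S
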