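import Vale.Agent.P046S.D5

/-!
P046 sharp constant, module D7: one run of stage II with slow points and cycles.

`cost_le_abs` with `Aux = (V → ℝ) × ℝ × (V → ℝ)` (`N`, `S`, `ζ`), start `ζ = 0`,
`Pot = (LamK + XP) / η' + FP + ∑_{ℓ=1..r} (e^{2ℓ} μ^{2ℓ} r / b) YP_ℓ`; `Inv` as in D6 and
`ζ x + log (m/μ) ≤ L` (`log m - log (m-3) ≥ 3/m`). End: `Lset = {x ∈ M' | 1 < ζ x}`,
`card Lset ≤ FF ≤ μ / uL ^ 3` if `FP ≤ 1`, `le_YY`. Start: `FP = sb log (m/μ) (m/μ)^{2/L} ≤ 9 sb L`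
(`log (m/μ) ≤ L`, `(m/μ)^{2/L} ≤ e²`), `YY_zero`.
-/

namespace Vale.Agent.P046S

open Finset Vale.Agent.P046 Vale.Agent.P046LF

variable {V : Type} [DecidableEq V]

/-- next `S` -/
noncomputable def D7_S (κ : ℝ) (H : Finset (Finset V)) (M : Finset V) (S : ℝ) : ℝ :=
  S + (S2 H M - M.card * (3 * (sub H M).card / M.card) ^ 2) /
    ((sub H M).card * Qh κ (M.card - 3))

/-- next state of the auxiliary data -/
noncomputable def D7_upd (κ : ℝ) (H : Finset (Finset V)) (M : Finset V)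
    (a : (V → ℝ) × ℝ × (V → ℝ)) (T : Finset V) : (V → ℝ) × ℝ × (V → ℝ) :=
  (Nup H M a.1 (Dr κ (M.card - 3) (D7_S κ H M a.2.1)) T, D7_S κ H M a.2.1, Zup H M a.2.2)

/-- coefficient of the cycle potentials -/
noncomputable def D7_co (μ b : ℝ) (r ℓ : ℕ) : ℝ := Real.exp (2 * ℓ) * μ ^ (2 * ℓ) * (r / b)

/-- cycle part of the potential -/
noncomputable def D7_cy (μ L b : ℝ) (r : ℕ) (H : Finset (Finset V)) (M : Finset V)
    (ζ : V → ℝ) : ℝ := ∑ ℓ ∈ Icc 1 r, D7_co μ b r ℓ * YP μ L H M ζ ℓ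

noncomputable def D7_pot (c : Cs) (κ uL μ R L sb b η' : ℝ) (r : ℕ) (H : Finset (Finset V))
    (M : Finset V) (a : (V → ℝ) × ℝ × (V → ℝ)) : ℝ :=
  (LamK c κ uL μ R 1 H M a.1 a.2.1 + XP κ uL μ H M a.2.1) / η' + FP uL μ L sb M a.2.2 +
    D7_cy μ L b r H M a.2.2

def D7_inv (μ R L : ℝ) (D0 : ℕ) (H : Finset (Finset V)) (M : Finset V)
    (a : (V → ℝ) × ℝ × (V → ℝ)) : Prop :=
  μ ≤ M.card ∧ (M.card : ℝ) ≤ R ∧ (∀ x ∈ M, |a.1 x| ≤ 1 / 4) ∧ 0 ≤ a.2.1 ∧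
    (∀ x ∈ M, deg H M x ≤ D0) ∧ (∀ x ∈ M, a.2.2 x + Real.log (M.card / μ) ≤ L)

variable {H : Finset (Finset V)} {M : Finset V}

theorem D7_YY_nonneg (ζ : V → ℝ) (ℓ : ℕ) : 0 ≤ YY H M ζ ℓ :=
  Finset.sum_nonneg fun _ _ => (Real.exp_pos _).le

theorem D7_FF_nonneg (ζ : V → ℝ) : 0 ≤ FF M ζ := Finset.sum_nonneg fun _ _ => sq_nonneg _

theorem D7_XX_nonneg (D : ℝ) : 0 ≤ XX H M D := Finset.sum_nonneg fun _ _ => le_max_right _ _

theorem D7_cw_nonneg {uL μ m : ℝ} (huL : 0 < uL) (hμ : 0 < μ) (hm : μ ≤ m) : 0 ≤ cw uL μ 3 m := by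
  have hm0 : 0 < m := by linarith
  have h1 : Real.sqrt (μ / m) ≤ 1 := by
    rw [Real.sqrt_le_iff]
    exact ⟨zero_le_one, by rw [one_pow, div_le_one hm0]; exact hm⟩
  unfold cw
  have : 0 ≤ 1 - Real.sqrt (μ / m) := by linarith
  positivity

theorem D7_XP_nonneg {κ uL μ S : ℝ} (huL : 0 < uL) (hμ : 0 < μ) (hm : μ ≤ (M.card : ℝ)) :
    0 ≤ XP κ uL μ H M S := by
  have h1 := D7_XX_nonneg (H := H) (M := M) (Dr κ M.card S)
  have h2 := D7_cw_nonneg huL hμ hm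
  unfold XP
  positivity

theorem D7_FP_nonneg {uL μ L sb : ℝ} {ζ : V → ℝ} (huL : 0 < uL) (hμ : 0 < μ) (hsb : 0 ≤ sb)
    (hm : μ ≤ (M.card : ℝ)) : 0 ≤ FP uL μ L sb M ζ := by
  have hm0 : (0 : ℝ) < M.card := by linarith
  have h1 := D7_FF_nonneg (M := M) ζ
  have h2 : 0 ≤ Real.log (M.card / μ) := Real.log_nonneg (by rw [one_le_div hμ]; exact hm)
  unfold FP
  positivity

theorem D7_co_nonneg {μ b : ℝ} (hμ : 0 < μ) (hb : 0 < b) (r ℓ : ℕ) : 0 ≤ D7_co μ b r ℓ := by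
  unfold D7_co; positivity

theorem D7_YP_nonneg {μ L : ℝ} (hμ : 0 < μ) (ζ : V → ℝ) (ℓ : ℕ) : 0 ≤ YP μ L H M ζ ℓ := by
  have h1 := D7_YY_nonneg (H := H) (M := M) ζ ℓ
  unfold YP
  positivity

theorem D7_cy_nonneg {μ L b : ℝ} (hμ : 0 < μ) (hb : 0 < b) (r : ℕ) (ζ : V → ℝ) :
    0 ≤ D7_cy μ L b r H M ζ :=
  Finset.sum_nonneg fun ℓ _ => mul_nonneg (D7_co_nonneg hμ hb r ℓ) (D7_YP_nonneg hμ ζ ℓ)

/-- the slow points at the end -/
theorem D7_slow (ζ : V → ℝ) : ((M.filter fun x => 1 < ζ x).card : ℝ) ≤ FF M ζ := by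
  unfold FF
  rw [Finset.card_eq_sum_ones, Nat.cast_sum]
  refine (Finset.sum_le_sum (fun x hx => ?_)).trans
    (Finset.sum_le_sum_of_subset_of_nonneg (Finset.filter_subset _ _) fun _ _ _ => sq_nonneg _)
  have h1 : 1 < ζ x := (Finset.mem_filter.1 hx).2
  have h2 : 1 < max (ζ x) 0 := lt_max_of_lt_left h1
  rw [Nat.cast_one]
  nlinarith

open Classical in
theorem D7_nCy (ζ : V → ℝ) (r : ℕ) : nCy H M (M.filter fun x => 1 < ζ x) r ≤
    ∑ ℓ ∈ Icc 1 r, Real.exp (2 * ℓ) * YY H M ζ ℓ := by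
  unfold nCy
  have hsub : Icc 1 r ⊆ range (r + 1) := by
    intro ℓ hℓ; rw [mem_Icc] at hℓ; rw [mem_range]; omega
  rw [← Finset.sum_subset hsub]
  · refine Finset.sum_le_sum fun ℓ hℓ => ?_
    refine le_trans ?_ (le_YY ζ ℓ)
    exact_mod_cast Finset.card_le_card (fun P hP => by
      simp only [mem_filter] at hP ⊢
      exact ⟨hP.1, hP.2.2⟩)
  · intro ℓ h1 h2
    rw [mem_range] at h1
    rw [mem_Icc] at h2
    have h3 : ℓ = 0 := by omega
    subst h3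
    simp

theorem D7_end {c : Cs} {κ uL μ R L sb b η' : ℝ} {r D0 : ℕ} (hκ : 0 < κ) (huL : 1000 ≤ uL)
    (hμ : 0 < μ) (huL4 : uL ^ 4 = κ * μ ^ 2) (hη' : 0 < η') (hsb : 0 ≤ sb)
    (hb : 0 < b) (hr : 1 ≤ r) (hμR : μ ≤ R) {a : (V → ℝ) × ℝ × (V → ℝ)} (hM : (M.card : ℝ) = μ)
    (hinv : D7_inv μ R L D0 H M a)
    (hng : ¬ (GoodE κ η' (η' * (Real.sqrt (μ / R) + 1 / uL)) H M ∧
      CycE H M (μ / uL ^ 3) b r)) : 1 ≤ D7_pot c κ uL μ R L sb b η' r H M a := by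
  obtain ⟨i1, i2, i3, i4, i5, i6⟩ := hinv
  have huL0 : 0 < uL := by linarith
  have hL0 : 0 ≤ LamK c κ uL μ R 1 H M a.1 a.2.1 :=
    LamK_nonneg huL0 hμ i1 i4 one_pos
  have hX0 : 0 ≤ XP κ uL μ H M a.2.1 := D7_XP_nonneg huL0 hμ i1
  have hF0 : 0 ≤ FP uL μ L sb M a.2.2 := D7_FP_nonneg huL0 hμ hsb i1
  have hC0 : 0 ≤ D7_cy μ L b r H M a.2.2 := D7_cy_nonneg hμ hb r _
  have hLX : 0 ≤ (LamK c κ uL μ R 1 H M a.1 a.2.1 + XP κ uL μ H M a.2.1) / η' := by positivity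
  unfold D7_pot
  by_cases h1 : GoodE κ η' (η' * (Real.sqrt (μ / R) + 1 / uL)) H M
  · have h2 : ¬ CycE H M (μ / uL ^ 3) b r := fun h => hng ⟨h1, h⟩
    unfold CycE at h2
    push Not at h2
    have h3 := h2 (M.filter fun x => 1 < a.2.2 x)
    have hr1 : (M.card : ℝ) / μ = 1 := by rw [hM, div_self hμ.ne']
    by_cases h4 : ((M.filter fun x => 1 < a.2.2 x).card : ℝ) ≤ μ / uL ^ 3
    · have h5 := h3 h4
      have h6 := D7_nCy (H := H) (M := M) a.2.2 r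
      have h7 : D7_cy μ L b r H M a.2.2 =
          r / b * ∑ ℓ ∈ Icc 1 r, Real.exp (2 * ℓ) * YY H M a.2.2 ℓ := by
        unfold D7_cy
        rw [Finset.mul_sum]
        refine Finset.sum_congr rfl fun ℓ _ => ?_
        unfold YP D7_co
        rw [hr1, Real.one_rpow, hM]
        have : μ ^ (2 * ℓ) ≠ 0 := by positivity
        field_simp
      have h8 : 1 ≤ D7_cy μ L b r H M a.2.2 := by
        rw [h7]
        have h9 : b ≤ ∑ ℓ ∈ Icc 1 r, Real.exp (2 * ℓ) * YY H M a.2.2 ℓ := (h5.trans_le h6).le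
        have h10 : (1 : ℝ) ≤ r := by exact_mod_cast hr
        calc (1 : ℝ) ≤ r := h10
          _ = r / b * b := by field_simp
          _ ≤ _ := mul_le_mul_of_nonneg_left h9 (by positivity)
      linarith
    · push Not at h4
      have h5 := D7_slow (M := M) a.2.2
      have h6 : 1 ≤ FP uL μ L sb M a.2.2 := by
        unfold FP
        rw [hr1, Real.log_one, mul_zero, add_zero, Real.one_rpow, mul_one, hM, one_le_div hμ]
        have h7 : μ / uL ^ 3 ≤ FF M a.2.2 := (h4.trans_le h5).le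
        rw [div_le_iff₀ (by positivity)] at h7
        linarith
      linarith
  · have h2 : ¬ Good κ η' (η' * (Real.sqrt (μ / R) + 1 / uL)) H M a.1 a.2.1 :=
      fun h => h1 ⟨a.1, a.2.1, h⟩
    have h3 := LamK_end (c := c) hκ huL hμ huL4 hM hμR hη'.le i3 i4 h2
    have h4 : 1 ≤ (LamK c κ uL μ R 1 H M a.1 a.2.1 + XP κ uL μ H M a.2.1) / η' := by
      rw [one_le_div hη']; exact h3
    linarith

theorem D7_step {c : Cs} (hc : Steps c) {CF : ℝ} (hCF1 : 1 ≤ CF)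
    (hCF : ∀ (V : Type) [DecidableEq V] (H : Finset (Finset V))
    (M : Finset V) (N ζ : V → ℝ) (κ S S' m Q u D D' uL μ L : ℝ), GS H M N κ S S' m Q u D D' 1 →
    u ^ 15 * M8 M N ≤ m → u ^ 5 * (Q / Qh κ m + S - 1) ^ 2 ≤ 1 → 0 < uL → 0 < μ → μ ≤ m →
    u = uu uL μ m → 1 ≤ L → (∀ x ∈ M, ζ x ≤ L) →
    ∑ T ∈ sub H M, FP uL μ L (CF * L ^ 3 / Real.sqrt uL) (M \ T) (Zup H M ζ) ≤
      Q * FP uL μ L (CF * L ^ 3 / Real.sqrt uL) M ζ)
    {κ uL μ R L b η' : ℝ} {r D0 : ℕ} (hH : IsLin3 H) (hκ : 0 < κ) (huL : 1000 ≤ uL)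
    (hμ : 0 < μ) (huL4 : uL ^ 4 = κ * μ ^ 2) (hR6 : uL ^ 6 * R ^ 2 ≤ μ ^ 3)
    (hD0 : D0 * uL ^ 2 ≤ μ) (hη' : 0 < η') (hη'1 : η' ≤ 1) (hb : 0 < b)
    (hL : 1 ≤ L) (hrL : 100 * (r : ℝ) ^ 2 * L ≤ uL) {a : (V → ℝ) × ℝ × (V → ℝ)}
    (hM3 : μ + 3 ≤ (M.card : ℝ)) (hinv : D7_inv μ R L D0 H M a) :
    1 ≤ D7_pot c κ uL μ R L (CF * L ^ 3 / Real.sqrt uL) b η' r H M a ∨
      ((sub H M).Nonempty ∧
      (∀ T ∈ sub H M, D7_inv μ R L D0 H (M \ T) (D7_upd κ H M a T)) ∧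
      ∑ T ∈ sub H M, D7_pot c κ uL μ R L (CF * L ^ 3 / Real.sqrt uL) b η' r H (M \ T)
        (D7_upd κ H M a T) ≤
        (sub H M).card * D7_pot c κ uL μ R L (CF * L ^ 3 / Real.sqrt uL) b η' r H M a) := by
  have huL0 : 0 < uL := by linarith
  obtain ⟨i1, i2, i3, i4, i5, i6⟩ := hinv
  have hm0 : (0 : ℝ) < M.card := by linarith
  have hsb : 0 ≤ CF * L ^ 3 / Real.sqrt uL := by positivity
  have hL0 : 0 ≤ LamK c κ uL μ R 1 H M a.1 a.2.1 :=
    LamK_nonneg huL0 hμ i1 i4 one_pos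
  have hX0 : 0 ≤ XP κ uL μ H M a.2.1 := D7_XP_nonneg huL0 hμ i1
  have hF0 : 0 ≤ FP uL μ L (CF * L ^ 3 / Real.sqrt uL) M a.2.2 := D7_FP_nonneg huL0 hμ hsb i1
  have hC0 : 0 ≤ D7_cy μ L b r H M a.2.2 := D7_cy_nonneg hμ hb r _
  rcases le_or_gt 1 (LamK c κ uL μ R 1 H M a.1 a.2.1) with h | h
  · left
    unfold D7_pot
    have h1 : 1 ≤ (LamK c κ uL μ R 1 H M a.1 a.2.1 + XP κ uL μ H M a.2.1) / η' := by
      rw [one_le_div hη']; linarith
    linarith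
  right
  obtain ⟨S', D', g, hS', hD', huk, hM8, hq, hne, _, _⟩ := gs_of hH hκ huL hμ huL4 hR6 hD0 i1 i2
    i3 i4 (fun x hx => by exact_mod_cast i5 x hx) h
  have hS'' : D7_S κ H M a.2.1 = S' := by rw [hS']; rfl
  have hul : uL ≤ uu uL μ M.card := uL_le_uu huL0 hμ i1
  have hlog0 : 0 ≤ Real.log (M.card / μ) := Real.log_nonneg (by rw [one_le_div hμ]; exact i1)
  have hupd : ∀ T, D7_upd κ H M a T = (Nup H M a.1 D' T, S', Zup H M a.2.2) := by
    intro T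
    unfold D7_upd
    rw [hS'', ← hD']
  have hQ0 : (0 : ℝ) < (sub H M).card := by exact_mod_cast hne.card_pos
  refine ⟨hne, ?_, ?_⟩
  · intro T hT
    rw [hupd]
    have hcn := card_next g hT
    refine ⟨by rw [hcn]; linarith, by rw [hcn]; linarith, fun x hx => g.Nup_le hT hx,
      i4.trans g.S_le, fun x hx => (deg_le_of_subset sdiff_subset x).trans
        (i5 x (mem_sdiff.1 hx).1), ?_⟩
    intro x hx
    have hx' := (mem_sdiff.1 hx).1
    have h1 := i6 x hx'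
    have h2 : Real.log ((M \ T).card / μ) ≤ Real.log (M.card / μ) - 3 / M.card := by
      rw [hcn]
      have h3 : 0 < (M.card : ℝ) - 3 := by linarith
      have e : ((M.card : ℝ) - 3) / μ = (M.card / μ) * (1 - 3 / M.card) := by
        field_simp
      have h4 : 0 < 1 - 3 / (M.card : ℝ) := by
        rw [sub_pos, div_lt_one hm0]; linarith
      rw [e, Real.log_mul (by positivity) h4.ne']
      have h5 := Real.log_le_sub_one_of_pos h4
      linarith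
    have h6 : Zup H M a.2.2 x ≤ a.2.2 x + 3 / M.card := by
      unfold Zup
      have : 0 ≤ (deg H M x : ℝ) / (sub H M).card := by positivity
      linarith
    show Zup H M a.2.2 x + Real.log ((M \ T).card / μ) ≤ L
    linarith
  · have s1 := LamK_step (R := R) hc g huL0 hμ i1 rfl (one_le_pow₀ (by linarith))
    have s2 := XP_step g huL0 hμ rfl
    have s3 := hCF V H M a.1 a.2.2 κ a.2.1 S' M.card (sub H M).card (uu uL μ M.card)
      (Dr κ M.card a.2.1) D' uL μ L g hM8 hq huL0 hμ i1 rfl hL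
      (fun x hx => by have := i6 x hx; linarith)
    have s4 : ∑ T ∈ sub H M, D7_cy μ L b r H (M \ T) (Zup H M a.2.2) ≤
        (sub H M).card * D7_cy μ L b r H M a.2.2 := by
      unfold D7_cy
      rw [Finset.sum_comm, Finset.mul_sum]
      refine Finset.sum_le_sum fun ℓ hℓ => ?_
      rw [mem_Icc] at hℓ
      have s5 := YP_step (L := L) g hμ (by linarith) hL hℓ.1 hℓ.2 (hrL.trans hul) a.2.2
      rw [← Finset.mul_sum]
      have := mul_le_mul_of_nonneg_left s5 (D7_co_nonneg hμ hb r ℓ)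
      linarith
    unfold D7_pot
    rw [Finset.sum_congr rfl fun T _ => by rw [hupd T]]
    simp only
    rw [Finset.sum_add_distrib, Finset.sum_add_distrib, ← Finset.sum_div, Finset.sum_add_distrib]
    have s6 : (∑ T ∈ sub H M, LamK c κ uL μ R 1 H (M \ T) (Nup H M a.1 D' T) S' +
        ∑ T ∈ sub H M, XP κ uL μ H (M \ T) S') / η' ≤
        (sub H M).card * ((LamK c κ uL μ R 1 H M a.1 a.2.1 + XP κ uL μ H M a.2.1) / η') := by
      rw [← mul_div_assoc]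
      refine div_le_div_of_nonneg_right ?_ hη'.le
      linarith
    linarith

open Classical in
theorem run2 : ∃ C : ℝ, 1 ≤ C ∧ ∀ (V : Type) [DecidableEq V] (H : Finset (Finset V))
    (M : Finset V) (N : V → ℝ) (κ S uL μ η η' b L : ℝ) (D0 k r : ℕ), IsLin3 H → 0 < κ →
    1000 ≤ uL → 0 < μ → uL ^ 4 = κ * μ ^ 2 → uL ^ 6 * (M.card : ℝ) ^ 2 ≤ μ ^ 3 →
    D0 * uL ^ 2 ≤ μ → (∀ x ∈ M, deg H M x ≤ D0) → (M.card : ℝ) = μ + 3 * k → 0 ≤ η → 0 < η' →
    η' ≤ 1 → Good κ η η H M N S → 0 < b → 1 ≤ r → 1 ≤ L → Real.log (M.card / μ) ≤ L →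
    100 * (r : ℝ) ^ 2 * L ≤ uL →
    cost H (fun M' => if GoodE κ η' (η' * (Real.sqrt (μ / M.card) + 1 / uL)) H M' ∧
      CycE H M' (μ / uL ^ 3) b r then 0 else 1) k M ≤
      C * (η + 1 / uL) / η' + C * L ^ 4 / Real.sqrt uL +
        r / b * ∑ ℓ ∈ Finset.Icc 1 r, Real.exp (2 * ℓ + 2) *
          (M.card * (2 * D0) ^ (ℓ - 1) * (μ / M.card) ^ (2 * ℓ)) := by
  obtain ⟨c, hc⟩ := exists_Steps
  obtain ⟨CF, hCF1, hCF⟩ := FP_step
  obtain ⟨C1, hC11, hC1⟩ := LamK_start c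
  refine ⟨C1 + 7 + 9 * CF, by linarith, ?_⟩
  intro V _ H M N κ S uL μ η η' b L D0 k r hH hκ huL hμ huL4 hR6 hD0 hdeg hM hη hη' hη'1 hgood hb
    hr hL hlog hrL
  have huL0 : 0 < uL := by linarith
  have hk0 : (0 : ℝ) ≤ k := by positivity
  have hmμ : μ ≤ (M.card : ℝ) := by rw [hM]; linarith
  have hm0 : (0 : ℝ) < M.card := by linarith
  have hsb : 0 ≤ CF * L ^ 3 / Real.sqrt uL := by positivity
  have hmain := cost_le_abs (H := H) (D7_upd κ H)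
    (D7_pot c κ uL μ M.card L (CF * L ^ 3 / Real.sqrt uL) b η' r H)
    (D7_inv μ M.card L D0 H)
    (g := fun M' => if GoodE κ η' (η' * (Real.sqrt (μ / M.card) + 1 / uL)) H M' ∧
      CycE H M' (μ / uL ^ 3) b r then 0 else 1) (μ := μ) hH
    (fun M' => by split_ifs <;> norm_num)
    (fun M' a hM' hinv => by
      split_ifs with h
      · obtain ⟨i1, i2, i3, i4, i5, i6⟩ := hinv
        have hL0 : 0 ≤ LamK c κ uL μ M.card 1 H M' a.1 a.2.1 :=
          LamK_nonneg huL0 hμ i1 i4 one_pos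
        have hX0 : 0 ≤ XP κ uL μ H M' a.2.1 := D7_XP_nonneg huL0 hμ i1
        have hF0 : 0 ≤ FP uL μ L (CF * L ^ 3 / Real.sqrt uL) M' a.2.2 :=
          D7_FP_nonneg huL0 hμ hsb i1
        have hC0 : 0 ≤ D7_cy μ L b r H M' a.2.2 := D7_cy_nonneg hμ hb r _
        unfold D7_pot
        positivity
      · exact D7_end hκ huL hμ huL4 hη' hsb hb hr hmμ hM' hinv h)
    (fun M' a hM' hinv => D7_step hc hCF1 hCF hH hκ huL hμ huL4 hR6 hD0 hη' hη'1 hb hL hrL hM'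
      hinv) k M (N, S, fun _ => 0) hM
    ⟨hmμ, le_rfl, hgood.hN, hgood.hS0, hdeg, fun x _ => by simpa using hlog⟩
  refine hmain.trans ?_
  -- the start
  have t1 := hC1 V H M N κ S uL μ η hκ huL hμ huL4 hmμ hη hgood
  have t2 : XP κ uL μ H M S ≤ η + 6 / uL := by
    unfold XP
    refine add_le_add ?_ ?_
    · rw [div_le_iff₀ hm0]; exact hgood.hX
    · unfold cw
      have h1 : 0 ≤ Real.sqrt (μ / M.card) := Real.sqrt_nonneg _
      have h2 : 0 ≤ 2 * 3 / uL := by positivity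
      calc 2 * 3 / uL * (1 - Real.sqrt (μ / M.card)) ≤ 2 * 3 / uL * 1 :=
            mul_le_mul_of_nonneg_left (by linarith) h2
        _ = 6 / uL := by ring
  have hratio : (1 : ℝ) ≤ M.card / μ := by rw [one_le_div hμ]; exact hmμ
  have hratio0 : (0 : ℝ) < M.card / μ := by linarith
  have hpow : ((M.card : ℝ) / μ) ^ (2 / L) ≤ Real.exp 2 := by
    rw [Real.rpow_def_of_pos hratio0]
    apply Real.exp_le_exp.2
    have hL0 : 0 < L := by linarith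
    calc Real.log (M.card / μ) * (2 / L) ≤ L * (2 / L) :=
          mul_le_mul_of_nonneg_right hlog (by positivity)
      _ = 2 := by field_simp
  have he2 : Real.exp 2 ≤ 9 := by
    have h1 := Real.exp_one_lt_d9
    have h2 : Real.exp 2 = Real.exp 1 * Real.exp 1 := by rw [← Real.exp_add]; norm_num
    have h3 := Real.exp_pos 1
    rw [h2]; nlinarith
  have hlog0 : 0 ≤ Real.log (M.card / μ) := Real.log_nonneg hratio
  have t3 : FP uL μ L (CF * L ^ 3 / Real.sqrt uL) M (fun _ => 0) ≤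
      9 * CF * L ^ 4 / Real.sqrt uL := by
    unfold FP
    have h0 : FF M (fun _ => 0) = 0 := by unfold FF; simp
    rw [h0, mul_zero, zero_div, zero_add]
    have h1 : CF * L ^ 3 / Real.sqrt uL * Real.log (M.card / μ) ≤
        CF * L ^ 3 / Real.sqrt uL * L := mul_le_mul_of_nonneg_left hlog hsb
    calc _ ≤ (CF * L ^ 3 / Real.sqrt uL * L) * 9 :=
          mul_le_mul h1 (hpow.trans he2) (by positivity) (by positivity)
      _ = _ := by ring
  have t4 : D7_cy μ L b r H M (fun _ => 0) ≤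
      r / b * ∑ ℓ ∈ Finset.Icc 1 r, Real.exp (2 * ℓ + 2) *
          (M.card * (2 * D0) ^ (ℓ - 1) * (μ / M.card) ^ (2 * ℓ)) := by
    unfold D7_cy
    rw [Finset.mul_sum]
    refine Finset.sum_le_sum fun ℓ hℓ => ?_
    rw [mem_Icc] at hℓ
    have h1 := YY_zero (H := H) (M := M) hH hdeg hℓ.1
    have h2 : YP μ L H M (fun _ => 0) ℓ ≤
        (M.card * (2 * D0) ^ (ℓ - 1)) / (M.card : ℝ) ^ (2 * ℓ) * Real.exp 2 := by
      unfold YP
      refine mul_le_mul ?_ hpow (by positivity) (by positivity)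
      exact div_le_div_of_nonneg_right h1 (by positivity)
    have h3 := mul_le_mul_of_nonneg_left h2 (D7_co_nonneg hμ hb r ℓ)
    refine h3.trans (le_of_eq ?_)
    unfold D7_co
    rw [Real.exp_add, div_pow]
    ring
  have hη0 : 0 ≤ η + 1 / uL := by positivity
  have t5 : (LamK c κ uL μ M.card 1 H M N S + XP κ uL μ H M S) / η' ≤
      (C1 + 6) * (η + 1 / uL) / η' := by
    refine div_le_div_of_nonneg_right ?_ hη'.le
    have h6 : 6 / uL = 6 * (1 / uL) := by ring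
    have h7 : 0 ≤ 1 / uL := by positivity
    rw [h6] at t2
    nlinarith
  have t6 : (C1 + 6) * (η + 1 / uL) / η' ≤ (C1 + 7 + 9 * CF) * (η + 1 / uL) / η' := by
    refine div_le_div_of_nonneg_right ?_ hη'.le
    exact mul_le_mul_of_nonneg_right (by linarith) hη0
  have t7 : 9 * CF * L ^ 4 / Real.sqrt uL ≤ (C1 + 7 + 9 * CF) * L ^ 4 / Real.sqrt uL := by
    refine div_le_div_of_nonneg_right ?_ (Real.sqrt_nonneg _)
    exact mul_le_mul_of_nonneg_right (by linarith) (by positivity)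
  show (LamK c κ uL μ M.card 1 H M N S + XP κ uL μ H M S) / η' +
    FP uL μ L (CF * L ^ 3 / Real.sqrt uL) M (fun _ => 0) + D7_cy μ L b r H M (fun _ => 0) ≤ _
  linarith

end Vale.Agent.P046S
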