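import Vale.Agent.P046S.EDef

/-!
P046 sharp constant, module E0: a good state of stage I is good in the sense of `GS` with
`N = xi`, `S = 0`, `K = 1`. (`θ - N = 1`, so `WW = 0`; `tt θ = 0` because `θ ≤ 9/8`.)
`S' = (S2 - m (3Q/m)²) / (Q Qh κ (m-3))`, `S2 - m (3Q/m)² ≤ D² ∑ xi²`, `∑ xi² ≤ m^{3/4} X8^{1/4}`.
-/

namespace Vale.Agent.P046S

open Finset Vale.Agent.P046 Vale.Agent.P046LF

variable {V : Type} [DecidableEq V] {H : Finset (Finset V)} {M : Finset V}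
  {κ m Q u D : ℝ}

theorem G1.m_big (g : G1 κ H M m Q u D) : 10 ^ 18 ≤ m := by
  have h1 := pow_le_pow_left₀ (by norm_num : (0 : ℝ) ≤ 1000) g.hu 6
  have h2 := g.hum
  norm_num at h1 ⊢
  linarith

theorem G1.D_pos (g : G1 κ H M m Q u D) : 0 < D := by
  have h1 := g.m_big
  have hκ := g.hκ
  rw [g.hD]
  unfold Dr
  have h2 : 0 < m - 3 := by linarith
  have h3 : 0 < m - 6 := by linarith
  norm_num
  positivity

theorem G1.theta (g : G1 κ H M m Q u D) (x : V) : (deg H M x : ℝ) / D = 1 + xi κ H M x := by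
  unfold xi
  rw [g.hm, ← g.hD]
  ring

theorem G1.deg_eq (g : G1 κ H M m Q u D) {x : V} (_hx : x ∈ M) :
    (deg H M x : ℝ) = D * (1 + xi κ H M x) := by
  rw [← g.theta x]
  field_simp [g.D_pos.ne']

theorem G1.sum_xi (g : G1 κ H M m Q u D) : ∑ x ∈ M, xi κ H M x = 3 * Q / D - m := by
  have h1 : ∀ x ∈ M, xi κ H M x = (deg H M x : ℝ) / D - 1 := fun x _ => by
    rw [g.theta x]
    ring
  rw [sum_congr rfl h1, sum_sub_distrib, ← sum_div, sum_deg g.lin, g.hQ, sum_const, nsmul_eq_mul,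
    g.hm, mul_one]

theorem G1.zq_mean (g : G1 κ H M m Q u D) : m * zq κ H M = ∑ x ∈ M, xi κ H M x := by
  have hm := g.m_big
  have hD := g.D_pos
  have h0 : Qh κ m = m * D / 3 := by
    rw [g.hD]
    unfold Qh Dr
    ring
  rw [g.sum_xi]
  unfold zq
  rw [g.hm, g.hQ, h0]
  have hm0 : m ≠ 0 := by linarith
  field_simp

theorem G1.pow4 (g : G1 κ H M m Q u D) :
    u ^ 15 * (∑ x ∈ M, xi κ H M x ^ 2) ^ 4 ≤ m ^ 4 := by
  have hm := g.m_big
  have hu := g.hu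
  have h2 : (∑ x ∈ M, xi κ H M x ^ 2) ^ (3 + 1) / (M.card : ℝ) ^ 3 ≤
      ∑ x ∈ M, (xi κ H M x ^ 2) ^ (3 + 1) :=
    pow_sum_div_card_le_sum_pow (fun x _ => sq_nonneg _) 3
  have h3 : ∑ x ∈ M, (xi κ H M x ^ 2) ^ (3 + 1) = X8 κ H M := by
    unfold X8
    exact sum_congr rfl fun x _ => by ring
  rw [h3, g.hm, div_le_iff₀ (by positivity)] at h2
  have h4 := g.hX
  have hu0 : 0 ≤ u ^ 15 := by positivity
  calc u ^ 15 * (∑ x ∈ M, xi κ H M x ^ 2) ^ 4 ≤ u ^ 15 * (X8 κ H M * m ^ 3) :=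
        mul_le_mul_of_nonneg_left h2 hu0
    _ = (u ^ 15 * X8 κ H M) * m ^ 3 := by ring
    _ ≤ m * m ^ 3 := mul_le_mul_of_nonneg_right h4 (by positivity)
    _ = m ^ 4 := by ring

theorem G1.sum_sq (g : G1 κ H M m Q u D) :
    u ^ 3 * Real.sqrt u * ∑ x ∈ M, xi κ H M x ^ 2 ≤ m := by
  have hm := g.m_big
  have hu := g.hu
  have h1 := g.pow4
  set A := ∑ x ∈ M, xi κ H M x ^ 2 with hA
  have hA0 : 0 ≤ A := sum_nonneg fun x _ => sq_nonneg _
  refine le_of_pow_le_pow_left₀ (n := 4) (by norm_num) (by linarith) ?_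
  have h2 : (u ^ 3 * Real.sqrt u * A) ^ 4 = u ^ 14 * A ^ 4 := by
    have h3 : Real.sqrt u ^ 2 = u := Real.sq_sqrt (by linarith)
    calc (u ^ 3 * Real.sqrt u * A) ^ 4 = u ^ 12 * (Real.sqrt u ^ 2) ^ 2 * A ^ 4 := by ring
      _ = _ := by
        rw [h3]
        ring
  rw [h2]
  refine le_trans ?_ h1
  have h5 : u ^ 14 * 1 ≤ u ^ 14 * u := mul_le_mul_of_nonneg_left (by linarith) (by positivity)
  calc u ^ 14 * A ^ 4 = u ^ 14 * 1 * A ^ 4 := by ring
    _ ≤ u ^ 14 * u * A ^ 4 := mul_le_mul_of_nonneg_right h5 (by positivity)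
    _ = u ^ 15 * A ^ 4 := by ring

theorem G1.sum_abs (g : G1 κ H M m Q u D) : u * ∑ x ∈ M, |xi κ H M x| ≤ m := by
  have hm := g.m_big
  have hu := g.hu
  have h1 := g.sum_sq
  have h2 : (∑ x ∈ M, |xi κ H M x|) ^ 2 ≤ M.card * ∑ x ∈ M, |xi κ H M x| ^ 2 :=
    sq_sum_le_card_mul_sum_sq
  have h3 : ∑ x ∈ M, |xi κ H M x| ^ 2 = ∑ x ∈ M, xi κ H M x ^ 2 :=
    sum_congr rfl fun x _ => sq_abs _
  rw [h3, g.hm] at h2
  set A := ∑ x ∈ M, xi κ H M x ^ 2 with hA
  have hA0 : 0 ≤ A := sum_nonneg fun x _ => sq_nonneg _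
  have h4 : u ^ 2 * A ≤ u ^ 3 * Real.sqrt u * A := by
    refine mul_le_mul_of_nonneg_right ?_ hA0
    have h5 : 1 ≤ Real.sqrt u := Real.one_le_sqrt.2 (by linarith)
    have h6 : u ^ 2 ≤ u ^ 3 := pow_le_pow_right₀ (by linarith) (by norm_num)
    nlinarith [pow_nonneg (by linarith : (0 : ℝ) ≤ u) 3]
  refine le_of_pow_le_pow_left₀ (n := 2) (by norm_num) (by linarith) ?_
  calc (u * ∑ x ∈ M, |xi κ H M x|) ^ 2 = u ^ 2 * (∑ x ∈ M, |xi κ H M x|) ^ 2 := by ring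
    _ ≤ u ^ 2 * (m * A) := mul_le_mul_of_nonneg_left h2 (by positivity)
    _ = m * (u ^ 2 * A) := by ring
    _ ≤ m * m := mul_le_mul_of_nonneg_left (h4.trans h1) (by linarith)
    _ = m ^ 2 := by ring

theorem G1.ff_eq (g : G1 κ H M m Q u D) (x : V) :
    ff ((deg H M x : ℝ) / D - xi κ H M x) = 0 := by
  rw [g.theta x, add_sub_cancel_right]
  unfold ff
  rw [if_neg (by norm_num), Hf_self one_pos]

theorem G1.gs (g : G1 κ H M m Q u D) : ∃ S' D', GS H M (xi κ H M) κ 0 S' m Q u D D' 1 ∧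
    D' = Dr κ (m - 3) S' ∧ 0 ≤ S' ∧ S' * (m * (u ^ 3 * Real.sqrt u)) ≤ 20 := by
  have hm := g.m_big
  have hu := g.hu
  have hW : WW H M (xi κ H M) D = 0 := sum_eq_zero fun x _ => g.ff_eq x
  have G : GS H M (xi κ H M) κ 0 (0 + (S2 H M - m * (3 * Q / m) ^ 2) / (Q * Qh κ (m - 3))) m Q u D
      (κ * (m - 6) * (m - 9) *
        (1 - (0 + (S2 H M - m * (3 * Q / m) ^ 2) / (Q * Qh κ (m - 3))))) 1 :=
    { lin := g.lin
      hm := g.hm
      hQ := g.hQ
      hκ := g.hκ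
      hu := g.hu
      hu4 := g.hu4
      hum := g.hum
      hdeg := g.hdeg
      hN := fun x hx => (g.hξ x hx).le.trans (by norm_num)
      hS0 := le_rfl
      hS1 := by norm_num
      hS' := rfl
      hD := g.hD
      hD' := rfl
      hZ := by
        have h1 := g.hz
        have h2 : zq κ H M = Q / Qh κ m + 0 - 1 := by
          unfold zq
          rw [g.hm, g.hQ]
          ring
        rw [← h2]
        have hu0 : 0 < u := by linarith
        rw [le_div_iff₀ hu0]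
        refine le_of_pow_le_pow_left₀ (n := 2) (by norm_num) (by norm_num) ?_
        have h3 : u ^ 2 ≤ u ^ 5 := pow_le_pow_right₀ (by linarith) (by norm_num)
        calc (|zq κ H M| * u) ^ 2 = u ^ 2 * zq κ H M ^ 2 := by
              rw [mul_pow, sq_abs]
              ring
          _ ≤ u ^ 5 * zq κ H M ^ 2 := mul_le_mul_of_nonneg_right h3 (sq_nonneg _)
          _ ≤ 1 ^ 2 := by
            rw [one_pow]
            exact h1
      hK1 := le_rfl
      hK := one_le_pow₀ (by linarith)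
      hF := by
        rw [hW]
        linarith }
  refine ⟨_, _, G, ?_, ?_, ?_⟩
  · unfold Dr
    ring
  · rw [zero_add]
    exact div_nonneg G.U_nonneg (mul_pos G.Q_pos G.Qh3_pos).le
  · have h1 := G.dS_le
    rw [sub_zero] at h1
    have h2 : ∑ x ∈ M, ((deg H M x : ℝ) / D - 1) ^ 2 = ∑ x ∈ M, xi κ H M x ^ 2 :=
      sum_congr rfl fun x _ => by
        rw [g.theta x]
        ring
    rw [h2] at h1
    have h3 := g.sum_sq
    have hm0 : 0 < m := by linarith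
    have hc : 0 ≤ m * (u ^ 3 * Real.sqrt u) := by positivity
    calc _ ≤ 11 / m * ((∑ x ∈ M, xi κ H M x ^ 2) / m) * (m * (u ^ 3 * Real.sqrt u)) :=
          mul_le_mul_of_nonneg_right h1 hc
      _ = 11 * (u ^ 3 * Real.sqrt u * ∑ x ∈ M, xi κ H M x ^ 2) / m := by
        field_simp
      _ ≤ 20 := by
        rw [div_le_iff₀ hm0]
        linarith

theorem G1.EE_le (g : G1 κ H M m Q u D) : EE H M (xi κ H M) D u ≤ 4 * m := by
  have hm := g.m_big
  have hu := g.hu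
  have hu0 : 0 < u := by linarith
  have h1 : ∀ x ∈ M, ee u ((deg H M x : ℝ) / D) (xi κ H M x) ≤
      17 / 8 * (u ^ 15 * xi κ H M x ^ 8) + 1 / 1000 := by
    intro x hx
    have h2 := g.hξ x hx
    rw [abs_lt] at h2
    unfold ee
    rw [g.ff_eq x, g.theta x]
    have h3 : tt (1 + xi κ H M x) = 0 := by
      unfold tt
      refine max_eq_right ?_
      have h4 : (1 + xi κ H M x) ^ 8 ≤ (7 / 4) ^ 8 :=
        pow_le_pow_left₀ (by linarith [h2.1]) (by linarith [h2.2]) 8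
      linarith
    rw [h3]
    have h5 : 1 / u ≤ 1 / 1000 := one_div_le_one_div_of_le (by norm_num) hu
    have h6 : 0 ≤ u ^ 15 * xi κ H M x ^ 8 := by positivity
    have h7 : u ^ 15 * ((1 + (1 + xi κ H M x)) * xi κ H M x ^ 8) ≤
        17 / 8 * (u ^ 15 * xi κ H M x ^ 8) := by
      have h8 : 1 + (1 + xi κ H M x) ≤ 17 / 8 := by linarith [h2.2]
      calc u ^ 15 * ((1 + (1 + xi κ H M x)) * xi κ H M x ^ 8) =
            (1 + (1 + xi κ H M x)) * (u ^ 15 * xi κ H M x ^ 8) := by ring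
        _ ≤ _ := mul_le_mul_of_nonneg_right h8 h6
    linarith
  unfold EE
  refine (sum_le_sum h1).trans ?_
  rw [sum_add_distrib, ← mul_sum, ← mul_sum, sum_const, nsmul_eq_mul, g.hm]
  have h9 := g.hX
  unfold X8 at h9
  linarith

end Vale.Agent.P046S
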