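import Vale.Agent.P046S.EDef

/-!
P046 sharp constant, module E1: one step for `X8` (crude).

For `x ∈ M \ T`: new `ξ' = a - dl/D'`, `a = r (1 + ξ) - 1 = ξ + (6/(m-9)) (1+ξ)`, `r = (m-3)/(m-9)`,
`D' = Dr κ (m-3) 0`, `dl ∈ {0,1,2,3}`. `(a - b)^8 ≤ a^8 - 8 a^7 b + C (a^6 b² + b^8)` for `b ≥ 0`.
`∑_{T ∌ x} dl_T x = ∑_{z ~ x} (d z - 1) = D (2 d x + ∑_{z~x} ξ z) - 2 d x`, `D/Q = (3/m)/(1+z)`. The terms
`(6/m)(1+ξ)` cancel up to `(C/m) (|z| + 1/D + 1/m) (1 + |ξ|)`; `|z| ≤ mean |ξ|`, `m z^8 ≤ X8`,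
`∑ |ξ|^7 |z| ≤ 2 X8`, `∑ |ξ|^7 / D ≤ X8 + m / D^8`. `∑_x |ξ_x|^7 ∑_{z~x} |ξ_z| ≤ 2 ∑ d ξ^8 ≤ 3 D X8`.
Noise: `(C/(m D)) ∑ a^6 ≤ (C/m) (X8 + m D^{-4} + ...)`.
-/

namespace Vale.Agent.P046S

open Finset Vale.Agent.P046 Vale.Agent.P046LF

theorem e1_pow6 {x y : ℝ} (_hx : 0 ≤ x) (hy : 0 ≤ y) : x ^ 6 * y ≤ x ^ 8 + y ^ 4 := by
  rcases le_total y (x ^ 2) with h | h
  · have h1 : x ^ 6 * y ≤ x ^ 6 * x ^ 2 := by gcongr
    have h2 : x ^ 6 * x ^ 2 = x ^ 8 := by ring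
    have h3 : 0 ≤ y ^ 4 := by positivity
    linarith
  · have h1 : (x ^ 2) ^ 3 * y ≤ y ^ 3 * y := by gcongr
    have h2 : (x ^ 2) ^ 3 * y = x ^ 6 * y := by ring
    have h3 : y ^ 3 * y = y ^ 4 := by ring
    have h4 : 0 ≤ x ^ 8 := by positivity
    linarith

theorem e1_pow7 {x y : ℝ} (hx : 0 ≤ x) (hy : 0 ≤ y) : x ^ 7 * y ≤ x ^ 8 + y ^ 8 := by
  rcases le_total y x with h | h
  · have h1 : x ^ 7 * y ≤ x ^ 7 * x := by gcongr
    have h2 : x ^ 7 * x = x ^ 8 := by ring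
    have h3 : 0 ≤ y ^ 8 := by positivity
    linarith
  · have h1 : x ^ 7 * y ≤ y ^ 7 * y := by gcongr
    have h3 : y ^ 7 * y = y ^ 8 := by ring
    have h4 : 0 ≤ x ^ 8 := by positivity
    linarith

theorem e1_mono {x y : ℝ} (hx : 0 ≤ x) (hy : 0 ≤ y) (i j : ℕ) (h : i + j = 6) :
    x ^ i * y ^ j ≤ x ^ 6 + y ^ 6 := by
  rcases le_total y x with hxy | hxy
  · have h1 : x ^ i * y ^ j ≤ x ^ i * x ^ j := by gcongr
    have h2 : x ^ i * x ^ j = x ^ 6 := by rw [← pow_add, h]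
    have h3 : 0 ≤ y ^ 6 := by positivity
    linarith
  · have h1 : x ^ i * y ^ j ≤ y ^ i * y ^ j := by gcongr
    have h2 : y ^ i * y ^ j = y ^ 6 := by rw [← pow_add, h]
    have h3 : 0 ≤ x ^ 6 := by positivity
    linarith

theorem e1_binom (a b : ℝ) :
    (a - b) ^ 8 ≤ a ^ 8 - 8 * a ^ 7 * b + 247 * (a ^ 6 * b ^ 2 + b ^ 8) := by
  have hx := abs_nonneg a
  have hy := abs_nonneg b
  have ha : a ^ 6 = |a| ^ 6 := by rw [← abs_pow, abs_of_nonneg (by positivity)]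
  have hb : b ^ 6 = |b| ^ 6 := by rw [← abs_pow, abs_of_nonneg (by positivity)]
  have t5 : -(a ^ 5 * b) ≤ |a| ^ 5 * |b| ^ 1 := by
    rw [pow_one, ← abs_pow, ← abs_mul]; exact neg_le_abs _
  have t4 : a ^ 4 * b ^ 2 ≤ |a| ^ 4 * |b| ^ 2 := by
    rw [← abs_pow, ← abs_pow, ← abs_mul]; exact le_abs_self _
  have t3 : -(a ^ 3 * b ^ 3) ≤ |a| ^ 3 * |b| ^ 3 := by
    rw [← abs_pow, ← abs_pow, ← abs_mul]; exact neg_le_abs _
  have t2 : a ^ 2 * b ^ 4 ≤ |a| ^ 2 * |b| ^ 4 := by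
    rw [← abs_pow, ← abs_pow, ← abs_mul]; exact le_abs_self _
  have t1 : -(a * b ^ 5) ≤ |a| ^ 1 * |b| ^ 5 := by
    rw [pow_one, ← abs_pow, ← abs_mul]; exact neg_le_abs _
  have s5 := e1_mono hx hy 5 1 rfl
  have s4 := e1_mono hx hy 4 2 rfl
  have s3 := e1_mono hx hy 3 3 rfl
  have s2 := e1_mono hx hy 2 4 rfl
  have s1 := e1_mono hx hy 1 5 rfl
  have n6 : 0 ≤ |a| ^ 6 := by positivity
  have n6' : 0 ≤ |b| ^ 6 := by positivity
  have hp : 28 * a ^ 6 - 56 * (a ^ 5 * b) + 70 * (a ^ 4 * b ^ 2) - 56 * (a ^ 3 * b ^ 3) +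
      28 * (a ^ 2 * b ^ 4) - 8 * (a * b ^ 5) + b ^ 6 ≤ 247 * (a ^ 6 + b ^ 6) := by
    rw [ha, hb]
    linarith
  have hb2 : 0 ≤ b ^ 2 := sq_nonneg b
  have h := mul_le_mul_of_nonneg_left hp hb2
  have e1 : (a - b) ^ 8 = a ^ 8 - 8 * a ^ 7 * b + b ^ 2 * (28 * a ^ 6 - 56 * (a ^ 5 * b) +
      70 * (a ^ 4 * b ^ 2) - 56 * (a ^ 3 * b ^ 3) + 28 * (a ^ 2 * b ^ 4) - 8 * (a * b ^ 5) +
      b ^ 6) := by ring
  have e2 : b ^ 2 * (247 * (a ^ 6 + b ^ 6)) = 247 * (a ^ 6 * b ^ 2 + b ^ 8) := by ring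
  rw [e1]
  linarith

/-- the main term -/
theorem e1_main {m D Q z ξ ε r d L : ℝ} (hm : 1000 ≤ m) (hD : 0 < D)
    (hz : |z| ≤ 1 / 8) (hξ : |ξ| ≤ 1 / 8) (hQ : Q = m * D / 3 * (1 + z)) (hL : L = Q / m)
    (hε : ε = 6 / (m - 9) * (1 + ξ)) (hr : r = (m - 3) / (m - 9)) (hd : d = D * (1 + ξ)) :
    8 * ξ ^ 7 * (Q * ε - 2 * r * d) ≤ 63 * L * (2 * ξ ^ 8 + z ^ 8 + (3 / m) ^ 8) := by
  have hm0 : 0 < m := by linarith
  have hm9 : 0 < m - 9 := by linarith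
  obtain ⟨z1, z2⟩ := abs_le.1 hz
  obtain ⟨x1, x2⟩ := abs_le.1 hξ
  have hDL : D ≤ 24 / 7 * L := by
    have : L = D / 3 * (1 + z) := by rw [hL, hQ]; field_simp
    rw [this]; nlinarith
  have hL0 : 0 ≤ L := by nlinarith
  have e1 : Q * ε - 2 * r * d = 2 * D * (1 + ξ) * ((m * z + 3) / (m - 9)) := by
    rw [hQ, hε, hr, hd]; field_simp; ring
  have e2 : |(m * z + 3) / (m - 9)| ≤ 101 / 100 * (|z| + 3 / m) := by
    rw [abs_div, abs_of_pos hm9, div_le_iff₀ hm9]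
    have s1 : |m * z + 3| ≤ m * |z| + 3 := by
      calc |m * z + 3| ≤ |m * z| + |3| := abs_add_le _ _
        _ = m * |z| + 3 := by rw [abs_mul, abs_of_pos hm0]; norm_num
    have s2 : 101 / 100 * (|z| + 3 / m) * (m - 9) =
        (m * |z| + 3) * (101 / 100 * ((m - 9) / m)) := by field_simp
    have s3 : 1 ≤ 101 / 100 * ((m - 9) / m) := by
      rw [← mul_div_assoc, le_div_iff₀ hm0]; linarith
    rw [s2]
    have s4 : 0 ≤ m * |z| + 3 := by positivity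
    nlinarith
  have e3 : 8 * ξ ^ 7 * (Q * ε - 2 * r * d) ≤
      8 * |ξ| ^ 7 * (2 * D * (9 / 8) * (101 / 100 * (|z| + 3 / m))) := by
    rw [e1]
    refine (le_abs_self _).trans ?_
    rw [abs_mul, abs_mul, abs_mul, abs_pow, abs_of_pos (by norm_num : (0 : ℝ) < 8), abs_mul,
      abs_of_pos (by positivity : 0 < 2 * D), abs_of_pos (by linarith : 0 < 1 + ξ)]
    have : 0 ≤ 1 + ξ := by linarith
    gcongr
    linarith
  have e4 : 8 * |ξ| ^ 7 * (2 * D * (9 / 8) * (101 / 100 * (|z| + 3 / m))) =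
      1818 / 100 * D * (|ξ| ^ 7 * |z| + |ξ| ^ 7 * (3 / m)) := by ring
  have e5 := e1_pow7 (abs_nonneg ξ) (abs_nonneg z)
  have e6 := e1_pow7 (abs_nonneg ξ) (by positivity : 0 ≤ 3 / m)
  have a8 : |ξ| ^ 8 = ξ ^ 8 := by rw [← abs_pow, abs_of_nonneg (by positivity)]
  have z8 : |z| ^ 8 = z ^ 8 := by rw [← abs_pow, abs_of_nonneg (by positivity)]
  rw [a8] at e5 e6
  rw [z8] at e5
  have e7 : 0 ≤ |ξ| ^ 7 * |z| + |ξ| ^ 7 * (3 / m) := by positivity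
  calc 8 * ξ ^ 7 * (Q * ε - 2 * r * d)
      ≤ 1818 / 100 * D * (|ξ| ^ 7 * |z| + |ξ| ^ 7 * (3 / m)) := by rw [← e4]; exact e3
    _ ≤ 63 * L * (|ξ| ^ 7 * |z| + |ξ| ^ 7 * (3 / m)) := by
        apply mul_le_mul_of_nonneg_right _ e7
        linarith
    _ ≤ 63 * L * (2 * ξ ^ 8 + z ^ 8 + (3 / m) ^ 8) := by
        apply mul_le_mul_of_nonneg_left _ (by positivity)
        linarith

/-- the quadratic correction of the main term -/
theorem e1_quad {m Q ξ ε L : ℝ} (hm : 1000 ≤ m) (hL : Q = L * m) (hL0 : 0 ≤ L)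
    (hε0 : 0 ≤ ε) (hε : ε ≤ 7 / m) :
    247 * (Q * (ξ ^ 6 * ε ^ 2 + ε ^ 8)) ≤ L * (12103 * ξ ^ 8 + 12105 * (1 / m ^ 4)) := by
  have hm0 : 0 < m := by linarith
  have h1 : ε ^ 2 ≤ (7 / m) ^ 2 := by gcongr
  have h2 : ε ^ 8 ≤ (7 / m) ^ 8 := by gcongr
  have h6 : 0 ≤ ξ ^ 6 := by positivity
  have h3 : m * (ξ ^ 6 * ε ^ 2 + ε ^ 8) ≤ 49 * (ξ ^ 6 * (1 / m)) + 5764801 * (1 / m ^ 7) := by
    calc m * (ξ ^ 6 * ε ^ 2 + ε ^ 8) ≤ m * (ξ ^ 6 * (7 / m) ^ 2 + (7 / m) ^ 8) := by gcongr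
      _ = 49 * (ξ ^ 6 * (1 / m)) + 5764801 * (1 / m ^ 7) := by field_simp; ring
  have h4 : ξ ^ 6 * (1 / m) ≤ ξ ^ 8 + 1 / m ^ 4 := by
    have := e1_pow6 (abs_nonneg ξ) (by positivity : 0 ≤ 1 / m)
    have a8 : |ξ| ^ 8 = ξ ^ 8 := by rw [← abs_pow, abs_of_nonneg (by positivity)]
    have a6 : |ξ| ^ 6 = ξ ^ 6 := by rw [← abs_pow, abs_of_nonneg (by positivity)]
    rw [a8, a6, div_pow, one_pow] at this
    exact this
  have h5 : 247 * (5764801 * (1 / m ^ 7)) ≤ 2 * (1 / m ^ 4) := by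
    have e1 : 1 / m ^ 7 = (1 / m ^ 4) * (1 / m ^ 3) := by field_simp
    have e2 : 1 / m ^ 3 ≤ 1 / 1000 ^ 3 := by gcongr
    have e3 : 0 ≤ 1 / m ^ 4 := by positivity
    rw [e1]
    nlinarith
  calc 247 * (Q * (ξ ^ 6 * ε ^ 2 + ε ^ 8)) = L * (247 * (m * (ξ ^ 6 * ε ^ 2 + ε ^ 8))) := by
        rw [hL]; ring
    _ ≤ L * (247 * (49 * (ξ ^ 6 * (1 / m)) + 5764801 * (1 / m ^ 7))) := by gcongr
    _ ≤ L * (12103 * ξ ^ 8 + 12105 * (1 / m ^ 4)) := by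
        apply mul_le_mul_of_nonneg_left _ hL0
        linarith

theorem e1_s4 {D D' r d a S B : ℝ} (hD'0 : 0 < D') (hD' : D = r * D')
    (hB : B = D * (2 * d + S) - 2 * d) :
    -(8 * a ^ 7 * (B / D')) = -(16 * r * d * a ^ 7) + -(8 * r * (a ^ 7 * S)) +
      16 * a ^ 7 * (d / D') := by
  have : B / D' = r * (2 * d + S) - 2 * (d / D') := by
    rw [hB, hD']
    field_simp
  rw [this]; ring

theorem e1_s6 {ξ a r d : ℝ} (h : ξ ≤ a) (hr : 0 ≤ r) (hd : 0 ≤ d) :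
    -(16 * r * d * a ^ 7) ≤ -(16 * r * d * ξ ^ 7) := by
  have h7 : ξ ^ 7 ≤ a ^ 7 := (Odd.pow_le_pow (n := 7) ⟨3, by norm_num⟩).2 h
  have : 0 ≤ 16 * r * d := by positivity
  have := mul_le_mul_of_nonneg_left h7 this
  linarith

theorem e1_s7 {a α r S : ℝ} (haα : |a| ≤ α) (hr0 : 0 ≤ r) (hr2 : r ≤ 101 / 100) :
    -(8 * r * (a ^ 7 * S)) ≤ 9 * (α ^ 7 * |S|) := by
  have hα0 : 0 ≤ α := (abs_nonneg a).trans haα
  have habs7 : |a| ^ 7 ≤ α ^ 7 := by gcongr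
  have h1 : -(a ^ 7 * S) ≤ |a| ^ 7 * |S| := by
    rw [← abs_pow, ← abs_mul]; exact neg_le_abs _
  have h2 : |a| ^ 7 * |S| ≤ α ^ 7 * |S| := by gcongr
  have h3 : 0 ≤ α ^ 7 * |S| := by positivity
  have h4 : 8 * r * -(a ^ 7 * S) ≤ 8 * r * (α ^ 7 * |S|) :=
    mul_le_mul_of_nonneg_left (h1.trans h2) (by positivity)
  have h5 : 8 * r * (α ^ 7 * |S|) ≤ 9 * (α ^ 7 * |S|) :=
    mul_le_mul_of_nonneg_right (by linarith) h3
  linarith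

theorem e1_s8 {D D' d a α L : ℝ} (hD : 1000 ≤ D) (hD'0 : 0 < D') (hDD' : 99 / 100 * D ≤ D')
    (hd0 : 0 ≤ d) (hd9 : d ≤ 9 / 8 * D) (haα : |a| ≤ α) (hL0 : 0 < L) (hDL : D ≤ 24 / 7 * L) :
    16 * a ^ 7 * (d / D') ≤ 63 * L * (α ^ 8 + 1 / D ^ 4) := by
  have hD0 : 0 < D := by linarith
  have hα0 : 0 ≤ α := (abs_nonneg a).trans haα
  have habs7 : |a| ^ 7 ≤ α ^ 7 := by gcongr
  have h1 : d / D' ≤ 114 / 100 := by
    rw [div_le_iff₀ hD'0]; linarith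
  have h0 : 0 ≤ d / D' := by positivity
  have h2 : a ^ 7 ≤ α ^ 7 := (le_abs_self _).trans (by rw [abs_pow]; exact habs7)
  have h3 : a ^ 7 * (d / D') ≤ α ^ 7 * (114 / 100) := by
    calc a ^ 7 * (d / D') ≤ α ^ 7 * (d / D') := by gcongr
      _ ≤ α ^ 7 * (114 / 100) := by gcongr
  have h4 : α ^ 7 * (1 / D) ≤ α ^ 8 + 1 / D ^ 4 := by
    have h5 := e1_pow7 hα0 (by positivity : 0 ≤ 1 / D)
    have h6 : (1 / D) ^ 8 ≤ 1 / D ^ 4 := by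
      rw [div_pow, one_pow]
      apply one_div_le_one_div_of_le (by positivity)
      exact pow_le_pow_right₀ (by linarith) (by norm_num)
    linarith
  have h5 : α ^ 7 = D * (α ^ 7 * (1 / D)) := by field_simp
  have h6 : α ^ 7 ≤ 24 / 7 * L * (α ^ 8 + 1 / D ^ 4) := by
    calc α ^ 7 = D * (α ^ 7 * (1 / D)) := h5
      _ ≤ D * (α ^ 8 + 1 / D ^ 4) := by gcongr
      _ ≤ 24 / 7 * L * (α ^ 8 + 1 / D ^ 4) := by
        apply mul_le_mul_of_nonneg_right hDL; positivity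
  have h7 : 0 ≤ L * (α ^ 8 + 1 / D ^ 4) := by positivity
  linarith

theorem e1_s9 {D D' a α L B : ℝ} (hD : 1000 ≤ D) (hD'0 : 0 < D') (hDD' : 99 / 100 * D ≤ D')
    (hB0 : 0 ≤ B) (hB3 : B ≤ 3 * D ^ 2) (haα : |a| ≤ α) (hL0 : 0 < L) (hDL : D ≤ 24 / 7 * L) :
    247 * (3 * a ^ 6 * (B / D' ^ 2)) ≤ 8000 * L * (α ^ 8 + 1 / D ^ 4) := by
  have hD0 : 0 < D := by linarith
  have hα0 : 0 ≤ α := (abs_nonneg a).trans haα
  have h1 : B / D' ^ 2 ≤ 31 / 10 := by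
    rw [div_le_iff₀ (by positivity)]
    have h : (99 / 100 * D) ^ 2 ≤ D' ^ 2 := by gcongr
    have e : (99 / 100 * D) ^ 2 = 9801 / 10000 * D ^ 2 := by ring
    rw [e] at h
    have : 0 ≤ D ^ 2 := by positivity
    linarith
  have h0 : 0 ≤ B / D' ^ 2 := by positivity
  have h2 : a ^ 6 ≤ α ^ 6 := by
    have : a ^ 6 = |a| ^ 6 := by rw [← abs_pow, abs_of_nonneg (by positivity)]
    rw [this]; gcongr
  have h3 : a ^ 6 * (B / D' ^ 2) ≤ α ^ 6 * (31 / 10) := by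
    calc a ^ 6 * (B / D' ^ 2) ≤ α ^ 6 * (B / D' ^ 2) := by gcongr
      _ ≤ α ^ 6 * (31 / 10) := by gcongr
  have h4 : α ^ 6 * (1 / D) ≤ α ^ 8 + 1 / D ^ 4 := by
    have h5 := e1_pow6 hα0 (by positivity : 0 ≤ 1 / D)
    rwa [div_pow, one_pow] at h5
  have h5 : α ^ 6 = D * (α ^ 6 * (1 / D)) := by field_simp
  have h6 : α ^ 6 ≤ 24 / 7 * L * (α ^ 8 + 1 / D ^ 4) := by
    calc α ^ 6 = D * (α ^ 6 * (1 / D)) := h5
      _ ≤ D * (α ^ 8 + 1 / D ^ 4) := by gcongr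
      _ ≤ 24 / 7 * L * (α ^ 8 + 1 / D ^ 4) := by
        apply mul_le_mul_of_nonneg_right hDL; positivity
  have h7 : 0 ≤ L * (α ^ 8 + 1 / D ^ 4) := by positivity
  linarith

theorem e1_s10 {D D' L B : ℝ} (hD : 1000 ≤ D) (hD'0 : 0 < D') (hDD' : 99 / 100 * D ≤ D')
    (hB0 : 0 ≤ B) (hB3 : B ≤ 3 * D ^ 2) (hL0 : 0 < L) (hDL : D ≤ 24 / 7 * L) :
    247 * (3 ^ 7 * (B / D' ^ 8)) ≤ 4 * L * (1 / D ^ 4) := by
  have hD0 : 0 < D := by linarith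
  have h1 : B / D' ^ 8 ≤ 4 * (1 / D ^ 6) := by
    have h2 : 92 / 100 * D ^ 8 ≤ D' ^ 8 := by
      have : (99 / 100 * D) ^ 8 ≤ D' ^ 8 := by gcongr
      have e : (99 / 100 * D) ^ 8 = (99 / 100) ^ 8 * D ^ 8 := by ring
      rw [e] at this
      have h3 : (92 / 100 : ℝ) ≤ (99 / 100) ^ 8 := by norm_num
      have h4 : 0 ≤ D ^ 8 := by positivity
      have h5 := mul_le_mul_of_nonneg_right h3 h4
      linarith
    rw [div_le_iff₀ (by positivity)]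
    have h5 : 4 * (1 / D ^ 6) * (92 / 100 * D ^ 8) ≤ 4 * (1 / D ^ 6) * D' ^ 8 := by
      have : 0 ≤ 4 * (1 / D ^ 6) := by positivity
      exact mul_le_mul_of_nonneg_left h2 this
    have h6 : 4 * (1 / D ^ 6) * (92 / 100 * D ^ 8) = 368 / 100 * D ^ 2 := by field_simp; ring
    have : 0 ≤ D ^ 2 := by positivity
    linarith
  have h2 : 1 / D ^ 6 = D * ((1 / D ^ 4) * (1 / D ^ 3)) := by field_simp
  have h3 : 1 / D ^ 3 ≤ 1 / 1000 ^ 3 := by gcongr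
  have h5 : D * ((1 / D ^ 4) * (1 / D ^ 3)) ≤ (24 / 7 * L) * ((1 / D ^ 4) * (1 / 1000 ^ 3)) := by
    gcongr
  have h6 : 0 ≤ L * (1 / D ^ 4) := by positivity
  rw [h2] at h1
  have h7 : (24 / 7 * L) * ((1 / D ^ 4) * (1 / 1000 ^ 3)) =
      (24 / 7 / 1000 ^ 3) * (L * (1 / D ^ 4)) := by ring
  rw [h7] at h5
  have h8 : 247 * (3 ^ 7 * (B / D' ^ 8)) ≤
      247 * (3 ^ 7 * (4 * ((24 / 7 / 1000 ^ 3) * (L * (1 / D ^ 4))))) := by
    apply mul_le_mul_of_nonneg_left _ (by norm_num)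
    apply mul_le_mul_of_nonneg_left _ (by positivity)
    linarith
  have h9 : 247 * (3 ^ 7 * (4 * ((24 / 7 / 1000 ^ 3) * (L * (1 / D ^ 4))))) =
      (247 * (3 ^ 7 * (4 * (24 / 7 / 1000 ^ 3)))) * (L * (1 / D ^ 4)) := by ring
  rw [h9] at h8
  have h10 : (247 * (3 ^ 7 * (4 * (24 / 7 / 1000 ^ 3))) : ℝ) ≤ 4 := by norm_num
  have h11 := mul_le_mul_of_nonneg_right h10 h6
  linarith

theorem e1_s1 {Q ξ ε a : ℝ} (hQ0 : 0 ≤ Q) (ha : a = ξ + ε) :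
    Q * a ^ 8 ≤ Q * ξ ^ 8 + 8 * ξ ^ 7 * (Q * ε) + 247 * (Q * (ξ ^ 6 * ε ^ 2 + ε ^ 8)) := by
  have h1 := e1_binom ξ (-ε)
  have h2 : (ξ - -ε) = a := by rw [ha]; ring
  rw [h2] at h1
  have h3 := mul_le_mul_of_nonneg_left h1 hQ0
  have h4 : Q * (ξ ^ 8 - 8 * ξ ^ 7 * -ε + 247 * (ξ ^ 6 * (-ε) ^ 2 + (-ε) ^ 8)) =
      Q * ξ ^ 8 + 8 * ξ ^ 7 * (Q * ε) + 247 * (Q * (ξ ^ 6 * ε ^ 2 + ε ^ 8)) := by ring
  linarith

theorem e1_s12 {m : ℝ} (hm : 1000 ≤ m) : (3 / m) ^ 8 ≤ 1 / m ^ 4 := by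
  have hm0 : 0 < m := by linarith
  have h1 : (3 / m) ^ 8 = (6561 / m ^ 4) * (1 / m ^ 4) := by field_simp; norm_num
  have h2 : 6561 / m ^ 4 ≤ 1 := by
    rw [div_le_one (by positivity)]
    have : (1000 : ℝ) ^ 4 ≤ m ^ 4 := by gcongr
    linarith
  have h3 : 0 ≤ 1 / m ^ 4 := by positivity
  rw [h1]
  have := mul_le_mul_of_nonneg_right h2 h3
  linarith

/-- pointwise bound -/
theorem e1_point {m D D' Q z ξ ε r d a S L B α : ℝ} (hm : 1000 ≤ m) (hD : 1000 ≤ D)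
    (hDm : D ≤ m) (hz : |z| ≤ 1 / 8) (hξ : |ξ| ≤ 1 / 8) (hQ : Q = m * D / 3 * (1 + z))
    (hL : L = Q / m) (hε : ε = 6 / (m - 9) * (1 + ξ)) (hr : r = (m - 3) / (m - 9))
    (hd : d = D * (1 + ξ)) (ha : a = ξ + ε) (hα : α = |ξ| + 7 / m) (hD' : D = r * D')
    (hB : B = D * (2 * d + S) - 2 * d) (hB0 : 0 ≤ B) (hB3 : B ≤ 3 * D ^ 2) :
    (Q - d) * a ^ 8 - 8 * a ^ 7 * (B / D') + 247 * (3 * a ^ 6 * (B / D' ^ 2) +
      3 ^ 7 * (B / D' ^ 8)) ≤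
      Q * ξ ^ 8 + 9 * (α ^ 7 * |S|) + L * (40000 * (α ^ 8 + z ^ 8 + 1 / D ^ 4)) := by
  have hm0 : 0 < m := by linarith
  have hm9 : 0 < m - 9 := by linarith
  have hD0 : 0 < D := by linarith
  obtain ⟨z1, z2⟩ := abs_le.1 hz
  obtain ⟨x1, x2⟩ := abs_le.1 hξ
  have hr1 : 1 ≤ r := by rw [hr, le_div_iff₀ hm9]; linarith
  have hr2 : r ≤ 101 / 100 := by rw [hr, div_le_iff₀ hm9]; linarith
  have hD'0 : 0 < D' := by
    by_contra h
    rw [not_lt] at h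
    have : r * D' ≤ 0 := mul_nonpos_of_nonneg_of_nonpos (by linarith) h
    linarith
  have hDD' : 99 / 100 * D ≤ D' := by
    have := mul_le_mul_of_nonneg_right hr2 hD'0.le
    linarith
  have hLz : L = D / 3 * (1 + z) := by rw [hL, hQ]; field_simp
  have hDz : D * (-(1 / 8)) ≤ D * z := mul_le_mul_of_nonneg_left z1 hD0.le
  have hDL : D ≤ 24 / 7 * L := by rw [hLz]; linarith
  have hL0 : 0 < L := by linarith
  have hQL : Q = L * m := by rw [hL]; field_simp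
  have hQ0 : 0 ≤ Q := by rw [hQL]; positivity
  have h1ξ : 0 ≤ 1 + ξ := by linarith
  have hε0 : 0 ≤ ε := by rw [hε]; positivity
  have hε7 : ε ≤ 7 / m := by
    rw [hε, div_mul_eq_mul_div, div_le_div_iff₀ hm9 hm0]
    nlinarith
  have haα : |a| ≤ α := by
    rw [ha, hα]
    exact (abs_add_le _ _).trans (by rw [abs_of_nonneg hε0]; linarith)
  have hα0 : 0 ≤ α := (abs_nonneg a).trans haα
  have hξα : |ξ| ≤ α := by
    rw [hα]
    have : 0 ≤ 7 / m := by positivity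
    linarith
  have a8 : |ξ| ^ 8 = ξ ^ 8 := by rw [← abs_pow, abs_of_nonneg (by positivity)]
  have hξ8 : ξ ^ 8 ≤ α ^ 8 := by rw [← a8]; gcongr
  have hd0 : 0 ≤ d := by rw [hd]; positivity
  have hd9 : d ≤ 9 / 8 * D := by
    rw [hd]
    have := mul_le_mul_of_nonneg_left x2 hD0.le
    linarith
  have hm4 : 1 / m ^ 4 ≤ 1 / D ^ 4 := by gcongr
  have s1 := e1_s1 hQ0 ha
  have s2 := e1_quad (ξ := ξ) hm hQL hL0.le hε0 hε7
  have s3 := e1_main hm hD0 hz hξ hQ hL hε hr hd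
  have s4 := e1_s4 (a := a) hD'0 hD' hB
  have s6 := e1_s6 (ξ := ξ) (a := a) (by rw [ha]; linarith) (by linarith : 0 ≤ r) hd0
  have s7 := e1_s7 (S := S) haα (by linarith : 0 ≤ r) hr2
  have s8 := e1_s8 hD hD'0 hDD' hd0 hd9 haα hL0 hDL
  have s9 := e1_s9 hD hD'0 hDD' hB0 hB3 haα hL0 hDL
  have s10 := e1_s10 hD hD'0 hDD' hB0 hB3 hL0 hDL
  have s11 : 0 ≤ d * a ^ 8 := by positivity
  have s12 := e1_s12 hm
  have f1 : L * (2 * ξ ^ 8 + z ^ 8 + (3 / m) ^ 8) ≤ L * (2 * α ^ 8 + z ^ 8 + 1 / D ^ 4) := by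
    apply mul_le_mul_of_nonneg_left _ hL0.le
    linarith
  have f2 : L * (12103 * ξ ^ 8 + 12105 * (1 / m ^ 4)) ≤
      L * (12103 * α ^ 8 + 12105 * (1 / D ^ 4)) := by
    apply mul_le_mul_of_nonneg_left _ hL0.le
    linarith
  have g1 : 0 ≤ L * α ^ 8 := by positivity
  have g2 : 0 ≤ L * z ^ 8 := by positivity
  have g3 : 0 ≤ L * (1 / D ^ 4) := by positivity
  have expand : (Q - d) * a ^ 8 - 8 * a ^ 7 * (B / D') + 247 * (3 * a ^ 6 * (B / D' ^ 2) +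
      3 ^ 7 * (B / D' ^ 8)) = Q * a ^ 8 - (d * a ^ 8) + -(8 * a ^ 7 * (B / D')) +
      247 * (3 * a ^ 6 * (B / D' ^ 2)) + 247 * (3 ^ 7 * (B / D' ^ 8)) := by ring
  have k1 : 8 * ξ ^ 7 * (Q * ε - 2 * r * d) = 8 * ξ ^ 7 * (Q * ε) - 16 * r * d * ξ ^ 7 := by ring
  rw [k1] at s3
  rw [expand, s4]
  clear expand k1 s4 hDL hL0 hQL hε hr hd ha hα hD' hB hB0 hB3 hQ hL hLz hDz hDD' hd9 hξα haα
    hε7 hD'0 hr1 hr2 hm hD hDm hz hξ z1 z2 x1 x2 hm0 hm9 hD0 h1ξ hε0 hα0 a8 hd0 hm4 hξ8 s12 hQ0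
  linarith

section

variable {V : Type} [DecidableEq V] {H : Finset (Finset V)} {M : Finset V}

theorem e1_SN_abs (v : V → ℝ) (x : V) : |SN H M v x| ≤ SN H M (fun z => |v z|) x := by
  unfold SN
  refine (Finset.abs_sum_le_sum_abs _ _).trans ?_
  refine Finset.sum_le_sum fun T hT => ?_
  have hx : x ∈ T := (mem_filter.1 hT).2
  have h1 : ∑ z ∈ T, v z - v x = ∑ z ∈ T.erase x, v z := by
    rw [← Finset.add_sum_erase T v hx]; ring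
  have h2 : ∑ z ∈ T, |v z| - |v x| = ∑ z ∈ T.erase x, |v z| := by
    rw [← Finset.add_sum_erase T (fun z => |v z|) hx]; ring
  rw [h1, h2]
  exact Finset.abs_sum_le_sum_abs _ _

theorem e1_SN_lin (hH : IsLin3 H) (D : ℝ) (v : V → ℝ) (x : V) :
    SN H M (fun z => D * (1 + v z)) x = D * (2 * (deg H M x : ℝ) + SN H M v x) := by
  unfold SN deg
  rw [card_eq_sum_ones, Nat.cast_sum, Finset.mul_sum, ← Finset.sum_add_distrib, Finset.mul_sum]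
  refine Finset.sum_congr rfl fun T hT => ?_
  have h3 := hH.card3 T (mem_sub.1 (mem_filter.1 hT).1).1
  have h4 : ∑ z ∈ T, D * (1 + v z) = D * (3 + ∑ z ∈ T, v z) := by
    rw [← Finset.mul_sum, Finset.sum_add_distrib, Finset.sum_const, h3]; norm_num
  rw [h4]; push_cast; ring

theorem e1_SN_le {v : V → ℝ} (hH : IsLin3 H) {c : ℝ} (hv : ∀ z ∈ M, v z ≤ c)
    (x : V) : SN H M v x ≤ 2 * c * (deg H M x : ℝ) := by
  unfold SN deg
  rw [card_eq_sum_ones, Nat.cast_sum, Finset.mul_sum]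
  refine Finset.sum_le_sum fun T hT => ?_
  have hT' := mem_filter.1 hT
  have h3 := hH.card3 T (mem_sub.1 hT'.1).1
  have hs := (mem_sub.1 hT'.1).2
  have h1 : ∑ z ∈ T, v z - v x = ∑ z ∈ T.erase x, v z := by
    rw [← Finset.add_sum_erase T v hT'.2]; ring
  rw [h1]
  calc ∑ z ∈ T.erase x, v z ≤ ∑ _z ∈ T.erase x, c :=
        Finset.sum_le_sum fun z hz => hv z (hs (Finset.mem_of_mem_erase hz))
    _ = 2 * c * ((1 : ℕ) : ℝ) := by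
        rw [Finset.sum_const, Finset.card_erase_of_mem hT'.2, h3, nsmul_eq_mul]; norm_num

theorem e1_term {a k D' : ℝ} (hD' : 0 < D') (h0 : 0 ≤ k) (h3 : k ≤ 3) :
    (a - k / D') ^ 8 ≤ a ^ 8 + k * (-(8 * a ^ 7 * (1 / D')) + 247 * (3 * a ^ 6 * (1 / D' ^ 2) +
          3 ^ 7 * (1 / D' ^ 8))) := by
  have h2 := e1_binom a (k / D')
  have h4 : (k / D') ^ 2 ≤ k * (3 * (1 / D' ^ 2)) := by
    have : k ^ 2 ≤ k * 3 := by
      rw [sq]; exact mul_le_mul_of_nonneg_left h3 h0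
    rw [div_pow, div_eq_mul_one_div]
    have h5 : 0 ≤ 1 / D' ^ 2 := by positivity
    have := mul_le_mul_of_nonneg_right this h5
    linarith
  have h5 : (k / D') ^ 8 ≤ k * (3 ^ 7 * (1 / D' ^ 8)) := by
    have : k ^ 8 ≤ k * 3 ^ 7 := by
      calc k ^ 8 = k * k ^ 7 := by ring
        _ ≤ k * 3 ^ 7 := by gcongr
    rw [div_pow, div_eq_mul_one_div]
    have h5 : 0 ≤ 1 / D' ^ 8 := by positivity
    have := mul_le_mul_of_nonneg_right this h5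
    linarith
  have h6 : 0 ≤ a ^ 6 := by positivity
  have h7 := mul_le_mul_of_nonneg_left h4 h6
  have e : 8 * a ^ 7 * (k / D') = k * (8 * a ^ 7 * (1 / D')) := by ring
  rw [e] at h2
  linarith

/-- the deviation after one step -/
theorem e1_xi' {κ m D D' r : ℝ} (hH : IsLin3 H) (hm : m = (M.card : ℝ)) (hm9 : 0 < m - 9)
    (hD'def : D' = Dr κ (m - 3) 0) (hD' : 0 < D') (hr : r = (m - 3) / (m - 9))
    (hDr : D = r * D') (hd : ∀ x, (deg H M x : ℝ) = D * (1 + xi κ H M x)) {T : Finset V}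
    (hT : T ∈ sub H M) (x : V) :
    xi κ H (M \ T) x = xi κ H M x + 6 / (m - 9) * (1 + xi κ H M x) - (dl H M T x : ℝ) / D' := by
  have h1 : (((M \ T).card : ℕ) : ℝ) = m - 3 := by
    have := card_sdiff_of_mem hH hT
    rw [hm, ← this]; push_cast; ring
  have h2 : (deg H (M \ T) x : ℝ) = (deg H M x : ℝ) - (dl H M T x : ℝ) := by
    have := deg_sdiff (H := H) (M := M) T x
    rw [← this]; push_cast; ring
  have h3 : (deg H M x : ℝ) / D' = r * (1 + xi κ H M x) := by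
    rw [hd x, div_eq_iff hD'.ne', hDr]
    ring
  have h4 : r * (1 + xi κ H M x) - 1 = xi κ H M x + 6 / (m - 9) * (1 + xi κ H M x) := by
    rw [hr]; field_simp; ring
  have h5 : xi κ H (M \ T) x = (deg H (M \ T) x : ℝ) / Dr κ ((M \ T).card : ℝ) 0 - 1 := rfl
  rw [h5, h1, ← hD'def, h2, sub_div, h3, ← h4]
  ring

theorem e1_vertex {κ m D D' Q z r L : ℝ} (hH : IsLin3 H) (hmd : m = (M.card : ℝ))
    (hQd : Q = ((sub H M).card : ℝ)) (hm : 1000 ≤ m) (hD : 1000 ≤ D)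
    (hDm : D ≤ m) (hz : |z| ≤ 1 / 8) (hQ : Q = m * D / 3 * (1 + z)) (hL : L = Q / m)
    (hD'def : D' = Dr κ (m - 3) 0) (hD' : 0 < D') (hr : r = (m - 3) / (m - 9))
    (hDr : D = r * D') (hd : ∀ x, (deg H M x : ℝ) = D * (1 + xi κ H M x))
    (hξ : ∀ x ∈ M, |xi κ H M x| ≤ 1 / 8) (hdle : ∀ x ∈ M, (deg H M x : ℝ) ≤ 9 / 8 * D)
    {x : V} (hx : x ∈ M) :
    ∑ T ∈ sub H M with x ∉ T, xi κ H (M \ T) x ^ 8 ≤
      Q * xi κ H M x ^ 8 + 9 * ((|xi κ H M x| + 7 / m) ^ 7 * |SN H M (xi κ H M) x|) +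
        L * (40000 * ((|xi κ H M x| + 7 / m) ^ 8 + z ^ 8 + 1 / D ^ 4)) := by
  have hD0 : 0 < D := by linarith
  have hB : bb H M x - 2 * (deg H M x : ℝ) =
      D * (2 * (deg H M x : ℝ) + SN H M (xi κ H M) x) - 2 * (deg H M x : ℝ) := by
    have : bb H M x = SN H M (fun z => D * (1 + xi κ H M z)) x := by
      unfold bb
      congr 1
      funext z
      exact hd z
    rw [this, e1_SN_lin hH]
  have hB0 : 0 ≤ bb H M x - 2 * (deg H M x : ℝ) := by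
    rw [← sum_dl_eq hH hx]
    exact Finset.sum_nonneg fun T _ => Nat.cast_nonneg _
  have hB3 : bb H M x - 2 * (deg H M x : ℝ) ≤ 3 * D ^ 2 := by
    have h1 : bb H M x ≤ 2 * (9 / 8 * D) * (deg H M x : ℝ) := e1_SN_le hH hdle x
    have h2 : (0 : ℝ) ≤ deg H M x := Nat.cast_nonneg _
    have h3 : 2 * (9 / 8 * D) * (deg H M x : ℝ) ≤ 2 * (9 / 8 * D) * (9 / 8 * D) :=
      mul_le_mul_of_nonneg_left (hdle x hx) (by positivity)
    have h4 : 0 ≤ D ^ 2 := by positivity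
    have h5 : 2 * (9 / 8 * D) * (9 / 8 * D) = 81 / 32 * D ^ 2 := by ring
    linarith
  have hp := e1_point (m := m) (D := D) (D' := D') (Q := Q) (z := z) (ξ := xi κ H M x)
      (ε := 6 / (m - 9) * (1 + xi κ H M x)) (r := r) (d := (deg H M x : ℝ))
      (a := xi κ H M x + 6 / (m - 9) * (1 + xi κ H M x))
      (S := SN H M (xi κ H M) x) (L := L) (B := bb H M x - 2 * (deg H M x : ℝ))
      (α := |xi κ H M x| + 7 / m)
      hm hD hDm hz (hξ x hx) hQ hL rfl hr (hd x) rfl rfl hDr hB hB0 hB3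
  refine le_trans ?_ hp
  have h1 : ∀ T ∈ (sub H M).filter (fun T => x ∉ T), xi κ H (M \ T) x ^ 8 ≤
      (xi κ H M x + 6 / (m - 9) * (1 + xi κ H M x)) ^ 8 + (dl H M T x : ℝ) *
        (-(8 * (xi κ H M x + 6 / (m - 9) * (1 + xi κ H M x)) ^ 7 * (1 / D')) +
          247 * (3 * (xi κ H M x + 6 / (m - 9) * (1 + xi κ H M x)) ^ 6 * (1 / D' ^ 2) +
          3 ^ 7 * (1 / D' ^ 8))) := by
    intro T hT
    obtain ⟨hT1, hT2⟩ := mem_filter.1 hT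
    rw [e1_xi' hH hmd (by linarith) hD'def hD' hr hDr hd hT1 x]
    exact e1_term hD' (Nat.cast_nonneg _) (by exact_mod_cast dl_le hH hT1 hT2)
  refine (Finset.sum_le_sum h1).trans (le_of_eq ?_)
  rw [Finset.sum_add_distrib, Finset.sum_const, ← Finset.sum_mul, sum_dl_eq hH hx]
  have hcard : ((((sub H M).filter (fun T => x ∉ T)).card : ℕ) : ℝ) = Q - (deg H M x : ℝ) := by
    have := card_filter_add_card_filter_not (s := sub H M) (fun T => x ∈ T)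
    have h2 : deg H M x + ((sub H M).filter (fun T => x ∉ T)).card = (sub H M).card := this
    rw [hQd, ← h2]; push_cast; ring
  rw [nsmul_eq_mul, hcard]
  ring

theorem e1_SNsum {α ξ : V → ℝ} {D L A : ℝ} (hH : IsLin3 H) (hα0 : ∀ x, 0 ≤ α x)
    (hξα : ∀ x, |ξ x| ≤ α x) (hdle : ∀ x ∈ M, (deg H M x : ℝ) ≤ 9 / 8 * D)
    (hA : A = ∑ x ∈ M, α x ^ 8) (hDL : D ≤ 24 / 7 * L) (hL : 0 ≤ L) :
    ∑ x ∈ M, α x ^ 7 * |SN H M ξ x| ≤ 24 * L * A := by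
  have hA0 : 0 ≤ A := by
    rw [hA]
    exact Finset.sum_nonneg fun x _ => pow_nonneg (hα0 x) 8
  calc ∑ x ∈ M, α x ^ 7 * |SN H M ξ x| ≤ ∑ x ∈ M, α x ^ 7 * SN H M (fun z => |ξ z|) x := by
        refine Finset.sum_le_sum fun x _ => ?_
        exact mul_le_mul_of_nonneg_left (e1_SN_abs ξ x) (pow_nonneg (hα0 x) 7)
    _ = ∑ T ∈ sub H M, ∑ y ∈ T, α y ^ 7 * (∑ z ∈ T, |ξ z| - |ξ y|) := SN_sum_mul _ _
    _ ≤ ∑ T ∈ sub H M, ∑ y ∈ T, ∑ z ∈ T, α y ^ 7 * α z := by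
        refine Finset.sum_le_sum fun T _ => Finset.sum_le_sum fun y _ => ?_
        rw [← Finset.mul_sum]
        refine mul_le_mul_of_nonneg_left ?_ (pow_nonneg (hα0 y) 7)
        have h1 : ∑ z ∈ T, |ξ z| ≤ ∑ z ∈ T, α z := Finset.sum_le_sum fun z _ => hξα z
        have h2 : 0 ≤ |ξ y| := abs_nonneg _
        linarith
    _ ≤ 3 * ∑ x ∈ M, (deg H M x : ℝ) * (α x ^ 8 + α x ^ 8) :=
        pair_sum hH fun y _ z _ => e1_pow7 (hα0 y) (hα0 z)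
    _ ≤ 3 * ∑ x ∈ M, (9 / 8 * D) * (α x ^ 8 + α x ^ 8) := by
        refine mul_le_mul_of_nonneg_left ?_ (by norm_num)
        refine Finset.sum_le_sum fun x hx => ?_
        refine mul_le_mul_of_nonneg_right (hdle x hx) ?_
        have := pow_nonneg (hα0 x) 8
        linarith
    _ = 27 / 4 * D * A := by
        rw [hA, ← Finset.mul_sum, Finset.sum_add_distrib]; ring
    _ ≤ 24 * L * A := by
        refine mul_le_mul_of_nonneg_right ?_ hA0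
        linarith

omit [DecidableEq V] in
theorem e1_mean {ξ : V → ℝ} {m z : ℝ} (hm : m = (M.card : ℝ)) (hm0 : 0 < m)
    (h : m * z = ∑ x ∈ M, ξ x) : m * z ^ 8 ≤ ∑ x ∈ M, ξ x ^ 8 := by
  have h1 : m * |z| ≤ ∑ x ∈ M, |ξ x| := by
    calc m * |z| = |m * z| := by rw [abs_mul, abs_of_pos hm0]
      _ = |∑ x ∈ M, ξ x| := by rw [h]
      _ ≤ ∑ x ∈ M, |ξ x| := Finset.abs_sum_le_sum_abs _ _
  have h2 := pow_sum_div_card_le_sum_pow (s := M) (f := fun x => |ξ x|)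
    (fun x _ => abs_nonneg (ξ x)) 7
  have h3 : ∑ x ∈ M, |ξ x| ^ (7 + 1) = ∑ x ∈ M, ξ x ^ 8 :=
    Finset.sum_congr rfl fun x _ => by
      have e : |ξ x| ^ 8 = ξ x ^ 8 := by rw [← abs_pow, abs_of_nonneg (by positivity)]
      exact e
  rw [h3, ← hm] at h2
  refine le_trans ?_ h2
  rw [le_div_iff₀ (by positivity)]
  have h4 : m * z ^ 8 * m ^ 7 = (m * |z|) ^ 8 := by
    rw [mul_pow, ← abs_pow, abs_of_nonneg (by positivity)]; ring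
  rw [h4]
  have : 0 ≤ m * |z| := by positivity
  gcongr

omit [DecidableEq V] in
theorem e1_AX {ξ : V → ℝ} {m D : ℝ} (hmd : m = (M.card : ℝ)) (hm : 1000 ≤ m) (hD : 0 < D)
    (hDm : D ≤ m) : ∑ x ∈ M, (|ξ x| + 7 / m) ^ 8 ≤
      128 * ∑ x ∈ M, ξ x ^ 8 + 128 * (m * (1 / D ^ 4)) := by
  have hm0 : 0 < m := by linarith
  have h7 : (7 / m) ^ 8 ≤ 1 / D ^ 4 := by
    have h1 : (7 / m) ^ 8 = (5764801 / m ^ 4) * (1 / m ^ 4) := by field_simp; norm_num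
    have h2 : 5764801 / m ^ 4 ≤ 1 := by
      rw [div_le_one (by positivity)]
      have : (1000 : ℝ) ^ 4 ≤ m ^ 4 := by gcongr
      linarith
    have h3 : 0 ≤ 1 / m ^ 4 := by positivity
    have h4 : 1 / m ^ 4 ≤ 1 / D ^ 4 := by gcongr
    rw [h1]
    have := mul_le_mul_of_nonneg_right h2 h3
    linarith
  calc ∑ x ∈ M, (|ξ x| + 7 / m) ^ 8 ≤ ∑ x ∈ M, (128 * ξ x ^ 8 + 128 * (1 / D ^ 4)) := by
        refine Finset.sum_le_sum fun x _ => ?_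
        have h1 := add_pow_le (abs_nonneg (ξ x)) (by positivity : 0 ≤ 7 / m) 8
        have a8 : |ξ x| ^ 8 = ξ x ^ 8 := by rw [← abs_pow, abs_of_nonneg (by positivity)]
        have e : (2 : ℝ) ^ (8 - 1) = 128 := by norm_num
        rw [a8, e] at h1
        linarith
    _ = _ := by
        rw [Finset.sum_add_distrib, ← Finset.mul_sum, Finset.sum_const, nsmul_eq_mul, ← hmd]
        ring

theorem e1_zmean {κ m D Q z : ℝ} (hH : IsLin3 H) (hmd : m = (M.card : ℝ))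
    (hQd : Q = ((sub H M).card : ℝ)) (hD : 0 < D) (hQ : Q = m * D / 3 * (1 + z))
    (hd : ∀ x, (deg H M x : ℝ) = D * (1 + xi κ H M x)) : m * z = ∑ x ∈ M, xi κ H M x := by
  have h1 := sum_deg (H := H) (M := M) hH
  have h2 : ∑ x ∈ M, (deg H M x : ℝ) = D * (m + ∑ x ∈ M, xi κ H M x) := by
    rw [Finset.sum_congr rfl fun x _ => hd x, ← Finset.mul_sum, Finset.sum_add_distrib,
      Finset.sum_const, nsmul_eq_mul, mul_one, ← hmd]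
  rw [h2, ← hQd, hQ] at h1
  have h3 : D * (m + ∑ x ∈ M, xi κ H M x) = D * (m + m * z) := by rw [h1]; ring
  have h4 := mul_left_cancel₀ hD.ne' h3
  linarith

end

theorem e1_fin {X A W Z L Q m D : ℝ} (hm : 0 < m) (hD : 0 < D) (hL0 : 0 ≤ L) (hQL : Q = L * m)
    (hX0 : 0 ≤ X) (hW : W ≤ 24 * L * A) (hA : A ≤ 128 * X + 128 * (m * (1 / D ^ 4)))
    (hZ : Z ≤ X) :
    Q * X + 9 * W + L * (40000 * (A + Z + m * (1 / D ^ 4))) ≤
      Q * (X * (1 + 6000000 / m) + 6000000 / D ^ 4) := by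
  have hF : Q * (X * (1 + 6000000 / m) + 6000000 / D ^ 4) =
      Q * X + L * (6000000 * (X + m * (1 / D ^ 4))) := by
    rw [hQL]; field_simp
    ring
  rw [hF]
  have k1 : L * A ≤ L * (128 * X + 128 * (m * (1 / D ^ 4))) :=
    mul_le_mul_of_nonneg_left hA hL0
  have k2 : L * Z ≤ L * X := mul_le_mul_of_nonneg_left hZ hL0
  have k3 : 0 ≤ L * X := by positivity
  have k4 : 0 ≤ L * (m * (1 / D ^ 4)) := by positivity
  linarith

theorem step_X8 : ∃ C : ℝ, 1 ≤ C ∧ ∀ (V : Type) [DecidableEq V] (H : Finset (Finset V))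
    (M : Finset V) (κ : ℝ), IsLin3 H → 0 < κ → 1000 ≤ (M.card : ℝ) →
    1000 ≤ Dr κ M.card 0 → Dr κ M.card 0 ≤ M.card → (∀ x ∈ M, |xi κ H M x| ≤ 1 / 8) →
    |zq κ H M| ≤ 1 / 8 →
    ∑ T ∈ sub H M, X8 κ H (M \ T) ≤
      (sub H M).card * (X8 κ H M * (1 + C / M.card) + C / Dr κ M.card 0 ^ 4) := by
  refine ⟨6000000, by norm_num, ?_⟩
  intro V _ H M κ hH hκ hm hD hDm hξ hz
  obtain ⟨m, hmdef⟩ : ∃ m : ℝ, m = (M.card : ℝ) := ⟨_, rfl⟩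
  obtain ⟨D, hDdef⟩ : ∃ D : ℝ, D = Dr κ m 0 := ⟨_, rfl⟩
  obtain ⟨D', hD'def⟩ : ∃ D' : ℝ, D' = Dr κ (m - 3) 0 := ⟨_, rfl⟩
  obtain ⟨Q, hQdef⟩ : ∃ Q : ℝ, Q = ((sub H M).card : ℝ) := ⟨_, rfl⟩
  obtain ⟨z, hzdef⟩ : ∃ z : ℝ, z = zq κ H M := ⟨_, rfl⟩
  rw [← hmdef] at hm hD hDm
  rw [← hDdef] at hD hDm
  rw [← hzdef] at hz
  rw [← hmdef, ← hDdef, ← hQdef]
  have hm0 : 0 < m := by linarith
  have hm3 : 0 < m - 3 := by linarith
  have hm6 : 0 < m - 6 := by linarith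
  have hm9 : 0 < m - 9 := by linarith
  have hD0 : 0 < D := by linarith
  have eD : D = κ * (m - 3) * (m - 6) := by rw [hDdef, Dr]; ring
  have eD' : D' = κ * (m - 6) * (m - 9) := by rw [hD'def, Dr]; ring
  have hD'0 : 0 < D' := by rw [eD']; positivity
  obtain ⟨r, hr⟩ : ∃ r : ℝ, r = (m - 3) / (m - 9) := ⟨_, rfl⟩
  have hDr : D = r * D' := by rw [eD, eD', hr]; field_simp
  have hQ : Q = m * D / 3 * (1 + z) := by
    have h1 : Qh κ m = m * D / 3 := by rw [Qh, eD]; ring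
    have h2 : z = Q / (m * D / 3) - 1 := by rw [hzdef, zq, ← hmdef, h1, ← hQdef]
    rw [h2]; field_simp; ring
  have hd : ∀ x, (deg H M x : ℝ) = D * (1 + xi κ H M x) := by
    intro x
    have : xi κ H M x = (deg H M x : ℝ) / D - 1 := by unfold xi; rw [← hmdef, ← hDdef]
    rw [this]; field_simp; ring
  have hQ0 : 0 ≤ Q := by rw [hQdef]; exact Nat.cast_nonneg _
  obtain ⟨L, hL⟩ : ∃ L : ℝ, L = Q / m := ⟨_, rfl⟩
  have hL0 : 0 ≤ L := by rw [hL]; positivity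
  have hQL : Q = L * m := by rw [hL]; field_simp
  have hdle : ∀ x ∈ M, (deg H M x : ℝ) ≤ 9 / 8 * D := by
    intro x hx
    rw [hd x]
    have := mul_le_mul_of_nonneg_left (abs_le.1 (hξ x hx)).2 hD0.le
    linarith
  have hDL : D ≤ 24 / 7 * L := by
    have hLz : L = D / 3 * (1 + z) := by rw [hL, hQ]; field_simp
    have hDz : D * (-(1 / 8)) ≤ D * z := mul_le_mul_of_nonneg_left (abs_le.1 hz).1 hD0.le
    rw [hLz]; linarith
  obtain ⟨A, hA⟩ : ∃ A : ℝ, A = ∑ x ∈ M, (|xi κ H M x| + 7 / m) ^ 8 := ⟨_, rfl⟩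
  obtain ⟨W, hW⟩ : ∃ W : ℝ, W = ∑ x ∈ M, (|xi κ H M x| + 7 / m) ^ 7 * |SN H M (xi κ H M) x| :=
    ⟨_, rfl⟩
  have hX8 : X8 κ H M = ∑ x ∈ M, xi κ H M x ^ 8 := rfl
  have hW' : W ≤ 24 * L * A := by
    rw [hW]
    refine e1_SNsum (α := fun x => |xi κ H M x| + 7 / m) (ξ := xi κ H M) hH ?_ ?_ hdle hA hDL hL0
    · intro x; positivity
    · intro x
      have : 0 ≤ 7 / m := by positivity
      linarith
  have hA' : A ≤ 128 * X8 κ H M + 128 * (m * (1 / D ^ 4)) := by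
    rw [hA, hX8]; exact e1_AX hmdef hm hD0 hDm
  have hZ' : m * z ^ 8 ≤ X8 κ H M :=
    e1_mean hmdef hm0 (e1_zmean hH hmdef hQdef hD0 hQ hd)
  have hX0 : 0 ≤ X8 κ H M := by
    rw [hX8]; exact Finset.sum_nonneg fun x _ => by positivity
  have hsum : ∑ T ∈ sub H M, X8 κ H (M \ T) ≤ ∑ x ∈ M, (Q * xi κ H M x ^ 8 +
      9 * ((|xi κ H M x| + 7 / m) ^ 7 * |SN H M (xi κ H M) x|) +
      L * (40000 * ((|xi κ H M x| + 7 / m) ^ 8 + z ^ 8 + 1 / D ^ 4))) := by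
    unfold X8
    rw [sum_sdiff_comm (fun T y => xi κ H (M \ T) y ^ 8)]
    exact Finset.sum_le_sum fun x hx => e1_vertex hH hmdef hQdef hm hD hDm hz hQ hL hD'def hD'0 hr
      hDr hd hξ hdle hx
  have hfin : ∑ x ∈ M, (Q * xi κ H M x ^ 8 +
      9 * ((|xi κ H M x| + 7 / m) ^ 7 * |SN H M (xi κ H M) x|) +
      L * (40000 * ((|xi κ H M x| + 7 / m) ^ 8 + z ^ 8 + 1 / D ^ 4))) =
      Q * X8 κ H M + 9 * W + L * (40000 * (A + m * z ^ 8 + m * (1 / D ^ 4))) := by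
    rw [Finset.sum_add_distrib, Finset.sum_add_distrib, ← Finset.mul_sum, ← Finset.mul_sum,
      ← Finset.mul_sum, ← Finset.mul_sum, Finset.sum_add_distrib, Finset.sum_add_distrib,
      Finset.sum_const, Finset.sum_const, nsmul_eq_mul, nsmul_eq_mul, ← hmdef, ← hA, ← hW, ← hX8]
  refine hsum.trans ?_
  rw [hfin]
  exact e1_fin hm0 hD0 hL0 hQL hX0 hW' hA' hZ'

end Vale.Agent.P046S
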