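import Vale.Agent.P046S.E0
import Vale.Agent.P046LF.S6

/-!
P046 sharp constant, module E2: one step for `zq ^ 2`. From `step_Z1` with the `GS` of `G1.gs`:
`∑_T (z_T + S')² ≤ Q (z² (1 + 3/m) + (3/m) C / u^6)`, `z_T² ≤ (1 + 1/m) (z_T + S')² + (1 + m) S'²`.
-/

namespace Vale.Agent.P046S

open Finset Vale.Agent.P046 Vale.Agent.P046LF

theorem step_zq : ∃ C : ℝ, 1 ≤ C ∧ ∀ (V : Type) [DecidableEq V] (H : Finset (Finset V))
    (M : Finset V) (κ m Q u D : ℝ), G1 κ H M m Q u D →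
    ∑ T ∈ sub H M, zq κ H (M \ T) ^ 2 ≤ Q * (zq κ H M ^ 2 * (1 + 5 / m) + C / (m * u ^ 6)) := by
  obtain ⟨C, hC1, hC⟩ := step_Z1
  refine ⟨6 * C + 800, by linarith, ?_⟩
  intro V _ H M κ m Q u D g
  obtain ⟨S', D', gs, hD', hS0, hS'⟩ := g.gs
  have h := hC V H M (xi κ H M) κ 0 S' m Q u D D' 1 gs
  have hm0 := gs.m_pos
  have hmbig := gs.m_big
  have hu := gs.u_pos
  have hu1 := gs.hu
  have hQ := gs.Q_pos
  have hm3 : (3 : ℝ) ≤ m := by
    have h1 : (1000 : ℝ) ≤ u ^ 6 := by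
      calc (1000 : ℝ) ≤ 1000 ^ 6 := by norm_num
        _ ≤ u ^ 6 := pow_le_pow_left₀ (by norm_num) hu1 6
    have := g.hum
    linarith
  have hz : Q / Qh κ m + 0 - 1 = zq κ H M := by
    unfold zq
    rw [g.hQ, g.hm]
    ring
  rw [hz] at h
  have hterm : ∀ T ∈ sub H M, zq κ H (M \ T) ^ 2 ≤
      (1 + 1 / m) * (((sub H (M \ T)).card : ℝ) / Qh κ (m - 3) + S' - 1) ^ 2 +
        (1 + m) * S' ^ 2 := by
    intro T hT
    have h1 : (((M \ T).card : ℕ) : ℝ) = m - 3 := by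
      have h2 := card_sdiff_of_mem g.lin hT
      have h3 : (((M \ T).card : ℕ) : ℝ) + 3 = m := by
        rw [← g.hm]
        exact_mod_cast h2
      linarith
    have h4 : zq κ H (M \ T) = ((sub H (M \ T)).card : ℝ) / Qh κ (m - 3) - 1 := by
      unfold zq
      rw [h1]
    rw [h4]
    set a := ((sub H (M \ T)).card : ℝ) / Qh κ (m - 3) - 1 with ha
    have h5 : ((sub H (M \ T)).card : ℝ) / Qh κ (m - 3) + S' - 1 = a + S' := by rw [ha]; ring
    rw [h5]
    have h6 : (1 + 1 / m) * (a + S') ^ 2 + (1 + m) * S' ^ 2 - a ^ 2 =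
        (a + S' + m * S') ^ 2 / m := by
      field_simp
      ring
    have h7 : 0 ≤ (a + S' + m * S') ^ 2 / m := by positivity
    linarith
  have hcard : ∑ T ∈ sub H M, (1 : ℝ) = Q := by
    rw [Finset.sum_const, nsmul_eq_mul, mul_one, g.hQ]
  have hS2 : (1 + m) * S' ^ 2 ≤ 800 / (m * u ^ 6) := by
    have hu3 : u ^ 3 ≤ u ^ 3 * Real.sqrt u := by
      have : 1 ≤ Real.sqrt u := by
        rw [Real.one_le_sqrt]
        linarith
      exact le_mul_of_one_le_right (by positivity) this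
    have h1 : S' * (m * u ^ 3) ≤ 20 :=
      (mul_le_mul_of_nonneg_left (mul_le_mul_of_nonneg_left hu3 hm0.le) hS0).trans hS'
    have h2 : (S' * (m * u ^ 3)) ^ 2 ≤ 20 ^ 2 :=
      pow_le_pow_left₀ (by positivity) h1 2
    rw [le_div_iff₀ (by positivity)]
    have h3 : (1 + m) * S' ^ 2 * (m * u ^ 6) ≤ 2 * (S' * (m * u ^ 3)) ^ 2 := by
      have h4 : 2 * (S' * (m * u ^ 3)) ^ 2 = (2 * m) * S' ^ 2 * (m * u ^ 6) := by ring
      rw [h4]
      refine mul_le_mul_of_nonneg_right (mul_le_mul_of_nonneg_right ?_ (sq_nonneg _))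
        (by positivity)
      linarith
    linarith
  calc ∑ T ∈ sub H M, zq κ H (M \ T) ^ 2
      ≤ ∑ T ∈ sub H M, ((1 + 1 / m) *
          (((sub H (M \ T)).card : ℝ) / Qh κ (m - 3) + S' - 1) ^ 2 +
            (1 + m) * S' ^ 2 * 1) := by
        refine Finset.sum_le_sum fun T hT => ?_
        rw [mul_one]
        exact hterm T hT
    _ = (1 + 1 / m) * ∑ T ∈ sub H M,
          (((sub H (M \ T)).card : ℝ) / Qh κ (m - 3) + S' - 1) ^ 2 +
            (1 + m) * S' ^ 2 * Q := by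
        rw [Finset.sum_add_distrib, ← Finset.mul_sum, ← Finset.mul_sum, hcard]
    _ ≤ (1 + 1 / m) * (Q * (zq κ H M ^ 2 + 3 / m * (zq κ H M ^ 2 + C / u ^ 6))) +
          800 / (m * u ^ 6) * Q := by
        refine add_le_add (mul_le_mul_of_nonneg_left h (by positivity))
          (mul_le_mul_of_nonneg_right hS2 hQ.le)
    _ ≤ Q * (zq κ H M ^ 2 * (1 + 5 / m) + (6 * C + 800) / (m * u ^ 6)) := by
        have e1 : (1 + 1 / m) * (Q * (zq κ H M ^ 2 + 3 / m * (zq κ H M ^ 2 + C / u ^ 6))) +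
            800 / (m * u ^ 6) * Q =
            Q * (zq κ H M ^ 2 * ((1 + 1 / m) * (1 + 3 / m)) +
              ((1 + 1 / m) * (3 * C) + 800) / (m * u ^ 6)) := by
          field_simp
          ring
        rw [e1]
        refine mul_le_mul_of_nonneg_left ?_ hQ.le
        have h1m : 1 / m ≤ 1 / 3 := one_div_le_one_div_of_le (by norm_num) hm3
        have h1m0 : 0 < 1 / m := by positivity
        have e2 : (1 + 1 / m) * (1 + 3 / m) ≤ 1 + 5 / m := by
          have e3 : (1 + 1 / m) * (1 + 3 / m) = 1 + 4 * (1 / m) + 3 * (1 / m) * (1 / m) := by ring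
          have e4 : 1 + 5 / m = 1 + 5 * (1 / m) := by ring
          rw [e3, e4]
          nlinarith
        refine add_le_add (mul_le_mul_of_nonneg_left e2 (sq_nonneg _)) ?_
        refine div_le_div_of_nonneg_right ?_ (by positivity)
        nlinarith

end Vale.Agent.P046S
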