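import Vale.Agent.P046S.EDef
import Vale.Agent.P046.Kn

/-!
P046 sharp constant, module E3: closed walks of length four.

`X4 M` = number of closed walks `a c b d` of length 4 in the graph with edge set `M`
(`= ∑_{a,b} codeg(a,b)²`, including `a = b` and `c = d`). A walk with `a ≠ b`, `c ≠ d` has four
different edges; every triangle contains at most two of them, and at most four triangles contain
two. So at most `Q - ∑_{e} d e + 4` triangles are disjoint from it; `d e = D (1 + ξ e)`,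
`∑_{walks} ∑_e |ξ e| ≤ 8 n² ∑ |ξ|`, `D / Q = (3/m)/(1+z)`. The other walks are at most `2 n³`.
`X4_ge`: Cauchy-Schwarz twice. `X4_top`: eigenvalues `n-1, -1` or direct count.
-/

namespace Vale.Agent.P046S

open Finset Vale.Agent.P046 Vale.Agent.P046LF

/-- adjacency indicator -/
def adj {n : ℕ} (M : Finset (Sym2 (Fin n))) (a b : Fin n) : ℝ := if s(a, b) ∈ M then 1 else 0

def X4 {n : ℕ} (M : Finset (Sym2 (Fin n))) : ℝ :=
  ∑ a : Fin n, ∑ b : Fin n, (∑ c : Fin n, adj M a c * adj M c b) ^ 2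

theorem adj_nonneg {n : ℕ} (M : Finset (Sym2 (Fin n))) (a b : Fin n) : 0 ≤ adj M a b := by
  unfold adj; split_ifs <;> norm_num

theorem adj_le_one {n : ℕ} (M : Finset (Sym2 (Fin n))) (a b : Fin n) : adj M a b ≤ 1 := by
  unfold adj; split_ifs <;> norm_num

theorem adj_comm {n : ℕ} (M : Finset (Sym2 (Fin n))) (a b : Fin n) : adj M a b = adj M b a := by
  unfold adj; rw [Sym2.eq_swap]

theorem adj_self {n : ℕ} {M : Finset (Sym2 (Fin n))} (hM : M ⊆ EF (⊤ : SimpleGraph (Fin n)))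
    (a : Fin n) : adj M a a = 0 := by
  unfold adj
  rw [if_neg]
  intro h
  have := hM h
  rw [mem_EF] at this
  exact this.ne rfl

theorem sum_adj_mul {n : ℕ} {M : Finset (Sym2 (Fin n))}
    (hM : M ⊆ EF (⊤ : SimpleGraph (Fin n))) (f : Sym2 (Fin n) → ℝ) :
    ∑ a : Fin n, ∑ b : Fin n, adj M a b * f s(a, b) = 2 * ∑ e ∈ M, f e := by
  have h1 : ∑ a : Fin n, ∑ b : Fin n, adj M a b * f s(a, b) =
      ∑ p : Fin n × Fin n, if s(p.1, p.2) ∈ M then f s(p.1, p.2) else 0 := by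
    rw [Fintype.sum_prod_type]
    refine Finset.sum_congr rfl fun a _ => Finset.sum_congr rfl fun b _ => ?_
    unfold adj
    simp only [ite_mul, one_mul, zero_mul]
  rw [h1, ← Finset.sum_filter]
  have h2 := Finset.sum_fiberwise_of_maps_to (s := univ.filter fun p : Fin n × Fin n =>
    s(p.1, p.2) ∈ M) (t := M) (g := fun p : Fin n × Fin n => s(p.1, p.2))
    (fun p hp => (mem_filter.1 hp).2) (fun p => f s(p.1, p.2))
  rw [← h2, Finset.mul_sum]
  refine Finset.sum_congr rfl fun e he => ?_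
  induction e with
  | h x y =>
    have hxy : x ≠ y := by
      have := hM he
      rw [mem_EF] at this
      exact this.ne
    have h3 : (univ.filter fun p : Fin n × Fin n => s(p.1, p.2) ∈ M).filter
        (fun p => s(p.1, p.2) = s(x, y)) = {(x, y), (y, x)} := by
      ext ⟨p, q⟩
      simp only [mem_filter, mem_univ, true_and, mem_insert, mem_singleton, Prod.mk.injEq,
        Sym2.eq_iff]
      constructor
      · rintro ⟨_, h⟩; exact h
      · rintro (⟨rfl, rfl⟩ | ⟨rfl, rfl⟩)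
        · exact ⟨he, Or.inl ⟨rfl, rfl⟩⟩
        · exact ⟨by rw [Sym2.eq_swap]; exact he, Or.inr ⟨rfl, rfl⟩⟩
    rw [h3, Finset.sum_pair (by intro h; exact hxy (Prod.mk.inj h).1)]
    rw [Sym2.eq_swap (a := y) (b := x)]
    ring

theorem sum_adj {n : ℕ} {M : Finset (Sym2 (Fin n))}
    (hM : M ⊆ EF (⊤ : SimpleGraph (Fin n))) :
    ∑ a : Fin n, ∑ b : Fin n, adj M a b = 2 * M.card := by
  have h := sum_adj_mul hM (fun _ => 1)
  simpa using h

theorem X4_top {n : ℕ} (hn : 2 ≤ n) :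
    X4 (EF (⊤ : SimpleGraph (Fin n))) ≤ ((n : ℝ) - 1) ^ 4 + n := by
  have hadj : ∀ a b : Fin n, adj (EF (⊤ : SimpleGraph (Fin n))) a b = if a = b then 0 else 1 := by
    intro a b
    unfold adj
    by_cases h : a = b
    · rw [if_pos h, if_neg]
      rw [mem_EF]
      exact fun h1 => h1.ne h
    · rw [if_neg h, if_pos]
      rw [mem_EF]
      exact h
  have hco : ∀ a b : Fin n, ∑ c : Fin n, adj (EF (⊤ : SimpleGraph (Fin n))) a c *
      adj (EF (⊤ : SimpleGraph (Fin n))) c b = (n : ℝ) - 2 + if a = b then 1 else 0 := by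
    intro a b
    have h1 : ∀ c : Fin n, adj (EF (⊤ : SimpleGraph (Fin n))) a c *
      adj (EF (⊤ : SimpleGraph (Fin n))) c b =
        1 - (if c = a then 1 else 0) - (if c = b then 1 else 0) +
          (if c = a then (if a = b then 1 else 0) else 0) := by
      intro c
      rw [hadj, hadj]
      by_cases h1 : c = a
      · subst h1
        by_cases h2 : c = b <;> simp [h2]
      · by_cases h2 : c = b
        · subst h2
          simp [h1]
        · simp [h1, h2, Ne.symm h1]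
    rw [Finset.sum_congr rfl fun c _ => h1 c]
    rw [Finset.sum_add_distrib, Finset.sum_sub_distrib, Finset.sum_sub_distrib]
    simp only [Finset.sum_const, Finset.card_univ, Fintype.card_fin, nsmul_eq_mul, mul_one,
      Finset.sum_ite_eq', mem_univ, if_true]
    ring
  unfold X4
  simp only [hco]
  have h2 : ∀ a b : Fin n, ((n : ℝ) - 2 + if a = b then 1 else 0) ^ 2 =
      ((n : ℝ) - 2) ^ 2 + (if a = b then (2 * ((n : ℝ) - 2) + 1) else 0) := by
    intro a b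
    by_cases h : a = b
    · simp only [h, if_true]; ring
    · simp only [h, if_false]; ring
  simp only [h2, Finset.sum_add_distrib, Finset.sum_const, Finset.card_univ, Fintype.card_fin,
    nsmul_eq_mul, Finset.sum_ite_eq, mem_univ, if_true]
  have hn' : (2 : ℝ) ≤ n := by exact_mod_cast hn
  nlinarith

theorem X4_ge {n : ℕ} (hn : 1 ≤ n) {M : Finset (Sym2 (Fin n))}
    (hM : M ⊆ EF (⊤ : SimpleGraph (Fin n))) :
    16 * (M.card : ℝ) ^ 4 / (n : ℝ) ^ 4 ≤ X4 M := by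
  have hn' : (1 : ℝ) ≤ n := by exact_mod_cast hn
  have hn0 : (0 : ℝ) < n := by linarith
  -- degrees
  set dg : Fin n → ℝ := fun c => ∑ a : Fin n, adj M a c with hdg
  have h1 : ∑ c : Fin n, dg c = 2 * M.card := by
    rw [← sum_adj hM, hdg]
    exact Finset.sum_comm
  have h2 : ∑ a : Fin n, ∑ b : Fin n, ∑ c : Fin n, adj M a c * adj M c b =
      ∑ c : Fin n, dg c ^ 2 := by
    have h3 : ∀ a : Fin n, ∑ b : Fin n, ∑ c : Fin n, adj M a c * adj M c b =
        ∑ c : Fin n, adj M a c * dg c := by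
      intro a
      rw [Finset.sum_comm]
      refine Finset.sum_congr rfl fun c _ => ?_
      rw [← Finset.mul_sum, hdg]
      congr 1
      exact Finset.sum_congr rfl fun b _ => adj_comm M c b
    rw [Finset.sum_congr rfl fun a _ => h3 a, Finset.sum_comm]
    refine Finset.sum_congr rfl fun c _ => ?_
    rw [← Finset.sum_mul, sq]
  have h4 : (2 * (M.card : ℝ)) ^ 2 ≤ n * ∑ c : Fin n, dg c ^ 2 := by
    have := sq_sum_le_card_mul_sum_sq (s := (univ : Finset (Fin n))) (f := dg)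
    rw [h1, Finset.card_univ, Fintype.card_fin] at this
    exact this
  have h5 : (∑ c : Fin n, dg c ^ 2) ^ 2 ≤ (n : ℝ) ^ 2 * X4 M := by
    rw [← h2, ← Fintype.sum_prod_type' (f := fun a b : Fin n => ∑ c : Fin n, adj M a c * adj M c b)]
    have := sq_sum_le_card_mul_sum_sq (s := (univ : Finset (Fin n × Fin n)))
      (f := fun p => ∑ c : Fin n, adj M p.1 c * adj M c p.2)
    rw [Finset.card_univ, Fintype.card_prod, Fintype.card_fin] at this
    push_cast at this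
    unfold X4
    rw [← Fintype.sum_prod_type'
      (f := fun a b : Fin n => (∑ c : Fin n, adj M a c * adj M c b) ^ 2)]
    calc _ ≤ _ := this
      _ = _ := by ring
  rw [div_le_iff₀ (by positivity)]
  have h6 : 0 ≤ (2 * (M.card : ℝ)) ^ 2 := by positivity
  have h7 : ((2 * (M.card : ℝ)) ^ 2) ^ 2 ≤ (n * ∑ c : Fin n, dg c ^ 2) ^ 2 :=
    pow_le_pow_left₀ h6 h4 2
  calc 16 * (M.card : ℝ) ^ 4 = ((2 * (M.card : ℝ)) ^ 2) ^ 2 := by ring
    _ ≤ (n * ∑ c : Fin n, dg c ^ 2) ^ 2 := h7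
    _ = (n : ℝ) ^ 2 * (∑ c : Fin n, dg c ^ 2) ^ 2 := by ring
    _ ≤ (n : ℝ) ^ 2 * ((n : ℝ) ^ 2 * X4 M) := by
      exact mul_le_mul_of_nonneg_left h5 (by positivity)
    _ = X4 M * (n : ℝ) ^ 4 := by ring

/-- product form of a closed walk -/
def wk {n : ℕ} (M : Finset (Sym2 (Fin n))) (a b c d : Fin n) : ℝ :=
  adj M a c * adj M c b * (adj M a d * adj M d b)

theorem wk_nonneg {n : ℕ} (M : Finset (Sym2 (Fin n))) (a b c d : Fin n) : 0 ≤ wk M a b c d :=
  mul_nonneg (mul_nonneg (adj_nonneg M a c) (adj_nonneg M c b))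
    (mul_nonneg (adj_nonneg M a d) (adj_nonneg M d b))

theorem wk_le_one {n : ℕ} (M : Finset (Sym2 (Fin n))) (a b c d : Fin n) : wk M a b c d ≤ 1 :=
  mul_le_one₀ (mul_le_one₀ (adj_le_one M a c) (adj_nonneg M c b) (adj_le_one M c b))
    (mul_nonneg (adj_nonneg M a d) (adj_nonneg M d b))
    (mul_le_one₀ (adj_le_one M a d) (adj_nonneg M d b) (adj_le_one M d b))

theorem X4_eq_wk {n : ℕ} (M : Finset (Sym2 (Fin n))) :
    X4 M = ∑ a : Fin n, ∑ b : Fin n, ∑ c : Fin n, ∑ d : Fin n, wk M a b c d := by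
  unfold X4 wk
  refine Finset.sum_congr rfl fun a _ => Finset.sum_congr rfl fun b _ => ?_
  rw [sq, Finset.sum_mul_sum]

/-- Bonferroni for four points of a linear hypergraph -/
theorem bonf {V : Type} [DecidableEq V] {H : Finset (Finset V)} {M : Finset V} (hH : IsLin3 H)
    {x y z w : V} (hxy : x ≠ y) (hxz : x ≠ z) (hxw : x ≠ w) (hyz : y ≠ z) (hyw : y ≠ w)
    (hzw : z ≠ w) :
    (((sub H M).filter fun T => x ∉ T ∧ y ∉ T ∧ z ∉ T ∧ w ∉ T).card : ℝ) ≤
      (sub H M).card - (deg H M x + deg H M y + deg H M z + deg H M w) + 6 := by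
  have hc : ∀ p q : V, p ≠ q → ∑ T ∈ sub H M, (if p ∈ T ∧ q ∈ T then (1 : ℝ) else 0) ≤ 1 := by
    intro p q hpq
    rw [← Finset.sum_filter, Finset.sum_const, nsmul_eq_mul, mul_one]
    exact_mod_cast codeg_le_one (M := M) hH hpq
  have hd : ∀ p : V, (deg H M p : ℝ) = ∑ T ∈ sub H M, (if p ∈ T then (1 : ℝ) else 0) := by
    intro p
    rw [← Finset.sum_filter, Finset.sum_const, nsmul_eq_mul, mul_one, deg]
  have hk : ((sub H M).card : ℝ) = ∑ T ∈ sub H M, (1 : ℝ) := by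
    rw [Finset.sum_const, nsmul_eq_mul, mul_one]
  have hl : (((sub H M).filter fun T => x ∉ T ∧ y ∉ T ∧ z ∉ T ∧ w ∉ T).card : ℝ) =
      ∑ T ∈ sub H M, (if x ∉ T ∧ y ∉ T ∧ z ∉ T ∧ w ∉ T then (1 : ℝ) else 0) := by
    rw [← Finset.sum_filter, Finset.sum_const, nsmul_eq_mul, mul_one]
  have hp : ∀ T ∈ sub H M, (if x ∉ T ∧ y ∉ T ∧ z ∉ T ∧ w ∉ T then (1 : ℝ) else 0) ≤
      1 - ((if x ∈ T then (1 : ℝ) else 0) + (if y ∈ T then (1 : ℝ) else 0) +
        (if z ∈ T then (1 : ℝ) else 0) + (if w ∈ T then (1 : ℝ) else 0)) +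
      ((if x ∈ T ∧ y ∈ T then (1 : ℝ) else 0) + (if x ∈ T ∧ z ∈ T then (1 : ℝ) else 0) +
        (if x ∈ T ∧ w ∈ T then (1 : ℝ) else 0) + (if y ∈ T ∧ z ∈ T then (1 : ℝ) else 0) +
        (if y ∈ T ∧ w ∈ T then (1 : ℝ) else 0) + (if z ∈ T ∧ w ∈ T then (1 : ℝ) else 0)) := by
    intro T _
    by_cases h1 : x ∈ T <;> by_cases h2 : y ∈ T <;> by_cases h3 : z ∈ T <;>
      by_cases h4 : w ∈ T <;> simp only [h1, h2, h3, h4, if_true, if_false, not_true, not_false_eq_true,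
        and_true, and_false] <;> norm_num
  have hs := Finset.sum_le_sum hp
  rw [Finset.sum_add_distrib, Finset.sum_sub_distrib, Finset.sum_add_distrib,
    Finset.sum_add_distrib, Finset.sum_add_distrib, Finset.sum_add_distrib,
    Finset.sum_add_distrib, Finset.sum_add_distrib, Finset.sum_add_distrib,
    Finset.sum_add_distrib, ← hd, ← hd, ← hd, ← hd, ← hk, ← hl] at hs
  linarith [hc x y hxy, hc x z hxz, hc x w hxw, hc y z hyz, hc y w hyw, hc z w hzw]

/-- average of one walk -/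
theorem wk_step {n : ℕ} {M : Finset (Sym2 (Fin n))} (hM : M ⊆ EF (⊤ : SimpleGraph (Fin n)))
    {D Q L K : ℝ} {ξ : Sym2 (Fin n) → ℝ} (hQ : ((sub (Hn n) M).card : ℝ) = Q) (hD : 0 ≤ D)
    (hdeg : ∀ e, (deg (Hn n) M e : ℝ) = D * (1 + ξ e)) (hK : 0 ≤ K)
    (hL1 : Q - 4 * D + 6 ≤ L) (hL2 : Q - K ≤ L) (a b c d : Fin n) :
    ∑ T ∈ sub (Hn n) M, wk (M \ T) a b c d ≤
      wk M a b c d * L + D * (adj M a c * |ξ s(a, c)| + adj M c b * |ξ s(c, b)| +
        adj M a d * |ξ s(a, d)| + adj M d b * |ξ s(d, b)|) +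
        K * ((if a = b then 1 else 0) + (if c = d then 1 else 0)) := by
  have hrest : 0 ≤ D * (adj M a c * |ξ s(a, c)| + adj M c b * |ξ s(c, b)| +
        adj M a d * |ξ s(a, d)| + adj M d b * |ξ s(d, b)|) := by
    refine mul_nonneg hD ?_
    have := mul_nonneg (adj_nonneg M a c) (abs_nonneg (ξ s(a, c)))
    have := mul_nonneg (adj_nonneg M c b) (abs_nonneg (ξ s(c, b)))
    have := mul_nonneg (adj_nonneg M a d) (abs_nonneg (ξ s(a, d)))
    have := mul_nonneg (adj_nonneg M d b) (abs_nonneg (ξ s(d, b)))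
    linarith
  have hind : (0 : ℝ) ≤ (if a = b then 1 else 0) + (if c = d then 1 else 0) := by
    split_ifs <;> norm_num
  by_cases hin : s(a, c) ∈ M ∧ s(c, b) ∈ M ∧ s(a, d) ∈ M ∧ s(d, b) ∈ M
  swap
  · -- the walk is not alive
    have h0 : ∀ T, wk (M \ T) a b c d = 0 := by
      intro T
      unfold wk adj
      by_cases h1 : s(a, c) ∈ M
      · by_cases h2 : s(c, b) ∈ M
        · by_cases h3 : s(a, d) ∈ M
          · have h4 : s(d, b) ∉ M := fun h => hin ⟨h1, h2, h3, h⟩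
            have h5 : s(d, b) ∉ M \ T := fun h => h4 (mem_sdiff.1 h).1
            rw [if_neg h5]; ring
          · have h5 : s(a, d) ∉ M \ T := fun h => h3 (mem_sdiff.1 h).1
            rw [if_neg h5]; ring
        · have h5 : s(c, b) ∉ M \ T := fun h => h2 (mem_sdiff.1 h).1
          rw [if_neg h5]; ring
      · have h5 : s(a, c) ∉ M \ T := fun h => h1 (mem_sdiff.1 h).1
        rw [if_neg h5]; ring
    have h1 : wk M a b c d = 0 := by
      have := h0 ∅
      rwa [sdiff_empty] at this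
    rw [Finset.sum_congr rfl fun T _ => h0 T, h1, Finset.sum_const_zero, zero_mul, zero_add]
    exact add_nonneg hrest (mul_nonneg hK hind)
  obtain ⟨e1, e2, e3, e4⟩ := hin
  have hw1 : wk M a b c d = 1 := by
    unfold wk adj
    rw [if_pos e1, if_pos e2, if_pos e3, if_pos e4]; ring
  have hwT : ∀ T, wk (M \ T) a b c d =
      if s(a, c) ∉ T ∧ s(c, b) ∉ T ∧ s(a, d) ∉ T ∧ s(d, b) ∉ T then 1 else 0 := by
    intro T
    unfold wk adj
    simp only [mem_sdiff, e1, e2, e3, e4, true_and]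
    by_cases h1 : s(a, c) ∈ T <;> by_cases h2 : s(c, b) ∈ T <;> by_cases h3 : s(a, d) ∈ T <;>
      by_cases h4 : s(d, b) ∈ T <;> simp [h1, h2, h3, h4]
  rw [Finset.sum_congr rfl fun T _ => hwT T, ← Finset.sum_filter, Finset.sum_const, nsmul_eq_mul,
    mul_one, hw1, one_mul]
  by_cases hnd : a ≠ b ∧ c ≠ d
  · obtain ⟨hab, hcd⟩ := hnd
    have hne : ∀ {x y : Fin n}, s(x, y) ∈ M → x ≠ y := by
      intro x y h
      have := hM h
      rw [mem_EF] at this
      exact this.ne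
    have nac := hne e1
    have ncb := hne e2
    have nad := hne e3
    have ndb := hne e4
    have hb := bonf (M := M) (Hn_lin (n := n)) (x := s(a, c)) (y := s(c, b)) (z := s(a, d))
      (w := s(d, b))
      (by rw [Ne, Sym2.eq_iff]; rintro (⟨h, _⟩ | ⟨h, _⟩) <;> simp_all)
      (by rw [Ne, Sym2.eq_iff]; rintro (⟨_, h⟩ | ⟨h, _⟩) <;> simp_all)
      (by rw [Ne, Sym2.eq_iff]; rintro (⟨h, _⟩ | ⟨h, _⟩) <;> simp_all)
      (by rw [Ne, Sym2.eq_iff]; rintro (⟨_, h⟩ | ⟨h, _⟩) <;> simp_all)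
      (by rw [Ne, Sym2.eq_iff]; rintro (⟨h, _⟩ | ⟨_, h⟩) <;> simp_all)
      (by rw [Ne, Sym2.eq_iff]; rintro (⟨h, _⟩ | ⟨h, _⟩) <;> simp_all)
    rw [hdeg, hdeg, hdeg, hdeg, hQ] at hb
    have ha1 : adj M a c = 1 := by unfold adj; rw [if_pos e1]
    have ha2 : adj M c b = 1 := by unfold adj; rw [if_pos e2]
    have ha3 : adj M a d = 1 := by unfold adj; rw [if_pos e3]
    have ha4 : adj M d b = 1 := by unfold adj; rw [if_pos e4]
    rw [ha1, ha2, ha3, ha4, if_neg hab, if_neg hcd]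
    have k1 := mul_le_mul_of_nonneg_left (neg_abs_le (ξ s(a, c))) hD
    have k2 := mul_le_mul_of_nonneg_left (neg_abs_le (ξ s(c, b))) hD
    have k3 := mul_le_mul_of_nonneg_left (neg_abs_le (ξ s(a, d))) hD
    have k4 := mul_le_mul_of_nonneg_left (neg_abs_le (ξ s(d, b))) hD
    linarith
  · have h1 : (1 : ℝ) ≤ (if a = b then 1 else 0) + (if c = d then 1 else 0) := by
      by_cases h : a = b
      · rw [if_pos h]; split_ifs <;> norm_num
      · have h2 : c = d := by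
          by_contra h2
          exact hnd ⟨h, h2⟩
        rw [if_pos h2]; split_ifs <;> norm_num
    have h2 : (((sub (Hn n) M).filter fun T =>
        s(a, c) ∉ T ∧ s(c, b) ∉ T ∧ s(a, d) ∉ T ∧ s(d, b) ∉ T).card : ℝ) ≤ Q := by
      rw [← hQ]
      exact_mod_cast card_filter_le _ _
    have h3 := mul_le_mul_of_nonneg_left h1 hK
    linarith

/-- sum over all quadruples -/
def S4 {n : ℕ} (F : Fin n → Fin n → Fin n → Fin n → ℝ) : ℝ :=
  ∑ a : Fin n, ∑ b : Fin n, ∑ c : Fin n, ∑ d : Fin n, F a b c d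

theorem S4_add {n : ℕ} (F G : Fin n → Fin n → Fin n → Fin n → ℝ) :
    S4 (fun a b c d => F a b c d + G a b c d) = S4 F + S4 G := by
  unfold S4; simp only [Finset.sum_add_distrib]

theorem S4_mul {n : ℕ} (k : ℝ) (F : Fin n → Fin n → Fin n → Fin n → ℝ) :
    S4 (fun a b c d => k * F a b c d) = k * S4 F := by
  unfold S4; simp only [Finset.mul_sum]

theorem S4_le {n : ℕ} {F G : Fin n → Fin n → Fin n → Fin n → ℝ}
    (h : ∀ a b c d, F a b c d ≤ G a b c d) : S4 F ≤ S4 G :=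
  Finset.sum_le_sum fun a _ => Finset.sum_le_sum fun b _ => Finset.sum_le_sum fun c _ =>
    Finset.sum_le_sum fun d _ => h a b c d

theorem S4_swap {n : ℕ} {ι : Type} (s : Finset ι) (F : ι → Fin n → Fin n → Fin n → Fin n → ℝ) :
    ∑ t ∈ s, S4 (F t) = S4 (fun a b c d => ∑ t ∈ s, F t a b c d) := by
  unfold S4
  rw [Finset.sum_comm]
  refine Finset.sum_congr rfl fun a _ => ?_
  rw [Finset.sum_comm]
  refine Finset.sum_congr rfl fun b _ => ?_
  rw [Finset.sum_comm]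
  refine Finset.sum_congr rfl fun c _ => ?_
  rw [Finset.sum_comm]

theorem S4_ac {n : ℕ} (g : Fin n → Fin n → ℝ) :
    S4 (fun a _ c _ => g a c) = (n : ℝ) ^ 2 * ∑ a, ∑ c, g a c := by
  unfold S4
  simp only [Finset.sum_const, Finset.card_univ, Fintype.card_fin, nsmul_eq_mul,
    ← Finset.mul_sum]
  ring

theorem S4_cb {n : ℕ} (g : Fin n → Fin n → ℝ) :
    S4 (fun _ b c _ => g c b) = (n : ℝ) ^ 2 * ∑ a, ∑ c, g a c := by
  unfold S4
  simp only [Finset.sum_const, Finset.card_univ, Fintype.card_fin, nsmul_eq_mul,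
    ← Finset.mul_sum]
  rw [Finset.sum_comm]
  ring

theorem S4_ad {n : ℕ} (g : Fin n → Fin n → ℝ) :
    S4 (fun a _ _ d => g a d) = (n : ℝ) ^ 2 * ∑ a, ∑ c, g a c := by
  unfold S4
  simp only [Finset.sum_const, Finset.card_univ, Fintype.card_fin, nsmul_eq_mul,
    ← Finset.mul_sum]
  ring

theorem S4_db {n : ℕ} (g : Fin n → Fin n → ℝ) :
    S4 (fun _ b _ d => g d b) = (n : ℝ) ^ 2 * ∑ a, ∑ c, g a c := by
  unfold S4
  simp only [Finset.sum_const, Finset.card_univ, Fintype.card_fin, nsmul_eq_mul,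
    ← Finset.mul_sum]
  rw [Finset.sum_comm]
  ring

theorem S4_ab {n : ℕ} (g : Fin n → Fin n → ℝ) :
    S4 (fun a b _ _ => g a b) = (n : ℝ) ^ 2 * ∑ a, ∑ c, g a c := by
  unfold S4
  simp only [Finset.sum_const, Finset.card_univ, Fintype.card_fin, nsmul_eq_mul,
    ← Finset.mul_sum]
  ring

theorem S4_cd {n : ℕ} (g : Fin n → Fin n → ℝ) :
    S4 (fun _ _ c d => g c d) = (n : ℝ) ^ 2 * ∑ a, ∑ c, g a c := by
  unfold S4
  simp only [Finset.sum_const, Finset.card_univ, Fintype.card_fin, nsmul_eq_mul,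
    ← Finset.mul_sum]
  ring

theorem sum_eq_ind (n : ℕ) : ∑ a : Fin n, ∑ b : Fin n, (if a = b then (1 : ℝ) else 0) = n := by
  simp

/-- summation of `wk_step` over all walks -/
theorem sum_steps {n : ℕ} {M : Finset (Sym2 (Fin n))} (hM : M ⊆ EF (⊤ : SimpleGraph (Fin n)))
    (D L K : ℝ) (ξ : Sym2 (Fin n) → ℝ) :
    S4 (fun a b c d : Fin n =>
      wk M a b c d * L + D * (adj M a c * |ξ s(a, c)| + adj M c b * |ξ s(c, b)| +
        adj M a d * |ξ s(a, d)| + adj M d b * |ξ s(d, b)|) +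
        K * ((if a = b then 1 else 0) + (if c = d then 1 else 0))) =
      X4 M * L + D * (8 * (n : ℝ) ^ 2 * ∑ x ∈ M, |ξ x|) + K * (2 * (n : ℝ) ^ 3) := by
  have hs0 := sum_adj_mul hM (fun e => |ξ e|)
  have hA := S4_ac (fun a c : Fin n => adj M a c * |ξ s(a, c)|)
  have hB := S4_cb (fun a c : Fin n => adj M a c * |ξ s(a, c)|)
  have hC := S4_ad (fun a c : Fin n => adj M a c * |ξ s(a, c)|)
  have hE := S4_db (fun a c : Fin n => adj M a c * |ξ s(a, c)|)
  have hF := S4_ab (fun a c : Fin n => if a = c then (1 : ℝ) else 0)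
  have hG := S4_cd (fun a c : Fin n => if a = c then (1 : ℝ) else 0)
  rw [sum_eq_ind] at hF hG
  have hW : S4 (fun a b c d : Fin n => wk M a b c d * L) = X4 M * L := by
    rw [X4_eq_wk]
    unfold S4
    simp only [Finset.sum_mul]
  rw [S4_add, S4_add, hW, S4_mul, S4_mul, S4_add, S4_add, S4_add, S4_add, hA, hB, hC, hE, hF, hG,
    hs0]
  ring

/-- arithmetic of the coefficients, first part -/
theorem coef1 {m D z Q : ℝ} (hm0 : 0 < m) (hD0 : 0 < D) (hz : |z| ≤ 1 / 8)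
    (hQz : Q = m * D / 3 * (1 + z)) :
    0 < Q ∧ Q - 4 * D + 6 ≤ Q * (1 - 12 / m + 28 / m * (|z| + 1 / D + 1 / m)) ∧
      Q - 12 / m * Q ≤ Q * (1 - 12 / m + 28 / m * (|z| + 1 / D + 1 / m)) ∧
      D ≤ 24 / 7 / m * Q := by
  have hz1 := abs_le.1 hz
  have hmD : 0 < m * D := by positivity
  have hQ0 : 0 < Q := by rw [hQz]; exact mul_pos (by positivity) (by linarith [hz1.1])
  have hQlo : 7 / 24 * (m * D) ≤ Q := by
    rw [hQz]
    nlinarith [hz1.1]
  have hDQ : 3 / m * (1 - |z|) * Q ≤ D := by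
    rw [hQz]
    have h1 : 3 / m * (1 - |z|) * (m * D / 3 * (1 + z)) = D * ((1 - |z|) * (1 + z)) := by
      field_simp
    rw [h1]
    have h2 : (1 - |z|) * (1 + z) ≤ 1 := by
      have h3 := le_abs_self z
      have h4 := abs_nonneg z
      nlinarith
    nlinarith
  have h6 : 6 ≤ Q * (28 / m * (1 / D)) := by
    have : Q * (28 / m * (1 / D)) = 28 * (Q / (m * D)) := by field_simp
    rw [this]
    have h7 : 7 / 24 ≤ Q / (m * D) := by
      rw [le_div_iff₀ hmD]; exact hQlo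
    linarith
  have hz0 := abs_nonneg z
  refine ⟨hQ0, ?_, ?_, ?_⟩
  · have h8 : Q * (1 - 12 / m + 28 / m * (|z| + 1 / D + 1 / m)) =
        Q - 12 / m * Q + 28 / m * |z| * Q + Q * (28 / m * (1 / D)) +
        28 / m * (1 / m) * Q := by ring
    have h9 : 0 ≤ 28 / m * (1 / m) * Q := by positivity
    have h10 : 4 * (3 / m * (1 - |z|) * Q) = 12 / m * Q - 12 / m * |z| * Q := by ring
    have h11 : 12 / m * |z| * Q ≤ 28 / m * |z| * Q := by
      have : 0 ≤ 1 / m * |z| * Q := by positivity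
      have h12 : 12 / m * |z| * Q = 12 * (1 / m * |z| * Q) := by ring
      have h13 : 28 / m * |z| * Q = 28 * (1 / m * |z| * Q) := by ring
      rw [h12, h13]; linarith
    rw [h8]
    linarith
  · have h8 : Q * (1 - 12 / m + 28 / m * (|z| + 1 / D + 1 / m)) =
        Q - 12 / m * Q + 28 / m * (|z| + 1 / D + 1 / m) * Q := by ring
    have h9 : 0 ≤ 28 / m * (|z| + 1 / D + 1 / m) * Q := by positivity
    rw [h8]; linarith
  · have : 24 / 7 / m * Q = 24 / 7 * Q / m := by ring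
    rw [this, le_div_iff₀ hm0]
    linarith

/-- arithmetic of the coefficients, second part -/
theorem coef2 {m D Q X B Xi N : ℝ} (hm0 : 0 < m) (hD0 : 0 < D) (hQ0 : 0 < Q) (hN : 0 ≤ N)
    (hXi : 0 ≤ Xi) (hDQ2 : D ≤ 24 / 7 / m * Q) :
    X * (Q * (1 - 12 / m + 28 / m * B)) + D * (8 * N ^ 2 * Xi) + 12 / m * Q * (2 * N ^ 3) ≤
      Q * (X * (1 - 12 / m + 28 / m * B) + 28 / m * (N ^ 3 + N ^ 2 * Xi)) := by
  have h20 : D * (8 * N ^ 2 * Xi) ≤ 28 / m * Q * (N ^ 2 * Xi) := by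
    have h21 : 0 ≤ N ^ 2 * Xi := by positivity
    have h22 : D * (8 * N ^ 2 * Xi) = 8 * D * (N ^ 2 * Xi) := by ring
    rw [h22]
    refine mul_le_mul_of_nonneg_right ?_ h21
    have h23 : 0 ≤ 1 / m * Q := by positivity
    have h24 : 24 / 7 / m * Q = 24 / 7 * (1 / m * Q) := by ring
    have h25 : 28 / m * Q = 28 * (1 / m * Q) := by ring
    rw [h24] at hDQ2
    rw [h25]
    linarith
  have h30 : 12 / m * Q * (2 * N ^ 3) ≤ 28 / m * Q * N ^ 3 := by
    have h31 : 0 ≤ 1 / m * Q * N ^ 3 := by positivity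
    have h32 : 12 / m * Q * (2 * N ^ 3) = 24 * (1 / m * Q * N ^ 3) := by ring
    have h33 : 28 / m * Q * N ^ 3 = 28 * (1 / m * Q * N ^ 3) := by ring
    rw [h32, h33]; linarith
  have h40 : Q * (X * (1 - 12 / m + 28 / m * B) + 28 / m * (N ^ 3 + N ^ 2 * Xi)) =
      X * (Q * (1 - 12 / m + 28 / m * B)) + 28 / m * Q * (N ^ 2 * Xi) + 28 / m * Q * N ^ 3 := by
    ring
  rw [h40]
  linarith

theorem step_X4 : ∃ C : ℝ, 1 ≤ C ∧ ∀ (n : ℕ) (M : Finset (Sym2 (Fin n))) (κ : ℝ),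
    M ⊆ EF (⊤ : SimpleGraph (Fin n)) → 0 < κ → 1000 ≤ (M.card : ℝ) →
    1000 ≤ Dr κ M.card 0 → |zq κ (Hn n) M| ≤ 1 / 8 →
    ∑ T ∈ sub (Hn n) M, X4 (M \ T) ≤ (sub (Hn n) M).card *
      (X4 M * (1 - 12 / M.card +
        C / M.card * (|zq κ (Hn n) M| + 1 / Dr κ M.card 0 + 1 / M.card)) +
        C / M.card * ((n : ℝ) ^ 3 + (n : ℝ) ^ 2 * ∑ x ∈ M, |xi κ (Hn n) M x|)) := by
  refine ⟨28, by norm_num, ?_⟩
  intro n M κ hM hκ hm hD hz
  have hm0 : (0 : ℝ) < (M.card : ℝ) := by linarith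
  have hD0 : 0 < Dr κ M.card 0 := by linarith
  have hQh : Qh κ M.card = M.card * Dr κ M.card 0 / 3 := by unfold Qh Dr; ring
  have hQz : ((sub (Hn n) M).card : ℝ) = M.card * Dr κ M.card 0 / 3 * (1 + zq κ (Hn n) M) := by
    have h1 : (M.card : ℝ) * Dr κ M.card 0 / 3 ≠ 0 := by positivity
    unfold zq
    rw [hQh]
    field_simp
    ring
  have hdeg : ∀ e, (deg (Hn n) M e : ℝ) = Dr κ M.card 0 * (1 + xi κ (Hn n) M e) := by
    intro e
    unfold xi
    field_simp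
    ring
  obtain ⟨hQ0, hL1, hL2, hDQ2⟩ := coef1 hm0 hD0 hz hQz
  have hK0 : (0 : ℝ) ≤ 12 / (M.card : ℝ) * ((sub (Hn n) M).card : ℝ) := by positivity
  have hstep := fun a b c d => wk_step hM rfl hD0.le hdeg hK0 hL1 hL2 a b c d
  have hXi0 : 0 ≤ ∑ x ∈ M, |xi κ (Hn n) M x| := Finset.sum_nonneg fun x _ => abs_nonneg _
  refine le_trans ?_ (coef2 hm0 hD0 hQ0 (Nat.cast_nonneg n) hXi0 hDQ2)
  rw [← sum_steps hM]
  have hlhs : ∑ T ∈ sub (Hn n) M, X4 (M \ T) =
      S4 (fun a b c d : Fin n => ∑ T ∈ sub (Hn n) M, wk (M \ T) a b c d) := by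
    rw [← S4_swap]
    exact Finset.sum_congr rfl fun T _ => X4_eq_wk (M \ T)
  rw [hlhs]
  exact S4_le hstep

end Vale.Agent.P046S
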