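import Vale.Agent.P046S.E3

/-!
P046 sharp constant, module E4: quasi-randomness gives a lower bound of the quadratic form.

`A` = adjacency matrix of `M`, `m = card M`, `p = 2 m / n²`, `E = A - p J`. For `w : Fin n → ℝ`:
`w A w = p (∑ w)² + w E w ≥ w E w ≥ - ‖w‖ ‖E w‖`, `‖E w‖² = w E² w ≤ ‖w‖² ‖E²‖_F`,
`(E²)_{ab} = (codeg - n p²) - p (d a - n p) - p (d b - n p)`, `∑ (codeg - n p²)² ≤ X4 - n⁴p⁴`
(`∑ codeg = ∑ d² ≥ n³ p²`), `∑ (d - n p)² = ∑ d² - n³p² ≤ n √X4 - n³ p² ≤ s⁴ n³ p² / 2`. So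
`‖E²‖_F² ≤ 6 s⁴ n⁴ p⁴` and `w A w ≥ - 6^{1/4} s n p ‖w‖²`.
For `v` on edges: `∑_{y ∈ M} v y SN v y = ∑_a w_a A w_a`, `w_a b = v s(a,b)` if `s(a,b) ∈ M`, else `0`
(two different edges of a triangle have exactly one common vertex), `∑_a ‖w_a‖² = 2 ∑_M v²`.
-/

namespace Vale.Agent.P046S

open Finset Vale.Agent.P046 Vale.Agent.P046LF

theorem e4_adj_symm {n : ℕ} (M : Finset (Sym2 (Fin n))) (a b : Fin n) :
    adj M a b = adj M b a := by
  unfold adj
  rw [Sym2.eq_swap]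

theorem e4_ne {n : ℕ} {M : Finset (Sym2 (Fin n))} (hM : M ⊆ EF (⊤ : SimpleGraph (Fin n)))
    {a b : Fin n} (h : s(a, b) ∈ M) : a ≠ b := by
  have := hM h
  rw [mem_EF] at this
  exact this.ne

/-- a sum over the edges, as a sum over ordered pairs -/
theorem e4_sum_pairs {n : ℕ} {M : Finset (Sym2 (Fin n))} (hM : M ⊆ EF (⊤ : SimpleGraph (Fin n)))
    (g : Sym2 (Fin n) → ℝ) :
    ∑ a : Fin n, ∑ b : Fin n, adj M a b * g s(a, b) = 2 * ∑ e ∈ M, g e := by
  have h1 : ∀ a b : Fin n, adj M a b * g s(a, b) =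
      ∑ e ∈ M, if s(a, b) = e then g e else 0 := by
    intro a b
    rw [Finset.sum_ite_eq]
    unfold adj
    split_ifs <;> simp
  simp only [h1]
  rw [← Finset.sum_product', Finset.sum_comm, Finset.mul_sum]
  refine Finset.sum_congr rfl fun e he => ?_
  induction e with
  | h x y =>
    have hne := e4_ne hM he
    rw [← Finset.sum_filter]
    have hset : ((univ : Finset (Fin n)) ×ˢ (univ : Finset (Fin n))).filter
        (fun q => s(q.1, q.2) = s(x, y)) = {(x, y), (y, x)} := by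
      ext q
      obtain ⟨a, b⟩ := q
      simp only [mem_filter, mem_product, mem_univ, true_and, and_self, mem_insert,
        mem_singleton, Sym2.eq_iff, Prod.mk.injEq]
    rw [hset, Finset.sum_pair (by
      intro h
      rw [Prod.mk.injEq] at h
      exact hne h.1)]
    ring

/-- a quadratic form is bounded by the Frobenius norm of the square of the matrix -/
theorem e4_frob {n : ℕ} (Em : Fin n → Fin n → ℝ) (w : Fin n → ℝ) {K : ℝ} (hK : 0 ≤ K)
    (h : ∑ b, ∑ c, (∑ a, Em a b * Em a c) ^ 2 ≤ (K ^ 2) ^ 2) :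
    -(K * ∑ a, w a ^ 2) ≤ ∑ a, w a * ∑ b, Em a b * w b := by
  set w2 := ∑ a, w a ^ 2 with hw2
  have hw20 : 0 ≤ w2 := Finset.sum_nonneg fun a _ => sq_nonneg _
  have hy2 : ∑ a, (∑ b, Em a b * w b) ^ 2 =
      ∑ b, ∑ c, (w b * w c) * ∑ a, Em a b * Em a c := by
    calc ∑ a, (∑ b, Em a b * w b) ^ 2 = ∑ a, ∑ b, ∑ c, (Em a b * w b) * (Em a c * w c) := by
          refine Finset.sum_congr rfl fun a _ => ?_
          rw [pow_two, Finset.sum_mul_sum]
      _ = ∑ b, ∑ c, ∑ a, (Em a b * w b) * (Em a c * w c) := by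
          rw [Finset.sum_comm]
          refine Finset.sum_congr rfl fun b _ => ?_
          rw [Finset.sum_comm]
      _ = _ := by
          refine Finset.sum_congr rfl fun b _ => Finset.sum_congr rfl fun c _ => ?_
          rw [Finset.mul_sum]
          exact Finset.sum_congr rfl fun a _ => by ring
  have hy2le : ∑ a, (∑ b, Em a b * w b) ^ 2 ≤ w2 * K ^ 2 := by
    have h1 := Finset.sum_mul_sq_le_sq_mul_sq
      ((univ : Finset (Fin n)) ×ˢ (univ : Finset (Fin n)))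
      (fun q => w q.1 * w q.2) (fun q => ∑ a, Em a q.1 * Em a q.2)
    rw [Finset.sum_product, Finset.sum_product, Finset.sum_product] at h1
    have h2 : ∑ b, ∑ c, (w b * w c) ^ 2 = w2 ^ 2 := by
      rw [hw2, pow_two (∑ a, w a ^ 2), Finset.sum_mul_sum]
      exact Finset.sum_congr rfl fun b _ => Finset.sum_congr rfl fun c _ => by ring
    have h3 : (∑ a, (∑ b, Em a b * w b) ^ 2) ^ 2 ≤ (w2 * K ^ 2) ^ 2 := by
      rw [hy2]
      refine h1.trans ?_
      simp only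
      rw [h2, mul_pow]
      exact mul_le_mul_of_nonneg_left h (sq_nonneg _)
    exact (abs_le_of_sq_le_sq' h3 (mul_nonneg hw20 (sq_nonneg _))).2
  have h1 := Finset.sum_mul_sq_le_sq_mul_sq univ w (fun a => ∑ b, Em a b * w b)
  have h3 : (∑ a, w a * ∑ b, Em a b * w b) ^ 2 ≤ (K * w2) ^ 2 := by
    refine h1.trans ?_
    calc w2 * ∑ a, (∑ b, Em a b * w b) ^ 2 ≤ w2 * (w2 * K ^ 2) :=
          mul_le_mul_of_nonneg_left hy2le hw20
      _ = _ := by ring
  exact (abs_le_of_sq_le_sq' h3 (mul_nonneg hK hw20)).1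

/-- the Frobenius norm of the square of `A - p J` -/
theorem e4_FF {n : ℕ} (hn : 1 ≤ n) (A : Fin n → Fin n → ℝ) (hAs : ∀ a b, A a b = A b a)
    {p s : ℝ} (hs0 : 0 ≤ s)
    (hsumA : ∑ a, ∑ b, A a b = (n : ℝ) ^ 2 * p)
    (hX4 : ∑ b, ∑ c, (∑ a, A b a * A a c) ^ 2 ≤ (1 + s ^ 4) * ((n : ℝ) ^ 4 * p ^ 4)) :
    ∑ b, ∑ c, (∑ a, (A a b - p) * (A a c - p)) ^ 2 ≤ ((2 * s * n * p) ^ 2) ^ 2 := by
  have hN : (0 : ℝ) < n := by exact_mod_cast hn
  have hconst : ∀ r : ℝ, (∑ _a : Fin n, r) = (n : ℝ) * r := fun r => by simp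
  generalize hNdef : (n : ℝ) = N at *
  obtain ⟨d, hd⟩ : ∃ d : Fin n → ℝ, ∀ a, d a = ∑ b, A a b := ⟨_, fun _ => rfl⟩
  obtain ⟨cod, hcod⟩ : ∃ cod : Fin n → Fin n → ℝ, ∀ b c, cod b c = ∑ a, A b a * A a c :=
    ⟨_, fun _ _ => rfl⟩
  simp only [← hd, ← hcod] at hsumA hX4
  obtain ⟨D2, hD2⟩ : ∃ D2 : ℝ, D2 = ∑ a, d a ^ 2 := ⟨_, rfl⟩
  have hcodsum : ∑ b, ∑ c, cod b c = D2 := by
    rw [hD2]
    simp only [hcod]
    calc ∑ b, ∑ c, ∑ a, A b a * A a c = ∑ a, ∑ b, ∑ c, A b a * A a c := by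
          rw [Finset.sum_congr rfl fun b _ => Finset.sum_comm]
          rw [Finset.sum_comm]
      _ = ∑ a, d a ^ 2 := by
          refine Finset.sum_congr rfl fun a _ => ?_
          rw [pow_two, hd, Finset.sum_mul_sum]
          refine Finset.sum_congr rfl fun b _ => Finset.sum_congr rfl fun c _ => ?_
          rw [hAs b a]
  obtain ⟨C2, hC2⟩ : ∃ C2 : ℝ, C2 = ∑ b, ∑ c, cod b c ^ 2 := ⟨_, rfl⟩
  rw [← hC2] at hX4
  have hs4 : 0 ≤ s ^ 4 := pow_nonneg hs0 4
  have hp2 : 0 ≤ p ^ 2 := sq_nonneg p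
  have hD2lo : N ^ 3 * p ^ 2 ≤ D2 := by
    have h1 := Finset.sum_mul_sq_le_sq_mul_sq univ (fun _ : Fin n => (1 : ℝ)) d
    simp only [one_mul, one_pow] at h1
    rw [hconst, hsumA, ← hD2] at h1
    have h2 : N * (N ^ 3 * p ^ 2) ≤ N * D2 := by nlinarith only [h1]
    exact le_of_mul_le_mul_left h2 hN
  have hD2hi : D2 ≤ N ^ 3 * p ^ 2 * (1 + s ^ 4 / 2) := by
    have h1 : D2 ^ 2 ≤ N ^ 2 * C2 := by
      have h2 := Finset.sum_mul_sq_le_sq_mul_sq ((univ : Finset (Fin n)) ×ˢ (univ : Finset (Fin n)))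
        (fun _ => (1 : ℝ)) (fun q => cod q.1 q.2)
      simp only [one_mul, one_pow] at h2
      rw [Finset.sum_product, Finset.sum_product, Finset.sum_product] at h2
      simp only [hconst] at h2
      rw [hcodsum, ← hC2] at h2
      refine h2.trans (le_of_eq ?_)
      ring
    have h3 : D2 ^ 2 ≤ (N ^ 3 * p ^ 2 * (1 + s ^ 4 / 2)) ^ 2 := by
      have h5 : N ^ 2 * C2 ≤ N ^ 2 * ((1 + s ^ 4) * (N ^ 4 * p ^ 4)) :=
        mul_le_mul_of_nonneg_left hX4 (sq_nonneg _)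
      have h4 : (0 : ℝ) ≤ (N ^ 3 * p ^ 2 * s ^ 4) ^ 2 := sq_nonneg _
      nlinarith only [h1, h5, h4]
    have h6 : 0 ≤ N ^ 3 * p ^ 2 * (1 + s ^ 4 / 2) :=
      mul_nonneg (mul_nonneg (pow_nonneg hN.le 3) hp2) (by linarith)
    exact (abs_le_of_sq_le_sq' h3 h6).2
  have hFe : ∀ b c, ∑ a, (A a b - p) * (A a c - p) =
      (cod b c - N * p ^ 2) - p * (d b - N * p) - p * (d c - N * p) := by
    intro b c
    have h1 : ∑ a, (A a b - p) * (A a c - p) =
        ∑ a, (A b a * A a c - p * A b a - p * A c a + p ^ 2) := by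
      refine Finset.sum_congr rfl fun a _ => ?_
      rw [hAs a b, hAs c a]
      ring
    rw [h1, Finset.sum_add_distrib, Finset.sum_sub_distrib, Finset.sum_sub_distrib,
      ← Finset.mul_sum, ← Finset.mul_sum, hconst, ← hd, ← hd, ← hcod]
    ring
  have hG : ∑ b, ∑ c, (cod b c - N * p ^ 2) ^ 2 ≤ s ^ 4 * (N ^ 4 * p ^ 4) := by
    have h1 : ∑ b, ∑ c, (cod b c - N * p ^ 2) ^ 2 =
        C2 - 2 * N * p ^ 2 * D2 + N ^ 4 * p ^ 4 := by
      have h2 : ∀ b c, (cod b c - N * p ^ 2) ^ 2 =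
          cod b c ^ 2 - (2 * N * p ^ 2) * cod b c + N ^ 2 * p ^ 4 := fun b c => by ring
      simp only [h2, Finset.sum_add_distrib, Finset.sum_sub_distrib, ← Finset.mul_sum, hconst]
      rw [hcodsum, ← hC2]
      ring
    rw [h1]
    have h3 : 2 * N * p ^ 2 * (N ^ 3 * p ^ 2) ≤ 2 * N * p ^ 2 * D2 :=
      mul_le_mul_of_nonneg_left hD2lo (mul_nonneg (by linarith) hp2)
    nlinarith only [h3, hX4]
  have hδ : ∑ a, (d a - N * p) ^ 2 ≤ s ^ 4 * (N ^ 3 * p ^ 2) / 2 := by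
    have h1 : ∑ a, (d a - N * p) ^ 2 = D2 - N ^ 3 * p ^ 2 := by
      have h2 : ∀ a, (d a - N * p) ^ 2 = d a ^ 2 - (2 * N * p) * d a + N ^ 2 * p ^ 2 :=
        fun a => by ring
      simp only [h2, Finset.sum_add_distrib, Finset.sum_sub_distrib, ← Finset.mul_sum, hconst]
      rw [hsumA, ← hD2]
      ring
    rw [h1]
    nlinarith only [hD2hi]
  have h1 : ∀ b c, (∑ a, (A a b - p) * (A a c - p)) ^ 2 ≤ 3 * (cod b c - N * p ^ 2) ^ 2 +
      3 * p ^ 2 * ((d b - N * p) ^ 2) + 3 * p ^ 2 * ((d c - N * p) ^ 2) := by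
    intro b c
    rw [hFe]
    nlinarith only [sq_nonneg ((cod b c - N * p ^ 2) + p * (d b - N * p)),
      sq_nonneg ((cod b c - N * p ^ 2) + p * (d c - N * p)),
      sq_nonneg (p * (d b - N * p) - p * (d c - N * p))]
  have h2 : ∑ b, ∑ c, (∑ a, (A a b - p) * (A a c - p)) ^ 2 ≤
      3 * ∑ b, ∑ c, (cod b c - N * p ^ 2) ^ 2 +
      3 * p ^ 2 * (N * ∑ a, (d a - N * p) ^ 2) + 3 * p ^ 2 * (N * ∑ a, (d a - N * p) ^ 2) := by
    refine (Finset.sum_le_sum fun b _ => Finset.sum_le_sum fun c _ => h1 b c).trans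
      (le_of_eq ?_)
    simp only [Finset.sum_add_distrib, ← Finset.mul_sum, hconst]
    ring
  have h3 : 3 * p ^ 2 * (N * ∑ a, (d a - N * p) ^ 2) ≤
      3 * p ^ 2 * (N * (s ^ 4 * (N ^ 3 * p ^ 2) / 2)) :=
    mul_le_mul_of_nonneg_left (mul_le_mul_of_nonneg_left hδ hN.le) (mul_nonneg (by norm_num) hp2)
  have h4 : (0 : ℝ) ≤ s ^ 4 * (N ^ 2 * p ^ 2) ^ 2 := mul_nonneg hs4 (sq_nonneg _)
  nlinarith only [h2, h3, h4, hG]

/-- matrix part -/
theorem adj_quad {n : ℕ} (hn : 1 ≤ n) {M : Finset (Sym2 (Fin n))}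
    (hM : M ⊆ EF (⊤ : SimpleGraph (Fin n))) {s : ℝ} (hs0 : 0 ≤ s) (hs1 : s ≤ 1)
    (h : X4 M ≤ (1 + s ^ 4) * (16 * (M.card : ℝ) ^ 4 / (n : ℝ) ^ 4)) (w : Fin n → ℝ) :
    -(4 * s * (M.card / n) * ∑ a, w a ^ 2) ≤ ∑ a, ∑ b, w a * adj M a b * w b := by
  have hN : (0 : ℝ) < n := by exact_mod_cast hn
  obtain ⟨p, hp⟩ : ∃ p : ℝ, p = 2 * (M.card : ℝ) / (n : ℝ) ^ 2 := ⟨_, rfl⟩
  have hm0 : (0 : ℝ) ≤ M.card := Nat.cast_nonneg _
  have hp0 : 0 ≤ p := by rw [hp]; positivity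
  have hmp : (M.card : ℝ) = (n : ℝ) ^ 2 * p / 2 := by rw [hp]; field_simp
  have hsumA : ∑ a, ∑ b, adj M a b = (n : ℝ) ^ 2 * p := by
    have h1 := e4_sum_pairs hM (fun _ => 1)
    simp only [mul_one, Finset.sum_const, nsmul_eq_mul] at h1
    rw [h1, hmp]; ring
  have hX4 : ∑ b, ∑ c, (∑ a, adj M b a * adj M a c) ^ 2 ≤
      (1 + s ^ 4) * ((n : ℝ) ^ 4 * p ^ 4) := by
    refine le_trans h (le_of_eq ?_)
    rw [hmp]
    field_simp
    ring
  have hF := e4_FF hn (adj M) (e4_adj_symm M) hs0 hsumA hX4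
  have hw := e4_frob (fun a b => adj M a b - p) w (K := 2 * s * n * p) (by positivity) hF
  have hsplit : ∑ a, ∑ b, w a * adj M a b * w b = p * (∑ a, w a) ^ 2 +
      ∑ a, w a * ∑ b, (adj M a b - p) * w b := by
    have h1 : ∑ a, w a * ∑ b, (adj M a b - p) * w b =
        ∑ a, ∑ b, (w a * adj M a b * w b - p * (w a * w b)) := by
      refine Finset.sum_congr rfl fun a _ => ?_
      rw [Finset.mul_sum]
      exact Finset.sum_congr rfl fun b _ => by ring
    rw [h1]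
    simp only [Finset.sum_sub_distrib, ← Finset.mul_sum]
    rw [pow_two, Finset.sum_mul]
    ring
  rw [hsplit]
  have h5 : 0 ≤ p * (∑ a, w a) ^ 2 := mul_nonneg hp0 (sq_nonneg _)
  have h6 : 4 * s * ((M.card : ℝ) / n) * ∑ a, w a ^ 2 = 2 * s * n * p * ∑ a, w a ^ 2 := by
    rw [hmp]
    field_simp
    ring
  rw [h6]
  linarith

/-- the triangles which contain an edge -/
theorem e4_SN {n : ℕ} {M : Finset (Sym2 (Fin n))} (hM : M ⊆ EF (⊤ : SimpleGraph (Fin n)))
    (v : Sym2 (Fin n) → ℝ) {a b : Fin n} (hab : s(a, b) ∈ M) :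
    SN (Hn n) M v s(a, b) = ∑ c : Fin n, adj M a c * adj M b c * (v s(a, c) + v s(b, c)) := by
  have hne := e4_ne hM hab
  have hset : (sub (Hn n) M).filter (fun T => s(a, b) ∈ T) =
      (univ.filter fun c : Fin n => s(a, c) ∈ M ∧ s(b, c) ∈ M).image
        (fun c => Es ({a, b, c} : Finset (Fin n))) := by
    ext T
    rw [mem_filter, Vale.Agent.P046.mem_sub, mem_image]
    constructor
    · rintro ⟨⟨hT, hTM⟩, habT⟩
      obtain ⟨t, ht, rfl⟩ := mem_image.1 hT
      have hcard := (mem_powersetCard.1 ht).2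
      obtain ⟨-, ha, hb⟩ := mem_Es.1 habT
      have h1 : ((t.erase a).erase b).card = 1 := by
        rw [card_erase_of_mem (mem_erase.2 ⟨hne.symm, hb⟩), card_erase_of_mem ha, hcard]
      obtain ⟨c, hc⟩ := card_eq_one.1 h1
      have hcm : c ∈ (t.erase a).erase b := by rw [hc]; exact mem_singleton_self _
      rw [mem_erase, mem_erase] at hcm
      obtain ⟨hcb, hca, hct⟩ := hcm
      refine ⟨c, ?_, ?_⟩
      · rw [mem_filter]
        exact ⟨mem_univ _, hTM (mem_Es.2 ⟨hca.symm, ha, hct⟩), hTM (mem_Es.2 ⟨hcb.symm, hb, hct⟩)⟩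
      · congr 1
        refine Finset.eq_of_subset_of_card_le ?_ ?_
        · intro x hx
          simp only [mem_insert, mem_singleton] at hx
          rcases hx with rfl | rfl | rfl
          · exact ha
          · exact hb
          · exact hct
        · rw [hcard, card_insert_of_notMem, card_insert_of_notMem, card_singleton]
          · simpa using hcb.symm
          · simp [hne, hca.symm]
    · rintro ⟨c, hc, rfl⟩
      obtain ⟨-, hac, hbc⟩ := mem_filter.1 hc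
      have h1 := e4_ne hM hac
      have h2 := e4_ne hM hbc
      refine ⟨⟨mem_image.2 ⟨_, mem_powersetCard.2 ⟨subset_univ _, ?_⟩, rfl⟩, ?_⟩,
        mem_Es.2 ⟨hne, by simp, by simp⟩⟩
      · rw [card_insert_of_notMem, card_insert_of_notMem, card_singleton]
        · simpa using h2
        · simp [hne, h1]
      · intro e
        induction e with
        | h x z =>
          intro he
          obtain ⟨hxz, hx, hz⟩ := mem_Es.1 he
          simp only [mem_insert, mem_singleton] at hx hz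
          rcases hx with rfl | rfl | rfl <;> rcases hz with rfl | rfl | rfl
          · exact absurd rfl hxz
          · exact hab
          · exact hac
          · rw [Sym2.eq_swap]; exact hab
          · exact absurd rfl hxz
          · exact hbc
          · rw [Sym2.eq_swap]; exact hac
          · rw [Sym2.eq_swap]; exact hbc
          · exact absurd rfl hxz
  unfold SN
  rw [hset, Finset.sum_image]
  · rw [Finset.sum_filter]
    refine Finset.sum_congr rfl fun c _ => ?_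
    unfold adj
    by_cases hac : s(a, c) ∈ M
    · by_cases hbc : s(b, c) ∈ M
      · rw [if_pos ⟨hac, hbc⟩, if_pos hac, if_pos hbc]
        have h1 := e4_ne hM hac
        have h2 := e4_ne hM hbc
        have hEs : Es ({a, b, c} : Finset (Fin n)) = {s(a, b), s(a, c), s(b, c)} := by
          ext e
          induction e with
          | h x z =>
            rw [mem_Es]
            simp only [mem_insert, mem_singleton, Sym2.eq_iff]
            constructor
            · rintro ⟨hxz, hx, hz⟩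
              rcases hx with rfl | rfl | rfl <;> rcases hz with rfl | rfl | rfl <;> simp_all
            · rintro ((⟨rfl, rfl⟩ | ⟨rfl, rfl⟩) | (⟨rfl, rfl⟩ | ⟨rfl, rfl⟩) |
                (⟨rfl, rfl⟩ | ⟨rfl, rfl⟩)) <;> simp_all [Ne.symm]
        rw [hEs, sum_insert, sum_insert, sum_singleton]
        · ring
        · rw [mem_singleton, Sym2.eq_iff]
          rintro (⟨h, -⟩ | ⟨h, -⟩)
          · exact hne h
          · exact h1 h
        · rw [mem_insert, mem_singleton, Sym2.eq_iff, Sym2.eq_iff]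
          rintro ((⟨-, h⟩ | ⟨h, -⟩) | (⟨h, -⟩ | ⟨h, -⟩))
          · exact h2 h
          · exact h1 h
          · exact hne h
          · exact h1 h
      · rw [if_neg (fun h => hbc h.2), if_neg hbc]; ring
    · rw [if_neg (fun h => hac h.1), if_neg hac]; ring
  · intro c hc c' hc' h
    obtain ⟨-, hac, hbc⟩ := mem_filter.1 hc
    obtain ⟨-, hac', hbc'⟩ := mem_filter.1 hc'
    have h1 := e4_ne hM hac
    have h2 := e4_ne hM hbc
    have h1' := e4_ne hM hac'
    have h2' := e4_ne hM hbc'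
    have h3 : ∀ x : Fin n, a ≠ x → b ≠ x → ({a, b, x} : Finset (Fin n)).card = 3 := by
      intro x hax hbx
      rw [card_insert_of_notMem, card_insert_of_notMem, card_singleton]
      · simpa using hbx
      · simp [hne, hax]
    have h4 := Es_inj (h3 c h1 h2) (h3 c' h1' h2') h
    have h5 : c ∈ ({a, b, c'} : Finset (Fin n)) := by rw [← h4]; simp
    simp only [mem_insert, mem_singleton] at h5
    rcases h5 with h5 | h5 | h5
    · exact absurd h5.symm h1
    · exact absurd h5.symm h2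
    · exact h5

/-- translation to the hypergraph of triangles -/
theorem SN_quad {n : ℕ} {M : Finset (Sym2 (Fin n))} (hM : M ⊆ EF (⊤ : SimpleGraph (Fin n)))
    (v : Sym2 (Fin n) → ℝ) :
    ∑ y ∈ M, v y * SN (Hn n) M v y =
      ∑ a : Fin n, ∑ b : Fin n, ∑ c : Fin n,
        (v s(a, b) * adj M a b) * adj M b c * (v s(a, c) * adj M a c) := by
  have h1 := e4_sum_pairs hM (fun y => v y * SN (Hn n) M v y)
  have h2 : ∀ a b : Fin n, adj M a b * (v s(a, b) * SN (Hn n) M v s(a, b)) =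
      ∑ c : Fin n, (v s(a, b) * adj M a b) * adj M b c * (v s(a, c) * adj M a c) +
      ∑ c : Fin n, (v s(b, a) * adj M b a) * adj M a c * (v s(b, c) * adj M b c) := by
    intro a b
    rw [← Finset.sum_add_distrib]
    by_cases hab : s(a, b) ∈ M
    · rw [e4_SN hM v hab, Finset.mul_sum, Finset.mul_sum]
      refine Finset.sum_congr rfl fun c _ => ?_
      rw [e4_adj_symm M b a, Sym2.eq_swap (a := b) (b := a)]
      ring
    · have h3 : adj M a b = 0 := by unfold adj; rw [if_neg hab]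
      rw [e4_adj_symm M b a, h3]
      simp
  simp only [h2, Finset.sum_add_distrib] at h1
  have h4 : ∑ a : Fin n, ∑ b : Fin n, ∑ c : Fin n,
      (v s(b, a) * adj M b a) * adj M a c * (v s(b, c) * adj M b c) =
      ∑ a : Fin n, ∑ b : Fin n, ∑ c : Fin n,
        (v s(a, b) * adj M a b) * adj M b c * (v s(a, c) * adj M a c) := Finset.sum_comm
  rw [h4] at h1
  linarith

theorem QF_of_X4 {n : ℕ} (hn : 1 ≤ n) {M : Finset (Sym2 (Fin n))}
    (hM : M ⊆ EF (⊤ : SimpleGraph (Fin n))) {s : ℝ} (hs0 : 0 ≤ s) (hs1 : s ≤ 1)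
    (h : X4 M ≤ (1 + s ^ 4) * (16 * (M.card : ℝ) ^ 4 / (n : ℝ) ^ 4)) :
    QF (Hn n) M (8 * s * (M.card / n)) := by
  intro v
  rw [SN_quad hM v]
  have h1 : ∀ a : Fin n, -(4 * s * (M.card / n) * ∑ b, (v s(a, b) * adj M a b) ^ 2) ≤
      ∑ b, ∑ c, (v s(a, b) * adj M a b) * adj M b c * (v s(a, c) * adj M a c) := fun a =>
    adj_quad hn hM hs0 hs1 h fun b => v s(a, b) * adj M a b
  refine le_trans (le_of_eq ?_) (Finset.sum_le_sum fun a _ => h1 a)
  rw [Finset.sum_neg_distrib, ← Finset.mul_sum]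
  have h2 := e4_sum_pairs hM (fun y => v y ^ 2)
  have h3 : ∑ a : Fin n, ∑ b : Fin n, (v s(a, b) * adj M a b) ^ 2 = 2 * ∑ e ∈ M, v e ^ 2 := by
    rw [← h2]
    refine Finset.sum_congr rfl fun a _ => Finset.sum_congr rfl fun b _ => ?_
    unfold adj
    split_ifs <;> ring
  rw [h3]
  ring

end Vale.Agent.P046S
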