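import Vale.Agent.P046S.E5c
import Vale.Agent.P046LF.S2

/-!
P046 sharp constant, module E5: one step for `ZZ xi` under quasi-randomness.

`step_Z` with the `GS` of `G1.gs` and `G1.EE_le`, `cross_xi`, and
`2 ⟨w, SN δ⟩ = - (2 D/(Q D')) ⟨w, SN w⟩ + 2 c1 ⟨w, SN (1 + ξ)⟩ ≤ (2 D/(Q D')) (D/100) ZZ +
 2 |c1| ‖w‖ (2 Δ √(2 m))`, `2 D²/(Q D') ≤ 7/m`, `|c1| u⁴ √m ‖w‖ ≤ (1/m)(ZZ/100 + C m u³)`.
-/

namespace Vale.Agent.P046S

open Finset Vale.Agent.P046 Vale.Agent.P046LF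

section

variable {V : Type} [DecidableEq V] {H : Finset (Finset V)} {M : Finset V}
  {κ S' m Q u D D' : ℝ}

private theorem e5_SN_dr (y : V) : SN H M (dr κ H M m Q D D') y =
    -(D / (Q * D')) * SN H M (fun z => SN H M (xi κ H M) z) y +
      c1 m Q D D' * SN H M (fun z => 1 + xi κ H M z) y := by
  have h1 : dr κ H M m Q D D' = fun y => (-(D / (Q * D')) * SN H M (xi κ H M) y) +
      c1 m Q D D' * (1 + xi κ H M y) := by
    funext z
    unfold dr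
    ring
  rw [h1, SN_add (fun y => -(D / (Q * D')) * SN H M (xi κ H M) y)
    (fun y => c1 m Q D D' * (1 + xi κ H M y)) y,
    SN_smul (-(D / (Q * D'))) (fun z => SN H M (xi κ H M) z) y,
    SN_smul (c1 m Q D D') (fun z => 1 + xi κ H M z) y]

private theorem e5_zz1 (g : G1 κ H M m Q u D)
    (gs : GS H M (xi κ H M) κ 0 S' m Q u D D' 1) :
    ZZ H M (fun z => 1 + xi κ H M z) ≤ 7 * (u ^ 8 * m) := by
  have hD := gs.D_pos
  have hm := gs.m_pos
  have hD4 := gs.D_hi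
  have hdeg : ∀ x ∈ M, (deg H M x : ℝ) ≤ 9 / 8 * D := by
    intro x hx
    rw [g.deg_eq hx]
    have := (abs_lt.1 (g.hξ x hx)).2
    nlinarith
  have h1 := ZZ_le (H := H) (M := M) g.lin hdeg (fun z => 1 + xi κ H M z)
  have h2 : ∑ x ∈ M, (1 + xi κ H M x) ^ 2 ≤ ∑ x ∈ M, (81 / 64 : ℝ) := by
    refine Finset.sum_le_sum fun x hx => ?_
    have h3 := abs_lt.1 (g.hξ x hx)
    nlinarith [h3.1, h3.2]
  rw [Finset.sum_const, nsmul_eq_mul, g.hm] at h2
  refine h1.trans ?_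
  have h4 : 4 * (9 / 8 * D) ^ 2 ≤ 81 / 16 * u ^ 8 := by
    have : D ^ 2 ≤ (u ^ 4) ^ 2 := pow_le_pow_left₀ hD.le hD4 2
    nlinarith
  have hu : 0 ≤ u ^ 8 := by positivity
  calc 4 * (9 / 8 * D) ^ 2 * ∑ x ∈ M, (1 + xi κ H M x) ^ 2
      ≤ 81 / 16 * u ^ 8 * (m * (81 / 64)) :=
        mul_le_mul h4 h2 (Finset.sum_nonneg fun _ _ => sq_nonneg _) (by positivity)
    _ ≤ 7 * (u ^ 8 * m) := by nlinarith [mul_nonneg hu hm.le]

private theorem e5_dr (g : G1 κ H M m Q u D)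
    (gs : GS H M (xi κ H M) κ 0 S' m Q u D D' 1) (hq : QF H M (D / 100)) :
    2 * ∑ y ∈ M, SN H M (xi κ H M) y * SN H M (dr κ H M m Q D D') y ≤
      1 / m * (8 / 100 * ZZ H M (xi κ H M) + 7 * 10 ^ 6 * (m * u ^ 3)) := by
  have hD := gs.D_pos
  have hD' := gs.D'_pos
  have hm := gs.m_pos
  have hQ := gs.Q_pos
  have hu := gs.u_pos
  set w : V → ℝ := fun z => SN H M (xi κ H M) z with hw
  have hZ : ZZ H M (xi κ H M) = ∑ y ∈ M, w y ^ 2 := rfl
  have hZ0 : 0 ≤ ZZ H M (xi κ H M) := Finset.sum_nonneg fun _ _ => sq_nonneg _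
  -- first part
  have h1 := hq w
  have h2 : 2 * (D / (Q * D')) * (D / 100) ≤ 7 / 100 * (1 / m) := by
    have e1 : 2 * (D / (Q * D')) * (D / 100) = 2 * D ^ 2 / 100 / (Q * D') := by
      field_simp
    rw [e1, div_le_iff₀ (by positivity)]
    have e2 : 3 / 10 * (m * D) * (99 / 100 * D) ≤ Q * D' :=
      mul_le_mul gs.Q_lo gs.D'_lo (by positivity) hQ.le
    have e3 : 7 / 100 * (1 / m) * (3 / 10 * (m * D) * (99 / 100 * D)) ≤
        7 / 100 * (1 / m) * (Q * D') := mul_le_mul_of_nonneg_left e2 (by positivity)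
    have e4 : 7 / 100 * (1 / m) * (3 / 10 * (m * D) * (99 / 100 * D)) =
        7 / 100 * (297 / 1000) * D ^ 2 := by
      field_simp
      ring
    rw [e4] at e3
    nlinarith [sq_nonneg D]
  -- second part
  have h3 : ∑ y ∈ M, 2 * (c1 m Q D D' * (w y * SN H M (fun z => 1 + xi κ H M z) y)) ≤
      ∑ y ∈ M, (1 / (100 * m) * w y ^ 2 +
        100 * m * c1 m Q D D' ^ 2 * SN H M (fun z => 1 + xi κ H M z) y ^ 2) := by
    refine Finset.sum_le_sum fun y _ => ?_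
    set a := w y
    set b := c1 m Q D D' * SN H M (fun z => 1 + xi κ H M z) y with hb
    have e1 : 2 * (c1 m Q D D' * (a * SN H M (fun z => 1 + xi κ H M z) y)) = 2 * (a * b) := by
      rw [hb]; ring
    have e2 : 1 / (100 * m) * a ^ 2 +
        100 * m * c1 m Q D D' ^ 2 * SN H M (fun z => 1 + xi κ H M z) y ^ 2 =
        1 / (100 * m) * a ^ 2 + 100 * m * b ^ 2 := by
      rw [hb]; ring
    rw [e1, e2]
    have e3 : 0 ≤ 1 / (100 * m) * (a - 100 * m * b) ^ 2 := by positivity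
    have e4 : 1 / (100 * m) * (a - 100 * m * b) ^ 2 =
        1 / (100 * m) * a ^ 2 + 100 * m * b ^ 2 - 2 * (a * b) := by
      field_simp
      ring
    linarith
  have h4 : ∑ y ∈ M, (1 / (100 * m) * w y ^ 2 +
        100 * m * c1 m Q D D' ^ 2 * SN H M (fun z => 1 + xi κ H M z) y ^ 2) =
      1 / (100 * m) * ZZ H M (xi κ H M) +
        100 * m * c1 m Q D D' ^ 2 * ZZ H M (fun z => 1 + xi κ H M z) := by
    rw [Finset.sum_add_distrib, ← Finset.mul_sum, ← Finset.mul_sum, hZ]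
    rfl
  rw [h4] at h3
  have h5 := e5_zz1 g gs
  have h6 : c1 m Q D D' ^ 2 ≤ 10 ^ 4 / (m ^ 2 * u ^ 5) := by
    have e1 := c1_le g gs
    have e2 : c1 m Q D D' ^ 2 ≤ (100 / (m * (u ^ 2 * Real.sqrt u))) ^ 2 := by
      rw [← sq_abs]
      exact pow_le_pow_left₀ (abs_nonneg _) e1 2
    refine e2.trans (le_of_eq ?_)
    have e3 : Real.sqrt u ^ 2 = u := Real.sq_sqrt hu.le
    rw [div_pow, mul_pow, mul_pow, e3]
    norm_num
    ring
  have h7 : 100 * m * c1 m Q D D' ^ 2 * ZZ H M (fun z => 1 + xi κ H M z) ≤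
      1 / m * (7 * 10 ^ 6 * (m * u ^ 3)) := by
    calc 100 * m * c1 m Q D D' ^ 2 * ZZ H M (fun z => 1 + xi κ H M z)
        ≤ 100 * m * (10 ^ 4 / (m ^ 2 * u ^ 5)) * (7 * (u ^ 8 * m)) :=
          mul_le_mul (mul_le_mul_of_nonneg_left h6 (by positivity)) h5
            (Finset.sum_nonneg fun _ _ => sq_nonneg _) (by positivity)
      _ = 1 / m * (7 * 10 ^ 6 * (m * u ^ 3)) := by
          field_simp
          ring
  -- assembly
  have h8 : 2 * ∑ y ∈ M, SN H M (xi κ H M) y * SN H M (dr κ H M m Q D D') y =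
      -(2 * (D / (Q * D'))) * ∑ y ∈ M, w y * SN H M w y +
        ∑ y ∈ M, 2 * (c1 m Q D D' * (w y * SN H M (fun z => 1 + xi κ H M z) y)) := by
    rw [Finset.mul_sum, Finset.mul_sum, ← Finset.sum_add_distrib]
    refine Finset.sum_congr rfl fun y _ => ?_
    rw [e5_SN_dr]
    show 2 * (w y * _) = _
    ring
  rw [h8]
  have h9 : -(2 * (D / (Q * D'))) * ∑ y ∈ M, w y * SN H M w y ≤
      7 / 100 * (1 / m) * ZZ H M (xi κ H M) := by
    have e0 : 0 < D / (Q * D') := by positivity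
    have e1 : (2 * (D / (Q * D'))) * (-(D / 100 * ∑ x ∈ M, w x ^ 2)) ≤
        (2 * (D / (Q * D'))) * ∑ y ∈ M, w y * SN H M w y :=
      mul_le_mul_of_nonneg_left h1 (by positivity)
    rw [← hZ] at e1
    have e2 := mul_le_mul_of_nonneg_right h2 hZ0
    nlinarith
  have h10 : 1 / (100 * m) = 1 / 100 * (1 / m) := by
    field_simp
  rw [h10] at h3
  have h11 : 1 / m * (8 / 100 * ZZ H M (xi κ H M) + 7 * 10 ^ 6 * (m * u ^ 3)) =
      7 / 100 * (1 / m) * ZZ H M (xi κ H M) + 1 / 100 * (1 / m) * ZZ H M (xi κ H M) +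
        1 / m * (7 * 10 ^ 6 * (m * u ^ 3)) := by ring
  rw [h11]
  linarith

end

theorem step_ZX : ∃ C : ℝ, 1 ≤ C ∧ ∀ (V : Type) [DecidableEq V] (H : Finset (Finset V))
    (M : Finset V) (κ m Q u D : ℝ), G1 κ H M m Q u D → QF H M (D / 100) →
    ∑ T ∈ sub H M, ZZ H (M \ T) (xi κ H (M \ T)) ≤
      Q * (ZZ H M (xi κ H M) * (1 - 87 / (8 * m)) +
        3 / m * (C * (Th H M / u ^ 8 + m * u ^ 3))) := by
  obtain ⟨C1, hC1, h1⟩ := step_Z
  obtain ⟨C2, hC2, h2⟩ := cross_xi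
  refine ⟨4 * C1 + 7 * 10 ^ 6 + C2, by linarith, fun V _ H M κ m Q u D g hq => ?_⟩
  obtain ⟨S', D', gs, _, _, hS'⟩ := g.gs
  have hD := gs.D_pos
  have hm := gs.m_pos
  have hQ := gs.Q_pos
  have hu := gs.u_pos
  have k1 := h1 V H M (xi κ H M) κ 0 S' m Q u D D' 1 gs
  have k2 : ∀ T ∈ sub H M, _ := fun T hT => h2 V H M T κ S' m Q u D D' g gs hS' hT
  have k3 := e5_dr g gs hq
  have k4 := g.EE_le
  have k5 := Finset.sum_le_sum k2
  refine k5.trans ?_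
  rw [Finset.sum_add_distrib, Finset.sum_add_distrib, Finset.sum_const, Finset.sum_const,
    nsmul_eq_mul, nsmul_eq_mul, g.hQ]
  set Z := ZZ H M (xi κ H M)
  have hZ0 : 0 ≤ Z := Finset.sum_nonneg fun _ _ => sq_nonneg _
  have hT0 : 0 ≤ Th H M / u ^ 8 := by unfold Th; positivity
  have k6 : u ^ 3 * EE H M (xi κ H M) D u ≤ 4 * (m * u ^ 3) := by
    have := mul_le_mul_of_nonneg_left k4 (by positivity : 0 ≤ u ^ 3)
    linarith
  have hmu : 0 ≤ m * u ^ 3 := by positivity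
  have k7 : Q * (Z * (1 - 11 / m) + 3 / m * (C1 * (Th H M / u ^ 8 + u ^ 3 * EE H M (xi κ H M) D u)))
      ≤ Q * (Z * (1 - 11 / m) + 3 / m * (C1 * (Th H M / u ^ 8 + 4 * (m * u ^ 3)))) := by
    refine mul_le_mul_of_nonneg_left ?_ hQ.le
    have : 3 / m * (C1 * (Th H M / u ^ 8 + u ^ 3 * EE H M (xi κ H M) D u)) ≤
        3 / m * (C1 * (Th H M / u ^ 8 + 4 * (m * u ^ 3))) := by
      refine mul_le_mul_of_nonneg_left ?_ (by positivity)
      exact mul_le_mul_of_nonneg_left (by linarith) (by linarith)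
    linarith
  have k8 := mul_le_mul_of_nonneg_left k3 hQ.le
  have k9 : Q * (Z * (1 - 11 / m) + 3 / m * (C1 * (Th H M / u ^ 8 + 4 * (m * u ^ 3)))) +
      Q * (1 / m * (8 / 100 * Z + 7 * 10 ^ 6 * (m * u ^ 3))) +
      Q * (1 / m * (1 / 100 * Z + C2 * (m * u ^ 3))) ≤
      Q * (Z * (1 - 87 / (8 * m)) + 3 / m * ((4 * C1 + 7 * 10 ^ 6 + C2) *
        (Th H M / u ^ 8 + m * u ^ 3))) := by
    rw [← mul_add, ← mul_add]
    refine mul_le_mul_of_nonneg_left ?_ hQ.le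
    have e1 : Z * (1 - 87 / (8 * m)) + 3 / m * ((4 * C1 + 7 * 10 ^ 6 + C2) *
        (Th H M / u ^ 8 + m * u ^ 3)) -
        (Z * (1 - 11 / m) + 3 / m * (C1 * (Th H M / u ^ 8 + 4 * (m * u ^ 3))) +
      1 / m * (8 / 100 * Z + 7 * 10 ^ 6 * (m * u ^ 3)) +
      1 / m * (1 / 100 * Z + C2 * (m * u ^ 3))) =
        1 / m * ((7 / 200) * Z + (9 * C1 + 3 * 7 * 10 ^ 6 + 3 * C2) * (Th H M / u ^ 8) +
          (2 * 7 * 10 ^ 6 + 2 * C2) * (m * u ^ 3)) := by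
      field_simp
      ring
    have e2 : 0 ≤ 1 / m * ((7 / 200) * Z + (9 * C1 + 3 * 7 * 10 ^ 6 + 3 * C2) * (Th H M / u ^ 8) +
          (2 * 7 * 10 ^ 6 + 2 * C2) * (m * u ^ 3)) := by
      refine mul_nonneg (by positivity) ?_
      have a1 : 0 ≤ (9 * C1 + 3 * 7 * 10 ^ 6 + 3 * C2) * (Th H M / u ^ 8) :=
        mul_nonneg (by linarith) hT0
      have a2 : 0 ≤ (2 * 7 * 10 ^ 6 + 2 * C2) * (m * u ^ 3) := mul_nonneg (by linarith) hmu
      have a3 : 0 ≤ (7 / 200) * Z := by positivity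
      linarith
    linarith
  linarith

end Vale.Agent.P046S
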