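import Vale.Agent.P046S.E0

/-!
P046 sharp constant, module E5a: the next relative deviations, compared with the update `Nup`.

`deg H (M \ T) y = deg H M y - dl H M T y`, `Dr κ (m-3) 0 = D' / (1 - S')`,
`bb = D (2 deg + SN xi)`, `cd = (bb - 2 deg) / Q`.
-/

namespace Vale.Agent.P046S

open Finset Vale.Agent.P046 Vale.Agent.P046LF

variable {V : Type} [DecidableEq V] {H : Finset (Finset V)} {M T : Finset V}
  {κ S' m Q u D D' : ℝ}

/-- drift coefficient -/
noncomputable def c1 (m Q D D' : ℝ) : ℝ := 6 / (m - 9) - 2 * D * (D - 1) / (Q * D')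

/-- deterministic part of the change of `xi` -/
noncomputable def dr (κ : ℝ) (H : Finset (Finset V)) (M : Finset V) (m Q D D' : ℝ) : V → ℝ :=
  fun y => -(D / (Q * D') * SN H M (xi κ H M) y) + c1 m Q D D' * (1 + xi κ H M y)

theorem e5a_SN_le (g : G1 κ H M m Q u D) (y : V) :
    |SN H M (xi κ H M) y| ≤ (deg H M y : ℝ) / 4 := by
  unfold SN
  refine (Finset.abs_sum_le_sum_abs _ _).trans ?_
  have hb : ∀ T ∈ (P046.sub H M).filter (fun T => y ∈ T),
      |∑ z ∈ T, xi κ H M z - xi κ H M y| ≤ 1 / 4 := by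
    intro T hT
    obtain ⟨hT1, hT2⟩ := Finset.mem_filter.1 hT
    obtain ⟨hTH, hTM⟩ := P046.mem_sub.1 hT1
    rw [← Finset.sum_erase_eq_sub hT2]
    refine (Finset.abs_sum_le_sum_abs _ _).trans ?_
    have h1 : ∑ i ∈ T.erase y, |xi κ H M i| ≤ ∑ i ∈ T.erase y, (1 / 8 : ℝ) :=
      Finset.sum_le_sum fun i hi => (g.hξ i (hTM (Finset.mem_of_mem_erase hi))).le
    refine h1.trans ?_
    rw [Finset.sum_const, Finset.card_erase_of_mem hT2, g.lin.card3 T hTH, nsmul_eq_mul]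
    norm_num
  refine (Finset.sum_le_sum hb).trans (le_of_eq ?_)
  rw [Finset.sum_const, nsmul_eq_mul]
  unfold deg
  ring

theorem e5a_bb (g : G1 κ H M m Q u D) (y : V) :
    bb H M y = D * (2 * deg H M y + SN H M (xi κ H M) y) := by
  unfold bb SN
  have hb : ∀ T ∈ (P046.sub H M).filter (fun T => y ∈ T),
      (∑ z ∈ T, (deg H M z : ℝ) - deg H M y) =
        D * 2 + D * (∑ z ∈ T, xi κ H M z - xi κ H M y) := by
    intro T hT
    obtain ⟨hT1, hT2⟩ := Finset.mem_filter.1 hT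
    obtain ⟨hTH, hTM⟩ := P046.mem_sub.1 hT1
    rw [g.deg_eq (hTM hT2), Finset.sum_congr rfl fun z hz => g.deg_eq (hTM hz),
      ← Finset.mul_sum, Finset.sum_add_distrib, Finset.sum_const, g.lin.card3 T hTH, nsmul_eq_mul]
    push_cast
    ring
  rw [Finset.sum_congr rfl hb, Finset.sum_add_distrib, Finset.sum_const, nsmul_eq_mul,
    ← Finset.mul_sum]
  unfold deg
  ring

theorem xi_next (g : G1 κ H M m Q u D) (gs : GS H M (xi κ H M) κ 0 S' m Q u D D' 1)
    (hT : T ∈ sub H M) {y : V} (hy : y ∈ M \ T) :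
    xi κ H (M \ T) y = Nup H M (xi κ H M) D' T y + dr κ H M m Q D D' y +
      S' / D' * dl H M T y := by
  obtain ⟨hyM, -⟩ := Finset.mem_sdiff.1 hy
  have hm := gs.m_big
  have hκ := g.hκ
  have hQ := gs.Q_pos
  have hS' := gs.S'_le
  have hc : ((M \ T).card : ℝ) = m - 3 := by
    have h1 := card_sdiff_of_mem g.lin hT
    have h2 : ((M \ T).card : ℝ) + 3 = M.card := by exact_mod_cast h1
    rw [g.hm] at h2
    linarith
  have hdeg : (deg H (M \ T) y : ℝ) = deg H M y - dl H M T y := by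
    have h1 := deg_sdiff (H := H) (M := M) T y
    have h2 : (deg H (M \ T) y : ℝ) + dl H M T y = deg H M y := by exact_mod_cast h1
    linarith
  have hN : Nup H M (xi κ H M) D' T y = xi κ H M y - ((dl H M T y : ℝ) - cd H M y) / D' := by
    unfold Nup
    rw [if_pos (g.hξ y hyM)]
  have hx : xi κ H (M \ T) y = (deg H (M \ T) y : ℝ) / Dr κ (M \ T).card 0 - 1 := rfl
  rw [hN, hx, hc, hdeg]
  unfold cd dr c1 Dr
  rw [e5a_bb g y, g.hQ, g.deg_eq hyM]
  set X := SN H M (xi κ H M) y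
  set δ := (dl H M T y : ℝ)
  set ξ := xi κ H M y
  set D1 := κ * (m - 6) * (m - 9) with hD1
  have hD1p : D1 ≠ 0 := by
    have h6 : m - 6 ≠ 0 := by linarith
    have h9 : m - 9 ≠ 0 := by linarith
    exact mul_ne_zero (mul_ne_zero hκ.ne' h6) h9
  have h9 : m - 9 ≠ 0 := by linarith
  have h1S : 1 - S' ≠ 0 := by linarith
  have e1 : κ * (m - 3 - 3) * (m - 3 - 6) * (1 - 0) = D1 := by rw [hD1]; ring
  have e2 : D' = D1 * (1 - S') := gs.hD'
  have e3 : D = D1 * (m - 3) / (m - 9) := by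
    rw [gs.hD, hD1]
    field_simp
    ring
  rw [e1, e2, e3]
  have hQ0 := hQ.ne'
  field_simp
  ring

/-- the quantities of the next estimates -/
theorem e5a_facts (g : G1 κ H M m Q u D) (gs : GS H M (xi κ H M) κ 0 S' m Q u D D' 1) :
    ∃ z ε : ℝ, ε = 1 / (u ^ 2 * Real.sqrt u) ∧ 0 < ε ∧ ε ≤ 1 / 1000000 ∧ |z| ≤ ε ∧ 0 ≤ S' ∧
      S' ≤ ε ∧ 3 / m ≤ ε ∧ 1 / D ≤ ε ∧ Q = D * m * (1 + z) / 3 ∧
      D' = D * (m - 9) / (m - 3) * (1 - S') := by
  have hm := gs.m_big
  have hu := g.hu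
  have hu0 := gs.u_pos
  have hum := g.hum
  have hDp := gs.D_pos
  set s := Real.sqrt u with hs
  have hss : s ^ 2 = u := Real.sq_sqrt hu0.le
  have hs1 : 1 ≤ s := by
    rw [hs, Real.one_le_sqrt]
    linarith
  have hs0 : 0 < s := by linarith
  have hsu : s ≤ u := by nlinarith
  have hε : 0 < 1 / (u ^ 2 * s) := by positivity
  refine ⟨zq κ H M, 1 / (u ^ 2 * s), rfl, hε, ?_, ?_, ?_, ?_, ?_, ?_, ?_, ?_⟩
  · rw [div_le_div_iff₀ (by positivity) (by norm_num)]
    have h1 : (1000 : ℝ) ^ 2 ≤ u ^ 2 := pow_le_pow_left₀ (by norm_num) hu 2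
    have h2 : u ^ 2 * 1 ≤ u ^ 2 * s := mul_le_mul_of_nonneg_left hs1 (by positivity)
    linarith
  · rw [le_div_iff₀ (by positivity), ← abs_of_pos (by positivity : 0 < u ^ 2 * s), ← abs_mul]
    rw [← sq_le_one_iff_abs_le_one]
    have h1 : (zq κ H M * (u ^ 2 * s)) ^ 2 = u ^ 5 * zq κ H M ^ 2 := by
      have : (zq κ H M * (u ^ 2 * s)) ^ 2 = zq κ H M ^ 2 * u ^ 4 * s ^ 2 := by ring
      rw [this, hss]
      ring
    rw [h1]
    exact g.hz
  · obtain ⟨S1, D1, gs1, -, h1, -⟩ := g.gs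
    have : S' = S1 := by rw [gs.hS', gs1.hS']
    rw [this]
    exact h1
  · obtain ⟨S1, D1, gs1, -, h0, h1⟩ := g.gs
    have : S' = S1 := by rw [gs.hS', gs1.hS']
    rw [this, le_div_iff₀ (by positivity)]
    have h2 : 20 * (S1 * (u ^ 2 * s)) ≤ S1 * (m * (u ^ 3 * s)) := by
      have h3 : 20 ≤ m * u := by nlinarith
      have h4 : 0 ≤ S1 * (u ^ 2 * s) := mul_nonneg h0 (by positivity)
      calc 20 * (S1 * (u ^ 2 * s)) ≤ (m * u) * (S1 * (u ^ 2 * s)) :=
            mul_le_mul_of_nonneg_right h3 h4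
        _ = _ := by ring
    linarith
  · rw [div_le_div_iff₀ gs.m_pos (by positivity)]
    have h1 : u ^ 2 * s ≤ u ^ 2 * u := mul_le_mul_of_nonneg_left hsu (by positivity)
    have h2 : 3 * (u ^ 2 * u) ≤ u ^ 6 := by
      have h3 : (3 : ℝ) ≤ u ^ 3 := by
        have : (1000 : ℝ) ^ 3 ≤ u ^ 3 := pow_le_pow_left₀ (by norm_num) hu 3
        linarith
      calc 3 * (u ^ 2 * u) = 3 * u ^ 3 := by ring
        _ ≤ u ^ 3 * u ^ 3 := mul_le_mul_of_nonneg_right h3 (by positivity)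
        _ = _ := by ring
    linarith
  · rw [div_le_div_iff₀ hDp (by positivity)]
    have h1 := gs.D_lo
    have h2 : u ^ 2 * s ≤ u ^ 2 * u := mul_le_mul_of_nonneg_left hsu (by positivity)
    have h3 : u ^ 2 * u ≤ 9 / 10 * u ^ 4 := by
      have : u ^ 3 * 1000 ≤ u ^ 3 * u := mul_le_mul_of_nonneg_left hu (by positivity)
      have h5 : 0 < u ^ 3 := by positivity
      nlinarith
    linarith
  · have h1 : zq κ H M = Q / Qh κ m - 1 := by
      unfold zq
      rw [g.hm, g.hQ]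
    have h2 := gs.Qh_pos
    have h3 : Q = Qh κ m * (1 + zq κ H M) := by
      rw [h1]
      field_simp
      ring
    rw [h3, gs.hD]
    unfold Qh
    ring
  · rw [gs.hD', gs.hD]
    have h3 : m - 3 ≠ 0 := by linarith
    field_simp
    ring

theorem c1_le (g : G1 κ H M m Q u D) (gs : GS H M (xi κ H M) κ 0 S' m Q u D D' 1) :
    |c1 m Q D D'| ≤ 100 / (m * (u ^ 2 * Real.sqrt u)) := by
  obtain ⟨z, ε, hεe, hε0, hε1, hz, hS0, hS, h3m, h1D, hQ, hD'⟩ := e5a_facts g gs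
  have hm := gs.m_big
  have hm0 := gs.m_pos
  have hDp := gs.D_pos
  have hu0 := gs.u_pos
  obtain ⟨hz1, hz2⟩ := abs_le.1 hz
  have h9 : 0 < m - 9 := by linarith
  have h3 : 0 < m - 3 := by linarith
  have hz0 : 0 < 1 + z := by linarith
  have hS1 : 0 < 1 - S' := by linarith
  have e1 : c1 m Q D D' = 6 / (m - 9) * (((1 + z) * (1 - S') - (1 - 3 / m) * (1 - 1 / D)) /
      ((1 + z) * (1 - S'))) := by
    unfold c1
    rw [hQ, hD']
    field_simp
    ring
  have h3m0 : 0 ≤ 3 / m := by positivity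
  have h1D0 : 0 ≤ 1 / D := by positivity
  have hnum : |(1 + z) * (1 - S') - (1 - 3 / m) * (1 - 1 / D)| ≤ 5 * ε := by
    have e2 : (1 + z) * (1 - S') - (1 - 3 / m) * (1 - 1 / D) =
        z - S' - z * S' + 3 / m + 1 / D - 3 / m * (1 / D) := by ring
    rw [e2, abs_le]
    have h4 : 3 / m * (1 / D) ≤ ε * 1 := mul_le_mul h3m (by linarith) h1D0 hε0.le
    have h5 : 0 ≤ 3 / m * (1 / D) := mul_nonneg h3m0 h1D0
    have h6 : |z * S'| ≤ ε * 1 := by
      rw [abs_mul, abs_of_nonneg hS0]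
      exact mul_le_mul hz (by linarith) hS0 hε0.le
    obtain ⟨h7, h8⟩ := abs_le.1 h6
    constructor <;> linarith
  have hden : 1 / 2 ≤ (1 + z) * (1 - S') := by
    have h4 : (1 - 1 / 1000000) * (1 - 1 / 1000000) ≤ (1 + z) * (1 - S') :=
      mul_le_mul (by linarith) (by linarith) (by norm_num) hz0.le
    norm_num at h4 ⊢
    linarith
  have hden0 : 0 < (1 + z) * (1 - S') := by positivity
  have hfrac : |((1 + z) * (1 - S') - (1 - 3 / m) * (1 - 1 / D)) / ((1 + z) * (1 - S'))| ≤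
      10 * ε := by
    rw [abs_div, abs_of_pos hden0, div_le_iff₀ hden0]
    refine hnum.trans ?_
    nlinarith
  rw [e1, abs_mul, abs_of_pos (by positivity : 0 < 6 / (m - 9))]
  have h69 : 6 / (m - 9) ≤ 7 / m := by
    rw [div_le_div_iff₀ h9 hm0]
    linarith
  calc 6 / (m - 9) * |((1 + z) * (1 - S') - (1 - 3 / m) * (1 - 1 / D)) / ((1 + z) * (1 - S'))| ≤
        7 / m * (10 * ε) := mul_le_mul h69 hfrac (abs_nonneg _) (by positivity)
    _ = 70 / (m * (u ^ 2 * Real.sqrt u)) := by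
        rw [hεe]
        field_simp
        norm_num
    _ ≤ _ := by
        have hs0 : 0 < Real.sqrt u := Real.sqrt_pos.2 hu0
        apply div_le_div_of_nonneg_right (by norm_num) (by positivity)

/-- the coefficient of `SN` -/
theorem e5a_B (g : G1 κ H M m Q u D) (gs : GS H M (xi κ H M) κ 0 S' m Q u D D' 1) :
    0 ≤ D / (Q * D') ∧ D / (Q * D') ≤ 7 / 2 / (m * D) := by
  obtain ⟨z, ε, hεe, hε0, hε1, hz, hS0, hS, h3m, h1D, hQ, hD'⟩ := e5a_facts g gs
  have hm := gs.m_big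
  have hm0 := gs.m_pos
  have hDp := gs.D_pos
  have hQp := gs.Q_pos
  have hD'p := gs.D'_pos
  obtain ⟨hz1, hz2⟩ := abs_le.1 hz
  refine ⟨by positivity, ?_⟩
  have h9 : 0 < m - 9 := by linarith
  have h3 : 0 < m - 3 := by linarith
  rw [div_le_div_iff₀ (by positivity) (by positivity)]
  have h1 : D * m * (999 / 1000) / 3 ≤ Q := by
    rw [hQ]
    have : D * m * (999 / 1000) ≤ D * m * (1 + z) :=
      mul_le_mul_of_nonneg_left (by linarith) (by positivity)
    linarith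
  have h2 : D * (99 / 100) ≤ D' := by
    rw [hD']
    have h4 : (999 : ℝ) / 1000 ≤ (m - 9) / (m - 3) := by
      rw [div_le_div_iff₀ (by norm_num) h3]
      linarith
    have h5 : (99 : ℝ) / 100 ≤ (m - 9) / (m - 3) * (1 - S') := by
      have h6 : (999 : ℝ) / 1000 * (999 / 1000) ≤ (m - 9) / (m - 3) * (1 - S') :=
        mul_le_mul h4 (by linarith) (by norm_num) (by positivity)
      linarith
    calc D * (99 / 100) ≤ D * ((m - 9) / (m - 3) * (1 - S')) :=
          mul_le_mul_of_nonneg_left h5 hDp.le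
      _ = _ := by ring
  calc D * (m * D) ≤ 7 / 2 * ((D * m * (999 / 1000) / 3) * (D * (99 / 100))) := by
        have h4 : 0 < D * (m * D) := by positivity
        nlinarith
    _ ≤ 7 / 2 * (Q * D') := by
        apply mul_le_mul_of_nonneg_left _ (by norm_num)
        exact mul_le_mul h1 h2 (by positivity) hQp.le

theorem dr_le (g : G1 κ H M m Q u D) (gs : GS H M (xi κ H M) κ 0 S' m Q u D D' 1) {y : V}
    (hy : y ∈ M) : |dr κ H M m Q D D' y| ≤ 10 / m := by
  have hm := gs.m_big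
  have hm0 := gs.m_pos
  have hDp := gs.D_pos
  have hu0 := gs.u_pos
  obtain ⟨hB0, hB⟩ := e5a_B g gs
  have hc := c1_le g gs
  obtain ⟨z, ε, hεe, hε0, hε1, -⟩ := e5a_facts g gs
  have hξ := (g.hξ y hy).le
  obtain ⟨hx1, hx2⟩ := abs_le.1 hξ
  have hSN := e5a_SN_le g y
  rw [g.deg_eq hy] at hSN
  have hc2 : |c1 m Q D D'| ≤ 1 / m := by
    refine hc.trans ?_
    have e : 100 / (m * (u ^ 2 * Real.sqrt u)) = (100 * ε) * (1 / m) := by
      have hs0 : 0 < Real.sqrt u := Real.sqrt_pos.2 hu0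
      rw [hεe]
      field_simp
    rw [e]
    have h1 : (100 * ε) * (1 / m) ≤ 1 * (1 / m) :=
      mul_le_mul_of_nonneg_right (by linarith) (by positivity)
    linarith
  unfold dr
  refine (abs_add_le _ _).trans ?_
  rw [abs_neg, abs_mul, abs_mul, abs_of_nonneg hB0]
  have h1 : D / (Q * D') * |SN H M (xi κ H M) y| ≤ 2 / m := by
    calc D / (Q * D') * |SN H M (xi κ H M) y| ≤ 7 / 2 / (m * D) * (D * (1 + 1 / 8) / 4) := by
          apply mul_le_mul hB _ (abs_nonneg _) (by positivity)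
          refine hSN.trans ?_
          have : D * (1 + xi κ H M y) ≤ D * (1 + 1 / 8) :=
            mul_le_mul_of_nonneg_left (by linarith) hDp.le
          linarith
      _ = (63 / 64) / m := by
          field_simp
          norm_num
      _ ≤ _ := by
          apply div_le_div_of_nonneg_right (by norm_num) hm0.le
  have h2 : |c1 m Q D D'| * |1 + xi κ H M y| ≤ 1 / m * 2 := by
    apply mul_le_mul hc2 _ (abs_nonneg _) (by positivity)
    rw [abs_le]
    constructor <;> linarith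
  calc D / (Q * D') * |SN H M (xi κ H M) y| + |c1 m Q D D'| * |1 + xi κ H M y| ≤
        2 / m + 1 / m * 2 := add_le_add h1 h2
    _ = 4 / m := by ring
    _ ≤ _ := by
        apply div_le_div_of_nonneg_right (by norm_num) hm0.le

theorem sum_dr_sq (g : G1 κ H M m Q u D) (gs : GS H M (xi κ H M) κ 0 S' m Q u D D' 1) :
    ∑ y ∈ M, dr κ H M m Q D D' y ^ 2 ≤
      100 / (m ^ 2 * u ^ 8) * ZZ H M (xi κ H M) + 10 ^ 6 / (m * u ^ 5) := by
  have hm := gs.m_big
  have hm0 := gs.m_pos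
  have hDp := gs.D_pos
  have hu0 := gs.u_pos
  have hDlo := gs.D_lo
  obtain ⟨hB0, hB⟩ := e5a_B g gs
  have hc := c1_le g gs
  set B := D / (Q * D') with hBdef
  set c := c1 m Q D D' with hcdef
  have hB2 : 2 * B ^ 2 ≤ 100 / (m ^ 2 * u ^ 8) := by
    have h1 : B ≤ 4 / (m * u ^ 4) := by
      refine hB.trans ?_
      rw [div_le_div_iff₀ (by positivity) (by positivity)]
      have : m * (9 / 10 * u ^ 4) ≤ m * D := mul_le_mul_of_nonneg_left hDlo hm0.le
      have h2 : 0 < m * u ^ 4 := by positivity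
      linarith
    have h2 : B ^ 2 ≤ (4 / (m * u ^ 4)) ^ 2 := pow_le_pow_left₀ hB0 h1 2
    have h3 : (4 / (m * u ^ 4)) ^ 2 = 16 / (m ^ 2 * u ^ 8) := by
      field_simp
      norm_num
    rw [h3] at h2
    calc 2 * B ^ 2 ≤ 2 * (16 / (m ^ 2 * u ^ 8)) := by linarith
      _ = 32 / (m ^ 2 * u ^ 8) := by ring
      _ ≤ _ := by
          apply div_le_div_of_nonneg_right (by norm_num) (by positivity)
  have hc2 : c ^ 2 ≤ 10 ^ 4 / (m ^ 2 * u ^ 5) := by
    have h1 : c ^ 2 ≤ (100 / (m * (u ^ 2 * Real.sqrt u))) ^ 2 := by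
      rw [← sq_abs]
      exact pow_le_pow_left₀ (abs_nonneg _) hc 2
    refine h1.trans (le_of_eq ?_)
    have h2 : (m * (u ^ 2 * Real.sqrt u)) ^ 2 = m ^ 2 * u ^ 5 := by
      have : (m * (u ^ 2 * Real.sqrt u)) ^ 2 = m ^ 2 * u ^ 4 * Real.sqrt u ^ 2 := by ring
      rw [this, Real.sq_sqrt hu0.le]
      ring
    rw [div_pow, h2]
    norm_num
  have hpt : ∀ y ∈ M, dr κ H M m Q D D' y ^ 2 ≤
      2 * B ^ 2 * SN H M (xi κ H M) y ^ 2 + 4 * (10 ^ 4 / (m ^ 2 * u ^ 5)) := by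
    intro y hy
    obtain ⟨hx1, hx2⟩ := abs_le.1 (g.hξ y hy).le
    have h1 : dr κ H M m Q D D' y = -(B * SN H M (xi κ H M) y) + c * (1 + xi κ H M y) := rfl
    rw [h1]
    have h2 : (1 + xi κ H M y) ^ 2 ≤ 2 := by nlinarith
    have h3 : (-(B * SN H M (xi κ H M) y) + c * (1 + xi κ H M y)) ^ 2 ≤
        2 * (B * SN H M (xi κ H M) y) ^ 2 + 2 * (c ^ 2 * (1 + xi κ H M y) ^ 2) := by
      nlinarith [sq_nonneg (B * SN H M (xi κ H M) y + c * (1 + xi κ H M y))]
    have h4 : c ^ 2 * (1 + xi κ H M y) ^ 2 ≤ 10 ^ 4 / (m ^ 2 * u ^ 5) * 2 :=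
      mul_le_mul hc2 h2 (sq_nonneg _) (by positivity)
    have h5 : (B * SN H M (xi κ H M) y) ^ 2 = B ^ 2 * SN H M (xi κ H M) y ^ 2 := by ring
    rw [h5] at h3
    linarith
  refine (Finset.sum_le_sum hpt).trans ?_
  rw [Finset.sum_add_distrib, ← Finset.mul_sum, Finset.sum_const, nsmul_eq_mul, g.hm]
  unfold ZZ
  have hZ0 : 0 ≤ ∑ y ∈ M, SN H M (xi κ H M) y ^ 2 := Finset.sum_nonneg fun _ _ => sq_nonneg _
  refine add_le_add (mul_le_mul_of_nonneg_right hB2 hZ0) ?_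
  have e : m * (4 * (10 ^ 4 / (m ^ 2 * u ^ 5))) = 4 * 10 ^ 4 / (m * u ^ 5) := by
    field_simp
  rw [e]
  apply div_le_div_of_nonneg_right (by norm_num) (by positivity)

end Vale.Agent.P046S
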