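import Vale.Agent.P046S.EDef

/-!
P046 sharp constant, module E5b: bounds for the adjacency operator.
-/

namespace Vale.Agent.P046S

open Finset Vale.Agent.P046 Vale.Agent.P046LF

variable {V : Type} [DecidableEq V] {H : Finset (Finset V)} {M T : Finset V} {Δ h : ℝ}
  {v w : V → ℝ}

theorem e5b_pair (hH : IsLin3 H) (hv : ∀ x ∈ M, |v x| ≤ h) {T' : Finset V} (hT' : T' ∈ sub H M)
    {y : V} (hy : y ∈ T') : |∑ z ∈ T', v z - v y| ≤ 2 * h := by
  rw [← Finset.sum_erase_eq_sub hy]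
  refine (Finset.abs_sum_le_sum_abs _ _).trans ?_
  have h1 : ∑ i ∈ T'.erase y, |v i| ≤ ∑ i ∈ T'.erase y, h :=
    Finset.sum_le_sum fun i hi => hv i ((mem_sub.1 hT').2 (Finset.mem_of_mem_erase hi))
  refine h1.trans ?_
  rw [Finset.sum_const, Finset.card_erase_of_mem hy, hH.card3 T' (mem_sub.1 hT').1, nsmul_eq_mul]
  norm_num

theorem SN_abs_le (hH : IsLin3 H) (hv : ∀ x ∈ M, |v x| ≤ h) {y : V} (_hy : y ∈ M) :
    |SN H M v y| ≤ 2 * deg H M y * h := by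
  unfold SN
  refine (Finset.abs_sum_le_sum_abs _ _).trans ?_
  have h1 : ∑ T ∈ sub H M with y ∈ T, |∑ z ∈ T, v z - v y| ≤
      ∑ T ∈ sub H M with y ∈ T, 2 * h := by
    refine Finset.sum_le_sum fun T hT => ?_
    rw [mem_filter] at hT
    exact e5b_pair hH hv hT.1 hT.2
  refine h1.trans (le_of_eq ?_)
  rw [Finset.sum_const, nsmul_eq_mul, deg]
  ring

/-- Cauchy-Schwarz: `(SN v y)² ≤ 2 Δ ∑_{z ~ y} v z²` -/
theorem ZZ_le (hH : IsLin3 H) (hΔ : ∀ x ∈ M, (deg H M x : ℝ) ≤ Δ) (v : V → ℝ) :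
    ZZ H M v ≤ 4 * Δ ^ 2 * ∑ x ∈ M, v x ^ 2 := by
  unfold ZZ
  refine (SN_sq_sum_le hH v).trans ?_
  rw [Finset.mul_sum, Finset.mul_sum]
  refine Finset.sum_le_sum fun z hz => ?_
  have h0 : (0 : ℝ) ≤ deg H M z := Nat.cast_nonneg _
  have h1 : bb H M z ≤ 2 * deg H M z * Δ := by
    refine (le_abs_self _).trans ?_
    unfold bb
    refine SN_abs_le hH (fun x hx => ?_) hz
    rw [abs_of_nonneg (Nat.cast_nonneg _)]
    exact hΔ x hx
  have h2 := hΔ z hz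
  have hΔ0 : 0 ≤ Δ := h0.trans h2
  have h3 : bb H M z ≤ 2 * Δ * Δ :=
    h1.trans (mul_le_mul_of_nonneg_right (by linarith) hΔ0)
  have h4 := mul_le_mul_of_nonneg_left h3 (sq_nonneg (v z))
  nlinarith

theorem ZZ_sdiff_le (hH : IsLin3 H) (hΔ : ∀ x ∈ M, (deg H M x : ℝ) ≤ Δ) (v : V → ℝ)
    (T : Finset V) : ZZ H (M \ T) v ≤ 4 * Δ ^ 2 * ∑ x ∈ M \ T, v x ^ 2 := by
  refine ZZ_le hH (fun x hx => ?_) v
  have h1 : (deg H (M \ T) x : ℝ) ≤ deg H M x := by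
    have := deg_sdiff (H := H) (M := M) T x
    exact_mod_cast (by omega : deg H (M \ T) x ≤ deg H M x)
  exact h1.trans (hΔ x (mem_sdiff.1 hx).1)

theorem SN_sdiff (_hH : IsLin3 H) (_hT : T ∈ sub H M) {y : V} (_hy : y ∈ M \ T) (v : V → ℝ) :
    SN H (M \ T) v y = SN H M v y - LL H M v T y := by
  have h1 : SN H M v y = LL H M v T y +
      ∑ T' ∈ sub H M with y ∈ T' ∧ Disjoint T' T, (∑ z ∈ T', v z - v y) := by
    unfold SN LL
    rw [← Finset.sum_filter_add_sum_filter_not ((sub H M).filter (fun T' => y ∈ T'))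
      (fun T' => ¬ Disjoint T' T), filter_filter, filter_filter]
    simp only [not_not]
  have h2 : SN H (M \ T) v y =
      ∑ T' ∈ sub H M with y ∈ T' ∧ Disjoint T' T, (∑ z ∈ T', v z - v y) := by
    unfold SN
    rw [sub_sdiff, filter_filter]
    refine Finset.sum_congr ?_ fun _ _ => rfl
    ext T'
    simp only [mem_filter]
    tauto
  rw [h2, h1]
  ring

theorem sum_dl_le (hH : IsLin3 H) (hΔ : ∀ x ∈ M, (deg H M x : ℝ) ≤ Δ) (hT : T ∈ sub H M) :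
    ∑ y ∈ M \ T, (dl H M T y : ℝ) ≤ 6 * Δ := by
  have h1 := sum_dl hH hT
  have h2 := sT_eq hH hT
  have h3 : (sT H M T : ℝ) ≤ 3 * Δ := by
    rw [sT_cast]
    have h4 : ∑ z ∈ T, (deg H M z : ℝ) ≤ ∑ z ∈ T, Δ :=
      Finset.sum_le_sum fun z hz => hΔ z ((mem_sub.1 hT).2 hz)
    refine h4.trans (le_of_eq ?_)
    rw [Finset.sum_const, nsmul_eq_mul, hH.card3 T (mem_sub.1 hT).1]
    norm_num
  have h5 : ∑ y ∈ M \ T, (dl H M T y : ℝ) = 2 * (nb H M T : ℝ) := by exact_mod_cast h1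
  have h6 : (sT H M T : ℝ) = 3 + nb H M T := by exact_mod_cast h2
  rw [h5]
  linarith

theorem dl_le_three (hH : IsLin3 H) (hT : T ∈ sub H M) {y : V} (hy : y ∈ M \ T) :
    dl H M T y ≤ 3 := dl_le hH hT (mem_sdiff.1 hy).2

theorem sum_LL_sq_le (hH : IsLin3 H) (hΔ : ∀ x ∈ M, (deg H M x : ℝ) ≤ Δ) (hT : T ∈ sub H M)
    (hv : ∀ x ∈ M, |v x| ≤ h) : ∑ y ∈ M \ T, LL H M v T y ^ 2 ≤ 72 * Δ * h ^ 2 := by
  have h1 : ∀ y ∈ M \ T, LL H M v T y ^ 2 ≤ 12 * h ^ 2 * (dl H M T y : ℝ) := by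
    intro y hy
    have h2 : |LL H M v T y| ≤ (dl H M T y : ℝ) * (2 * h) := by
      unfold LL
      refine (Finset.abs_sum_le_sum_abs _ _).trans ?_
      have h3 : ∑ T' ∈ sub H M with y ∈ T' ∧ ¬ Disjoint T' T, |∑ z ∈ T', v z - v y| ≤
          ∑ T' ∈ sub H M with y ∈ T' ∧ ¬ Disjoint T' T, 2 * h := by
        refine Finset.sum_le_sum fun T' hT' => ?_
        rw [mem_filter] at hT'
        exact e5b_pair hH hv hT'.1 hT'.2.1
      refine h3.trans (le_of_eq ?_)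
      rw [Finset.sum_const, nsmul_eq_mul, dl]
    have h4 := pow_le_pow_left₀ (abs_nonneg _) h2 2
    rw [sq_abs] at h4
    have h5 : (dl H M T y : ℝ) ≤ 3 := by exact_mod_cast dl_le_three hH hT hy
    have h6 : (0 : ℝ) ≤ dl H M T y := Nat.cast_nonneg _
    refine h4.trans ?_
    calc ((dl H M T y : ℝ) * (2 * h)) ^ 2 = (dl H M T y : ℝ) * (4 * h ^ 2 * dl H M T y) := by ring
      _ ≤ 3 * (4 * h ^ 2 * dl H M T y) := mul_le_mul_of_nonneg_right h5 (by positivity)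
      _ = _ := by ring
  refine (Finset.sum_le_sum h1).trans ?_
  rw [← Finset.mul_sum]
  calc 12 * h ^ 2 * ∑ y ∈ M \ T, (dl H M T y : ℝ) ≤ 12 * h ^ 2 * (6 * Δ) :=
        mul_le_mul_of_nonneg_left (sum_dl_le hH hΔ hT) (by positivity)
    _ = _ := by ring

theorem SN_add (v w : V → ℝ) (y : V) :
    SN H M (fun x => v x + w x) y = SN H M v y + SN H M w y := by
  unfold SN
  rw [← Finset.sum_add_distrib]
  refine Finset.sum_congr rfl fun T _ => ?_
  rw [Finset.sum_add_distrib]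
  ring

theorem SN_smul (c : ℝ) (v : V → ℝ) (y : V) :
    SN H M (fun x => c * v x) y = c * SN H M v y := by
  unfold SN
  rw [Finset.mul_sum]
  refine Finset.sum_congr rfl fun T _ => ?_
  rw [← Finset.mul_sum]
  ring

theorem SN_congr (hvw : ∀ x ∈ M, v x = w x) (y : V) : SN H M v y = SN H M w y := by
  unfold SN
  refine Finset.sum_congr rfl fun T hT => ?_
  rw [mem_filter] at hT
  have h1 := (mem_sub.1 hT.1).2
  rw [Finset.sum_congr rfl fun z hz => hvw z (h1 hz), hvw y (h1 hT.2)]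

/-- `SN 1 = 2 deg` -/
theorem SN_one (hH : IsLin3 H) (y : V) : SN H M (fun _ => 1) y = 2 * deg H M y := by
  unfold SN
  have h1 : ∀ T ∈ (sub H M).filter (fun T => y ∈ T), (∑ _z ∈ T, (1 : ℝ)) - 1 = 2 := by
    intro T hT
    rw [mem_filter] at hT
    rw [Finset.sum_const, hH.card3 T (mem_sub.1 hT.1).1]
    norm_num
  rw [Finset.sum_congr rfl h1, Finset.sum_const, nsmul_eq_mul, deg]
  ring

end Vale.Agent.P046S
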