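import Vale.Agent.P046S.E5a
import Vale.Agent.P046S.E5b

/-!
P046 sharp constant, module E5c: comparison of `ZZ` of the next deviations with `ZZ` of `Nup`.

Write `w = SN ξ`, `δ = dr`, `s = S'/D'`, `A = SN_{M\T} Nup`, `B = SN_{M\T} (δ + s dl)` (on `M \ T`), so the
left hand side is `‖A + B‖² = ‖A‖² + 2⟨A, B⟩ + ‖B‖²`; `Δ = (9/8) D`, `D ≤ u^4`, `u^6 ≤ m`.
* `‖A - w‖_{M\T} ≤ C √D = C u²`: `A - w = SN_{M\T}(Nup - ξ) - LL ξ`, `Nup - ξ = -(dl - cd)/D'`,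
  `∑ dl² ≤ 18 Δ`, `|cd / D'| ≤ 8/m`.
* `‖SN_{M\T} δ‖² ≤ 4 Δ² ∑ δ²` (`sum_dr_sq`): `≤ (C/m²) (ZZ + u³ m)`.
* `2⟨A - w, SN_T δ⟩ ≤ (C/m)(u² ‖w‖ + u^{7/2} √m)`, `u² ‖w‖ ≤ η ZZ + u⁴/(4η)`, `√m ≥ u³`.
* `2⟨w, (SN_T - SN) δ⟩_{M\T} ≤ 2 ‖w‖ ‖LL δ‖ ≤ (C/m) u² ‖w‖` (`dr_le`, `sum_LL_sq_le`).
* `2 ∑_{y ∈ T} |w y (SN δ) y| ≤ (C/m) D² ≤ (C/m) m u³`.
* `‖B‖² ≤ 2 ‖SN_T δ‖² + 2 ‖SN_T (s dl)‖²`, `‖SN_T (s dl)‖ ≤ 2 Δ s √(18 Δ)` is tiny (`G1.gs`).
-/

namespace Vale.Agent.P046S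

open Finset Vale.Agent.P046 Vale.Agent.P046LF

section cx

variable {V : Type} [DecidableEq V] {H : Finset (Finset V)} {M T : Finset V}
  {κ S' m Q u D D' : ℝ}

theorem cx_deg (g : G1 κ H M m Q u D) (gs : GS H M (xi κ H M) κ 0 S' m Q u D D' 1) {x : V}
    (hx : x ∈ M) : (deg H M x : ℝ) ≤ 9 / 8 * D := by
  rw [g.deg_eq hx]
  have h1 := (abs_lt.1 (g.hξ x hx)).2
  have h2 := gs.D_pos
  nlinarith

theorem cx_rat (gs : GS H M (xi κ H M) κ 0 S' m Q u D D' 1) : D ^ 2 ≤ 2 * D' ^ 2 := by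
  have h1 := gs.r_hi
  have hm := gs.m_big
  have hD' := gs.D'_pos
  have hD := gs.D_pos
  have h2 : 8 / m ≤ 1 / 10 := by
    rw [div_le_div_iff₀ (by linarith) (by norm_num)]
    linarith
  have h3 : D / D' ≤ 11 / 10 := by linarith
  rw [div_le_iff₀ hD'] at h3
  nlinarith

theorem cx_um (gs : GS H M (xi κ H M) κ 0 S' m Q u D D' 1) : D * u ^ 2 ≤ m := by
  have h1 := gs.D_hi
  have h2 := gs.hum
  have h3 := gs.u_pos
  calc D * u ^ 2 ≤ u ^ 4 * u ^ 2 := mul_le_mul_of_nonneg_right h1 (by positivity)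
    _ = u ^ 6 := by ring
    _ ≤ m := h2

theorem cx_Dm (gs : GS H M (xi κ H M) κ 0 S' m Q u D D' 1) : 10 ^ 6 * D ≤ m := by
  have h1 := cx_um gs
  have h2 := pow_le_pow_left₀ (by norm_num : (0 : ℝ) ≤ 1000) gs.hu 2
  have h3 := gs.D_pos
  nlinarith

theorem cx_cd (g : G1 κ H M m Q u D) (gs : GS H M (xi κ H M) κ 0 S' m Q u D D' 1) {y : V}
    (hy : y ∈ M) : cd H M y ^ 2 * m ^ 2 ≤ 169 * D ^ 2 := by
  have hD := gs.D_pos
  have hDb := gs.D_big
  have hm := gs.m_pos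
  have hQ := gs.Q_pos
  have hQl := gs.Q_lo
  have hdy := cx_deg g gs hy
  have hdy0 : (0 : ℝ) ≤ deg H M y := Nat.cast_nonneg _
  have h1 : |SN H M (fun z => (deg H M z : ℝ)) y| ≤ 2 * deg H M y * (9 / 8 * D) :=
    SN_abs_le g.lin (fun x hx => by
      rw [abs_of_nonneg (Nat.cast_nonneg _)]; exact cx_deg g gs hx) hy
  have h2 : |bb H M y - 2 * deg H M y| ≤ 39 / 10 * D ^ 2 := by
    have h3 : |bb H M y| ≤ 2 * (9 / 8 * D) * (9 / 8 * D) := by
      refine h1.trans ?_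
      exact mul_le_mul_of_nonneg_right (by linarith) (by positivity)
    calc |bb H M y - 2 * deg H M y| ≤ |bb H M y| + |2 * (deg H M y : ℝ)| := abs_sub _ _
      _ ≤ 2 * (9 / 8 * D) * (9 / 8 * D) + 2 * (9 / 8 * D) := by
          rw [abs_of_nonneg (by positivity : (0 : ℝ) ≤ 2 * (deg H M y : ℝ))]
          linarith
      _ ≤ 39 / 10 * D ^ 2 := by nlinarith
  have h4 : |cd H M y * m| ≤ 13 * D := by
    unfold cd
    rw [gs.hQ, abs_mul, abs_div, abs_of_pos hQ, abs_of_pos hm, div_mul_eq_mul_div,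
      div_le_iff₀ hQ]
    calc |bb H M y - 2 * deg H M y| * m ≤ 39 / 10 * D ^ 2 * m :=
          mul_le_mul_of_nonneg_right h2 hm.le
      _ = 13 * D * (3 / 10 * (m * D)) := by ring
      _ ≤ 13 * D * Q := mul_le_mul_of_nonneg_left hQl (by positivity)
  have h5 : (cd H M y * m) ^ 2 ≤ (13 * D) ^ 2 := by
    rw [← sq_abs (cd H M y * m)]
    exact pow_le_pow_left₀ (abs_nonneg _) h4 2
  nlinarith

theorem cx_dl2 (g : G1 κ H M m Q u D) (gs : GS H M (xi κ H M) κ 0 S' m Q u D D' 1)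
    (hT : T ∈ sub H M) : ∑ y ∈ M \ T, (dl H M T y : ℝ) ^ 2 ≤ 81 / 4 * D := by
  have h1 := sum_dl_le g.lin (fun x hx => cx_deg g gs hx) hT
  calc ∑ y ∈ M \ T, (dl H M T y : ℝ) ^ 2 ≤ ∑ y ∈ M \ T, 3 * (dl H M T y : ℝ) := by
        refine Finset.sum_le_sum fun y hy => ?_
        have h2 : (dl H M T y : ℝ) ≤ 3 := by exact_mod_cast dl_le_three g.lin hT hy
        have h3 : (0 : ℝ) ≤ dl H M T y := Nat.cast_nonneg _
        nlinarith
    _ = 3 * ∑ y ∈ M \ T, (dl H M T y : ℝ) := by rw [Finset.mul_sum]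
    _ ≤ 3 * (6 * (9 / 8 * D)) := by linarith
    _ = 81 / 4 * D := by ring

/-- the change of `xi` by `Nup` -/
noncomputable def cxv (κ : ℝ) (H : Finset (Finset V)) (M : Finset V) (D' : ℝ) (T : Finset V) :
    V → ℝ := fun y => -(((dl H M T y : ℝ) - cd H M y) / D')

theorem cx_v2 (g : G1 κ H M m Q u D) (gs : GS H M (xi κ H M) κ 0 S' m Q u D D' 1)
    (hT : T ∈ sub H M) : D * ∑ y ∈ M \ T, cxv κ H M D' T y ^ 2 ≤ 84 := by
  have hD := gs.D_pos
  have hD' := gs.D'_pos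
  have hm := gs.m_pos
  have hDm := cx_Dm gs
  have hr := cx_rat gs
  have h1 := cx_dl2 g gs hT
  have h2 : ∑ y ∈ M \ T, cd H M y ^ 2 ≤ 169 * D ^ 2 / m := by
    calc ∑ y ∈ M \ T, cd H M y ^ 2 ≤ ∑ y ∈ M, cd H M y ^ 2 :=
          Finset.sum_le_sum_of_subset_of_nonneg sdiff_subset fun _ _ _ => sq_nonneg _
      _ ≤ ∑ y ∈ M, 169 * D ^ 2 / m ^ 2 := by
          refine Finset.sum_le_sum fun y hy => ?_
          rw [le_div_iff₀ (by positivity)]
          exact cx_cd g gs hy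
      _ = 169 * D ^ 2 / m := by
          rw [Finset.sum_const, nsmul_eq_mul, g.hm]
          field_simp
  have h3 : 169 * D ^ 2 / m ≤ 1 / 4 * D := by
    rw [div_le_iff₀ hm]
    nlinarith
  have h4 : ∀ y ∈ M \ T, cxv κ H M D' T y ^ 2 * D' ^ 2 ≤
      2 * (dl H M T y : ℝ) ^ 2 + 2 * cd H M y ^ 2 := by
    intro y _
    unfold cxv
    have e : (-(((dl H M T y : ℝ) - cd H M y) / D')) ^ 2 * D' ^ 2 =
        ((dl H M T y : ℝ) - cd H M y) ^ 2 := by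
      field_simp
    rw [e]
    nlinarith [sq_nonneg ((dl H M T y : ℝ) + cd H M y)]
  have h5 : (∑ y ∈ M \ T, cxv κ H M D' T y ^ 2) * D' ^ 2 ≤ 42 * D := by
    rw [Finset.sum_mul]
    calc ∑ y ∈ M \ T, cxv κ H M D' T y ^ 2 * D' ^ 2
        ≤ ∑ y ∈ M \ T, (2 * (dl H M T y : ℝ) ^ 2 + 2 * cd H M y ^ 2) := Finset.sum_le_sum h4
      _ = 2 * ∑ y ∈ M \ T, (dl H M T y : ℝ) ^ 2 + 2 * ∑ y ∈ M \ T, cd H M y ^ 2 := by
          rw [Finset.sum_add_distrib, ← Finset.mul_sum, ← Finset.mul_sum]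
      _ ≤ 42 * D := by linarith
  have h6 : 0 ≤ ∑ y ∈ M \ T, cxv κ H M D' T y ^ 2 := Finset.sum_nonneg fun _ _ => sq_nonneg _
  set s := ∑ y ∈ M \ T, cxv κ H M D' T y ^ 2
  have h7 : s * D ^ 2 ≤ 2 * (42 * D) := by nlinarith
  have h8 : (D * s) * D ≤ 84 * D := by nlinarith
  exact le_of_mul_le_mul_right h8 hD

theorem cx_a_eq (g : G1 κ H M m Q u D) (gs : GS H M (xi κ H M) κ 0 S' m Q u D D' 1)
    (hT : T ∈ sub H M) {y : V} (hy : y ∈ M \ T) :
    SN H (M \ T) (Nup H M (xi κ H M) D' T) y = SN H M (xi κ H M) y +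
      (SN H (M \ T) (cxv κ H M D' T) y - LL H M (xi κ H M) T y) := by
  have h1 : SN H (M \ T) (Nup H M (xi κ H M) D' T) y =
      SN H (M \ T) (fun x => xi κ H M x + cxv κ H M D' T x) y := by
    refine SN_congr (fun x hx => ?_) y
    have hxM : x ∈ M := (mem_sdiff.1 hx).1
    unfold Nup cxv
    rw [if_pos (g.hξ x hxM)]
    ring
  rw [h1, SN_add, SN_sdiff g.lin hT hy]
  ring

theorem cx_a (g : G1 κ H M m Q u D) (gs : GS H M (xi κ H M) κ 0 S' m Q u D D' 1)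
    (hT : T ∈ sub H M) :
    ∑ y ∈ M \ T, (SN H (M \ T) (cxv κ H M D' T) y - LL H M (xi κ H M) T y) ^ 2 ≤
      860 * u ^ 4 := by
  have hD := gs.D_pos
  have hDu := gs.D_hi
  have h1 := ZZ_sdiff_le g.lin (fun x hx => cx_deg g gs hx) (cxv κ H M D' T) T
  have h2 := cx_v2 g gs hT
  have h3 := sum_LL_sq_le (h := 1 / 8) g.lin (fun x hx => cx_deg g gs hx) hT
    (fun x hx => (g.hξ x hx).le)
  have h4 : ZZ H (M \ T) (cxv κ H M D' T) ≤ 4 * (81 / 64) * 84 * D := by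
    refine h1.trans ?_
    have e : 4 * (9 / 8 * D) ^ 2 * ∑ x ∈ M \ T, cxv κ H M D' T x ^ 2 =
        4 * (81 / 64) * D * (D * ∑ x ∈ M \ T, cxv κ H M D' T x ^ 2) := by ring
    rw [e]
    nlinarith
  calc ∑ y ∈ M \ T, (SN H (M \ T) (cxv κ H M D' T) y - LL H M (xi κ H M) T y) ^ 2
      ≤ ∑ y ∈ M \ T, (2 * SN H (M \ T) (cxv κ H M D' T) y ^ 2 +
          2 * LL H M (xi κ H M) T y ^ 2) := by
        refine Finset.sum_le_sum fun y _ => ?_
        nlinarith [sq_nonneg (SN H (M \ T) (cxv κ H M D' T) y + LL H M (xi κ H M) T y)]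
    _ = 2 * ZZ H (M \ T) (cxv κ H M D' T) + 2 * ∑ y ∈ M \ T, LL H M (xi κ H M) T y ^ 2 := by
        rw [Finset.sum_add_distrib, ← Finset.mul_sum, ← Finset.mul_sum, ZZ]
    _ ≤ 860 * D := by linarith
    _ ≤ 860 * u ^ 4 := by linarith

theorem cx_D2 (gs : GS H M (xi κ H M) κ 0 S' m Q u D D' 1) : D ^ 2 ≤ u ^ 8 := by
  have hD := gs.D_pos
  have hDu := gs.D_hi
  calc D ^ 2 ≤ (u ^ 4) ^ 2 := pow_le_pow_left₀ hD.le hDu 2
    _ = u ^ 8 := by ring

theorem cx_b1 (g : G1 κ H M m Q u D) (gs : GS H M (xi κ H M) κ 0 S' m Q u D D' 1) :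
    ZZ H (M \ T) (dr κ H M m Q D D') ≤
      507 / m ^ 2 * ZZ H M (xi κ H M) + 6 * 10 ^ 6 * u ^ 3 / m := by
  have hD := gs.D_pos
  have hm := gs.m_pos
  have hu := gs.u_pos
  have hZ : 0 ≤ ZZ H M (xi κ H M) := Finset.sum_nonneg fun _ _ => sq_nonneg _
  have h1 := ZZ_sdiff_le g.lin (fun x hx => cx_deg g gs hx) (dr κ H M m Q D D') T
  have h2 := sum_dr_sq g gs
  have h3 : ∑ x ∈ M \ T, dr κ H M m Q D D' x ^ 2 ≤ ∑ y ∈ M, dr κ H M m Q D D' y ^ 2 :=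
    Finset.sum_le_sum_of_subset_of_nonneg sdiff_subset fun _ _ _ => sq_nonneg _
  have h4 := h3.trans h2
  refine h1.trans ?_
  calc 4 * (9 / 8 * D) ^ 2 * ∑ x ∈ M \ T, dr κ H M m Q D D' x ^ 2
      ≤ 4 * (81 / 64) * u ^ 8 * (100 / (m ^ 2 * u ^ 8) * ZZ H M (xi κ H M) +
          10 ^ 6 / (m * u ^ 5)) := by
        apply mul_le_mul _ h4 (Finset.sum_nonneg fun _ _ => sq_nonneg _) (by positivity)
        have := cx_D2 gs
        nlinarith
    _ = 506.25 / m ^ 2 * ZZ H M (xi κ H M) + 5.0625 * 10 ^ 6 * u ^ 3 / m := by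
        field_simp
        ring
    _ ≤ 507 / m ^ 2 * ZZ H M (xi κ H M) + 6 * 10 ^ 6 * u ^ 3 / m := by
        have e1 : 506.25 / m ^ 2 * ZZ H M (xi κ H M) ≤ 507 / m ^ 2 * ZZ H M (xi κ H M) := by
          apply mul_le_mul_of_nonneg_right _ hZ
          apply div_le_div_of_nonneg_right (by norm_num) (by positivity)
        have e2 : 5.0625 * 10 ^ 6 * u ^ 3 / m ≤ 6 * 10 ^ 6 * u ^ 3 / m := by
          apply div_le_div_of_nonneg_right _ hm.le
          have : 0 < u ^ 3 := by positivity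
          nlinarith
        linarith

theorem cx_b2 (g : G1 κ H M m Q u D) (gs : GS H M (xi κ H M) κ 0 S' m Q u D D' 1)
    (hS' : S' * (m * (u ^ 3 * Real.sqrt u)) ≤ 20) (hT : T ∈ sub H M) :
    ∑ y ∈ M \ T, (S' / D' * SN H (M \ T) (fun x => (dl H M T x : ℝ)) y) ^ 2 ≤
      10 ^ 6 / m ^ 2 := by
  have hD := gs.D_pos
  have hD' := gs.D'_pos
  have hm := gs.m_pos
  have hu := gs.u_pos
  have hu1 := gs.hu
  have hS0 : 0 ≤ S' := gs.S_le
  have hr := cx_rat gs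
  have hDu := gs.D_hi
  have h1 := ZZ_sdiff_le g.lin (fun x hx => cx_deg g gs hx) (fun x => (dl H M T x : ℝ)) T
  have h2 := cx_dl2 g gs hT
  have h3 : ZZ H (M \ T) (fun x => (dl H M T x : ℝ)) ≤ 4 * (81 / 64) * (81 / 4) * D ^ 3 := by
    refine h1.trans ?_
    have e : 4 * (9 / 8 * D) ^ 2 * (81 / 4 * D) = 4 * (81 / 64) * (81 / 4) * D ^ 3 := by ring
    rw [← e]
    exact mul_le_mul_of_nonneg_left h2 (by positivity)
  -- `S' * m * u ^ 3 ≤ 20`
  have hsq : 1 ≤ Real.sqrt u := by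
    rw [Real.one_le_sqrt]; linarith
  have h4 : S' * (m * u ^ 3) ≤ 20 := by
    refine le_trans ?_ hS'
    apply mul_le_mul_of_nonneg_left _ hS0
    apply mul_le_mul_of_nonneg_left _ hm.le
    have : 0 < u ^ 3 := by positivity
    nlinarith
  have h5 : (S' * (m * u ^ 3)) ^ 2 ≤ 400 := by
    have : 0 ≤ S' * (m * u ^ 3) := by positivity
    nlinarith
  have e0 : ∑ y ∈ M \ T, (S' / D' * SN H (M \ T) (fun x => (dl H M T x : ℝ)) y) ^ 2 =
      (S' / D') ^ 2 * ZZ H (M \ T) (fun x => (dl H M T x : ℝ)) := by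
    rw [ZZ, Finset.mul_sum]
    refine Finset.sum_congr rfl fun y _ => ?_
    ring
  rw [e0, le_div_iff₀ (by positivity)]
  have h6 : D ^ 3 ≤ 2 * D' ^ 2 * u ^ 4 := by
    calc D ^ 3 = D ^ 2 * D := by ring
      _ ≤ 2 * D' ^ 2 * u ^ 4 := mul_le_mul hr hDu hD.le (by positivity)
  calc (S' / D') ^ 2 * ZZ H (M \ T) (fun x => (dl H M T x : ℝ)) * m ^ 2
      ≤ (S' / D') ^ 2 * (4 * (81 / 64) * (81 / 4) * D ^ 3) * m ^ 2 := by
        apply mul_le_mul_of_nonneg_right _ (by positivity)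
        exact mul_le_mul_of_nonneg_left h3 (by positivity)
    _ ≤ (S' / D') ^ 2 * (4 * (81 / 64) * (81 / 4) * (2 * D' ^ 2 * u ^ 4)) * m ^ 2 := by
        apply mul_le_mul_of_nonneg_right _ (by positivity)
        apply mul_le_mul_of_nonneg_left _ (by positivity)
        apply mul_le_mul_of_nonneg_left h6 (by positivity)
    _ = 4 * (81 / 64) * (81 / 4) * 2 * ((S' * (m * u ^ 3)) ^ 2 / u ^ 2) := by
        field_simp
    _ ≤ 4 * (81 / 64) * (81 / 4) * 2 * (400 / 1) := by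
        apply mul_le_mul_of_nonneg_left _ (by norm_num)
        apply div_le_div₀ (by norm_num) h5 (by norm_num)
        nlinarith
    _ ≤ 10 ^ 6 := by norm_num

theorem cx_l (g : G1 κ H M m Q u D) (gs : GS H M (xi κ H M) κ 0 S' m Q u D D' 1)
    (hT : T ∈ sub H M) :
    ∑ y ∈ M \ T, LL H M (dr κ H M m Q D D') T y ^ 2 ≤ 8100 * u ^ 4 / m ^ 2 := by
  have hD := gs.D_pos
  have hm := gs.m_pos
  have hDu := gs.D_hi
  have h3 := sum_LL_sq_le (h := 10 / m) g.lin (fun x hx => cx_deg g gs hx) hT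
    (fun x hx => dr_le g gs hx)
  refine h3.trans ?_
  have e : 72 * (9 / 8 * D) * (10 / m) ^ 2 = 8100 * D / m ^ 2 := by
    field_simp
    ring
  rw [e]
  apply div_le_div_of_nonneg_right _ (by positivity)
  linarith

theorem cx_T (g : G1 κ H M m Q u D) (gs : GS H M (xi κ H M) κ 0 S' m Q u D D' 1)
    (hT : T ∈ sub H M) :
    |∑ y ∈ T, SN H M (xi κ H M) y * SN H M (dr κ H M m Q D D') y| ≤ 20 * u ^ 2 := by
  have hD := gs.D_pos
  have hm := gs.m_pos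
  have hu := gs.u_pos
  have hDu := cx_D2 gs
  have hum := gs.hum
  have hTM : T ⊆ M := (mem_sub.1 hT).2
  have hcard : T.card = 3 := g.lin.card3 T (mem_sub.1 hT).1
  have h1 : ∀ y ∈ T, |SN H M (xi κ H M) y * SN H M (dr κ H M m Q D D') y| ≤
      810 / 128 * (D ^ 2 / m) := by
    intro y hy
    have hd := cx_deg g gs (hTM hy)
    have hd0 : (0 : ℝ) ≤ deg H M y := Nat.cast_nonneg _
    have h2 : |SN H M (xi κ H M) y| ≤ 2 * deg H M y * (1 / 8) :=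
      SN_abs_le g.lin (fun x hx => (g.hξ x hx).le) (hTM hy)
    have h3 : |SN H M (dr κ H M m Q D D') y| ≤ 2 * deg H M y * (10 / m) :=
      SN_abs_le g.lin (fun x hx => dr_le g gs hx) (hTM hy)
    rw [abs_mul]
    calc |SN H M (xi κ H M) y| * |SN H M (dr κ H M m Q D D') y|
        ≤ (2 * (9 / 8 * D) * (1 / 8)) * (2 * (9 / 8 * D) * (10 / m)) := by
          apply mul_le_mul _ _ (abs_nonneg _) (by positivity)
          · refine h2.trans ?_
            exact mul_le_mul_of_nonneg_right (by linarith) (by norm_num)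
          · refine h3.trans ?_
            exact mul_le_mul_of_nonneg_right (by linarith) (by positivity)
      _ = 810 / 128 * (D ^ 2 / m) := by ring
  calc |∑ y ∈ T, SN H M (xi κ H M) y * SN H M (dr κ H M m Q D D') y|
      ≤ ∑ y ∈ T, |SN H M (xi κ H M) y * SN H M (dr κ H M m Q D D') y| :=
        Finset.abs_sum_le_sum_abs _ _
    _ ≤ ∑ y ∈ T, 810 / 128 * (D ^ 2 / m) := Finset.sum_le_sum h1
    _ = 3 * (810 / 128) * (D ^ 2 / m) := by
        rw [Finset.sum_const, hcard, nsmul_eq_mul]; push_cast; ring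
    _ ≤ 20 * u ^ 2 := by
        have h4 : D ^ 2 / m ≤ u ^ 2 := by
          rw [div_le_iff₀ hm]
          calc D ^ 2 ≤ u ^ 8 := hDu
            _ = u ^ 2 * u ^ 6 := by ring
            _ ≤ u ^ 2 * m := mul_le_mul_of_nonneg_left hum (by positivity)
        have h5 : 0 ≤ u ^ 2 := by positivity
        nlinarith

end cx

theorem cx_pt {m u A w a b1 b2 e1 l : ℝ} (hm : 0 < m) (hu : 0 < u) (h3 : A = w + a)
    (h4 : b1 = e1 - l) : (A + (b1 + b2)) ^ 2 ≤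
      A ^ 2 + 2 * (w * e1) + (1 / (500 * m)) * w ^ 2 + 1000 * m * l ^ 2 +
        1000 * m * b2 ^ 2 + 1 / u * a ^ 2 + (u + 1) * (2 * b1 ^ 2 + 2 * b2 ^ 2) := by
  have q1 : -(2 * (w * l)) ≤ 1 / (1000 * m) * w ^ 2 + 1000 * m * l ^ 2 := by
    have e : 1 / (1000 * m) * w ^ 2 + 1000 * m * l ^ 2 + 2 * (w * l) =
        1 / (1000 * m) * (w + 1000 * m * l) ^ 2 := by
      field_simp
      ring
    have : 0 ≤ 1 / (1000 * m) * (w + 1000 * m * l) ^ 2 := by positivity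
    linarith
  have q2 : 2 * (w * b2) ≤ 1 / (1000 * m) * w ^ 2 + 1000 * m * b2 ^ 2 := by
    have e : 1 / (1000 * m) * w ^ 2 + 1000 * m * b2 ^ 2 - 2 * (w * b2) =
        1 / (1000 * m) * (w - 1000 * m * b2) ^ 2 := by
      field_simp
      ring
    have : 0 ≤ 1 / (1000 * m) * (w - 1000 * m * b2) ^ 2 := by positivity
    linarith
  have q3 : 2 * (a * (b1 + b2)) ≤ 1 / u * a ^ 2 + u * (b1 + b2) ^ 2 := by
    have e : 1 / u * a ^ 2 + u * (b1 + b2) ^ 2 - 2 * (a * (b1 + b2)) =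
        1 / u * (a - u * (b1 + b2)) ^ 2 := by
      field_simp
      ring
    have : 0 ≤ 1 / u * (a - u * (b1 + b2)) ^ 2 := by positivity
    linarith
  have q4 : (u + 1) * (b1 + b2) ^ 2 ≤ (u + 1) * (2 * b1 ^ 2 + 2 * b2 ^ 2) := by
    apply mul_le_mul_of_nonneg_left _ (by linarith)
    nlinarith [sq_nonneg (b1 - b2)]
  have q5 : (A + (b1 + b2)) ^ 2 = A ^ 2 + 2 * (w * e1) + -(2 * (w * l)) +
      2 * (w * b2) + 2 * (a * (b1 + b2)) + (b1 + b2) ^ 2 := by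
    rw [h3, h4]; ring
  have q6 : (1 / (500 * m)) * w ^ 2 = 1 / (1000 * m) * w ^ 2 + 1 / (1000 * m) * w ^ 2 := by
    field_simp
    ring
  rw [q5, q6]
  linarith

theorem cx_arith {m u P L N sN sM sT W2 L2 B2 A2 B1 : ℝ} (hm : 0 < m) (hmb : 10 ^ 18 ≤ m)
    (hu : 0 < u) (hu1 : 1000 ≤ u) (hum : u ^ 6 ≤ m) (hP : 0 ≤ P)
    (hsum : L ≤ N + 2 * sN + (1 / (500 * m)) * W2 + 1000 * m * L2 + 1000 * m * B2 +
      1 / u * A2 + (u + 1) * (2 * B1 + 2 * B2))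
    (hsplit : sN = sM - sT) (hT : |sT| ≤ 20 * u ^ 2) (hwP : W2 ≤ P)
    (hsa : A2 ≤ 860 * u ^ 4) (hB1 : B1 ≤ 507 / m ^ 2 * P + 6 * 10 ^ 6 * u ^ 3 / m)
    (hsb2 : B2 ≤ 10 ^ 6 / m ^ 2) (hsl : L2 ≤ 8100 * u ^ 4 / m ^ 2) :
    L ≤ N + 2 * sM + 1 / m * (1 / 100 * P + 10 ^ 8 * (m * u ^ 3)) := by
  have hT1 : -sT ≤ 20 * u ^ 2 := by
    have := (abs_le.1 hT).1
    linarith
  have hu3 : 0 < u ^ 3 := by positivity
  have hum1 : 10 ^ 12 * (u + 1) ≤ m := by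
    have h5 : (1000 : ℝ) ^ 4 ≤ u ^ 4 := pow_le_pow_left₀ (by norm_num) hu1 4
    have h6 : u + 1 ≤ u ^ 2 := by nlinarith
    calc 10 ^ 12 * (u + 1) ≤ u ^ 4 * u ^ 2 := by
          apply mul_le_mul _ h6 (by linarith) (by positivity)
          norm_num at h5 ⊢
          exact h5
      _ = u ^ 6 := by ring
      _ ≤ m := hum
  have hu21 : 1 ≤ u ^ 2 := by nlinarith
  have hu4m : u ^ 4 ≤ m := by
    calc u ^ 4 = u ^ 4 * 1 := by ring
      _ ≤ u ^ 4 * u ^ 2 := mul_le_mul_of_nonneg_left hu21 (by positivity)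
      _ = u ^ 6 := by ring
      _ ≤ m := hum
  have hu31 : 1 ≤ u ^ 3 := one_le_pow₀ (by linarith)
  have hu23 : u ^ 2 ≤ u ^ 3 := by
    have : u ^ 3 = u ^ 2 * u := by ring
    rw [this]
    exact le_mul_of_one_le_right (by positivity) (by linarith)
  -- the terms
  have t1 : (1 / (500 * m)) * W2 ≤ (1 / (500 * m)) * P :=
    mul_le_mul_of_nonneg_left hwP (by positivity)
  have t2 : 1000 * m * L2 ≤ 81 * 10 ^ 5 * u ^ 3 := by
    calc 1000 * m * L2 ≤ 1000 * m * (8100 * u ^ 4 / m ^ 2) :=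
          mul_le_mul_of_nonneg_left hsl (by positivity)
      _ = 81 * 10 ^ 5 * (u ^ 4 / m) := by
          field_simp
          norm_num
      _ ≤ 81 * 10 ^ 5 * u ^ 3 := by
          apply mul_le_mul_of_nonneg_left _ (by norm_num)
          have : u ^ 4 / m ≤ 1 := by
            rw [div_le_one hm]; exact hu4m
          linarith
  have t3 : 1000 * m * B2 ≤ u ^ 3 := by
    calc 1000 * m * B2 ≤ 1000 * m * (10 ^ 6 / m ^ 2) :=
          mul_le_mul_of_nonneg_left hsb2 (by positivity)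
      _ = 10 ^ 9 / m := by
          field_simp
          norm_num
      _ ≤ 1 := by
          rw [div_le_one hm]
          linarith
      _ ≤ u ^ 3 := hu31
  have t4 : 1 / u * A2 ≤ 860 * u ^ 3 := by
    calc 1 / u * A2 ≤ 1 / u * (860 * u ^ 4) :=
          mul_le_mul_of_nonneg_left hsa (by positivity)
      _ = 860 * u ^ 3 := by field_simp
  have r1 : 2 * 10 ^ 6 / m ≤ 1 := by
    rw [div_le_one hm]; linarith
  have r2 : 0 ≤ 1 / m * P := by positivity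
  have t5 : (u + 1) * (2 * B1 + 2 * B2) ≤ 1 / 500 * (1 / m * P) + 2 * u ^ 3 := by
    calc (u + 1) * (2 * B1 + 2 * B2)
        ≤ (u + 1) * (2 * (507 / m ^ 2 * P + 6 * 10 ^ 6 * u ^ 3 / m) + 2 * (10 ^ 6 / m ^ 2)) := by
          apply mul_le_mul_of_nonneg_left _ (by linarith)
          linarith
      _ = (u + 1) / m * (1014 * (1 / m * P) + 12 * 10 ^ 6 * u ^ 3 + 2 * 10 ^ 6 / m) := by
          field_simp
          ring
      _ ≤ 1 / 10 ^ 12 * (1014 * (1 / m * P) + 12 * 10 ^ 6 * u ^ 3 + 2 * 10 ^ 6 / m) := by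
          apply mul_le_mul_of_nonneg_right _ (by positivity)
          rw [div_le_div_iff₀ hm (by norm_num)]
          linarith
      _ ≤ 1 / 500 * (1 / m * P) + 2 * u ^ 3 := by
          linarith
  have t6 : 1 / m * (1 / 100 * P + 10 ^ 8 * (m * u ^ 3)) = 1 / 100 * (1 / m * P) +
      10 ^ 8 * u ^ 3 := by
    field_simp
  have t7 : 1 / (500 * m) * P = 1 / 500 * (1 / m * P) := by
    field_simp
  rw [t6]
  rw [t7] at t1
  rw [hsplit] at hsum
  linarith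

theorem cross_xi : ∃ C : ℝ, 1 ≤ C ∧ ∀ (V : Type) [DecidableEq V] (H : Finset (Finset V))
    (M T : Finset V) (κ S' m Q u D D' : ℝ), G1 κ H M m Q u D →
    GS H M (xi κ H M) κ 0 S' m Q u D D' 1 → S' * (m * (u ^ 3 * Real.sqrt u)) ≤ 20 →
    T ∈ sub H M →
    ZZ H (M \ T) (xi κ H (M \ T)) ≤ ZZ H (M \ T) (Nup H M (xi κ H M) D' T) +
      2 * ∑ y ∈ M, SN H M (xi κ H M) y * SN H M (dr κ H M m Q D D') y +
      1 / m * (1 / 100 * ZZ H M (xi κ H M) + C * (m * u ^ 3)) := by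
  refine ⟨10 ^ 8, by norm_num, ?_⟩
  intro V _ H M T κ S' m Q u D D' g gs hS' hT
  have hm := gs.m_pos
  have hu := gs.u_pos
  have hTM : T ⊆ M := (mem_sub.1 hT).2
  have hZ : 0 ≤ ZZ H M (xi κ H M) := Finset.sum_nonneg fun _ _ => sq_nonneg _
  have hwP : ∑ y ∈ M \ T, SN H M (xi κ H M) y ^ 2 ≤ ZZ H M (xi κ H M) := by
    rw [ZZ]
    exact Finset.sum_le_sum_of_subset_of_nonneg sdiff_subset fun _ _ _ => sq_nonneg _
  have hpt : ∀ y ∈ M \ T, SN H (M \ T) (xi κ H (M \ T)) y ^ 2 ≤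
      SN H (M \ T) (Nup H M (xi κ H M) D' T) y ^ 2 +
        2 * (SN H M (xi κ H M) y * SN H M (dr κ H M m Q D D') y) +
        (1 / (500 * m)) * SN H M (xi κ H M) y ^ 2 +
        1000 * m * LL H M (dr κ H M m Q D D') T y ^ 2 +
        1000 * m * (S' / D' * SN H (M \ T) (fun x => (dl H M T x : ℝ)) y) ^ 2 +
        1 / u * (SN H (M \ T) (cxv κ H M D' T) y - LL H M (xi κ H M) T y) ^ 2 +
        (u + 1) * (2 * SN H (M \ T) (dr κ H M m Q D D') y ^ 2 +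
          2 * (S' / D' * SN H (M \ T) (fun x => (dl H M T x : ℝ)) y) ^ 2) := by
    intro y hy
    have h1 : SN H (M \ T) (xi κ H (M \ T)) y = SN H (M \ T) (Nup H M (xi κ H M) D' T) y +
        (SN H (M \ T) (dr κ H M m Q D D') y +
          S' / D' * SN H (M \ T) (fun x => (dl H M T x : ℝ)) y) := by
      have h2 : SN H (M \ T) (xi κ H (M \ T)) y =
          SN H (M \ T) (fun x => Nup H M (xi κ H M) D' T x + (dr κ H M m Q D D' x +
            S' / D' * (dl H M T x : ℝ))) y := by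
        refine SN_congr (fun x hx => ?_) y
        rw [xi_next g gs hT hx]
        ring
      rw [h2, SN_add, SN_add, SN_smul]
    rw [h1]
    exact cx_pt hm hu (cx_a_eq g gs hT hy) (SN_sdiff g.lin hT hy _)
  have hsum := Finset.sum_le_sum hpt
  simp only [Finset.sum_add_distrib, ← Finset.mul_sum] at hsum
  have hsplit : ∑ y ∈ M \ T, SN H M (xi κ H M) y * SN H M (dr κ H M m Q D D') y =
      ∑ y ∈ M, SN H M (xi κ H M) y * SN H M (dr κ H M m Q D D') y -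
        ∑ y ∈ T, SN H M (xi κ H M) y * SN H M (dr κ H M m Q D D') y := by
    rw [← Finset.sum_sdiff hTM]
    ring
  exact cx_arith hm gs.m_big hu gs.hu gs.hum hZ hsum hsplit (cx_T g gs hT) hwP (cx_a g gs hT)
    (cx_b1 (T := T) g gs) (cx_b2 g gs hS' hT) (cx_l g gs hT)

end Vale.Agent.P046S
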