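import Vale.Agent.P046S.E0
import Vale.Agent.P046LF.S3

/-!
P046 sharp constant, module E6: one step for `Th` in stage I (`step_Th`, `G1.gs`, `G1.EE_le`).
-/

namespace Vale.Agent.P046S

open Finset Vale.Agent.P046 Vale.Agent.P046LF

theorem step_ThX : ∃ C : ℝ, 1 ≤ C ∧ ∀ (V : Type) [DecidableEq V] (H : Finset (Finset V))
    (M : Finset V) (κ m Q u D : ℝ), G1 κ H M m Q u D →
    ∑ T ∈ sub H M, Th H (M \ T) ≤
      Q * (Th H M * (1 - 117 / (5 * m)) + 3 / m * (C * (m * u ^ 9))) := by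
  obtain ⟨C, hC, hstep⟩ := step_Th
  refine ⟨4 * C, by linarith, ?_⟩
  intro V _ H M κ m Q u D g
  obtain ⟨S', D', gs, -, -, -⟩ := g.gs
  refine (hstep V H M (xi κ H M) κ 0 S' m Q u D D' 1 gs).trans ?_
  have hQ : 0 ≤ Q := by rw [← g.hQ]; positivity
  have hu : 0 ≤ u := le_trans (by norm_num) g.hu
  have hm0 : 0 ≤ m := by rw [← g.hm]; positivity
  refine mul_le_mul_of_nonneg_left ?_ hQ
  have h1 : u ^ 9 * EE H M (xi κ H M) D u ≤ u ^ 9 * (4 * m) :=
    mul_le_mul_of_nonneg_left g.EE_le (by positivity)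
  have h2 : C * (u ^ 9 * EE H M (xi κ H M) D u) ≤ 4 * C * (m * u ^ 9) := by
    calc _ ≤ C * (u ^ 9 * (4 * m)) := mul_le_mul_of_nonneg_left h1 (by linarith)
      _ = _ := by ring
  have h3 := mul_le_mul_of_nonneg_left h2 (by positivity : 0 ≤ 3 / m)
  linarith

end Vale.Agent.P046S
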