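import Vale.Agent.P046S.EDef
import Vale.Agent.P046LF.Weights

/-!
P046 sharp constant: helper lemmas for E7b, E7c.
-/

namespace Vale.Agent.P046S

open Finset Vale.Agent.P046 Vale.Agent.P046LF

theorem e7h_uk_nonneg (κ m : ℝ) : 0 ≤ uk κ m := Real.sqrt_nonneg _

theorem e7h_uk_pow4 {κ : ℝ} (hκ : 0 < κ) (m : ℝ) : uk κ m ^ 4 = κ * m ^ 2 := by
  unfold uk
  have h1 : 0 ≤ κ * m ^ 2 := by positivity
  have e : Real.sqrt (Real.sqrt (κ * m ^ 2)) ^ 4 = (Real.sqrt (Real.sqrt (κ * m ^ 2)) ^ 2) ^ 2 := by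
    ring
  rw [e, Real.sq_sqrt (Real.sqrt_nonneg _), Real.sq_sqrt h1]

theorem e7h_uk_eq {κ m u : ℝ} (hκ : 0 < κ) (hu : 0 ≤ u) (hu4 : u ^ 4 = κ * m ^ 2) : uk κ m = u := by
  refine (pow_left_inj₀ (e7h_uk_nonneg κ m) hu (by norm_num : (4 : ℕ) ≠ 0)).1 ?_
  rw [e7h_uk_pow4 hκ, hu4]

theorem e7h_uk_m3 {κ m u : ℝ} (hκ : 0 < κ) (hu : 0 ≤ u) (hu4 : u ^ 4 = κ * m ^ 2)
    (hm : 1000 ≤ m) : uk κ (m - 3) = u * sr m := by
  have hs := sr_pos hm
  refine e7h_uk_eq hκ (by positivity) ?_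
  rw [mul_pow, hu4, m3_eq hm]
  ring

variable {V : Type} [DecidableEq V] {H : Finset (Finset V)} {M : Finset V} {κ m Q u D : ℝ}

theorem G1.e7h_m (g : G1 κ H M m Q u D) : 10 ^ 18 ≤ m := by
  have h1 : (1000 : ℝ) ^ 6 ≤ u ^ 6 := pow_le_pow_left₀ (by norm_num) g.hu 6
  have h2 := g.hum
  norm_num at h1 ⊢
  linarith

theorem G1.e7h_mu (g : G1 κ H M m Q u D) : u ≤ m := by
  have h1 : (1 : ℝ) ≤ u := le_trans (by norm_num) g.hu
  have h2 : u ≤ u ^ 6 := le_self_pow₀ h1 (by norm_num)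
  exact h2.trans g.hum

theorem G1.e7h_uk (g : G1 κ H M m Q u D) : uk κ m = u :=
  e7h_uk_eq g.hκ (le_trans (by norm_num) g.hu) g.hu4

theorem G1.e7h_D (g : G1 κ H M m Q u D) : 9 / 10 * u ^ 4 ≤ D := by
  have hm := g.e7h_m
  have hm0 : 0 < m := by linarith
  have hκ := g.hκ
  rw [g.hD, g.hu4]
  unfold Dr
  have h1 : 9 / 10 * m ^ 2 ≤ (m - 3) * (m - 6) := by nlinarith
  have h2 := mul_le_mul_of_nonneg_left h1 hκ.le
  calc 9 / 10 * (κ * m ^ 2) = κ * (9 / 10 * m ^ 2) := by ring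
    _ ≤ κ * ((m - 3) * (m - 6)) := h2
    _ = _ := by ring

theorem G1.e7h_card (g : G1 κ H M m Q u D) {T : Finset V} (hT : T ∈ sub H M) :
    (((M \ T).card : ℕ) : ℝ) = m - 3 := by
  have h3 := card_sdiff_of_mem g.lin hT
  have : ((M \ T).card : ℝ) + 3 = M.card := by exact_mod_cast h3
  rw [← g.hm]; linarith

/-- `log ((m - 3) / μ) ≤ log (m / μ) - 3 / m` -/
theorem e7h_log {m μ : ℝ} (hm : 1000 ≤ m) (hμ : 0 < μ) :
    Real.log ((m - 3) / μ) ≤ Real.log (m / μ) - 3 / m := by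
  have hm0 : 0 < m := by linarith
  have hm3 : 0 < m - 3 := by linarith
  have e : Real.log ((m - 3) / μ) = Real.log (m / μ) + Real.log ((m - 3) / m) := by
    rw [← Real.log_mul (by positivity) (by positivity)]
    congr 1
    field_simp
  have h1 : Real.log ((m - 3) / m) ≤ (m - 3) / m - 1 := Real.log_le_sub_one_of_pos (by positivity)
  have h2 : (m - 3) / m - 1 = -(3 / m) := by field_simp; ring
  rw [e]
  linarith

end Vale.Agent.P046S
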