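import Vale.Agent.P046S.E7a
import Vale.Agent.P046S.E7h

/-!
P046 sharp constant, module E7b: one step for the quasi-randomness potential.

`step_X4`, `(m/(m-3))^4 (1 - 12/m) ≤ 1 + C/m²`, `X4 n^4/(16 m^4) ≤ 2`, `|z| ≤ u^{-5/2}`,
`1/D ≤ 2/u^4`, `(n^4/m^4) n^3 ≤ Λ^4/n ≤ Λ^4/u`, `(n^4/m^4) n^2 ∑ |ξ| ≤ n^6/(m^3 u) ≤ Λ^3/u`
(`G1.sum_abs`). Every error is at most `(1/m) C Λ^4/u`.
-/

namespace Vale.Agent.P046S

open Finset Vale.Agent.P046 Vale.Agent.P046LF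

theorem e7b_t {m u n Λ s : ℝ} (hm0 : 0 < m) (hu0 : 0 < u) (hn : u ≤ n) (hΛ : 1 ≤ Λ)
    (hnm : n ^ 2 ≤ Λ * m) (hs : u * s ≤ m) (hs0 : 0 ≤ s) :
    n ^ 4 / m ^ 4 * n ^ 3 ≤ Λ ^ 4 / u ∧ n ^ 4 / m ^ 4 * (n ^ 2 * s) ≤ Λ ^ 4 / u := by
  have hn0 : 0 < n := by linarith
  have hΛ0 : 0 < Λ := by linarith
  have hn2 : n ^ 2 / m ≤ Λ := by rw [div_le_iff₀ hm0]; exact hnm
  have hn20 : 0 ≤ n ^ 2 / m := by positivity
  have hΛ34 : Λ ^ 3 ≤ Λ ^ 4 := pow_le_pow_right₀ hΛ (by norm_num)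
  constructor
  · have e : n ^ 4 / m ^ 4 * n ^ 3 = (n ^ 2 / m) ^ 4 * (1 / n) := by field_simp
    rw [e]
    calc _ ≤ Λ ^ 4 * (1 / u) := mul_le_mul (pow_le_pow_left₀ hn20 hn2 4)
          (one_div_le_one_div_of_le hu0 hn) (by positivity) (by positivity)
      _ = _ := by ring
  · have e : n ^ 4 / m ^ 4 * (n ^ 2 * s) = (n ^ 2 / m) ^ 3 * (s / m) := by field_simp
    have h1 : s / m ≤ 1 / u := by
      rw [div_le_div_iff₀ hm0 hu0]; linarith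
    rw [e]
    calc _ ≤ Λ ^ 4 * (1 / u) := mul_le_mul ((pow_le_pow_left₀ hn20 hn2 3).trans hΛ34) h1
          (by positivity) (by positivity)
      _ = _ := by ring

theorem e7b_rho {x ρ : ℝ} (hx0 : 0 < x) (hx1 : x ≤ 1 / 1000) (hρ0 : 0 < ρ)
    (hρe : ρ * (1 - x) ^ 4 = 1) : ρ ≤ 2 ∧ ρ * (1 - 4 * x) ≤ 1 := by
  constructor
  · have h1 : (1 : ℝ) / 2 ≤ (1 - x) ^ 4 := by
      have h2 : (999 / 1000 : ℝ) ^ 4 ≤ (1 - x) ^ 4 :=
        pow_le_pow_left₀ (by norm_num) (by linarith) 4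
      refine le_trans (by norm_num) h2
    nlinarith
  · have h1 : 1 - 4 * x ≤ (1 - x) ^ 4 := by
      have : (1 - x) ^ 4 = 1 - 4 * x + x ^ 2 * (6 - 4 * x + x ^ 2) := by ring
      rw [this]
      have : 0 ≤ x ^ 2 * (6 - 4 * x + x ^ 2) := by
        apply mul_nonneg (by positivity)
        nlinarith
      linarith
    calc ρ * (1 - 4 * x) ≤ ρ * (1 - x) ^ 4 := mul_le_mul_of_nonneg_left h1 hρ0.le
      _ = 1 := hρe

theorem e7b_e1 {m u D z : ℝ} (hu : 1000 ≤ u) (hum : u ≤ m) (hD : 9 / 10 * u ^ 4 ≤ D)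
    (hz : |z| ≤ 1 / u) : |z| + 1 / D + 1 / m ≤ 3 / u := by
  have hu0 : 0 < u := by linarith
  have h1 : 1 / D ≤ 1 / u := by
    apply one_div_le_one_div_of_le hu0
    refine le_trans ?_ hD
    have h2 : u * 1000 ≤ u ^ 4 := by
      have h3 : (1000 : ℝ) ≤ u ^ 3 := le_trans (by norm_num)
        (pow_le_pow_left₀ (by norm_num) hu 3)
      calc u * 1000 ≤ u * u ^ 3 := mul_le_mul_of_nonneg_left h3 hu0.le
        _ = u ^ 4 := by ring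
    linarith
  have h2 : 1 / m ≤ 1 / u := one_div_le_one_div_of_le hu0 hum
  have e : 3 / u = 1 / u + 1 / u + 1 / u := by ring
  rw [e]; linarith

/-- comparison of the errors with the logarithm -/
theorem e7b_b5 {C m u u1 L A : ℝ} (hm0 : 0 < m) (hu0 : 0 < u) (hC : 0 ≤ C) (hL : 0 ≤ L)
    (hu1 : 0 < u1) (huu : u1 ≤ u) (hA : 500 * C * L ≤ A) :
    13 * (C * L / (m * u)) ≤ A / u1 * (3 / m) := by
  have hA0 : 0 ≤ A := le_trans (by positivity) hA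
  have h3 : A / u ≤ A / u1 := div_le_div_of_nonneg_left hA0 hu1 huu
  have h4 : 500 * (C * L / (m * u)) ≤ A / u1 * (1 / m) := by
    calc 500 * (C * L / (m * u)) = 500 * C * L / (m * u) := by ring
      _ ≤ A / (m * u) := div_le_div_of_nonneg_right hA (by positivity)
      _ = A / u * (1 / m) := by rw [mul_comm m u, ← div_div]; ring
      _ ≤ _ := mul_le_mul_of_nonneg_right h3 (by positivity)
  have h5 : 0 ≤ C * L / (m * u) := by positivity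
  have e : A / u1 * (3 / m) = 3 * (A / u1 * (1 / m)) := by ring
  rw [e]; linarith

/-- the purely numerical part -/
theorem e7b_num {C m u u1 Λ A n X D z s μ : ℝ} (hC : 1 ≤ C) (hm : 10 ^ 18 ≤ m) (hu : 1000 ≤ u)
    (hum : u ≤ m) (hD : 9 / 10 * u ^ 4 ≤ D) (hz : |z| ≤ 1 / u) (hs : u * s ≤ m) (hs0 : 0 ≤ s)
    (hn : u ≤ n) (hΛ : 1 ≤ Λ) (hnm : n ^ 2 ≤ Λ * m) (hX0 : 0 ≤ X)
    (hX : X * n ^ 4 ≤ 2 * (16 * m ^ 4)) (hu1 : 0 < u1) (huu : u1 ≤ u)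
    (hA : 500 * C * Λ ^ 4 ≤ A) :
    (X * (1 - 12 / m + C / m * (|z| + 1 / D + 1 / m)) + C / m * (n ^ 3 + n ^ 2 * s)) * n ^ 4 /
        (16 * (m - 3) ^ 4) + A / u1 * (Real.log (m / μ) - 3 / m) ≤
      X * n ^ 4 / (16 * m ^ 4) + A / u1 * Real.log (m / μ) := by
  have hm0 : 0 < m := by linarith
  have hm3 : 0 < m - 3 := by linarith
  have hu0 : 0 < u := by linarith
  have hn0 : 0 < n := by linarith
  have hD0 : 0 < D := lt_of_lt_of_le (by positivity) hD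
  -- `Y = X n^4 / (16 m^4) ≤ 2`
  obtain ⟨Y, hY⟩ : ∃ Y, Y = X * n ^ 4 / (16 * m ^ 4) := ⟨_, rfl⟩
  have hY0 : 0 ≤ Y := by rw [hY]; positivity
  have hY2 : Y ≤ 2 := by
    rw [hY, div_le_iff₀ (by positivity)]
    exact hX
  -- ratio
  obtain ⟨x, hx⟩ : ∃ x, x = 3 / m := ⟨_, rfl⟩
  have hx0 : 0 < x := by rw [hx]; positivity
  have hx1 : x ≤ 1 / 1000 := by
    rw [hx, div_le_iff₀ hm0]; linarith
  obtain ⟨ρ, hρ⟩ : ∃ ρ, ρ = (m / (m - 3)) ^ 4 := ⟨_, rfl⟩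
  have hρe : ρ * (1 - x) ^ 4 = 1 := by
    rw [hρ, hx]
    field_simp
  have hx3 : 0 < 1 - x := by linarith
  have hρ0 : 0 < ρ := by rw [hρ]; positivity
  obtain ⟨hρ2, hρ12'⟩ := e7b_rho hx0 hx1 hρ0 hρe
  have hρ12 : ρ * (1 - 12 / m) ≤ 1 := by
    have e : 12 / m = 4 * x := by rw [hx]; ring
    rw [e]; exact hρ12'
  -- error terms
  have he1 := e7b_e1 (z := z) hu hum hD hz
  have he0 : 0 ≤ |z| + 1 / D + 1 / m := by positivity
  have hΛ0 : 0 < Λ := by linarith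
  have hΛ4 : 1 ≤ Λ ^ 4 := one_le_pow₀ hΛ
  obtain ⟨t1, t2⟩ := e7b_t (m := m) (u := u) (n := n) (Λ := Λ) (s := s) hm0 hu0 hn hΛ hnm hs hs0
  -- main computation
  have e1 : (X * (1 - 12 / m + C / m * (|z| + 1 / D + 1 / m)) + C / m * (n ^ 3 + n ^ 2 * s)) *
      n ^ 4 / (16 * (m - 3) ^ 4) =
      Y * (ρ * (1 - 12 / m)) + Y * ρ * (C / m) * (|z| + 1 / D + 1 / m) +
        ρ / 16 * (C / m) * (n ^ 4 / m ^ 4 * n ^ 3 + n ^ 4 / m ^ 4 * (n ^ 2 * s)) := by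
    rw [hY, hρ]
    field_simp
    try ring
  have hCm : 0 < C / m := by positivity
  have b1 : Y * (ρ * (1 - 12 / m)) ≤ Y := by
    calc _ ≤ Y * 1 := mul_le_mul_of_nonneg_left hρ12 hY0
      _ = Y := by ring
  have b2 : Y * ρ * (C / m) * (|z| + 1 / D + 1 / m) ≤ 12 * C / (m * u) := by
    have h1 : Y * ρ ≤ 2 * 2 := mul_le_mul hY2 hρ2 hρ0.le (by norm_num)
    have h2 : Y * ρ * (C / m) ≤ 2 * 2 * (C / m) := mul_le_mul_of_nonneg_right h1 hCm.le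
    have h3 := mul_le_mul h2 he1 he0 (by positivity)
    refine h3.trans (le_of_eq ?_)
    field_simp
    norm_num
  have b3 : ρ / 16 * (C / m) * (n ^ 4 / m ^ 4 * n ^ 3 + n ^ 4 / m ^ 4 * (n ^ 2 * s)) ≤
      C * Λ ^ 4 / (m * u) := by
    have h1 : ρ / 16 * (C / m) ≤ 1 / 8 * (C / m) := by
      apply mul_le_mul_of_nonneg_right _ hCm.le
      linarith
    have h2 : n ^ 4 / m ^ 4 * n ^ 3 + n ^ 4 / m ^ 4 * (n ^ 2 * s) ≤ 2 * (Λ ^ 4 / u) := by linarith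
    have h3 := mul_le_mul h1 h2 (by positivity) (by positivity)
    refine h3.trans ?_
    have e : 1 / 8 * (C / m) * (2 * (Λ ^ 4 / u)) = 1 / 4 * (C * Λ ^ 4 / (m * u)) := by
      field_simp; norm_num
    rw [e]
    have : 0 ≤ C * Λ ^ 4 / (m * u) := by positivity
    linarith
  have b4 : 12 * C / (m * u) ≤ 12 * (C * Λ ^ 4 / (m * u)) := by
    have : C ≤ C * Λ ^ 4 := by nlinarith
    have h1 := div_le_div_of_nonneg_right this (by positivity : 0 ≤ m * u)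
    calc 12 * C / (m * u) = 12 * (C / (m * u)) := by ring
      _ ≤ _ := by linarith
  have b5 := e7b_b5 (C := C) (m := m) (u := u) (u1 := u1) (L := Λ ^ 4) (A := A) hm0 hu0
    (by linarith) (by positivity) hu1 huu hA
  rw [e1, mul_sub, ← hY]
  linarith

theorem P4_step : ∃ C : ℝ, 1 ≤ C ∧ ∀ (n : ℕ) (M : Finset (Sym2 (Fin n)))
    (κ m Q u D μ u1 A Λ : ℝ), G1 κ (Hn n) M m Q u D → M ⊆ EF (⊤ : SimpleGraph (Fin n)) →
    0 < μ → μ ≤ m → 0 < u1 → u1 ≤ u → u ≤ n → 1 ≤ Λ → (n : ℝ) ^ 2 ≤ Λ * m →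
    X4 M * (n : ℝ) ^ 4 ≤ 2 * (16 * m ^ 4) → C * Λ ^ 4 ≤ A →
    ∑ T ∈ sub (Hn n) M, P4p μ u1 A (M \ T) ≤ Q * P4p μ u1 A M := by
  obtain ⟨C, hC, hstep⟩ := step_X4
  refine ⟨500 * C, by linarith, ?_⟩
  intro n M κ m Q u D μ u1 A Λ g hM hμ hμm hu1 huu hun hΛ hnm hX hA
  have hm := g.e7h_m
  have hm0 : 0 < m := by linarith
  have hm3 : 0 < m - 3 := by linarith
  have hu := g.hu
  have hu0 : 0 < u := by linarith
  have hD := g.e7h_D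
  have hQ : 0 ≤ Q := by rw [← g.hQ]; positivity
  have hz : |zq κ (Hn n) M| ≤ 1 / u := by
    have h1 := g.hz
    have h2 : zq κ (Hn n) M ^ 2 ≤ (1 / u) ^ 2 := by
      rw [div_pow, one_pow, le_div_iff₀ (by positivity)]
      have h3 : zq κ (Hn n) M ^ 2 * u ^ 2 ≤ zq κ (Hn n) M ^ 2 * u ^ 5 :=
        mul_le_mul_of_nonneg_left (pow_le_pow_right₀ (by linarith) (by norm_num)) (sq_nonneg _)
      linarith
    exact abs_le_of_sq_le_sq h2 (by positivity)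
  have hz8 : |zq κ (Hn n) M| ≤ 1 / 8 := by
    refine hz.trans ?_
    rw [div_le_div_iff₀ hu0 (by norm_num)]
    linarith
  have hDr : 1000 ≤ Dr κ M.card 0 := by
    rw [g.hm, ← g.hD]
    refine le_trans ?_ hD
    have h3 : (1000 : ℝ) ^ 4 ≤ u ^ 4 := pow_le_pow_left₀ (by norm_num) hu 4
    norm_num at h3
    linarith
  have hs := hstep n M κ hM g.hκ (by rw [g.hm]; linarith) hDr hz8
  rw [g.hm, ← g.hD, g.hQ] at hs
  have hlog := e7h_log (m := m) (μ := μ) (by linarith) hμ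
  have hA0 : 0 ≤ A / u1 := by
    have : 0 ≤ A := le_trans (by positivity) hA
    positivity
  have e1 : ∀ T ∈ sub (Hn n) M, P4p μ u1 A (M \ T) =
      (n : ℝ) ^ 4 / (16 * (m - 3) ^ 4) * X4 (M \ T) +
        (A / u1 * Real.log ((m - 3) / μ) - 1) := by
    intro T hT
    unfold P4p
    rw [g.e7h_card hT]
    ring
  rw [sum_congr rfl e1, sum_add_distrib, ← mul_sum, sum_const, nsmul_eq_mul, g.hQ]
  have h1 := mul_le_mul_of_nonneg_left hs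
    (by positivity : 0 ≤ (n : ℝ) ^ 4 / (16 * (m - 3) ^ 4))
  have hsum : u * ∑ x ∈ M, |xi κ (Hn n) M x| ≤ m := g.sum_abs
  have hs0 : 0 ≤ ∑ x ∈ M, |xi κ (Hn n) M x| := Finset.sum_nonneg fun x _ => abs_nonneg _
  have hX0 : 0 ≤ X4 M := by
    unfold X4
    exact Finset.sum_nonneg fun a _ => Finset.sum_nonneg fun b _ => sq_nonneg _
  have hnum := e7b_num (C := C) (m := m) (u := u) (u1 := u1) (Λ := Λ) (A := A) (n := n)
    (X := X4 M) (D := D) (z := zq κ (Hn n) M) (s := ∑ x ∈ M, |xi κ (Hn n) M x|)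
    (μ := μ) hC hm hu g.e7h_mu hD hz hsum hs0 hun hΛ hnm hX0 hX hu1 huu hA
  have h2 := mul_le_mul_of_nonneg_left hnum hQ
  have h3 : Q * (A / u1 * Real.log ((m - 3) / μ)) ≤
      Q * (A / u1 * (Real.log (m / μ) - 3 / m)) :=
    mul_le_mul_of_nonneg_left (mul_le_mul_of_nonneg_left hlog hA0) hQ
  have e2 : Q * P4p μ u1 A M = Q * (X4 M * (n : ℝ) ^ 4 / (16 * m ^ 4) +
      A / u1 * Real.log (m / μ)) - Q := by
    unfold P4p
    rw [g.hm]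
    ring
  rw [e2]
  have e3 : (n : ℝ) ^ 4 / (16 * (m - 3) ^ 4) * (Q * (X4 M * (1 - 12 / m + C / m *
      (|zq κ (Hn n) M| + 1 / D + 1 / m)) +
        C / m * ((n : ℝ) ^ 3 + (n : ℝ) ^ 2 * ∑ x ∈ M, |xi κ (Hn n) M x|))) =
      Q * ((X4 M * (1 - 12 / m + C / m * (|zq κ (Hn n) M| + 1 / D + 1 / m)) +
        C / m * ((n : ℝ) ^ 3 + (n : ℝ) ^ 2 * ∑ x ∈ M, |xi κ (Hn n) M x|)) * (n : ℝ) ^ 4 /
        (16 * (m - 3) ^ 4)) := by ring
  rw [e3] at h1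
  have e4 : Q * (A / u1 * Real.log ((m - 3) / μ) - 1) =
    Q * (A / u1 * Real.log ((m - 3) / μ)) - Q := by ring
  rw [e4]
  rw [mul_add] at h2
  linarith

end Vale.Agent.P046S
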