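import Vale.Agent.P046S.E7a
import Vale.Agent.P046S.E7h

/-!
P046 sharp constant, module E7c: one step for the potential of `ZZ` and `Th`.

Weights `wZ = 1/(m u^4 √(m/R))` (`∝ m^{-7/2}`) and `wT = 1/(m u^12 √(m/R))` (`∝ m^{-15/2}`):
`wZ (m-3) (1 - 87/(8m)) ≤ wZ m (1 - 3/(10 m))`, `wT (m-3) (1 - 117/(5m)) ≤ wT m (1 - 4/(5m))`
(use `sr7`, `sr15` from Weights.lean or Bernoulli), `wZ Th/u^8 = wT Th`, `B = 5 C`,
`wZ m u^3 = 1/(u √(m/R)) ≤ Λ/u1`.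
-/

namespace Vale.Agent.P046S

open Finset Vale.Agent.P046 Vale.Agent.P046LF

theorem e7c_sr7 {m : ℝ} (hm : 1000 ≤ m) : 1 - 87 / (8 * m) ≤ sr m ^ 7 := by
  have h1 := sr_pos hm
  have h2 := sr_sq hm
  have h3 := sr_ge hm
  obtain ⟨h0, h4⟩ := x_bounds hm
  have e : sr m ^ 7 = (sr m ^ 2) ^ 3 * sr m := by ring
  have e2 : 87 / (8 * m) = 29 / 8 * (3 / m) := by field_simp; norm_num
  rw [e, h2, e2]
  generalize 3 / m = x at *
  have h5 : 0 ≤ (1 - x) ^ 3 := by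
    apply pow_nonneg; linarith
  refine le_trans ?_ (mul_le_mul_of_nonneg_left h3 h5)
  have e3 : (1 - x) ^ 3 * (1 - x / 2 - x ^ 2 / 2) =
    1 - 7 / 2 * x + x ^ 2 * (4 - x) - x ^ 4 + x ^ 5 / 2 := by ring
  rw [e3]
  have h6 : 0 ≤ x ^ 2 * (4 - x) := mul_nonneg (by positivity) (by linarith)
  have h7 : x ^ 4 ≤ x * (1 / 8) := by
    have : x ^ 3 ≤ 1 / 8 := by
      have h8 : x ^ 3 ≤ (3 / 1000 : ℝ) ^ 3 := pow_le_pow_left₀ h0.le h4 3
      refine h8.trans (by norm_num)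
    calc x ^ 4 = x * x ^ 3 := by ring
      _ ≤ _ := mul_le_mul_of_nonneg_left this h0.le
  have h8 : 0 ≤ x ^ 5 / 2 := by positivity
  linarith

theorem e7c_half {m : ℝ} (hm : 1000 ≤ m) : 1 / 2 ≤ sr m ^ 15 := by
  obtain ⟨h0, h4⟩ := x_bounds hm
  have h3 := sr_ge hm
  have h5 : (99 / 100 : ℝ) ≤ sr m := by
    refine le_trans ?_ h3
    nlinarith
  refine le_trans ?_ (pow_le_pow_left₀ (by norm_num) h5 15)
  norm_num

/-- numerical part -/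
theorem e7c_num {m u s r Z Θ C1 C2 : ℝ} (hm : 1000 ≤ m) (hu : 0 < u) (hs : 0 < s)
    (hr : r = sr m) (hZ : 0 ≤ Z) (hΘ : 0 ≤ Θ) (hC1 : 1 ≤ C1) (hC2 : 1 ≤ C2) :
    (Z * (1 - 87 / (8 * m)) + 3 / m * (C1 * (Θ / u ^ 8 + m * u ^ 3))) /
        ((m - 3) * (u * r) ^ 4 * (r * s)) +
      16 * C1 * ((Θ * (1 - 117 / (5 * m)) + 3 / m * (C2 * (m * u ^ 9))) /
        ((m - 3) * (u * r) ^ 12 * (r * s))) ≤
      Z / (m * u ^ 4 * s) + 16 * C1 * (Θ / (m * u ^ 12 * s)) +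
        3 / m * (2 * C1 / (u * s) + 32 * C1 * (C2 / (u ^ 3 * s))) := by
  have hm0 : 0 < m := by linarith
  have hr0 : 0 < r := by rw [hr]; exact sr_pos hm
  have hr1 : r ≤ 1 := by rw [hr]; exact sr_le_one hm
  have h7 : 1 - 87 / (8 * m) ≤ r ^ 7 := by rw [hr]; exact e7c_sr7 hm
  have h15 : 1 - 117 / (5 * m) ≤ (1 - 3 / m / 8) * r ^ 15 := by rw [hr]; exact sr15 hm
  have hh15 : 1 / 2 ≤ r ^ 15 := by rw [hr]; exact e7c_half hm
  have hh7 : 1 / 2 ≤ r ^ 7 := hh15.trans (pow_le_pow_of_le_one hr0.le hr1 (by norm_num))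
  rw [m3_eq hm, ← hr]
  obtain ⟨wZ, hwZ⟩ : ∃ wZ, wZ = 1 / (m * u ^ 4 * s) := ⟨_, rfl⟩
  obtain ⟨wT, hwT⟩ : ∃ wT, wT = 1 / (m * u ^ 12 * s) := ⟨_, rfl⟩
  have hwZ0 : 0 < wZ := by rw [hwZ]; positivity
  have hwT0 : 0 < wT := by rw [hwT]; positivity
  have k1 : (1 - 87 / (8 * m)) / r ^ 7 ≤ 1 := by
    rw [div_le_one (by positivity)]; exact h7
  have k2 : (1 - 117 / (5 * m)) / r ^ 15 ≤ 1 - 3 / m / 8 := by
    rw [div_le_iff₀ (by positivity)]; exact h15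
  have k3 : 1 / r ^ 7 ≤ 2 := by
    rw [div_le_iff₀ (by positivity)]; linarith
  have k4 : 1 / r ^ 15 ≤ 2 := by
    rw [div_le_iff₀ (by positivity)]; linarith
  have e1 : (Z * (1 - 87 / (8 * m)) + 3 / m * (C1 * (Θ / u ^ 8 + m * u ^ 3))) /
        (m * r ^ 2 * (u * r) ^ 4 * (r * s)) =
      wZ * Z * ((1 - 87 / (8 * m)) / r ^ 7) +
        3 / m * (C1 * (wT * Θ + 1 / (u * s))) * (1 / r ^ 7) := by
    rw [hwZ, hwT]
    generalize 1 - 87 / (8 * m) = a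
    field_simp
  have e2 : (Θ * (1 - 117 / (5 * m)) + 3 / m * (C2 * (m * u ^ 9))) /
        (m * r ^ 2 * (u * r) ^ 12 * (r * s)) =
      wT * Θ * ((1 - 117 / (5 * m)) / r ^ 15) + 3 / m * (C2 / (u ^ 3 * s)) * (1 / r ^ 15) := by
    rw [hwT]
    generalize 1 - 117 / (5 * m) = a
    field_simp
  rw [e1, e2]
  have b1 : wZ * Z * ((1 - 87 / (8 * m)) / r ^ 7) ≤ wZ * Z * 1 :=
    mul_le_mul_of_nonneg_left k1 (by positivity)
  have b2 : 3 / m * (C1 * (wT * Θ + 1 / (u * s))) * (1 / r ^ 7) ≤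
      3 / m * (C1 * (wT * Θ + 1 / (u * s))) * 2 := mul_le_mul_of_nonneg_left k3 (by positivity)
  have b3 : wT * Θ * ((1 - 117 / (5 * m)) / r ^ 15) ≤ wT * Θ * (1 - 3 / m / 8) :=
    mul_le_mul_of_nonneg_left k2 (by positivity)
  have b4 : 3 / m * (C2 / (u ^ 3 * s)) * (1 / r ^ 15) ≤ 3 / m * (C2 / (u ^ 3 * s)) * 2 :=
    mul_le_mul_of_nonneg_left k4 (by positivity)
  have b5 := mul_le_mul_of_nonneg_left (add_le_add b3 b4) (by linarith : 0 ≤ 16 * C1)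
  have e3 : Z / (m * u ^ 4 * s) = wZ * Z := by rw [hwZ]; ring
  have e4 : Θ / (m * u ^ 12 * s) = wT * Θ := by rw [hwT]; ring
  rw [e3, e4]
  have e5 : 3 / m * (C1 * (wT * Θ + 1 / (u * s))) * 2 +
      16 * C1 * (wT * Θ * (1 - 3 / m / 8) + 3 / m * (C2 / (u ^ 3 * s)) * 2) =
      16 * C1 * (wT * Θ) + 3 / m * (2 * C1 / (u * s) + 32 * C1 * (C2 / (u ^ 3 * s))) := by ring
  linarith

theorem PZ_step : ∃ C B : ℝ, 1 ≤ C ∧ 1 ≤ B ∧ ∀ (V : Type) [DecidableEq V]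
    (H : Finset (Finset V)) (M : Finset V) (κ m Q u D μ u1 A R Λ : ℝ), G1 κ H M m Q u D →
    QF H M (D / 100) → 0 < μ → μ ≤ m → 0 < u1 → u1 ≤ u → 0 < R → 1 ≤ Λ → R ≤ Λ ^ 2 * (m - 3) →
    C * Λ ≤ A → ∑ T ∈ sub H M, PZp κ μ u1 A B R H (M \ T) ≤ Q * PZp κ μ u1 A B R H M := by
  obtain ⟨C1, hC1, hZstep⟩ := step_ZX
  obtain ⟨C2, hC2, hTstep⟩ := step_ThX
  refine ⟨2 * C1 + 32 * C1 * C2, 16 * C1, by nlinarith, by linarith, ?_⟩
  intro V _ H M κ m Q u D μ u1 A R Λ g hQF hμ hμm hu1 huu hR hΛ hRm hA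
  have hm18 := g.e7h_m
  have hm : 1000 ≤ m := by linarith
  have hm0 : 0 < m := by linarith
  have hm3 : 0 < m - 3 := by linarith
  have hu0 : 0 < u := by have := g.hu; linarith
  have hu1' : 1 ≤ u := by have := g.hu; linarith
  have hQ : 0 ≤ Q := by rw [← g.hQ]; positivity
  have h1 := hZstep V H M κ m Q u D g hQF
  have h2 := hTstep V H M κ m Q u D g
  have hlog := e7h_log (m := m) (μ := μ) hm hμ
  have hΛ0 : 0 < Λ := by linarith
  have hA0 : 0 ≤ A := le_trans (by positivity) hA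
  have huk3 := e7h_uk_m3 g.hκ hu0.le g.hu4 hm
  obtain ⟨s, hs⟩ : ∃ s, s = Real.sqrt (m / R) := ⟨_, rfl⟩
  have hs0 : 0 < s := by rw [hs]; positivity
  obtain ⟨r, hr⟩ : ∃ r, r = sr m := ⟨_, rfl⟩
  have hr0 : 0 < r := by rw [hr]; exact sr_pos hm
  have hs3 : Real.sqrt ((m - 3) / R) = r * s := by rw [sqrt_m3 hm, ← hr, ← hs]
  have hsΛ : 1 / s ≤ Λ := by
    rw [div_le_iff₀ hs0]
    have h3 : 1 ≤ (Λ * s) ^ 2 := by
      rw [mul_pow, hs, Real.sq_sqrt (by positivity), ← mul_div_assoc, le_div_iff₀ hR]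
      nlinarith
    nlinarith [mul_pos hΛ0 hs0]
  have e1 : ∀ T ∈ sub H M, PZp κ μ u1 A (16 * C1) R H (M \ T) =
      ZZ H (M \ T) (xi κ H (M \ T)) / ((m - 3) * (u * r) ^ 4 * (r * s)) +
        16 * C1 * (Th H (M \ T) / ((m - 3) * (u * r) ^ 12 * (r * s))) +
        A / u1 * Real.log ((m - 3) / μ) := by
    intro T hT
    unfold PZp
    rw [g.e7h_card hT, huk3, hs3, ← hr]
  rw [sum_congr rfl e1, sum_add_distrib, sum_add_distrib, ← sum_div, ← mul_sum, ← sum_div,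
    sum_const, nsmul_eq_mul, g.hQ]
  have hd4 : 0 < (m - 3) * (u * r) ^ 4 * (r * s) := by positivity
  have hd12 : 0 < (m - 3) * (u * r) ^ 12 * (r * s) := by positivity
  have i1 := div_le_div_of_nonneg_right h1 hd4.le
  have i2 := mul_le_mul_of_nonneg_left (div_le_div_of_nonneg_right h2 hd12.le)
    (by linarith : 0 ≤ 16 * C1)
  have i3 : Q * (A / u1 * Real.log ((m - 3) / μ)) ≤
      Q * (A / u1 * (Real.log (m / μ) - 3 / m)) :=
    mul_le_mul_of_nonneg_left (mul_le_mul_of_nonneg_left hlog (by positivity)) hQ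
  have hZn : 0 ≤ ZZ H M (xi κ H M) := ZZ_nonneg
  have hTn : 0 ≤ Th H M := Th_nonneg
  have hnum := e7c_num (m := m) (u := u) (s := s) (r := r) (Z := ZZ H M (xi κ H M))
    (Θ := Th H M) (C1 := C1) (C2 := C2) hm hu0 hs0 hr hZn hTn hC1 hC2
  have i4 := mul_le_mul_of_nonneg_left hnum hQ
  -- comparison of the error with the logarithm
  have hus : 1 / (u * s) ≤ Λ / u1 := by
    rw [one_div, mul_inv, ← one_div, ← one_div, div_eq_mul_one_div Λ u1, mul_comm]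
    exact mul_le_mul hsΛ (one_div_le_one_div_of_le hu1 huu) (by positivity) hΛ0.le
  have hu3s : 1 / (u ^ 3 * s) ≤ Λ / u1 := by
    refine le_trans ?_ hus
    apply one_div_le_one_div_of_le (by positivity)
    apply mul_le_mul_of_nonneg_right _ hs0.le
    exact le_self_pow₀ hu1' (by norm_num)
  have i5 : 3 / m * (2 * C1 / (u * s) + 32 * C1 * (C2 / (u ^ 3 * s))) ≤ A / u1 * (3 / m) := by
    have j1 : 2 * C1 / (u * s) ≤ 2 * C1 * (Λ / u1) := by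
      calc 2 * C1 / (u * s) = 2 * C1 * (1 / (u * s)) := by ring
        _ ≤ _ := mul_le_mul_of_nonneg_left hus (by linarith)
    have j2 : 32 * C1 * (C2 / (u ^ 3 * s)) ≤ 32 * C1 * C2 * (Λ / u1) := by
      calc 32 * C1 * (C2 / (u ^ 3 * s)) = 32 * C1 * C2 * (1 / (u ^ 3 * s)) := by ring
        _ ≤ _ := mul_le_mul_of_nonneg_left hu3s (by positivity)
    have j3 : (2 * C1 + 32 * C1 * C2) * Λ / u1 ≤ A / u1 := div_le_div_of_nonneg_right hA hu1.le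
    have j4 : 2 * C1 / (u * s) + 32 * C1 * (C2 / (u ^ 3 * s)) ≤ A / u1 := by
      refine le_trans ?_ j3
      calc _ ≤ 2 * C1 * (Λ / u1) + 32 * C1 * C2 * (Λ / u1) := add_le_add j1 j2
        _ = _ := by ring
    calc _ ≤ 3 / m * (A / u1) := mul_le_mul_of_nonneg_left j4 (by positivity)
      _ = _ := by ring
  have i6 := mul_le_mul_of_nonneg_left i5 hQ
  have e2 : Q * PZp κ μ u1 A (16 * C1) R H M = Q * (ZZ H M (xi κ H M) / (m * u ^ 4 * s) +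
      16 * C1 * (Th H M / (m * u ^ 12 * s))) + Q * (A / u1 * Real.log (m / μ)) := by
    unfold PZp
    rw [g.hm, g.e7h_uk, ← hs]
    ring
  rw [e2]
  rw [mul_div_assoc] at i1
  have e3 : 16 * C1 * (Q * (Th H M * (1 - 117 / (5 * m)) + 3 / m * (C2 * (m * u ^ 9))) /
      ((m - 3) * (u * r) ^ 12 * (r * s))) =
      Q * (16 * C1 * ((Th H M * (1 - 117 / (5 * m)) + 3 / m * (C2 * (m * u ^ 9))) /
        ((m - 3) * (u * r) ^ 12 * (r * s)))) := by ring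
  rw [e3] at i2
  have e4 : Q * (A / u1 * (Real.log (m / μ) - 3 / m)) =
    Q * (A / u1 * Real.log (m / μ)) - Q * (A / u1 * (3 / m)) := by ring
  rw [e4] at i3
  clear e3 e4 e2 e1 hnum h1 h2 i5
  generalize (ZZ H M (xi κ H M) * (1 - 87 / (8 * m)) + 3 / m * (C1 * (Th H M / u ^ 8 + m * u ^ 3))) /
    ((m - 3) * (u * r) ^ 4 * (r * s)) = x1 at *
  generalize 16 * C1 * ((Th H M * (1 - 117 / (5 * m)) + 3 / m * (C2 * (m * u ^ 9))) /
    ((m - 3) * (u * r) ^ 12 * (r * s))) = x2 at *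
  generalize 3 / m * (2 * C1 / (u * s) + 32 * C1 * (C2 / (u ^ 3 * s))) = x3 at *
  rw [mul_add, mul_add Q _ x3] at i4
  linarith

end Vale.Agent.P046S
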