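import Vale.Agent.P046S.E0
import Vale.Agent.P046S.E5b

/-!
P046 sharp constant, module E8: restart at the end of stage I.

`κ1 = κ (1 + z)`, `z = zq`, so `Qh κ1 m = Q`, `Dr κ1 m 0 = 3 Q / m`; `N = deg / Dr κ1 m 0 - 1 =
(ξ - z)/(1 + z)`, `S = 0`. `WW = 0` (`ff 1 = 0`), `TT = 0`, `XX = 0` (`θ ≤ 5/4`), `q = 0`,
`uk κ1 m = (1 + z)^{1/4} u`, `N^8 ≤ 2^10 (ξ^8 + z^8)`, `m z^8 ≤ X8`,
`ZZ N ≤ 3 (ZZ ξ + z² ZZ 1)`, `ZZ 1 = 4 ∑ deg² ≤ 6 m D²`, `z² ≤ u^{-5}`.
-/

namespace Vale.Agent.P046S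

open Finset Vale.Agent.P046 Vale.Agent.P046LF

variable {V : Type} [DecidableEq V] {H : Finset (Finset V)} {M : Finset V}
  {κ m Q u D : ℝ}

/-- the eighth power of the mean -/
theorem e8_mean (g : G1 κ H M m Q u D) (hm : 0 < m) : m * zq κ H M ^ 8 ≤ X8 κ H M := by
  have h1 := g.zq_mean
  have h2 : ∑ _x ∈ M, (1 / m) = 1 := by
    rw [Finset.sum_const, nsmul_eq_mul, g.hm]
    field_simp
  have h3 := Real.pow_arith_mean_le_arith_mean_pow_of_even M (fun _ => 1 / m) (fun x => xi κ H M x)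
    (fun _ _ => by positivity) h2 (n := 8) (by decide)
  simp only [← Finset.mul_sum] at h3
  rw [← h1] at h3
  have h4 : 1 / m * (m * zq κ H M) = zq κ H M := by field_simp
  rw [h4] at h3
  have h5 := mul_le_mul_of_nonneg_left h3 hm.le
  unfold X8
  refine h5.trans (le_of_eq ?_)
  field_simp

theorem e8_uk {a b : ℝ} (ha : 0 ≤ a) : uk a b ^ 4 = a * b ^ 2 ∧ 0 ≤ uk a b := by
  unfold uk
  refine ⟨?_, Real.sqrt_nonneg _⟩
  have h1 : 0 ≤ a * b ^ 2 := by positivity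
  have h2 : Real.sqrt (Real.sqrt (a * b ^ 2)) ^ 4 =
      (Real.sqrt (Real.sqrt (a * b ^ 2)) ^ 2) ^ 2 := by ring
  rw [h2, Real.sq_sqrt (Real.sqrt_nonneg _), Real.sq_sqrt h1]

theorem e8_pow8 (a b : ℝ) : (a - b) ^ 8 ≤ 2 ^ 7 * (a ^ 8 + b ^ 8) := by
  have h1 : (a - b) ^ 8 = |a - b| ^ 8 := ((by decide : Even 8).pow_abs _).symm
  have h2 : a ^ 8 = |a| ^ 8 := ((by decide : Even 8).pow_abs _).symm
  have h3 : b ^ 8 = |b| ^ 8 := ((by decide : Even 8).pow_abs _).symm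
  rw [h1, h2, h3]
  have h4 : |a - b| ≤ |a| + |b| := abs_sub _ _
  refine (pow_le_pow_left₀ (abs_nonneg _) h4 8).trans ?_
  exact add_pow_le (abs_nonneg a) (abs_nonneg b) 8

/-- the new auxiliary function -/
noncomputable def e8_N (κ : ℝ) (H : Finset (Finset V)) (M : Finset V) : V → ℝ :=
  fun x => 1 / (1 + zq κ H M) * (xi κ H M x + -zq κ H M * 1)

theorem e8_ZZ (g : G1 κ H M m Q u D) (hz : |zq κ H M| ≤ 1 / 1000) (hD0 : 0 < D) (hD : D ≤ u ^ 4) :
    ZZ H M (e8_N κ H M) ≤ 3 * (ZZ H M (xi κ H M) + 6 * (m * u ^ 8 * zq κ H M ^ 2)) := by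
  set z := zq κ H M with hzdef
  have hz' := abs_le.1 hz
  have hc : (1 / (1 + z)) ^ 2 ≤ 101 / 100 := by
    have hp : 0 < (1 + z) ^ 2 := pow_pos (by linarith [hz'.1]) 2
    rw [div_pow, one_pow, div_le_div_iff₀ hp (by norm_num)]
    nlinarith [hz'.1, hz'.2]
  have h1 : ∀ y, SN H M (e8_N κ H M) y =
      1 / (1 + z) * (SN H M (xi κ H M) y + -z * (2 * deg H M y)) := by
    intro y
    have e1 : e8_N κ H M = fun x => 1 / (1 + z) * ((fun x => xi κ H M x + (fun _ => -z * 1) x) x) :=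
      rfl
    rw [e1, SN_smul, SN_add, SN_smul (-z) (fun _ => (1 : ℝ)), SN_one g.lin]
  unfold ZZ
  have h2 : ∀ y ∈ M, SN H M (e8_N κ H M) y ^ 2 ≤
      101 / 100 * (2 * SN H M (xi κ H M) y ^ 2 + 2 * (z ^ 2 * (4 * ((9 / 8 * D) ^ 2)))) := by
    intro y hy
    rw [h1 y, mul_pow]
    have hd : (deg H M y : ℝ) ≤ 9 / 8 * D := by
      rw [g.deg_eq hy]
      have := (abs_lt.1 (g.hξ y hy)).2
      nlinarith
    have hd0 : (0 : ℝ) ≤ deg H M y := Nat.cast_nonneg _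
    have hd2 : (deg H M y : ℝ) ^ 2 ≤ (9 / 8 * D) ^ 2 := pow_le_pow_left₀ hd0 hd 2
    have h3 : (SN H M (xi κ H M) y + -z * (2 * deg H M y)) ^ 2 ≤
        2 * SN H M (xi κ H M) y ^ 2 + 2 * (z ^ 2 * (4 * (deg H M y : ℝ) ^ 2)) := by
      nlinarith [sq_nonneg (SN H M (xi κ H M) y - -z * (2 * deg H M y))]
    have h4 : z ^ 2 * (4 * (deg H M y : ℝ) ^ 2) ≤ z ^ 2 * (4 * (9 / 8 * D) ^ 2) := by
      apply mul_le_mul_of_nonneg_left _ (sq_nonneg z)
      linarith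
    refine mul_le_mul hc (h3.trans (by linarith)) (sq_nonneg _) (by norm_num)
  refine (Finset.sum_le_sum h2).trans ?_
  rw [← Finset.mul_sum, Finset.sum_add_distrib, ← Finset.mul_sum, Finset.sum_const, nsmul_eq_mul,
    g.hm]
  have h5 : 0 ≤ ∑ y ∈ M, SN H M (xi κ H M) y ^ 2 := Finset.sum_nonneg fun _ _ => sq_nonneg _
  have h6 : D ^ 2 ≤ u ^ 8 := by
    have := pow_le_pow_left₀ hD0.le hD 2
    rw [← pow_mul] at this
    exact this
  have hm : 0 ≤ m := by rw [← g.hm]; exact Nat.cast_nonneg _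
  have h7 : m * (z ^ 2 * D ^ 2) ≤ m * (z ^ 2 * u ^ 8) :=
    mul_le_mul_of_nonneg_left (mul_le_mul_of_nonneg_left h6 (sq_nonneg z)) hm
  have h8 : 0 ≤ m * (z ^ 2 * u ^ 8) := by positivity
  nlinarith

theorem restart (δ : ℝ) (hδ : 0 < δ) : ∃ δ' : ℝ, 0 < δ' ∧ ∃ u0 : ℝ, 1000 ≤ u0 ∧
    ∀ (V : Type) [DecidableEq V] (H : Finset (Finset V)) (M : Finset V) (κ m Q u D : ℝ),
    G1 κ H M m Q u D → u0 ≤ u → u ^ 15 * X8 κ H M ≤ δ' * m →
    ZZ H M (xi κ H M) ≤ δ' * (m * u ^ 4) → Th H M ≤ δ' * (m * u ^ 12) →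
    0 < κ * (1 + zq κ H M) ∧ |zq κ H M| ≤ δ ∧
      GoodE (κ * (1 + zq κ H M)) δ δ H M := by
  refine ⟨δ / 2 ^ 25, by positivity, 1000 + 144 / δ + 1 / δ ^ 2, ?_, ?_⟩
  · have h1 : 0 < 144 / δ := by positivity
    have h2 : 0 < 1 / δ ^ 2 := by positivity
    linarith
  intro V _ H M κ m Q u D g hu0 hX hZ hTh
  obtain ⟨S', D', gs, -, -, -⟩ := g.gs
  have hm18 := gs.m_big
  have hm0 : 0 < m := gs.m_pos
  have hD0 := gs.D_pos
  have hDu := gs.D_hi
  have hu := g.hu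
  have hupos : 0 < u := by linarith
  have hκ := g.hκ
  have hu1 : 144 / δ ≤ u := by
    have : 0 < 1 / δ ^ 2 := by positivity
    linarith
  have hu2 : 1 / δ ^ 2 ≤ u := by
    have : 0 < 144 / δ := by positivity
    linarith
  set z := zq κ H M with hzdef
  -- bounds for `z`
  have hz5 : z ^ 2 ≤ 1 / u ^ 5 := by
    rw [le_div_iff₀ (by positivity)]
    linarith [g.hz]
  have hz1 : |z| ≤ 1 / 1000 := by
    apply abs_le_of_sq_le_sq _ (by norm_num)
    refine hz5.trans ?_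
    rw [div_pow, one_pow]
    apply div_le_div_of_nonneg_left (by norm_num) (by norm_num)
    calc (1000 : ℝ) ^ 2 ≤ 1000 ^ 5 := by norm_num
      _ ≤ u ^ 5 := pow_le_pow_left₀ (by norm_num) hu 5
  have hzδ : |z| ≤ δ := by
    apply abs_le_of_sq_le_sq _ hδ.le
    refine hz5.trans ?_
    rw [div_le_iff₀ (by positivity)]
    have h1 : u ≤ u ^ 5 := by
      calc u = u * 1 := (mul_one u).symm
        _ ≤ u * u ^ 4 := mul_le_mul_of_nonneg_left (one_le_pow₀ (by linarith)) hupos.le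
        _ = u ^ 5 := by ring
    have h2 : 1 ≤ δ ^ 2 * u := by
      rw [div_le_iff₀ (by positivity)] at hu2
      linarith
    nlinarith [sq_nonneg δ]
  have hz' := abs_le.1 hz1
  have hz1p : 0 < 1 + z := by linarith
  have hκ1 : 0 < κ * (1 + z) := by positivity
  refine ⟨hκ1, hzδ, e8_N κ H M, 0, ?_⟩
  -- `uk`
  obtain ⟨ha4, ha0⟩ := e8_uk (a := κ * (1 + z)) (b := (M.card : ℝ)) hκ1.le
  set a := uk (κ * (1 + z)) (M.card : ℝ) with hadef
  have ha4' : a ^ 4 = (1 + z) * u ^ 4 := by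
    rw [ha4, g.hm, g.hu4]; ring
  have hu4 : 0 < u ^ 4 := by positivity
  have ha4lo : u ^ 4 / 2 ≤ a ^ 4 := by rw [ha4']; nlinarith
  have ha4hi : a ^ 4 ≤ (2 * u) ^ 4 := by rw [ha4']; nlinarith
  have hahi : a ≤ 2 * u := le_of_pow_le_pow_left₀ (by norm_num) (by positivity) ha4hi
  have ha15 : a ^ 15 ≤ 2 ^ 15 * u ^ 15 := by
    calc a ^ 15 ≤ (2 * u) ^ 15 := pow_le_pow_left₀ ha0 hahi 15
      _ = 2 ^ 15 * u ^ 15 := by ring
  have ha12 : u ^ 12 / 8 ≤ a ^ 12 := by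
    calc u ^ 12 / 8 = (u ^ 4 / 2) ^ 3 := by ring
      _ ≤ (a ^ 4) ^ 3 := pow_le_pow_left₀ (by positivity) ha4lo 3
      _ = a ^ 12 := by ring
  -- the reference degree
  have hDr : Dr (κ * (1 + z)) (M.card : ℝ) 0 = D * (1 + z) := by
    rw [g.hm, g.hD]
    unfold Dr
    ring
  have hθ : ∀ x ∈ M, (deg H M x : ℝ) / (D * (1 + z)) = 1 + e8_N κ H M x := by
    intro x hx
    rw [g.deg_eq hx]
    unfold e8_N
    rw [← hzdef]
    field_simp
    ring
  have hN : ∀ x ∈ M, |e8_N κ H M x| ≤ 1 / 4 := by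
    intro x hx
    unfold e8_N
    rw [← hzdef, abs_mul, abs_of_pos (by positivity : 0 < 1 / (1 + z))]
    have h1 : |xi κ H M x + -z * 1| ≤ 1 / 8 + 1 / 1000 := by
      have h2 := abs_lt.1 (g.hξ x hx)
      rw [abs_le]
      constructor <;> linarith
    have h3 : 1 / (1 + z) ≤ 1000 / 999 := by
      rw [div_le_div_iff₀ hz1p (by norm_num)]
      linarith
    calc 1 / (1 + z) * |xi κ H M x + -z * 1| ≤ 1000 / 999 * (1 / 8 + 1 / 1000) :=
          mul_le_mul h3 h1 (abs_nonneg _) (by norm_num)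
      _ ≤ 1 / 4 := by norm_num
  have hθhi : ∀ x ∈ M, 0 ≤ (deg H M x : ℝ) / (D * (1 + z)) ∧
      (deg H M x : ℝ) / (D * (1 + z)) ≤ 5 / 4 := by
    intro x hx
    rw [hθ x hx]
    have := abs_le.1 (hN x hx)
    constructor <;> linarith
  have hWW : WW H M (e8_N κ H M) (D * (1 + z)) = 0 := by
    unfold WW
    apply Finset.sum_eq_zero
    intro x hx
    rw [hθ x hx]
    have e1 : 1 + e8_N κ H M x - e8_N κ H M x = 1 := by ring
    rw [e1, fi_ff_M (by norm_num) (by norm_num)]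
    norm_num
  have hTT : TT H M (D * (1 + z)) = 0 := by
    unfold TT
    apply Finset.sum_eq_zero
    intro x hx
    obtain ⟨h1, h2⟩ := hθhi x hx
    unfold tt
    apply max_eq_right
    have := pow_le_pow_left₀ h1 (h2.trans (by norm_num : (5 / 4 : ℝ) ≤ 7 / 4)) 8
    linarith
  have hXX : XX H M (D * (1 + z)) = 0 := by
    unfold XX
    apply Finset.sum_eq_zero
    intro x hx
    obtain ⟨h1, h2⟩ := hθhi x hx
    unfold xe
    apply max_eq_right
    have : Real.exp ((deg H M x : ℝ) / (D * (1 + z)) / 8) ≤ Real.exp (1 / 2) :=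
      Real.exp_le_exp.2 (by linarith)
    linarith
  have hQh : ((sub H M).card : ℝ) / Qh (κ * (1 + z)) (M.card : ℝ) = 1 := by
    have h1 : Qh (κ * (1 + z)) (M.card : ℝ) = Qh κ (M.card : ℝ) * (1 + z) := by
      unfold Qh; ring
    have h2 : 0 < Qh κ (M.card : ℝ) := by rw [g.hm]; exact gs.Qh_pos
    have h3 : ((sub H M).card : ℝ) = Qh κ (M.card : ℝ) * (1 + z) := by
      rw [hzdef]
      unfold zq
      field_simp
      ring
    rw [h1, ← h3]
    have h4 : 0 < ((sub H M).card : ℝ) := by rw [h3]; positivity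
    exact div_self h4.ne'
  have hX8 : 0 ≤ X8 κ H M := by
    unfold X8
    exact Finset.sum_nonneg fun x _ => by positivity
  have hmean := e8_mean g hm0
  -- the eighth moment
  have hM8 : M8 M (e8_N κ H M) ≤ 2 ^ 10 * X8 κ H M := by
    have h1 : ∀ x ∈ M, e8_N κ H M x ^ 8 ≤ 2 ^ 8 * (xi κ H M x ^ 8 + z ^ 8) := by
      intro x _
      have e1 : e8_N κ H M x = 1 / (1 + z) * (xi κ H M x - z) := by
        unfold e8_N
        rw [← hzdef]
        ring
      rw [e1, mul_pow]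
      have h2 : (1 / (1 + z)) ^ 8 ≤ 2 := by
        have h3 : 1 / (1 + z) ≤ 1000 / 999 := by
          rw [div_le_div_iff₀ hz1p (by norm_num)]
          linarith
        calc (1 / (1 + z)) ^ 8 ≤ (1000 / 999 : ℝ) ^ 8 :=
              pow_le_pow_left₀ (by positivity) h3 8
          _ ≤ 2 := by norm_num
      calc (1 / (1 + z)) ^ 8 * (xi κ H M x - z) ^ 8 ≤ 2 * (2 ^ 7 * (xi κ H M x ^ 8 + z ^ 8)) :=
            mul_le_mul h2 (e8_pow8 _ _) (by positivity) (by norm_num)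
        _ = 2 ^ 8 * (xi κ H M x ^ 8 + z ^ 8) := by ring
    unfold M8
    refine (Finset.sum_le_sum h1).trans ?_
    rw [← Finset.mul_sum, Finset.sum_add_distrib, Finset.sum_const, nsmul_eq_mul, g.hm]
    change 2 ^ 8 * (X8 κ H M + m * z ^ 8) ≤ _
    linarith
  have hM80 : 0 ≤ M8 M (e8_N κ H M) := by
    unfold M8
    exact Finset.sum_nonneg fun x _ => by positivity
  have hδ0 : δ / 2 ^ 25 * m ≤ δ * m := by
    apply mul_le_mul_of_nonneg_right _ hm0.le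
    apply div_le_self hδ.le
    norm_num
  constructor
  · exact hN
  · exact le_rfl
  · exact hδ.le
  · rw [hDr, hWW, mul_zero]
    positivity
  · rw [hDr, hTT, mul_zero]
    positivity
  · calc a ^ 15 * M8 M (e8_N κ H M) ≤ (2 ^ 15 * u ^ 15) * (2 ^ 10 * X8 κ H M) :=
          mul_le_mul ha15 hM8 hM80 (by positivity)
      _ = 2 ^ 25 * (u ^ 15 * X8 κ H M) := by ring
      _ ≤ 2 ^ 25 * (δ / 2 ^ 25 * m) := by linarith
      _ = δ * (M.card : ℝ) := by rw [g.hm]; field_simp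
  · rw [hQh]
    simp only [add_zero, sub_self]
    rw [zero_pow (by norm_num), mul_zero]
    exact hδ.le
  · rw [hDr, hXX]
    positivity
  · have h1 := e8_ZZ g hz1 hD0 hDu
    have h2 : m * u ^ 8 * z ^ 2 ≤ m * u ^ 4 * (δ / 144) := by
      have h3 : u ^ 8 * z ^ 2 ≤ u ^ 4 * (δ / 144) := by
        have h4 : u ^ 8 * z ^ 2 ≤ u ^ 8 * (1 / u ^ 5) :=
          mul_le_mul_of_nonneg_left hz5 (by positivity)
        have h5 : u ^ 8 * (1 / u ^ 5) = u ^ 4 * (1 / u) := by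
          field_simp
        have h6 : 1 / u ≤ δ / 144 := by
          rw [div_le_div_iff₀ hupos (by norm_num)]
          rw [div_le_iff₀ hδ] at hu1
          linarith
        rw [h5] at h4
        exact h4.trans (mul_le_mul_of_nonneg_left h6 hu4.le)
      calc m * u ^ 8 * z ^ 2 = m * (u ^ 8 * z ^ 2) := by ring
        _ ≤ m * (u ^ 4 * (δ / 144)) := mul_le_mul_of_nonneg_left h3 hm0.le
        _ = _ := by ring
    have h7 : 0 < m * u ^ 4 := by positivity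
    have h8 : δ / 2 ^ 25 * (m * u ^ 4) ≤ δ / 24 * (m * u ^ 4) := by
      apply mul_le_mul_of_nonneg_right _ h7.le
      apply div_le_div_of_nonneg_left hδ.le (by norm_num) (by norm_num)
    have h9 : δ * (m * (u ^ 4 / 2)) ≤ δ * (m * a ^ 4) :=
      mul_le_mul_of_nonneg_left (mul_le_mul_of_nonneg_left ha4lo hm0.le) hδ.le
    have h10 : δ * (m * (u ^ 4 / 2)) = δ / 2 * (m * u ^ 4) := by ring
    have h11 : m * u ^ 4 * (δ / 144) = δ / 144 * (m * u ^ 4) := by ring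
    have h12 : 0 < δ * (m * u ^ 4) := by positivity
    rw [h10] at h9
    rw [h11] at h2
    show ZZ H M (e8_N κ H M) ≤ δ * ((M.card : ℝ) * a ^ 4)
    rw [g.hm]
    have h13 : ZZ H M (e8_N κ H M) ≤
        3 * (δ / 24 * (m * u ^ 4) + 6 * (δ / 144 * (m * u ^ 4))) := by
      refine h1.trans ?_
      linarith
    refine h13.trans (le_trans ?_ h9)
    have : δ / 2 * (m * u ^ 4) - 3 * (δ / 24 * (m * u ^ 4) + 6 * (δ / 144 * (m * u ^ 4))) =
        δ * (m * u ^ 4) / 4 := by ring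
    linarith
  · show Th H M ≤ δ * ((M.card : ℝ) * a ^ 12)
    rw [g.hm]
    have h7 : 0 < m * u ^ 12 := by positivity
    have h9 : δ * (m * (u ^ 12 / 8)) ≤ δ * (m * a ^ 12) :=
      mul_le_mul_of_nonneg_left (mul_le_mul_of_nonneg_left ha12 hm0.le) hδ.le
    have h8 : δ / 2 ^ 25 * (m * u ^ 12) ≤ δ / 8 * (m * u ^ 12) := by
      apply mul_le_mul_of_nonneg_right _ h7.le
      apply div_le_div_of_nonneg_left hδ.le (by norm_num) (by norm_num)
    have h10 : δ / 8 * (m * u ^ 12) = δ * (m * (u ^ 12 / 8)) := by ring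
    linarith

end Vale.Agent.P046S
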