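import Vale.Agent.P046S.D0
import Vale.Agent.P046S.E7b
import Vale.Agent.P046S.E7c
import Vale.Agent.P046S.E8

/-!
P046 sharp constant, module E7: stage I.

`R = n choose 2`, `κ = (n-2)/((R-3)(R-6))` (so `xi = 0` for the complete graph, `deg_top`), `μ = R - 3k`,
`u1 = uk κ μ ≈ ε0^{1/2} n^{1/4}`, `Λ = 4/ε0`, `A` = max of the constants of E7a, E7b, E7c (with this `Λ`),
`s = ε0/2000`, `δ'` and `u0` from `restart δ`. Potential (function of `M` only)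
`Pot = (P8p + Pzp)/δ'' + P4p/s^4 + (√(3 ε0)/δ') PZp`, `δ'' = min δ' 1`.
`cost_le_abs` with `Aux = Unit`, `Inv M = (M ⊆ EF ⊤ ∧ μ ≤ card M ≤ R)`.
If `Pot < 1` then `G1` holds: `u^15 X8 ≤ m`, `u^5 z² ≤ 1`, `|xi| < 1/8` because `xi^8 ≤ X8 ≤ m/u^15` and
`m ≤ C(ε0) u^8`; `u^6 ≤ m`, `deg u² ≤ n u² ≤ m` for `n` large; `X4 ≤ (1 + s^4) 16 m^4/n^4`, so
`QF_of_X4` with `8 s m/n ≤ D/100`. Sum is nonempty as `z² ≤ 1/16`. All four potentials are nonnegative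
(`X4_ge`). Start: `X8 = 0`, `z = 0`, `ZZ = 0`, `X4_top`, `Th ≤ 27 R (n-2)^3` (see `Start.lean`), so
`Pot ≤ C √ε0/δ' + o(1)` as `n → ∞`; choose `ε0` with `C √ε0/δ' ≤ ε/2`.
End: if `Pot < 1` then `restart` applies; `κ n^3/4 → 1`.
-/

namespace Vale.Agent.P046S

open Finset Vale.Agent.P046 Vale.Agent.P046LF

theorem e7_uk4 {κ m : ℝ} (hκ : 0 < κ) : uk κ m ^ 4 = κ * m ^ 2 := by
  unfold uk
  have h1 : 0 ≤ κ * m ^ 2 := by positivity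
  have h2 : Real.sqrt (Real.sqrt (κ * m ^ 2)) ^ 4 =
    (Real.sqrt (Real.sqrt (κ * m ^ 2)) ^ 2) ^ 2 := by ring
  rw [h2, Real.sq_sqrt (Real.sqrt_nonneg _), Real.sq_sqrt h1]

theorem e7_uk_mono {κ m m' : ℝ} (hκ : 0 < κ) (h0 : 0 ≤ m) (h : m ≤ m') : uk κ m ≤ uk κ m' := by
  unfold uk
  apply Real.sqrt_le_sqrt
  apply Real.sqrt_le_sqrt
  exact mul_le_mul_of_nonneg_left (pow_le_pow_left₀ h0 h 2) hκ.le

structure E7P (n : ℕ) (ε0 κ μ R u1 : ℝ) : Prop where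
  h0 : 0 < ε0
  h1 : ε0 ≤ 1 / 4
  hn : 100 ≤ (n : ℝ)
  hR : R = n * (n - 1) / 2
  hκ : κ = (n - 2) / ((R - 3) * (R - 6))
  hμ : ε0 * R ≤ μ
  hμR : μ ≤ R
  hu1 : u1 = uk κ μ
  hbig : 10 ^ 9 / ε0 ^ 3 ≤ u1

namespace E7P

variable {n : ℕ} {ε0 κ μ R u1 : ℝ}

theorem R_big (p : E7P n ε0 κ μ R u1) : 4950 ≤ R := by
  have h1 := p.hn
  rw [p.hR]
  nlinarith

theorem R_lo (p : E7P n ε0 κ μ R u1) : (n : ℝ) ^ 2 ≤ 4 * R := by
  have h1 := p.hn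
  rw [p.hR]
  nlinarith

theorem R_hi (p : E7P n ε0 κ μ R u1) : 2 * R ≤ (n : ℝ) ^ 2 := by
  have h1 := p.hn
  rw [p.hR]
  nlinarith

theorem prod_pos (p : E7P n ε0 κ μ R u1) : 0 < (R - 3) * (R - 6) := by
  have h1 := p.R_big
  exact mul_pos (by linarith) (by linarith)

theorem κ_pos (p : E7P n ε0 κ μ R u1) : 0 < κ := by
  have h1 := p.hn
  rw [p.hκ]
  exact div_pos (by linarith) p.prod_pos

theorem κR (p : E7P n ε0 κ μ R u1) : κ * ((R - 3) * (R - 6)) = n - 2 := by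
  rw [p.hκ, div_mul_cancel₀ _ p.prod_pos.ne']

theorem κR_lo (p : E7P n ε0 κ μ R u1) : (n : ℝ) - 2 ≤ κ * R ^ 2 := by
  have h1 := p.R_big
  rw [← p.κR]
  exact mul_le_mul_of_nonneg_left (by nlinarith) p.κ_pos.le

theorem κR_hi (p : E7P n ε0 κ μ R u1) : κ * R ^ 2 ≤ 2 * n := by
  have h1 := p.R_big
  have h2 : κ * R ^ 2 ≤ κ * (2 * ((R - 3) * (R - 6))) :=
    mul_le_mul_of_nonneg_left (by nlinarith) p.κ_pos.le
  have h3 := p.κR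
  nlinarith

theorem u1_big (p : E7P n ε0 κ μ R u1) : 1000 ≤ u1 := by
  refine le_trans ?_ p.hbig
  have h1 := p.h1
  have h0 := p.h0
  have h3 : ε0 ^ 3 ≤ 1 := pow_le_one₀ h0.le (by linarith)
  rw [le_div_iff₀ (by positivity)]
  nlinarith

theorem μ_pos (p : E7P n ε0 κ μ R u1) : 0 < μ :=
  lt_of_lt_of_le (mul_pos p.h0 (by linarith [p.R_big])) p.hμ

theorem card_le (p : E7P n ε0 κ μ R u1) {M : Finset (Sym2 (Fin n))}
    (hM : M ⊆ EF (⊤ : SimpleGraph (Fin n))) : (M.card : ℝ) ≤ R := by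
  have h1 := Finset.card_le_card hM
  rw [card_top] at h1
  have h2 : (M.card : ℝ) ≤ (n.choose 2 : ℝ) := by exact_mod_cast h1
  rw [Nat.cast_choose_two] at h2
  rw [p.hR]; exact h2

theorem u1_le (p : E7P n ε0 κ μ R u1) {m : ℝ} (hm : μ ≤ m) : u1 ≤ uk κ m := by
  rw [p.hu1]
  exact e7_uk_mono p.κ_pos p.μ_pos.le hm

theorem u_big (p : E7P n ε0 κ μ R u1) {m : ℝ} (hm : μ ≤ m) : 1000 ≤ uk κ m :=
  p.u1_big.trans (p.u1_le hm)

theorem u_pos (p : E7P n ε0 κ μ R u1) {m : ℝ} (hm : μ ≤ m) : 0 < uk κ m := by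
  have := p.u_big hm; linarith

theorem u4_le (p : E7P n ε0 κ μ R u1) {m : ℝ} (hm : μ ≤ m) (hmR : m ≤ R) :
    uk κ m ^ 4 ≤ 2 * n := by
  rw [e7_uk4 p.κ_pos]
  refine le_trans ?_ p.κR_hi
  exact mul_le_mul_of_nonneg_left (pow_le_pow_left₀ (p.μ_pos.le.trans hm) hmR 2) p.κ_pos.le

theorem u_le_n (p : E7P n ε0 κ μ R u1) {m : ℝ} (hm : μ ≤ m) (hmR : m ≤ R) : uk κ m ≤ n := by
  have h1 := p.u4_le hm hmR
  have h2 := p.u_big hm
  set u := uk κ m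
  have h3 : (2 : ℝ) ≤ u ^ 3 := by
    have := pow_le_pow_left₀ (by norm_num : (0 : ℝ) ≤ 1000) h2 3
    linarith
  have h4 : u * 2 ≤ u * u ^ 3 := mul_le_mul_of_nonneg_left h3 (by linarith)
  have h5 : u * u ^ 3 = u ^ 4 := by ring
  linarith

theorem n2_le (p : E7P n ε0 κ μ R u1) {m : ℝ} (hm : μ ≤ m) : (n : ℝ) ^ 2 ≤ 4 / ε0 * m := by
  have h1 := p.R_lo
  have h2 := p.hμ
  have h0 := p.h0
  rw [div_mul_eq_mul_div, le_div_iff₀ h0]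
  nlinarith

theorem u_inv (p : E7P n ε0 κ μ R u1) {m : ℝ} (hm : μ ≤ m) : 10 ^ 9 ≤ ε0 ^ 3 * uk κ m := by
  have h1 := p.hbig.trans (p.u1_le hm)
  have h0 : 0 < ε0 ^ 3 := pow_pos p.h0 3
  rw [div_le_iff₀ h0] at h1
  linarith

theorem u2_inv (p : E7P n ε0 κ μ R u1) {m : ℝ} (hm : μ ≤ m) : 16 / ε0 ≤ uk κ m ^ 2 := by
  have h1 := p.u_inv hm
  have h2 := p.u_big hm
  have h0 := p.h0
  have h3 := p.h1
  rw [div_le_iff₀ h0]
  set u := uk κ m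
  have h4 : ε0 ^ 3 ≤ ε0 := by
    have : ε0 ^ 3 = ε0 * (ε0 ^ 2) := by ring
    rw [this]
    exact mul_le_of_le_one_right h0.le (by nlinarith)
  have h5 : ε0 ^ 3 * u ≤ ε0 * u := mul_le_mul_of_nonneg_right h4 (by linarith)
  have h6 : ε0 * u ≤ ε0 * u ^ 2 := mul_le_mul_of_nonneg_left (by nlinarith) h0.le
  linarith

theorem um (p : E7P n ε0 κ μ R u1) {m : ℝ} (hm : μ ≤ m) (hmR : m ≤ R) : uk κ m ^ 6 ≤ m := by
  have h1 := p.u4_le hm hmR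
  have h2 := p.u2_inv hm
  have h3 := p.n2_le hm
  have h0 := p.h0
  have hu := p.u_pos hm
  set u := uk κ m
  have h4 : u ^ 8 ≤ 4 * (n : ℝ) ^ 2 := by
    have : u ^ 8 = (u ^ 4) ^ 2 := by ring
    rw [this]
    have := pow_le_pow_left₀ (by positivity) h1 2
    linarith [this, (by ring : (2 * (n : ℝ)) ^ 2 = 4 * (n : ℝ) ^ 2)]
  have h5 : u ^ 6 * (16 / ε0) ≤ u ^ 6 * u ^ 2 := mul_le_mul_of_nonneg_left h2 (by positivity)
  have h6 : u ^ 6 * u ^ 2 = u ^ 8 := by ring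
  have h7 : u ^ 6 * (16 / ε0) ≤ 16 / ε0 * m := by
    have : 4 * (4 / ε0 * m) = 16 / ε0 * m := by ring
    linarith
  have h8 : 0 < 16 / ε0 := by positivity
  nlinarith

theorem nu (p : E7P n ε0 κ μ R u1) {m : ℝ} (hm : μ ≤ m) (hmR : m ≤ R) :
    (n : ℝ) * uk κ m ^ 2 ≤ m := by
  have h1 := p.u4_le hm hmR
  have h2 := p.u2_inv hm
  have h3 := p.n2_le hm
  have h0 := p.h0
  have hu := p.u_pos hm
  have hn := p.hn
  have hm0 : 0 < m := lt_of_lt_of_le p.μ_pos hm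
  set u := uk κ m
  have h5 : (n * u ^ 2) * (16 / ε0) ≤ (n * u ^ 2) * u ^ 2 :=
    mul_le_mul_of_nonneg_left h2 (by positivity)
  have h6 : (n * u ^ 2) * u ^ 2 = n * u ^ 4 := by ring
  have h7 : (n : ℝ) * u ^ 4 ≤ n * (2 * n) := mul_le_mul_of_nonneg_left h1 (by linarith)
  have h8 : 0 < 4 / ε0 := by positivity
  have h9 : (n * u ^ 2) * (4 * (4 / ε0)) ≤ 2 * (4 / ε0 * m) := by
    have : (16 / ε0) = 4 * (4 / ε0) := by ring
    rw [this] at h5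
    nlinarith
  have h10 : 0 < 4 / ε0 * m := by positivity
  have h11 : (4 / ε0) * (n * u ^ 2) ≤ (4 / ε0) * m := by nlinarith
  exact le_of_mul_le_mul_left h11 h8

/-- `m ≤ u ^ 8 / ε0 ^ 3` -/
theorem m_le (p : E7P n ε0 κ μ R u1) {m : ℝ} (hm : μ ≤ m) : ε0 ^ 3 * m ≤ uk κ m ^ 8 := by
  have h0 := p.h0
  have hn := p.hn
  have hκ := p.κ_pos
  have hm0 : 0 < m := lt_of_lt_of_le p.μ_pos hm
  have hR := p.R_big
  have h1 : uk κ m ^ 8 = (κ * m ^ 2) ^ 2 := by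
    rw [← e7_uk4 hκ]; ring
  have h2 : ε0 * R ≤ m := p.hμ.trans hm
  have h3 : (ε0 * R) ^ 3 ≤ m ^ 3 := pow_le_pow_left₀ (by positivity) h2 3
  have h4 : (1 : ℝ) ≤ κ ^ 2 * R ^ 3 := by
    have h5 := p.κR_lo
    have h6 : ((n : ℝ) - 2) ^ 2 ≤ (κ * R ^ 2) ^ 2 := pow_le_pow_left₀ (by linarith) h5 2
    have h7 : R ≤ ((n : ℝ) - 2) ^ 2 := by
      rw [p.hR]; nlinarith
    have h8 : R * 1 ≤ R * (κ ^ 2 * R ^ 3) := by
      calc R * 1 ≤ (κ * R ^ 2) ^ 2 := by linarith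
        _ = R * (κ ^ 2 * R ^ 3) := by ring
    exact le_of_mul_le_mul_left h8 (by linarith)
  rw [h1]
  have h5 : κ ^ 2 * m * (ε0 * R) ^ 3 ≤ κ ^ 2 * m * m ^ 3 :=
    mul_le_mul_of_nonneg_left h3 (by positivity)
  have h6 : ε0 ^ 3 * m * 1 ≤ ε0 ^ 3 * m * (κ ^ 2 * R ^ 3) :=
    mul_le_mul_of_nonneg_left h4 (by positivity)
  calc ε0 ^ 3 * m = ε0 ^ 3 * m * 1 := by ring
    _ ≤ ε0 ^ 3 * m * (κ ^ 2 * R ^ 3) := h6
    _ = κ ^ 2 * m * (ε0 * R) ^ 3 := by ring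
    _ ≤ κ ^ 2 * m * m ^ 3 := h5
    _ = (κ * m ^ 2) ^ 2 := by ring

theorem g1 (p : E7P n ε0 κ μ R u1) {M : Finset (Sym2 (Fin n))}
    (hM : M ⊆ EF (⊤ : SimpleGraph (Fin n))) (hm : μ ≤ (M.card : ℝ))
    (hX : uk κ M.card ^ 15 * X8 κ (Hn n) M ≤ M.card)
    (hz : uk κ M.card ^ 5 * zq κ (Hn n) M ^ 2 ≤ 1) :
    G1 κ (Hn n) M M.card (sub (Hn n) M).card (uk κ M.card) (Dr κ M.card 0) := by
  have hmR := p.card_le hM
  have hu := p.u_pos hm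
  have hn := p.hn
  refine ⟨Hn_lin, rfl, rfl, p.κ_pos, p.u_big hm, e7_uk4 p.κ_pos, p.um hm hmR, rfl, ?_, ?_, hX, hz⟩
  · intro x hx
    have h1 : deg (Hn n) M x ≤ n - 2 := by
      rw [← deg_top (hM hx)]
      exact deg_le_of_subset hM x
    have h2 : (deg (Hn n) M x : ℝ) ≤ n := by
      have : deg (Hn n) M x ≤ n := by omega
      exact_mod_cast this
    exact (mul_le_mul_of_nonneg_right h2 (by positivity)).trans (p.nu hm hmR)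
  · intro x hx
    by_contra hc
    push Not at hc
    have h1 : (1 / 8 : ℝ) ^ 8 ≤ |xi κ (Hn n) M x| ^ 8 := pow_le_pow_left₀ (by norm_num) hc 8
    have h2 : |xi κ (Hn n) M x| ^ 8 = xi κ (Hn n) M x ^ 8 := Even.pow_abs (by decide) _
    have h3 : xi κ (Hn n) M x ^ 8 ≤ X8 κ (Hn n) M := by
      unfold X8
      exact Finset.single_le_sum (f := fun x => xi κ (Hn n) M x ^ 8)
        (fun y _ => Even.pow_nonneg (by decide) _) hx
    have h4 := p.m_le hm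
    have h5 := p.u_inv hm
    have h0 : 0 < ε0 ^ 3 := pow_pos p.h0 3
    have hub := p.u_big hm
    set u := uk κ (M.card : ℝ)
    have h6 : (1 / 8 : ℝ) ^ 8 ≤ X8 κ (Hn n) M := by rw [h2] at h1; linarith
    have h7 : u ^ 15 * (1 / 8 : ℝ) ^ 8 ≤ M.card :=
      (mul_le_mul_of_nonneg_left h6 (by positivity)).trans hX
    have h8 : ε0 ^ 3 * (u ^ 15 * (1 / 8 : ℝ) ^ 8) ≤ u ^ 8 :=
      (mul_le_mul_of_nonneg_left h7 h0.le).trans h4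
    have h9 : (10 : ℝ) ^ 9 * (u ^ 14 * (1 / 8 : ℝ) ^ 8) ≤ (ε0 ^ 3 * u) * (u ^ 14 * (1 / 8 : ℝ) ^ 8) :=
      mul_le_mul_of_nonneg_right h5 (by positivity)
    have h10 : (ε0 ^ 3 * u) * (u ^ 14 * (1 / 8 : ℝ) ^ 8) = ε0 ^ 3 * (u ^ 15 * (1 / 8 : ℝ) ^ 8) := by
      ring
    have h11 : (10 : ℝ) ^ 9 * (1 / 8 : ℝ) ^ 8 * (u ^ 6 * u ^ 8) ≤ 1 * u ^ 8 := by
      have : (10 : ℝ) ^ 9 * (1 / 8 : ℝ) ^ 8 * (u ^ 6 * u ^ 8) =
        (10 : ℝ) ^ 9 * (u ^ 14 * (1 / 8 : ℝ) ^ 8) := by ring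
      rw [this]; linarith
    have h12 : (10 : ℝ) ^ 9 * (1 / 8 : ℝ) ^ 8 * u ^ 6 ≤ 1 := by
      have : (10 : ℝ) ^ 9 * (1 / 8 : ℝ) ^ 8 * (u ^ 6 * u ^ 8) =
        (10 : ℝ) ^ 9 * (1 / 8 : ℝ) ^ 8 * u ^ 6 * u ^ 8 := by ring
      rw [this] at h11
      exact le_of_mul_le_mul_right h11 (by positivity)
    have h13 : (1 : ℝ) ≤ u ^ 6 := one_le_pow₀ (by linarith)
    norm_num at h12
    nlinarith

theorem qf (p : E7P n ε0 κ μ R u1) {M : Finset (Sym2 (Fin n))}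
    (hM : M ⊆ EF (⊤ : SimpleGraph (Fin n))) (hm : μ ≤ (M.card : ℝ))
    (h : X4 M ≤ (1 + (ε0 / 2000) ^ 4) * (16 * (M.card : ℝ) ^ 4 / (n : ℝ) ^ 4)) :
    QF (Hn n) M (Dr κ M.card 0 / 100) := by
  have hn := p.hn
  have h0 := p.h0
  have h1 := p.h1
  have hn1 : 1 ≤ n := by
    have : (1 : ℝ) ≤ n := by linarith
    exact_mod_cast this
  have h2 := QF_of_X4 hn1 hM (s := ε0 / 2000) (by positivity) (by linarith) h
  have hκ := p.κ_pos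
  have hm0 : (0 : ℝ) < M.card := lt_of_lt_of_le p.μ_pos hm
  have hR := p.R_big
  -- the comparison
  have h3 : 8 * (ε0 / 2000) * ((M.card : ℝ) / n) ≤ Dr κ M.card 0 / 100 := by
    have h4 := p.κR_lo
    have h5 : ε0 * R ≤ M.card := p.hμ.trans hm
    have hm1 : (1000 : ℝ) ≤ M.card := by
      have := p.u_big hm
      have h6 := p.um hm (p.card_le hM)
      have h7 : uk κ M.card ≤ uk κ M.card ^ 6 := le_self_pow₀ (by linarith) (by norm_num)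
      linarith
    set m := (M.card : ℝ)
    -- κ m n ≥ ε0
    have h6 : ε0 ≤ κ * m * n := by
      have h7 : κ * (ε0 * R) * n ≤ κ * m * n := by
        apply mul_le_mul_of_nonneg_right _ (by linarith)
        exact mul_le_mul_of_nonneg_left h5 hκ.le
      refine le_trans ?_ h7
      have h8 : 1 ≤ κ * R * n := by
        have h9 : R * 1 ≤ R * (κ * R * n) := by
          have h10 : ((n : ℝ) - 2) * n ≤ κ * R ^ 2 * n := mul_le_mul_of_nonneg_right h4 (by linarith)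
          have h11 : R ≤ ((n : ℝ) - 2) * n := by rw [p.hR]; nlinarith
          have h12 : R * (κ * R * n) = κ * R ^ 2 * n := by ring
          linarith
        exact le_of_mul_le_mul_left h9 (by linarith)
      calc ε0 = ε0 * 1 := by ring
        _ ≤ ε0 * (κ * R * n) := mul_le_mul_of_nonneg_left h8 h0.le
        _ = κ * (ε0 * R) * n := by ring
    have h7 : (9 / 10) * m ^ 2 ≤ (m - 3) * (m - 6) := by nlinarith
    have h8 : κ * ((9 / 10) * m ^ 2) ≤ κ * ((m - 3) * (m - 6)) := mul_le_mul_of_nonneg_left h7 hκ.le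
    have h9 : Dr κ m 0 = κ * ((m - 3) * (m - 6)) := by unfold Dr; ring
    rw [h9]
    have hn0 : (0 : ℝ) < n := by linarith
    have h10 : 8 * (ε0 / 2000) * (m / n) = (8 / 2000) * (ε0 * m) / n := by ring
    rw [h10, div_le_iff₀ hn0]
    have h11 : ε0 * m ≤ κ * m * n * m := mul_le_mul_of_nonneg_right h6 hm0.le
    have h12 : κ * ((9 / 10) * m ^ 2) / 100 * n ≤ κ * ((m - 3) * (m - 6)) / 100 * n := by
      apply mul_le_mul_of_nonneg_right _ hn0.le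
      linarith
    have h13 : κ * ((9 / 10) * m ^ 2) / 100 * n = (9 / 1000) * (κ * m * n * m) := by ring
    have h14 : 0 ≤ κ * m * n * m := by positivity
    linarith
  intro v
  have h4 := h2 v
  have h5 : 0 ≤ ∑ x ∈ M, v x ^ 2 := Finset.sum_nonneg fun _ _ => sq_nonneg _
  have h6 := mul_le_mul_of_nonneg_right h3 h5
  linarith

end E7P

/-! ### The potentials -/

section pots

variable {n : ℕ} {κ μ u1 A B R : ℝ} {M : Finset (Sym2 (Fin n))}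

theorem e7_X8_nonneg {V : Type} [DecidableEq V] {H : Finset (Finset V)} {M : Finset V} (κ : ℝ) :
    0 ≤ X8 κ H M := Finset.sum_nonneg fun _ _ => Even.pow_nonneg (by decide) _

theorem e7_ZZ_nonneg {V : Type} [DecidableEq V] {H : Finset (Finset V)} {M : Finset V} (N : V → ℝ) :
    0 ≤ ZZ H M N := Finset.sum_nonneg fun _ _ => sq_nonneg _

theorem e7_uk_nonneg (κ m : ℝ) : 0 ≤ uk κ m := Real.sqrt_nonneg _

theorem e7_log_nonneg {m : ℝ} (hμ : 0 < μ) (hm : μ ≤ m) : 0 ≤ Real.log (m / μ) :=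
  Real.log_nonneg (by rw [one_le_div hμ]; exact hm)

theorem e7_pow_ge {m : ℝ} (hμ : 0 < μ) (hm : μ ≤ m) (hA : 0 ≤ A) : 1 ≤ (m / μ) ^ A :=
  Real.one_le_rpow (by rw [one_le_div hμ]; exact hm) hA

theorem e7_P8_ge (hμ : 0 < μ) (hm : μ ≤ (M.card : ℝ)) (hu1 : 0 < u1) (hA : 0 ≤ A) :
    uk κ M.card ^ 15 * X8 κ (Hn n) M / M.card ≤ P8p κ μ u1 A (Hn n) M := by
  have h1 := e7_log_nonneg hμ hm
  have h2 := e7_pow_ge hμ hm hA
  have hm0 : (0 : ℝ) < M.card := lt_of_lt_of_le hμ hm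
  have h3 := e7_X8_nonneg (H := Hn n) (M := M) κ
  have h4 := e7_uk_nonneg κ M.card
  unfold P8p
  have h5 : 0 ≤ A / u1 * Real.log (M.card / μ) := by positivity
  have h6 : 0 ≤ uk κ M.card ^ 15 * X8 κ (Hn n) M / M.card := by positivity
  nlinarith

theorem e7_Pz_ge (hμ : 0 < μ) (hm : μ ≤ (M.card : ℝ)) (hu1 : 0 < u1) (hA : 0 ≤ A) :
    uk κ M.card ^ 5 * zq κ (Hn n) M ^ 2 ≤ Pzp κ μ u1 A (Hn n) M := by
  have h1 := e7_log_nonneg hμ hm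
  have h2 := e7_pow_ge hμ hm hA
  have hm0 : (0 : ℝ) < M.card := lt_of_lt_of_le hμ hm
  have h4 := e7_uk_nonneg κ M.card
  unfold Pzp
  have h5 : 0 ≤ A / u1 * Real.log (M.card / μ) := by positivity
  have h6 : 0 ≤ uk κ M.card ^ 5 * zq κ (Hn n) M ^ 2 := by positivity
  nlinarith

theorem e7_P8_nonneg (hμ : 0 < μ) (hm : μ ≤ (M.card : ℝ)) (hu1 : 0 < u1) (hA : 0 ≤ A) :
    0 ≤ P8p κ μ u1 A (Hn n) M := by
  refine le_trans ?_ (e7_P8_ge hμ hm hu1 hA)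
  have h3 := e7_X8_nonneg (H := Hn n) (M := M) κ
  have h4 := e7_uk_nonneg κ M.card
  positivity

theorem e7_Pz_nonneg (hμ : 0 < μ) (hm : μ ≤ (M.card : ℝ)) (hu1 : 0 < u1) (hA : 0 ≤ A) :
    0 ≤ Pzp κ μ u1 A (Hn n) M := by
  refine le_trans ?_ (e7_Pz_ge hμ hm hu1 hA)
  have h4 := e7_uk_nonneg κ M.card
  positivity

theorem e7_P4_ge (hμ : 0 < μ) (hm : μ ≤ (M.card : ℝ)) (hu1 : 0 < u1) (hA : 0 ≤ A) :
    X4 M * (n : ℝ) ^ 4 / (16 * (M.card : ℝ) ^ 4) - 1 ≤ P4p μ u1 A M := by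
  have h1 := e7_log_nonneg hμ hm
  unfold P4p
  have h5 : 0 ≤ A / u1 * Real.log (M.card / μ) := by positivity
  linarith

theorem e7_P4_nonneg (hn : 1 ≤ n) (hM : M ⊆ EF (⊤ : SimpleGraph (Fin n))) (hμ : 0 < μ)
    (hm : μ ≤ (M.card : ℝ)) (hu1 : 0 < u1) (hA : 0 ≤ A) : 0 ≤ P4p μ u1 A M := by
  refine le_trans ?_ (e7_P4_ge hμ hm hu1 hA)
  have h1 := X4_ge hn hM
  have hm0 : (0 : ℝ) < M.card := lt_of_lt_of_le hμ hm
  have hn0 : (0 : ℝ) < n := by exact_mod_cast hn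
  rw [sub_nonneg, one_le_div (by positivity)]
  rw [div_le_iff₀ (by positivity)] at h1
  exact h1

theorem e7_PZ_ge (hμ : 0 < μ) (hm : μ ≤ (M.card : ℝ)) (hu1 : 0 < u1) (hA : 0 ≤ A) :
    ZZ (Hn n) M (xi κ (Hn n) M) / (M.card * uk κ M.card ^ 4 * Real.sqrt (M.card / R)) +
    B * (Th (Hn n) M / (M.card * uk κ M.card ^ 12 * Real.sqrt (M.card / R))) ≤
      PZp κ μ u1 A B R (Hn n) M := by
  have h1 := e7_log_nonneg hμ hm
  unfold PZp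
  have h5 : 0 ≤ A / u1 * Real.log (M.card / μ) := by positivity
  linarith

theorem e7_PZ_nonneg (hμ : 0 < μ) (hm : μ ≤ (M.card : ℝ)) (hu1 : 0 < u1) (hA : 0 ≤ A)
    (hB : 0 ≤ B) : 0 ≤ PZp κ μ u1 A B R (Hn n) M := by
  refine le_trans ?_ (e7_PZ_ge hμ hm hu1 hA)
  have h3 := e7_ZZ_nonneg (H := Hn n) (M := M) (xi κ (Hn n) M)
  have h4 := Th_nonneg (H := Hn n) (M := M)
  have h5 := e7_uk_nonneg κ M.card
  positivity

end pots

/-- the potential -/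
noncomputable def E7_pot (κ μ u1 A B R d2 s4 c3 : ℝ) {n : ℕ} (M : Finset (Sym2 (Fin n))) : ℝ :=
  (P8p κ μ u1 A (Hn n) M + Pzp κ μ u1 A (Hn n) M) / d2 + P4p μ u1 A M / s4 +
    c3 * PZp κ μ u1 A B R (Hn n) M

namespace E7P

variable {n : ℕ} {ε0 κ μ R u1 : ℝ}

theorem n1 (p : E7P n ε0 κ μ R u1) : 1 ≤ n := by
  have : (1 : ℝ) ≤ n := by linarith [p.hn]
  exact_mod_cast this

theorem u1_pos (p : E7P n ε0 κ μ R u1) : 0 < u1 := by linarith [p.u1_big]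

theorem pot_nonneg (p : E7P n ε0 κ μ R u1) {A B d2 s4 c3 : ℝ} (hA : 0 ≤ A) (hB : 0 ≤ B)
    (hd2 : 0 < d2) (hs4 : 0 < s4) (hc3 : 0 ≤ c3) {M : Finset (Sym2 (Fin n))}
    (hM : M ⊆ EF (⊤ : SimpleGraph (Fin n))) (hm : μ ≤ (M.card : ℝ)) :
    0 ≤ E7_pot κ μ u1 A B R d2 s4 c3 M := by
  have h1 := e7_P8_nonneg (κ := κ) p.μ_pos hm p.u1_pos hA
  have h2 := e7_Pz_nonneg (κ := κ) p.μ_pos hm p.u1_pos hA
  have h3 := e7_P4_nonneg p.n1 hM p.μ_pos hm p.u1_pos hA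
  have h4 := e7_PZ_nonneg (κ := κ) (R := R) p.μ_pos hm p.u1_pos hA hB
  unfold E7_pot
  positivity

theorem pot_lt (p : E7P n ε0 κ μ R u1) {A B d2 s4 c3 : ℝ} (hA : 0 ≤ A) (hB : 0 ≤ B)
    (hd2 : 0 < d2) (hs4 : 0 < s4) (hc3 : 0 ≤ c3) {M : Finset (Sym2 (Fin n))}
    (hM : M ⊆ EF (⊤ : SimpleGraph (Fin n))) (hm : μ ≤ (M.card : ℝ))
    (h : E7_pot κ μ u1 A B R d2 s4 c3 M < 1) :
    P8p κ μ u1 A (Hn n) M ≤ d2 ∧ Pzp κ μ u1 A (Hn n) M ≤ d2 ∧ P4p μ u1 A M ≤ s4 ∧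
      c3 * PZp κ μ u1 A B R (Hn n) M ≤ 1 := by
  have h1 := e7_P8_nonneg (κ := κ) p.μ_pos hm p.u1_pos hA
  have h2 := e7_Pz_nonneg (κ := κ) p.μ_pos hm p.u1_pos hA
  have h3 := e7_P4_nonneg p.n1 hM p.μ_pos hm p.u1_pos hA
  have h4 := e7_PZ_nonneg (κ := κ) (R := R) p.μ_pos hm p.u1_pos hA hB
  unfold E7_pot at h
  rw [add_div] at h
  have a1 : 0 ≤ P8p κ μ u1 A (Hn n) M / d2 := by positivity
  have a2 : 0 ≤ Pzp κ μ u1 A (Hn n) M / d2 := by positivity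
  have a3 : 0 ≤ P4p μ u1 A M / s4 := by positivity
  have a4 : 0 ≤ c3 * PZp κ μ u1 A B R (Hn n) M := by positivity
  have b1 : P8p κ μ u1 A (Hn n) M / d2 ≤ 1 := by linarith
  have b2 : Pzp κ μ u1 A (Hn n) M / d2 ≤ 1 := by linarith
  have b3 : P4p μ u1 A M / s4 ≤ 1 := by linarith
  rw [div_le_one hd2] at b1 b2
  rw [div_le_one hs4] at b3
  exact ⟨b1, b2, b3, by linarith⟩

end E7P

namespace E7P

variable {n : ℕ} {ε0 κ μ R u1 : ℝ}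

/-- the state is good if the potential is less than one -/
theorem state (p : E7P n ε0 κ μ R u1) {A B d2 c3 : ℝ} (hA : 0 ≤ A) (hB : 0 ≤ B)
    (hd2 : 0 < d2) (hd21 : d2 ≤ 1) (hc3 : 0 ≤ c3) {M : Finset (Sym2 (Fin n))}
    (hM : M ⊆ EF (⊤ : SimpleGraph (Fin n))) (hm : μ ≤ (M.card : ℝ))
    (h : E7_pot κ μ u1 A B R d2 ((ε0 / 2000) ^ 4) c3 M < 1) :
    G1 κ (Hn n) M M.card (sub (Hn n) M).card (uk κ M.card) (Dr κ M.card 0) ∧
    X4 M ≤ (1 + (ε0 / 2000) ^ 4) * (16 * (M.card : ℝ) ^ 4 / (n : ℝ) ^ 4) ∧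
    uk κ M.card ^ 15 * X8 κ (Hn n) M ≤ d2 * M.card ∧
    c3 * PZp κ μ u1 A B R (Hn n) M ≤ 1 := by
  have hs4 : 0 < (ε0 / 2000) ^ 4 := by have := p.h0; positivity
  obtain ⟨h1, h2, h3, h4⟩ := p.pot_lt hA hB hd2 hs4 hc3 hM hm h
  have hm0 : (0 : ℝ) < M.card := lt_of_lt_of_le p.μ_pos hm
  have hn0 : (0 : ℝ) < n := by linarith [p.hn]
  have a1 := (e7_P8_ge (κ := κ) p.μ_pos hm p.u1_pos hA).trans h1
  rw [div_le_iff₀ hm0] at a1
  have a2 := (e7_Pz_ge (κ := κ) p.μ_pos hm p.u1_pos hA).trans h2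
  have a3 := (e7_P4_ge p.μ_pos hm p.u1_pos hA).trans h3
  refine ⟨p.g1 hM hm (a1.trans ?_) (a2.trans hd21), ?_, a1, h4⟩
  · exact mul_le_of_le_one_left hm0.le hd21
  · have a4 : X4 M * (n : ℝ) ^ 4 / (16 * (M.card : ℝ) ^ 4) ≤ 1 + (ε0 / 2000) ^ 4 := by linarith
    rw [div_le_iff₀ (by positivity)] at a4
    rw [← mul_div_assoc, le_div_iff₀ (by positivity)]
    exact a4

theorem nonempty (p : E7P n ε0 κ μ R u1) {M : Finset (Sym2 (Fin n))} (hm : μ ≤ (M.card : ℝ))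
    (g : G1 κ (Hn n) M M.card (sub (Hn n) M).card (uk κ M.card) (Dr κ M.card 0)) :
    (sub (Hn n) M).Nonempty := by
  rw [nonempty_iff_ne_empty]
  intro hc
  have h1 : zq κ (Hn n) M = -1 := by
    unfold zq
    rw [hc]; simp
  have h2 := g.hz
  rw [h1] at h2
  have h3 := p.u_big hm
  have h4 : uk κ M.card ≤ uk κ M.card ^ 5 := le_self_pow₀ (by linarith) (by norm_num)
  linarith

/-- the step -/
theorem step (p : E7P n ε0 κ μ R u1) {A B d2 c3 C8 Cz C4 CZ : ℝ} (hB : 1 ≤ B)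
    (hd2 : 0 < d2) (hd21 : d2 ≤ 1) (hc3 : 0 ≤ c3) (hC8 : 1 ≤ C8)
    (h8 : ∀ (V : Type) [DecidableEq V] (H : Finset (Finset V))
      (M : Finset V) (κ m Q u D μ u1 A : ℝ), G1 κ H M m Q u D → 0 < μ → μ ≤ m → 0 < u1 → u1 ≤ u →
      C8 ≤ A → ∑ T ∈ sub H M, P8p κ μ u1 A H (M \ T) ≤ Q * P8p κ μ u1 A H M)
    (hz : ∀ (V : Type) [DecidableEq V] (H : Finset (Finset V))
      (M : Finset V) (κ m Q u D μ u1 A : ℝ), G1 κ H M m Q u D → 0 < μ → μ ≤ m → 0 < u1 → u1 ≤ u →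
      Cz ≤ A → ∑ T ∈ sub H M, Pzp κ μ u1 A H (M \ T) ≤ Q * Pzp κ μ u1 A H M)
    (h4 : ∀ (n : ℕ) (M : Finset (Sym2 (Fin n)))
      (κ m Q u D μ u1 A Λ : ℝ), G1 κ (Hn n) M m Q u D → M ⊆ EF (⊤ : SimpleGraph (Fin n)) →
      0 < μ → μ ≤ m → 0 < u1 → u1 ≤ u → u ≤ n → 1 ≤ Λ → (n : ℝ) ^ 2 ≤ Λ * m →
      X4 M * (n : ℝ) ^ 4 ≤ 2 * (16 * m ^ 4) → C4 * Λ ^ 4 ≤ A →
      ∑ T ∈ sub (Hn n) M, P4p μ u1 A (M \ T) ≤ Q * P4p μ u1 A M)
    (hZ : ∀ (V : Type) [DecidableEq V]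
      (H : Finset (Finset V)) (M : Finset V) (κ m Q u D μ u1 A R Λ : ℝ), G1 κ H M m Q u D →
      QF H M (D / 100) → 0 < μ → μ ≤ m → 0 < u1 → u1 ≤ u → 0 < R → 1 ≤ Λ → R ≤ Λ ^ 2 * (m - 3) →
      CZ * Λ ≤ A → ∑ T ∈ sub H M, PZp κ μ u1 A B R H (M \ T) ≤ Q * PZp κ μ u1 A B R H M)
    (hA8 : C8 ≤ A) (hAz : Cz ≤ A) (hA4 : C4 * (4 / ε0) ^ 4 ≤ A) (hAZ : CZ * (4 / ε0) ≤ A)
    {M : Finset (Sym2 (Fin n))} (hM3 : μ + 3 ≤ (M.card : ℝ))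
    (hM : M ⊆ EF (⊤ : SimpleGraph (Fin n))) :
    1 ≤ E7_pot κ μ u1 A B R d2 ((ε0 / 2000) ^ 4) c3 M ∨ ((sub (Hn n) M).Nonempty ∧
      (∀ T ∈ sub (Hn n) M, M \ T ⊆ EF (⊤ : SimpleGraph (Fin n)) ∧ μ ≤ ((M \ T).card : ℝ)) ∧
      ∑ T ∈ sub (Hn n) M, E7_pot κ μ u1 A B R d2 ((ε0 / 2000) ^ 4) c3 (M \ T) ≤
        (sub (Hn n) M).card * E7_pot κ μ u1 A B R d2 ((ε0 / 2000) ^ 4) c3 M) := by
  have hm : μ ≤ (M.card : ℝ) := by linarith
  have hA : 0 ≤ A := by linarith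
  have h0 := p.h0
  have h1 := p.h1
  rcases le_or_gt 1 (E7_pot κ μ u1 A B R d2 ((ε0 / 2000) ^ 4) c3 M) with h | h
  · exact Or.inl h
  right
  obtain ⟨g, hX4, _, _⟩ := p.state hA (by linarith) hd2 hd21 hc3 hM hm h
  have hΛ : 1 ≤ 4 / ε0 := by rw [one_le_div h0]; linarith
  have hm0 : (0 : ℝ) < M.card := lt_of_lt_of_le p.μ_pos hm
  have hn0 : (0 : ℝ) < n := by linarith [p.hn]
  refine ⟨p.nonempty hm g, fun T hT => ⟨sdiff_subset.trans hM, ?_⟩, ?_⟩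
  · have h3 := card_sdiff_of_mem Hn_lin hT
    have h4 : ((M \ T).card : ℝ) + 3 = M.card := by exact_mod_cast h3
    linarith
  · have hs4 : 0 < (ε0 / 2000) ^ 4 := by positivity
    have t8 := h8 _ _ _ _ _ _ _ _ _ _ A g p.μ_pos hm p.u1_pos (p.u1_le hm) hA8
    have tz := hz _ _ _ _ _ _ _ _ _ _ A g p.μ_pos hm p.u1_pos (p.u1_le hm) hAz
    have t4 := h4 _ _ _ _ _ _ _ _ _ A (4 / ε0) g hM p.μ_pos hm p.u1_pos (p.u1_le hm)
      (p.u_le_n hm (p.card_le hM)) hΛ (p.n2_le hm) (by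
        rw [← mul_div_assoc, le_div_iff₀ (by positivity)] at hX4
        refine hX4.trans ?_
        apply mul_le_mul_of_nonneg_right _ (by positivity)
        have : (ε0 / 2000) ^ 4 ≤ 1 := pow_le_one₀ (by positivity) (by linarith)
        linarith) hA4
    have tZ := hZ _ _ _ _ _ _ _ _ _ _ A R (4 / ε0) g (p.qf hM hm hX4) p.μ_pos hm p.u1_pos
      (p.u1_le hm) (by linarith [p.R_big]) hΛ (by
        have h5 : ε0 * R ≤ (M.card : ℝ) - 3 := by linarith [p.hμ]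
        have h6 : (4 / ε0) ^ 2 * (ε0 * R) ≤ (4 / ε0) ^ 2 * ((M.card : ℝ) - 3) :=
          mul_le_mul_of_nonneg_left h5 (by positivity)
        refine le_trans ?_ h6
        have h7 : (4 / ε0) ^ 2 * (ε0 * R) = 16 * (R / ε0) := by
          field_simp
          ring
        have h8 : R ≤ R / ε0 := by
          rw [le_div_iff₀ h0]
          have := p.R_big
          nlinarith
        have h9 : 0 ≤ R / ε0 := by have := p.R_big; positivity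
        rw [h7]; linarith) hAZ
    unfold E7_pot
    rw [Finset.sum_add_distrib, Finset.sum_add_distrib, ← Finset.sum_div, Finset.sum_add_distrib,
      ← Finset.sum_div, ← Finset.mul_sum]
    have a1 : (∑ T ∈ sub (Hn n) M, P8p κ μ u1 A (Hn n) (M \ T) +
        ∑ T ∈ sub (Hn n) M, Pzp κ μ u1 A (Hn n) (M \ T)) / d2 ≤
        (sub (Hn n) M).card * ((P8p κ μ u1 A (Hn n) M + Pzp κ μ u1 A (Hn n) M) / d2) := by
      rw [← mul_div_assoc]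
      exact div_le_div_of_nonneg_right (by linarith) hd2.le
    have a2 : (∑ T ∈ sub (Hn n) M, P4p μ u1 A (M \ T)) / (ε0 / 2000) ^ 4 ≤
        (sub (Hn n) M).card * (P4p μ u1 A M / (ε0 / 2000) ^ 4) := by
      rw [← mul_div_assoc]
      exact div_le_div_of_nonneg_right t4 hs4.le
    have a3 := mul_le_mul_of_nonneg_left tZ hc3
    linarith

/-- the start -/
theorem start (p : E7P n ε0 κ μ R u1) {A B d2 s4 c3 : ℝ} (hA : 0 ≤ A) (hB : 0 ≤ B)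
    (hd2 : 0 < d2) (hs4 : 0 < s4) (hc3 : 0 ≤ c3) :
    E7_pot κ μ u1 A B R d2 s4 c3 (EF (⊤ : SimpleGraph (Fin n))) ≤
      (2 * (A * Real.log (1 / ε0)) * (1 / ε0) ^ A / d2 + (1 + A * Real.log (1 / ε0)) / s4 +
        c3 * (A * Real.log (1 / ε0))) / u1 + 27 * B * c3 := by
  have h0 := p.h0
  have h1 := p.h1
  have hn := p.hn
  have hR := p.R_big
  have hu1 := p.u1_pos
  have hμ0 := p.μ_pos
  have hκ := p.κ_pos
  have hR0 : 0 < R := by linarith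
  have hcard : ((EF (⊤ : SimpleGraph (Fin n))).card : ℝ) = R := by
    rw [card_top, Nat.cast_choose_two, p.hR]
  have hn2 : 2 ≤ n := by
    have : (2 : ℝ) ≤ n := by linarith
    exact_mod_cast this
  have hdeg : ∀ x ∈ EF (⊤ : SimpleGraph (Fin n)),
      (deg (Hn n) (EF (⊤ : SimpleGraph (Fin n))) x : ℝ) = n - 2 := by
    intro x hx
    rw [deg_top hx, Nat.cast_sub hn2]; norm_num
  have hDr : Dr κ R 0 = n - 2 := by
    have := p.κR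
    unfold Dr
    rw [← this]; ring
  have hn20 : (0 : ℝ) < (n : ℝ) - 2 := by linarith
  have hxi : ∀ x ∈ EF (⊤ : SimpleGraph (Fin n)),
      xi κ (Hn n) (EF (⊤ : SimpleGraph (Fin n))) x = 0 := by
    intro x hx
    unfold xi
    rw [hdeg x hx, hcard, hDr, div_self hn20.ne', sub_self]
  have hX8 : X8 κ (Hn n) (EF (⊤ : SimpleGraph (Fin n))) = 0 := by
    unfold X8
    exact Finset.sum_eq_zero fun x hx => by rw [hxi x hx]; norm_num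
  have hQ : ((sub (Hn n) (EF (⊤ : SimpleGraph (Fin n)))).card : ℝ) = R * (n - 2) / 3 := by
    have h1 := sum_deg (M := EF (⊤ : SimpleGraph (Fin n))) (Hn_lin (n := n))
    rw [Finset.sum_congr rfl hdeg, Finset.sum_const, nsmul_eq_mul, hcard] at h1
    linarith
  have hQh : Qh κ R = R * (n - 2) / 3 := by
    unfold Qh
    rw [← p.κR]; ring
  have hzq : zq κ (Hn n) (EF (⊤ : SimpleGraph (Fin n))) = 0 := by
    unfold zq
    rw [hcard, hQ, hQh, div_self (by positivity), sub_self]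
  have hSN : ∀ y, SN (Hn n) (EF (⊤ : SimpleGraph (Fin n)))
      (xi κ (Hn n) (EF (⊤ : SimpleGraph (Fin n)))) y = 0 := by
    intro y
    unfold SN
    refine Finset.sum_eq_zero fun T hT => ?_
    rw [mem_filter] at hT
    have hTs := (mem_sub.1 hT.1).2
    rw [Finset.sum_eq_zero fun z hz => hxi z (hTs hz), hxi y (hTs hT.2), sub_self]
  have hZZ : ZZ (Hn n) (EF (⊤ : SimpleGraph (Fin n)))
      (xi κ (Hn n) (EF (⊤ : SimpleGraph (Fin n)))) = 0 := by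
    unfold ZZ
    exact Finset.sum_eq_zero fun y _ => by rw [hSN y]; norm_num
  have hTh : Th (Hn n) (EF (⊤ : SimpleGraph (Fin n))) ≤ 27 * (R * ((n : ℝ) - 2) ^ 3) := by
    have h1 := Th_le (Hn_lin (n := n)) (M := EF (⊤ : SimpleGraph (Fin n)))
      (Δ := (n : ℝ) - 2) (fun x hx => (hdeg x hx).le)
    rw [hQ] at h1
    refine h1.trans (le_of_eq ?_); ring
  have hlog : Real.log (R / μ) ≤ Real.log (1 / ε0) := by
    apply Real.log_le_log (by positivity)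
    rw [div_le_div_iff₀ hμ0 h0]
    linarith [p.hμ]
  have hlog0 : 0 ≤ Real.log (R / μ) := e7_log_nonneg hμ0 p.hμR
  have hrat : R / μ ≤ 1 / ε0 := by
    rw [div_le_div_iff₀ hμ0 h0]
    linarith [p.hμ]
  have hpow : (R / μ) ^ A ≤ (1 / ε0) ^ A := Real.rpow_le_rpow (by positivity) hrat hA
  have hpow0 : 0 ≤ (R / μ) ^ A := by positivity
  set ℓ := Real.log (1 / ε0)
  set E := (1 / ε0) ^ A
  have hAℓ : A / u1 * Real.log (R / μ) ≤ A * ℓ / u1 := by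
    rw [div_mul_eq_mul_div]
    exact div_le_div_of_nonneg_right (mul_le_mul_of_nonneg_left hlog hA) hu1.le
  have hAℓ0 : 0 ≤ A / u1 * Real.log (R / μ) := by positivity
  have t8 : P8p κ μ u1 A (Hn n) (EF (⊤ : SimpleGraph (Fin n))) ≤ A * ℓ / u1 * E := by
    unfold P8p
    rw [hcard, hX8, mul_zero, zero_div, zero_add]
    exact mul_le_mul hAℓ hpow hpow0 (hAℓ0.trans hAℓ)
  have tz : Pzp κ μ u1 A (Hn n) (EF (⊤ : SimpleGraph (Fin n))) ≤ A * ℓ / u1 * E := by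
    unfold Pzp
    rw [hcard, hzq]
    have : uk κ R ^ 5 * (0 : ℝ) ^ 2 + A / u1 * Real.log (R / μ) = A / u1 * Real.log (R / μ) := by
      ring
    rw [this]
    exact mul_le_mul hAℓ hpow hpow0 (hAℓ0.trans hAℓ)
  have t4 : P4p μ u1 A (EF (⊤ : SimpleGraph (Fin n))) ≤ (1 + A * ℓ) / u1 := by
    unfold P4p
    rw [hcard, add_div]
    refine add_le_add ?_ hAℓ
    have h2 := X4_top hn2
    have hden : 16 * R ^ 4 = (n : ℝ) ^ 4 * ((n : ℝ) - 1) ^ 4 := by rw [p.hR]; ring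
    rw [hden]
    have hn4 : (0 : ℝ) < (n : ℝ) ^ 4 := by positivity
    have hn14 : (0 : ℝ) < ((n : ℝ) - 1) ^ 4 := pow_pos (by linarith) 4
    have h3 : X4 (EF (⊤ : SimpleGraph (Fin n))) * (n : ℝ) ^ 4 / ((n : ℝ) ^ 4 * ((n : ℝ) - 1) ^ 4) =
        X4 (EF (⊤ : SimpleGraph (Fin n))) / ((n : ℝ) - 1) ^ 4 := by
      field_simp
    rw [h3]
    have h4 : X4 (EF (⊤ : SimpleGraph (Fin n))) / ((n : ℝ) - 1) ^ 4 ≤
        (((n : ℝ) - 1) ^ 4 + n) / ((n : ℝ) - 1) ^ 4 := div_le_div_of_nonneg_right h2 hn14.le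
    have h5 : (((n : ℝ) - 1) ^ 4 + n) / ((n : ℝ) - 1) ^ 4 = 1 + n / ((n : ℝ) - 1) ^ 4 := by
      rw [add_div, div_self hn14.ne']
    have h6 : (n : ℝ) / ((n : ℝ) - 1) ^ 4 ≤ 1 / u1 := by
      rw [div_le_div_iff₀ hn14 hu1, one_mul]
      have h7 : u1 ≤ n := (p.u1_le le_rfl).trans (p.u_le_n le_rfl p.hμR)
      have h8 : (n : ℝ) * u1 ≤ n * n := mul_le_mul_of_nonneg_left h7 (by linarith)
      have h9 : (n : ℝ) ≤ (n - 1) ^ 2 := by nlinarith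
      have h10 : (n : ℝ) * n ≤ (n - 1) ^ 2 * (n - 1) ^ 2 :=
        mul_le_mul h9 h9 (by linarith) (by positivity)
      have h11 : ((n : ℝ) - 1) ^ 2 * (n - 1) ^ 2 = (n - 1) ^ 4 := by ring
      linarith
    linarith
  have tZ : PZp κ μ u1 A B R (Hn n) (EF (⊤ : SimpleGraph (Fin n))) ≤ 27 * B + A * ℓ / u1 := by
    unfold PZp
    rw [hcard, hZZ, zero_div, zero_add, div_self hR0.ne', Real.sqrt_one, mul_one]
    refine add_le_add ?_ hAℓ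
    rw [mul_comm (27 : ℝ) B]
    apply mul_le_mul_of_nonneg_left _ hB
    have hu := p.u_pos p.hμR
    rw [div_le_iff₀ (by positivity)]
    refine hTh.trans ?_
    have h2 : ((n : ℝ) - 2) ^ 3 ≤ uk κ R ^ 12 := by
      have h3 : uk κ R ^ 12 = (κ * R ^ 2) ^ 3 := by rw [← e7_uk4 hκ]; ring
      rw [h3]
      exact pow_le_pow_left₀ hn20.le p.κR_lo 3
    have h3 := mul_le_mul_of_nonneg_left h2 hR0.le
    linarith
  unfold E7_pot
  have a1 : (P8p κ μ u1 A (Hn n) (EF (⊤ : SimpleGraph (Fin n))) +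
      Pzp κ μ u1 A (Hn n) (EF (⊤ : SimpleGraph (Fin n)))) / d2 ≤
      (A * ℓ / u1 * E + A * ℓ / u1 * E) / d2 :=
    div_le_div_of_nonneg_right (by linarith) hd2.le
  have a2 : P4p μ u1 A (EF (⊤ : SimpleGraph (Fin n))) / s4 ≤ (1 + A * ℓ) / u1 / s4 :=
    div_le_div_of_nonneg_right t4 hs4.le
  have a3 : c3 * PZp κ μ u1 A B R (Hn n) (EF (⊤ : SimpleGraph (Fin n))) ≤
      c3 * (27 * B + A * ℓ / u1) := mul_le_mul_of_nonneg_left tZ hc3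
  refine (add_le_add (add_le_add a1 a2) a3).trans (le_of_eq ?_)
  field_simp
  ring

/-- `κ n^3/4` is close to `1` -/
theorem κ_close (p : E7P n ε0 κ μ R u1) : |κ * (n : ℝ) ^ 3 / 4 - 1| ≤ 34 / (n : ℝ) := by
  have hn := p.hn
  have key : ∀ a b x y : ℝ, a ≠ 0 → b ≠ 0 →
      x / (a / 2 * (b / 2)) * y / 4 - 1 = (x * y - a * b) / (a * b) := by
    intro a b x y ha hb
    field_simp
    ring
  have h1 : κ * (n : ℝ) ^ 3 / 4 - 1 = (17 * (n : ℝ) ^ 2 - 18 * n - 72) /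
      (((n : ℝ) ^ 2 - n - 6) * ((n : ℝ) ^ 2 - n - 12)) := by
    have h2 : (n : ℝ) ^ 2 - n - 6 ≠ 0 := by nlinarith
    have h3 : (n : ℝ) ^ 2 - n - 12 ≠ 0 := by nlinarith
    have h4 : R - 3 = ((n : ℝ) ^ 2 - n - 6) / 2 := by rw [p.hR]; ring
    have h5 : R - 6 = ((n : ℝ) ^ 2 - n - 12) / 2 := by rw [p.hR]; ring
    rw [p.hκ, h4, h5, key _ _ _ _ h2 h3]
    congr 1
    ring
  have hn0 : (0 : ℝ) < n := by linarith
  have h2 : (n : ℝ) ^ 2 / 2 ≤ (n : ℝ) ^ 2 - n - 12 := by nlinarith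
  have h3 : (n : ℝ) ≤ (n : ℝ) ^ 2 - n - 6 := by nlinarith
  have h4 : 0 ≤ 17 * (n : ℝ) ^ 2 - 18 * n - 72 := by nlinarith
  have hpos : 0 < ((n : ℝ) ^ 2 - n - 6) * ((n : ℝ) ^ 2 - n - 12) :=
    mul_pos (by linarith) (by nlinarith)
  rw [h1, abs_of_nonneg (div_nonneg h4 hpos.le), div_le_div_iff₀ hpos hn0]
  have h5 : (n : ℝ) * ((n : ℝ) ^ 2 / 2) ≤ ((n : ℝ) ^ 2 - n - 6) * ((n : ℝ) ^ 2 - n - 12) :=
    mul_le_mul h3 h2 (by positivity) (by linarith)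
  have h6 : 0 ≤ 18 * (n : ℝ) ^ 2 + 72 * n := by positivity
  nlinarith

/-- the end -/
theorem finish (p : E7P n ε0 κ μ R u1) {A B d2 δ δ' u0 : ℝ} (hA : 0 ≤ A) (hB : 1 ≤ B)
    (hd2 : 0 < d2) (hd21 : d2 ≤ 1) (hd2δ : d2 ≤ δ') (hδ : 0 < δ) (hδ' : 0 < δ')
    (hres : ∀ (V : Type) [DecidableEq V] (H : Finset (Finset V)) (M : Finset V)
      (κ m Q u D : ℝ), G1 κ H M m Q u D → u0 ≤ u → u ^ 15 * X8 κ H M ≤ δ' * m →
      ZZ H M (xi κ H M) ≤ δ' * (m * u ^ 4) → Th H M ≤ δ' * (m * u ^ 12) →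
      0 < κ * (1 + zq κ H M) ∧ |zq κ H M| ≤ δ ∧
        GoodE (κ * (1 + zq κ H M)) δ δ H M)
    (hu0 : u0 ≤ u1) (hu0' : 4 / δ ^ 2 ≤ u1) (hκδ : 34 / (n : ℝ) ≤ δ / 4)
    (hμR2 : μ ≤ 2 * ε0 * R)
    {M : Finset (Sym2 (Fin n))} (hM : M ⊆ EF (⊤ : SimpleGraph (Fin n))) (hm : (M.card : ℝ) = μ)
    (h : E7_pot κ μ u1 A B R d2 ((ε0 / 2000) ^ 4) (Real.sqrt (3 * ε0) / δ') M < 1) :
    ∃ κ : ℝ, |κ * (n : ℝ) ^ 3 / 4 - 1| ≤ δ ∧ GoodE κ δ δ (Hn n) M := by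
  have h0 := p.h0
  have hRbig := p.R_big
  have hsq : 0 < Real.sqrt (3 * ε0) := Real.sqrt_pos.2 (by positivity)
  have i2 : μ ≤ (M.card : ℝ) := hm.ge
  obtain ⟨g, hX4, hX8, hPZ⟩ := p.state hA (by linarith) hd2 hd21 (by positivity) hM i2 h
  have hm0 : (0 : ℝ) < M.card := lt_of_lt_of_le p.μ_pos i2
  have hu := p.u_pos i2
  have hge := e7_PZ_ge (κ := κ) (B := B) (R := R) p.μ_pos i2 p.u1_pos hA
  have hZ0 := e7_ZZ_nonneg (H := Hn n) (M := M) (xi κ (Hn n) M)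
  have hT0 := Th_nonneg (H := Hn n) (M := M)
  have hR0 : 0 < R := by linarith
  have hsm : Real.sqrt (M.card / R) ≤ Real.sqrt (3 * ε0) := by
    apply Real.sqrt_le_sqrt
    rw [div_le_iff₀ hR0, hm]
    nlinarith
  have hsm0 : 0 < Real.sqrt (M.card / R) := Real.sqrt_pos.2 (by positivity)
  have hPZ' : PZp κ μ u1 A B R (Hn n) M ≤ δ' / Real.sqrt (3 * ε0) := by
    rw [le_div_iff₀ hsq]
    rw [div_mul_eq_mul_div, div_le_one hδ'] at hPZ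
    linarith
  set m := (M.card : ℝ)
  set u := uk κ m
  set sq := Real.sqrt (3 * ε0)
  set sm := Real.sqrt (m / R)
  have hB0 : 0 ≤ B := by linarith
  have hZb : ZZ (Hn n) M (xi κ (Hn n) M) ≤ δ' * (m * u ^ 4) := by
    have e1 : ZZ (Hn n) M (xi κ (Hn n) M) / (m * u ^ 4 * sm) ≤ δ' / sq := by
      have : 0 ≤ B * (Th (Hn n) M / (m * u ^ 12 * sm)) := by positivity
      linarith
    rw [div_le_iff₀ (by positivity)] at e1
    refine e1.trans ?_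
    calc δ' / sq * (m * u ^ 4 * sm) = δ' * (m * u ^ 4) * (sm / sq) := by ring
      _ ≤ δ' * (m * u ^ 4) * 1 := by
          apply mul_le_mul_of_nonneg_left _ (by positivity)
          rw [div_le_one hsq]; exact hsm
      _ = _ := by ring
  have hTb : Th (Hn n) M ≤ δ' * (m * u ^ 12) := by
    have e1 : Th (Hn n) M / (m * u ^ 12 * sm) ≤ δ' / sq := by
      have e2 : 0 ≤ ZZ (Hn n) M (xi κ (Hn n) M) / (m * u ^ 4 * sm) := by positivity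
      have e3 : 0 ≤ Th (Hn n) M / (m * u ^ 12 * sm) := by positivity
      have e4 := mul_le_mul_of_nonneg_right hB e3
      linarith
    rw [div_le_iff₀ (by positivity)] at e1
    refine e1.trans ?_
    calc δ' / sq * (m * u ^ 12 * sm) = δ' * (m * u ^ 12) * (sm / sq) := by ring
      _ ≤ δ' * (m * u ^ 12) * 1 := by
          apply mul_le_mul_of_nonneg_left _ (by positivity)
          rw [div_le_one hsq]; exact hsm
      _ = _ := by ring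
  have hu1u : u1 ≤ u := p.u1_le i2
  obtain ⟨r1, r2, r3⟩ := hres _ _ _ _ _ _ _ _ g (hu0.trans hu1u)
    (hX8.trans (mul_le_mul_of_nonneg_right hd2δ hm0.le)) hZb hTb
  refine ⟨_, ?_, r3⟩
  have hzs : |zq κ (Hn n) M| ≤ δ / 2 := by
    have f1 := g.hz
    have f2 : 4 / δ ^ 2 ≤ u := hu0'.trans hu1u
    have f3 : u ≤ u ^ 5 := le_self_pow₀ (by linarith [p.u_big i2]) (by norm_num)
    have f4 : 4 / δ ^ 2 * zq κ (Hn n) M ^ 2 ≤ 1 :=
      (mul_le_mul_of_nonneg_right (f2.trans f3) (sq_nonneg _)).trans f1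
    rw [div_mul_eq_mul_div, div_le_one (by positivity)] at f4
    apply abs_le_of_sq_le_sq _ (by positivity)
    linarith [(by ring : (δ / 2) ^ 2 = δ ^ 2 / 4)]
  have hn := p.hn
  have hk1 := p.κ_close
  have hk2 : 34 / (n : ℝ) ≤ 1 / 2 := by
    rw [div_le_iff₀ (by linarith)]; linarith
  have hk3 : 0 ≤ κ * (n : ℝ) ^ 3 / 4 := by have := p.κ_pos; positivity
  have hk4 : κ * (n : ℝ) ^ 3 / 4 ≤ 3 / 2 := by
    have := (abs_le.1 (hk1.trans hk2)).2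
    linarith
  have e : κ * (1 + zq κ (Hn n) M) * (n : ℝ) ^ 3 / 4 - 1 =
      (κ * (n : ℝ) ^ 3 / 4 - 1) + zq κ (Hn n) M * (κ * (n : ℝ) ^ 3 / 4) := by ring
  rw [e]
  refine (abs_add_le _ _).trans ?_
  rw [abs_mul, abs_of_nonneg hk3]
  have h5 : |zq κ (Hn n) M| * (κ * (n : ℝ) ^ 3 / 4) ≤ δ / 2 * (3 / 2) :=
    mul_le_mul hzs hk4 hk3 (by positivity)
  linarith

end E7P

theorem e7_Rbig {n R : ℝ} (hn : 100 ≤ n) (hR : R = n * (n - 1) / 2) : 4950 ≤ R := by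
  rw [hR]; nlinarith

theorem e7_Uu {n ε0 κ μ R U : ℝ} (hε0 : 0 < ε0) (hRbig : 4950 ≤ R) (hn : 100 ≤ n)
    (hκ : κ = (n - 2) / ((R - 3) * (R - 6))) (hμ : ε0 * R ≤ μ) (hU : U ^ 4 / ε0 ^ 2 ≤ n - 2) :
    U ≤ uk κ μ := by
  have hprod : 0 < (R - 3) * (R - 6) := mul_pos (by linarith) (by linarith)
  have hκ0 : 0 < κ := by rw [hκ]; exact div_pos (by linarith) hprod
  have hμ0 : 0 < μ := lt_of_lt_of_le (by positivity) hμ
  have e1 : U ^ 4 ≤ uk κ μ ^ 4 := by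
    rw [e7_uk4 hκ0]
    have e2 : κ * (ε0 * R) ^ 2 ≤ κ * μ ^ 2 :=
      mul_le_mul_of_nonneg_left (pow_le_pow_left₀ (by positivity) hμ 2) hκ0.le
    refine le_trans ?_ e2
    have e3 : n - 2 ≤ κ * R ^ 2 := by
      have : κ * ((R - 3) * (R - 6)) = n - 2 := by
        rw [hκ, div_mul_cancel₀ _ hprod.ne']
      rw [← this]
      exact mul_le_mul_of_nonneg_left (by nlinarith) hκ0.le
    rw [div_le_iff₀ (by positivity)] at hU
    calc U ^ 4 ≤ (n - 2) * ε0 ^ 2 := hU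
      _ ≤ κ * R ^ 2 * ε0 ^ 2 := mul_le_mul_of_nonneg_right e3 (by positivity)
      _ = κ * (ε0 * R) ^ 2 := by ring
  exact le_of_pow_le_pow_left₀ (by norm_num) (e7_uk_nonneg _ _) e1

open Classical in
theorem stage1 (ε δ : ℝ) (hε : 0 < ε) (hδ : 0 < δ) : ∃ ε0 : ℝ, 0 < ε0 ∧ ε0 ≤ 1 / 4 ∧
    ∃ n0 : ℕ, ∀ n : ℕ, n0 ≤ n → ∀ k : ℕ,
    ε0 * (n.choose 2 : ℝ) ≤ (n.choose 2 : ℝ) - 3 * k →
    (n.choose 2 : ℝ) - 3 * k ≤ 2 * ε0 * (n.choose 2 : ℝ) →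
    cost (Hn n) (fun M => if ∃ κ : ℝ, |κ * (n : ℝ) ^ 3 / 4 - 1| ≤ δ ∧ GoodE κ δ δ (Hn n) M
      then 0 else 1) k (EF (⊤ : SimpleGraph (Fin n))) ≤ ε := by
  obtain ⟨C8, hC8, h8⟩ := P8_step
  obtain ⟨Cz, hCz, hz⟩ := Pz_step
  obtain ⟨C4, hC4, h4⟩ := P4_step
  obtain ⟨CZ, B, hCZ, hB, hZ⟩ := PZ_step
  obtain ⟨δ', hδ', u0, hu0, hres⟩ := restart δ hδ
  have hB0 : 0 < B := by linarith
  -- choice of the density
  obtain ⟨ε0, hε0, hε01, hε0s⟩ : ∃ ε0 : ℝ, 0 < ε0 ∧ ε0 ≤ 1 / 4 ∧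
      Real.sqrt (3 * ε0) ≤ ε * δ' / (54 * B) := by
    refine ⟨min (1 / 4) ((ε * δ' / (54 * B)) ^ 2 / 3), ?_, min_le_left _ _, ?_⟩
    · apply lt_min (by norm_num)
      positivity
    · rw [Real.sqrt_le_iff]
      refine ⟨by positivity, ?_⟩
      have := min_le_right (1 / 4) ((ε * δ' / (54 * B)) ^ 2 / 3)
      linarith
  refine ⟨ε0, hε0, hε01, ?_⟩
  obtain ⟨A, hA8, hAz, hA4, hAZ⟩ : ∃ A : ℝ, C8 ≤ A ∧ Cz ≤ A ∧ C4 * (4 / ε0) ^ 4 ≤ A ∧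
      CZ * (4 / ε0) ≤ A := by
    refine ⟨C8 + Cz + C4 * (4 / ε0) ^ 4 + CZ * (4 / ε0), ?_, ?_, ?_, ?_⟩ <;>
    · have a1 : 0 ≤ C4 * (4 / ε0) ^ 4 := by positivity
      have a2 : 0 ≤ CZ * (4 / ε0) := by positivity
      linarith
  have hA0 : 0 ≤ A := by linarith
  obtain ⟨d2, hd2def⟩ : ∃ d2 : ℝ, d2 = min δ' 1 := ⟨_, rfl⟩
  have hd2 : 0 < d2 := by rw [hd2def]; exact lt_min hδ' one_pos
  have hd21 : d2 ≤ 1 := by rw [hd2def]; exact min_le_right _ _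
  have hd2δ : d2 ≤ δ' := by rw [hd2def]; exact min_le_left _ _
  obtain ⟨c3, hc3def⟩ : ∃ c3 : ℝ, c3 = Real.sqrt (3 * ε0) / δ' := ⟨_, rfl⟩
  have hsq : 0 < Real.sqrt (3 * ε0) := Real.sqrt_pos.2 (by positivity)
  have hc3 : 0 < c3 := by rw [hc3def]; positivity
  have hs4 : 0 < (ε0 / 2000) ^ 4 := by positivity
  have hc3B : 27 * B * c3 ≤ ε / 2 := by
    rw [hc3def]
    have h1 : Real.sqrt (3 * ε0) / δ' ≤ ε * δ' / (54 * B) / δ' :=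
      div_le_div_of_nonneg_right hε0s hδ'.le
    have h2 : 27 * B * (ε * δ' / (54 * B) / δ') = ε / 2 := by
      field_simp
      norm_num
    rw [← h2]
    exact mul_le_mul_of_nonneg_left h1 (by positivity)
  obtain ⟨Kc, hKc⟩ : ∃ Kc : ℝ, Kc = 2 * (A * Real.log (1 / ε0)) * (1 / ε0) ^ A / d2 +
    (1 + A * Real.log (1 / ε0)) / ((ε0 / 2000) ^ 4) + c3 * (A * Real.log (1 / ε0)) := ⟨_, rfl⟩
  have hℓ0 : 0 ≤ Real.log (1 / ε0) := Real.log_nonneg (by rw [one_le_div hε0]; linarith)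
  have hKc0 : 0 < Kc := by
    rw [hKc]
    have a1 : 0 ≤ 2 * (A * Real.log (1 / ε0)) * (1 / ε0) ^ A / d2 := by positivity
    have a2 : 0 < (1 + A * Real.log (1 / ε0)) / ((ε0 / 2000) ^ 4) := by positivity
    have a3 : 0 ≤ c3 * (A * Real.log (1 / ε0)) := by positivity
    linarith
  obtain ⟨U, hU1, hU2, hU3, hU4⟩ : ∃ U : ℝ, 10 ^ 9 / ε0 ^ 3 ≤ U ∧ u0 ≤ U ∧ 4 / δ ^ 2 ≤ U ∧
      2 * Kc / ε ≤ U := by
    refine ⟨10 ^ 9 / ε0 ^ 3 + u0 + 4 / δ ^ 2 + 2 * Kc / ε, ?_, ?_, ?_, ?_⟩ <;>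
    · have a1 : 0 ≤ 10 ^ 9 / ε0 ^ 3 := by positivity
      have a2 : 0 ≤ 4 / δ ^ 2 := by positivity
      have a3 : 0 ≤ 2 * Kc / ε := by positivity
      linarith
  refine ⟨⌈100 + (2 + U ^ 4 / ε0 ^ 2) + 136 / δ⌉₊, fun n hn k hk1 hk2 => ?_⟩
  have hU0 : 0 < U := by linarith
  have hn' : 100 + (2 + U ^ 4 / ε0 ^ 2) + 136 / δ ≤ (n : ℝ) := (Nat.le_ceil _).trans (by
    exact_mod_cast hn)
  have b1 : 0 ≤ U ^ 4 / ε0 ^ 2 := by positivity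
  have b2 : 0 ≤ 136 / δ := by positivity
  obtain ⟨R, hRdef⟩ : ∃ R : ℝ, R = (n.choose 2 : ℝ) := ⟨_, rfl⟩
  rw [← hRdef] at hk1 hk2
  obtain ⟨μ, hμdef⟩ : ∃ μ : ℝ, μ = R - 3 * k := ⟨_, rfl⟩
  rw [← hμdef] at hk1 hk2
  obtain ⟨κ, hκdef⟩ : ∃ κ : ℝ, κ = ((n : ℝ) - 2) / ((R - 3) * (R - 6)) := ⟨_, rfl⟩
  have hR : R = n * (n - 1) / 2 := by rw [hRdef, Nat.cast_choose_two]
  have hn100 : 100 ≤ (n : ℝ) := by linarith
  have hRbig : 4950 ≤ R := e7_Rbig hn100 hR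
  have hk0 : (0 : ℝ) ≤ k := Nat.cast_nonneg k
  have hprod : 0 < (R - 3) * (R - 6) := mul_pos (by linarith) (by linarith)
  have hκ0 : 0 < κ := by rw [hκdef]; exact div_pos (by linarith) hprod
  have hUu : U ≤ uk κ μ := e7_Uu hε0 hRbig hn100 hκdef hk1 (by linarith)
  have p : E7P n ε0 κ μ R (uk κ μ) :=
    ⟨hε0, hε01, hn100, hR, hκdef, hk1, by rw [hμdef]; linarith, rfl, hU1.trans hUu⟩
  have hcard : ((EF (⊤ : SimpleGraph (Fin n))).card : ℝ) = μ + 3 * k := by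
    rw [card_top, ← hRdef, hμdef]; ring
  have hnδ : 34 / (n : ℝ) ≤ δ / 4 := by
    rw [div_le_iff₀ (by linarith)]
    have : 136 / δ ≤ (n : ℝ) := by linarith
    rw [div_le_iff₀ hδ] at this
    linarith
  have hmain := cost_le_abs (H := Hn n) (Aux := Unit) (fun _ _ _ => ())
    (fun M _ => E7_pot κ μ (uk κ μ) A B R d2 ((ε0 / 2000) ^ 4) c3 M)
    (fun M _ => M ⊆ EF (⊤ : SimpleGraph (Fin n)) ∧ μ ≤ (M.card : ℝ))
    (g := fun M => if ∃ κ : ℝ, |κ * (n : ℝ) ^ 3 / 4 - 1| ≤ δ ∧ GoodE κ δ δ (Hn n) M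
      then 0 else 1) (μ := μ) Hn_lin
    (fun M => by split_ifs <;> norm_num)
    (fun M _ hM hinv => by
      obtain ⟨i1, i2⟩ := hinv
      split_ifs with h
      · exact p.pot_nonneg hA0 hB0.le hd2 hs4 hc3.le i1 i2
      · by_contra hc
        push Not at hc
        apply h
        rw [hc3def] at hc
        exact p.finish hA0 hB hd2 hd21 hd2δ hδ hδ' hres (hU2.trans hUu) (hU3.trans hUu) hnδ hk2
          i1 hM hc)
    (fun M _ hM3 hinv => by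
      rcases p.step hB hd2 hd21 hc3.le hC8 h8 hz h4 hZ hA8 hAz hA4 hAZ hM3 hinv.1 with h | h
      · exact Or.inl h
      · exact Or.inr h) k (EF (⊤ : SimpleGraph (Fin n))) () hcard
    ⟨Finset.Subset.refl _, by rw [hcard]; linarith⟩
  refine hmain.trans ((p.start hA0 hB0.le hd2 hs4 hc3.le).trans ?_)
  rw [← hKc]
  have hu1p := p.u1_pos
  have hKu : Kc / uk κ μ ≤ ε / 2 := by
    rw [div_le_iff₀ hu1p]
    have := hU4.trans hUu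
    rw [div_le_iff₀ hε] at this
    linarith
  linarith

end Vale.Agent.P046S
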