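import Vale.Agent.P046S.E1
import Vale.Agent.P046S.E2
import Vale.Agent.P046S.E4
import Vale.Agent.P046S.E5
import Vale.Agent.P046S.E6

/-!
P046 sharp constant, module E7a: the potentials of stage I and their one-step inequalities.

In a `G1` state `u = uk κ m` (`hu4`), `card (M \ T) = m - 3`, `D ≥ (9/10) u^4`, `m ≥ 10^18`. Always
`log ((m-3)/μ) ≤ log (m/μ) - 3/m` and `(1 + A/m) ((m-3)/m)^A ≤ 1`.
-/

namespace Vale.Agent.P046S

open Finset Vale.Agent.P046 Vale.Agent.P046LF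

noncomputable def P8p (κ μ u1 A : ℝ) {V : Type} [DecidableEq V] (H : Finset (Finset V))
    (M : Finset V) : ℝ :=
  (uk κ M.card ^ 15 * X8 κ H M / M.card + A / u1 * Real.log (M.card / μ)) * (M.card / μ) ^ A

noncomputable def Pzp (κ μ u1 A : ℝ) {V : Type} [DecidableEq V] (H : Finset (Finset V))
    (M : Finset V) : ℝ :=
  (uk κ M.card ^ 5 * zq κ H M ^ 2 + A / u1 * Real.log (M.card / μ)) * (M.card / μ) ^ A

noncomputable def P4p (μ u1 A : ℝ) {n : ℕ} (M : Finset (Sym2 (Fin n))) : ℝ :=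
  X4 M * (n : ℝ) ^ 4 / (16 * (M.card : ℝ) ^ 4) - 1 + A / u1 * Real.log (M.card / μ)

noncomputable def PZp (κ μ u1 A B R : ℝ) {V : Type} [DecidableEq V] (H : Finset (Finset V))
    (M : Finset V) : ℝ :=
  ZZ H M (xi κ H M) / (M.card * uk κ M.card ^ 4 * Real.sqrt (M.card / R)) +
    B * (Th H M / (M.card * uk κ M.card ^ 12 * Real.sqrt (M.card / R))) +
    A / u1 * Real.log (M.card / μ)

theorem E7a_uk {κ m u : ℝ} (hu : 0 ≤ u) (h : u ^ 4 = κ * m ^ 2) : uk κ m = u := by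
  unfold uk
  rw [← h]
  have e : u ^ 4 = (u ^ 2) ^ 2 := by ring
  rw [e, Real.sqrt_sq (sq_nonneg u), Real.sqrt_sq hu]

theorem E7a_uk_nonneg (κ m : ℝ) : 0 ≤ uk κ m := Real.sqrt_nonneg _

theorem E7a_uk_mono {κ m m' : ℝ} (hκ : 0 ≤ κ) (h0 : 0 ≤ m') (h : m' ≤ m) :
    uk κ m' ≤ uk κ m := by
  unfold uk
  refine Real.sqrt_le_sqrt (Real.sqrt_le_sqrt ?_)
  exact mul_le_mul_of_nonneg_left (pow_le_pow_left₀ h0 h 2) hκ

theorem E7a_uk_sq {κ m : ℝ} (hκ : 0 ≤ κ) (hm : 0 ≤ m) : uk κ m ^ 2 = Real.sqrt κ * m := by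
  unfold uk
  rw [Real.sq_sqrt (Real.sqrt_nonneg _), Real.sqrt_mul hκ, Real.sqrt_sq hm]

/-- `u^15 / m` increases with `m` -/
theorem E7a_uk15 {κ m m' : ℝ} (hκ : 0 ≤ κ) (h0 : 0 < m') (h : m' ≤ m) :
    uk κ m' ^ 15 / m' ≤ uk κ m ^ 15 / m := by
  have hm : 0 < m := lt_of_lt_of_le h0 h
  have e : ∀ m : ℝ, 0 < m → uk κ m ^ 15 / m = Real.sqrt κ * uk κ m ^ 13 := by
    intro m hm
    have h1 : uk κ m ^ 15 = uk κ m ^ 2 * uk κ m ^ 13 := by ring
    rw [h1, E7a_uk_sq hκ hm.le]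
    field_simp
  rw [e m' h0, e m hm]
  exact mul_le_mul_of_nonneg_left
    (pow_le_pow_left₀ (E7a_uk_nonneg _ _) (E7a_uk_mono hκ h0.le h) 13) (Real.sqrt_nonneg _)

theorem E7a_log {m μ : ℝ} (hm : 10 ≤ m) (hμ : 0 < μ) :
    Real.log ((m - 3) / μ) ≤ Real.log (m / μ) - 3 / m := by
  have hm0 : 0 < m := by linarith
  have hm3 : 0 < m - 3 := by linarith
  have e : (m - 3) / μ = (m / μ) * ((m - 3) / m) := by field_simp
  rw [e, Real.log_mul (by positivity) (by positivity)]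
  have h1 : Real.log ((m - 3) / m) ≤ (m - 3) / m - 1 := Real.log_le_sub_one_of_pos (by positivity)
  have h2 : (m - 3) / m - 1 = -(3 / m) := by field_simp; ring
  linarith

theorem E7a_pow {m μ A : ℝ} (hm : 10 ≤ m) (hμ : 0 < μ) (hA : 0 ≤ A) :
    (1 + A / m) * ((m - 3) / μ) ^ A ≤ (m / μ) ^ A := by
  have hm0 : 0 < m := by linarith
  have hm3 : 0 < m - 3 := by linarith
  have e : (m - 3) / μ = (m / μ) * ((m - 3) / m) := by field_simp
  rw [e, Real.mul_rpow (by positivity) (by positivity)]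
  have h1 : (1 + A / m) * ((m - 3) / m) ^ A ≤ 1 := by
    have h2 : 1 + A / m ≤ Real.exp (A / m) := by
      have := Real.add_one_le_exp (A / m)
      linarith
    have h3 : ((m - 3) / m) ^ A ≤ Real.exp (-(A / m)) := by
      rw [Real.rpow_def_of_pos (by positivity)]
      refine Real.exp_le_exp.2 ?_
      have h4 : Real.log ((m - 3) / m) ≤ (m - 3) / m - 1 :=
        Real.log_le_sub_one_of_pos (by positivity)
      have h5 : (m - 3) / m - 1 = -(3 / m) := by field_simp; ring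
      have h6 : Real.log ((m - 3) / m) * A ≤ -(3 / m) * A :=
        mul_le_mul_of_nonneg_right (by linarith) hA
      have h7 : 0 ≤ A / m := by positivity
      have h8 : -(3 / m) * A = -(3 * (A / m)) := by ring
      linarith
    calc (1 + A / m) * ((m - 3) / m) ^ A ≤ Real.exp (A / m) * Real.exp (-(A / m)) :=
          mul_le_mul h2 h3 (by positivity) (Real.exp_pos _).le
      _ = 1 := by rw [← Real.exp_add, add_neg_cancel, Real.exp_zero]
  have h9 : 0 ≤ (m / μ) ^ A := by positivity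
  calc (1 + A / m) * ((m / μ) ^ A * ((m - 3) / m) ^ A) =
        (m / μ) ^ A * ((1 + A / m) * ((m - 3) / m) ^ A) := by ring
    _ ≤ (m / μ) ^ A * 1 := mul_le_mul_of_nonneg_left h1 h9
    _ = (m / μ) ^ A := mul_one _

/-- general form of the one-step inequality of a potential -/
theorem E7a_step {ι : Type*} (s : Finset ι) (f : ι → ℝ) {m μ u1 A Q X : ℝ} (hQ : (s.card : ℝ) = Q)
    (hm : 10 ≤ m) (hμ : 0 < μ) (hμm : μ ≤ m) (hu1 : 0 < u1) (hA : 1 ≤ A) (hX : 0 ≤ X)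
    (h : ∑ T ∈ s, f T ≤ Q * (X * (1 + A / m) + 3 * A / (m * u1))) :
    ∑ T ∈ s, (f T + A / u1 * Real.log ((m - 3) / μ)) * ((m - 3) / μ) ^ A ≤
      Q * ((X + A / u1 * Real.log (m / μ)) * (m / μ) ^ A) := by
  have hm0 : 0 < m := by linarith
  have hm3 : 0 < m - 3 := by linarith
  have hQ0 : 0 ≤ Q := by rw [← hQ]; positivity
  have hL0 : 0 ≤ Real.log (m / μ) := Real.log_nonneg (by rw [le_div_iff₀ hμ]; linarith)
  have hlog := E7a_log hm hμ
  have hpow := E7a_pow hm hμ (by linarith : (0 : ℝ) ≤ A)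
  rw [← Finset.sum_mul, Finset.sum_add_distrib, Finset.sum_const, nsmul_eq_mul, hQ]
  have h1 : ∑ T ∈ s, f T + Q * (A / u1 * Real.log ((m - 3) / μ)) ≤
      Q * ((X + A / u1 * Real.log (m / μ)) * (1 + A / m)) := by
    have h2 : A / u1 * Real.log ((m - 3) / μ) ≤ A / u1 * (Real.log (m / μ) - 3 / m) :=
      mul_le_mul_of_nonneg_left hlog (by positivity)
    have h3 : A / u1 * (Real.log (m / μ) - 3 / m) =
        A / u1 * Real.log (m / μ) - 3 * A / (m * u1) := by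
      field_simp
    have h4 : 0 ≤ A / u1 * Real.log (m / μ) * (A / m) := by positivity
    calc ∑ T ∈ s, f T + Q * (A / u1 * Real.log ((m - 3) / μ)) ≤
        Q * (X * (1 + A / m) + 3 * A / (m * u1)) +
          Q * (A / u1 * Real.log (m / μ) - 3 * A / (m * u1)) := by
          have h5 := mul_le_mul_of_nonneg_left h2 hQ0
          rw [h3] at h5
          linarith
      _ = Q * (X * (1 + A / m) + A / u1 * Real.log (m / μ)) := by ring
      _ ≤ Q * ((X + A / u1 * Real.log (m / μ)) * (1 + A / m)) := by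
          refine mul_le_mul_of_nonneg_left ?_ hQ0
          nlinarith
  have hB : 0 ≤ X + A / u1 * Real.log (m / μ) := by positivity
  calc (∑ T ∈ s, f T + Q * (A / u1 * Real.log ((m - 3) / μ))) * ((m - 3) / μ) ^ A ≤
      (Q * ((X + A / u1 * Real.log (m / μ)) * (1 + A / m))) * ((m - 3) / μ) ^ A :=
        mul_le_mul_of_nonneg_right h1 (by positivity)
    _ = Q * ((X + A / u1 * Real.log (m / μ)) * ((1 + A / m) * ((m - 3) / μ) ^ A)) := by ring
    _ ≤ Q * ((X + A / u1 * Real.log (m / μ)) * (m / μ) ^ A) :=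
        mul_le_mul_of_nonneg_left (mul_le_mul_of_nonneg_left hpow hB) hQ0

section g1

variable {V : Type} [DecidableEq V] {H : Finset (Finset V)} {M : Finset V} {κ m Q u D : ℝ}

theorem E7a_m (g : G1 κ H M m Q u D) : 10 ^ 18 ≤ m := by
  have h1 : (1000 : ℝ) ^ 6 ≤ u ^ 6 := pow_le_pow_left₀ (by norm_num) g.hu 6
  have h2 := g.hum
  have h3 : (1000 : ℝ) ^ 6 = 10 ^ 18 := by norm_num
  linarith

theorem E7a_D (g : G1 κ H M m Q u D) : 9 / 10 * u ^ 4 ≤ D ∧ D ≤ u ^ 4 := by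
  have hm := E7a_m g
  have hκ := g.hκ
  have hD : D = κ * (m - 3) * (m - 6) := by rw [g.hD]; unfold Dr; ring
  rw [hD, g.hu4]
  constructor
  · have h1 : 9 / 10 * m ^ 2 ≤ (m - 3) * (m - 6) := by nlinarith
    have h2 := mul_le_mul_of_nonneg_left h1 hκ.le
    linarith
  · have h1 : (m - 3) * (m - 6) ≤ m ^ 2 := by nlinarith
    have h2 := mul_le_mul_of_nonneg_left h1 hκ.le
    linarith

theorem E7a_card (g : G1 κ H M m Q u D) {T : Finset V} (hT : T ∈ sub H M) :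
    (((M \ T).card : ℕ) : ℝ) = m - 3 := by
  rw [P046.mem_sub] at hT
  have h1 := Finset.card_sdiff_of_subset hT.2
  have h2 := g.lin.card3 T hT.1
  have h3 : T.card ≤ M.card := Finset.card_le_card hT.2
  rw [h1, Nat.cast_sub h3, h2, g.hm]
  norm_num

theorem E7a_zq (g : G1 κ H M m Q u D) : |zq κ H M| ≤ 1 / 8 := by
  have h1 := g.hz
  have h2 : (1000 : ℝ) ^ 5 ≤ u ^ 5 := pow_le_pow_left₀ (by norm_num) g.hu 5
  have h3 : zq κ H M ^ 2 ≤ (1 / 8) ^ 2 := by
    have h4 := mul_le_mul_of_nonneg_right h2 (sq_nonneg (zq κ H M))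
    nlinarith [sq_nonneg (zq κ H M)]
  exact abs_le_of_sq_le_sq h3 (by norm_num)

end g1

theorem E7a_X8_nonneg (κ : ℝ) {V : Type} [DecidableEq V] (H : Finset (Finset V)) (M : Finset V) :
    0 ≤ X8 κ H M := by
  unfold X8
  refine Finset.sum_nonneg fun x _ => ?_
  have : xi κ H M x ^ 8 = (xi κ H M x ^ 4) ^ 2 := by ring
  rw [this]
  exact sq_nonneg _

/-- `u^15/m` increases with `m`; source `(u^15/m) C/D^4 ≤ 2 C/(m u)` -/
theorem P8_step : ∃ C : ℝ, 1 ≤ C ∧ ∀ (V : Type) [DecidableEq V] (H : Finset (Finset V))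
    (M : Finset V) (κ m Q u D μ u1 A : ℝ), G1 κ H M m Q u D → 0 < μ → μ ≤ m → 0 < u1 → u1 ≤ u →
    C ≤ A → ∑ T ∈ sub H M, P8p κ μ u1 A H (M \ T) ≤ Q * P8p κ μ u1 A H M := by
  obtain ⟨C, hC1, hC⟩ := step_X8
  refine ⟨C, hC1, ?_⟩
  intro V _ H M κ m Q u D μ u1 A g hμ hμm hu1 hu1u hCA
  have hm := E7a_m g
  have hm0 : 0 < m := by linarith
  have hu : 0 < u := by linarith [g.hu]
  have hA0 : 0 < A := by linarith
  obtain ⟨hD1, hD2⟩ := E7a_D g
  have hu4 : (1000 : ℝ) ^ 4 ≤ u ^ 4 := pow_le_pow_left₀ (by norm_num) g.hu 4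
  have hu46 : u ^ 4 ≤ u ^ 6 := pow_le_pow_right₀ (by linarith [g.hu]) (by norm_num)
  have hDr : Dr κ M.card 0 = D := by rw [g.hm, ← g.hD]
  have hX := hC V H M κ g.lin g.hκ (by rw [g.hm]; linarith) (by rw [hDr]; linarith)
    (by rw [hDr, g.hm]; linarith [g.hum]) (fun x hx => (g.hξ x hx).le) (E7a_zq g)
  rw [hDr, g.hm, g.hQ] at hX
  have huk : uk κ M.card = u := E7a_uk hu.le (by rw [g.hm]; exact g.hu4)
  have hX0 := E7a_X8_nonneg κ H M
  have hQ0 : 0 ≤ Q := by rw [← g.hQ]; positivity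
  have hD0 : 0 < D := by linarith
  have key : ∑ T ∈ sub H M, uk κ (M \ T).card ^ 15 * X8 κ H (M \ T) / (M \ T).card ≤
      Q * (uk κ M.card ^ 15 * X8 κ H M / M.card * (1 + A / m) + 3 * A / (m * u1)) := by
    have h1 : ∑ T ∈ sub H M, uk κ (M \ T).card ^ 15 * X8 κ H (M \ T) / (M \ T).card ≤
        ∑ T ∈ sub H M, (u ^ 15 / m) * X8 κ H (M \ T) := by
      refine Finset.sum_le_sum fun T hT => ?_
      rw [E7a_card g hT]
      have h2 := E7a_uk15 g.hκ.le (by linarith : (0 : ℝ) < m - 3) (by linarith : m - 3 ≤ m)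
      have h3 : uk κ m = u := E7a_uk hu.le g.hu4
      rw [h3] at h2
      have h4 := mul_le_mul_of_nonneg_right h2 (E7a_X8_nonneg κ H (M \ T))
      calc uk κ (m - 3) ^ 15 * X8 κ H (M \ T) / (m - 3) =
          uk κ (m - 3) ^ 15 / (m - 3) * X8 κ H (M \ T) := by ring
        _ ≤ _ := h4
    refine h1.trans ?_
    rw [← Finset.mul_sum, huk, g.hm]
    have h5 := mul_le_mul_of_nonneg_left hX (by positivity : 0 ≤ u ^ 15 / m)
    refine h5.trans ?_
    have h6 : u ^ 15 / m * (C / D ^ 4) ≤ 3 * A / (m * u1) := by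
      have h7 : u ^ 16 / 2 ≤ D ^ 4 := by
        have h8 : (9 / 10 * u ^ 4) ^ 4 ≤ D ^ 4 := pow_le_pow_left₀ (by positivity) hD1 4
        have h9 : (9 / 10 * u ^ 4) ^ 4 = (9 / 10) ^ 4 * u ^ 16 := by ring
        have h10 : u ^ 16 / 2 ≤ (9 / 10) ^ 4 * u ^ 16 := by
          have : 0 ≤ u ^ 16 := by positivity
          nlinarith
        linarith
      have hmu1 : 0 < m * u1 := mul_pos hm0 hu1
      have hmD : 0 < m * D ^ 4 := mul_pos hm0 (pow_pos hD0 4)
      rw [div_mul_div_comm, div_le_div_iff₀ hmD hmu1]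
      have h11 : u ^ 15 * C * (m * u1) ≤ u ^ 15 * A * (m * u) :=
        mul_le_mul (mul_le_mul_of_nonneg_left hCA (by positivity))
          (mul_le_mul_of_nonneg_left hu1u hm0.le) (by positivity) (by positivity)
      have h12 : u ^ 15 * A * (m * u) = 2 * A * (m * (u ^ 16 / 2)) := by ring
      have h13 : 2 * A * (m * (u ^ 16 / 2)) ≤ 2 * A * (m * D ^ 4) :=
        mul_le_mul_of_nonneg_left (mul_le_mul_of_nonneg_left h7 hm0.le) (by linarith)
      have h14 : 2 * A * (m * D ^ 4) ≤ 3 * A * (m * D ^ 4) :=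
        mul_le_mul_of_nonneg_right (by linarith) (by positivity)
      linarith
    have h15 : X8 κ H M * (1 + C / m) ≤ X8 κ H M * (1 + A / m) :=
      mul_le_mul_of_nonneg_left (by
        have := div_le_div_of_nonneg_right hCA hm0.le
        linarith) hX0
    have h16 := mul_le_mul_of_nonneg_left h15 (by positivity : 0 ≤ u ^ 15 / m)
    calc u ^ 15 / m * (Q * (X8 κ H M * (1 + C / m) + C / D ^ 4)) =
        Q * (u ^ 15 / m * (X8 κ H M * (1 + C / m)) + u ^ 15 / m * (C / D ^ 4)) := by ring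
      _ ≤ Q * (u ^ 15 / m * (X8 κ H M * (1 + A / m)) + 3 * A / (m * u1)) :=
          mul_le_mul_of_nonneg_left (add_le_add h16 h6) hQ0
      _ = Q * (u ^ 15 * X8 κ H M / m * (1 + A / m) + 3 * A / (m * u1)) := by ring
  have hfin := E7a_step (sub H M)
    (fun T => uk κ (M \ T).card ^ 15 * X8 κ H (M \ T) / (M \ T).card) g.hQ
    (by linarith : 10 ≤ m) hμ hμm hu1 (by linarith)
    (div_nonneg (mul_nonneg (pow_nonneg (E7a_uk_nonneg _ _) _) hX0) (Nat.cast_nonneg _)) key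
  have e1 : ∑ T ∈ sub H M, P8p κ μ u1 A H (M \ T) =
      ∑ T ∈ sub H M, (uk κ (M \ T).card ^ 15 * X8 κ H (M \ T) / (M \ T).card +
        A / u1 * Real.log ((m - 3) / μ)) * ((m - 3) / μ) ^ A := by
    refine Finset.sum_congr rfl fun T hT => ?_
    unfold P8p
    rw [E7a_card g hT]
  have e2 : P8p κ μ u1 A H M = (uk κ M.card ^ 15 * X8 κ H M / M.card +
      A / u1 * Real.log (m / μ)) * (m / μ) ^ A := by
    unfold P8p
    rw [g.hm]
  rw [e1, e2]
  exact hfin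

theorem Pz_step : ∃ C : ℝ, 1 ≤ C ∧ ∀ (V : Type) [DecidableEq V] (H : Finset (Finset V))
    (M : Finset V) (κ m Q u D μ u1 A : ℝ), G1 κ H M m Q u D → 0 < μ → μ ≤ m → 0 < u1 → u1 ≤ u →
    C ≤ A → ∑ T ∈ sub H M, Pzp κ μ u1 A H (M \ T) ≤ Q * Pzp κ μ u1 A H M := by
  obtain ⟨C, hC1, hC⟩ := step_zq
  refine ⟨C + 5, by linarith, ?_⟩
  intro V _ H M κ m Q u D μ u1 A g hμ hμm hu1 hu1u hCA
  have hm := E7a_m g
  have hm0 : 0 < m := by linarith
  have hu : 0 < u := by linarith [g.hu]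
  have hA0 : 0 < A := by linarith
  have hX := hC V H M κ m Q u D g
  have huk : uk κ M.card = u := E7a_uk hu.le (by rw [g.hm]; exact g.hu4)
  have hQ0 : 0 ≤ Q := by rw [← g.hQ]; positivity
  have hA5 : 5 ≤ A := by linarith
  have hCA' : C ≤ A := by linarith
  have key : ∑ T ∈ sub H M, uk κ (M \ T).card ^ 5 * zq κ H (M \ T) ^ 2 ≤
      Q * (uk κ M.card ^ 5 * zq κ H M ^ 2 * (1 + A / m) + 3 * A / (m * u1)) := by
    have h1 : ∑ T ∈ sub H M, uk κ (M \ T).card ^ 5 * zq κ H (M \ T) ^ 2 ≤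
        ∑ T ∈ sub H M, u ^ 5 * zq κ H (M \ T) ^ 2 := by
      refine Finset.sum_le_sum fun T hT => ?_
      rw [E7a_card g hT]
      have h2 : uk κ (m - 3) ≤ uk κ m := E7a_uk_mono g.hκ.le (by linarith) (by linarith)
      have h3 : uk κ m = u := E7a_uk hu.le g.hu4
      rw [h3] at h2
      exact mul_le_mul_of_nonneg_right (pow_le_pow_left₀ (E7a_uk_nonneg _ _) h2 5) (sq_nonneg _)
    refine h1.trans ?_
    rw [← Finset.mul_sum, huk]
    have h5 := mul_le_mul_of_nonneg_left hX (by positivity : 0 ≤ u ^ 5)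
    refine h5.trans ?_
    have h6 : u ^ 5 * (C / (m * u ^ 6)) ≤ 3 * A / (m * u1) := by
      rw [← mul_div_assoc, div_le_div_iff₀ (by positivity) (by positivity)]
      have h11 : u ^ 5 * C * (m * u1) ≤ u ^ 5 * A * (m * u) :=
        mul_le_mul (mul_le_mul_of_nonneg_left hCA' (by positivity))
          (mul_le_mul_of_nonneg_left hu1u hm0.le) (by positivity) (by positivity)
      have h12 : u ^ 5 * A * (m * u) = 1 * A * (m * u ^ 6) := by ring
      have h14 : 1 * A * (m * u ^ 6) ≤ 3 * A * (m * u ^ 6) :=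
        mul_le_mul_of_nonneg_right (by linarith) (by positivity)
      linarith
    have h15 : zq κ H M ^ 2 * (1 + 5 / m) ≤ zq κ H M ^ 2 * (1 + A / m) :=
      mul_le_mul_of_nonneg_left (by
        have := div_le_div_of_nonneg_right hA5 hm0.le
        linarith) (sq_nonneg _)
    have h16 := mul_le_mul_of_nonneg_left h15 (by positivity : 0 ≤ u ^ 5)
    calc u ^ 5 * (Q * (zq κ H M ^ 2 * (1 + 5 / m) + C / (m * u ^ 6))) =
        Q * (u ^ 5 * (zq κ H M ^ 2 * (1 + 5 / m)) + u ^ 5 * (C / (m * u ^ 6))) := by ring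
      _ ≤ Q * (u ^ 5 * (zq κ H M ^ 2 * (1 + A / m)) + 3 * A / (m * u1)) :=
          mul_le_mul_of_nonneg_left (add_le_add h16 h6) hQ0
      _ = Q * (u ^ 5 * zq κ H M ^ 2 * (1 + A / m) + 3 * A / (m * u1)) := by ring
  have hfin := E7a_step (sub H M)
    (fun T => uk κ (M \ T).card ^ 5 * zq κ H (M \ T) ^ 2) g.hQ
    (by linarith : 10 ≤ m) hμ hμm hu1 (by linarith) (by
      have := E7a_uk_nonneg κ M.card
      positivity) key
  have e1 : ∑ T ∈ sub H M, Pzp κ μ u1 A H (M \ T) =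
      ∑ T ∈ sub H M, (uk κ (M \ T).card ^ 5 * zq κ H (M \ T) ^ 2 +
        A / u1 * Real.log ((m - 3) / μ)) * ((m - 3) / μ) ^ A := by
    refine Finset.sum_congr rfl fun T hT => ?_
    unfold Pzp
    rw [E7a_card g hT]
  have e2 : Pzp κ μ u1 A H M = (uk κ M.card ^ 5 * zq κ H M ^ 2 +
      A / u1 * Real.log (m / μ)) * (m / μ) ^ A := by
    unfold Pzp
    rw [g.hm]
  rw [e1, e2]
  exact hfin

end Vale.Agent.P046S
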