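import Vale.Agent.P046S.DDef
import Vale.Agent.P046LF.Basic

/-!
P046 sharp constant, stage I (dense regime): definitions.
-/

namespace Vale.Agent.P046S

open Finset Vale.Agent.P046 Vale.Agent.P046LF

variable {V : Type} [DecidableEq V]

/-- relative degree deviation -/
noncomputable def xi (κ : ℝ) (H : Finset (Finset V)) (M : Finset V) : V → ℝ :=
  fun x => (deg H M x : ℝ) / Dr κ M.card 0 - 1

noncomputable def X8 (κ : ℝ) (H : Finset (Finset V)) (M : Finset V) : ℝ :=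
  ∑ x ∈ M, xi κ H M x ^ 8

/-- deviation of the number of triples (it is the mean of `xi`) -/
noncomputable def zq (κ : ℝ) (H : Finset (Finset V)) (M : Finset V) : ℝ :=
  (sub H M).card / Qh κ M.card - 1

/-- lower bound for the quadratic form of the adjacency operator -/
def QF (H : Finset (Finset V)) (M : Finset V) (c : ℝ) : Prop :=
  ∀ v : V → ℝ, -(c * ∑ x ∈ M, v x ^ 2) ≤ ∑ y ∈ M, v y * SN H M v y

/-- good state of stage I -/
structure G1 (κ : ℝ) (H : Finset (Finset V)) (M : Finset V) (m Q u D : ℝ) : Prop where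
  lin : IsLin3 H
  hm : (M.card : ℝ) = m
  hQ : ((sub H M).card : ℝ) = Q
  hκ : 0 < κ
  hu : 1000 ≤ u
  hu4 : u ^ 4 = κ * m ^ 2
  hum : u ^ 6 ≤ m
  hD : D = Dr κ m 0
  hdeg : ∀ x ∈ M, (deg H M x : ℝ) * u ^ 2 ≤ m
  hξ : ∀ x ∈ M, |xi κ H M x| < 1 / 8
  hX : u ^ 15 * X8 κ H M ≤ m
  hz : u ^ 5 * zq κ H M ^ 2 ≤ 1

end Vale.Agent.P046S
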