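import Vale.Agent.P046S.C3
import Vale.Agent.P046S.DDef

/-!
P046 sharp constant, module F1: the last stage from a good state at scale `qh^40 = κ m²`.

`uk κ m = qh^10`, `q^40 := Dr κ m S = κ (m-3)(m-6)(1-S)`, `(1 - 1/100) qh ≤ q ≤ qh`. `St3 (sub H M) M N q 3
δ r` (`sub (sub H M) M = sub H M`): `WW ≤ η m/qh^40 ≤ m/q^48`, `TT ≤ η m/qh^30`, `M8 ≤ η m/qh^150`,
`ZZ ≤ ηz m qh^40 ≤ qh^22 m/2 ≤ q^22 m`, `∑ exp (θ/8) ≤ XX + e^{1/2} m ≤ 3 m`, `nCy_mono`.
`EX H = EX (sub H M)` from `M`. `|m/√(2 q^40) - 1/√(2κ)| ≤ (ε/2)/√κ` because `S ≤ η` is small.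
-/

namespace Vale.Agent.P046S

open Finset Vale.Agent.P046 Vale.Agent.P046LF

theorem f1_sub_sub {V : Type} [DecidableEq V] (H : Finset (Finset V)) {M M' : Finset V}
    (h : M' ⊆ M) : sub (sub H M) M' = sub H M' := by
  ext T
  simp only [sub, mem_filter]
  constructor
  · rintro ⟨⟨h1, _⟩, h2⟩; exact ⟨h1, h2⟩
  · rintro ⟨h1, h2⟩; exact ⟨⟨h1, h2.trans h⟩, h2⟩

theorem f1_EX {V : Type} [DecidableEq V] (H : Finset (Finset V)) (φ : Finset V → ℝ)
    (M : Finset V) (k : ℕ) : ∀ M' : Finset V, M' ⊆ M → EX H φ k M' = EX (sub H M) φ k M' := by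
  induction k with
  | zero => intro M' _; rfl
  | succ k ih =>
    intro M' h
    simp only [EX]
    rw [f1_sub_sub H h]
    split_ifs with h1
    · rfl
    · congr 1
      refine sum_congr rfl fun T _ => ih _ (sdiff_subset.trans h)

/-- only the triples inside the initial state matter -/
theorem EX_subH {V : Type} [DecidableEq V] (H : Finset (Finset V)) (φ : Finset V → ℝ) (k : ℕ)
    (M : Finset V) : EX H φ k M = EX (sub H M) φ k M :=
  f1_EX H φ M k M (Subset.refl M)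

theorem f1_deg {V : Type} [DecidableEq V] (H : Finset (Finset V)) (M : Finset V) (x : V) :
    deg (sub H M) M x = deg H M x := by
  unfold deg
  rw [f1_sub_sub H (Subset.refl M)]

theorem f1_nCy_r {V : Type} [DecidableEq V] (H : Finset (Finset V)) (M L : Finset V) {r r' : ℕ}
    (h : r ≤ r') : nCy H M L r ≤ nCy H M L r' := by
  unfold nCy
  apply sum_le_sum_of_subset_of_nonneg
  · intro x hx
    rw [mem_range] at hx ⊢
    omega
  · intros; positivity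

theorem f1_uk {κ m qh : ℝ} (hκ : 0 < κ) (_hq : 0 ≤ qh) (h : qh ^ 40 = κ * m ^ 2) :
    uk κ m = qh ^ 10 := by
  have h0 : 0 ≤ κ * m ^ 2 := by positivity
  have h1 : uk κ m ^ 4 = κ * m ^ 2 := by
    unfold uk
    have e : ∀ a : ℝ, a ^ 4 = (a ^ 2) ^ 2 := fun a => by ring
    rw [e, Real.sq_sqrt (Real.sqrt_nonneg _), Real.sq_sqrt h0]
  have h2 : uk κ m ^ 4 = (qh ^ 10) ^ 4 := by rw [h1, ← h]; ring
  exact (pow_left_inj₀ (Real.sqrt_nonneg _) (by positivity) (by norm_num)).1 h2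

/-- the exact scale -/
theorem f1_q {κ m qh S : ℝ} (hκ : 0 < κ) (hq : 1 ≤ qh) (h : qh ^ 40 = κ * m ^ 2) (hm : 1000 ≤ m)
    (hS0 : 0 ≤ S) (hS : S ≤ 1 / 4) :
    ∃ q x : ℝ, 0 < q ∧ q ^ 40 = Dr κ m S ∧ q ≤ qh ∧ 99 / 100 * qh ≤ q ∧
      Dr κ m S = x * (κ * m ^ 2) ∧ 1 - (9 / m + S) ≤ x ∧ x ≤ 1 ∧ 7 / 10 ≤ x := by
  have hm0 : 0 < m := by linarith
  obtain ⟨x, hx⟩ : ∃ x : ℝ, x = (1 - 3 / m) * (1 - 6 / m) * (1 - S) := ⟨_, rfl⟩
  have e : Dr κ m S = x * (κ * m ^ 2) := by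
    rw [hx]; unfold Dr; field_simp
  have h3 : 3 / m ≤ 3 / 1000 := div_le_div_of_nonneg_left (by norm_num) (by norm_num) hm
  have h6 : 6 / m ≤ 6 / 1000 := div_le_div_of_nonneg_left (by norm_num) (by norm_num) hm
  have h30 : 0 < 3 / m := by positivity
  have h60 : 0 < 6 / m := by positivity
  have h9 : 9 / m = 3 / m + 6 / m := by ring
  have hp : 1 - 9 / m ≤ (1 - 3 / m) * (1 - 6 / m) := by
    rw [h9]; nlinarith
  have hp1 : (1 - 3 / m) * (1 - 6 / m) ≤ 1 := by nlinarith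
  have hp0 : 0 ≤ (1 - 3 / m) * (1 - 6 / m) := by
    apply mul_nonneg <;> linarith
  have hxlo : 1 - (9 / m + S) ≤ x := by
    rw [hx]
    have h4 : (1 - 9 / m) * (1 - S) ≤ (1 - 3 / m) * (1 - 6 / m) * (1 - S) :=
      mul_le_mul_of_nonneg_right hp (by linarith)
    have h5 : 0 ≤ 9 / m * S := by positivity
    nlinarith
  have hx1 : x ≤ 1 := by
    rw [hx]
    have h4 : (1 - 3 / m) * (1 - 6 / m) * (1 - S) ≤ 1 * 1 :=
      mul_le_mul hp1 (by linarith) (by linarith) (by norm_num)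
    linarith
  have hx7 : 7 / 10 ≤ x := by
    have : 9 / m ≤ 9 / 1000 := div_le_div_of_nonneg_left (by norm_num) (by norm_num) hm
    linarith
  have hx0 : 0 < x := by linarith
  have hD0 : 0 < Dr κ m S := by rw [e]; positivity
  obtain ⟨q, hq0, hq40⟩ : ∃ q : ℝ, 0 < q ∧ q ^ 40 = Dr κ m S := by
    refine ⟨(Dr κ m S) ^ ((1 : ℝ) / 40), Real.rpow_pos_of_pos hD0 _, ?_⟩
    rw [← Real.rpow_natCast, ← Real.rpow_mul hD0.le]
    norm_num
  refine ⟨q, x, hq0, hq40, ?_, ?_, e, hxlo, hx1, hx7⟩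
  · apply le_of_pow_le_pow_left₀ (n := 40) (by norm_num) (by linarith)
    rw [hq40, e, h]
    have : 0 < κ * m ^ 2 := by positivity
    nlinarith
  · apply le_of_pow_le_pow_left₀ (n := 40) (by norm_num) hq0.le
    rw [mul_pow, hq40, e, h]
    have h1 : ((99 : ℝ) / 100) ^ 40 ≤ 7 / 10 := by norm_num
    have : 0 < κ * m ^ 2 := by positivity
    nlinarith

/-- comparison of the centres -/
theorem f1_center {κ m q x ε : ℝ} (hκ : 0 < κ) (hm : 0 < m) (hε : 0 < ε) (hq0 : 0 < q)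
    (hq : q ^ 40 = x * (κ * m ^ 2)) (hx1 : x ≤ 1) (hx7 : 7 / 10 ≤ x)
    (hx : 1 - x ≤ ε / 4) :
    |m / Real.sqrt (2 * q ^ 40) - 1 / Real.sqrt (2 * κ)| ≤ ε / 2 / Real.sqrt κ ∧
    m / q ^ 20 ≤ 2 / Real.sqrt κ := by
  have hx0 : 0 < x := by linarith
  obtain ⟨s, hs⟩ : ∃ s : ℝ, s = Real.sqrt κ := ⟨_, rfl⟩
  obtain ⟨y, hy⟩ : ∃ y : ℝ, y = Real.sqrt x := ⟨_, rfl⟩
  obtain ⟨w, hw⟩ : ∃ w : ℝ, w = Real.sqrt 2 := ⟨_, rfl⟩
  have hs0 : 0 < s := by rw [hs]; exact Real.sqrt_pos.2 hκ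
  have hy0 : 0 < y := by rw [hy]; exact Real.sqrt_pos.2 hx0
  have hw1 : 1 ≤ w := by rw [hw]; exact Real.one_le_sqrt.2 (by norm_num)
  have hw0 : 0 < w := by linarith
  have hyx : x ≤ y := by
    rw [hy]; apply Real.le_sqrt_of_sq_le; nlinarith
  have hy1 : y ≤ 1 := by
    rw [hy]; exact Real.sqrt_le_one.2 hx1
  have e1 : Real.sqrt (2 * q ^ 40) = w * (y * (s * m)) := by
    rw [hq, Real.sqrt_mul (by norm_num), Real.sqrt_mul hx0.le, Real.sqrt_mul hκ.le,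
      Real.sqrt_sq hm.le, hs, hy, hw]
  have e2 : Real.sqrt (2 * κ) = w * s := by rw [Real.sqrt_mul (by norm_num), hs, hw]
  have e3 : q ^ 20 = y * (s * m) := by
    have h1 : q ^ 20 = Real.sqrt (q ^ 40) := by
      rw [show q ^ 40 = (q ^ 20) ^ 2 by ring, Real.sqrt_sq (by positivity)]
    rw [h1, hq, Real.sqrt_mul hx0.le, Real.sqrt_mul hκ.le, Real.sqrt_sq hm.le, hs, hy]
  have hyl : 7 / 10 ≤ y := hx7.trans hyx
  constructor
  · rw [e1, e2, ← hs]
    have e4 : m / (w * (y * (s * m))) - 1 / (w * s) = (1 - y) / (w * (y * s)) := by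
      field_simp
    rw [e4, abs_of_nonneg (by apply div_nonneg <;> [linarith; positivity])]
    rw [div_le_div_iff₀ (by positivity) hs0]
    have h1 : 1 - y ≤ ε / 4 := by linarith
    have h2 : (1 - y) * s ≤ ε / 4 * s := mul_le_mul_of_nonneg_right h1 hs0.le
    have h3 : ε / 2 * (7 / 10 * s) ≤ ε / 2 * (w * (y * s)) := by
      apply mul_le_mul_of_nonneg_left _ (by positivity)
      have h4 : 1 * (7 / 10 * s) ≤ w * (y * s) :=
        mul_le_mul hw1 (mul_le_mul_of_nonneg_right hyl hs0.le) (by positivity) hw0.le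
      linarith
    have h5 : 0 < ε * s := by positivity
    nlinarith
  · rw [e3, ← hs, div_le_div_iff₀ (by positivity) hs0]
    have h5 : 0 < s * m := by positivity
    nlinarith

theorem f1_exp {θ : ℝ} : Real.exp (θ / 8) ≤ xe θ + 2 := by
  have h1 : Real.exp (1 / 2) ≤ 2 := by
    have h2 : Real.exp (1 / 2) ^ 2 ≤ 2 ^ 2 := by
      rw [← Real.exp_nat_mul]
      have := Real.exp_one_lt_d9
      norm_num at this ⊢
      linarith
    exact le_of_pow_le_pow_left₀ (by norm_num) (by norm_num) h2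
  have h3 : Real.exp (θ / 8) - Real.exp (1 / 2) ≤ xe θ := le_max_left _ _
  linarith

/-- the state of stage III -/
theorem f1_St3 {V : Type} [Fintype V] [DecidableEq V] {H : Finset (Finset V)} {M : Finset V}
    {N : V → ℝ} {κ qh q η ηz a b δ S x : ℝ} {r r' : ℕ} (hH : IsLin3 H)
    (hu : uk κ M.card = qh ^ 10) (hq1 : 1 ≤ q) (hqh : q ≤ qh)
    (hη : η ≤ 1 / (4 * qh ^ 8)) (hηz : ηz ≤ 1 / (2 * qh ^ 18))
    (hG : Good κ η ηz H M N S) (hq : q ^ 40 = Dr κ M.card S) (hx : q ^ 40 = x * qh ^ 40)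
    (hx7 : 7 / 10 ≤ x)
    (hC : CycE H M a b r') (hrr : r ≤ r') (hab : a + b ≤ δ * M.card) :
    St3 (sub H M) M N q 3 δ r := by
  have hqh1 : 1 ≤ qh := hq1.trans hqh
  have hq0 : 0 < q := by linarith
  have hqh0 : 0 < qh := by linarith
  have hm : (0 : ℝ) ≤ M.card := Nat.cast_nonneg _
  have hηm : η * M.card ≤ 1 / (4 * qh ^ 8) * M.card := mul_le_mul_of_nonneg_right hη hm
  -- a general comparison
  have key : ∀ (A : ℝ) (n j : ℕ), qh ^ n * A ≤ η * M.card → j ≤ n + 8 → A ≤ M.card / q ^ j := by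
    intro A n j h1 h2
    rw [le_div_iff₀ (by positivity)]
    have h3 : qh ^ n * A ≤ 1 / (4 * qh ^ 8) * M.card := h1.trans hηm
    have h4 : A * (4 * qh ^ (n + 8)) ≤ M.card := by
      have h5 := mul_le_mul_of_nonneg_left h3 (by positivity : (0 : ℝ) ≤ 4 * qh ^ 8)
      have e1 : 4 * qh ^ 8 * (1 / (4 * qh ^ 8) * (M.card : ℝ)) = M.card := by
        field_simp
      have e2 : 4 * qh ^ 8 * (qh ^ n * A) = A * (4 * qh ^ (n + 8)) := by
        rw [pow_add]; ring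
      rw [e1, e2] at h5
      exact h5
    have h6 : q ^ j ≤ 4 * qh ^ (n + 8) := by
      have h7 : q ^ j ≤ qh ^ j := pow_le_pow_left₀ hq0.le hqh j
      have h8 : qh ^ j ≤ qh ^ (n + 8) := pow_le_pow_right₀ hqh1 h2
      have h9 : 0 < qh ^ (n + 8) := by positivity
      linarith
    rcases le_or_gt A 0 with hA | hA
    · exact (mul_nonpos_of_nonpos_of_nonneg hA (by positivity)).trans hm
    · exact (mul_le_mul_of_nonneg_left h6 hA.le).trans h4
  obtain ⟨L, hL1, hL2⟩ := hC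
  refine ⟨⟨fun T hT => hH.card3 T (filter_subset _ _ hT),
    fun T hT T' hT' => hH.lin T (filter_subset _ _ hT) T' (filter_subset _ _ hT')⟩,
    fun T hT => (mem_filter.1 hT).2, hG.hN, ?_, ?_, ?_, ?_, ?_, L, ?_⟩
  · have h1 := hG.hM
    rw [hu, ← pow_mul] at h1
    exact key _ 150 156 h1 (by norm_num)
  · have h1 := hG.hW
    rw [hu, ← pow_mul, ← hq] at h1
    have e : WW (sub H M) M N (q ^ 40) = WW H M N (q ^ 40) := by
      unfold WW; simp only [f1_deg]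
    rw [e]
    exact key _ 40 48 h1 (by norm_num)
  · have h1 := hG.hZ
    rw [hu, ← pow_mul] at h1
    have e : ZZ (sub H M) M N = ZZ H M N := by
      unfold ZZ SN; rw [f1_sub_sub H (Subset.refl M)]
    rw [e]
    have h2 : ηz * (M.card * qh ^ (10 * 4)) ≤ 1 / (2 * qh ^ 18) * (M.card * qh ^ (10 * 4)) :=
      mul_le_mul_of_nonneg_right hηz (by positivity)
    have e2 : 1 / (2 * qh ^ 18) * (M.card * qh ^ (10 * 4)) = 1 / 2 * qh ^ 22 * M.card := by
      field_simp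
      ring
    have h3 : 1 / 2 * qh ^ 22 ≤ q ^ 22 := by
      have h4 : q ^ 40 ≤ q ^ 22 * qh ^ 18 := by
        calc q ^ 40 = q ^ 22 * q ^ 18 := by ring
          _ ≤ q ^ 22 * qh ^ 18 := mul_le_mul_of_nonneg_left (pow_le_pow_left₀ hq0.le hqh 18)
              (by positivity)
      have h5 : 1 / 2 * qh ^ 22 * qh ^ 18 ≤ q ^ 22 * qh ^ 18 := by
        refine le_trans ?_ h4
        rw [hx]
        have : 0 < qh ^ 40 := by positivity
        calc 1 / 2 * qh ^ 22 * qh ^ 18 = 1 / 2 * qh ^ 40 := by ring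
          _ ≤ x * qh ^ 40 := mul_le_mul_of_nonneg_right (by linarith) this.le
      exact le_of_mul_le_mul_right h5 (by positivity)
    rw [e2] at h2
    exact h1.trans (h2.trans (mul_le_mul_of_nonneg_right h3 hm))
  · have h1 := hG.hT
    rw [hu, ← pow_mul, ← hq] at h1
    have e : TT (sub H M) M (q ^ 40) = TT H M (q ^ 40) := by
      unfold TT; simp only [f1_deg]
    rw [e]
    exact key _ 30 38 h1 (by norm_num)
  · have h1 := hG.hX
    rw [← hq] at h1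
    unfold XX at h1
    have h2 : ∀ x ∈ M, Real.exp ((deg (sub H M) M x : ℝ) / (8 * q ^ 40)) ≤
        xe ((deg H M x : ℝ) / q ^ 40) + 2 := by
      intro x _
      rw [f1_deg]
      have e : (deg H M x : ℝ) / (8 * q ^ 40) = (deg H M x : ℝ) / q ^ 40 / 8 := by
        field_simp
      rw [e]
      exact f1_exp
    have h3 := sum_le_sum h2
    rw [sum_add_distrib, sum_const, nsmul_eq_mul] at h3
    have h4 : 1 / (4 * qh ^ 8) ≤ 1 := by
      rw [div_le_one (by positivity)]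
      have := one_le_pow₀ hqh1 (n := 8)
      linarith
    have h5 := mul_le_mul_of_nonneg_right h4 hm
    linarith
  · have h1 := nCy_mono (H' := sub H M) (H := H) (M' := M) (M := M) (L := L)
      (filter_subset _ _) (Subset.refl M) r
    have h2 := f1_nCy_r H M L hrr
    linarith

theorem last (ε : ℝ) (hε : 0 < ε) : ∃ q0 : ℝ, 1 ≤ q0 ∧ ∀ q1 : ℝ, q0 ≤ q1 →
    ∃ r : ℕ, 1 ≤ r ∧ ∃ δ : ℝ, 0 < δ ∧ ∃ m0 : ℕ,
    ∀ (V : Type) [Fintype V] [DecidableEq V] (H : Finset (Finset V)) (M : Finset V)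
      (κ qh η ηz a b : ℝ) (k : ℕ), IsLin3 H → 0 < κ → qh ^ 40 = κ * (M.card : ℝ) ^ 2 →
      q1 ≤ qh → qh ≤ 3 / 2 * q1 → η ≤ 1 / (4 * qh ^ 8) → ηz ≤ 1 / (2 * qh ^ 18) →
      GoodE κ η ηz H M → CycE H M a b r → a + b ≤ δ * M.card → m0 ≤ M.card →
      M.card ≤ 3 * k + 2 →
      EX H (fun M' => |(M'.card : ℝ) - 1 / Real.sqrt (2 * κ)|) k M ≤ ε / Real.sqrt κ := by
  obtain ⟨q0, hq01, hst⟩ := stage3 3 (ε / 4) (by norm_num) (by positivity)
  refine ⟨max (2 * q0) (2 / ε), le_max_of_le_left (by linarith), ?_⟩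
  intro q1 hq1
  have hq1a : 2 * q0 ≤ q1 := (le_max_left _ _).trans hq1
  have hq1b : 2 / ε ≤ q1 := (le_max_right _ _).trans hq1
  obtain ⟨r, δ, hδ, m0, hmain⟩ := hst (9 / 10 * q1) (by linarith)
  obtain ⟨m1, hm1⟩ := exists_nat_ge (72 / ε)
  refine ⟨max r 1, le_max_right _ _, δ, hδ, max m0 (max m1 1000), ?_⟩
  intro V _ _ H M κ qh η ηz a b k hH hκ hqh hqh1 hqh2 hη hηz hG hC hab hmM hMk
  obtain ⟨N, S, hG⟩ := hG
  have hmM0 : m0 ≤ M.card := (le_max_left _ _).trans hmM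
  have hmM1 : m1 ≤ M.card := ((le_max_left _ _).trans (le_max_right _ _)).trans hmM
  have hmM2 : 1000 ≤ M.card := ((le_max_right _ _).trans (le_max_right _ _)).trans hmM
  have hm1000 : (1000 : ℝ) ≤ M.card := by exact_mod_cast hmM2
  have hm72 : 72 / ε ≤ M.card := hm1.trans (by exact_mod_cast hmM1)
  have hm0 : (0 : ℝ) < M.card := by linarith
  have hqh11 : 1 ≤ qh := by linarith
  have hqh0 : 0 < qh := by linarith
  have hqh8 : qh ≤ qh ^ 8 := by
    calc qh = qh ^ 1 := (pow_one _).symm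
      _ ≤ qh ^ 8 := pow_le_pow_right₀ hqh11 (by norm_num)
  have hη2 : η ≤ 1 / (4 * qh) := by
    refine hη.trans (one_div_le_one_div_of_le (by positivity) (by linarith))
  have hS4 : S ≤ 1 / (4 * qh) := hG.hS.trans hη2
  have hS14 : S ≤ 1 / 4 := hS4.trans (one_div_le_one_div_of_le (by norm_num) (by linarith))
  have hSε : S ≤ ε / 8 := by
    refine hS4.trans ?_
    rw [div_le_div_iff₀ (by positivity) (by norm_num)]
    have h1 : 2 / ε ≤ qh := hq1b.trans hqh1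
    rw [div_le_iff₀ hε] at h1
    linarith
  have h9ε : 9 / (M.card : ℝ) ≤ ε / 8 := by
    rw [div_le_div_iff₀ hm0 (by norm_num)]
    rw [div_le_iff₀ hε] at hm72
    linarith
  obtain ⟨q, x, hq0, hq40, hqqh, hqlo, hDx, hxlo, hx1, hx7⟩ :=
    f1_q hκ hqh11 hqh hm1000 hG.hS0 hS14
  have hq1' : 1 ≤ q := by linarith
  have huk := f1_uk (m := (M.card : ℝ)) hκ hqh0.le hqh
  have hSt := f1_St3 (x := x) (δ := δ) (r := r) (r' := max r 1) hH huk hq1' hqqh hη hηz hG hq40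
    (by rw [hq40, hDx, hqh]) hx7 hC (le_max_left _ _) hab
  have hres := hmain q (by linarith) (by linarith) V (sub H M) M N k hSt hmM0 hMk
  obtain ⟨hc1, hc2⟩ := f1_center (ε := ε) hκ hm0 hε hq0 (hq40.trans hDx) hx1 hx7 (by linarith)
  rw [EX_subH]
  have h1 : EX (sub H M) (fun M' => |(M'.card : ℝ) - 1 / Real.sqrt (2 * κ)|) k M ≤
      EX (sub H M) (fun M' => |(M'.card : ℝ) - M.card / Real.sqrt (2 * q ^ 40)| +
        |(M.card : ℝ) / Real.sqrt (2 * q ^ 40) - 1 / Real.sqrt (2 * κ)|) k M := by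
    apply EX_mono
    intro M'
    exact abs_sub_le _ _ _
  have h2 := EX_add (H := sub H M) (fun M' => |(M'.card : ℝ) - M.card / Real.sqrt (2 * q ^ 40)|)
    (fun _ => |(M.card : ℝ) / Real.sqrt (2 * q ^ 40) - 1 / Real.sqrt (2 * κ)|) k M
  have h3 := EX_const (H := sub H M)
    |(M.card : ℝ) / Real.sqrt (2 * q ^ 40) - 1 / Real.sqrt (2 * κ)| k M
  rw [h3] at h2
  rw [h2] at h1
  have h4 : ε / 4 * (M.card / q ^ 20) ≤ ε / 4 * (2 / Real.sqrt κ) :=
    mul_le_mul_of_nonneg_left hc2 (by positivity)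
  have h5 : ε / 4 * (2 / Real.sqrt κ) + ε / 2 / Real.sqrt κ = ε / Real.sqrt κ := by ring
  linarith

end Vale.Agent.P046S
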