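import Mathlib

/-!
P046 sharp constant, module F2p: the parameters (pure asymptotics).

`η = 1/(100 r)`, `μA` = least natural number `≥ (11/20) q1^20 n^{3/2}` in the residue class of `m1` mod 3,
`μ2` = least natural number `≥ n^{3/2 + η}` in this class. `κ ≈ 4/n^3` up to 10 percent, so
`κ μA² ≈ 1.21 q1^40` up to 12 percent, `qh = (κ μA²)^{1/40}`, `uL2 = (κ μ2²)^{1/4} ≈ √2 n^{η/2}`,
`L = log n` (`log (m1/μ2) ≤ log n`), `b = n^{7/5}`: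
`(r/b) ∑ ... ≤ C(ε0, r) n^{1 + 2 η r - 7/5}`, `μ2/uL2^3 ≤ C n^{3/2 - η/2}`.

In the proof everything is written in powers of `t = n^{1/(200 r)}` and `T = t^(100 r)`.
-/

namespace Vale.Agent.P046S

/-- a number in the same residue class mod 3 just above `x`. -/
private theorem f2p_res (m : ℕ) (x : ℝ) (hx : x ≤ m) :
    ∃ μ k : ℕ, m = μ + 3 * k ∧ x ≤ μ ∧ (μ : ℝ) < x + 3 ∨ x < 0 := by
  by_cases h0 : x < 0
  · exact ⟨0, 0, Or.inr h0⟩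
  push Not at h0
  set k : ℕ := ⌊((m : ℝ) - x) / 3⌋₊ with hk
  have hnn : 0 ≤ ((m : ℝ) - x) / 3 := by
    apply div_nonneg _ (by norm_num)
    linarith
  have h1 : (k : ℝ) ≤ ((m : ℝ) - x) / 3 := Nat.floor_le hnn
  have h2 : ((m : ℝ) - x) / 3 < k + 1 := Nat.lt_floor_add_one _
  have h3 : 3 * k ≤ m := by
    have : (3 : ℝ) * k ≤ m := by linarith
    exact_mod_cast this
  refine ⟨m - 3 * k, k, Or.inl ⟨by omega, ?_, ?_⟩⟩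
  · rw [Nat.cast_sub h3]
    push_cast
    linarith
  · rw [Nat.cast_sub h3]
    push_cast
    linarith

private theorem f2p_res' (m : ℕ) (x : ℝ) (h0 : 0 ≤ x) (hx : x ≤ m) :
    ∃ μ k : ℕ, m = μ + 3 * k ∧ x ≤ μ ∧ (μ : ℝ) < x + 3 := by
  obtain ⟨μ, k, h | h⟩ := f2p_res m x hx
  · exact ⟨μ, k, h⟩
  · exact absurd h (not_lt.mpr h0)

/-- the 40th (or 4th) root. -/
private theorem f2p_root (x : ℝ) (k : ℕ) (hk : k ≠ 0) (hx : 0 ≤ x) : ∃ y : ℝ, 0 ≤ y ∧ y ^ k = x := by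
  refine ⟨x ^ ((k : ℝ)⁻¹), Real.rpow_nonneg hx _, ?_⟩
  exact Real.rpow_inv_natCast_pow hx hk

/-- existence of `μ2`, `μA` with their sizes. -/
private theorem f2p_ex (ε0 A t T : ℝ) (hε0 : 0 < ε0) (hε01 : ε0 ≤ 1 / 4) (hA1 : 1 ≤ A)
    (ht : 1000 ≤ t) (htA : A + 3 ≤ t) (htE : 16 / ε0 ≤ t) (hT : t ^ 5 ≤ T)
    (n : ℕ) (hn : (n : ℝ) = T ^ 2) (m1 : ℕ)
    (h1 : ε0 * (n.choose 2 : ℝ) ≤ m1) (h2 : (m1 : ℝ) ≤ 2 * ε0 * (n.choose 2 : ℝ)) :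
    ε0 * T ^ 4 / 4 ≤ m1 ∧ (m1 : ℝ) ≤ T ^ 4 ∧
    ∃ (μ2 μA ka kb : ℕ), m1 = μ2 + 3 * ka ∧ μ2 = μA + 3 * kb ∧
      t ^ 2 * T ^ 3 ≤ μ2 ∧ (μ2 : ℝ) ≤ 2 * (t ^ 2 * T ^ 3) ∧ A * T ^ 3 ≤ μA ∧
      (μA : ℝ) ≤ 2 * (A * T ^ 3) := by
  have ht0 : 0 < t := by linarith
  have ht1 : 1 ≤ t := by linarith
  have htT : t ≤ T := le_trans (le_self_pow₀ ht1 (by norm_num)) hT
  have ht2T : t ^ 3 ≤ T := le_trans (pow_le_pow_right₀ ht1 (by norm_num)) hT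
  have hT0 : 0 < T := by linarith
  have hT1 : 1 ≤ T := by linarith
  have hT1000 : 1000 ≤ T := by linarith
  have hT3 : 0 < T ^ 3 := by positivity
  -- m1 bounds
  have hch : (n.choose 2 : ℝ) = T ^ 2 * (T ^ 2 - 1) / 2 := by
    rw [Nat.cast_choose_two, hn]
  have hT2 : 1 ≤ T ^ 2 := one_le_pow₀ hT1
  have hT2' : 2 ≤ T ^ 2 := by
    have : T ≤ T ^ 2 := le_self_pow₀ hT1 (by norm_num)
    linarith
  have e4 : T ^ 4 = T ^ 2 * T ^ 2 := by ring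
  have hm1l : ε0 * T ^ 4 / 4 ≤ m1 := by
    refine le_trans ?_ h1
    rw [hch, e4]
    have h3 : T ^ 2 * T ^ 2 / 2 ≤ T ^ 2 * (T ^ 2 - 1) := by
      have h30 : T ^ 2 * T ^ 2 / 2 = T ^ 2 * (T ^ 2 / 2) := by ring
      rw [h30]
      apply mul_le_mul_of_nonneg_left _ (by positivity)
      linarith
    calc ε0 * (T ^ 2 * T ^ 2) / 4 = ε0 * (T ^ 2 * T ^ 2 / 2) / 2 := by ring
      _ ≤ ε0 * (T ^ 2 * (T ^ 2 - 1)) / 2 := by gcongr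
      _ = _ := by ring
  have hm1u' : (m1 : ℝ) ≤ ε0 * T ^ 4 := by
    refine le_trans h2 ?_
    rw [hch, e4]
    have h3 : T ^ 2 * (T ^ 2 - 1) ≤ T ^ 2 * T ^ 2 := by
      apply mul_le_mul_of_nonneg_left _ (by positivity)
      linarith
    calc 2 * ε0 * (T ^ 2 * (T ^ 2 - 1) / 2) = ε0 * (T ^ 2 * (T ^ 2 - 1)) := by ring
      _ ≤ _ := mul_le_mul_of_nonneg_left h3 hε0.le
  have hm1u : (m1 : ℝ) ≤ T ^ 4 := by
    refine le_trans hm1u' ?_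
    have h5 : 0 ≤ T ^ 4 := by positivity
    calc ε0 * T ^ 4 ≤ 1 * T ^ 4 := mul_le_mul_of_nonneg_right (by linarith) h5
      _ = T ^ 4 := one_mul _
  -- μ2
  have hx2 : t ^ 2 * T ^ 3 ≤ m1 := by
    refine le_trans ?_ hm1l
    have h3 : 16 ≤ ε0 * t := by
      rw [div_le_iff₀ hε0] at htE
      linarith
    have h4 : 4 * t ^ 2 ≤ ε0 * T := by
      have h5 : ε0 * t ^ 3 ≤ ε0 * T := mul_le_mul_of_nonneg_left ht2T hε0.le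
      have h6 : 16 * t ^ 2 ≤ ε0 * t * t ^ 2 := mul_le_mul_of_nonneg_right h3 (by positivity)
      have h7 : ε0 * t * t ^ 2 = ε0 * t ^ 3 := by ring
      have h8 : 0 ≤ t ^ 2 := by positivity
      linarith
    have h5 : 4 * t ^ 2 * T ^ 3 ≤ ε0 * T * T ^ 3 := mul_le_mul_of_nonneg_right h4 hT3.le
    have h6 : ε0 * T * T ^ 3 = ε0 * T ^ 4 := by ring
    linarith
  obtain ⟨μ2, ka, hμ2, hμ2l, hμ2u'⟩ := f2p_res' m1 (t ^ 2 * T ^ 3) (by positivity) hx2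
  have hT33 : 3 ≤ T ^ 3 := by
    have : T ≤ T ^ 3 := le_self_pow₀ hT1 (by norm_num)
    linarith
  have ht21 : 1 ≤ t ^ 2 := one_le_pow₀ ht1
  have hμ2u : (μ2 : ℝ) ≤ 2 * (t ^ 2 * T ^ 3) := by
    have : 1 * T ^ 3 ≤ t ^ 2 * T ^ 3 := mul_le_mul_of_nonneg_right ht21 hT3.le
    linarith
  have hxA : A * T ^ 3 ≤ μ2 := by
    refine le_trans ?_ hμ2l
    have : A ≤ t ^ 2 := by
      have : t ≤ t ^ 2 := le_self_pow₀ ht1 (by norm_num)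
      linarith
    exact mul_le_mul_of_nonneg_right this hT3.le
  obtain ⟨μA, kb, hμA, hμAl, hμAu'⟩ := f2p_res' μ2 (A * T ^ 3) (by positivity) hxA
  have hμAu : (μA : ℝ) ≤ 2 * (A * T ^ 3) := by
    have : 1 * T ^ 3 ≤ A * T ^ 3 := mul_le_mul_of_nonneg_right hA1 hT3.le
    linarith
  exact ⟨hm1l, hm1u, μ2, μA, ka, kb, hμ2, hμA, hμ2l, hμ2u, hμAl, hμAu⟩

/-- the bounds on `κ`. -/
private theorem f2p_kap (T : ℝ) (hT0 : 0 < T) (N κ : ℝ) (hN : N = T ^ 2)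
    (hκ : |κ * N ^ 3 / 4 - 1| ≤ 1 / 10) : 36 / 10 ≤ κ * T ^ 6 ∧ κ * T ^ 6 ≤ 44 / 10 ∧ 0 < κ := by
  have h6 : N ^ 3 = T ^ 6 := by rw [hN]; ring
  rw [h6, abs_le] at hκ
  have h1 : 36 / 10 ≤ κ * T ^ 6 := by linarith [hκ.1]
  refine ⟨h1, by linarith [hκ.2], ?_⟩
  by_contra h
  push Not at h
  have : κ * T ^ 6 ≤ 0 := mul_nonpos_of_nonpos_of_nonneg h (by positivity)
  linarith

/-- the `qh` part. -/
private theorem f2p_qh (q1 Q A t T κ K : ℝ) (hq1 : 2 ≤ q1) (hQ : q1 ^ 20 = Q)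
    (hA : A = 11 / 20 * Q) (hA1 : 1 ≤ A)
    (ht : 1000 ≤ t) (hK : (3 / 2 * q1) ^ 20 = K) (htK : 4 * K ^ 3 ≤ t)
    (htF : 2 * A * K ≤ t) (hT : t ^ 5 ≤ T) (n μ2 μA : ℕ) (hn : (n : ℝ) = T ^ 2)
    (hκ1 : 36 / 10 ≤ κ * T ^ 6) (hκ2 : κ * T ^ 6 ≤ 44 / 10) (hκ0 : 0 < κ)
    (hμ2l : t ^ 2 * T ^ 3 ≤ μ2) (hμ2u : (μ2 : ℝ) ≤ 2 * (t ^ 2 * T ^ 3)) (hμAl : A * T ^ 3 ≤ μA)
    (hμAu : (μA : ℝ) ≤ 2 * (A * T ^ 3)) :
    ∃ qh : ℝ, qh ^ 40 = κ * (μA : ℝ) ^ 2 ∧ q1 ≤ qh ∧ qh ≤ 3 / 2 * q1 ∧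
      (qh ^ 10) ^ 6 * (μ2 : ℝ) ^ 2 ≤ (μA : ℝ) ^ 3 ∧ (n : ℝ) * (qh ^ 10) ^ 2 ≤ μA ∧
      Real.sqrt ((μA : ℝ) / μ2) ≤ 1 / qh ^ 10 := by
  have ht0 : 0 < t := by linarith
  have ht1 : 1 ≤ t := by linarith
  have hT0 : 0 < T := lt_of_lt_of_le (by positivity) hT
  have htT : t ≤ T := le_trans (le_self_pow₀ ht1 (by norm_num)) hT
  have hT1 : 1 ≤ T := by linarith
  have hA0 : 0 < A := by linarith
  have hT3 : 0 < T ^ 3 := by positivity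
  have hT6 : 0 < T ^ 6 := by positivity
  have hq0 : 0 < q1 := by linarith
  have hK0 : 0 < K := by rw [← hK]; positivity
  have hK1 : 1 ≤ K := by
    rw [← hK]
    apply one_le_pow₀
    linarith
  obtain ⟨qh, hqh0, hqh⟩ := f2p_root (κ * (μA : ℝ) ^ 2) 40 (by norm_num) (by positivity)
  have hQ0 : 0 < Q := by rw [← hQ]; positivity
  have e6 : T ^ 6 = T ^ 3 * T ^ 3 := by ring
  have hlow : q1 ^ 40 ≤ qh ^ 40 := by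
    rw [hqh]
    have e1 : q1 ^ 40 = Q ^ 2 := by rw [← hQ]; ring
    rw [e1]
    have h3 : (A * T ^ 3) ^ 2 ≤ (μA : ℝ) ^ 2 := pow_le_pow_left₀ (by positivity) hμAl 2
    calc Q ^ 2 ≤ 36 / 10 * A ^ 2 := by rw [hA]; nlinarith [sq_nonneg Q]
      _ ≤ κ * T ^ 6 * A ^ 2 := mul_le_mul_of_nonneg_right hκ1 (by positivity)
      _ = κ * (A * T ^ 3) ^ 2 := by ring
      _ ≤ κ * (μA : ℝ) ^ 2 := mul_le_mul_of_nonneg_left h3 hκ0.le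
  have hup : qh ^ 40 ≤ (3 / 2 * q1) ^ 40 := by
    rw [hqh]
    have e1 : (3 / 2 * q1) ^ 40 = (3 / 2) ^ 40 * Q ^ 2 := by rw [← hQ]; ring
    rw [e1]
    have h3 : (μA : ℝ) ^ 2 ≤ (2 * (A * T ^ 3)) ^ 2 := pow_le_pow_left₀ (by positivity) hμAu 2
    calc κ * (μA : ℝ) ^ 2 ≤ κ * (2 * (A * T ^ 3)) ^ 2 := mul_le_mul_of_nonneg_left h3 hκ0.le
      _ = κ * T ^ 6 * (4 * A ^ 2) := by ring
      _ ≤ 44 / 10 * (4 * A ^ 2) := mul_le_mul_of_nonneg_right hκ2 (by positivity)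
      _ = 17.6 * (11 / 20) ^ 2 * Q ^ 2 := by rw [hA]; ring
      _ ≤ (3 / 2) ^ 40 * Q ^ 2 := by
        apply mul_le_mul_of_nonneg_right _ (by positivity)
        norm_num
  have hb1 : q1 ≤ qh := (pow_le_pow_iff_left₀ hq0.le hqh0 (by norm_num)).1 hlow
  have hb2 : qh ≤ 3 / 2 * q1 := (pow_le_pow_iff_left₀ hqh0 (by positivity) (by norm_num)).1 hup
  have hqpos : 0 < qh := by linarith
  have hq20 : qh ^ 20 ≤ K := by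
    rw [← hK]
    exact pow_le_pow_left₀ hqh0 hb2 20
  have hK3 : (qh ^ 10) ^ 6 ≤ K ^ 3 := by
    calc (qh ^ 10) ^ 6 = (qh ^ 20) ^ 3 := by ring
      _ ≤ K ^ 3 := pow_le_pow_left₀ (by positivity) hq20 3
  have hμ2pos : (0 : ℝ) < μ2 := lt_of_lt_of_le (by positivity) hμ2l
  have hμApos : (0 : ℝ) < μA := lt_of_lt_of_le (by positivity) hμAl
  refine ⟨qh, hqh, hb1, hb2, ?_, ?_, ?_⟩
  · -- (qh ^ 10) ^ 6 * μ2 ^ 2 ≤ μA ^ 3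
    have h3 : (μ2 : ℝ) ^ 2 ≤ (2 * (t ^ 2 * T ^ 3)) ^ 2 := pow_le_pow_left₀ (by positivity) hμ2u 2
    have h4 : (T ^ 3) ^ 3 ≤ (μA : ℝ) ^ 3 := by
      apply pow_le_pow_left₀ (by positivity)
      refine le_trans ?_ hμAl
      calc T ^ 3 = 1 * T ^ 3 := (one_mul _).symm
        _ ≤ A * T ^ 3 := mul_le_mul_of_nonneg_right hA1 hT3.le
    have h5 : t ^ 5 * T ^ 6 ≤ (T ^ 3) ^ 3 := by
      calc t ^ 5 * T ^ 6 ≤ T * T ^ 6 := mul_le_mul_of_nonneg_right hT hT6.le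
        _ = T ^ 7 := by ring
        _ ≤ T ^ 9 := pow_le_pow_right₀ hT1 (by norm_num)
        _ = (T ^ 3) ^ 3 := by ring
    calc (qh ^ 10) ^ 6 * (μ2 : ℝ) ^ 2 ≤ K ^ 3 * (2 * (t ^ 2 * T ^ 3)) ^ 2 :=
          mul_le_mul hK3 h3 (by positivity) (by positivity)
      _ = (4 * K ^ 3) * (t ^ 4 * T ^ 6) := by ring
      _ ≤ t * (t ^ 4 * T ^ 6) := mul_le_mul_of_nonneg_right htK (by positivity)
      _ = t ^ 5 * T ^ 6 := by ring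
      _ ≤ (T ^ 3) ^ 3 := h5
      _ ≤ _ := h4
  · -- n * (qh ^ 10) ^ 2 ≤ μA
    rw [hn]
    have hKt : K ≤ t := by
      have : 1 * K ≤ 2 * A * K := mul_le_mul_of_nonneg_right (by linarith) hK0.le
      linarith
    calc T ^ 2 * (qh ^ 10) ^ 2 = T ^ 2 * qh ^ 20 := by ring
      _ ≤ T ^ 2 * T := mul_le_mul_of_nonneg_left (by linarith) (by positivity)
      _ = 1 * T ^ 3 := by ring
      _ ≤ A * T ^ 3 := mul_le_mul_of_nonneg_right hA1 hT3.le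
      _ ≤ _ := hμAl
  · -- sqrt
    have hq10 : 0 < qh ^ 10 := by positivity
    rw [Real.sqrt_le_left (by positivity), div_le_iff₀ hμ2pos, one_div, inv_pow, inv_mul_eq_div,
      le_div_iff₀ (by positivity)]
    calc (μA : ℝ) * (qh ^ 10) ^ 2 = μA * qh ^ 20 := by ring
      _ ≤ 2 * (A * T ^ 3) * K := mul_le_mul hμAu hq20 (by positivity) (by positivity)
      _ = (2 * A * K) * T ^ 3 := by ring
      _ ≤ t * T ^ 3 := mul_le_mul_of_nonneg_right htF hT3.le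
      _ ≤ t ^ 2 * T ^ 3 := mul_le_mul_of_nonneg_right (le_self_pow₀ ht1 (by norm_num)) hT3.le
      _ ≤ _ := hμ2l

/-- the `uL2` part. -/
private theorem f2p_uL (ε C δ A t T κ L B : ℝ) (r : ℕ) (hε : 0 < ε) (hδ : 0 < δ)
    (hA1 : 1 ≤ A) (hte : 1 ≤ ε * t) (ht : 1000 ≤ t) (htl : 100 * (r : ℝ) ^ 2 * L ≤ t)
    (htC : C * L ^ 4 ≤ ε * Real.sqrt t) (htd : 3 ≤ δ * t) (hT : t ^ 5 ≤ T)
    (hBT : B * t ≤ T ^ 3) (n m1 μ2 μA : ℕ) (hn : (n : ℝ) = T ^ 2)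
    (hκ1 : 36 / 10 ≤ κ * T ^ 6) (hκ2 : κ * T ^ 6 ≤ 44 / 10) (hκ0 : 0 < κ)
    (hm1u : (m1 : ℝ) ≤ T ^ 4) (hμ2l : t ^ 2 * T ^ 3 ≤ μ2)
    (hμ2u : (μ2 : ℝ) ≤ 2 * (t ^ 2 * T ^ 3)) (hμAl : A * T ^ 3 ≤ μA) :
    ∃ uL2 : ℝ, uL2 ^ 4 = κ * (μ2 : ℝ) ^ 2 ∧ 1000 ≤ uL2 ∧
      uL2 ^ 6 * (m1 : ℝ) ^ 2 ≤ (μ2 : ℝ) ^ 3 ∧
      (n : ℝ) * uL2 ^ 2 ≤ μ2 ∧ 1 / uL2 ≤ ε ∧
      100 * (r : ℝ) ^ 2 * L ≤ uL2 ∧ C * L ^ 4 / Real.sqrt uL2 ≤ ε ∧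
      (μ2 : ℝ) / uL2 ^ 3 + B ≤ δ * μA := by
  have ht0 : 0 < t := by linarith
  have ht1 : 1 ≤ t := by linarith
  have hT0 : 0 < T := lt_of_lt_of_le (by positivity) hT
  have htT : t ≤ T := le_trans (le_self_pow₀ ht1 (by norm_num)) hT
  have hT1000 : 1000 ≤ T := by linarith
  have hT1 : 1 ≤ T := by linarith
  have hA0 : 0 < A := by linarith
  have hT3 : 0 < T ^ 3 := by positivity
  obtain ⟨u, hu0, hu⟩ := f2p_root (κ * (μ2 : ℝ) ^ 2) 4 (by norm_num) (by positivity)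
  have hlow : t ^ 4 ≤ u ^ 4 := by
    rw [hu]
    have h3 : (t ^ 2 * T ^ 3) ^ 2 ≤ (μ2 : ℝ) ^ 2 := pow_le_pow_left₀ (by positivity) hμ2l 2
    calc t ^ 4 = 1 * t ^ 4 := (one_mul _).symm
      _ ≤ κ * T ^ 6 * t ^ 4 := mul_le_mul_of_nonneg_right (by linarith) (by positivity)
      _ = κ * (t ^ 2 * T ^ 3) ^ 2 := by ring
      _ ≤ κ * (μ2 : ℝ) ^ 2 := mul_le_mul_of_nonneg_left h3 hκ0.le
  have hup : u ^ 4 ≤ (3 * t) ^ 4 := by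
    rw [hu]
    have h3 : (μ2 : ℝ) ^ 2 ≤ (2 * (t ^ 2 * T ^ 3)) ^ 2 := pow_le_pow_left₀ (by positivity) hμ2u 2
    calc κ * (μ2 : ℝ) ^ 2 ≤ κ * (2 * (t ^ 2 * T ^ 3)) ^ 2 := mul_le_mul_of_nonneg_left h3 hκ0.le
      _ = κ * T ^ 6 * (4 * t ^ 4) := by ring
      _ ≤ 44 / 10 * (4 * t ^ 4) := mul_le_mul_of_nonneg_right hκ2 (by positivity)
      _ = 17.6 * t ^ 4 := by ring
      _ ≤ 81 * t ^ 4 := mul_le_mul_of_nonneg_right (by norm_num) (by positivity)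
      _ = (3 * t) ^ 4 := by ring
  have hb1 : t ≤ u := (pow_le_pow_iff_left₀ ht0.le hu0 (by norm_num)).1 hlow
  have hb2 : u ≤ 3 * t := (pow_le_pow_iff_left₀ hu0 (by positivity) (by norm_num)).1 hup
  have hupos : 0 < u := by linarith
  refine ⟨u, hu, by linarith, ?_, ?_, ?_, by linarith, ?_, ?_⟩
  · have h6 : u ^ 6 ≤ (3 * t) ^ 6 := pow_le_pow_left₀ hu0 hb2 6
    have h2 : (m1 : ℝ) ^ 2 ≤ (T ^ 4) ^ 2 := pow_le_pow_left₀ (by positivity) hm1u 2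
    calc u ^ 6 * (m1 : ℝ) ^ 2 ≤ (3 * t) ^ 6 * (T ^ 4) ^ 2 :=
          mul_le_mul h6 h2 (by positivity) (by positivity)
      _ = 729 * (t ^ 6 * T ^ 8) := by ring
      _ ≤ T * (t ^ 6 * T ^ 8) := mul_le_mul_of_nonneg_right (by linarith) (by positivity)
      _ = (t ^ 2 * T ^ 3) ^ 3 := by ring
      _ ≤ (μ2 : ℝ) ^ 3 := pow_le_pow_left₀ (by positivity) hμ2l 3
  · rw [hn]
    have h2 : u ^ 2 ≤ (3 * t) ^ 2 := pow_le_pow_left₀ hu0 hb2 2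
    calc T ^ 2 * u ^ 2 ≤ T ^ 2 * (3 * t) ^ 2 := mul_le_mul_of_nonneg_left h2 (by positivity)
      _ = 9 * (t ^ 2 * T ^ 2) := by ring
      _ ≤ T * (t ^ 2 * T ^ 2) := mul_le_mul_of_nonneg_right (by linarith) (by positivity)
      _ = t ^ 2 * T ^ 3 := by ring
      _ ≤ μ2 := hμ2l
  · rw [div_le_iff₀ hupos]
    calc 1 ≤ ε * t := hte
      _ ≤ ε * u := mul_le_mul_of_nonneg_left hb1 hε.le
  · have hs : 0 < Real.sqrt u := Real.sqrt_pos.2 hupos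
    rw [div_le_iff₀ hs]
    refine le_trans htC ?_
    exact mul_le_mul_of_nonneg_left (Real.sqrt_le_sqrt hb1) hε.le
  · have h3 : t ^ 3 ≤ u ^ 3 := pow_le_pow_left₀ ht0.le hb1 3
    have h4 : (μ2 : ℝ) / u ^ 3 ≤ 2 * T ^ 3 / t := by
      rw [div_le_div_iff₀ (by positivity) ht0]
      calc (μ2 : ℝ) * t ≤ 2 * (t ^ 2 * T ^ 3) * t := mul_le_mul_of_nonneg_right hμ2u ht0.le
        _ = 2 * T ^ 3 * t ^ 3 := by ring
        _ ≤ 2 * T ^ 3 * u ^ 3 := mul_le_mul_of_nonneg_left h3 (by positivity)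
    have h5 : B ≤ T ^ 3 / t := by
      rw [le_div_iff₀ ht0]
      exact hBT
    have h6 : 3 * T ^ 3 / t ≤ δ * T ^ 3 := by
      rw [div_le_iff₀ ht0]
      calc 3 * T ^ 3 ≤ δ * t * T ^ 3 := mul_le_mul_of_nonneg_right htd hT3.le
        _ = _ := by ring
    have h7 : δ * T ^ 3 ≤ δ * μA := by
      apply mul_le_mul_of_nonneg_left _ hδ.le
      refine le_trans ?_ hμAl
      calc T ^ 3 = 1 * T ^ 3 := (one_mul _).symm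
        _ ≤ A * T ^ 3 := mul_le_mul_of_nonneg_right hA1 hT3.le
    have h8 : 2 * T ^ 3 / t + T ^ 3 / t = 3 * T ^ 3 / t := by ring
    linarith

/-- the sum. -/
private theorem f2p_sum (ε0 ε t T B : ℝ) (r : ℕ) (hr : 1 ≤ r) (hε0 : 0 < ε0)
    (hε01 : ε0 ≤ 1 / 4) (hε : 0 < ε) (ht : 1000 ≤ t) (hT : t ^ 5 ≤ T) (hB : 0 < B)
    (htS : (r : ℝ) ^ 2 * Real.exp (2 * r + 2) * (128 / ε0 ^ 2) ^ r ≤ ε * t)
    (hTB : T ^ 2 * (t ^ 4) ^ r * t ≤ B) (n m1 μ2 : ℕ) (hn : (n : ℝ) = T ^ 2)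
    (hm1l : ε0 * T ^ 4 / 4 ≤ m1) (hm1u : (m1 : ℝ) ≤ T ^ 4)
    (hμ2u : (μ2 : ℝ) ≤ 2 * (t ^ 2 * T ^ 3)) :
    r / B * ∑ ℓ ∈ Finset.Icc 1 r, Real.exp (2 * ℓ + 2) *
        ((m1 : ℝ) * (2 * n) ^ (ℓ - 1) * ((μ2 : ℝ) / m1) ^ (2 * ℓ)) ≤ ε := by
  have ht0 : 0 < t := by linarith
  have ht1 : 1 ≤ t := by linarith
  have hT0 : 0 < T := lt_of_lt_of_le (by positivity) hT
  have htT : t ≤ T := le_trans (le_self_pow₀ ht1 (by norm_num)) hT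
  have hT1 : 1 ≤ T := by linarith
  have hm1pos : (0 : ℝ) < m1 := lt_of_lt_of_le (by positivity) hm1l
  have hG1 : 1 ≤ 128 * t ^ 4 / ε0 ^ 2 := by
    rw [le_div_iff₀ (by positivity)]
    have h1 : ε0 ^ 2 ≤ 1 := pow_le_one₀ hε0.le (by linarith)
    have h2 : 1 ≤ t ^ 4 := one_le_pow₀ ht1
    linarith
  have hq : (μ2 : ℝ) / m1 ≤ 8 * t ^ 2 / (ε0 * T) := by
    rw [div_le_div_iff₀ hm1pos (by positivity)]
    calc (μ2 : ℝ) * (ε0 * T) ≤ 2 * (t ^ 2 * T ^ 3) * (ε0 * T) :=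
          mul_le_mul_of_nonneg_right hμ2u (by positivity)
      _ = 8 * t ^ 2 * (ε0 * T ^ 4 / 4) := by ring
      _ ≤ 8 * t ^ 2 * m1 := mul_le_mul_of_nonneg_left hm1l (by positivity)
  have hq0 : 0 ≤ (μ2 : ℝ) / m1 := by positivity
  have hterm : ∀ ℓ ∈ Finset.Icc 1 r, Real.exp (2 * ℓ + 2) *
        ((m1 : ℝ) * (2 * n) ^ (ℓ - 1) * ((μ2 : ℝ) / m1) ^ (2 * ℓ)) ≤
        Real.exp (2 * r + 2) * (T ^ 2 * (128 * t ^ 4 / ε0 ^ 2) ^ r) := by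
    intro ℓ hℓ
    rw [Finset.mem_Icc] at hℓ
    obtain ⟨k, rfl⟩ : ∃ k, ℓ = k + 1 := ⟨ℓ - 1, by omega⟩
    have hk : ((k + 1 : ℕ) : ℝ) ≤ r := by exact_mod_cast hℓ.2
    have he : Real.exp (2 * ((k + 1 : ℕ) : ℝ) + 2) ≤ Real.exp (2 * r + 2) := by
      apply Real.exp_le_exp.2
      linarith
    refine mul_le_mul he ?_ (by positivity) (Real.exp_pos _).le
    have h1 : ((μ2 : ℝ) / m1) ^ (2 * (k + 1)) ≤ (8 * t ^ 2 / (ε0 * T)) ^ (2 * (k + 1)) :=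
      pow_le_pow_left₀ hq0 hq _
    have h2 : (m1 : ℝ) * (2 * (n : ℝ)) ^ k ≤ T ^ 4 * (2 * T ^ 2) ^ k := by
      rw [hn]
      exact mul_le_mul_of_nonneg_right hm1u (by positivity)
    have h3 : T ^ 4 * (2 * T ^ 2) ^ k ≤ T ^ 2 * (2 * T ^ 2) ^ (k + 1) := by
      have : T ^ 2 * (2 * T ^ 2) ^ (k + 1) = 2 * (T ^ 4 * (2 * T ^ 2) ^ k) := by
        rw [pow_succ (2 * T ^ 2) k]
        ring
      rw [this]
      have : 0 ≤ T ^ 4 * (2 * T ^ 2) ^ k := by positivity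
      linarith
    calc (m1 : ℝ) * (2 * (n : ℝ)) ^ (k + 1 - 1) * ((μ2 : ℝ) / m1) ^ (2 * (k + 1))
        = (m1 : ℝ) * (2 * (n : ℝ)) ^ k * ((μ2 : ℝ) / m1) ^ (2 * (k + 1)) := by
          rw [Nat.add_sub_cancel]
      _ ≤ T ^ 2 * (2 * T ^ 2) ^ (k + 1) * (8 * t ^ 2 / (ε0 * T)) ^ (2 * (k + 1)) :=
          mul_le_mul (h2.trans h3) h1 (by positivity) (by positivity)
      _ = T ^ 2 * (2 * T ^ 2 * (8 * t ^ 2 / (ε0 * T)) ^ 2) ^ (k + 1) := by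
          rw [mul_pow (2 * T ^ 2) ((8 * t ^ 2 / (ε0 * T)) ^ 2), ← pow_mul]
          ring
      _ = T ^ 2 * (128 * t ^ 4 / ε0 ^ 2) ^ (k + 1) := by
          congr 2
          field_simp
          ring
      _ ≤ T ^ 2 * (128 * t ^ 4 / ε0 ^ 2) ^ r := by
          apply mul_le_mul_of_nonneg_left _ (by positivity)
          exact pow_le_pow_right₀ hG1 hℓ.2
  have hsum := Finset.sum_le_card_nsmul _ _ _ hterm
  rw [Nat.card_Icc, nsmul_eq_mul, Nat.add_sub_cancel] at hsum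
  have hrB : 0 ≤ (r : ℝ) / B := by positivity
  refine le_trans (mul_le_mul_of_nonneg_left hsum hrB) ?_
  rw [div_mul_eq_mul_div, div_le_iff₀ hB]
  calc (r : ℝ) * (r * (Real.exp (2 * r + 2) * (T ^ 2 * (128 * t ^ 4 / ε0 ^ 2) ^ r)))
      = ((r : ℝ) ^ 2 * Real.exp (2 * r + 2) * (128 / ε0 ^ 2) ^ r) * (T ^ 2 * (t ^ 4) ^ r) := by
        rw [show 128 * t ^ 4 / ε0 ^ 2 = 128 / ε0 ^ 2 * t ^ 4 by ring, mul_pow]
        ring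
    _ ≤ ε * t * (T ^ 2 * (t ^ 4) ^ r) := mul_le_mul_of_nonneg_right htS (by positivity)
    _ = ε * (T ^ 2 * (t ^ 4) ^ r * t) := by ring
    _ ≤ ε * B := mul_le_mul_of_nonneg_left hTB hε.le

/-- all the eventual conditions on `t`. -/
private theorem f2p_ev (a1 a2 a3 a4 a5 ε δ C ρ : ℝ) (hε : 0 < ε) (hδ : 0 < δ) (hC : 0 < C) :
    ∃ t0 : ℝ, ∀ t : ℝ, t0 ≤ t → 1000 ≤ t ∧ a1 ≤ t ∧ a2 ≤ t ∧ a3 ≤ t ∧ a4 ≤ t ∧ 1 ≤ ε * t ∧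
      a5 ≤ ε * t ∧ 3 ≤ δ * t ∧ 100 * ρ ^ 2 * (200 * ρ * Real.log t) ≤ t ∧
      C * (200 * ρ * Real.log t) ^ 4 ≤ ε * Real.sqrt t := by
  have e1 : ∀ᶠ t : ℝ in Filter.atTop, 1000 ≤ t := Filter.eventually_ge_atTop _
  have e2 := Filter.eventually_ge_atTop a1
  have e3 := Filter.eventually_ge_atTop a2
  have e4 := Filter.eventually_ge_atTop a3
  have e5 := Filter.eventually_ge_atTop a4
  have e6 := Filter.eventually_ge_atTop (1 / ε)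
  have e7 := Filter.eventually_ge_atTop (a5 / ε)
  have e8 := Filter.eventually_ge_atTop (3 / δ)
  have e9 : ∀ᶠ t : ℝ in Filter.atTop, |Real.log t| ≤ (1 / (20000 * |ρ| ^ 3 + 1)) * |t| := by
    have := Real.isLittleO_log_id_atTop.def (c := 1 / (20000 * |ρ| ^ 3 + 1)) (by positivity)
    simpa using this
  have e10 : ∀ᶠ t : ℝ in Filter.atTop, |Real.log t ^ (4 : ℝ)| ≤
      (ε / (C * (200 * ρ) ^ 4 + 1)) * |t ^ (1 / 2 : ℝ)| := by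
    have := (isLittleO_log_rpow_rpow_atTop (s := 1 / 2) 4 (by norm_num)).def
      (c := ε / (C * (200 * ρ) ^ 4 + 1)) (by positivity)
    simpa using this
  obtain ⟨t0, h⟩ := Filter.eventually_atTop.1
    (e1.and (e2.and (e3.and (e4.and (e5.and (e6.and (e7.and (e8.and (e9.and e10)))))))))
  refine ⟨t0, fun t ht => ?_⟩
  obtain ⟨h1, h2, h3, h4, h5, h6, h7, h8, h9, h10⟩ := h t ht
  have ht0 : 0 < t := by linarith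
  have hl0 : 0 ≤ Real.log t := Real.log_nonneg (by linarith)
  refine ⟨h1, h2, h3, h4, h5, ?_, ?_, ?_, ?_, ?_⟩
  · rw [div_le_iff₀ hε] at h6
    linarith
  · rw [div_le_iff₀ hε] at h7
    linarith
  · rw [div_le_iff₀ hδ] at h8
    linarith
  · rw [abs_of_nonneg hl0, abs_of_pos ht0, div_mul_eq_mul_div, one_mul,
      le_div_iff₀ (by positivity)] at h9
    have h11 : ρ ^ 3 ≤ |ρ| ^ 3 := by
      rw [← abs_pow]
      exact le_abs_self _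
    calc 100 * ρ ^ 2 * (200 * ρ * Real.log t) = 20000 * ρ ^ 3 * Real.log t := by ring
      _ ≤ (20000 * |ρ| ^ 3 + 1) * Real.log t := by
        apply mul_le_mul_of_nonneg_right _ hl0
        linarith
      _ ≤ t := by linarith
  · have h12 : Real.log t ^ (4 : ℝ) = Real.log t ^ 4 := by
      rw [← Real.rpow_natCast]
      norm_num
    rw [h12, ← Real.sqrt_eq_rpow, abs_of_nonneg (by positivity),
      abs_of_nonneg (Real.sqrt_nonneg _), div_mul_eq_mul_div, le_div_iff₀ (by positivity)] at h10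
    have h13 : 0 ≤ Real.log t ^ 4 := by positivity
    calc C * (200 * ρ * Real.log t) ^ 4 = Real.log t ^ 4 * (C * (200 * ρ) ^ 4) := by ring
      _ ≤ Real.log t ^ 4 * (C * (200 * ρ) ^ 4 + 1) := by
        apply mul_le_mul_of_nonneg_left _ h13
        linarith
      _ ≤ _ := h10

theorem params (q1 ε0 ε C δ : ℝ) (r m0 : ℕ) (hq1 : 2 ≤ q1) (hε0 : 0 < ε0) (hε01 : ε0 ≤ 1 / 4)
    (hε : 0 < ε) (hC : 0 < C) (hδ : 0 < δ) (hr : 1 ≤ r) : ∃ n0 : ℕ, ∀ n : ℕ, n0 ≤ n →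
    ∀ (κ : ℝ) (m1 : ℕ), |κ * (n : ℝ) ^ 3 / 4 - 1| ≤ 1 / 10 →
    ε0 * (n.choose 2 : ℝ) ≤ m1 → (m1 : ℝ) ≤ 2 * ε0 * (n.choose 2 : ℝ) →
    ∃ (μ2 μA ka kb : ℕ) (qh uL2 L b : ℝ), m1 = μ2 + 3 * ka ∧ μ2 = μA + 3 * kb ∧
      0 < μA ∧ qh ^ 40 = κ * (μA : ℝ) ^ 2 ∧ q1 ≤ qh ∧ qh ≤ 3 / 2 * q1 ∧
      (qh ^ 10) ^ 6 * (μ2 : ℝ) ^ 2 ≤ (μA : ℝ) ^ 3 ∧ (n : ℝ) * (qh ^ 10) ^ 2 ≤ μA ∧
      Real.sqrt ((μA : ℝ) / μ2) ≤ 1 / qh ^ 10 ∧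
      uL2 ^ 4 = κ * (μ2 : ℝ) ^ 2 ∧ 1000 ≤ uL2 ∧ uL2 ^ 6 * (m1 : ℝ) ^ 2 ≤ (μ2 : ℝ) ^ 3 ∧
      (n : ℝ) * uL2 ^ 2 ≤ μ2 ∧ 1 / uL2 ≤ ε ∧ 1 ≤ L ∧ Real.log ((m1 : ℝ) / μ2) ≤ L ∧
      100 * (r : ℝ) ^ 2 * L ≤ uL2 ∧ C * L ^ 4 / Real.sqrt uL2 ≤ ε ∧ 0 < b ∧
      r / b * ∑ ℓ ∈ Finset.Icc 1 r, Real.exp (2 * ℓ + 2) *
        ((m1 : ℝ) * (2 * n) ^ (ℓ - 1) * ((μ2 : ℝ) / m1) ^ (2 * ℓ)) ≤ ε ∧
      (μ2 : ℝ) / uL2 ^ 3 + b ≤ δ * μA ∧ m0 ≤ μA := by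
  obtain ⟨Q, hQ⟩ : ∃ Q, q1 ^ 20 = Q := ⟨_, rfl⟩
  obtain ⟨K, hK⟩ : ∃ K, (3 / 2 * q1) ^ 20 = K := ⟨_, rfl⟩
  obtain ⟨A, hA⟩ : ∃ A, A = 11 / 20 * Q := ⟨_, rfl⟩
  have hA1 : 1 ≤ A := by
    have hQl : (2 : ℝ) ^ 20 ≤ Q := by
      rw [← hQ]
      exact pow_le_pow_left₀ (by norm_num) hq1 20
    norm_num at hQl
    rw [hA]
    linarith
  obtain ⟨a5, ha5⟩ : ∃ a, a = (r : ℝ) ^ 2 * Real.exp (2 * r + 2) * (128 / ε0 ^ 2) ^ r := ⟨_, rfl⟩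
  obtain ⟨t0, ht0⟩ := f2p_ev (A + 3) (16 / ε0) (max (4 * K ^ 3) (2 * A * K)) (m0 : ℝ) a5 ε δ C r
    hε hδ hC
  refine ⟨⌈(max t0 1) ^ (200 * r)⌉₊, fun n hn κ m1 hκ h1 h2 => ?_⟩
  have hnt : (max t0 1) ^ (200 * r) ≤ (n : ℝ) := (Nat.le_ceil _).trans (by exact_mod_cast hn)
  obtain ⟨t, htn, htp⟩ := f2p_root (n : ℝ) (200 * r) (by omega) (by positivity)
  have hmx : max t0 1 ≤ t := by
    rw [← htp] at hnt
    exact (pow_le_pow_iff_left₀ (by positivity) htn (by omega)).1 hnt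
  obtain ⟨b1, b2, b3, b4, b5, b6, b7, b8, b9, b10⟩ := ht0 t ((le_max_left _ _).trans hmx)
  have ht1 : 1 ≤ t := by linarith
  have htpos : 0 < t := by linarith
  obtain ⟨T, hTdef⟩ : ∃ T, T = t ^ (100 * r) := ⟨_, rfl⟩
  have hN : (n : ℝ) = T ^ 2 := by
    rw [hTdef, ← htp, ← pow_mul]
    congr 1
    ring
  have hT5 : t ^ 5 ≤ T := by
    rw [hTdef]
    exact pow_le_pow_right₀ ht1 (by omega)
  have hTpos : 0 < T := lt_of_lt_of_le (by positivity) hT5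
  obtain ⟨B, hBdef⟩ : ∃ B, B = t ^ (280 * r) := ⟨_, rfl⟩
  have hB0 : 0 < B := by
    rw [hBdef]
    positivity
  have hBT : B * t ≤ T ^ 3 := by
    rw [hBdef, hTdef, ← pow_succ, ← pow_mul]
    exact pow_le_pow_right₀ ht1 (by omega)
  have hTB : T ^ 2 * (t ^ 4) ^ r * t ≤ B := by
    rw [hBdef, hTdef, ← pow_mul, ← pow_mul, ← pow_add, ← pow_succ]
    exact pow_le_pow_right₀ ht1 (by omega)
  obtain ⟨L, hL⟩ : ∃ L, L = 200 * (r : ℝ) * Real.log t := ⟨_, rfl⟩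
  have hL2 : L = Real.log (T ^ 2) := by
    rw [← hN, ← htp, Real.log_pow, hL]
    push_cast
    ring
  have hlog1 : 1 ≤ Real.log t := by
    rw [Real.le_log_iff_exp_le htpos]
    have := Real.exp_one_lt_d9
    linarith
  have hL1 : 1 ≤ L := by
    have hr1 : (1 : ℝ) ≤ r := by exact_mod_cast hr
    rw [hL]
    nlinarith
  rw [← hL] at b9 b10
  obtain ⟨hm1l, hm1u, μ2, μA, ka, kb, hμ2, hμA, hμ2l, hμ2u, hμAl, hμAu⟩ :=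
    f2p_ex ε0 A t T hε0 hε01 hA1 b1 b2 b3 hT5 n hN m1 h1 h2
  obtain ⟨hκ1, hκ2, hκ0⟩ := f2p_kap T hTpos n κ hN hκ
  obtain ⟨qh, c1, c2, c3, c4, c5, c6⟩ := f2p_qh q1 Q A t T κ K hq1 hQ hA hA1 b1 hK
    ((le_max_left _ _).trans b4) ((le_max_right _ _).trans b4) hT5 n μ2 μA hN hκ1 hκ2 hκ0
    hμ2l hμ2u hμAl hμAu
  obtain ⟨uL2, d1, d2, d3, d4, d5, d6, d7, d8⟩ := f2p_uL ε C δ A t T κ L B r hε hδ hA1 b6 b1 b9
    b10 b8 hT5 hBT n m1 μ2 μA hN hκ1 hκ2 hκ0 hm1u hμ2l hμ2u hμAl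
  have hsum := f2p_sum ε0 ε t T B r hr hε0 hε01 hε b1 hT5 hB0 (by rw [← ha5]; exact b7) hTB
    n m1 μ2 hN hm1l hm1u hμ2u
  have hT3 : 0 < T ^ 3 := by positivity
  have hTA : T ^ 3 ≤ μA := by
    refine le_trans ?_ hμAl
    calc T ^ 3 = 1 * T ^ 3 := (one_mul _).symm
      _ ≤ A * T ^ 3 := mul_le_mul_of_nonneg_right hA1 hT3.le
  have htT : t ≤ T := le_trans (le_self_pow₀ ht1 (by norm_num)) hT5
  have hT1 : 1 ≤ T := by linarith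
  have hTT : t ≤ μA := by
    refine le_trans (le_trans htT ?_) hTA
    exact le_self_pow₀ hT1 (by norm_num)
  have hμ2pos : (0 : ℝ) < μ2 := lt_of_lt_of_le (by positivity) hμ2l
  have hm1pos : (0 : ℝ) < m1 := lt_of_lt_of_le (by positivity) hm1l
  refine ⟨μ2, μA, ka, kb, qh, uL2, L, B, hμ2, hμA, ?_, c1, c2, c3, c4, c5, c6, d1, d2, d3, d4, d5,
    hL1, ?_, d6, d7, hB0, hsum, d8, ?_⟩
  · have : (0 : ℝ) < μA := by linarith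
    exact_mod_cast this
  · rw [hL2]
    apply Real.log_le_log (by positivity)
    rw [div_le_iff₀ hμ2pos]
    have ht21 : 1 ≤ t ^ 2 := one_le_pow₀ ht1
    calc (m1 : ℝ) ≤ T ^ 4 := hm1u
      _ = T * (1 * T ^ 3) := by ring
      _ ≤ T ^ 2 * (t ^ 2 * T ^ 3) := by
        apply mul_le_mul (le_self_pow₀ hT1 (by norm_num)) _ (by positivity) (by positivity)
        exact mul_le_mul_of_nonneg_right ht21 hT3.le
      _ ≤ T ^ 2 * μ2 := mul_le_mul_of_nonneg_left hμ2l (by positivity)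
  · have : (m0 : ℝ) ≤ μA := b5.trans hTT
    exact_mod_cast this

end Vale.Agent.P046S
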