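import Vale.Agent.P046S.D6
import Vale.Agent.P046S.D7
import Vale.Agent.P046S.E7
import Vale.Agent.P046S.F1
import Vale.Agent.P046S.F2p

/-!
P046 sharp constant, module F2: composition of all stages.

`chainA`: let `ε' = ε/10` and so on. `last ε'` gives `q0`; let `Cr` be the larger of the constants of
`run`, `run2`; `q1 ≥ max q0 2` with `q1^10 ≥ 1000`, `4 Cr (2 q1^{-10}) (3/2 q1)^8 ≤ ε/4`;
`η2 := q1^{-10}/10` (so `2 η2 + 1/qh^10 ≤ 2 q1^{-10}`), `δ ≤ 1/10` with `Cr δ/η2 ≤ ε/20`, and so that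
`|1/√(2κ) - n^{3/2}/(2√2)| ≤ (ε/20) n^{3/2}` if `|κ n^3/4 - 1| ≤ δ`. `params` with small `ε''`.
Order: `EX φ K M = EX φ (k' + (kb + ka)) M` (`EX_stable`) `≤ cost H g1 (kb + ka) M + ε/4` (`EX_cost`,
`last`, `φ ≤ 1`), `g1 M' = 0` iff `GoodE κ (1/(4 qh^8)) (1/(2 qh^18)) H M' ∧ CycE H M' (μ2/uL2^3) b r`;
`cost_comp` with `g2 M' = 0` iff `GoodE κ η2 (2 η2) ∧ CycE`; for such `M'` (`Good κ (2η2) (2η2)`) use
`cost_mono_sub` (`CycE` is inherited by subsets, `nCy_mono`) and `run`; finally `run2` for `M`.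
-/

namespace Vale.Agent.P046S

open Finset Vale.Agent.P046 Vale.Agent.P046LF

/-- the test function -/
noncomputable def fn (n : ℕ) (x : ℝ) : ℝ :=
  min 1 |x / (n : ℝ) ^ (3 / 2 : ℝ) - 1 / (2 * Real.sqrt 2)|

theorem fn_le_one (n : ℕ) (x : ℝ) : fn n x ≤ 1 := min_le_left _ _

theorem Good.mono {V : Type} [DecidableEq V] {κ η η' ηz ηz' : ℝ} {H : Finset (Finset V)}
    {M : Finset V} {N : V → ℝ} {S : ℝ} (h : Good κ η ηz H M N S) (h1 : η ≤ η') (h2 : ηz ≤ ηz') :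
    Good κ η' ηz' H M N S := by
  have hm : (0 : ℝ) ≤ M.card := Nat.cast_nonneg _
  have hu : 0 ≤ uk κ M.card := Real.sqrt_nonneg _
  exact ⟨h.hN, h.hS0, h.hS.trans h1, h.hW.trans (mul_le_mul_of_nonneg_right h1 hm),
    h.hT.trans (mul_le_mul_of_nonneg_right h1 hm), h.hM.trans (mul_le_mul_of_nonneg_right h1 hm),
    h.hq.trans h1, h.hX.trans (mul_le_mul_of_nonneg_right h1 hm),
    h.hZ.trans (mul_le_mul_of_nonneg_right h2 (by positivity)),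
    h.hTh.trans (mul_le_mul_of_nonneg_right h2 (by positivity))⟩

theorem GoodE.mono {V : Type} [DecidableEq V] {κ η η' ηz ηz' : ℝ} {H : Finset (Finset V)}
    {M : Finset V} (h : GoodE κ η ηz H M) (h1 : η ≤ η') (h2 : ηz ≤ ηz') :
    GoodE κ η' ηz' H M := by
  obtain ⟨N, S, h⟩ := h
  exact ⟨N, S, h.mono h1 h2⟩

theorem CycE.mono {V : Type} [DecidableEq V] {H : Finset (Finset V)} {M M' : Finset V}
    {a b : ℝ} {r : ℕ} (h : CycE H M a b r) (hM : M' ⊆ M) : CycE H M' a b r := by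
  obtain ⟨L, h1, h2⟩ := h
  exact ⟨L, h1, (nCy_mono (Finset.Subset.refl H) hM r).trans h2⟩

theorem deg_Hn_le {n : ℕ} {M : Finset (Sym2 (Fin n))} (hM : M ⊆ EF (⊤ : SimpleGraph (Fin n)))
    {x : Sym2 (Fin n)} (hx : x ∈ M) : deg (Hn n) M x ≤ n := by
  have h1 := deg_le_of_subset (H := Hn n) hM x
  have h2 := deg_top (hM hx)
  omega

/-- the limit constant -/
theorem const_close {n : ℕ} (hn : 1 ≤ n) {κ δ : ℝ} (hδ : δ ≤ 1 / 10)
    (h : |κ * (n : ℝ) ^ 3 / 4 - 1| ≤ δ) :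
    0 < κ ∧ 1 / Real.sqrt κ ≤ (n : ℝ) ^ (3 / 2 : ℝ) ∧
    |1 / Real.sqrt (2 * κ) / (n : ℝ) ^ (3 / 2 : ℝ) - 1 / (2 * Real.sqrt 2)| ≤ δ := by
  have hn0 : (0 : ℝ) < n := by exact_mod_cast hn
  have hn3 : (0 : ℝ) < (n : ℝ) ^ 3 := by positivity
  obtain ⟨e, he⟩ : ∃ e : ℝ, e = κ * (n : ℝ) ^ 3 / 4 - 1 := ⟨_, rfl⟩
  rw [← he] at h
  have hδ0 : 0 ≤ δ := (abs_nonneg _).trans h
  have he1 := abs_le.1 h
  have hκe : κ * (n : ℝ) ^ 3 = 4 * (1 + e) := by rw [he]; ring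
  have hκ : 0 < κ := by
    have : 0 < κ * (n : ℝ) ^ 3 := by rw [hκe]; linarith [he1.1]
    exact (pos_iff_pos_of_mul_pos this).2 hn3
  have hs : (n : ℝ) ^ (3 / 2 : ℝ) = Real.sqrt ((n : ℝ) ^ 3) := by
    rw [Real.sqrt_eq_rpow, ← Real.rpow_natCast, ← Real.rpow_mul hn0.le]; norm_num
  have hs0 : 0 < Real.sqrt ((n : ℝ) ^ 3) := Real.sqrt_pos.2 hn3
  refine ⟨hκ, ?_, ?_⟩
  · rw [hs, div_le_iff₀ (Real.sqrt_pos.2 hκ), ← Real.sqrt_mul hn3.le, mul_comm _ κ, hκe,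
      Real.one_le_sqrt]
    linarith [he1.1]
  · have h1 : 1 / Real.sqrt (2 * κ) / (n : ℝ) ^ (3 / 2 : ℝ) =
        1 / (2 * Real.sqrt 2) * (1 / Real.sqrt (1 + e)) := by
      rw [hs, div_div, ← Real.sqrt_mul (by positivity)]
      have e1 : 2 * κ * (n : ℝ) ^ 3 = (2 : ℝ) ^ 2 * (2 * (1 + e)) := by
        have : 2 * κ * (n : ℝ) ^ 3 = 2 * (κ * (n : ℝ) ^ 3) := by ring
        rw [this, hκe]; ring
      rw [e1, Real.sqrt_mul (by positivity), Real.sqrt_sq (by norm_num),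
        Real.sqrt_mul (by norm_num)]
      have h2 : 0 < Real.sqrt (1 + e) := Real.sqrt_pos.2 (by linarith [he1.1])
      have h3 : 0 < Real.sqrt 2 := Real.sqrt_pos.2 (by norm_num)
      field_simp
    have h2 : 1 / (2 * Real.sqrt 2) ≤ 1 := by
      rw [div_le_one (by positivity)]
      have : 1 ≤ Real.sqrt 2 := by rw [Real.one_le_sqrt]; norm_num
      linarith
    have h20 : 0 ≤ 1 / (2 * Real.sqrt 2) := by positivity
    have hse0 : 0 < Real.sqrt (1 + e) := Real.sqrt_pos.2 (by linarith [he1.1])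
    have hse : Real.sqrt (1 + e) ^ 2 = 1 + e := Real.sq_sqrt (by linarith [he1.1])
    have h3 : |1 / Real.sqrt (1 + e) - 1| ≤ δ := by
      have h4 : 9 / 10 ≤ Real.sqrt (1 + e) := by
        apply Real.le_sqrt_of_sq_le
        linarith [he1.1]
      rw [abs_le]
      constructor
      · rw [le_sub_iff_add_le, le_div_iff₀ hse0]
        nlinarith
      · rw [sub_le_iff_le_add, div_le_iff₀ hse0]
        nlinarith
    rw [h1]
    have e2 : 1 / (2 * Real.sqrt 2) * (1 / Real.sqrt (1 + e)) - 1 / (2 * Real.sqrt 2) =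
      1 / (2 * Real.sqrt 2) * (1 / Real.sqrt (1 + e) - 1) := by ring
    rw [e2, abs_mul, abs_of_nonneg h20]
    calc _ ≤ 1 * δ := mul_le_mul h2 h3 (abs_nonneg _) zero_le_one
      _ = δ := one_mul _

theorem fn_le {n : ℕ} (hn : 1 ≤ n) {κ δ : ℝ} (hδ : δ ≤ 1 / 10)
    (h : |κ * (n : ℝ) ^ 3 / 4 - 1| ≤ δ) (x : ℝ) :
    fn n x ≤ 1 / (n : ℝ) ^ (3 / 2 : ℝ) * |x - 1 / Real.sqrt (2 * κ)| + δ := by
  obtain ⟨_, _, h3⟩ := const_close hn hδ h
  have hn0 : (0 : ℝ) < n := by exact_mod_cast hn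
  have hp : 0 < (n : ℝ) ^ (3 / 2 : ℝ) := Real.rpow_pos_of_pos hn0 _
  refine (min_le_right _ _).trans ?_
  have e1 : x / (n : ℝ) ^ (3 / 2 : ℝ) - 1 / (2 * Real.sqrt 2) =
      1 / (n : ℝ) ^ (3 / 2 : ℝ) * (x - 1 / Real.sqrt (2 * κ)) +
      (1 / Real.sqrt (2 * κ) / (n : ℝ) ^ (3 / 2 : ℝ) - 1 / (2 * Real.sqrt 2)) := by ring
  rw [e1]
  refine (abs_add_le _ _).trans (add_le_add ?_ h3)
  rw [abs_mul, abs_of_pos (by positivity)]

open Classical in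
theorem chA {n : ℕ} (hn1 : 1 ≤ n) {ε δ κ a b qh : ℝ} {r μA kk K : ℕ} (hε : 0 < ε)
    (hδa : δ ≤ 1 / 10) (hδb : δ ≤ ε / 8) (hκ1 : |κ * (n : ℝ) ^ 3 / 4 - 1| ≤ δ)
    (hlast : ∀ M' : Finset (Sym2 (Fin n)), M'.card = μA →
      GoodE κ (1 / (4 * qh ^ 8)) (1 / (2 * qh ^ 18)) (Hn n) M' → CycE (Hn n) M' a b r →
      EX (Hn n) (fun M' => |(M'.card : ℝ) - 1 / Real.sqrt (2 * κ)|) μA M' ≤
        ε / 8 / Real.sqrt κ) (M : Finset (Sym2 (Fin n))) (hM : M.card = μA + 3 * kk)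
    (hMK : M.card ≤ 3 * K + 2) :
    EX (Hn n) (fun M' => fn n M'.card) K M ≤ cost (Hn n) (fun M' =>
      if GoodE κ (1 / (4 * qh ^ 8)) (1 / (2 * qh ^ 18)) (Hn n) M' ∧ CycE (Hn n) M' a b r
      then 0 else 1) kk M + ε / 4 := by
  obtain ⟨hκ, hκs, _⟩ := const_close hn1 hδa hκ1
  have hn0' : (0 : ℝ) < n := by exact_mod_cast hn1
  have hp : 0 < (n : ℝ) ^ (3 / 2 : ℝ) := Real.rpow_pos_of_pos hn0' _
  have e1 : EX (Hn n) (fun M' => fn n M'.card) K M =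
      EX (Hn n) (fun M' => fn n M'.card) (μA + kk) M :=
    EX_stable Hn_lin _ hMK (by omega)
  rw [e1]
  refine EX_cost (μN := μA) Hn_lin (fun M' => fn_le_one n _) ?_ (by positivity) kk M hM
  intro M' hM'
  split_ifs with hgd
  · rw [zero_add]
    have h2 := hlast M' hM' hgd.1 hgd.2
    have h3 : EX (Hn n) (fun M' => fn n M'.card) μA M' ≤
        1 / (n : ℝ) ^ (3 / 2 : ℝ) *
          EX (Hn n) (fun M' => |(M'.card : ℝ) - 1 / Real.sqrt (2 * κ)|) μA M' + δ := by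
      have h4 := EX_mono (H := Hn n) (φ := fun M' => fn n M'.card)
        (ψ := fun M' => (fun M' => 1 / (n : ℝ) ^ (3 / 2 : ℝ) *
          |(M'.card : ℝ) - 1 / Real.sqrt (2 * κ)|) M' + (fun _ => δ) M')
        (fun M' => fn_le hn1 hδa hκ1 M'.card) μA M'
      rw [EX_add, EX_const, EX_mul] at h4
      exact h4
    refine h3.trans ?_
    have h5 : 1 / (n : ℝ) ^ (3 / 2 : ℝ) * EX (Hn n) (fun M' =>
        |(M'.card : ℝ) - 1 / Real.sqrt (2 * κ)|) μA M' ≤ ε / 8 := by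
      calc _ ≤ 1 / (n : ℝ) ^ (3 / 2 : ℝ) * (ε / 8 / Real.sqrt κ) :=
            mul_le_mul_of_nonneg_left h2 (by positivity)
        _ = ε / 8 * (1 / Real.sqrt κ / (n : ℝ) ^ (3 / 2 : ℝ)) := by ring
        _ ≤ ε / 8 * 1 := by
            refine mul_le_mul_of_nonneg_left ?_ (by positivity)
            rw [div_le_one hp]; exact hκs
        _ = _ := mul_one _
    linarith
  · have h4 := EX_mono (H := Hn n) (φ := fun M' => fn n M'.card) (ψ := fun _ => 1)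
      (fun M' => fn_le_one n _) μA M'
    rw [EX_const] at h4
    linarith

theorem chB_num {Ca ε η2 q1 qh : ℝ} (hCa : 1 ≤ Ca) (hε : 0 < ε) (hq1 : 2 ≤ q1)
    (hq1c : 64 * Ca / ε ≤ q1) (hη2 : η2 = 1 / (2 * (2 * q1) ^ 10)) (hqh1 : q1 ≤ qh)
    (hqh2 : qh ≤ 3 / 2 * q1) : Ca * (2 * η2 + 1 / qh ^ 10) / (1 / (4 * qh ^ 8)) ≤ ε / 8 := by
  have hqh0 : 0 < qh := by linarith
  have h3 : 2 * η2 ≤ 1 / qh ^ 10 := by
    rw [hη2]
    have h4 : qh ^ 10 ≤ (2 * q1) ^ 10 := pow_le_pow_left₀ hqh0.le (by linarith) 10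
    have hq0 : 0 < q1 := by linarith
    calc 2 * (1 / (2 * (2 * q1) ^ 10)) = 1 / (2 * q1) ^ 10 := by field_simp
      _ ≤ 1 / qh ^ 10 := one_div_le_one_div_of_le (by positivity) h4
  have h4 : Ca * (2 * η2 + 1 / qh ^ 10) / (1 / (4 * qh ^ 8)) ≤
      Ca * (2 / qh ^ 10) / (1 / (4 * qh ^ 8)) := by
    refine div_le_div_of_nonneg_right ?_ (by positivity)
    refine mul_le_mul_of_nonneg_left ?_ (by linarith)
    have : (2 : ℝ) / qh ^ 10 = 1 / qh ^ 10 + 1 / qh ^ 10 := by ring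
    rw [this]; linarith
  refine h4.trans ?_
  have e2 : Ca * (2 / qh ^ 10) / (1 / (4 * qh ^ 8)) = 8 * Ca / (qh * qh) := by
    field_simp; ring
  rw [e2, div_le_iff₀ (by positivity)]
  have h5 : 64 * Ca ≤ ε * qh := by
    rw [div_le_iff₀ hε] at hq1c
    nlinarith
  have h6 : ε * qh ≤ ε * (qh * qh) := by
    refine mul_le_mul_of_nonneg_left ?_ hε.le
    nlinarith
  linarith

open Classical in
theorem chB {n : ℕ} {ε κ η2 ηz a b qh σ : ℝ} {r kb : ℕ} (hqh : 0 < qh) (hε : 0 < ε)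
    {M' : Finset (Sym2 (Fin n))} (hσ : σ ≤ 1 / qh ^ 10) (hηz : ηz ≤ 2 * η2) (hη2 : 0 < η2)
    (hgd : GoodE κ η2 ηz (Hn n) M') (hcy : CycE (Hn n) M' a b r)
    (hrun : ∀ N S, Good κ (2 * η2) (2 * η2) (Hn n) M' N S → cost (Hn n) (fun M'' =>
      if GoodE κ (1 / (4 * qh ^ 8)) (1 / (4 * qh ^ 8) * (σ + 1 / qh ^ 10)) (Hn n) M''
      then 0 else 1) kb M' ≤ ε / 8) :
    cost (Hn n) (fun M' =>
      if GoodE κ (1 / (4 * qh ^ 8)) (1 / (2 * qh ^ 18)) (Hn n) M' ∧ CycE (Hn n) M' a b r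
      then 0 else 1) kb M' ≤ ε / 8 := by
  obtain ⟨N, S, hgN⟩ := hgd
  refine (cost_mono_sub kb M' (g' := fun M'' => if GoodE κ (1 / (4 * qh ^ 8))
    (1 / (4 * qh ^ 8) * (σ + 1 / qh ^ 10)) (Hn n) M'' then 0 else 1)
    ?_).trans (hrun N S (hgN.mono (by linarith) hηz))
  intro M'' hM''
  by_cases hgd2 : GoodE κ (1 / (4 * qh ^ 8))
      (1 / (4 * qh ^ 8) * (σ + 1 / qh ^ 10)) (Hn n) M''
  · rw [if_pos hgd2, if_pos]
    refine ⟨hgd2.mono le_rfl ?_, hcy.mono hM''⟩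
    have h3 : σ + 1 / qh ^ 10 ≤ 2 / qh ^ 10 := by
      have : (2 : ℝ) / qh ^ 10 = 1 / qh ^ 10 + 1 / qh ^ 10 := by ring
      rw [this]; linarith
    calc 1 / (4 * qh ^ 8) * (σ + 1 / qh ^ 10)
        ≤ 1 / (4 * qh ^ 8) * (2 / qh ^ 10) :=
          mul_le_mul_of_nonneg_left h3 (by positivity)
      _ = 1 / (2 * qh ^ 18) := by field_simp; ring
  · rw [if_neg hgd2]
    split_ifs <;> norm_num

open Classical in
theorem chainA (ε : ℝ) (hε : 0 < ε) : ∃ δ : ℝ, 0 < δ ∧ ∀ ε0 : ℝ, 0 < ε0 → ε0 ≤ 1 / 4 →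
    ∃ n0 : ℕ, ∀ n : ℕ, n0 ≤ n → ∀ (M : Finset (Sym2 (Fin n))) (K : ℕ),
    M ⊆ EF (⊤ : SimpleGraph (Fin n)) → ε0 * (n.choose 2 : ℝ) ≤ M.card →
    (M.card : ℝ) ≤ 2 * ε0 * (n.choose 2 : ℝ) → M.card ≤ 3 * K + 2 →
    (∃ κ : ℝ, |κ * (n : ℝ) ^ 3 / 4 - 1| ≤ δ ∧ GoodE κ δ δ (Hn n) M) →
    EX (Hn n) (fun M' => fn n M'.card) K M ≤ ε := by
  obtain ⟨q0, hq0, hlast⟩ := last (ε / 8) (by positivity)
  obtain ⟨Ca, hCa, hrun⟩ := run
  obtain ⟨Cb, hCb, hrun2⟩ := run2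
  obtain ⟨q1, hq1⟩ : ∃ q1 : ℝ, q1 = max q0 (max 2 (64 * Ca / ε)) := ⟨_, rfl⟩
  have hq1a : q0 ≤ q1 := by rw [hq1]; exact le_max_left _ _
  have hq1b : 2 ≤ q1 := by rw [hq1]; exact le_max_of_le_right (le_max_left _ _)
  have hq1c : 64 * Ca / ε ≤ q1 := by rw [hq1]; exact le_max_of_le_right (le_max_right _ _)
  clear hq1
  obtain ⟨r, hr, δ3, hδ3, m0, hlast⟩ := hlast q1 hq1a
  have hq10 : 0 < q1 := by linarith
  obtain ⟨η2, hη2⟩ : ∃ η2 : ℝ, η2 = 1 / (2 * (2 * q1) ^ 10) := ⟨_, rfl⟩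
  have hη20 : 0 < η2 := by rw [hη2]; positivity
  have hη21 : η2 ≤ 1 := by
    rw [hη2, div_le_one (by positivity)]
    have : (1 : ℝ) ≤ (2 * q1) ^ 10 := one_le_pow₀ (by linarith)
    linarith
  obtain ⟨δ, hδ⟩ : ∃ δ : ℝ, δ = min (min (1 / 10) (ε / 8)) (ε * η2 / (32 * Cb)) := ⟨_, rfl⟩
  have hδ0 : 0 < δ := by
    rw [hδ]
    exact lt_min (lt_min (by norm_num) (by positivity)) (by positivity)
  have hδa : δ ≤ 1 / 10 := by rw [hδ]; exact (min_le_left _ _).trans (min_le_left _ _)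
  have hδb : δ ≤ ε / 8 := by rw [hδ]; exact (min_le_left _ _).trans (min_le_right _ _)
  have hδc : δ ≤ ε * η2 / (32 * Cb) := by rw [hδ]; exact min_le_right _ _
  refine ⟨δ, hδ0, fun ε0 hε0 hε01 => ?_⟩
  obtain ⟨ε2, hε2⟩ : ∃ ε2 : ℝ, ε2 = min (ε / 8) (ε * η2 / (32 * Cb)) := ⟨_, rfl⟩
  have hε20 : 0 < ε2 := by rw [hε2]; exact lt_min (by positivity) (by positivity)
  have hε2a : ε2 ≤ ε / 8 := by rw [hε2]; exact min_le_left _ _
  have hε2b : ε2 ≤ ε * η2 / (32 * Cb) := by rw [hε2]; exact min_le_right _ _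
  obtain ⟨n0, hn0⟩ := params q1 ε0 ε2 Cb δ3 r m0 hq1b hε0 hε01 hε20 (by linarith) hδ3 hr
  refine ⟨max n0 1, fun n hn M K hM hM1 hM2 hMK hgood => ?_⟩
  obtain ⟨κ, hκ1, hG⟩ := hgood
  have hn1 : 1 ≤ n := (le_max_right _ _).trans hn
  obtain ⟨hκ, hκs, _⟩ := const_close hn1 hδa hκ1
  obtain ⟨μ2, μA, ka, kb, qh, uL2, L, b, hka, hkb, hμA, hqh, hqh1, hqh2, hb1, hb2, hb3, hu4, hu1,
    hu6, hu2, hiu, hL1, hLlog, hLr, hLC, hb0, hbs, hab, hm0⟩ :=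
    hn0 n ((le_max_left _ _).trans hn) κ M.card (hκ1.trans hδa) hM1 hM2
  clear hn0
  have hqh0 : 0 < qh := by linarith
  have hμA0 : (0 : ℝ) < μA := by exact_mod_cast hμA
  have hμ2A : (μA : ℝ) ≤ μ2 := by
    have : μA ≤ μ2 := by omega
    exact_mod_cast this
  have hμ20 : (0 : ℝ) < μ2 := by linarith
  have hm2 : (μ2 : ℝ) ≤ M.card := by
    have : μ2 ≤ M.card := by omega
    exact_mod_cast this
  have hm10 : (0 : ℝ) < M.card := by linarith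
  have hq10p : (1000 : ℝ) ≤ qh ^ 10 := by
    have h1 : (2 : ℝ) ^ 10 ≤ qh ^ 10 := pow_le_pow_left₀ (by norm_num) (by linarith) 10
    norm_num at h1
    linarith
  -- step A
  have hA := chA (μA := μA) (kk := kb + ka) (K := K) (a := (μ2 : ℝ) / uL2 ^ 3) (b := b) (r := r)
    (qh := qh) hn1 hε hδa hδb hκ1 (fun M' hM' hg hc => hlast (Sym2 (Fin n)) (Hn n) M' κ qh _ _
      ((μ2 : ℝ) / uL2 ^ 3) b μA Hn_lin hκ (by rw [hM']; exact hqh) hqh1 hqh2 le_rfl le_rfl hg hc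
      (by rw [hM']; exact hab) (by rw [hM']; exact hm0) (by rw [hM']; omega)) M (by omega) hMK
  refine hA.trans ?_
  clear hA hlast
  -- step B
  have hB := cost_comp (H := Hn n) (g := fun M' =>
      if GoodE κ (1 / (4 * qh ^ 8)) (1 / (2 * qh ^ 18)) (Hn n) M' ∧
        CycE (Hn n) M' ((μ2 : ℝ) / uL2 ^ 3) b r then 0 else 1)
    (g1 := fun M' =>
      if GoodE κ η2 (η2 * (Real.sqrt (μ2 / M.card) + 1 / uL2)) (Hn n) M' ∧
        CycE (Hn n) M' ((μ2 : ℝ) / uL2 ^ 3) b r then 0 else 1) (L := ε / 8)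
    Hn_lin (by positivity) (by intro M'; split_ifs <;> norm_num) ka kb M
    (by
      intro M' hM' hcard
      split_ifs with hgd
      · rw [zero_add]
        have hM'c : M'.card = μ2 := by omega
        have hs1 : Real.sqrt (μ2 / M.card) ≤ 1 := by
          rw [Real.sqrt_le_one, div_le_one hm10]; exact hm2
        have hs2 : 1 / uL2 ≤ 1 := by
          rw [div_le_one (by linarith)]; linarith
        have hs3 : η2 * (Real.sqrt (μ2 / M.card) + 1 / uL2) ≤ 2 * η2 := by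
          rw [mul_comm 2]
          exact mul_le_mul_of_nonneg_left (by linarith) hη20.le
        refine chB (σ := Real.sqrt ((μA : ℝ) / μ2)) hqh0 hε hb3 hs3 hη20 hgd.1 hgd.2 ?_
        intro N S hgN
        have h2 := hrun (Sym2 (Fin n)) (Hn n) M' N κ S (qh ^ 10) μA (2 * η2) (1 / (4 * qh ^ 8)) n
          kb Hn_lin hκ hq10p hμA0 (by rw [← pow_mul]; exact hqh) (by rw [hM'c]; exact hb1) hb2
          (fun x hx => by exact_mod_cast deg_Hn_le (hM'.trans hM) hx)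
          (by rw [hM'c, hkb]; push_cast; ring) (by positivity) (by positivity)
          (by
            rw [div_le_one (by positivity)]
            have : (1 : ℝ) ≤ qh ^ 8 := one_le_pow₀ (by linarith)
            linarith) hgN
        rw [hM'c] at h2
        exact h2.trans (chB_num hCa hε hq1b hq1c hη2 hqh1 hqh2)
      · have := cost_le_one (H := Hn n) (g := fun M' =>
          if GoodE κ (1 / (4 * qh ^ 8)) (1 / (2 * qh ^ 18)) (Hn n) M' ∧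
          CycE (Hn n) M' ((μ2 : ℝ) / uL2 ^ 3) b r then 0 else 1)
          (by intro M'; split_ifs <;> norm_num) kb M'
        linarith)
  refine (add_le_add_left hB _).trans ?_
  clear hB hrun
  -- step C
  obtain ⟨N, S, hgN⟩ := hG
  have h2 := hrun2 (Sym2 (Fin n)) (Hn n) M N κ S uL2 μ2 δ η2 b L n ka r Hn_lin hκ hu1 hμ20 hu4
    hu6 hu2 (fun x hx => deg_Hn_le hM hx) (by rw [hka]; push_cast; ring) hδ0.le hη20 hη21 hgN
    hb0 hr hL1 hLlog hLr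
  have h3 : Cb * (δ + 1 / uL2) / η2 ≤ ε / 16 := by
    rw [div_le_iff₀ hη20]
    have h4 : δ + 1 / uL2 ≤ 2 * (ε * η2 / (32 * Cb)) := by linarith
    have h5 := mul_le_mul_of_nonneg_left h4 (by linarith : 0 ≤ Cb)
    have e3 : Cb * (2 * (ε * η2 / (32 * Cb))) = ε / 16 * η2 := by field_simp; ring
    linarith
  linarith

open Classical in
theorem sharp_EX (ε : ℝ) (hε : 0 < ε) : ∃ n0 : ℕ, ∀ n : ℕ, n0 ≤ n →
    EX (Hn n) (fun M' => fn n M'.card) (n ^ 2) (EF (⊤ : SimpleGraph (Fin n))) ≤ ε := by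
  obtain ⟨δ, hδ, hch⟩ := chainA (ε / 2) (by positivity)
  obtain ⟨ε0, hε0, hε01, n1, hst⟩ := stage1 (ε / 2) δ (by positivity) hδ
  obtain ⟨n2, hch⟩ := hch ε0 hε0 hε01
  obtain ⟨n3, hn3⟩ := exists_nat_ge (3 / ε0)
  refine ⟨max (max n1 n2) (max (n3 + 1) 2), fun n hn => ?_⟩
  have hn1 : n1 ≤ n := (le_max_left _ _).trans ((le_max_left _ _).trans hn)
  have hn2 : n2 ≤ n := (le_max_right _ _).trans ((le_max_left _ _).trans hn)
  have hn3' : n3 + 1 ≤ n := (le_max_left _ _).trans ((le_max_right _ _).trans hn)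
  have hn4 : 2 ≤ n := (le_max_right _ _).trans ((le_max_right _ _).trans hn)
  obtain ⟨R, hR⟩ : ∃ R : ℕ, R = n.choose 2 := ⟨_, rfl⟩
  have hRn : 3 / ε0 ≤ (R : ℝ) := by
    have h1 : n - 1 ≤ R := by
      rw [hR, Nat.choose_two_right]
      rw [Nat.le_div_iff_mul_le (by norm_num)]
      calc (n - 1) * 2 ≤ (n - 1) * n := Nat.mul_le_mul_left _ hn4
        _ = n * (n - 1) := Nat.mul_comm _ _
    have h2 : n3 ≤ R := by omega
    exact hn3.trans (by exact_mod_cast h2)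
  have hε0R : 3 ≤ ε0 * R := by
    rw [div_le_iff₀ hε0] at hRn
    linarith
  have hR0 : (0 : ℝ) ≤ R := Nat.cast_nonneg _
  obtain ⟨k, hk⟩ : ∃ k : ℕ, k = ⌊(1 - ε0) * R / 3⌋₊ := ⟨_, rfl⟩
  have hx0 : 0 ≤ (1 - ε0) * R / 3 := by
    have : 0 ≤ 1 - ε0 := by linarith
    positivity
  have hk1 : (k : ℝ) ≤ (1 - ε0) * R / 3 := by rw [hk]; exact Nat.floor_le hx0
  have hk2 : (1 - ε0) * R / 3 < k + 1 := by rw [hk]; exact Nat.lt_floor_add_one _
  have hlo : ε0 * (n.choose 2 : ℝ) ≤ (n.choose 2 : ℝ) - 3 * k := by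
    rw [← hR]; linarith
  have hhi : (n.choose 2 : ℝ) - 3 * k ≤ 2 * ε0 * (n.choose 2 : ℝ) := by
    rw [← hR]; linarith
  have hkR : 3 * k ≤ R := by
    have : (3 * k : ℝ) ≤ R := by
      have h0 : 0 ≤ ε0 * R := by positivity
      linarith
    exact_mod_cast this
  have hct : (EF (⊤ : SimpleGraph (Fin n))).card = R := by rw [hR]; exact card_top
  have hc := hst n hn1 k hlo hhi
  obtain ⟨g, hg⟩ : ∃ g : Finset (Sym2 (Fin n)) → ℝ, g = fun M =>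
      if M ⊆ EF (⊤ : SimpleGraph (Fin n)) ∧
        ∃ κ : ℝ, |κ * (n : ℝ) ^ 3 / 4 - 1| ≤ δ ∧ GoodE κ δ δ (Hn n) M then 0 else 1 := ⟨_, rfl⟩
  have e1 : EX (Hn n) (fun M' => fn n M'.card) (n ^ 2) (EF (⊤ : SimpleGraph (Fin n))) =
      EX (Hn n) (fun M' => fn n M'.card) (R + k) (EF (⊤ : SimpleGraph (Fin n))) := by
    refine EX_stable Hn_lin _ ?_ (by rw [hct]; omega)
    rw [hct, hR, Nat.choose_two_right]
    have h1 : n * (n - 1) / 2 ≤ n * (n - 1) := Nat.div_le_self _ _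
    have h2 : n * (n - 1) ≤ n * n := Nat.mul_le_mul_left _ (Nat.sub_le _ _)
    have h3 : n ^ 2 = n * n := sq n
    omega
  rw [e1]
  have h1 : EX (Hn n) (fun M' => fn n M'.card) (R + k) (EF (⊤ : SimpleGraph (Fin n))) ≤
      cost (Hn n) g k (EF (⊤ : SimpleGraph (Fin n))) + ε / 2 := by
    refine EX_cost (μN := R - 3 * k) Hn_lin (fun M' => fn_le_one n _) ?_ (by positivity) k _
      (by rw [hct]; omega)
    intro M' hM'
    have hM'c : (M'.card : ℝ) = (n.choose 2 : ℝ) - 3 * k := by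
      rw [hM', Nat.cast_sub hkR, ← hR]; push_cast; ring
    by_cases hgd : M' ⊆ EF (⊤ : SimpleGraph (Fin n)) ∧
        ∃ κ : ℝ, |κ * (n : ℝ) ^ 3 / 4 - 1| ≤ δ ∧ GoodE κ δ δ (Hn n) M'
    · have h1 : g M' = 0 := by rw [hg]; dsimp only; rw [if_pos hgd]
      rw [h1, zero_add]
      exact hch n hn2 M' R hgd.1 (by rw [hM'c]; exact hlo) (by rw [hM'c]; exact hhi)
        (by rw [hM']; omega) hgd.2
    · have h1 : g M' = 1 := by rw [hg]; dsimp only; rw [if_neg hgd]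
      rw [h1]
      have h4 := EX_mono (H := Hn n) (φ := fun M' => fn n M'.card) (ψ := fun _ => 1)
        (fun M' => fn_le_one n _) R M'
      rw [EX_const] at h4
      linarith
  have h2 : cost (Hn n) g k (EF (⊤ : SimpleGraph (Fin n))) ≤ ε / 2 := by
    refine (cost_mono_sub k _ ?_).trans hc
    intro M' hM'
    rw [hg]
    dsimp only
    by_cases hgd : ∃ κ : ℝ, |κ * (n : ℝ) ^ 3 / 4 - 1| ≤ δ ∧ GoodE κ δ δ (Hn n) M'
    · rw [if_pos hgd, if_pos ⟨hM', hgd⟩]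
    · rw [if_neg hgd]
      split_ifs <;> norm_num
  linarith

end Vale.Agent.P046S
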