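import Vale.Agent.P046S.F2
import Vale.Agent.P046LF.TailLF
import Vale.Agent.P046LF.EX

/-!
P046 sharp constant, module F3: convergence in probability and in mean.
`measure_EX`, `integral_EX`, uniform integrability from `tail_LF`:
`E X 1{X > B} ≤ ∑_j 3 4^j B P(X > 4^j B) ≤ C B^{-1/2}`, `X = F_n / n^{3/2}`.
-/

namespace Vale.Agent.P046S

open Finset Vale.Agent.P046 Vale.Agent.P046LF MeasureTheory

theorem f3_ae_le (n : ℕ) : ∀ᵐ k ∂(finalEdges n).toMeasure, k ≤ n.choose 2 := by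
  rw [ae_iff]
  simpa using final_le n

theorem f3_integrable (n : ℕ) (f : ℕ → ℝ) : Integrable f (finalEdges n).toMeasure := by
  refine Integrable.of_bound (measurable_from_top).aestronglyMeasurable
    (∑ k ∈ range (n.choose 2 + 1), |f k|) ?_
  filter_upwards [f3_ae_le n] with k hk
  exact single_le_sum (f := fun k => |f k|) (fun _ _ => abs_nonneg _)
    (mem_range.2 (by omega))

theorem f3_c0_pos : 0 < 1 / (2 * Real.sqrt 2) := by positivity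

theorem f3_c0_le : 1 / (2 * Real.sqrt 2) ≤ 1 := by
  have h : (1 : ℝ) ≤ Real.sqrt 2 := by
    rw [Real.one_le_sqrt]; norm_num
  rw [div_le_one (by positivity)]
  linarith

theorem f3_fn_nonneg (n : ℕ) (x : ℝ) : 0 ≤ fn n x := le_min zero_le_one (abs_nonneg _)

theorem f3_ind (n : ℕ) {ε : ℝ} (hε : 0 < ε) (k : ℕ) :
    ({k : ℕ | ε < |(k : ℝ) / (n : ℝ) ^ (3 / 2 : ℝ) - 1 / (2 * Real.sqrt 2)|}).indicator
      (fun _ => (1 : ℝ)) k ≤ (min 1 ε)⁻¹ * fn n k := by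
  have hm : 0 < min 1 ε := lt_min one_pos hε
  by_cases h : k ∈ {k : ℕ | ε < |(k : ℝ) / (n : ℝ) ^ (3 / 2 : ℝ) - 1 / (2 * Real.sqrt 2)|}
  · rw [Set.indicator_of_mem h]
    have h1 : ε < |(k : ℝ) / (n : ℝ) ^ (3 / 2 : ℝ) - 1 / (2 * Real.sqrt 2)| := h
    have h2 : min 1 ε ≤ fn n k := min_le_min le_rfl h1.le
    calc (1 : ℝ) = (min 1 ε)⁻¹ * min 1 ε := by rw [inv_mul_cancel₀ hm.ne']
      _ ≤ _ := mul_le_mul_of_nonneg_left h2 (inv_nonneg.2 hm.le)
  · rw [Set.indicator_of_notMem h]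
    exact mul_nonneg (inv_nonneg.2 hm.le) (f3_fn_nonneg n k)

theorem conv_prob (ε : ℝ) (hε : 0 < ε) :
    Filter.Tendsto (fun n : ℕ => ((finalEdges n).toMeasure
      {k : ℕ | ε < |(k : ℝ) / (n : ℝ) ^ (3 / 2 : ℝ) - 1 / (2 * Real.sqrt 2)|}).toReal)
      Filter.atTop (nhds 0) := by
  rw [Metric.tendsto_atTop]
  intro δ hδ
  have hm : 0 < min 1 ε := lt_min one_pos hε
  obtain ⟨n0, h0⟩ := sharp_EX (δ * min 1 ε / 2) (by positivity)
  refine ⟨n0, fun n hn => ?_⟩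
  rw [Real.dist_eq, sub_zero, abs_of_nonneg ENNReal.toReal_nonneg, measure_EX]
  have h1 := h0 n hn
  have h2 := EX_mono (H := Hn n) (φ := fun M => ({k : ℕ | ε < |(k : ℝ) / (n : ℝ) ^ (3 / 2 : ℝ) -
      1 / (2 * Real.sqrt 2)|}).indicator (fun _ => (1 : ℝ)) M.card)
      (ψ := fun M => (min 1 ε)⁻¹ * fn n M.card) (fun M => f3_ind n hε M.card) (n ^ 2)
      (EF (⊤ : SimpleGraph (Fin n)))
  refine h2.trans_lt ?_
  rw [EX_mul]
  calc (min 1 ε)⁻¹ * EX (Hn n) (fun M => fn n M.card) (n ^ 2) (EF (⊤ : SimpleGraph (Fin n)))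
      ≤ (min 1 ε)⁻¹ * (δ * min 1 ε / 2) := mul_le_mul_of_nonneg_left h1 (inv_nonneg.2 hm.le)
    _ = δ / 2 := by field_simp
    _ < δ := by linarith

theorem f3_trunc {B : ℝ} (hB : 0 < B) (x : ℝ) (J : ℕ) :
    min x (4 ^ J * B) ≤ B + ∑ j ∈ range J, 3 * (4 ^ j * B) * (if 4 ^ j * B < x then 1 else 0) := by
  induction J with
  | zero => simp
  | succ J ih =>
    rw [sum_range_succ, ← add_assoc]
    refine le_trans ?_ (add_le_add_left ih _)
    have hp : (0 : ℝ) < 4 ^ J * B := by positivity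
    by_cases h : 4 ^ J * B < x
    · rw [if_pos h, min_eq_right h.le, pow_succ]
      refine (min_le_right _ _).trans ?_
      linarith
    · rw [if_neg h, mul_zero, add_zero]
      push Not at h
      rw [min_eq_left h]
      exact min_le_left _ _

theorem f3_abs_le {B : ℝ} (hB : 2 ≤ B) (n : ℕ) {k J : ℕ}
    (hJ : (k : ℝ) / (n : ℝ) ^ (3 / 2 : ℝ) ≤ 4 ^ J * B) :
    |(k : ℝ) / (n : ℝ) ^ (3 / 2 : ℝ) - 1 / (2 * Real.sqrt 2)| ≤ B * fn n k +
      (B * (if B < (k : ℝ) / (n : ℝ) ^ (3 / 2 : ℝ) then 1 else 0) +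
        ∑ j ∈ range J, 3 * (4 ^ j * B) *
          (if 4 ^ j * B < (k : ℝ) / (n : ℝ) ^ (3 / 2 : ℝ) then 1 else 0)) := by
  have hc := f3_c0_pos
  have hc1 := f3_c0_le
  set c : ℝ := 1 / (2 * Real.sqrt 2) with hcdef
  set x : ℝ := (k : ℝ) / (n : ℝ) ^ (3 / 2 : ℝ) with hx
  have hx0 : 0 ≤ x := by positivity
  have hf0 : 0 ≤ fn n k := f3_fn_nonneg n k
  have hs0 : 0 ≤ ∑ j ∈ range J, 3 * (4 ^ j * B) * (if 4 ^ j * B < x then (1 : ℝ) else 0) := by
    refine sum_nonneg fun j _ => ?_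
    have : (0 : ℝ) ≤ 3 * (4 ^ j * B) := by positivity
    split_ifs <;> simp [this]
  by_cases h : B < x
  · rw [if_pos h]
    have h1 := f3_trunc (show 0 < B by linarith) x J
    rw [min_eq_left hJ] at h1
    have h2 : |x - c| ≤ x := by
      rw [abs_of_nonneg (by linarith)]
      linarith
    have h3 : 0 ≤ B * fn n k := mul_nonneg (by linarith) hf0
    linarith
  · rw [if_neg h, mul_zero, zero_add]
    push Not at h
    have h4 : |x - c| ≤ B * fn n k := by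
      have hfn : fn n k = min 1 |x - c| := rfl
      rw [hfn]
      rcases le_total 1 |x - c| with h5 | h5
      · rw [min_eq_left h5, mul_one, abs_le]
        constructor <;> linarith
      · rw [min_eq_right h5]
        have := abs_nonneg (x - c)
        nlinarith
    linarith

theorem f3_tail {C : ℝ} (hC : ∀ n : ℕ, 2 ≤ n → ∀ x : ℝ, 0 < x →
    ((finalEdges n).toMeasure {j : ℕ | x < j}).toReal ≤
      C * ((n : ℝ) ^ (3 / 2 : ℝ) / x) ^ (3 / 2 : ℝ)) {n : ℕ} (hn : 2 ≤ n) {t : ℝ} (ht : 0 < t) :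
    ∫ k, (if t ^ 2 < (k : ℝ) / (n : ℝ) ^ (3 / 2 : ℝ) then (1 : ℝ) else 0)
      ∂(finalEdges n).toMeasure ≤ C * (t⁻¹) ^ 3 := by
  have hn0 : (0 : ℝ) < (n : ℝ) ^ (3 / 2 : ℝ) := by
    have : (0 : ℝ) < n := by
      have : 0 < n := by omega
      exact_mod_cast this
    positivity
  have h1 : ∀ k : ℕ, (if t ^ 2 < (k : ℝ) / (n : ℝ) ^ (3 / 2 : ℝ) then (1 : ℝ) else 0) =
      Set.indicator {j : ℕ | t ^ 2 * (n : ℝ) ^ (3 / 2 : ℝ) < j} (fun _ => (1 : ℝ)) k := by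
    intro k
    rw [Set.indicator_apply]
    refine if_congr ?_ rfl rfl
    rw [lt_div_iff₀ hn0]
    rfl
  simp_rw [h1]
  rw [integral_indicator_const _ MeasurableSet.of_discrete, smul_eq_mul, mul_one]
  have h2 := hC n hn (t ^ 2 * (n : ℝ) ^ (3 / 2 : ℝ)) (by positivity)
  refine h2.trans (le_of_eq ?_)
  congr 1
  have h3 : (n : ℝ) ^ (3 / 2 : ℝ) / (t ^ 2 * (n : ℝ) ^ (3 / 2 : ℝ)) = (t⁻¹) ^ 2 := by
    field_simp
  rw [h3, ← Real.rpow_natCast (t⁻¹) 2, ← Real.rpow_mul (by positivity),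
    ← Real.rpow_natCast (t⁻¹) 3]
  norm_num

theorem f3_main {C : ℝ} (hC0 : 0 < C) (hC : ∀ n : ℕ, 2 ≤ n → ∀ x : ℝ, 0 < x →
    ((finalEdges n).toMeasure {j : ℕ | x < j}).toReal ≤
      C * ((n : ℝ) ^ (3 / 2 : ℝ) / x) ^ (3 / 2 : ℝ)) {n : ℕ} (hn : 2 ≤ n) {b : ℝ} (hb : 2 ≤ b) :
    |(∫ k, (k : ℝ) ∂(finalEdges n).toMeasure) / (n : ℝ) ^ (3 / 2 : ℝ) -
      1 / (2 * Real.sqrt 2)| ≤
      b ^ 2 * EX (Hn n) (fun M => fn n M.card) (n ^ 2) (EF (⊤ : SimpleGraph (Fin n))) +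
        7 * C / b := by
  have hn1 : (1 : ℝ) ≤ n := by exact_mod_cast (by omega : 1 ≤ n)
  have hn32 : (1 : ℝ) ≤ (n : ℝ) ^ (3 / 2 : ℝ) := Real.one_le_rpow hn1 (by norm_num)
  have hb0 : 0 < b := by linarith
  have hB : (2 : ℝ) ≤ b ^ 2 := by nlinarith
  set J := n ^ 2 with hJ
  have e1 : (∫ k, (k : ℝ) ∂(finalEdges n).toMeasure) / (n : ℝ) ^ (3 / 2 : ℝ) -
      1 / (2 * Real.sqrt 2) = ∫ k, ((k : ℝ) / (n : ℝ) ^ (3 / 2 : ℝ) - 1 / (2 * Real.sqrt 2))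
        ∂(finalEdges n).toMeasure := by
    rw [integral_sub (f3_integrable n _) (integrable_const _), integral_div]
    simp
  rw [e1]
  refine (abs_integral_le_integral_abs).trans ?_
  have h2 : ∫ k, |(k : ℝ) / (n : ℝ) ^ (3 / 2 : ℝ) - 1 / (2 * Real.sqrt 2)|
      ∂(finalEdges n).toMeasure ≤ ∫ k, (b ^ 2 * fn n k +
      (b ^ 2 * (if b ^ 2 < (k : ℝ) / (n : ℝ) ^ (3 / 2 : ℝ) then 1 else 0) +
        ∑ j ∈ range J, 3 * (4 ^ j * b ^ 2) *
          (if 4 ^ j * b ^ 2 < (k : ℝ) / (n : ℝ) ^ (3 / 2 : ℝ) then 1 else 0)))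
      ∂(finalEdges n).toMeasure := by
    refine integral_mono_ae (f3_integrable n _) (f3_integrable n _) ?_
    filter_upwards [f3_ae_le n] with k hk
    refine f3_abs_le hB n ?_
    have h3 : (k : ℝ) / (n : ℝ) ^ (3 / 2 : ℝ) ≤ k := div_le_self (Nat.cast_nonneg k) hn32
    have h4 : (k : ℝ) ≤ (J : ℝ) := by
      have : k ≤ n ^ 2 := hk.trans (Nat.choose_le_pow n 2)
      exact_mod_cast this
    have h5 : (J : ℝ) ≤ 4 ^ J := by
      exact_mod_cast (Nat.lt_pow_self (by norm_num : 1 < 4)).le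
    have h6 : (4 : ℝ) ^ J ≤ 4 ^ J * b ^ 2 := le_mul_of_one_le_right (by positivity) (by linarith)
    linarith
  refine h2.trans ?_
  rw [integral_add (f3_integrable n _) (f3_integrable n _),
    integral_add (f3_integrable n _) (f3_integrable n _), integral_const_mul, integral_const_mul,
    integral_finsetSum _ (fun j _ => f3_integrable n _)]
  have h7 : ∫ k, fn n k ∂(finalEdges n).toMeasure =
      EX (Hn n) (fun M => fn n M.card) (n ^ 2) (EF (⊤ : SimpleGraph (Fin n))) :=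
    integral_EX n (fun k => fn n k)
  rw [h7]
  have h8 : b ^ 2 * ∫ k, (if b ^ 2 < (k : ℝ) / (n : ℝ) ^ (3 / 2 : ℝ) then (1 : ℝ) else 0)
      ∂(finalEdges n).toMeasure ≤ C / b := by
    calc _ ≤ b ^ 2 * (C * (b⁻¹) ^ 3) :=
          mul_le_mul_of_nonneg_left (f3_tail hC hn hb0) (by positivity)
      _ = C / b := by field_simp
  have h9 : ∀ j ∈ range J, ∫ k, 3 * (4 ^ j * b ^ 2) *
      (if 4 ^ j * b ^ 2 < (k : ℝ) / (n : ℝ) ^ (3 / 2 : ℝ) then (1 : ℝ) else 0)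
        ∂(finalEdges n).toMeasure ≤ 3 * C / b * (1 / 2) ^ j := by
    intro j _
    have e4 : (4 : ℝ) ^ j * b ^ 2 = (2 ^ j * b) ^ 2 := by
      rw [mul_pow, ← pow_mul, mul_comm j 2, pow_mul]
      norm_num
    rw [integral_const_mul, e4]
    have hpj : (0 : ℝ) < 2 ^ j * b := by positivity
    calc 3 * (2 ^ j * b) ^ 2 * ∫ k, (if (2 ^ j * b) ^ 2 < (k : ℝ) / (n : ℝ) ^ (3 / 2 : ℝ)
          then (1 : ℝ) else 0) ∂(finalEdges n).toMeasure
        ≤ 3 * (2 ^ j * b) ^ 2 * (C * ((2 ^ j * b)⁻¹) ^ 3) :=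
          mul_le_mul_of_nonneg_left (f3_tail hC hn hpj) (by positivity)
      _ = 3 * C / b * (1 / 2) ^ j := by
          have h2j : (1 : ℝ) = 2 ^ j * (1 / 2) ^ j := by
            rw [← mul_pow]
            norm_num
          have h2j' : (1 / 2 : ℝ) ^ j = ((2 : ℝ) ^ j)⁻¹ := eq_inv_of_mul_eq_one_right h2j.symm
          rw [h2j']
          field_simp
  have h10 : ∑ j ∈ range J, 3 * C / b * (1 / 2) ^ j ≤ 6 * C / b := by
    rw [← mul_sum]
    have h11 : ∑ j ∈ range J, (1 / 2 : ℝ) ^ j ≤ 2 := by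
      rw [geom_sum_eq (by norm_num)]
      have : (0 : ℝ) ≤ (1 / 2) ^ J := by positivity
      rw [div_le_iff_of_neg (by norm_num)]
      linarith
    calc 3 * C / b * ∑ j ∈ range J, (1 / 2 : ℝ) ^ j ≤ 3 * C / b * 2 :=
          mul_le_mul_of_nonneg_left h11 (by positivity)
      _ = 6 * C / b := by ring
  have h12 := (sum_le_sum h9).trans h10
  have h13 : 7 * C / b = C / b + 6 * C / b := by ring
  rw [h13]
  linarith

theorem conv_mean :
    Filter.Tendsto (fun n : ℕ => (∫ k, (k : ℝ) ∂(finalEdges n).toMeasure) /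
      (n : ℝ) ^ (3 / 2 : ℝ)) Filter.atTop (nhds (1 / (2 * Real.sqrt 2))) := by
  obtain ⟨C, hC0, hC⟩ := tail_LF
  rw [Metric.tendsto_atTop]
  intro ε hε
  obtain ⟨b, hb⟩ : ∃ b : ℝ, b = max 2 (28 * C / ε) := ⟨_, rfl⟩
  have hb2 : 2 ≤ b := hb ▸ le_max_left _ _
  have hb0 : 0 < b := by linarith
  have hbC : 7 * C / b ≤ ε / 4 := by
    have h1 : 28 * C / ε ≤ b := hb ▸ le_max_right _ _
    rw [div_le_iff₀ hε] at h1
    rw [div_le_iff₀ hb0]
    linarith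
  obtain ⟨n0, h0⟩ := sharp_EX (ε / (4 * b ^ 2)) (by positivity)
  refine ⟨max n0 2, fun n hn => ?_⟩
  rw [Real.dist_eq]
  have h1 := f3_main hC0 hC (show 2 ≤ n from (le_max_right _ _).trans hn) hb2
  have h2 := h0 n ((le_max_left _ _).trans hn)
  have h3 : b ^ 2 * EX (Hn n) (fun M => fn n M.card) (n ^ 2) (EF (⊤ : SimpleGraph (Fin n))) ≤
      ε / 4 := by
    calc _ ≤ b ^ 2 * (ε / (4 * b ^ 2)) := mul_le_mul_of_nonneg_left h2 (by positivity)
      _ = ε / 4 := by field_simp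
  linarith

end Vale.Agent.P046S
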