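import Vale.Agent.P046S.Pair

/-!
P046 sharp constant, module A4 (Local): locality for bounded degree.
-/

namespace Vale.Agent.P046S

open Finset Vale.Agent.P046

variable {V : Type} [Fintype V] [DecidableEq V] {H H1 H2 : Finset (Finset V)}
  {M S : Finset V} {t : ℝ}

/-- points at distance at most `j` from `S` -/
def nbh (H : Finset (Finset V)) : ℕ → Finset V → Finset V
  | 0, S => S
  | j + 1, S => nbh H j S ∪ (H.filter fun T => ¬ Disjoint T (nbh H j S)).biUnion id

omit [Fintype V] in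
theorem local_card_meet {Λ : ℕ} (hΛ : ∀ x, (H.filter fun T => x ∈ T).card ≤ Λ) (A : Finset V) :
    (H.filter fun T => ¬ Disjoint T A).card ≤ Λ * A.card := by
  have h1 : (H.filter fun T => ¬ Disjoint T A) ⊆ A.biUnion fun x => H.filter fun T => x ∈ T := by
    intro T hT
    obtain ⟨hT1, hT2⟩ := mem_filter.mp hT
    obtain ⟨x, hx1, hx2⟩ := Finset.not_disjoint_iff.mp hT2
    exact mem_biUnion.mpr ⟨x, hx2, mem_filter.mpr ⟨hT1, hx1⟩⟩
  calc (H.filter fun T => ¬ Disjoint T A).card
      ≤ (A.biUnion fun x => H.filter fun T => x ∈ T).card := card_le_card h1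
    _ ≤ ∑ x ∈ A, (H.filter fun T => x ∈ T).card := card_biUnion_le
    _ ≤ ∑ _x ∈ A, Λ := sum_le_sum fun x _ => hΛ x
    _ = Λ * A.card := by rw [sum_const, smul_eq_mul, mul_comm]

omit [Fintype V] in
theorem card_nbh_le {Λ : ℕ} (h3 : ∀ T ∈ H, T.card = 3)
    (hΛ : ∀ x, (H.filter fun T => x ∈ T).card ≤ Λ) (j : ℕ) (S : Finset V) :
    (nbh H j S).card ≤ (1 + 3 * Λ) ^ j * S.card := by
  induction j with
  | zero => simp [nbh]
  | succ j ih =>
    have h1 : ((H.filter fun T => ¬ Disjoint T (nbh H j S)).biUnion id).card ≤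
        3 * (Λ * (nbh H j S).card) := by
      calc ((H.filter fun T => ¬ Disjoint T (nbh H j S)).biUnion id).card
          ≤ ∑ T ∈ H.filter (fun T => ¬ Disjoint T (nbh H j S)), (id T).card := card_biUnion_le
        _ = ∑ T ∈ H.filter (fun T => ¬ Disjoint T (nbh H j S)), 3 :=
            sum_congr rfl fun T hT => h3 T (mem_filter.mp hT).1
        _ = 3 * (H.filter (fun T => ¬ Disjoint T (nbh H j S))).card := by
            rw [sum_const, smul_eq_mul, mul_comm]
        _ ≤ 3 * (Λ * (nbh H j S).card) := Nat.mul_le_mul_left _ (local_card_meet hΛ _)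
    calc (nbh H (j + 1) S).card ≤ (nbh H j S).card +
          ((H.filter fun T => ¬ Disjoint T (nbh H j S)).biUnion id).card := card_union_le _ _
      _ ≤ (nbh H j S).card + 3 * (Λ * (nbh H j S).card) := by omega
      _ = (1 + 3 * Λ) * (nbh H j S).card := by ring
      _ ≤ (1 + 3 * Λ) * ((1 + 3 * Λ) ^ j * S.card) := Nat.mul_le_mul_left _ ih
      _ = (1 + 3 * Λ) ^ (j + 1) * S.card := by ring

omit [Fintype V] in
theorem local_nbh_mono {i j : ℕ} (h : i ≤ j) (S : Finset V) : nbh H i S ⊆ nbh H j S := by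
  induction h with
  | refl => exact le_rfl
  | step _ ih => exact ih.trans subset_union_left

/-- comparison -/
theorem local_compare {f g : ℝ → ℝ} (h0 : f 0 = g 0)
    (h : ∀ t, 0 ≤ t → ∃ a b, HasDerivAt f a t ∧ HasDerivAt g b t ∧ a ≤ b) {t : ℝ} (ht : 0 ≤ t) :
    f t ≤ g t := by
  have hm : MonotoneOn (fun t => g t - f t) (Set.Ici 0) := by
    apply monotoneOn_of_deriv_nonneg (convex_Ici 0)
    · intro s hs
      obtain ⟨a, b, h1, h2, -⟩ := h s hs
      exact (h2.sub h1).continuousAt.continuousWithinAt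
    · intro s hs
      rw [interior_Ici] at hs
      obtain ⟨a, b, h1, h2, -⟩ := h s (le_of_lt hs)
      exact (h2.sub h1).differentiableAt.differentiableWithinAt
    · intro s hs
      rw [interior_Ici] at hs
      obtain ⟨a, b, h1, h2, h3⟩ := h s (le_of_lt hs)
      have : deriv (fun t => g t - f t) s = b - a := (h2.sub h1).deriv
      rw [this]
      linarith
  have := hm (Set.self_mem_Ici) (Set.mem_Ici.mpr ht) ht
  simp only at this
  linarith

/-- for `y ∈ nbh j {x}`: `ds t y ≤ (3 Λ t) ^ (r - j) / (r - j)!` by induction on `r - j` -/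
theorem ds_local {Λ : ℕ} (h3 : ∀ T ∈ H1 ∪ H2, T.card = 3)
    (hΛ : ∀ x, ((H1 ∪ H2).filter fun T => x ∈ T).card ≤ Λ) {r : ℕ} {x : V}
    (hloc : ∀ T ∈ symmDiff H1 H2, Disjoint T (nbh (H1 ∪ H2) r {x})) (ht : 0 ≤ t) :
    ds H1 H2 M M t x ≤ (3 * Λ * t) ^ r / (r.factorial : ℝ) := by
  suffices hk : ∀ k j : ℕ, j + k = r → ∀ y ∈ nbh (H1 ∪ H2) j {x}, ∀ t, 0 ≤ t →
      ds H1 H2 M M t y ≤ (3 * Λ * t) ^ k / (k.factorial : ℝ) from
    hk r 0 (by omega) x (by simp [nbh]) t ht
  intro k
  induction k with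
  | zero =>
    intro j _ y _ t ht
    simp only [pow_zero, Nat.factorial_zero, Nat.cast_one, div_one]
    exact ds_le_one ht y
  | succ k ih =>
    intro j hj y hy t ht
    refine local_compare (f := fun t => ds H1 H2 M M t y)
      (g := fun t => (3 * Λ * t) ^ (k + 1) / ((k + 1).factorial : ℝ)) ?_ ?_ ht
    · simp [ds_zero]
    · intro s hs
      obtain ⟨d, hd, hle⟩ := ds_deriv (H1 := H1) (H2 := H2) (M1 := M) (M2 := M) hs y
      have hg : HasDerivAt (fun t : ℝ => (3 * Λ * t) ^ (k + 1) / ((k + 1).factorial : ℝ))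
          (((k + 1 : ℕ) : ℝ) * (3 * Λ * s) ^ k * (3 * Λ * 1) / ((k + 1).factorial : ℝ)) s := by
        have h1 : HasDerivAt (fun t : ℝ => 3 * (Λ : ℝ) * t) (3 * Λ * 1) s :=
          (hasDerivAt_id s).const_mul _
        have h2 := h1.pow (k + 1)
        simp only [Nat.add_sub_cancel] at h2
        exact h2.div_const _
      refine ⟨d, _, hd, hg, hle.trans ?_⟩
      have hterm : ∀ T ∈ (H1 ∪ H2).filter (fun T => y ∈ T),
          (∑ z ∈ T, ds H1 H2 M M s z + if T ∈ symmDiff H1 H2 then 1 else 0) ≤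
            3 * ((3 * Λ * s) ^ k / (k.factorial : ℝ)) := by
        intro T hT
        obtain ⟨hTH, hyT⟩ := mem_filter.mp hT
        have hmeet : ¬ Disjoint T (nbh (H1 ∪ H2) j {x}) :=
          Finset.not_disjoint_iff.mpr ⟨y, hyT, hy⟩
        have hns : T ∉ symmDiff H1 H2 := by
          intro h
          apply hmeet
          exact (hloc T h).mono_right (local_nbh_mono (by omega) _)
        rw [if_neg hns, add_zero]
        have hsub : ∀ z ∈ T, z ∈ nbh (H1 ∪ H2) (j + 1) {x} := by
          intro z hz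
          exact mem_union_right _ (mem_biUnion.mpr ⟨T, mem_filter.mpr ⟨hTH, hmeet⟩, hz⟩)
        calc ∑ z ∈ T, ds H1 H2 M M s z
            ≤ ∑ _z ∈ T, ((3 * Λ * s) ^ k / (k.factorial : ℝ)) :=
              sum_le_sum fun z hz => ih (j + 1) (by omega) z (hsub z hz) s hs
          _ = 3 * ((3 * Λ * s) ^ k / (k.factorial : ℝ)) := by
              rw [sum_const, h3 T hTH, nsmul_eq_mul]; norm_num
      have hnn : 0 ≤ 3 * ((3 * Λ * s) ^ k / (k.factorial : ℝ)) := by positivity
      calc _ ≤ ∑ _T ∈ (H1 ∪ H2).filter (fun T => y ∈ T), 3 * ((3 * Λ * s) ^ k / (k.factorial : ℝ)) :=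
            sum_le_sum hterm
        _ = (((H1 ∪ H2).filter (fun T => y ∈ T)).card : ℝ) *
              (3 * ((3 * Λ * s) ^ k / (k.factorial : ℝ))) := by rw [sum_const, nsmul_eq_mul]
        _ ≤ (Λ : ℝ) * (3 * ((3 * Λ * s) ^ k / (k.factorial : ℝ))) := by
            apply mul_le_mul_of_nonneg_right _ hnn
            exact_mod_cast hΛ y
        _ = _ := by
            have hf : ((k + 1).factorial : ℝ) = ((k + 1 : ℕ) : ℝ) * (k.factorial : ℝ) := by
              rw [Nat.factorial_succ]; push_cast; ring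
            rw [hf]
            have h1 : ((k + 1 : ℕ) : ℝ) ≠ 0 := by positivity
            have h2 : (k.factorial : ℝ) ≠ 0 := by positivity
            field_simp

end Vale.Agent.P046S
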