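import Vale.Agent.P046S.Pair

/-!
P046 sharp constant, module A7 (Osgood): removing the triples at points of large degree changes the
process at few points.

`H' = lowH H Λ` = triples of `H` all of whose points have degree at most `Λ` in `H`. Let
`F t = (∑ x, ds H H' M M t x)`. By `ds_deriv`, `F' ≤ 3 ∑_y d_y ds_y + 3 card (H \ H')`, and for every
`Λ'`: `∑ d_y ds_y ≤ Λ' F + ∑_{d_y > Λ'} d_y`. With `∑ exp (d_y / (8 D)) ≤ C0 m` the tail is
`≤ C D e^{-Λ'/(9D)} m`. On a time interval of length `t0 = 1/(48 D)` take `e^{Λ'/(16 D)} = φ^{-1/2}`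
(`φ` = the bound at the beginning): `φ` becomes at most `C' φ^{1/3}`; repeat `⌈48 D t1⌉` times.
`φ(0) = 0` but one starts from `φ = 3 card (H \ H') t1 / m + ...`, which tends to `0` as `Λ → ∞`.
-/

namespace Vale.Agent.P046S

open Finset Vale.Agent.P046

/-- triples whose points have degree at most `Λ` -/
def lowH {V : Type} [DecidableEq V] (H : Finset (Finset V)) (Λ : ℕ) : Finset (Finset V) :=
  H.filter fun T => ∀ x ∈ T, (H.filter fun T' => x ∈ T').card ≤ Λ

private theorem lowH_sub {V : Type} [DecidableEq V] {H : Finset (Finset V)} (Λ : ℕ) :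
    lowH H Λ ⊆ H := Finset.filter_subset _ _

private theorem mem_lowH {V : Type} [DecidableEq V] {H : Finset (Finset V)} {Λ : ℕ}
    {T : Finset V} :
    T ∈ lowH H Λ ↔ T ∈ H ∧ ∀ x ∈ T, (H.filter fun T' => x ∈ T').card ≤ Λ := by
  unfold lowH
  rw [Finset.mem_filter]

private theorem lowTail_sub {V : Type} [DecidableEq V] {H : Finset (Finset V)} {M : Finset V}
    (hHM : ∀ T ∈ H, T ⊆ M) : sub H M = H := by
  unfold sub
  exact Finset.filter_true_of_mem hHM

/-- simple Gronwall inequality -/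
private theorem osgood_gronwall {F : ℝ → ℝ} {A B s t : ℝ} (hA : 0 ≤ A) (hB : 0 ≤ B)
    (hst : s ≤ t)
    (h : ∀ u, s ≤ u → ∃ d, HasDerivAt F d u ∧ d ≤ A * F u + B) :
    F t ≤ Real.exp (A * (t - s)) * (F s + B * (t - s)) := by
  choose! d hd hd' using h
  set G : ℝ → ℝ := fun u => Real.exp (-(A * (u - s))) * F u - B * (u - s) with hG
  have hder : ∀ u, s ≤ u → HasDerivAt G
      ((Real.exp (-(A * (u - s))) * (-(A * 1))) * F u + Real.exp (-(A * (u - s))) * d u -
        B * 1) u := by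
    intro u hu
    have h1 : HasDerivAt (fun u : ℝ => u - s) 1 u := (hasDerivAt_id u).sub_const s
    exact (((h1.const_mul A).fun_neg.exp).mul (hd u hu)).sub (h1.const_mul B)
  have hle : ∀ u, s ≤ u → (Real.exp (-(A * (u - s))) * (-(A * 1))) * F u +
      Real.exp (-(A * (u - s))) * d u - B * 1 ≤ 0 := by
    intro u hu
    have h1 : Real.exp (-(A * (u - s))) ≤ 1 := by
      rw [Real.exp_le_one_iff]
      have : 0 ≤ A * (u - s) := mul_nonneg hA (by linarith)
      linarith
    have h2 := Real.exp_pos (-(A * (u - s)))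
    have h3 : Real.exp (-(A * (u - s))) * (d u - A * F u) ≤ Real.exp (-(A * (u - s))) * B :=
      mul_le_mul_of_nonneg_left (by linarith [hd' u hu]) h2.le
    have h4 : Real.exp (-(A * (u - s))) * B ≤ 1 * B := mul_le_mul_of_nonneg_right h1 hB
    linarith
  have hanti : AntitoneOn G (Set.Icc s t) := by
    apply antitoneOn_of_deriv_nonpos (convex_Icc s t)
    · intro u hu
      exact (hder u hu.1).continuousAt.continuousWithinAt
    · intro u hu
      rw [interior_Icc] at hu
      exact (hder u hu.1.le).differentiableAt.differentiableWithinAt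
    · intro u hu
      rw [interior_Icc] at hu
      rw [(hder u hu.1.le).deriv]
      exact hle u hu.1.le
  have h1 := hanti (Set.left_mem_Icc.mpr hst) (Set.right_mem_Icc.mpr hst) hst
  simp only [hG, sub_self, mul_zero, neg_zero, Real.exp_zero, one_mul, sub_zero] at h1
  have h2 : Real.exp (A * (t - s)) * Real.exp (-(A * (t - s))) = 1 := by
    rw [← Real.exp_add, add_neg_cancel, Real.exp_zero]
  calc F t = Real.exp (A * (t - s)) * (Real.exp (-(A * (t - s))) * F t) := by
        rw [← mul_assoc, h2, one_mul]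
    _ ≤ _ := mul_le_mul_of_nonneg_left (by linarith) (Real.exp_pos _).le

section

variable {V : Type} [Fintype V] [DecidableEq V] {H : Finset (Finset V)} {M : Finset V}

/-- degree in `H` as a real number -/
private noncomputable def dg (H : Finset (Finset V)) (x : V) : ℝ :=
  ((H.filter fun T => x ∈ T).card : ℝ)

private theorem dg_nonneg (x : V) : 0 ≤ dg H x := Nat.cast_nonneg _

private theorem sub_eq (hHM : ∀ T ∈ H, T ⊆ M) : sub H M = H := by
  unfold sub
  exact Finset.filter_true_of_mem hHM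

private theorem deg_eq (hHM : ∀ T ∈ H, T ⊆ M) (x : V) : (deg H M x : ℝ) = dg H x := by
  unfold deg dg
  rw [sub_eq hHM]

private theorem dg_eq_zero (hHM : ∀ T ∈ H, T ⊆ M) {x : V} (hx : x ∉ M) : dg H x = 0 := by
  unfold dg
  have : (H.filter fun T => x ∈ T) = ∅ := by
    rw [Finset.filter_eq_empty_iff]
    intro T hT hxT
    exact hx (hHM T hT hxT)
  rw [this]
  simp

private theorem sum_over (hH : IsLin3 H) (g : Finset V → ℝ) :
    ∑ x : V, ∑ T ∈ H with x ∈ T, g T = 3 * ∑ T ∈ H, g T := by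
  have h1 : ∀ x : V, ∑ T ∈ H with x ∈ T, g T = ∑ T ∈ H, if x ∈ T then g T else 0 := by
    intro x
    rw [Finset.sum_filter]
  rw [Finset.sum_congr rfl (fun x _ => h1 x), Finset.sum_comm, Finset.mul_sum]
  apply Finset.sum_congr rfl
  intro T hT
  rw [← Finset.sum_filter]
  have h2 : (univ.filter fun x : V => x ∈ T) = T := by
    ext x
    simp
  rw [h2, Finset.sum_const, hH.card3 T hT, nsmul_eq_mul]
  norm_num

private theorem sum_points (H : Finset (Finset V)) (f : V → ℝ) :
    ∑ T ∈ H, ∑ y ∈ T, f y = ∑ y : V, dg H y * f y := by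
  have h1 : ∀ T ∈ H, ∑ y ∈ T, f y = ∑ y : V, if y ∈ T then f y else 0 := by
    intro T _
    rw [← Finset.sum_filter]
    congr 1
    ext x
    simp
  rw [Finset.sum_congr rfl h1, Finset.sum_comm]
  apply Finset.sum_congr rfl
  intro y _
  rw [← Finset.sum_filter, Finset.sum_const, nsmul_eq_mul]
  rfl

/-- tail of the degrees -/
private theorem tail_le {a C0 : ℝ} (ha : 0 < a) (hHM : ∀ T ∈ H, T ⊆ M)
    (hexp : ∑ x ∈ M, Real.exp (2 * dg H x / a) ≤ C0 * M.card) (L : ℝ) :
    ∑ x : V, (if L < dg H x then dg H x else 0) ≤ a * C0 * M.card * Real.exp (-L / a) := by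
  have h1 : ∑ x : V, (if L < dg H x then dg H x else 0) =
      ∑ x ∈ M, (if L < dg H x then dg H x else 0) := by
    symm
    apply Finset.sum_subset (Finset.subset_univ M)
    intro x _ hx
    rw [dg_eq_zero hHM hx]
    simp
  rw [h1]
  have h2 : ∀ x ∈ M, (if L < dg H x then dg H x else 0) ≤
      a * Real.exp (-L / a) * Real.exp (2 * dg H x / a) := by
    intro x _
    split_ifs with h
    · have h3 : dg H x / a ≤ Real.exp (dg H x / a) := by
        have := Real.add_one_le_exp (dg H x / a)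
        linarith
      have h4 : dg H x ≤ a * Real.exp (dg H x / a) := by
        rw [div_le_iff₀ ha] at h3
        linarith
      have h5 : (1 : ℝ) ≤ Real.exp ((dg H x - L) / a) := by
        apply Real.one_le_exp
        apply div_nonneg _ ha.le
        linarith
      calc dg H x ≤ a * Real.exp (dg H x / a) := h4
        _ ≤ a * Real.exp (dg H x / a) * Real.exp ((dg H x - L) / a) :=
            le_mul_of_one_le_right (by positivity) h5
        _ = _ := by
            rw [mul_assoc, mul_assoc, ← Real.exp_add, ← Real.exp_add]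
            congr 2
            field_simp
            ring
    · positivity
  refine (Finset.sum_le_sum h2).trans ?_
  rw [← Finset.mul_sum]
  calc a * Real.exp (-L / a) * ∑ x ∈ M, Real.exp (2 * dg H x / a) ≤
        a * Real.exp (-L / a) * (C0 * M.card) :=
        mul_le_mul_of_nonneg_left hexp (by positivity)
    _ = _ := by ring

private theorem card_sdiff_le (Λ : ℕ) :
    ((H \ lowH H Λ).card : ℝ) ≤ ∑ x : V, (if (Λ : ℝ) < dg H x then dg H x else 0) := by
  have h1 : H \ lowH H Λ ⊆ (univ.filter fun x : V => (Λ : ℝ) < dg H x).biUnion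
      (fun x => H.filter fun T => x ∈ T) := by
    intro T hT
    rw [Finset.mem_sdiff] at hT
    obtain ⟨hT1, hT2⟩ := hT
    rw [mem_lowH] at hT2
    push Not at hT2
    obtain ⟨x, hx, hx2⟩ := hT2 hT1
    rw [Finset.mem_biUnion]
    refine ⟨x, ?_, ?_⟩
    · rw [Finset.mem_filter]
      refine ⟨Finset.mem_univ _, ?_⟩
      unfold dg
      exact_mod_cast hx2
    · rw [Finset.mem_filter]
      exact ⟨hT1, hx⟩
  have h2 := (Finset.card_le_card h1).trans Finset.card_biUnion_le
  rw [← Finset.sum_filter]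
  calc ((H \ lowH H Λ).card : ℝ) ≤ ((∑ x ∈ univ.filter fun x : V => (Λ : ℝ) < dg H x,
        (H.filter fun T => x ∈ T).card : ℕ) : ℝ) := by exact_mod_cast h2
    _ = _ := by
      push_cast
      rfl

/-- splitting of the weighted sum of the discrepancies -/
private theorem wsum_le {a C0 : ℝ} (ha : 0 < a) (hHM : ∀ T ∈ H, T ⊆ M)
    (hexp : ∑ x ∈ M, Real.exp (2 * dg H x / a) ≤ C0 * M.card) {L : ℝ} (hL : 0 ≤ L)
    {f : V → ℝ} (hf0 : ∀ x, 0 ≤ f x) (hf1 : ∀ x, f x ≤ 1) :
    ∑ x : V, dg H x * f x ≤ L * ∑ x : V, f x + a * C0 * M.card * Real.exp (-L / a) := by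
  have h1 : ∀ x : V, dg H x * f x ≤ L * f x + (if L < dg H x then dg H x else 0) := by
    intro x
    split_ifs with h
    · have h2 : dg H x * f x ≤ dg H x * 1 := mul_le_mul_of_nonneg_left (hf1 x) (dg_nonneg x)
      have h3 := mul_nonneg hL (hf0 x)
      linarith
    · have h2 : dg H x * f x ≤ L * f x := mul_le_mul_of_nonneg_right (not_lt.mp h) (hf0 x)
      linarith
  refine (Finset.sum_le_sum (fun x _ => h1 x)).trans ?_
  rw [Finset.sum_add_distrib, ← Finset.mul_sum]
  have := tail_le ha hHM hexp L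
  linarith

/-- the differential inequality -/
private theorem F_deriv {a C0 : ℝ} (ha : 0 < a) (hH : IsLin3 H) (hHM : ∀ T ∈ H, T ⊆ M)
    (hC0 : 0 ≤ C0)
    (hexp : ∑ x ∈ M, Real.exp (2 * dg H x / a) ≤ C0 * M.card) {L : ℝ} (hL : 0 ≤ L) {Λ : ℕ}
    (hLΛ : L ≤ Λ) {t : ℝ} (ht : 0 ≤ t) :
    ∃ d, HasDerivAt (fun t => ∑ x : V, ds H (lowH H Λ) M M t x) d t ∧
      d ≤ 3 * L * (∑ x : V, ds H (lowH H Λ) M M t x) +
        6 * (a * C0 * M.card * Real.exp (-L / a)) := by
  choose d hd hd' using fun x => ds_deriv (H1 := H) (H2 := lowH H Λ) (M1 := M) (M2 := M) ht x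
  refine ⟨∑ x, d x, HasDerivAt.fun_sum (fun x _ => hd x), ?_⟩
  have hun : H ∪ lowH H Λ = H := Finset.union_eq_left.mpr (lowH_sub Λ)
  rw [hun] at hd'
  refine (Finset.sum_le_sum (fun x _ => hd' x)).trans ?_
  rw [sum_over hH, Finset.sum_add_distrib, sum_points]
  have h1 : ∑ T ∈ H, (if T ∈ symmDiff H (lowH H Λ) then (1 : ℝ) else 0) =
      ((H \ lowH H Λ).card : ℝ) := by
    rw [← Finset.sum_filter, Finset.sum_const, nsmul_eq_mul, mul_one]
    congr 2
    ext T
    simp only [Finset.mem_filter, Finset.mem_symmDiff, Finset.mem_sdiff]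
    constructor
    · rintro ⟨h, h2 | h2⟩
      · exact h2
      · exact absurd h h2.2
    · rintro ⟨h, h2⟩
      exact ⟨h, Or.inl ⟨h, h2⟩⟩
  rw [h1]
  have h2 := wsum_le ha hHM hexp hL (fun x => ds_nonneg (H1 := H) (H2 := lowH H Λ) (M1 := M)
    (M2 := M) ht x) (fun x => ds_le_one (H1 := H) (H2 := lowH H Λ) (M1 := M) (M2 := M) ht x)
  have h3 := (card_sdiff_le (H := H) Λ).trans (tail_le ha hHM hexp Λ)
  have h4 : Real.exp (-(Λ : ℝ) / a) ≤ Real.exp (-L / a) := by
    apply Real.exp_le_exp.mpr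
    apply div_le_div_of_nonneg_right _ ha.le
    linarith
  have h5 : a * C0 * M.card * Real.exp (-(Λ : ℝ) / a) ≤ a * C0 * M.card * Real.exp (-L / a) :=
    mul_le_mul_of_nonneg_left h4 (by positivity)
  linarith

end

/-- one can choose `L` with small exponential -/
private theorem exists_L {a c ε : ℝ} (ha : 0 < a) (hε : 0 < ε) (hc : 0 ≤ c) :
    ∃ L : ℝ, 0 ≤ L ∧ c * Real.exp (-L / a) ≤ ε := by
  refine ⟨a * (c / ε), by positivity, ?_⟩
  have h1 : -(a * (c / ε)) / a = -(c / ε) := by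
    field_simp
  rw [h1, Real.exp_neg]
  have h2 : c / ε ≤ Real.exp (c / ε) := by
    have := Real.add_one_le_exp (c / ε)
    linarith
  rw [← div_eq_mul_inv, div_le_iff₀ (Real.exp_pos _)]
  rw [div_le_iff₀ hε] at h2
  linarith

/-- the iteration -/
private theorem iter {a C0 : ℝ} (ha : 0 < a) (hC0 : 0 ≤ C0) (K : ℕ) : ∀ ε : ℝ, 0 < ε →
    ∃ Λ₀ : ℕ, ∀ Λ : ℕ, Λ₀ ≤ Λ → ∀ (V : Type) [Fintype V] [DecidableEq V]
      (H : Finset (Finset V)) (M : Finset V), IsLin3 H → (∀ T ∈ H, T ⊆ M) →
      ∑ x ∈ M, Real.exp (2 * dg H x / a) ≤ C0 * M.card →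
      ∀ t, 0 ≤ t → t ≤ K / (6 * a) → ∑ x : V, ds H (lowH H Λ) M M t x ≤ ε * M.card := by
  induction K with
  | zero =>
    intro ε hε
    refine ⟨0, ?_⟩
    intro Λ _ V _ _ H M _ _ _ t ht0 ht
    have ht' : t = 0 := by
      simp only [Nat.cast_zero, zero_div] at ht
      linarith
    subst ht'
    have h1 : ∑ x : V, ds H (lowH H Λ) M M 0 x = 0 :=
      Finset.sum_eq_zero (fun x _ => ds_zero x)
    rw [h1]
    positivity
  | succ K ih =>
    intro ε hε
    obtain ⟨L, hL0, hL⟩ := exists_L (a := 2 * a) (c := C0) (ε := ε / 2) (by positivity)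
      (by positivity) hC0
    set E := Real.exp (L / (2 * a)) with hE
    have hE0 : 0 < E := Real.exp_pos _
    have hE1 : 1 ≤ E := Real.one_le_exp (by positivity)
    obtain ⟨Λ₀, hΛ₀⟩ := ih (ε / 2 / E) (by positivity)
    refine ⟨max Λ₀ ⌈L⌉₊, ?_⟩
    intro Λ hΛ V _ _ H M hH hHM hexp t ht0 ht
    have h1 := hΛ₀ Λ (le_trans (le_max_left _ _) hΛ) V H M hH hHM hexp
    have hLΛ : L ≤ Λ := by
      have h2 : (⌈L⌉₊ : ℝ) ≤ Λ := by exact_mod_cast le_trans (le_max_right _ _) hΛ
      exact (Nat.le_ceil L).trans h2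
    have hm0 : (0 : ℝ) ≤ M.card := Nat.cast_nonneg _
    by_cases hcase : t ≤ K / (6 * a)
    · refine (h1 t ht0 hcase).trans ?_
      apply mul_le_mul_of_nonneg_right _ hm0
      calc ε / 2 / E ≤ ε / 2 / 1 := div_le_div_of_nonneg_left (by positivity) one_pos hE1
        _ ≤ ε := by linarith
    · push Not at hcase
      set s : ℝ := K / (6 * a) with hs
      have hs0 : 0 ≤ s := by positivity
      have hts : t - s ≤ 1 / (6 * a) := by
        have : ((K + 1 : ℕ) : ℝ) / (6 * a) = s + 1 / (6 * a) := by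
          rw [hs]
          push_cast
          ring
        linarith
      have hB0 : 0 ≤ 6 * (a * C0 * M.card * Real.exp (-L / a)) := by positivity
      have hg := osgood_gronwall (F := fun t => ∑ x : V, ds H (lowH H Λ) M M t x)
        (A := 3 * L) (B := 6 * (a * C0 * M.card * Real.exp (-L / a))) (s := s) (t := t)
        (by positivity) hB0 hcase.le
        (fun u hu => F_deriv ha hH hHM hC0 hexp hL0 hLΛ (hs0.trans hu))
      have h2 := h1 s hs0 le_rfl
      have h3 : Real.exp (3 * L * (t - s)) ≤ E := by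
        apply Real.exp_le_exp.mpr
        calc 3 * L * (t - s) ≤ 3 * L * (1 / (6 * a)) :=
              mul_le_mul_of_nonneg_left hts (by positivity)
          _ = L / (2 * a) := by
              field_simp
              ring
      have h4 : 6 * (a * C0 * M.card * Real.exp (-L / a)) * (t - s) ≤
          C0 * M.card * Real.exp (-L / a) := by
        calc 6 * (a * C0 * M.card * Real.exp (-L / a)) * (t - s) ≤
              6 * (a * C0 * M.card * Real.exp (-L / a)) * (1 / (6 * a)) :=
              mul_le_mul_of_nonneg_left hts hB0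
          _ = _ := by
              field_simp
      have h5 : E * Real.exp (-L / a) = Real.exp (-L / (2 * a)) := by
        rw [hE, ← Real.exp_add]
        congr 1
        field_simp
        ring
      calc ∑ x : V, ds H (lowH H Λ) M M t x ≤ Real.exp (3 * L * (t - s)) *
            (∑ x : V, ds H (lowH H Λ) M M s x +
              6 * (a * C0 * M.card * Real.exp (-L / a)) * (t - s)) := hg
        _ ≤ Real.exp (3 * L * (t - s)) * (ε / 2 / E * M.card +
              C0 * M.card * Real.exp (-L / a)) :=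
            mul_le_mul_of_nonneg_left (by linarith) (Real.exp_pos _).le
        _ ≤ E * (ε / 2 / E * M.card + C0 * M.card * Real.exp (-L / a)) :=
            mul_le_mul_of_nonneg_right h3 (by positivity)
        _ = ε / 2 * M.card + (C0 * Real.exp (-L / (2 * a))) * M.card := by
            rw [← h5]
            field_simp
        _ ≤ ε / 2 * M.card + (ε / 2) * M.card := by
            have := mul_le_mul_of_nonneg_right hL hm0
            linarith
        _ = _ := by ring

theorem osgood' (D C0 t1 ε : ℝ) (hD : 0 < D) (hC0 : 0 < C0) (ht1 : 0 ≤ t1) (hε : 0 < ε) :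
    ∃ Λ0 : ℕ, ∀ Λ : ℕ, Λ0 ≤ Λ →
      ∀ (V : Type) [Fintype V] [DecidableEq V] (H : Finset (Finset V)) (M : Finset V),
      IsLin3 H → (∀ T ∈ H, T ⊆ M) →
      ∑ x ∈ M, Real.exp ((deg H M x : ℝ) / (8 * D)) ≤ C0 * M.card →
      ((H \ lowH H Λ).card : ℝ) ≤ ε * M.card ∧
      (∑ x ∈ M, (deg H M x : ℝ) - ∑ x ∈ M, (deg (lowH H Λ) M x : ℝ)) ≤ ε * M.card ∧
      ∀ t, 0 ≤ t → t ≤ t1 →
        ∑ x : V, ds H (lowH H Λ) M M t x ≤ ε * M.card ∧
        ∑ x : V, ((H.filter fun T => x ∈ T).card : ℝ) * ds H (lowH H Λ) M M t x ≤ ε * M.card := by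
  set a : ℝ := 16 * D with ha'
  have ha : 0 < a := by positivity
  obtain ⟨L, hL0, hL⟩ := exists_L (a := a) (c := a * C0) (ε := ε / 3) ha (by positivity)
    (by positivity)
  set K : ℕ := ⌈t1 * (6 * a)⌉₊ with hK
  obtain ⟨Λ₀, hΛ₀⟩ := iter ha hC0.le K (ε / 2 / (L + 1)) (by positivity)
  refine ⟨max Λ₀ ⌈L⌉₊, ?_⟩
  intro Λ hΛ V _ _ H M hH hHM hexp
  have hLΛ : L ≤ Λ := by
    have h2 : (⌈L⌉₊ : ℝ) ≤ Λ := by exact_mod_cast le_trans (le_max_right _ _) hΛ
    exact (Nat.le_ceil L).trans h2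
  have hexp' : ∑ x ∈ M, Real.exp (2 * dg H x / a) ≤ C0 * M.card := by
    refine le_trans (le_of_eq ?_) hexp
    apply Finset.sum_congr rfl
    intro x _
    rw [deg_eq hHM]
    congr 1
    rw [ha']
    field_simp
    ring
  have hm0 : (0 : ℝ) ≤ M.card := Nat.cast_nonneg _
  have hcard : ((H \ lowH H Λ).card : ℝ) ≤ ε / 3 * M.card := by
    have h1 := (card_sdiff_le (H := H) Λ).trans (tail_le ha hHM hexp' Λ)
    have h2 : Real.exp (-(Λ : ℝ) / a) ≤ Real.exp (-L / a) := by
      apply Real.exp_le_exp.mpr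
      apply div_le_div_of_nonneg_right _ ha.le
      linarith
    calc ((H \ lowH H Λ).card : ℝ) ≤ a * C0 * M.card * Real.exp (-(Λ : ℝ) / a) := h1
      _ ≤ a * C0 * M.card * Real.exp (-L / a) :=
          mul_le_mul_of_nonneg_left h2 (by positivity)
      _ = (a * C0 * Real.exp (-L / a)) * M.card := by ring
      _ ≤ _ := mul_le_mul_of_nonneg_right hL hm0
  refine ⟨?_, ?_, ?_⟩
  · refine hcard.trans ?_
    apply mul_le_mul_of_nonneg_right _ hm0
    linarith
  · have hH' : IsLin3 (lowH H Λ) :=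
      ⟨fun T hT => hH.card3 T (lowH_sub Λ hT),
        fun T hT T' hT' hne => hH.lin T (lowH_sub Λ hT) T' (lowH_sub Λ hT') hne⟩
    rw [sum_deg hH, sum_deg hH', sub_eq hHM, sub_eq (fun T hT => hHM T (lowH_sub Λ hT))]
    have h1 : ((H \ lowH H Λ).card : ℝ) = H.card - (lowH H Λ).card := by
      rw [Finset.card_sdiff_of_subset (lowH_sub Λ), Nat.cast_sub (Finset.card_le_card (lowH_sub Λ))]
    linarith
  · intro t ht0 ht
    have htK : t ≤ K / (6 * a) := by
      rw [le_div_iff₀ (by positivity)]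
      calc t * (6 * a) ≤ t1 * (6 * a) := mul_le_mul_of_nonneg_right ht (by positivity)
        _ ≤ K := Nat.le_ceil _
    have h1 := hΛ₀ Λ (le_trans (le_max_left _ _) hΛ) V H M hH hHM hexp' t ht0 htK
    have hL1 : 0 < L + 1 := by linarith
    constructor
    · refine h1.trans ?_
      apply mul_le_mul_of_nonneg_right _ hm0
      calc ε / 2 / (L + 1) ≤ ε / 2 / 1 :=
            div_le_div_of_nonneg_left (by positivity) one_pos (by linarith)
        _ ≤ ε := by linarith
    · have h2 := wsum_le ha hHM hexp' hL0 (fun x => ds_nonneg (H1 := H) (H2 := lowH H Λ)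
        (M1 := M) (M2 := M) ht0 x) (fun x => ds_le_one (H1 := H) (H2 := lowH H Λ) (M1 := M)
        (M2 := M) ht0 x)
      have h3 : L * ∑ x : V, ds H (lowH H Λ) M M t x ≤ ε / 2 * M.card := by
        calc L * ∑ x : V, ds H (lowH H Λ) M M t x ≤ L * (ε / 2 / (L + 1) * M.card) :=
              mul_le_mul_of_nonneg_left h1 hL0
          _ ≤ (L + 1) * (ε / 2 / (L + 1) * M.card) :=
              mul_le_mul_of_nonneg_right (by linarith) (by positivity)
          _ = _ := by
              field_simp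
      have h4 : a * C0 * M.card * Real.exp (-L / a) ≤ ε / 3 * M.card := by
        calc a * C0 * M.card * Real.exp (-L / a) = (a * C0 * Real.exp (-L / a)) * M.card := by
              ring
          _ ≤ _ := mul_le_mul_of_nonneg_right hL hm0
      have h5 : ε / 2 * M.card + ε / 3 * M.card ≤ ε * M.card := by
        have := mul_nonneg hε.le hm0
        linarith
      exact h2.trans (by linarith)

theorem osgood (D C0 t1 ε : ℝ) (hD : 0 < D) (hC0 : 0 < C0) (ht1 : 0 ≤ t1) (hε : 0 < ε) :
    ∃ Λ : ℕ, ∀ (V : Type) [Fintype V] [DecidableEq V] (H : Finset (Finset V)) (M : Finset V),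
      IsLin3 H → (∀ T ∈ H, T ⊆ M) →
      ∑ x ∈ M, Real.exp ((deg H M x : ℝ) / (8 * D)) ≤ C0 * M.card →
      ((H \ lowH H Λ).card : ℝ) ≤ ε * M.card ∧
      (∑ x ∈ M, (deg H M x : ℝ) - ∑ x ∈ M, (deg (lowH H Λ) M x : ℝ)) ≤ ε * M.card ∧
      ∀ t, 0 ≤ t → t ≤ t1 →
        ∑ x : V, ds H (lowH H Λ) M M t x ≤ ε * M.card ∧
        ∑ x : V, ((H.filter fun T => x ∈ T).card : ℝ) * ds H (lowH H Λ) M M t x ≤ ε * M.card := by
  obtain ⟨Λ0, h⟩ := osgood' D C0 t1 ε hD hC0 ht1 hε
  exact ⟨Λ0, h Λ0 le_rfl⟩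

private theorem lowTail_point {a Λ d d' : ℝ} (ha : 0 < a) (hd0 : 0 ≤ d') (hd : d' ≤ d) :
    (d - d') ^ 2 ≤ 2 * a ^ 2 * Real.exp (-Λ / a) * Real.exp (2 * d / a) + Λ * (d - d') ∨
      Λ < 0 := by
  rcases lt_or_ge Λ 0 with hΛ | hΛ
  · exact Or.inr hΛ
  left
  have hdd : 0 ≤ d - d' := by linarith
  have hdn : 0 ≤ d := by linarith
  rcases le_or_gt d Λ with h | h
  · have h1 : (d - d') ^ 2 ≤ Λ * (d - d') := by
      rw [pow_two]
      exact mul_le_mul_of_nonneg_right (by linarith) hdd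
    have h2 : 0 ≤ 2 * a ^ 2 * Real.exp (-Λ / a) * Real.exp (2 * d / a) := by positivity
    linarith
  · have h1 : (d - d') ^ 2 ≤ d ^ 2 := by
      apply pow_le_pow_left₀ hdd
      linarith
    have h2 : (d / a) ^ 2 ≤ 2 * Real.exp (d / a) := by
      have h3 := Real.quadratic_le_exp_of_nonneg (x := d / a) (by positivity)
      have h4 : 0 ≤ d / a := by positivity
      linarith
    have h3 : d ^ 2 ≤ 2 * a ^ 2 * Real.exp (d / a) := by
      rw [div_pow, div_le_iff₀ (by positivity)] at h2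
      linarith
    have h5 : (1 : ℝ) ≤ Real.exp ((d - Λ) / a) := by
      apply Real.one_le_exp
      apply div_nonneg _ ha.le
      linarith
    have h6 : 2 * a ^ 2 * Real.exp (d / a) ≤
        2 * a ^ 2 * Real.exp (-Λ / a) * Real.exp (2 * d / a) := by
      calc 2 * a ^ 2 * Real.exp (d / a) ≤
            2 * a ^ 2 * Real.exp (d / a) * Real.exp ((d - Λ) / a) :=
            le_mul_of_one_le_right (by positivity) h5
        _ = _ := by
            rw [mul_assoc, mul_assoc (2 * a ^ 2) (Real.exp (-Λ / a)), ← Real.exp_add,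
              ← Real.exp_add]
            congr 2
            field_simp
            ring
    have h7 : 0 ≤ Λ * (d - d') := mul_nonneg hΛ hdd
    linarith

theorem low_tail (D C0 ε : ℝ) (hD : 0 < D) (hC0 : 0 < C0) (hε : 0 < ε) :
    ∃ Λ0 : ℕ, ∀ Λ : ℕ, Λ0 ≤ Λ →
      ∀ (V : Type) [DecidableEq V] (H : Finset (Finset V)) (M : Finset V),
      IsLin3 H → (∀ T ∈ H, T ⊆ M) →
      ∑ x ∈ M, Real.exp ((deg H M x : ℝ) / (8 * D)) ≤ C0 * M.card →
      ∑ x ∈ M, ((deg H M x : ℝ) - deg (lowH H Λ) M x) ^ 2 ≤ ε * M.card := by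
  set a : ℝ := 16 * D with ha'
  have ha : 0 < a := by positivity
  obtain ⟨L, hL0, hL⟩ := exists_L (a := 2 * a) (c := 8 * a ^ 2 * C0) (ε := ε)
    (by positivity) hε (by positivity)
  refine ⟨⌈L⌉₊, ?_⟩
  intro Λ hΛ V _ H M hH hHM hexp
  have hLΛ : L ≤ Λ := by
    have h2 : (⌈L⌉₊ : ℝ) ≤ Λ := by exact_mod_cast hΛ
    exact (Nat.le_ceil L).trans h2
  have hsub' : ∀ T ∈ lowH H Λ, T ⊆ M := fun T hT => hHM T (lowH_sub Λ hT)
  have hdeg : ∀ x, (deg H M x : ℝ) = ((H.filter fun T => x ∈ T).card : ℝ) := by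
    intro x
    unfold deg
    rw [lowTail_sub hHM]
  have hdeg' : ∀ x, deg (lowH H Λ) M x ≤ deg H M x := by
    intro x
    unfold deg
    rw [lowTail_sub hHM, lowTail_sub hsub']
    exact Finset.card_le_card (Finset.filter_subset_filter _ (lowH_sub Λ))
  have hexp' : ∑ x ∈ M, Real.exp (2 * (deg H M x : ℝ) / a) ≤ C0 * M.card := by
    refine le_trans (le_of_eq ?_) hexp
    apply Finset.sum_congr rfl
    intro x _
    congr 1
    rw [ha']
    field_simp
    ring
  have hm0 : (0 : ℝ) ≤ M.card := Nat.cast_nonneg _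
  have hΛ0 : (0 : ℝ) ≤ Λ := Nat.cast_nonneg _
  -- first moment
  have hfirst : ∑ x ∈ M, ((deg H M x : ℝ) - deg (lowH H Λ) M x) ≤
      3 * (a * Real.exp (-(Λ : ℝ) / a) * (C0 * M.card)) := by
    have hH' : IsLin3 (lowH H Λ) :=
      ⟨fun T hT => hH.card3 T (lowH_sub Λ hT),
        fun T hT T' hT' hne => hH.lin T (lowH_sub Λ hT) T' (lowH_sub Λ hT') hne⟩
    rw [Finset.sum_sub_distrib, sum_deg hH, sum_deg hH', lowTail_sub hHM, lowTail_sub hsub']
    have h1 : ((H \ lowH H Λ).card : ℝ) = H.card - (lowH H Λ).card := by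
      rw [Finset.card_sdiff_of_subset (lowH_sub Λ),
        Nat.cast_sub (Finset.card_le_card (lowH_sub Λ))]
    have h2 : H \ lowH H Λ ⊆ (M.filter fun x : V => (Λ : ℝ) < deg H M x).biUnion
        (fun x => H.filter fun T => x ∈ T) := by
      intro T hT
      rw [Finset.mem_sdiff] at hT
      obtain ⟨hT1, hT2⟩ := hT
      rw [mem_lowH] at hT2
      push Not at hT2
      obtain ⟨x, hx, hx2⟩ := hT2 hT1
      rw [Finset.mem_biUnion]
      refine ⟨x, ?_, ?_⟩
      · rw [Finset.mem_filter]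
        refine ⟨hHM T hT1 hx, ?_⟩
        rw [hdeg]
        exact_mod_cast hx2
      · rw [Finset.mem_filter]
        exact ⟨hT1, hx⟩
    have h3 : ((H \ lowH H Λ).card : ℝ) ≤ ∑ x ∈ M.filter fun x : V => (Λ : ℝ) < deg H M x,
        (deg H M x : ℝ) := by
      have h4 := (Finset.card_le_card h2).trans Finset.card_biUnion_le
      calc ((H \ lowH H Λ).card : ℝ) ≤
            ((∑ x ∈ M.filter fun x : V => (Λ : ℝ) < deg H M x,
              (H.filter fun T => x ∈ T).card : ℕ) : ℝ) := by exact_mod_cast h4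
        _ = _ := by
            push_cast
            apply Finset.sum_congr rfl
            intro x _
            rw [hdeg]
    have h5 : ∀ x ∈ M.filter fun x : V => (Λ : ℝ) < deg H M x, (deg H M x : ℝ) ≤
        a * Real.exp (-(Λ : ℝ) / a) * Real.exp (2 * (deg H M x : ℝ) / a) := by
      intro x hx
      rw [Finset.mem_filter] at hx
      set d : ℝ := (deg H M x : ℝ) with hdd
      have h3 : d / a ≤ Real.exp (d / a) := by
        have := Real.add_one_le_exp (d / a)
        linarith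
      have h4 : d ≤ a * Real.exp (d / a) := by
        rw [div_le_iff₀ ha] at h3
        linarith
      have h5 : (1 : ℝ) ≤ Real.exp ((d - Λ) / a) := by
        apply Real.one_le_exp
        apply div_nonneg _ ha.le
        linarith [hx.2]
      calc d ≤ a * Real.exp (d / a) := h4
        _ ≤ a * Real.exp (d / a) * Real.exp ((d - Λ) / a) :=
            le_mul_of_one_le_right (by positivity) h5
        _ = _ := by
            rw [mul_assoc a (Real.exp (d / a)), mul_assoc a (Real.exp (-(Λ : ℝ) / a)),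
              ← Real.exp_add, ← Real.exp_add]
            congr 2
            field_simp
            ring
    have h6 : ∑ x ∈ M.filter (fun x : V => (Λ : ℝ) < deg H M x), (deg H M x : ℝ) ≤
        a * Real.exp (-(Λ : ℝ) / a) * (C0 * M.card) := by
      refine (Finset.sum_le_sum h5).trans ?_
      rw [← Finset.mul_sum]
      apply mul_le_mul_of_nonneg_left _ (by positivity)
      refine le_trans ?_ hexp'
      exact Finset.sum_le_sum_of_subset_of_nonneg (Finset.filter_subset _ _)
        (fun x _ _ => (Real.exp_pos _).le)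
    linarith
  have hpt : ∀ x ∈ M, ((deg H M x : ℝ) - deg (lowH H Λ) M x) ^ 2 ≤
      2 * a ^ 2 * Real.exp (-(Λ : ℝ) / a) * Real.exp (2 * (deg H M x : ℝ) / a) +
        Λ * ((deg H M x : ℝ) - deg (lowH H Λ) M x) := by
    intro x _
    have h1 : ((deg (lowH H Λ) M x : ℕ) : ℝ) ≤ deg H M x := by exact_mod_cast hdeg' x
    rcases lowTail_point (Λ := (Λ : ℝ)) ha (Nat.cast_nonneg _) h1 with h | h
    · exact h
    · exact absurd h (not_lt.mpr hΛ0)
  refine (Finset.sum_le_sum hpt).trans ?_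
  rw [Finset.sum_add_distrib, ← Finset.mul_sum, ← Finset.mul_sum]
  set E := Real.exp (-(Λ : ℝ) / (2 * a)) with hE
  have hE0 : 0 < E := Real.exp_pos _
  have hE1 : E ≤ 1 := by
    rw [hE, Real.exp_le_one_iff]
    apply div_nonpos_of_nonpos_of_nonneg _ (by positivity)
    linarith
  have hEE : Real.exp (-(Λ : ℝ) / a) = E * E := by
    rw [hE, ← Real.exp_add]
    congr 1
    field_simp
    ring
  have hΛE : (Λ : ℝ) * E ≤ 2 * a := by
    have h1 : (Λ : ℝ) / (2 * a) ≤ Real.exp ((Λ : ℝ) / (2 * a)) := by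
      have := Real.add_one_le_exp ((Λ : ℝ) / (2 * a))
      linarith
    have h2 : E = (Real.exp ((Λ : ℝ) / (2 * a)))⁻¹ := by
      rw [hE, neg_div, Real.exp_neg]
    rw [h2, ← div_eq_mul_inv, div_le_iff₀ (Real.exp_pos _)]
    rw [div_le_iff₀ (by positivity)] at h1
    linarith
  have hEL : E ≤ Real.exp (-L / (2 * a)) := by
    apply Real.exp_le_exp.mpr
    apply div_le_div_of_nonneg_right _ (by positivity)
    linarith
  have hCm : 0 ≤ C0 * M.card := by positivity
  calc 2 * a ^ 2 * Real.exp (-(Λ : ℝ) / a) * ∑ x ∈ M, Real.exp (2 * (deg H M x : ℝ) / a) +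
        Λ * ∑ x ∈ M, ((deg H M x : ℝ) - deg (lowH H Λ) M x) ≤
      2 * a ^ 2 * Real.exp (-(Λ : ℝ) / a) * (C0 * M.card) +
        Λ * (3 * (a * Real.exp (-(Λ : ℝ) / a) * (C0 * M.card))) :=
        add_le_add (mul_le_mul_of_nonneg_left hexp' (by positivity))
          (mul_le_mul_of_nonneg_left hfirst hΛ0)
    _ = (2 * a ^ 2 * E * E + 3 * a * (Λ * E) * E) * (C0 * M.card) := by
        rw [hEE]
        ring
    _ ≤ (2 * a ^ 2 * 1 * E + 3 * a * (2 * a) * E) * (C0 * M.card) := by
        apply mul_le_mul_of_nonneg_right _ hCm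
        apply add_le_add
        · apply mul_le_mul_of_nonneg_right _ hE0.le
          exact mul_le_mul_of_nonneg_left hE1 (by positivity)
        · apply mul_le_mul_of_nonneg_right _ hE0.le
          exact mul_le_mul_of_nonneg_left hΛE (by positivity)
    _ = (8 * a ^ 2 * C0 * E) * M.card := by ring
    _ ≤ (8 * a ^ 2 * C0 * Real.exp (-L / (2 * a))) * M.card := by
        apply mul_le_mul_of_nonneg_right _ hm0
        exact mul_le_mul_of_nonneg_left hEL (by positivity)
    _ ≤ ε * M.card := mul_le_mul_of_nonneg_right hL hm0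

end Vale.Agent.P046S
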