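import Vale.Agent.P046S.Proc

/-!
P046 sharp constant, module A3 (Pair): two processes driven by the same clocks.
-/

namespace Vale.Agent.P046S

open Finset Vale.Agent.P046

variable {V : Type} [Fintype V] [DecidableEq V] {H H1 H2 : Finset (Finset V)}
  {M M1 M2 S : Finset V} {t : ℝ}

def kl2 (H1 H2 : Finset (Finset V)) (T : Finset V) (ω : Finset V × Finset V) :
    Finset V × Finset V := (kl H1 T ω.1, kl H2 T ω.2)

noncomputable def Et2 (H1 H2 : Finset (Finset V)) (t : ℝ) (φ : Finset V × Finset V → ℝ)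
    (ω : Finset V × Finset V) : ℝ := Pt (H1 ∪ H2) (kl2 H1 H2) t φ ω

theorem Et2_fst (φ : Finset V → ℝ) (ω : Finset V × Finset V) (t : ℝ) :
    Et2 H1 H2 t (fun ω => φ ω.1) ω = Et H1 t φ ω.1 := by
  refine Pt_comp (H1 ∪ H2) (kl2 H1 H2) H1 (kl H1) Prod.fst ?_ t φ ω
  intro φ ω
  unfold Lg kl2
  symm
  refine Finset.sum_subset subset_union_left ?_
  intro T _ hT
  simp [kl, hT]

theorem Et2_snd (φ : Finset V → ℝ) (ω : Finset V × Finset V) (t : ℝ) :
    Et2 H1 H2 t (fun ω => φ ω.2) ω = Et H2 t φ ω.2 := by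
  refine Pt_comp (H1 ∪ H2) (kl2 H1 H2) H2 (kl H2) Prod.snd ?_ t φ ω
  intro φ ω
  unfold Lg kl2
  symm
  refine Finset.sum_subset subset_union_right ?_
  intro T _ hT
  simp [kl, hT]

/-- monotonicity -/
theorem Pair_Et2_mono (ht : 0 ≤ t) {φ ψ : Finset V × Finset V → ℝ} (h : ∀ ω, φ ω ≤ ψ ω)
    (ω : Finset V × Finset V) : Et2 H1 H2 t φ ω ≤ Et2 H1 H2 t ψ ω :=
  (Pt_semi (H1 ∪ H2) (kl2 H1 H2)).mono Set.univ (fun _ _ _ _ => Set.mem_univ _) t ht φ ψ
    (fun ω _ => h ω) ω (Set.mem_univ _)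

theorem Pair_Et2_add (φ ψ : Finset V × Finset V → ℝ) (ω : Finset V × Finset V) :
    Et2 H1 H2 t (fun x => φ x + ψ x) ω = Et2 H1 H2 t φ ω + Et2 H1 H2 t ψ ω :=
  (Pt_semi (H1 ∪ H2) (kl2 H1 H2)).add t φ ψ ω

theorem Pair_Et2_const (c : ℝ) (ω : Finset V × Finset V) :
    Et2 H1 H2 t (fun _ => c) ω = c := by
  have h := (Pt_semi (H1 ∪ H2) (kl2 H1 H2)).smul t c (fun _ => 1) ω
  simp only [(Pt_semi (H1 ∪ H2) (kl2 H1 H2)).one, mul_one] at h
  exact h

theorem Pair_Et2_sum {κ : Type} (s : Finset κ) (f : κ → Finset V × Finset V → ℝ)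
    (ω : Finset V × Finset V) :
    Et2 H1 H2 t (fun x => ∑ k ∈ s, f k x) ω = ∑ k ∈ s, Et2 H1 H2 t (f k) ω :=
  Pt_sum (H1 ∪ H2) (kl2 H1 H2) s f t ω

/-- probability of a discrepancy at `x` -/
noncomputable def ds (H1 H2 : Finset (Finset V)) (M1 M2 : Finset V) (t : ℝ) (x : V) : ℝ :=
  Et2 H1 H2 t (fun ω => if x ∈ symmDiff ω.1 ω.2 then 1 else 0) (M1, M2)

theorem ds_nonneg (ht : 0 ≤ t) (x : V) : 0 ≤ ds H1 H2 M1 M2 t x := by
  refine (Pair_Et2_const (H1 := H1) (H2 := H2) (t := t) 0 (M1, M2)).symm.le.trans ?_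
  refine Pair_Et2_mono ht (fun ω => ?_) _
  split_ifs <;> norm_num

theorem ds_le_one (ht : 0 ≤ t) (x : V) : ds H1 H2 M1 M2 t x ≤ 1 := by
  refine le_trans ?_ (Pair_Et2_const (H1 := H1) (H2 := H2) (t := t) 1 (M1, M2)).le
  refine Pair_Et2_mono ht (fun ω => ?_) _
  split_ifs <;> norm_num

theorem ds_zero (x : V) : ds H1 H2 M M 0 x = 0 := by
  unfold ds Et2
  rw [(Pt_semi (H1 ∪ H2) (kl2 H1 H2)).zero]
  simp

omit [Fintype V] in
/-- the pointwise inequality behind `ds_deriv` -/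
theorem Pair_Lg_le (x : V) (ω : Finset V × Finset V) :
    Lg (H1 ∪ H2) (kl2 H1 H2) (fun ω => if x ∈ symmDiff ω.1 ω.2 then (1 : ℝ) else 0) ω ≤
      ∑ T ∈ H1 ∪ H2 with x ∈ T,
        (∑ y ∈ T, (if y ∈ symmDiff ω.1 ω.2 then (1 : ℝ) else 0) +
          if T ∈ symmDiff H1 H2 then 1 else 0) := by
  unfold Lg
  rw [Finset.sum_filter]
  refine Finset.sum_le_sum fun T hT => ?_
  have hsn : 0 ≤ ∑ y ∈ T, (if y ∈ symmDiff ω.1 ω.2 then (1 : ℝ) else 0) :=
    Finset.sum_nonneg fun y _ => by split_ifs <;> norm_num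
  beta_reduce
  by_cases hx : x ∈ T
  · rw [if_pos hx]
    by_cases hk : x ∈ symmDiff (kl2 H1 H2 T ω).1 (kl2 H1 H2 T ω).2
    · rw [if_pos hk]
      by_cases hs : T ∈ symmDiff H1 H2
      · rw [if_pos hs]
        split_ifs <;> linarith
      · rw [if_neg hs]
        have h12 : T ∈ H1 ∧ T ∈ H2 := by
          rw [Finset.mem_symmDiff] at hs
          rw [Finset.mem_union] at hT
          tauto
        have hex : ∃ y ∈ T, y ∈ symmDiff ω.1 ω.2 := by
          by_contra hne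
          push Not at hne
          have hiff : ∀ y ∈ T, (y ∈ ω.1 ↔ y ∈ ω.2) := by
            intro y hy
            have := hne y hy
            rw [Finset.mem_symmDiff] at this
            tauto
          have hsub : T ⊆ ω.1 ↔ T ⊆ ω.2 :=
            ⟨fun h y hy => (hiff y hy).1 (h hy), fun h y hy => (hiff y hy).2 (h hy)⟩
          by_cases h1 : T ⊆ ω.1
          · have h2 := hsub.1 h1
            simp only [kl2, kl, h12.1, h12.2, h1, h2, and_self, if_true] at hk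
            rw [Finset.mem_symmDiff] at hk
            simp [hx] at hk
          · have h2 : ¬ T ⊆ ω.2 := fun h => h1 (hsub.2 h)
            simp only [kl2, kl, h12.1, h12.2, h1, h2, and_false, if_false] at hk
            exact hne x hx hk
        obtain ⟨y, hy, hyd⟩ := hex
        have h1 : (1 : ℝ) ≤ ∑ y ∈ T, (if y ∈ symmDiff ω.1 ω.2 then (1 : ℝ) else 0) := by
          have h0 := Finset.single_le_sum (f := fun y => if y ∈ symmDiff ω.1 ω.2 then (1 : ℝ) else 0)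
            (fun y _ => by show (0 : ℝ) ≤ if y ∈ symmDiff ω.1 ω.2 then (1 : ℝ) else 0
                           split_ifs <;> norm_num) hy
          simpa [hyd] using h0
        split_ifs <;> linarith
    · rw [if_neg hk]
      have h3 : (0 : ℝ) ≤ if T ∈ symmDiff H1 H2 then 1 else 0 := by split_ifs <;> norm_num
      split_ifs at * <;> linarith
  · rw [if_neg hx]
    have h1 : x ∈ symmDiff (kl2 H1 H2 T ω).1 (kl2 H1 H2 T ω).2 ↔ x ∈ symmDiff ω.1 ω.2 := by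
      rw [Finset.mem_symmDiff, Finset.mem_symmDiff]
      unfold kl2 kl
      simp only
      split_ifs <;> simp [hx]
    simp only [h1, sub_self, le_refl]

/-- growth of the discrepancy: if `T` rings and `T` is removed in exactly one of the processes,
then `T` is in only one of `H1`, `H2` or some point of `T` is a discrepancy -/
theorem ds_deriv (ht : 0 ≤ t) (x : V) :
    ∃ d, HasDerivAt (fun t => ds H1 H2 M1 M2 t x) d t ∧
      d ≤ ∑ T ∈ H1 ∪ H2 with x ∈ T,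
        (∑ y ∈ T, ds H1 H2 M1 M2 t y + if T ∈ symmDiff H1 H2 then 1 else 0) := by
  refine ⟨_, (Pt_semi (H1 ∪ H2) (kl2 H1 H2)).deriv
    (fun ω => if x ∈ symmDiff ω.1 ω.2 then 1 else 0) (M1, M2) t, ?_⟩
  have h1 := Pair_Et2_mono (H1 := H1) (H2 := H2) ht (Pair_Lg_le (H1 := H1) (H2 := H2) x) (M1, M2)
  refine h1.trans (le_of_eq ?_)
  rw [Pair_Et2_sum]
  refine Finset.sum_congr rfl fun T _ => ?_
  rw [Pair_Et2_add, Pair_Et2_sum, Pair_Et2_const]
  rfl

theorem al_diff_le (ht : 0 ≤ t) (S : Finset V) :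
    |al H1 M1 t S - al H2 M2 t S| ≤ ∑ x ∈ S, ds H1 H2 M1 M2 t x := by
  have e1 : al H1 M1 t S = Et2 H1 H2 t (fun ω => if S ⊆ ω.1 then (1 : ℝ) else 0) (M1, M2) :=
    (Et2_fst (H1 := H1) (H2 := H2) (fun M' => if S ⊆ M' then (1 : ℝ) else 0) (M1, M2) t).symm
  have e2 : al H2 M2 t S = Et2 H1 H2 t (fun ω => if S ⊆ ω.2 then (1 : ℝ) else 0) (M1, M2) :=
    (Et2_snd (H1 := H1) (H2 := H2) (fun M' => if S ⊆ M' then (1 : ℝ) else 0) (M1, M2) t).symm
  have e3 : ∑ x ∈ S, ds H1 H2 M1 M2 t x = Et2 H1 H2 t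
      (fun ω => ∑ x ∈ S, if x ∈ symmDiff ω.1 ω.2 then (1 : ℝ) else 0) (M1, M2) := by
    rw [Pair_Et2_sum]
    rfl
  have key : ∀ A B : Finset V, (if S ⊆ A then (1 : ℝ) else 0) ≤ (if S ⊆ B then (1 : ℝ) else 0) +
      ∑ x ∈ S, if x ∈ symmDiff A B then (1 : ℝ) else 0 := by
    intro A B
    have hsn : 0 ≤ ∑ x ∈ S, (if x ∈ symmDiff A B then (1 : ℝ) else 0) :=
      Finset.sum_nonneg fun y _ => by split_ifs <;> norm_num
    by_cases hA : S ⊆ A
    · by_cases hB : S ⊆ B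
      · rw [if_pos hA, if_pos hB]; linarith
      · rw [if_pos hA, if_neg hB]
        obtain ⟨y, hy, hyB⟩ := Finset.not_subset.1 hB
        have hyd : y ∈ symmDiff A B := by
          rw [Finset.mem_symmDiff]; exact Or.inl ⟨hA hy, hyB⟩
        have h0 := Finset.single_le_sum (f := fun y => if y ∈ symmDiff A B then (1 : ℝ) else 0)
            (fun y _ => by show (0 : ℝ) ≤ if y ∈ symmDiff A B then (1 : ℝ) else 0
                           split_ifs <;> norm_num) hy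
        simp only [hyd, if_true] at h0
        linarith
    · rw [if_neg hA]
      have : (0 : ℝ) ≤ if S ⊆ B then (1 : ℝ) else 0 := by split_ifs <;> norm_num
      linarith
  rw [abs_le]
  constructor
  · have h := Pair_Et2_mono (H1 := H1) (H2 := H2) (t := t) ht (φ := fun ω => if S ⊆ ω.2 then (1 : ℝ) else 0)
      (ψ := fun ω => (if S ⊆ ω.1 then (1 : ℝ) else 0) +
        ∑ x ∈ S, if x ∈ symmDiff ω.1 ω.2 then (1 : ℝ) else 0)
      (fun ω => by
        have := key ω.2 ω.1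
        rw [symmDiff_comm] at this
        exact this) (M1, M2)
    rw [Pair_Et2_add, ← e1, ← e2, ← e3] at h
    linarith
  · have h := Pair_Et2_mono (H1 := H1) (H2 := H2) (t := t) ht (φ := fun ω => if S ⊆ ω.1 then (1 : ℝ) else 0)
      (ψ := fun ω => (if S ⊆ ω.2 then (1 : ℝ) else 0) +
        ∑ x ∈ S, if x ∈ symmDiff ω.1 ω.2 then (1 : ℝ) else 0)
      (fun ω => key ω.1 ω.2) (M1, M2)
    rw [Pair_Et2_add, ← e1, ← e2, ← e3] at h
    linarith

theorem Et_abs_card_le (ht : 0 ≤ t) (c : ℝ) :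
    Et H1 t (fun M' => |(M'.card : ℝ) - c|) M1 ≤
      Et H2 t (fun M' => |(M'.card : ℝ) - c|) M2 + ∑ x : V, ds H1 H2 M1 M2 t x := by
  have e1 : Et H1 t (fun M' => |(M'.card : ℝ) - c|) M1 =
      Et2 H1 H2 t (fun ω => |(ω.1.card : ℝ) - c|) (M1, M2) :=
    (Et2_fst (H1 := H1) (H2 := H2) (fun M' => |(M'.card : ℝ) - c|) (M1, M2) t).symm
  have e2 : Et H2 t (fun M' => |(M'.card : ℝ) - c|) M2 =
      Et2 H1 H2 t (fun ω => |(ω.2.card : ℝ) - c|) (M1, M2) :=
    (Et2_snd (H1 := H1) (H2 := H2) (fun M' => |(M'.card : ℝ) - c|) (M1, M2) t).symm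
  have e3 : ∑ x : V, ds H1 H2 M1 M2 t x = Et2 H1 H2 t
      (fun ω => ∑ x : V, if x ∈ symmDiff ω.1 ω.2 then (1 : ℝ) else 0) (M1, M2) := by
    rw [Pair_Et2_sum]
    rfl
  rw [e1, e2, e3, ← Pair_Et2_add]
  refine Pair_Et2_mono ht (fun ω => ?_) _
  have hcard : ∑ x : V, (if x ∈ symmDiff ω.1 ω.2 then (1 : ℝ) else 0) =
      ((symmDiff ω.1 ω.2).card : ℝ) := by
    rw [← Finset.sum_filter]
    simp
  rw [hcard]
  have h1 : ω.1.card ≤ ω.2.card + (symmDiff ω.1 ω.2).card := by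
    calc ω.1.card ≤ (ω.2 ∪ symmDiff ω.1 ω.2).card := by
          refine Finset.card_le_card fun x hx => ?_
          rw [Finset.mem_union, Finset.mem_symmDiff]
          tauto
      _ ≤ _ := Finset.card_union_le _ _
  have h2 : ω.2.card ≤ ω.1.card + (symmDiff ω.1 ω.2).card := by
    calc ω.2.card ≤ (ω.1 ∪ symmDiff ω.1 ω.2).card := by
          refine Finset.card_le_card fun x hx => ?_
          rw [Finset.mem_union, Finset.mem_symmDiff]
          tauto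
      _ ≤ _ := Finset.card_union_le _ _
  have h1' : (ω.1.card : ℝ) ≤ ω.2.card + (symmDiff ω.1 ω.2).card := by exact_mod_cast h1
  have h2' : (ω.2.card : ℝ) ≤ ω.1.card + (symmDiff ω.1 ω.2).card := by exact_mod_cast h2
  have h3 : |(ω.1.card : ℝ) - ω.2.card| ≤ (symmDiff ω.1 ω.2).card := by
    rw [abs_le]; constructor <;> linarith
  have h4 : |(ω.1.card : ℝ) - c| ≤ |(ω.1.card : ℝ) - ω.2.card| + |(ω.2.card : ℝ) - c| :=
    abs_sub_le _ _ _
  linarith

theorem sum_al_le (ht : 0 ≤ t) :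
    ∑ T ∈ H1, al H1 M1 t T ≤ ∑ T ∈ H2, al H2 M2 t T + ((H1 \ H2).card : ℝ) +
      ∑ x : V, ((H1.filter fun T => x ∈ T).card : ℝ) * ds H1 H2 M1 M2 t x := by
  have h1 : ∑ T ∈ H1, al H1 M1 t T = ∑ T ∈ H1 \ H2, al H1 M1 t T + ∑ T ∈ H1 ∩ H2, al H1 M1 t T := by
    rw [← Finset.sum_union (Finset.disjoint_sdiff_inter H1 H2), Finset.sdiff_union_inter]
  have h2 : ∑ T ∈ H1 \ H2, al H1 M1 t T ≤ ((H1 \ H2).card : ℝ) := by
    calc ∑ T ∈ H1 \ H2, al H1 M1 t T ≤ ∑ T ∈ H1 \ H2, (1 : ℝ) :=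
          Finset.sum_le_sum fun T _ => al_le_one ht
      _ = _ := by simp
  have h3 : ∑ T ∈ H1 ∩ H2, al H1 M1 t T ≤
      ∑ T ∈ H1 ∩ H2, (al H2 M2 t T + ∑ x ∈ T, ds H1 H2 M1 M2 t x) := by
    refine Finset.sum_le_sum fun T _ => ?_
    have h := al_diff_le (H1 := H1) (H2 := H2) (M1 := M1) (M2 := M2) ht T
    have h' := (abs_le.1 h).2
    linarith
  have h4 : ∑ T ∈ H1 ∩ H2, al H2 M2 t T ≤ ∑ T ∈ H2, al H2 M2 t T :=
    Finset.sum_le_sum_of_subset_of_nonneg Finset.inter_subset_right fun T _ _ => al_nonneg ht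
  have h5 : ∑ T ∈ H1 ∩ H2, ∑ x ∈ T, ds H1 H2 M1 M2 t x ≤
      ∑ T ∈ H1, ∑ x ∈ T, ds H1 H2 M1 M2 t x :=
    Finset.sum_le_sum_of_subset_of_nonneg Finset.inter_subset_left fun T _ _ =>
      Finset.sum_nonneg fun x _ => ds_nonneg ht x
  have h6 : ∑ T ∈ H1, ∑ x ∈ T, ds H1 H2 M1 M2 t x =
      ∑ x : V, ((H1.filter fun T => x ∈ T).card : ℝ) * ds H1 H2 M1 M2 t x := by
    have : ∀ T ∈ H1, ∑ x ∈ T, ds H1 H2 M1 M2 t x =
        ∑ x : V, if x ∈ T then ds H1 H2 M1 M2 t x else 0 := by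
      intro T _
      rw [← Finset.sum_filter]
      simp
    rw [Finset.sum_congr rfl this, Finset.sum_comm]
    refine Finset.sum_congr rfl fun x _ => ?_
    rw [← Finset.sum_filter, Finset.sum_const, nsmul_eq_mul]
  rw [Finset.sum_add_distrib] at h3
  linarith

end Vale.Agent.P046S
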