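import Vale.Agent.P046S.Semi
import Vale.Agent.P046.Hyper

/-!
P046 sharp constant, module A2 (Proc): the continuous time process on a hypergraph `H`:
each triple `T ∈ H` has a rate one clock; when it rings and `T ⊆ M`, the state `M` becomes `M \ T`.
-/

namespace Vale.Agent.P046S

open Finset Vale.Agent.P046

variable {V : Type} [Fintype V] [DecidableEq V] {H : Finset (Finset V)} {M S S' T T' : Finset V}
  {t : ℝ}

/-- effect of a ring of `T` -/
def kl (H : Finset (Finset V)) (T M : Finset V) : Finset V := if T ∈ H ∧ T ⊆ M then M \ T else M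

noncomputable def Et (H : Finset (Finset V)) (t : ℝ) (φ : Finset V → ℝ) (M : Finset V) : ℝ :=
  Pt H (kl H) t φ M

/-- probability that all points of `S` are alive at time `t`, starting from `M` -/
noncomputable def al (H : Finset (Finset V)) (M : Finset V) (t : ℝ) (S : Finset V) : ℝ :=
  Et H t (fun M' => if S ⊆ M' then 1 else 0) M

theorem Lg_kl (φ : Finset V → ℝ) :
    Lg H (kl H) φ M = ∑ T ∈ sub H M, (φ (M \ T) - φ M) := by
  unfold Lg sub
  rw [sum_filter]
  apply sum_congr rfl
  intro T hT
  unfold kl
  by_cases h : T ⊆ M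
  · simp [hT, h]
  · simp [h]

private theorem Proc_zero (t : ℝ) : Et H t (fun _ => 0) M = 0 := by
  have h := (Pt_semi H (kl H)).smul t 0 (fun _ => 0) M
  simp only [mul_zero, zero_mul] at h
  exact h

private theorem Proc_mono (ht : 0 ≤ t) {φ ψ : Finset V → ℝ} (h : ∀ M', φ M' ≤ ψ M') :
    Et H t φ M ≤ Et H t ψ M :=
  (Pt_semi H (kl H)).mono Set.univ (fun _ _ _ _ => Set.mem_univ _) t ht φ ψ
    (fun M' _ => h M') M (Set.mem_univ _)

private theorem Proc_neg (t : ℝ) (φ : Finset V → ℝ) :
    Et H t (fun M' => -φ M') M = -Et H t φ M := by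
  have h := (Pt_semi H (kl H)).smul t (-1) φ M
  simp only [neg_mul, one_mul] at h
  exact h

/-- the process started inside `M` -/
private theorem Proc_inter (t : ℝ) (φ : Finset V → ℝ) :
    Et (sub H M) t (fun M' => φ (M' ∩ M)) M = Et H t φ M := by
  have h := Pt_comp (sub H M) (kl (sub H M)) H (kl H) (fun M' : Finset V => M' ∩ M) ?_ t φ M
  · rw [inter_self] at h
    exact h
  · intro ψ ω
    rw [Lg_kl, Lg_kl]
    have h1 : sub (sub H M) ω = sub H (ω ∩ M) := by
      ext T
      simp only [sub, mem_filter, subset_inter_iff]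
      tauto
    rw [h1]
    apply sum_congr rfl
    intro T _
    congr 2
    ext x
    simp only [mem_inter, mem_sdiff]
    tauto

private theorem Proc_sub (t : ℝ) (φ : Finset V → ℝ) : Et (sub H M) t φ M = Et H t φ M := by
  rw [← Proc_inter (H := H), ← Proc_inter (H := sub H M)]
  congr 1
  ext T
  simp only [sub, mem_filter]
  tauto

private theorem Proc_al_zero (h : ¬ S ⊆ M) : al H M t S = 0 := by
  unfold al
  rw [← Proc_inter]
  have h1 : (fun M' : Finset V => if S ⊆ M' ∩ M then (1 : ℝ) else 0) = fun _ => 0 := by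
    funext M'
    rw [if_neg]
    intro h2
    exact h (h2.trans inter_subset_right)
  rw [h1]
  exact Proc_zero t

theorem al_zero : al H M 0 S = if S ⊆ M then 1 else 0 :=
  (Pt_semi H (kl H)).zero _ _

theorem al_nonneg (ht : 0 ≤ t) : 0 ≤ al H M t S := by
  rw [← Proc_zero (H := H) (M := M) t]
  apply Proc_mono ht
  intro M'
  split_ifs <;> norm_num

theorem al_le_one (ht : 0 ≤ t) : al H M t S ≤ 1 := by
  have h := (Pt_semi H (kl H)).one t M
  rw [← h]
  apply Proc_mono ht
  intro M'
  split_ifs <;> norm_num

theorem al_anti (ht : 0 ≤ t) (h : S ⊆ S') : al H M t S' ≤ al H M t S := by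
  apply Proc_mono ht
  intro M'
  by_cases h1 : S' ⊆ M'
  · rw [if_pos h1, if_pos (h.trans h1)]
  · rw [if_neg h1]
    split_ifs <;> norm_num

private theorem Proc_Lg (hH : IsLin3 H) (S M : Finset V) :
    Lg H (kl H) (fun M' => if S ⊆ M' then 1 else 0) M =
      -∑ T ∈ H with ¬ Disjoint T S, if S ∪ T ⊆ M then (1 : ℝ) else 0 := by
  rw [Lg_kl, ← sum_neg_distrib, sub, sum_filter, sum_filter]
  apply sum_congr rfl
  intro T hT
  by_cases h1 : T ⊆ M
  · rw [if_pos h1]
    by_cases h2 : Disjoint T S
    · rw [if_neg (not_not.2 h2)]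
      have h3 : (S ⊆ M \ T) ↔ S ⊆ M := by
        rw [subset_sdiff]
        exact ⟨fun h => h.1, fun h => ⟨h, h2.symm⟩⟩
      simp only [h3, sub_self]
    · rw [if_pos h2]
      have h3 : ¬ S ⊆ M \ T := by
        rw [subset_sdiff]
        exact fun h => h2 h.2.symm
      rw [if_neg h3]
      simp only [union_subset_iff, h1, and_true, zero_sub]
  · rw [if_neg h1]
    have h3 : ¬ S ∪ T ⊆ M := fun h => h1 (subset_union_right.trans h)
    simp [h3]

/-- forward equation (the triples `T ⊆ S` are included in the sum) -/
theorem al_deriv (hH : IsLin3 H) (S : Finset V) (t : ℝ) :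
    HasDerivAt (fun t => al H M t S) (-∑ T ∈ H with ¬ Disjoint T S, al H M t (S ∪ T)) t := by
  have h := (Pt_semi H (kl H)).deriv (fun M' => if S ⊆ M' then 1 else 0) M t
  have h1 : Pt H (kl H) t (Lg H (kl H) (fun M' => if S ⊆ M' then 1 else 0)) M =
      -∑ T ∈ H with ¬ Disjoint T S, al H M t (S ∪ T) := by
    rw [show Lg H (kl H) (fun M' => if S ⊆ M' then 1 else 0) = fun M' =>
      -∑ T ∈ H with ¬ Disjoint T S, if S ∪ T ⊆ M' then (1 : ℝ) else 0 from
      funext fun M' => Proc_Lg hH S M']
    change Et H t _ M = _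
    rw [Proc_neg]
    congr 1
    exact Pt_sum H (kl H) _ (fun T M' => if S ∪ T ⊆ M' then (1 : ℝ) else 0) t M
  rw [h1] at h
  exact h

/-- only the triples inside the initial state matter -/
theorem al_sub (S : Finset V) (t : ℝ) : al H M t S = al (sub H M) M t S :=
  (Proc_sub t _).symm

/-- the clocks of the triples inside `S` have not rung -/
theorem al_le_exp (hH : IsLin3 H) (ht : 0 ≤ t) (S : Finset V) :
    al H M t S ≤ Real.exp (-(((H.filter fun T => T ⊆ S).card : ℝ) * t)) := by
  set c : ℝ := ((H.filter fun T => T ⊆ S).card : ℝ) with hc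
  have hder : ∀ s, HasDerivAt (fun s => Real.exp (c * s) * al H M s S)
      (Real.exp (c * s) * (c * 1) * al H M s S +
        Real.exp (c * s) * (-∑ T ∈ H with ¬ Disjoint T S, al H M s (S ∪ T))) s := by
    intro s
    exact (((hasDerivAt_id s).const_mul c).exp).mul (al_deriv hH S s)
  have hanti : AntitoneOn (fun s => Real.exp (c * s) * al H M s S) (Set.Ici 0) := by
    apply antitoneOn_of_deriv_nonpos (convex_Ici 0)
    · exact fun s _ => (hder s).continuousAt.continuousWithinAt
    · exact fun s _ => (hder s).differentiableAt.differentiableWithinAt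
    · intro s hs
      rw [interior_Ici] at hs
      have hs0 : 0 ≤ s := le_of_lt hs
      rw [(hder s).deriv]
      have h1 : c * al H M s S ≤ ∑ T ∈ H with ¬ Disjoint T S, al H M s (S ∪ T) := by
        calc c * al H M s S = ∑ T ∈ H with T ⊆ S, al H M s (S ∪ T) := by
              rw [sum_congr rfl (g := fun _ => al H M s S)]
              · rw [sum_const, nsmul_eq_mul]
              · intro T hT
                rw [union_eq_left.2 (mem_filter.1 hT).2]
          _ ≤ _ := by
              apply sum_le_sum_of_subset_of_nonneg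
              · intro T hT
                rw [mem_filter] at hT ⊢
                refine ⟨hT.1, ?_⟩
                intro hd
                have h3 := hH.card3 T hT.1
                have h4 : T = ∅ := by
                  have := hd.mono_right hT.2
                  rwa [disjoint_self, bot_eq_empty] at this
                rw [h4] at h3
                simp at h3
              · intro T _ _
                exact al_nonneg hs0
      have h2 := Real.exp_pos (c * s)
      nlinarith
  have h := hanti (Set.mem_Ici.2 le_rfl) (Set.mem_Ici.2 ht) ht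
  simp only [mul_zero, Real.exp_zero, one_mul] at h
  have h0 : al H M 0 S ≤ 1 := by
    rw [al_zero]
    split_ifs <;> norm_num
  have h5 : Real.exp (c * t) * al H M t S ≤ 1 := h.trans h0
  rw [Real.exp_neg, ← one_div, le_div_iff₀ (Real.exp_pos _), mul_comm]
  exact h5

theorem exp_le_al (hH : IsLin3 H) (ht : 0 ≤ t) {x : V} (hx : x ∈ M) :
    Real.exp (-((deg H M x : ℝ) * t)) ≤ al H M t {x} := by
  set c : ℝ := (deg H M x : ℝ) with hc
  have hder : ∀ s, HasDerivAt (fun s => Real.exp (c * s) * al H M s {x})
      (Real.exp (c * s) * (c * 1) * al H M s {x} +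
        Real.exp (c * s) * (-∑ T ∈ H with ¬ Disjoint T {x}, al H M s ({x} ∪ T))) s := by
    intro s
    exact (((hasDerivAt_id s).const_mul c).exp).mul (al_deriv hH {x} s)
  have hmono : MonotoneOn (fun s => Real.exp (c * s) * al H M s {x}) (Set.Ici 0) := by
    apply monotoneOn_of_deriv_nonneg (convex_Ici 0)
    · exact fun s _ => (hder s).continuousAt.continuousWithinAt
    · exact fun s _ => (hder s).differentiableAt.differentiableWithinAt
    · intro s hs
      rw [interior_Ici] at hs
      have hs0 : 0 ≤ s := le_of_lt hs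
      rw [(hder s).deriv]
      have h1 : ∑ T ∈ H with ¬ Disjoint T {x}, al H M s ({x} ∪ T) ≤ c * al H M s {x} := by
        calc ∑ T ∈ H with ¬ Disjoint T {x}, al H M s ({x} ∪ T)
            = ∑ T ∈ (sub H M).filter (fun T => x ∈ T), al H M s ({x} ∪ T) := by
              symm
              apply sum_subset
              · intro T hT
                rw [mem_filter, P046.mem_sub] at hT
                rw [mem_filter]
                refine ⟨hT.1.1, ?_⟩
                rw [disjoint_singleton_right]
                exact not_not.2 hT.2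
              · intro T hT hT'
                rw [mem_filter, disjoint_singleton_right, not_not] at hT
                apply Proc_al_zero
                intro h6
                apply hT'
                rw [mem_filter, P046.mem_sub]
                exact ⟨⟨hT.1, subset_union_right.trans h6⟩, hT.2⟩
          _ ≤ ∑ T ∈ (sub H M).filter (fun T => x ∈ T), al H M s {x} :=
              sum_le_sum fun T _ => al_anti hs0 subset_union_left
          _ = c * al H M s {x} := by rw [sum_const, nsmul_eq_mul, hc, deg]
      have h2 := Real.exp_pos (c * s)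
      nlinarith
  have h := hmono (Set.mem_Ici.2 le_rfl) (Set.mem_Ici.2 ht) ht
  simp only [mul_zero, Real.exp_zero, one_mul] at h
  rw [al_zero, if_pos (singleton_subset_iff.2 hx)] at h
  rw [Real.exp_neg, ← one_div, div_le_iff₀ (Real.exp_pos _), mul_comm]
  exact h

theorem Et_card (t : ℝ) : Et H t (fun M' => (M'.card : ℝ)) M = ∑ x ∈ M, al H M t {x} := by
  let f : V → Finset V → ℝ := fun x M' => (fun S : Finset V => if S ⊆ M' then (1 : ℝ) else 0) {x}
  have h1 : (fun M' : Finset V => (M'.card : ℝ)) = fun M' => ∑ x : V, f x M' := by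
    funext M'
    simp [f, singleton_subset_iff]
  have h2 : Et H t (fun M' => ∑ x : V, f x M') M = ∑ x : V, Et H t (f x) M :=
    Pt_sum H (kl H) univ f t M
  have h3 : ∀ x, Et H t (f x) M = al H M t {x} := fun x => rfl
  rw [h1, h2, sum_congr rfl fun x _ => h3 x]
  symm
  apply sum_subset (subset_univ _)
  intro x _ hx
  apply Proc_al_zero
  rwa [singleton_subset_iff]

theorem Et_sub (t : ℝ) :
    Et H t (fun M' => ((sub H M').card : ℝ)) M = ∑ T ∈ sub H M, al H M t T := by
  have h1 : (fun M' : Finset V => ((sub H M').card : ℝ)) =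
      fun M' => ∑ T ∈ H, if T ⊆ M' then (1 : ℝ) else 0 := by
    funext M'
    rw [← sum_filter, sum_const, nsmul_eq_mul, mul_one, sub]
  have h2 : Et H t (fun M' => ∑ T ∈ H, if T ⊆ M' then (1 : ℝ) else 0) M =
      ∑ T ∈ H, al H M t T :=
    Pt_sum H (kl H) _ (fun T M' => if T ⊆ M' then (1 : ℝ) else 0) t M
  rw [h1, h2]
  symm
  apply sum_subset (filter_subset _ _)
  intro T hT hT'
  apply Proc_al_zero
  intro h
  exact hT' (P046.mem_sub.2 ⟨hT, h⟩)

end Vale.Agent.P046S
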