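import Vale.Agent.P046S.Semi0

/-!
P046 sharp constant, module A1b (Semi): the semigroup and its consequences.
-/

namespace Vale.Agent.P046S

open Finset

variable {Ω Ω' ι : Type} [Fintype Ω] [Fintype Ω']

/-- the semigroup -/
noncomputable def Pt (I : Finset ι) (τ : ι → Ω → Ω) : ℝ → (Ω → ℝ) → Ω → ℝ :=
  Classical.choose (exists_semi I τ)

theorem Pt_semi (I : Finset ι) (τ : ι → Ω → Ω) : IsSemi I τ (Pt I τ) :=
  Classical.choose_spec (exists_semi I τ)

theorem semi_Pt_zero_fun (I : Finset ι) (τ : ι → Ω → Ω) (t : ℝ) (ω : Ω) :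
    Pt I τ t (fun _ => 0) ω = 0 := by
  have := (Pt_semi I τ).smul t 0 (fun _ => 0) ω
  simpa using this

theorem Pt_sum (I : Finset ι) (τ : ι → Ω → Ω) {κ : Type} (s : Finset κ) (f : κ → Ω → ℝ) (t : ℝ)
    (ω : Ω) : Pt I τ t (fun x => ∑ k ∈ s, f k x) ω = ∑ k ∈ s, Pt I τ t (f k) ω := by
  classical
  induction s using Finset.induction_on with
  | empty => simpa using semi_Pt_zero_fun I τ t ω
  | insert a s ha ih =>
    rw [sum_insert ha, ← ih, ← (Pt_semi I τ).add]
    congr 1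
    funext x
    rw [sum_insert ha]

/-- the matrix of the generator acting on the coefficients -/
noncomputable def semiA {ι' : Type} [DecidableEq Ω'] (I' : Finset ι') (τ' : ι' → Ω' → Ω') :
    (Ω' → ℝ) →L[ℝ] (Ω' → ℝ) :=
  LinearMap.toContinuousLinearMap
    { toFun := fun v y => ∑ z, Lg I' τ' (fun x => if x = y then 1 else 0) z * v z
      map_add' := by
        intro v w
        funext y
        simp only [Pi.add_apply, mul_add, sum_add_distrib]
      map_smul' := by
        intro c v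
        funext y
        simp only [Pi.smul_apply, smul_eq_mul, mul_sum, RingHom.id_apply]
        apply sum_congr rfl
        intro z _
        ring }

theorem semiA_apply {ι' : Type} [DecidableEq Ω'] (I' : Finset ι') (τ' : ι' → Ω' → Ω') (v : Ω' → ℝ)
    (y : Ω') : semiA I' τ' v y = ∑ z, Lg I' τ' (fun x => if x = y then 1 else 0) z * v z := rfl

/-- expansion in point masses -/
theorem semi_expand [DecidableEq Ω'] (I : Finset ι) (τ : ι → Ω → Ω) (p : Ω → Ω') (t : ℝ)
    (φ : Ω' → ℝ) (ω : Ω) :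
    Pt I τ t (fun x => φ (p x)) ω =
      ∑ z, φ z * Pt I τ t (fun x => if p x = z then 1 else 0) ω := by
  have h1 : (fun x => φ (p x)) = fun x => ∑ z, φ z * (if p x = z then 1 else 0) := by
    funext x
    simp
  rw [h1, Pt_sum]
  apply sum_congr rfl
  intro z _
  exact (Pt_semi I τ).smul t (φ z) _ ω

/-- intertwining (uniqueness for linear ODEs): both sides satisfy `ℓ' = ℓ ∘ L'` -/
theorem Pt_comp {ι' : Type} (I : Finset ι) (τ : ι → Ω → Ω) (I' : Finset ι') (τ' : ι' → Ω' → Ω')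
    (p : Ω → Ω') (h : ∀ φ : Ω' → ℝ, ∀ ω, Lg I τ (fun x => φ (p x)) ω = Lg I' τ' φ (p ω))
    (t : ℝ) (φ : Ω' → ℝ) (ω : Ω) :
    Pt I τ t (fun x => φ (p x)) ω = Pt I' τ' t φ (p ω) := by
  classical
  have hf : ∀ s : ℝ, HasDerivAt
      (fun s : ℝ => (fun y : Ω' => Pt I τ s (fun x => if p x = y then 1 else 0) ω))
      (semiA I' τ' (fun y : Ω' => Pt I τ s (fun x => if p x = y then 1 else 0) ω)) s := by
    intro s
    rw [hasDerivAt_pi]
    intro y
    have h1 := (Pt_semi I τ).deriv (fun x => if p x = y then 1 else 0) ω s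
    refine h1.congr_deriv ?_
    have h2 : Lg I τ (fun x => if p x = y then (1 : ℝ) else 0) =
        fun x => Lg I' τ' (fun x => if x = y then 1 else 0) (p x) := by
      funext x
      exact h (fun x => if x = y then 1 else 0) x
    rw [h2, semiA_apply, semi_expand]
  have hg : ∀ s : ℝ, HasDerivAt
      (fun s : ℝ => (fun y : Ω' => Pt I' τ' s (fun x => if x = y then 1 else 0) (p ω)))
      (semiA I' τ' (fun y : Ω' => Pt I' τ' s (fun x => if x = y then 1 else 0) (p ω))) s := by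
    intro s
    rw [hasDerivAt_pi]
    intro y
    have h1 := (Pt_semi I' τ').deriv (fun x => if x = y then 1 else 0) (p ω) s
    refine h1.congr_deriv ?_
    rw [semiA_apply]
    exact semi_expand I' τ' (fun x : Ω' => x) s _ (p ω)
  have heq : (fun y : Ω' => Pt I τ 0 (fun x => if p x = y then (1 : ℝ) else 0) ω) =
      fun y : Ω' => Pt I' τ' 0 (fun x => if x = y then (1 : ℝ) else 0) (p ω) := by
    funext y
    rw [(Pt_semi I τ).zero, (Pt_semi I' τ').zero]
  have hu := ODE_solution_unique_univ (v := fun _ => semiA I' τ') (s := fun _ => Set.univ)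
    (K := ‖semiA I' τ'‖₊) (t₀ := 0)
    (f := fun s : ℝ => (fun y : Ω' => Pt I τ s (fun x => if p x = y then 1 else 0) ω))
    (g := fun s : ℝ => (fun y : Ω' => Pt I' τ' s (fun x => if x = y then 1 else 0) (p ω)))
    (fun _ => (semiA I' τ').lipschitz.lipschitzOnWith)
    (fun s => ⟨hf s, Set.mem_univ _⟩) (fun s => ⟨hg s, Set.mem_univ _⟩) heq
  have hut := congrFun hu t
  have e1 := semi_expand I τ p t φ ω
  have e2 := semi_expand I' τ' (fun x : Ω' => x) t φ (p ω)
  rw [e1]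
  refine Eq.trans ?_ e2.symm
  apply sum_congr rfl
  intro z _
  have := congrFun hut z
  rw [this]

/-- harmonic functions -/
theorem Pt_harm (I : Finset ι) (τ : ι → Ω → Ω) {φ : Ω → ℝ} (h : ∀ ω, Lg I τ φ ω = 0) (t : ℝ)
    (ω : Ω) : Pt I τ t φ ω = φ ω := by
  have h0 : Lg I τ φ = fun _ => 0 := funext h
  have hd : ∀ s : ℝ, HasDerivAt (fun t => Pt I τ t φ ω) 0 s := by
    intro s
    have := (Pt_semi I τ).deriv φ ω s
    rw [h0, semi_Pt_zero_fun] at this
    exact this
  have h2 := is_const_of_deriv_eq_zero (fun s => (hd s).differentiableAt) (fun s => (hd s).deriv) t 0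
  rw [h2, (Pt_semi I τ).zero]

/-- Cauchy-Schwarz -/
theorem Pt_sq_le (I : Finset ι) (τ : ι → Ω → Ω) (φ : Ω → ℝ) {t : ℝ} (ht : 0 ≤ t) (ω : Ω) :
    (Pt I τ t φ ω) ^ 2 ≤ Pt I τ t (fun x => φ x ^ 2) ω := by
  set c := Pt I τ t φ ω with hc
  have hP := Pt_semi I τ
  have h1 := hP.mono Set.univ (fun _ _ _ _ => Set.mem_univ _) t ht (fun _ => 0)
    (fun x => φ x ^ 2 + ((-2 * c) * φ x + c ^ 2 * 1)) (fun x _ => by
      have : 0 ≤ (φ x - c) ^ 2 := sq_nonneg _
      nlinarith) ω (Set.mem_univ _)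
  have h2 : Pt I τ t (fun x => φ x ^ 2 + ((-2 * c) * φ x + c ^ 2 * 1)) ω =
      Pt I τ t (fun x => φ x ^ 2) ω + ((-2 * c) * c + c ^ 2 * 1) := by
    rw [hP.add t (fun x => φ x ^ 2) (fun x => (-2 * c) * φ x + c ^ 2 * 1) ω,
      hP.add t (fun x => (-2 * c) * φ x) (fun x => c ^ 2 * 1) ω,
      hP.smul t (-2 * c) φ ω, hP.smul t (c ^ 2) (fun _ => 1) ω, hP.one, ← hc]
  rw [semi_Pt_zero_fun, h2] at h1
  nlinarith

end Vale.Agent.P046S
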