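import Mathlib

/-!
P046 sharp constant, module A1 (Semi0): finite continuous time Markov chains.

State space `Ω` (finite), independent rate one clocks `i ∈ I`; when clock `i` rings the state `ω`
becomes `τ i ω`. Generator `Lg I τ φ ω = ∑ i ∈ I, (φ (τ i ω) - φ ω)`. The semigroup is
`e^{-ct} exp (t B)`, `c = card I`, where `B` is `φ ↦ ∑ i, φ ∘ τ i`, so all terms of its exponential
series preserve positivity on a set closed under all `τ i`.
-/

namespace Vale.Agent.P046S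

open Finset

variable {Ω Ω' ι : Type} [Fintype Ω] [Fintype Ω']

/-- generator -/
def Lg (I : Finset ι) (τ : ι → Ω → Ω) (φ : Ω → ℝ) (ω : Ω) : ℝ := ∑ i ∈ I, (φ (τ i ω) - φ ω)

/-- the properties of the semigroup -/
structure IsSemi (I : Finset ι) (τ : ι → Ω → Ω) (P : ℝ → (Ω → ℝ) → Ω → ℝ) : Prop where
  zero : ∀ φ ω, P 0 φ ω = φ ω
  add : ∀ t φ ψ ω, P t (fun x => φ x + ψ x) ω = P t φ ω + P t ψ ω
  smul : ∀ t (c : ℝ) φ ω, P t (fun x => c * φ x) ω = c * P t φ ω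
  one : ∀ t ω, P t (fun _ => 1) ω = 1
  deriv : ∀ φ ω t, HasDerivAt (fun t => P t φ ω) (P t (Lg I τ φ) ω) t
  mono : ∀ A : Set Ω, (∀ i ∈ I, ∀ ω ∈ A, τ i ω ∈ A) → ∀ t, 0 ≤ t → ∀ φ ψ : Ω → ℝ,
    (∀ ω ∈ A, φ ω ≤ ψ ω) → ∀ ω ∈ A, P t φ ω ≤ P t ψ ω

/-- the operator `φ ↦ ∑ i, φ ∘ τ i` -/
noncomputable def semi0B (I : Finset ι) (τ : ι → Ω → Ω) : (Ω → ℝ) →L[ℝ] (Ω → ℝ) :=
  LinearMap.toContinuousLinearMap
    { toFun := fun φ ω => ∑ i ∈ I, φ (τ i ω)
      map_add' := by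
        intro φ ψ
        funext ω
        simp only [Pi.add_apply, sum_add_distrib]
      map_smul' := by
        intro c φ
        funext ω
        simp only [Pi.smul_apply, smul_eq_mul, mul_sum, RingHom.id_apply] }

theorem semi0B_apply (I : Finset ι) (τ : ι → Ω → Ω) (φ : Ω → ℝ) (ω : Ω) :
    semi0B I τ φ ω = ∑ i ∈ I, φ (τ i ω) := rfl

/-- the semigroup -/
noncomputable def semi0P (I : Finset ι) (τ : ι → Ω → Ω) (t : ℝ) (φ : Ω → ℝ) (ω : Ω) : ℝ :=
  Real.exp (-((I.card : ℝ) * t)) * (NormedSpace.exp (t • semi0B I τ) φ) ω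

theorem semi0_deriv (I : Finset ι) (τ : ι → Ω → Ω) (φ : Ω → ℝ) (ω : Ω) (t : ℝ) :
    HasDerivAt (fun t => semi0P I τ t φ ω) (semi0P I τ t (Lg I τ φ) ω) t := by
  have h1 := hasDerivAt_exp_smul_const (𝕂 := ℝ) (semi0B I τ) t
  have h2 : HasDerivAt (fun u : ℝ => (NormedSpace.exp (u • semi0B I τ) φ) ω)
      ((NormedSpace.exp (t • semi0B I τ) (semi0B I τ φ)) ω) t := by
    have h3 := h1.clm_apply (hasDerivAt_const t φ)
    have h4 := (hasDerivAt_pi.1 h3) ω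
    simpa using h4
  have h5 : HasDerivAt (fun u : ℝ => Real.exp (-((I.card : ℝ) * u)))
      (Real.exp (-((I.card : ℝ) * t)) * (-(I.card : ℝ))) t := by
    apply HasDerivAt.exp
    have h8 := (hasDerivAt_id t).const_mul (-(I.card : ℝ))
    refine (h8.congr_deriv (by ring)).congr_of_eventuallyEq ?_
    filter_upwards with u
    simp only [id]
    ring
  have h6 := h5.mul h2
  refine h6.congr_deriv ?_
  unfold semi0P
  have h7 : Lg I τ φ = semi0B I τ φ - (I.card : ℝ) • φ := by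
    funext x
    rw [Pi.sub_apply, semi0B_apply, Pi.smul_apply, smul_eq_mul]
    unfold Lg
    rw [sum_sub_distrib, sum_const, nsmul_eq_mul]
  rw [h7, map_sub, map_smul, Pi.sub_apply, Pi.smul_apply, smul_eq_mul]
  ring

theorem semi0_pow_nonneg (I : Finset ι) (τ : ι → Ω → Ω) (A : Set Ω)
    (hA : ∀ i ∈ I, ∀ ω ∈ A, τ i ω ∈ A) (n : ℕ) :
    ∀ φ : Ω → ℝ, (∀ ω ∈ A, 0 ≤ φ ω) → ∀ ω ∈ A, 0 ≤ ((semi0B I τ) ^ n) φ ω := by
  induction n with
  | zero =>
    intro φ hφ ω hω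
    rw [pow_zero]
    exact hφ ω hω
  | succ n ih =>
    intro φ hφ ω hω
    rw [pow_succ]
    apply ih (semi0B I τ φ) _ ω hω
    intro x hx
    rw [semi0B_apply]
    exact sum_nonneg fun i hi => hφ _ (hA i hi x hx)

theorem semi0_nonneg (I : Finset ι) (τ : ι → Ω → Ω) (A : Set Ω)
    (hA : ∀ i ∈ I, ∀ ω ∈ A, τ i ω ∈ A) {t : ℝ} (ht : 0 ≤ t) (φ : Ω → ℝ)
    (hφ : ∀ ω ∈ A, 0 ≤ φ ω) (ω : Ω) (hω : ω ∈ A) : 0 ≤ semi0P I τ t φ ω := by
  unfold semi0P
  apply mul_nonneg (Real.exp_pos _).le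
  have h1 := NormedSpace.exp_series_hasSum_exp' (𝕂 := ℝ) (t • semi0B I τ)
  have h2 := ((ContinuousLinearMap.apply ℝ (Ω → ℝ) φ).hasSum h1)
  have h3 := (Pi.hasSum.1 h2) ω
  refine h3.nonneg ?_
  intro n
  have h4 : ((ContinuousLinearMap.apply ℝ (Ω → ℝ) φ)
      (((n.factorial : ℝ))⁻¹ • (t • semi0B I τ) ^ n)) ω =
      ((n.factorial : ℝ))⁻¹ * (t ^ n * ((semi0B I τ) ^ n) φ ω) := by
    rw [smul_pow]
    simp
  rw [h4]
  have h5 := semi0_pow_nonneg I τ A hA n φ hφ ω hω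
  positivity

theorem exists_semi (I : Finset ι) (τ : ι → Ω → Ω) : ∃ P, IsSemi I τ P := by
  have hadd : ∀ t (φ ψ : Ω → ℝ) ω, semi0P I τ t (fun x => φ x + ψ x) ω =
      semi0P I τ t φ ω + semi0P I τ t ψ ω := by
    intro t φ ψ ω
    unfold semi0P
    have : (fun x => φ x + ψ x) = φ + ψ := rfl
    rw [this, map_add, Pi.add_apply, mul_add]
  have hsmul : ∀ t (c : ℝ) (φ : Ω → ℝ) ω, semi0P I τ t (fun x => c * φ x) ω =
      c * semi0P I τ t φ ω := by
    intro t c φ ω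
    unfold semi0P
    have : (fun x => c * φ x) = c • φ := rfl
    rw [this, map_smul, Pi.smul_apply, smul_eq_mul]
    ring
  have hzero : ∀ (φ : Ω → ℝ) ω, semi0P I τ 0 φ ω = φ ω := by
    intro φ ω
    unfold semi0P
    simp
  refine ⟨semi0P I τ, hzero, hadd, hsmul, ?_, semi0_deriv I τ, ?_⟩
  · intro t ω
    have h0 : Lg I τ (fun _ : Ω => (1 : ℝ)) = fun _ => 0 := by
      funext x
      unfold Lg
      simp
    have h1 : ∀ t : ℝ, semi0P I τ t (fun _ => 0) ω = 0 := by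
      intro t
      have := hsmul t 0 (fun _ => 0) ω
      simpa using this
    have hd : ∀ s : ℝ, HasDerivAt (fun t => semi0P I τ t (fun _ => 1) ω) 0 s := by
      intro s
      have := semi0_deriv I τ (fun _ => 1) ω s
      rw [h0, h1] at this
      exact this
    have h2 := is_const_of_deriv_eq_zero (fun s => (hd s).differentiableAt) (fun s => (hd s).deriv) t 0
    rw [h2, hzero]
  · intro A hA t ht φ ψ h ω hω
    have h1 := semi0_nonneg I τ A hA ht (fun x => ψ x + (-1) * φ x)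
      (fun x hx => by have := h x hx; linarith) ω hω
    rw [hadd, hsmul] at h1
    linarith

end Vale.Agent.P046S
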